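import Vale.Agent.P356G.SCa0

/- Marginals and traces on one copy. Use `amp`, `rho_amp`, `amp_lift`, `amp_colift`, `ip_lift`,
`Loc.exists_lift`, `sum_glue` of P356/Loc. `cC Y` is the dimension of the complement of `Y`;
`trace (lift Y m) = cC Y * trace m`.
`mg_pt`: entrywise, `trace (mg Y τ * K) = ∑ s t (equal off Y), ∑ c, τ (s on Y, c) star τ (t on Y, c) K t s`;
or write `K = ∑ (units on B \ B') * (operators on B')`, and use `trace (mg Y τ * M) = cC Y * ip τ M τ`
for `M` local on `Y` and that a matrix unit on sites outside `Y ∪ ..` only contributes its trace.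
`mg_up`: `qf (rho S χ) x = nsq ((amp S χ)ᴴ x)`; split `x = ∑ i, x i ⊗ e i` over the configurations `i`
of `S \ S'` and use Cauchy-Schwarz. -/

namespace Vale.Agent.P356G

open Matrix Vale.Agent.P356

variable {Λ Q : Type} [Fintype Λ] [DecidableEq Λ] [Fintype Q] [DecidableEq Q] [Nonempty Q]

namespace SCaA

theorem tr_mg {Y : Finset Λ} {M : Matrix (Λ → Q) (Λ → Q) ℂ} (hM : Loc (fun z => z ∈ Y) M)
    (χ : (Λ → Q) → ℂ) : trace (mg Y χ * M) = (cC Q Y : ℂ) * ip χ M χ := by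
  obtain ⟨m, rfl⟩ := hM.exists_lift
  rw [mg, ← lift_mul, trace_lift, ip_lift, ← rho_amp, trace_mul_comm]

/-- partial trace over `D`, tensor the identity on `D` -/
noncomputable def pt (D : Finset Λ) (K : Matrix (Λ → Q) (Λ → Q) ℂ) : Matrix (Λ → Q) (Λ → Q) ℂ :=
  colift D fun c c' => ∑ d, K (glue D d c) (glue D d c')

omit [Nonempty Q] in
theorem pt_loc {B B' : Finset Λ} (hB : B' ⊆ B) {K : Matrix (Λ → Q) (Λ → Q) ℂ}
    (hK : Loc (fun z => z ∈ B) K) : Loc (fun z => z ∈ B') (pt (B \ B') K) := by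
  refine ⟨fun s t x hx hne => ?_, fun s t s' t' h1 h2 h3 h4 => ?_⟩
  · simp only [pt, colift]
    split_ifs with h
    · have hxD : x ∉ B \ B' := fun hd => hne ((loc_res_iff _ s t).1 h x hd)
      have hxB : x ∉ B := fun hb => hxD (Finset.mem_sdiff.2 ⟨hb, hx⟩)
      refine Finset.sum_eq_zero fun d _ => hK.1 _ _ x hxB ?_
      simpa only [glue, dif_neg hxD, cores] using hne
    · rfl
  · simp only [pt, colift]
    rw [if_pos ((loc_res_iff _ s t).2 fun x hx => h3 x (Finset.mem_sdiff.1 hx).2),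
      if_pos ((loc_res_iff _ s' t').2 fun x hx => h4 x (Finset.mem_sdiff.1 hx).2)]
    refine Finset.sum_congr rfl fun d _ => hK.2 _ _ _ _ (fun x hx => ?_) (fun x hx => ?_)
      (fun x hx => ?_) (fun x hx => ?_)
    · by_cases hd : x ∈ B \ B'
      · simp only [glue, dif_pos hd]
      · simp only [glue, dif_neg hd, cores]
        exact h1 x (by by_contra h; exact hd (Finset.mem_sdiff.2 ⟨hx, h⟩))
    · by_cases hd : x ∈ B \ B'
      · simp only [glue, dif_pos hd]
      · simp only [glue, dif_neg hd, cores]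
        exact h2 x (by by_contra h; exact hd (Finset.mem_sdiff.2 ⟨hx, h⟩))
    · have hd : x ∉ B \ B' := fun h => hx (Finset.mem_sdiff.1 h).1
      simp only [glue, dif_neg hd, cores]
      exact h3 x fun h => hx (hB h)
    · have hd : x ∉ B \ B' := fun h => hx (Finset.mem_sdiff.1 h).1
      simp only [glue, dif_neg hd, cores]
      exact h4 x fun h => hx (hB h)

omit [Nonempty Q] in
theorem tr_colift (D : Finset Λ) (m : Matrix ({x // x ∉ D} → Q) ({x // x ∉ D} → Q) ℂ)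
    (K : Matrix (Λ → Q) (Λ → Q) ℂ) :
    trace (colift D m * K) = ∑ d, ∑ c, ∑ c', m c c' * K (glue D d c') (glue D d c) := by
  simp only [trace, diag, mul_apply]
  rw [sum_glue D]
  refine Finset.sum_congr rfl fun d _ => Finset.sum_congr rfl fun c _ => ?_
  rw [sum_glue D, Finset.sum_comm]
  refine Finset.sum_congr rfl fun c' _ => ?_
  simp [colift, res_glue, cores_glue]

theorem pt_trace {D : Finset Λ} {M : Matrix (Λ → Q) (Λ → Q) ℂ} (hM : Loc (fun z => z ∉ D) M)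
    (K : Matrix (Λ → Q) (Λ → Q) ℂ) :
    trace (M * pt D K) = (Fintype.card Q : ℂ) ^ D.card * trace (M * K) := by
  obtain ⟨m, rfl⟩ := hM.exists_colift
  rw [tr_colift, tr_colift]
  have e : ∀ d : {x // x ∈ D} → Q, ∑ c, ∑ c', m c c' * pt D K (glue D d c') (glue D d c) =
      ∑ d, ∑ c, ∑ c', m c c' * K (glue D d c') (glue D d c) := by
    intro d
    rw [Finset.sum_comm (f := fun d c => ∑ c', m c c' * K (glue D d c') (glue D d c))]
    refine Finset.sum_congr rfl fun c _ => ?_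
    rw [Finset.sum_comm]
    refine Finset.sum_congr rfl fun c' _ => ?_
    simp [pt, colift, res_glue, cores_glue, Finset.mul_sum]
  rw [Finset.sum_congr rfl fun d _ => e d, Finset.sum_const, nsmul_eq_mul]
  simp

/-- matrix unit on `D` applied to a vector -/
def mv (D : Finset Λ) (d d' : {x // x ∈ D} → Q) (χ : (Λ → Q) → ℂ) : (Λ → Q) → ℂ :=
  fun s => if res D s = d then χ (glue D d' (cores D s)) else 0

omit [Nonempty Q] in
theorem ip_glue (D : Finset Λ) (K : Matrix (Λ → Q) (Λ → Q) ℂ) (v : (Λ → Q) → ℂ) :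
    ip v K v = ∑ a, ∑ c, ∑ b, ∑ c',
      star (v (glue D a c)) * (K (glue D a c) (glue D b c') * v (glue D b c')) := by
  simp only [ip, dotProduct, mulVec, Pi.star_apply]
  rw [sum_glue D]
  refine Finset.sum_congr rfl fun a _ => Finset.sum_congr rfl fun c _ => ?_
  rw [sum_glue D, Finset.mul_sum]
  refine Finset.sum_congr rfl fun b _ => ?_
  rw [Finset.mul_sum]

omit [Nonempty Q] in
theorem ip_mv (D : Finset Λ) (K : Matrix (Λ → Q) (Λ → Q) ℂ) (χ : (Λ → Q) → ℂ)
    (d d' : {x // x ∈ D} → Q) :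
    ip (mv D d d' χ) K (mv D d d' χ) = ∑ c, ∑ c',
      star (χ (glue D d' c)) * (K (glue D d c) (glue D d c') * χ (glue D d' c')) := by
  rw [ip_glue D, Finset.sum_eq_single d]
  · refine Finset.sum_congr rfl fun c _ => ?_
    rw [Finset.sum_eq_single d]
    · simp [mv, res_glue, cores_glue]
    · intro b _ hb
      simp [mv, res_glue, hb]
    · simp
  · intro b _ hb
    simp [mv, res_glue, hb]
  · simp

omit [Nonempty Q] in
theorem pt_ip (D : Finset Λ) (K : Matrix (Λ → Q) (Λ → Q) ℂ) (χ : (Λ → Q) → ℂ) :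
    ip χ (pt D K) χ = ∑ d', ∑ d, ip (mv D d d' χ) K (mv D d d' χ) := by
  rw [ip_glue D]
  refine Finset.sum_congr rfl fun a _ => ?_
  simp only [ip_mv]
  rw [Finset.sum_comm (f := fun d c => ∑ c',
      star (χ (glue D a c)) * (K (glue D d c) (glue D d c') * χ (glue D a c')))]
  refine Finset.sum_congr rfl fun c _ => ?_
  rw [Finset.sum_eq_single a]
  · rw [Finset.sum_comm]
    refine Finset.sum_congr rfl fun c' _ => ?_
    simp [pt, colift, res_glue, cores_glue, Finset.mul_sum, Finset.sum_mul]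
  · intro b _ hb
    simp [pt, colift, res_glue, Ne.symm hb]
  · simp

omit [Nonempty Q] in
theorem pt_qf (D : Finset Λ) (K : Matrix (Λ → Q) (Λ → Q) ℂ) (χ : (Λ → Q) → ℂ) :
    qf (pt D K) χ = ∑ d', ∑ d, qf K (mv D d d' χ) := by
  simp only [qf, pt_ip, Complex.re_sum]

omit [Nonempty Q] in
theorem pt_ps (D : Finset Λ) {K : Matrix (Λ → Q) (Λ → Q) ℂ} (hK : Ps K) : Ps (pt D K) := by
  refine ⟨?_, fun v => ?_⟩
  · refine (colift_ct D _).symm.trans (congrArg (colift D) ?_)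
    ext c c'
    change star (∑ d, K (glue D d c') (glue D d c)) = ∑ d, K (glue D d c) (glue D d c')
    rw [star_sum]
    exact Finset.sum_congr rfl fun d _ => hK.1.apply _ _
  · rw [pt_qf]
    exact Finset.sum_nonneg fun _ _ => Finset.sum_nonneg fun _ _ => hK.2 _

theorem qf_sum_le {n ι : Type} [Fintype n] [DecidableEq n] [Fintype ι] {K : Matrix n n ℂ}
    (hK : Ps K) (v : ι → n → ℂ) : qf K (∑ i, v i) ≤ Fintype.card ι * ∑ i, qf K (v i) := by
  rw [← sqrt_ps hK]
  simp only [qf_ct_mul]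
  set X := hf K fun x => (Real.sqrt x : ℂ)
  rw [mulVec_sum, ← nr_sq]
  have h1 := nr_sum Finset.univ fun i => X *ᵥ v i
  have h2 := sq_sum_le_card_mul_sum_sq (s := Finset.univ) (f := fun i => nr (X *ᵥ v i))
  simp only [nr_sq, Finset.card_univ] at h2
  exact (pow_le_pow_left₀ (nr_nonneg _) h1 2).trans h2

omit [Nonempty Q] in
theorem le_pt (D : Finset Λ) {K : Matrix (Λ → Q) (Λ → Q) ℂ} (hK : Ps K) (χ : (Λ → Q) → ℂ) :
    qf K χ ≤ (Fintype.card Q : ℝ) ^ D.card * qf (pt D K) χ := by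
  have e : χ = ∑ d, mv D d d χ := by
    funext s
    rw [Finset.sum_apply, Finset.sum_eq_single (res D s)]
    · simp [mv, glue_res]
    · intro b _ hb
      simp [mv, Ne.symm hb]
    · simp
  have h1 := qf_sum_le hK fun d => mv D d d χ
  rw [← e, card_in] at h1
  refine h1.trans (mul_le_mul_of_nonneg_left ?_ (by positivity))
  rw [pt_qf]
  exact Finset.sum_le_sum fun d _ =>
    Finset.single_le_sum (f := fun d' => qf K (mv D d' d χ)) (fun _ _ => hK.2 _)
      (Finset.mem_univ d)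

omit [Nonempty Q] in
theorem mg_symm (S : Finset Λ) (χ x : (Λ → Q) → ℂ) : qf (mg S χ) x = qf (mg S x) χ := by
  simp only [qf, mg, ip_lift, ← rho_amp]
  rw [trace_mul_comm]

theorem rg_herm (α β : ℝ) (Y : Finset Λ) (ψ : (Λ → Q) → ℂ) : (rg α β Y ψ).IsHermitian := by
  unfold rg
  rw [IsHermitian, conjTranspose_add, conjTranspose_smul, conjTranspose_smul, conjTranspose_one,
    (mg_ps Y ψ).1.eq]
  simp

end SCaA

open SCaA

theorem mg_tr {S : Finset Λ} {M : Matrix (Λ → Q) (Λ → Q) ℂ} (hM : Loc (fun z => z ∈ S) M)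
    {χ : (Λ → Q) → ℂ} {c : ℝ} (hc : Le (mg S χ) c 1) :
    cC Q S * nsq (M *ᵥ χ) ≤ c * (trace (Mᴴ * M)).re := by
  have h1 := hc.trace_mul (mg_ps S χ).1 isHermitian_one (ps_ct_mul M)
  rw [tr_mg (hM.ct.mul hM), Matrix.one_mul, ← Complex.ofReal_natCast, Complex.re_ofReal_mul] at h1
  rw [← qf_ct_mul]
  exact h1

theorem mg_pt {A B B' : Finset Λ} (hd : Disjoint A B) (hB : B' ⊆ B) {K : Matrix (Λ → Q) (Λ → Q) ℂ}
    (hK : Loc (fun z => z ∈ B) K) (τ : (Λ → Q) → ℂ) :
    trace (mg B' τ * K) = (Fintype.card Q : ℂ) ^ A.card * trace (mg (A ∪ B') τ * K) := by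
  have hL := pt_loc hB hK
  have h1 := pt_trace (D := B \ B') ((mg_loc B' τ).mono fun x hx h => (Finset.mem_sdiff.1 h).2 hx) K
  have h2 := pt_trace (D := B \ B') ((mg_loc (A ∪ B') τ).mono fun x hx h => by
    rcases Finset.mem_union.1 hx with hx | hx
    · exact Finset.disjoint_left.1 hd hx (Finset.mem_sdiff.1 h).1
    · exact (Finset.mem_sdiff.1 h).2 hx) K
  rw [tr_mg hL] at h1
  rw [tr_mg (hL.mono fun x hx => Finset.mem_union_right _ hx)] at h2
  rw [cC_union (Finset.disjoint_of_subset_right hB hd)] at h1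
  have hq : (Fintype.card Q : ℂ) ^ (B \ B').card ≠ 0 :=
    pow_ne_zero _ (Nat.cast_ne_zero.2 Fintype.card_ne_zero)
  apply mul_left_cancel₀ hq
  rw [← h1, mul_left_comm, ← h2]
  push_cast
  ring

theorem mg_up {S S' : Finset Λ} (h : S' ⊆ S) {χ : (Λ → Q) → ℂ} {c : ℝ} (hc0 : 0 ≤ c)
    (hc : Le (mg S' χ) c 1) : Le (mg S χ) (Fintype.card Q ^ (S \ S').card * c) 1 := by
  intro x
  have hK := mg_ps S x
  have hL := pt_loc h (mg_loc S x)
  have h1 := hc.trace_mul (mg_ps S' χ).1 isHermitian_one (pt_ps (S \ S') hK)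
  rw [tr_mg hL, pt_trace (loc_one _), Matrix.one_mul, mg, trace_lift, trace_rho,
    cC_union (A := S \ S') Finset.sdiff_disjoint, Finset.sdiff_union_of_subset h] at h1
  have e1 : ∀ (a : ℕ) (w : ℂ), ((a : ℂ) * w).re = a * w.re := fun a w => by simp
  have e2 : ((Fintype.card Q : ℂ) ^ (S \ S').card * ((cC Q S : ℂ) * (nsq x : ℂ))).re =
      ((Fintype.card Q ^ (S \ S').card * cC Q S : ℕ) : ℝ) * nsq x := by
    rw [← Nat.cast_pow, e1, e1, Complex.ofReal_re]
    push_cast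
    ring
  rw [e1, e2] at h1
  have hp : (0 : ℝ) < ((Fintype.card Q ^ (S \ S').card * cC Q S : ℕ) : ℝ) :=
    Nat.cast_pos.2 (Nat.mul_pos (pow_pos Fintype.card_pos _) (cC_pos S))
  have h2 : qf (pt (S \ S') (mg S x)) χ ≤ c * nsq x := by
    rw [mul_left_comm] at h1
    exact le_of_mul_le_mul_left h1 hp
  rw [mg_symm, qf_one, mul_assoc]
  exact (le_pt (S \ S') hK χ).trans (mul_le_mul_of_nonneg_left h2 (by positivity))

/-- the marginal of `rg ^ z ψ` is at most one when `re z = - 1 / 2` -/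
theorem mg_flat {α β : ℝ} (hα : 0 < α) (h0 : 0 ≤ β) (h1 : β ≤ 1) (hab : 1 ≤ α + β) (Y : Finset Λ)
    {ψ χ : (Λ → Q) → ℂ} (hψ : nsq ψ = 1) (hχ : mg Y χ = mg Y ψ) {z : ℂ} (hz : z.re = -1 / 2) :
    Le (mg Y (cpw (rg α β Y ψ) z *ᵥ χ)) 1 1 := by
  intro v
  have hR := (rg_spIn α h0 Y hψ).pd hα
  have hl : Loc (fun x => x ∈ Y) (cpw (rg α β Y ψ) z) := hf_loc (rg_loc α β Y ψ) _
  have e : cpw (rg α β Y ψ) z * rg α β Y ψ * (cpw (rg α β Y ψ) z)ᴴ = 1 := by
    have e0 : z + 1 + star z = 0 := by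
      apply Complex.ext
      · simp [hz]
        norm_num
      · simp
    rw [cpw_ct]
    nth_rewrite 2 [← cpw_one hR]
    rw [← cpw_add hR.1, ← cpw_add hR.1, e0, cpw_zero hR.1]
  rw [mg_mul hl, hχ, ← e]
  have k : ∀ A : Matrix (Λ → Q) (Λ → Q) ℂ,
      qf (cpw (rg α β Y ψ) z * A * (cpw (rg α β Y ψ) z)ᴴ) v =
        qf A ((cpw (rg α β Y ψ) z)ᴴ *ᵥ v) := fun A => by
    rw [← qf_conj, conjTranspose_conjTranspose]
  rw [k, k]
  generalize (cpw (rg α β Y ψ) z)ᴴ *ᵥ v = w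
  have h2 := mg_le Y ψ w
  rw [hψ, qf_one] at h2
  have h3 := nsq_nonneg w
  unfold rg
  rw [qf_add, qf_smul, qf_smul, qf_one]
  nlinarith [mul_le_mul_of_nonneg_left h2 (sub_nonneg.2 h1),
    mul_nonneg (sub_nonneg.2 hab) h3]

/-- imaginary powers do not change the marginal -/
theorem mg_imag {α β : ℝ} (Y : Finset Λ) (ψ : (Λ → Q) → ℂ) {z : ℂ} (hz : z.re = 0) :
    mg Y (cpw (rg α β Y ψ) z *ᵥ ψ) = mg Y ψ := by
  have hl : Loc (fun x => x ∈ Y) (cpw (rg α β Y ψ) z) := hf_loc (rg_loc α β Y ψ) _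
  have hc : Commute (mg Y ψ) (rg α β Y ψ) :=
    ((Commute.one_right _).smul_right _).add_right ((Commute.refl _).smul_right _)
  rw [mg_mul hl, ← (cpw_comm hc z).eq, Matrix.mul_assoc, cpw_uni (rg_herm α β Y ψ) hz,
    Matrix.mul_one]


end Vale.Agent.P356G
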