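import Vale.Agent.P356G.D2
import Vale.Agent.P356G.SCa

/- The bilayer. Basic tool: the equivalence `s ↦ (lay σ s, lay (opp σ) s)` between configurations of
`Bool × Λ` and pairs of configurations of `Λ` (inverse `(x, y) ↦ fun p => if p.1 = σ p.2 then x p.2 else y p.2`),
giving `sum_lay`; `opp (opp σ) = σ`. `gs_bp`: `H - E - Δ (1 - |Ω><Ω|)` is positive (`GS`), `emb_ps` on both
layers; with the commuting projectors `p = emb σ (ΩΩ*)`, `p' = emb (opp σ) (ΩΩ*)`,
`(1 - p) + (1 - p') - (1 - p p') = (1 - p) (1 - p') ≥ 0` and `p p' = |bp Ω Ω><bp Ω Ω|`. -/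

namespace Vale.Agent.P356G

open Matrix Vale.Agent.P356

variable {Λ Q : Type} [Fintype Λ] [DecidableEq Λ] [Fintype Q] [DecidableEq Q] [Nonempty Q]
  (σ : Λ → Bool)

theorem opp_opp : opp (opp σ) = σ := by
  funext z
  simp [opp]
namespace Bil0A

open scoped Kronecker ComplexOrder

/-- configurations of the bilayer as pairs -/
def eqv : (Bool × Λ → Q) ≃ (Λ → Q) × (Λ → Q) where
  toFun s := (lay σ s, lay (opp σ) s)
  invFun x := fun p => if p.1 = σ p.2 then x.1 p.2 else x.2 p.2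
  left_inv s := by
    funext p
    obtain ⟨b, z⟩ := p
    by_cases h : b = σ z
    · simp [lay, h]
    · have h' : b = !σ z := by
        cases b <;> cases hz : σ z <;> simp_all
      simp [lay, opp, h']
  right_inv x := by
    ext z <;> simp [lay, opp]

theorem emb_eq (O : Matrix (Λ → Q) (Λ → Q) ℂ) :
    emb σ O = (O ⊗ₖ (1 : Matrix (Λ → Q) (Λ → Q) ℂ)).submatrix (eqv σ) (eqv σ) := by
  ext s t
  simp [emb, eqv, one_apply]

theorem emb_eq' (O : Matrix (Λ → Q) (Λ → Q) ℂ) :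
    emb (opp σ) O = ((1 : Matrix (Λ → Q) (Λ → Q) ℂ) ⊗ₖ O).submatrix (eqv σ) (eqv σ) := by
  ext s t
  simp [emb, eqv, one_apply, opp_opp]

theorem qf_rank {n : Type} [Fintype n] (Ω u : n → ℂ) :
    qf (vecMulVec Ω (star Ω)) u = ‖star Ω ⬝ᵥ u‖ ^ 2 := by
  have e : star u ⬝ᵥ Ω = star (star Ω ⬝ᵥ u) := by rw [star_dotProduct]
  rw [qf, ip, vecMulVec_mulVec, op_smul_eq_smul, dotProduct_smul, e, smul_eq_mul, Complex.star_def,
    Complex.mul_conj', ← Complex.ofReal_pow, Complex.ofReal_re]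

theorem prj_rank {n : Type} [Fintype n] [DecidableEq n] {Ω : n → ℂ} (h : nsq Ω = 1) :
    Prj (vecMulVec Ω (star Ω)) := by
  refine ⟨?_, ?_⟩
  · ext i j
    simp [vecMulVec_apply, mul_comm]
  · rw [vecMulVec_mul_vecMulVec, ← nsq_eq, h]
    simp

end Bil0A

open Bil0A
open scoped Kronecker ComplexOrder

theorem sum_lay {β : Type} [AddCommMonoid β] (f : (Λ → Q) → (Λ → Q) → β) :
    ∑ s : Bool × Λ → Q, f (lay σ s) (lay (opp σ) s) = ∑ x, ∑ y, f x y := by
  rw [← Fintype.sum_prod_type']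
  exact (eqv σ).sum_comp fun x => f x.1 x.2
theorem bp_opp (u v : (Λ → Q) → ℂ) : bp (opp σ) u v = bp σ v u := by
  funext s
  rw [bp, bp, opp_opp, mul_comm]
theorem dot_bp (u v u' v' : (Λ → Q) → ℂ) :
    star (bp σ u v) ⬝ᵥ bp σ u' v' = (star u ⬝ᵥ u') * (star v ⬝ᵥ v') := by
  simp only [dotProduct, Pi.star_apply, bp, star_mul']
  rw [sum_lay σ fun x y => star (u x) * star (v y) * (u' x * v' y), Finset.sum_mul_sum]
  exact Finset.sum_congr rfl fun _ _ => Finset.sum_congr rfl fun _ _ => by ring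
theorem nsq_bp (u v : (Λ → Q) → ℂ) : nsq (bp σ u v) = nsq u * nsq v := by
  have h := dot_bp σ u v u v
  rw [← nsq_eq, ← nsq_eq, ← nsq_eq] at h
  exact_mod_cast h
theorem emb_bp (O : Matrix (Λ → Q) (Λ → Q) ℂ) (u v : (Λ → Q) → ℂ) :
    emb σ O *ᵥ bp σ u v = bp σ (O *ᵥ u) v := by
  funext s
  simp only [mulVec, dotProduct, bp, emb]
  rw [sum_lay σ fun x y => (if lay (opp σ) s = y then O (lay σ s) x else 0) * (u x * v y),
    Finset.sum_mul]
  refine Finset.sum_congr rfl fun x _ => ?_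
  simp [mul_assoc]
theorem emb_mul (O O' : Matrix (Λ → Q) (Λ → Q) ℂ) : emb σ (O * O') = emb σ O * emb σ O' := by
  rw [emb_eq, emb_eq, emb_eq, submatrix_mul_equiv, ← mul_kronecker_mul, Matrix.one_mul]
theorem emb_add (O O' : Matrix (Λ → Q) (Λ → Q) ℂ) : emb σ (O + O') = emb σ O + emb σ O' := by
  ext s t
  simp only [emb, Matrix.add_apply]
  split_ifs <;> simp
theorem emb_sub (O O' : Matrix (Λ → Q) (Λ → Q) ℂ) : emb σ (O - O') = emb σ O - emb σ O' := by
  ext s t
  simp only [emb, Matrix.sub_apply]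
  split_ifs <;> simp
theorem emb_smul (c : ℂ) (O : Matrix (Λ → Q) (Λ → Q) ℂ) : emb σ (c • O) = c • emb σ O := by
  ext s t
  simp only [emb, Matrix.smul_apply]
  split_ifs <;> simp
theorem emb_sum {ι : Type} (S : Finset ι) (O : ι → Matrix (Λ → Q) (Λ → Q) ℂ) :
    emb σ (∑ i ∈ S, O i) = ∑ i ∈ S, emb σ (O i) := by
  ext s t
  simp only [emb, Matrix.sum_apply]
  split_ifs <;> simp
theorem emb_one : emb σ (1 : Matrix (Λ → Q) (Λ → Q) ℂ) = 1 := by
  rw [emb_eq, one_kronecker_one, submatrix_one_equiv]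
theorem emb_ct (O : Matrix (Λ → Q) (Λ → Q) ℂ) : (emb σ O)ᴴ = emb σ Oᴴ := by
  ext s t
  simp only [emb, conjTranspose_apply, eq_comm (a := lay (opp σ) t)]
  split_ifs <;> simp
theorem emb_comm (O O' : Matrix (Λ → Q) (Λ → Q) ℂ) : Commute (emb σ O) (emb (opp σ) O') := by
  rw [Commute, SemiconjBy, emb_eq', emb_eq, submatrix_mul_equiv, submatrix_mul_equiv,
    ← mul_kronecker_mul, ← mul_kronecker_mul]
  simp
theorem emb_ps {O : Matrix (Λ → Q) (Λ → Q) ℂ} (h : Ps O) : Ps (emb σ O) := by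
  rw [ps_iff] at h ⊢
  rw [emb_eq]
  exact (h.kronecker PosSemidef.one).submatrix _
theorem emb_le {O : Matrix (Λ → Q) (Λ → Q) ℂ} (hO : O.IsHermitian) {x : ℝ} (h : Le O x 1) :
    Le (emb σ O) x 1 := by
  have h1 : Ps ((x : ℂ) • 1 - O) := ⟨by
    rw [IsHermitian, conjTranspose_sub, conjTranspose_smul, conjTranspose_one, hO.eq]
    simp, fun v => by
      rw [qf_sub, qf_smul]
      exact sub_nonneg.2 (h v)⟩
  intro v
  have h2 := (emb_ps σ h1).2 v
  rw [emb_sub, emb_smul, emb_one, qf_sub, qf_smul] at h2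
  exact sub_nonneg.1 h2
theorem emb_prj {O : Matrix (Λ → Q) (Λ → Q) ℂ} (h : Prj O) : Prj (emb σ O) :=
  ⟨by rw [IsHermitian, emb_ct, h.1.eq], by rw [← emb_mul, h.2]⟩
theorem emb_loc {p : Λ → Prop} {O : Matrix (Λ → Q) (Λ → Q) ℂ} (h : Loc p O) :
    Loc (fun y : Bool × Λ => y.1 = σ y.2 ∧ p y.2) (emb σ O) := by
  have k : ∀ s t : Bool × Λ → Q, (∀ x : Bool × Λ, ¬ (x.1 = σ x.2 ∧ p x.2) → s x = t x) →
      lay (opp σ) s = lay (opp σ) t := fun s t h3 =>
    funext fun z => h3 (opp σ z, z) fun h' => by simpa [opp] using h'.1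
  refine ⟨fun s t x hx hne => ?_, fun s t s' t' h1 h2 h3 h4 => ?_⟩
  · rw [emb]
    split_ifs with he
    · obtain ⟨b, z⟩ := x
      by_cases hb : b = σ z
      · subst hb
        exact h.1 _ _ z (fun hp => hx ⟨rfl, hp⟩) hne
      · have h' : b = opp σ z := by
          rw [opp]
          cases b <;> cases hz : σ z <;> simp_all
        subst h'
        exact absurd (congrFun he z) hne
    · rfl
  · rw [emb, emb, if_pos (k s t h3), if_pos (k s' t' h4)]
    exact h.2 _ _ _ _ (fun z hz => h1 (σ z, z) ⟨rfl, hz⟩) (fun z hz => h2 (σ z, z) ⟨rfl, hz⟩)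
      (fun z hz => h3 (σ z, z) fun h' => hz h'.2) (fun z hz => h4 (σ z, z) fun h' => hz h'.2)
theorem loc_true (O : Matrix (Λ → Q) (Λ → Q) ℂ) : Loc (fun _ => True) O :=
  ⟨fun _ _ _ hx => absurd trivial hx, fun _ _ _ _ h1 h2 _ _ => by
    rw [funext fun x => h1 x trivial, funext fun x => h2 x trivial]⟩
/-- the range of the rank one projector on the other world consists of product vectors -/
theorem emb_rank (Φ : (Λ → Q) → ℂ) (w : (Bool × Λ → Q) → ℂ) :
    ∃ χ, emb (opp σ) (vecMulVec Φ (star Φ)) *ᵥ w = bp σ χ Φ := by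
  refine ⟨fun a => ∑ t, (if a = lay σ t then star (Φ (lay (opp σ) t)) else 0) * w t, ?_⟩
  funext s
  simp only [mulVec, dotProduct, bp, emb, opp_opp, vecMulVec_apply, Pi.star_apply, Finset.sum_mul]
  refine Finset.sum_congr rfl fun t _ => ?_
  split_ifs <;> ring
theorem gs_bp {H : Matrix (Λ → Q) (Λ → Q) ℂ} (hH : H.IsHermitian) {Ω : (Λ → Q) → ℂ} {E Δ : ℝ}
    (hΔ : 0 ≤ Δ) (h : GS H Ω E Δ) : GS (emb σ H + emb (opp σ) H) (bp σ Ω Ω) (2 * E) Δ := by
  obtain ⟨h1, h2, h3⟩ := h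
  refine ⟨by rw [nsq_bp, h1, mul_one], ?_, fun u => ?_⟩
  · have e : emb (opp σ) H *ᵥ bp σ Ω Ω = bp σ Ω (H *ᵥ Ω) := by
      rw [← bp_opp σ Ω Ω, emb_bp, bp_opp]
    rw [add_mulVec, emb_bp, e, h2]
    funext s
    simp only [bp, Pi.add_apply, Pi.smul_apply, smul_eq_mul]
    push_cast
    ring
  · set P := vecMulVec Ω (star Ω) with hP
    have hp : Prj P := prj_rank h1
    have hK : Ps (H - (E : ℂ) • 1 - (Δ : ℂ) • (1 - P)) := ⟨by
      rw [IsHermitian, conjTranspose_sub, conjTranspose_sub, conjTranspose_smul,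
        conjTranspose_smul, conjTranspose_one, hH.eq, hp.compl.1.eq]
      simp, fun v => by
        have := h3 v
        rw [qf_sub, qf_sub, qf_smul, qf_smul, qf_sub, qf_one, qf_rank]
        linarith⟩
    have k : ∀ τ : Λ → Bool, E * nsq u + Δ * (nsq u - qf (emb τ P) u) ≤ qf (emb τ H) u := fun τ => by
      have h4 := (emb_ps τ hK).2 u
      rw [emb_sub, emb_sub, emb_smul, emb_smul, emb_sub, emb_one, qf_sub, qf_sub, qf_smul, qf_smul,
        qf_sub, qf_one] at h4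
      linarith
    have hc := emb_comm σ P P
    have hq := (emb_prj σ hp).compl.mul (emb_prj (opp σ) hp).compl
      ((Commute.one_left _).sub_left ((Commute.one_right _).sub_right hc))
    have e : emb σ P * emb (opp σ) P = vecMulVec (bp σ Ω Ω) (star (bp σ Ω Ω)) := by
      rw [emb_eq', emb_eq, submatrix_mul_equiv, ← mul_kronecker_mul, Matrix.one_mul, Matrix.mul_one]
      ext s t
      simp only [hP, eqv, bp, vecMulVec_apply, submatrix_apply, Equiv.coe_fn_mk, kronecker_apply,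
        Pi.star_apply, star_mul']
      ring
    have h5 : 0 ≤ qf ((1 - emb σ P) * (1 - emb (opp σ) P)) u := by
      rw [hq.qf]
      exact nsq_nonneg _
    rw [sub_mul, mul_sub, mul_sub, Matrix.one_mul, Matrix.one_mul, Matrix.mul_one, e, qf_sub, qf_sub,
      qf_sub, qf_one, qf_rank] at h5
    have h6 := mul_nonneg hΔ h5
    have k1 := k σ
    have k2 := k (opp σ)
    rw [qf_add]
    linarith

end Vale.Agent.P356G
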