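import Vale.Agent.P356G.Bil0

/- Spectra of marginals of product vectors. Configurations on `Y` correspond to pairs of configurations on
`wd σ Y` and `wd (opp σ) Y` (an equivalence `e`, the same for the complements); entrywise
`rho Y (bp σ u v) a b = rho (wd σ Y) u a1 b1 * rho (wd (opp σ) Y) v a2 b2`. With `herm_spec` for both factors
define `V a (i) = V1 a1 i1 * V2 a2 i2`, `l i = l1 i1 * l2 i2` through `e` and use `sum_eig`.
Entropy: `Real.negMulLog_mul` and the eigenvalues sum to one (`ent_basis`, `sum_eig`); moments: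
`Real.mul_rpow` with nonnegative eigenvalues. -/

namespace Vale.Agent.P356G

open Matrix Vale.Agent.P356

variable {Λ Q : Type} [Fintype Λ] [DecidableEq Λ] [Fintype Q] [DecidableEq Q] [Nonempty Q]
  (σ : Λ → Bool)

namespace Bil1A

open Kronecker

/-- configurations on a set of the bilayer are pairs of configurations -/
def E (Q : Type) {P : Bool × Λ → Prop} {p p' : Λ → Prop} (h : ∀ z, p z ↔ P (σ z, z))
    (h' : ∀ z, p' z ↔ P (opp σ z, z)) :
    ({y // P y} → Q) ≃ ({z // p z} → Q) × ({z // p' z} → Q) where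
  toFun a := (fun z => a ⟨(σ z, z), (h z).1 z.2⟩, fun z => a ⟨(opp σ z, z), (h' z).1 z.2⟩)
  invFun x y := if e : y.1.1 = σ y.1.2 then x.1 ⟨y.1.2, (h _).2 (by rw [← e]; exact y.2)⟩
    else x.2 ⟨y.1.2, (h' _).2 (by rw [opp, ← Bool.eq_not_iff.2 e]; exact y.2)⟩
  left_inv a := by
    funext ⟨⟨b, z⟩, hy⟩
    by_cases e : b = σ z
    · subst e
      simp
    · obtain rfl : b = opp σ z := Bool.eq_not_iff.2 e
      simp [e]
  right_inv x := by
    ext z <;> simp [opp]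

omit [Fintype Q] [DecidableEq Q] [Nonempty Q] in
theorem mem_wd (Y : Finset (Bool × Λ)) (z : Λ) : z ∈ wd σ Y ↔ (σ z, z) ∈ Y := by
  simp [wd]

omit [Fintype Q] [DecidableEq Q] [Nonempty Q] in
theorem lay_glue (Y : Finset (Bool × Λ)) (a : {y // y ∈ Y} → Q) (c : {y // y ∉ Y} → Q) :
    lay σ (glue Y a c) = glue (wd σ Y) (fun z => a ⟨(σ z, z), (mem_wd σ Y z).1 z.2⟩)
      fun z => c ⟨(σ z, z), (mem_wd σ Y z).not.1 z.2⟩ := by
  funext z
  simp only [lay, glue]
  by_cases h : (σ z, z) ∈ Y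
  · rw [dif_pos h, dif_pos ((mem_wd σ Y z).2 h)]
  · rw [dif_neg h, dif_neg ((mem_wd σ Y z).not.2 h)]

/-- the splitting of configurations on `Y` -/
def E1 (Q : Type) (Y : Finset (Bool × Λ)) :
    ({y // y ∈ Y} → Q) ≃ ({z // z ∈ wd σ Y} → Q) × ({z // z ∈ wd (opp σ) Y} → Q) :=
  E σ Q (mem_wd σ Y) (mem_wd (opp σ) Y)

omit [Nonempty Q] in
theorem rho_bp (Y : Finset (Bool × Λ)) (u v : (Λ → Q) → ℂ) :
    rho Y (bp σ u v)
      = (rho (wd σ Y) u ⊗ₖ rho (wd (opp σ) Y) v).submatrix (E1 σ Q Y) (E1 σ Q Y) := by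
  ext a b
  simp only [rho, submatrix_apply, kroneckerMap_apply, Finset.sum_mul_sum]
  rw [← Fintype.sum_prod_type', ← (E σ Q (P := fun y => y ∉ Y) (fun z => (mem_wd σ Y z).not)
    fun z => (mem_wd (opp σ) Y z).not).sum_comp]
  refine Finset.sum_congr rfl fun c _ => ?_
  simp only [bp, lay_glue, star_mul']
  exact mul_mul_mul_comm _ _ _ _

theorem kron {n m k : Type} [Fintype n] [DecidableEq n] [Fintype m] [DecidableEq m] [Fintype k]
    [DecidableEq k] (e : k ≃ n × m) (V : Matrix n n ℂ) (W : Matrix m m ℂ) (l : n → ℝ)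
    (l' : m → ℝ) : (fr V l ⊗ₖ fr W l').submatrix e e
      = fr ((V ⊗ₖ W).submatrix e e) fun i => l (e i).1 * l' (e i).2 := by
  simp only [fr, fn]
  rw [mul_kronecker_mul, mul_kronecker_mul, diagonal_kronecker_diagonal, conjTranspose_submatrix,
    conjTranspose_kronecker, ← submatrix_mul_equiv _ _ _ e, ← submatrix_mul_equiv _ _ _ e,
    submatrix_diagonal_equiv]
  simp only [Complex.ofReal_mul]
  rfl

omit [Nonempty Q] in
theorem eig_nn (A : Finset Λ) (u : (Λ → Q) → ℂ) (i : {x // x ∈ A} → Q) :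
    0 ≤ (rho_herm A u).eigenvalues i := by
  obtain ⟨V, hV, h⟩ := herm_spec (rho_herm A u)
  exact eig_nonneg hV (amp A u) _ ((rho_amp A u).symm.trans h) i

theorem eig_sum (A : Finset Λ) {u : (Λ → Q) → ℂ} (hu : nsq u = 1) :
    ∑ i, (rho_herm A u).eigenvalues i = 1 := by
  obtain ⟨V, l, hV, h, -, h1, -⟩ := ent_basis A hu
  exact (sum_eig (rho_herm A u) hV l h id).trans h1

end Bil1A

theorem eig_bp (Y : Finset (Bool × Λ)) (u v : (Λ → Q) → ℂ) (φ : ℝ → ℝ) :
    ∑ i, φ ((rho_herm Y (bp σ u v)).eigenvalues i) = ∑ i, ∑ j,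
      φ ((rho_herm (wd σ Y) u).eigenvalues i * (rho_herm (wd (opp σ) Y) v).eigenvalues j) := by
  obtain ⟨V, hV, h⟩ := herm_spec (rho_herm (wd σ Y) u)
  obtain ⟨W, hW, h'⟩ := herm_spec (rho_herm (wd (opp σ) Y) v)
  have h1 := Bil1A.rho_bp σ Y u v
  rw [h, h', Bil1A.kron] at h1
  rw [sum_eig (rho_herm Y (bp σ u v)) _ _ h1 φ, ← Fintype.sum_prod_type',
    ← (Bil1A.E1 σ Q Y).sum_comp]
  rw [conjTranspose_submatrix, submatrix_mul_equiv, conjTranspose_kronecker,
    ← mul_kronecker_mul, hV, hW, one_kronecker_one, submatrix_one_equiv]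

theorem ent_bp (Y : Finset (Bool × Λ)) {u v : (Λ → Q) → ℂ} (hu : nsq u = 1) (hv : nsq v = 1) :
    entropy Y (bp σ u v) = entropy (wd σ Y) u + entropy (wd (opp σ) Y) v := by
  simp only [entropy]
  rw [eig_bp]
  simp only [Real.negMulLog_mul, Finset.sum_add_distrib, ← Finset.sum_mul, ← Finset.mul_sum,
    Bil1A.eig_sum _ hu, Bil1A.eig_sum _ hv, one_mul]

theorem mom_bp (Y : Finset (Bool × Λ)) {u v : (Λ → Q) → ℂ} (hu : nsq u = 1) (hv : nsq v = 1)
    {s x y : ℝ} (h : Mom (wd σ Y) u s x) (h' : Mom (wd (opp σ) Y) v s y) :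
    Mom Y (bp σ u v) s (x + y) := by
  have e : ∀ a, mo Y (bp σ u v) a = mo (wd σ Y) u a * mo (wd (opp σ) Y) v a := fun a => by
    simp only [mo]
    rw [eig_bp σ Y u v fun t => t ^ a, Finset.sum_mul_sum]
    exact Finset.sum_congr rfl fun i _ => Finset.sum_congr rfl fun j _ =>
      Real.mul_rpow (Bil1A.eig_nn _ _ _) (Bil1A.eig_nn _ _ _)
  have p : ∀ a, 0 ≤ mo (wd (opp σ) Y) v a := fun a =>
    Finset.sum_nonneg fun j _ => Real.rpow_nonneg (Bil1A.eig_nn _ _ _) _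
  rw [Mom, e, e, ent_bp σ Y hu hv]
  constructor
  · refine (mul_le_mul h.1 h'.1 (p _) (Real.exp_pos _).le).trans (le_of_eq ?_)
    rw [← Real.exp_add]
    congr 1
    ring
  · refine (mul_le_mul h.2 h'.2 (p _) (Real.exp_pos _).le).trans (le_of_eq ?_)
    rw [← Real.exp_add]
    congr 1
    ring

theorem wd_union (Y Y' : Finset (Bool × Λ)) : wd σ (Y ∪ Y') = wd σ Y ∪ wd σ Y' := by
  ext z
  simp [wd]

end Vale.Agent.P356G
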