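import Vale.Agent.P356G.Cont0

/- Continuity and subadditivity of the entropy, and the one copy flow.
`ent_cont`: Klein (`klein_tr` or `ent_klein`) against `σ = (rho Y v + 1 / d) / 2`, whose logarithm has
norm at most `log (2 d)`: `S u ≤ - <u, log σ u> ≤ - <v, log σ v> + 2 ϑ log (2 d)` and
`- <v, log σ v> ≤ S v + log 2`; `|<u, X u> - <v, X v>| ≤ 2 |X| nr (u - c v)`.
`flow1`: `|sweep - (1 - ε H)| ≤ C ε ^ 2` (induction on the list), both are contractions for small `ε`, so the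
powers differ by at most `k C ε ^ 2`; decompose `ζ = <Ω, ζ> Ω + ζ'`, on the orthogonal complement of `Ω`
`|1 - ε H| ≤ 1 - ε Δ` (`hf_meas`, or: `X = 1 - ε H` is positive, keeps the complement and `qf X ≤ 1 - ε Δ`
there), `(1 - ε E) ^ k ≥ exp (- 2 ε E k)`. -/

namespace Vale.Agent.P356G

open Matrix Vale.Agent.P356

variable {Λ Q : Type} [Fintype Λ] [DecidableEq Λ] [Fintype Q] [DecidableEq Q] [Nonempty Q]

namespace ContA

variable {ι n : Type} [Fintype n] [DecidableEq n]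

omit [Fintype n] in
theorem herm_step {A : Matrix n n ℂ} (hA : A.IsHermitian) (ε : ℝ) :
    (1 - (ε : ℂ) • A).IsHermitian := by
  unfold Matrix.IsHermitian
  rw [conjTranspose_sub, conjTranspose_one, conjTranspose_smul, hA.eq, Complex.star_def,
    Complex.conj_ofReal]

theorem bd_step {A : Matrix n n ℂ} (hA : Ps A) {J ε : ℝ} (hJ : Bd A J) (hε : 0 ≤ ε)
    (h1 : ε * J ≤ 1) : Bd (1 - (ε : ℂ) • A) 1 := by
  refine bd_of_qf (herm_step hA.1 ε) fun v => ?_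
  rw [qf_sub, qf_one, qf_smul, abs_le]
  have h2 := (abs_le.1 (hJ.qf v)).2
  have h3 := mul_le_mul_of_nonneg_left h2 hε
  have h4 := mul_nonneg hε (hA.2 v)
  have h5 := nsq_nonneg v
  have h6 := mul_le_mul_of_nonneg_right h1 h5
  constructor <;> nlinarith

theorem prod_near (h : ι → Matrix n n ℂ) (hp : ∀ i, Ps (h i)) {J : ℝ} (hJ : ∀ i, Bd (h i) J)
    (l : List ι) : ∃ C : ℝ, 0 ≤ C ∧ ∀ ε : ℝ, 0 ≤ ε → ε * J ≤ 1 →
      Bd (l.map fun i => 1 - (ε : ℂ) • h i).reverse.prod 1 ∧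
      Bd ((l.map fun i => 1 - (ε : ℂ) • h i).reverse.prod - (1 - (ε : ℂ) • (l.map h).sum))
        (C * ε ^ 2) := by
  induction l with
  | nil =>
    refine ⟨0, le_rfl, fun ε _ _ => ⟨bd_one, fun v => ?_⟩⟩
    simp [nr_zero]
  | cons a l ih =>
    obtain ⟨C, hC, ih⟩ := ih
    obtain ⟨r, hr, h1⟩ := bd_exists ((l.map h).sum * h a)
    refine ⟨C + r, by positivity, fun ε hε hεJ => ?_⟩
    obtain ⟨h2, h3⟩ := ih ε hε hεJ
    have h4 := bd_step (hp a) (hJ a) hε hεJ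
    simp only [List.map_cons, List.reverse_cons, List.prod_append, List.prod_singleton,
      List.sum_cons]
    refine ⟨(h2.mul h4 zero_le_one).mono (by norm_num), ?_⟩
    have h5 := (h3.mul h4 (by positivity)).add (h1.smul ((ε ^ 2 : ℝ) : ℂ))
    rw [Complex.norm_real, Real.norm_of_nonneg (sq_nonneg ε)] at h5
    refine Bd.mono (?_ : Bd _ _) (le_of_eq (by ring : C * ε ^ 2 * 1 + ε ^ 2 * r = _))
    convert h5 using 1
    simp only [sub_mul, mul_sub, mul_one, one_mul, smul_add, Matrix.mul_smul, Matrix.smul_mul,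
      smul_smul, sq, Complex.ofReal_mul]
    abel

theorem bd_pow {A : Matrix n n ℂ} (hA : Bd A 1) (k : ℕ) : Bd (A ^ k) 1 := by
  induction k with
  | zero => rw [pow_zero]; exact bd_one
  | succ k ih => rw [pow_succ]; exact (ih.mul hA zero_le_one).mono (by norm_num)

theorem pow_near {A B : Matrix n n ℂ} (hA : Bd A 1) (hB : Bd B 1) {η : ℝ} (hη : 0 ≤ η)
    (h : Bd (A - B) η) (k : ℕ) : Bd (A ^ k - B ^ k) (k * η) := by
  induction k with
  | zero =>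
    intro v
    simp [nr_zero]
  | succ k ih =>
    have h1 := (ih.mul hA (by positivity)).add ((bd_pow hB k).mul h zero_le_one)
    refine Bd.mono (?_ : Bd _ _) (le_of_eq (by push_cast; ring : k * η * 1 + 1 * η = _))
    convert h1 using 1
    rw [pow_succ, pow_succ, sub_mul, mul_sub]
    abel

theorem perp_step {H : Matrix n n ℂ} (hp : Ps H) {Ω : n → ℂ} {E Δ J ε : ℝ} (hG : GS H Ω E Δ)
    (hE : 0 ≤ E) (hJ : Bd H J) (hJ0 : 0 ≤ J) (hε : 0 ≤ ε) (h1 : ε * (J + Δ) ≤ 1)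
    {w : n → ℂ} (hw : star Ω ⬝ᵥ w = 0) :
    star Ω ⬝ᵥ ((1 - (ε : ℂ) • H) *ᵥ w) = 0 ∧
      nr ((1 - (ε : ℂ) • H) *ᵥ w) ≤ (1 - ε * Δ) * nr w := by
  constructor
  · rw [sub_mulVec, one_mulVec, smul_mulVec, dotProduct_sub, dotProduct_smul, dot_mulVec,
      hp.1.eq, hG.2.1, star_smul, smul_dotProduct, hw]
    simp
  · have hP : ∀ v, vecMulVec Ω (star Ω) *ᵥ v = (star Ω ⬝ᵥ v) • Ω := fun v => by
      rw [vecMulVec_mulVec, op_smul_eq_smul]
    have hq : ∀ v, qf (vecMulVec Ω (star Ω)) v = ‖star Ω ⬝ᵥ v‖ ^ 2 := fun v => by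
      rw [qf, ip, hP, dotProduct_smul, ← dot_star Ω v, smul_eq_mul, Complex.star_def,
        Complex.mul_conj, Complex.ofReal_re, Complex.normSq_eq_norm_sq]
    have hB : Bd (1 - (ε : ℂ) • H - ((1 - ε * E : ℝ) : ℂ) • vecMulVec Ω (star Ω))
        (1 - ε * Δ) := by
      refine bd_of_qf ((herm_step hp.1 ε).sub ?_) fun v => ?_
      · unfold Matrix.IsHermitian
        rw [conjTranspose_smul, conjTranspose_vecMulVec, star_star, Complex.star_def,
          Complex.conj_ofReal]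
      · rw [qf_sub, qf_sub, qf_one, qf_smul, qf_smul, hq, abs_le]
        have h3 := mul_le_mul_of_nonneg_left (abs_le.1 (hJ.qf v)).2 hε
        have h4 := mul_le_mul_of_nonneg_left (hG.2.2 v) hε
        have h5 := cs Ω v
        rw [hG.1, one_mul] at h5
        have h6 := nsq_nonneg v
        have h7 := sq_nonneg ‖star Ω ⬝ᵥ v‖
        have h8 := mul_le_mul_of_nonneg_right h1 h6
        have h9 := mul_nonneg (mul_nonneg hε hE) h7
        have h10 := mul_nonneg (mul_nonneg hε hE) (sub_nonneg.2 h5)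
        have h11 : 0 ≤ 1 - ε * Δ := by nlinarith [mul_nonneg hε hJ0]
        have h12 := mul_nonneg h11 h7
        constructor <;> nlinarith
    have h3 := hB w
    rwa [sub_mulVec _ _ w, smul_mulVec, hP, hw, zero_smul, smul_zero, sub_zero] at h3

theorem perp_pow {X : Matrix n n ℂ} {Ω : n → ℂ} {μ : ℝ} (hμ : 0 ≤ μ)
    (h : ∀ w, star Ω ⬝ᵥ w = 0 → star Ω ⬝ᵥ (X *ᵥ w) = 0 ∧ nr (X *ᵥ w) ≤ μ * nr w) {w : n → ℂ}
    (hw : star Ω ⬝ᵥ w = 0) (k : ℕ) :
    star Ω ⬝ᵥ ((X ^ k) *ᵥ w) = 0 ∧ nr ((X ^ k) *ᵥ w) ≤ μ ^ k * nr w := by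
  induction k with
  | zero => simpa using hw
  | succ k ih =>
    rw [pow_succ', ← mulVec_mulVec]
    refine ⟨(h _ ih.1).1, (h _ ih.1).2.trans ?_⟩
    rw [pow_succ', mul_assoc]
    exact mul_le_mul_of_nonneg_left ih.2 hμ

theorem eig_pow {X : Matrix n n ℂ} {Ω : n → ℂ} {c : ℂ} (h : X *ᵥ Ω = c • Ω) (k : ℕ) :
    (X ^ k) *ᵥ Ω = c ^ k • Ω := by
  induction k with
  | zero => simp
  | succ k ih => rw [pow_succ', ← mulVec_mulVec, ih, mulVec_smul, h, smul_smul, pow_succ]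

theorem exp_low {x : ℝ} (h0 : 0 ≤ x) (h1 : 2 * x ≤ 1) : Real.exp (-(2 * x)) ≤ 1 - x := by
  have h2 := Real.add_one_le_exp (2 * x)
  rw [Real.exp_neg, inv_le_comm₀ (Real.exp_pos _) (by linarith)]
  refine le_trans ?_ h2
  rw [inv_le_iff_one_le_mul₀ (by linarith)]
  nlinarith

end ContA

theorem flow1 {ι n : Type} [Fintype ι] [Fintype n] [DecidableEq n] (h : ι → Matrix n n ℂ)
    (hp : ∀ i, Ps (h i)) {Ω : n → ℂ} {E Δ : ℝ} (hG : GS (∑ i, h i) Ω E Δ) (hΔ : 0 ≤ Δ) (β y : ℝ)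
    (hβ : 0 ≤ β) (hE : β * E ≤ 1) (hy : 0 < y) : ∃ ε1 : ℝ, 0 < ε1 ∧ ∀ (ε : ℝ) (k : ℕ), 0 < ε →
      ε ≤ ε1 → k * ε = β → ∃ c : ℝ, Real.exp (-2) ≤ c ∧ c ≤ 1 ∧ ∀ ζ : n → ℂ,
        nr ((sweep h ε ^ k) *ᵥ ζ - ((c : ℂ) * (star Ω ⬝ᵥ ζ)) • Ω) ≤
          (Real.exp (-(β * Δ)) + y) * nr ζ := by
  classical
  choose r hr0 hr using fun i => bd_exists (h i)
  have hJ : ∀ i, Bd (h i) (∑ j, r j) := fun i =>
    (hr i).mono (Finset.single_le_sum (fun j _ => hr0 j) (Finset.mem_univ i))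
  have hJ0 : 0 ≤ ∑ j, r j := Finset.sum_nonneg fun j _ => hr0 j
  have hH : Bd (∑ i, h i) (∑ j, r j) := Bd.sum _ fun i _ => hr i
  generalize ∑ j, r j = J at hJ hJ0 hH
  have hP : Ps (∑ i, h i) := by
    refine ⟨isSelfAdjoint_sum _ fun i _ => (hp i).1, fun v => ?_⟩
    rw [qf_sum]
    exact Finset.sum_nonneg fun i _ => (hp i).2 v
  have hE0 : 0 ≤ E := by
    have h1 := hP.2 Ω
    rwa [qf, ip, hG.2.1, dotProduct_smul, ← nsq_eq, hG.1, Complex.ofReal_one, smul_eq_mul, mul_one,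
      Complex.ofReal_re] at h1
  obtain ⟨C, hC, hS⟩ := ContA.prod_near h hp hJ (Finset.univ : Finset ι).toList
  refine ⟨min (1 / (J + Δ + 2 * E + 1)) (y / (β * C + 1)), by positivity,
    fun ε k hε h1 hk => ?_⟩
  have h2 : ε * (J + Δ + 2 * E + 1) ≤ 1 :=
    (le_div_iff₀ (by positivity)).1 (h1.trans (min_le_left _ _))
  have h3 : ε * (β * C + 1) ≤ y := (le_div_iff₀ (by positivity)).1 (h1.trans (min_le_right _ _))
  have e1 := mul_nonneg hε.le hJ0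
  have e2 := mul_nonneg hε.le hΔ
  have e3 := mul_nonneg hε.le hE0
  obtain ⟨h4, h5⟩ := hS ε hε.le (by linarith)
  rw [Finset.sum_map_toList] at h5
  have h6 := ContA.pow_near h4 (ContA.bd_step hP hH hε.le (by linarith)) (by positivity) h5 k
  refine ⟨(1 - ε * E) ^ k, ?_, pow_le_one₀ (by linarith) (by linarith), fun ζ => ?_⟩
  · refine le_trans ?_ (pow_le_pow_left₀ (Real.exp_pos _).le (ContA.exp_low e3 (by linarith)) k)
    rw [← Real.exp_nat_mul, Real.exp_le_exp]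
    have h7 : k * (ε * E) = β * E := by rw [← hk, mul_assoc]
    linarith
  · have hw : star Ω ⬝ᵥ (ζ - (star Ω ⬝ᵥ ζ) • Ω) = 0 := by
      rw [dotProduct_sub, dotProduct_smul, ← nsq_eq, hG.1]
      simp
    have h7 := (ContA.perp_pow (μ := 1 - ε * Δ) (by linarith) (fun w hw =>
      ContA.perp_step hP hG hE0 hH hJ0 hε.le (by linarith) hw) hw k).2
    have h8 : (1 - (ε : ℂ) • ∑ i, h i) *ᵥ Ω = ((1 - ε * E : ℝ) : ℂ) • Ω := by
      rw [sub_mulVec, one_mulVec, smul_mulVec, hG.2.1, smul_smul]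
      push_cast
      rw [sub_smul, one_smul]
    have h9 : nr (ζ - (star Ω ⬝ᵥ ζ) • Ω) ≤ nr ζ := by
      refine Real.sqrt_le_sqrt ?_
      have h10 := nsq_add ((star Ω ⬝ᵥ ζ) • Ω) (ζ - (star Ω ⬝ᵥ ζ) • Ω)
      rw [add_sub_cancel, star_smul, smul_dotProduct, hw, smul_zero, Complex.zero_re] at h10
      linarith [nsq_nonneg ((star Ω ⬝ᵥ ζ) • Ω)]
    have h10 : (1 - ε * Δ) ^ k ≤ Real.exp (-(β * Δ)) := by
      refine (pow_le_pow_left₀ (by linarith) (Real.one_sub_le_exp_neg (ε * Δ)) k).trans ?_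
      rw [← Real.exp_nat_mul, ← hk]
      exact le_of_eq (congrArg _ (by ring))
    have h11 : (sweep h ε ^ k) *ᵥ ζ - ((((1 - ε * E) ^ k : ℝ) : ℂ) * (star Ω ⬝ᵥ ζ)) • Ω =
        ((1 - (ε : ℂ) • ∑ i, h i) ^ k) *ᵥ (ζ - (star Ω ⬝ᵥ ζ) • Ω) +
          (sweep h ε ^ k - (1 - (ε : ℂ) • ∑ i, h i) ^ k) *ᵥ ζ := by
      rw [mulVec_sub, mulVec_smul, ContA.eig_pow h8, sub_mulVec, smul_smul, Complex.ofReal_pow,
        mul_comm (star Ω ⬝ᵥ ζ)]
      abel
    rw [h11]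
    refine (nr_add _ _).trans ?_
    have h12 := h6 ζ
    have h13 : k * (C * ε ^ 2) ≤ y := by
      have h14 : k * (C * ε ^ 2) = ε * (β * C) := by rw [← hk]; ring
      linarith
    have h15 := mul_le_mul_of_nonneg_right h13 (nr_nonneg ζ)
    have h16 := mul_le_mul h10 h9 (nr_nonneg _) (Real.exp_pos _).le
    unfold sweep
    linarith

end Vale.Agent.P356G
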