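import Vale.Agent.P356G.Start
import Vale.Agent.P356G.Cont

/- Typical projectors. `typ1`: `rho Y Ω = fr V l` (`ent_basis`), `k = fr V (indicator of exp (-K (S + 1)) ≤ l i)`;
Markov: the other eigenvalues have `l i * K (S + 1) ≤ negMulLog (l i)`; the rank is at most
`exp (K (S + 1))` since `∑ l = 1`. `typ_rank`: `k = ∑ i ∈ typical, e i` with rank one projectors `e i`,
`∑ qf (lift (e i)) w = qf (lift k) w`, pick the largest.
`typ`: `X = slab 0 h0`, `R i` the slabs, `K i = lift (typ1 (R i) (16 n))`, `K' = pr K (4 n)`, commuting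
projectors (`Loc.comm`), union bound `nsq (K' Ω) ≥ 3/4`, `qf (lift kX) (K' Ω) ≥ 1/2`, `P = lift e * K'`.
`Spl`: a union of slabs `Y`; the product of the factors inside `Y` is local on `Y` (`Loc.exists_lift`), a
projector, and `spl_union` multiplies the traces. -/

namespace Vale.Agent.P356G

open Matrix Vale.Agent.P356

variable {Λ Q : Type} [Fintype Λ] [DecidableEq Λ] [Fintype Q] [DecidableEq Q] [Nonempty Q]

theorem Typ0A.prj {n : Type} [Fintype n] [DecidableEq n] {V : Matrix n n ℂ} (hV : V * Vᴴ = 1)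
    {f : n → ℝ} (hf : ∀ i, f i * f i = f i) : Prj (fr V f) :=
  ⟨fr_ct V f, by simp only [fr_mul hV, hf]⟩

theorem typ1 (Y : Finset Λ) {Ω : (Λ → Q) → ℂ} (hΩ : nsq Ω = 1) {K : ℝ} (hK : 0 < K) :
    ∃ k : Matrix ({z // z ∈ Y} → Q) ({z // z ∈ Y} → Q) ℂ, Prj k ∧
      (trace k).re ≤ Real.exp (K * (entropy Y Ω + 1)) ∧ 1 - 1 / K ≤ qf (lift Y k) Ω := by
  obtain ⟨V, l, hV, h1, h2, h3, h4⟩ := ent_basis Y hΩ
  have hS := ent_nonneg Y hΩ
  set x := K * (entropy Y Ω + 1) with hx
  have x0 : 0 < x := by positivity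
  refine ⟨fr V fun i => if Real.exp (-x) ≤ l i then 1 else 0,
    Typ0A.prj hV fun i => by split_ifs <;> simp, ?_, ?_⟩
  · rw [ent_trace_fr hV, Complex.ofReal_re, ← mul_one (Real.exp x),
      ← congrArg (Real.exp x * ·) h3, Finset.mul_sum]
    refine Finset.sum_le_sum fun i _ => ?_
    split_ifs with h
    · rwa [Real.exp_neg, inv_le_iff_one_le_mul₀' (Real.exp_pos x)] at h
    · exact mul_nonneg (Real.exp_pos x).le (h2 i)
  · rw [qf, ip_lift, ← rho_amp, h1, fr_mul hV, ent_trace_fr hV, Complex.ofReal_re]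
    have h5 : ∑ i, x * l i ≤
        ∑ i, (x * ((if Real.exp (-x) ≤ l i then 1 else 0) * l i) + Real.negMulLog (l i)) := by
      refine Finset.sum_le_sum fun i _ => ?_
      split_ifs with h
      · rw [one_mul]
        exact le_add_of_nonneg_right (Real.negMulLog_nonneg (h2 i)
          (h3 ▸ Finset.single_le_sum (fun i _ => h2 i) (Finset.mem_univ i)))
      · rcases (h2 i).eq_or_lt with h6 | h6
        · simp [← h6]
        · have h7 := (Real.log_le_iff_le_exp h6).2 (not_le.1 h).le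
          rw [Real.negMulLog]
          nlinarith
    rw [Finset.sum_add_distrib, ← Finset.mul_sum, ← Finset.mul_sum, h3, ← h4] at h5
    have h6 : x * (1 / K) = entropy Y Ω + 1 := by
      rw [hx]
      field_simp
    refine le_of_mul_le_mul_left ?_ x0
    linarith

theorem typ_rank (Y : Finset Λ) {k : Matrix ({z // z ∈ Y} → Q) ({z // z ∈ Y} → Q) ℂ} (hk : Prj k)
    (w : (Λ → Q) → ℂ) : ∃ e : Matrix ({z // z ∈ Y} → Q) ({z // z ∈ Y} → Q) ℂ, Prj e ∧
      (trace e).re ≤ 1 ∧ qf (lift Y k) w ≤ (trace k).re * qf (lift Y e) w := by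
  obtain ⟨V, hV, h1⟩ := herm_spec hk.1
  generalize hk.1.eigenvalues = l at h1
  have h2 := eig_nonneg hV k l (by rw [hk.1.eq, hk.2, h1])
  have h3 : ∀ f, qf (lift Y (fr V f)) w = ∑ i, f i * ((Vᴴ * rho Y w * V) i i).re := fun f => by
    rw [qf, ip_lift, ← rho_amp, bip_trace, Complex.re_sum]
    simp only [Complex.re_ofReal_mul]
  obtain ⟨j, hj⟩ := Finite.exists_max fun i => ((Vᴴ * rho Y w * V) i i).re
  refine ⟨fr V fun i => if i = j then 1 else 0, Typ0A.prj hV fun i => by split_ifs <;> simp, ?_, ?_⟩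
  · simp [ent_trace_fr hV]
  · rw [h1, h3, h3, ent_trace_fr hV, Complex.ofReal_re, Finset.sum_mul]
    simp only [ite_mul, one_mul, zero_mul, Finset.sum_ite_eq', Finset.mem_univ, if_true]
    exact Finset.sum_le_sum fun i _ => mul_le_mul_of_nonneg_left (hj i) (h2 i)

theorem spl_union {Y Y' : Finset Λ} (h : Disjoint Y Y')
    (k : Matrix ({z // z ∈ Y} → Q) ({z // z ∈ Y} → Q) ℂ)
    (k' : Matrix ({z // z ∈ Y'} → Q) ({z // z ∈ Y'} → Q) ℂ) (hk : Prj k) (hk' : Prj k') :
    ∃ k2 : Matrix ({z // z ∈ Y ∪ Y'} → Q) ({z // z ∈ Y ∪ Y'} → Q) ℂ, Prj k2 ∧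
      trace k2 = trace k * trace k' ∧ lift (Y ∪ Y') k2 = lift Y k * lift Y' k' := by
  obtain ⟨k2, h1⟩ := Loc.exists_lift (A := Y ∪ Y')
    (((loc_lift Y k).mono fun x hx => Finset.mem_union_left _ hx).mul
      ((loc_lift Y' k').mono fun x hx => Finset.mem_union_right _ hx))
  have h2 : ∀ {Z : Finset Λ} {m : Matrix ({z // z ∈ Z} → Q) ({z // z ∈ Z} → Q) ℂ},
      Prj m → Prj (lift Z m) := fun hm =>
    ⟨by rw [IsHermitian, ← lift_ct, hm.1.eq], by rw [← lift_mul, hm.2]⟩
  have h3 := (h2 hk).mul (h2 hk')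
    ((loc_lift Y k).comm (loc_lift Y' k') fun x hx => Finset.disjoint_left.1 h hx)
  rw [h1] at h3
  refine ⟨k2, ⟨lift_inj _ (by rw [lift_ct, h3.1.eq]), lift_inj _ (by rw [lift_mul, h3.2])⟩, ?_,
    h1.symm⟩
  obtain ⟨q⟩ := ‹Nonempty Q›
  simp only [trace, diag_apply]
  rw [← (Equiv.piFinsetUnion (fun _ => Q) h).sum_comp, Fintype.sum_prod_type, Finset.sum_mul_sum]
  refine Finset.sum_congr rfl fun a _ => Finset.sum_congr rfl fun b _ => ?_
  set s := glue (Y ∪ Y') (Equiv.piFinsetUnion (fun _ => Q) h (a, b)) fun _ => q with hs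
  have e1 : res Y s = a := funext fun x => by
    simp only [hs, res, glue, dif_pos (Finset.mem_union_left Y' x.2)]
    exact Equiv.piFinsetUnion_left (fun _ => Q) h x.2 _
  have e2 : res Y' s = b := funext fun x => by
    simp only [hs, res, glue, dif_pos (Finset.mem_union_right Y x.2)]
    exact Equiv.piFinsetUnion_right (fun _ => Q) h x.2 _
  have h4 := congrFun (congrFun h1 s) s
  rw [mul_apply, Finset.sum_eq_single s] at h4
  · simp only [lift, if_true, e1, e2] at h4
    rw [h4, hs, res_glue]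
  · intro t _ ht
    by_cases e3 : cores Y s = cores Y t
    · refine mul_eq_zero_of_right _ (if_neg fun e4 => ht (funext fun x => ?_))
      by_cases hx : x ∈ Y
      · exact (loc_cores_iff _ _ _).1 e4 x (Finset.disjoint_left.1 h hx)
      · exact ((loc_cores_iff _ _ _).1 e3 x hx).symm
    · exact mul_eq_zero_of_left (if_neg e3) _
  · simp

end Vale.Agent.P356G
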