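import Vale.Agent.P356G.Bil0
import Vale.Agent.P356G.Typ0

/- The swap trial. `swap_dot`: with `a = amp X Ω`, write every configuration of the four parts (`sum_lay`,
`sum_glue X`): layer `false` is `(x1, y1)`, layer `true` is `(x2, y2)`; the world `σ = (· ∈ X)` reads
`(x2, y1)`, the other one `(x1, y2)`.
`trial`: `rho X Ω' = fr V l` (`ent_basis`), `k = fr V (indicator of exp (-8 (S + 1)) ≤ l i)` as in `typ1`
(weight at least `7/8`, rank at most `exp (8 (S + 1))`), `r = fr V (indicator / l i)`, `Φ1 = lift X r Ω'`, so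
`amp Φ1 * aᴴ = r ρ = k`, `nsq Φ1 = tr (r ρ r) ≤ exp (16 (S + 1))`, `Φ1 ≠ 0`, `γ = 1 / nr Φ1`, `Φ = γ Φ1`.
Then the overlap with `bp σ χ Φ` is `γ <Ω', k χ>`; for the projector use `emb_rank`:
`P2 w = bp σ χ Φ`, `nsq χ = nsq (P2 w) = <w, P2 w> ≤ γ nr χ`. Finally `|<Ω', k Ω>| ≥ 7/8 - nr (Ω - c Ω')` for
the phase `c` of `<Ω', Ω>`, `nsq (Ω - c Ω') ≤ 2 - 2 * 0.99`. -/

namespace Vale.Agent.P356G

open Matrix Vale.Agent.P356

variable {Λ Q : Type} [Fintype Λ] [DecidableEq Λ] [Fintype Q] [DecidableEq Q] [Nonempty Q]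

namespace Bil2A

theorem prj_rank {n : Type} [Fintype n] [DecidableEq n] {Φ : n → ℂ} (h : nsq Φ = 1) :
    Prj (vecMulVec Φ (star Φ)) := by
  refine ⟨?_, ?_⟩
  · rw [IsHermitian, conjTranspose_vecMulVec, star_star]
  · rw [vecMulVec_mul_vecMulVec, ← nsq_eq, h]
    simp

theorem markov {ι : Type} [Fintype ι] {l : ι → ℝ} (h2 : ∀ i, 0 ≤ l i) (h3 : ∑ i, l i = 1)
    {S : ℝ} (hS : 0 ≤ S) (h4 : S = ∑ i, Real.negMulLog (l i)) :
    7 / 8 ≤ ∑ i, (if Real.exp (-(8 * (S + 1))) ≤ l i then 1 else 0) * l i := by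
  set x := 8 * (S + 1) with hx
  have x0 : 0 < x := by positivity
  have h5 : ∑ i, x * l i ≤
      ∑ i, (x * ((if Real.exp (-x) ≤ l i then 1 else 0) * l i) + Real.negMulLog (l i)) := by
    refine Finset.sum_le_sum fun i _ => ?_
    split_ifs with h
    · rw [one_mul]
      exact le_add_of_nonneg_right (Real.negMulLog_nonneg (h2 i)
        (h3 ▸ Finset.single_le_sum (fun i _ => h2 i) (Finset.mem_univ i)))
    · rcases (h2 i).eq_or_lt with h6 | h6
      · simp [← h6]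
      · have h7 := (Real.log_le_iff_le_exp h6).2 (not_le.1 h).le
        rw [Real.negMulLog]
        nlinarith
  rw [Finset.sum_add_distrib, ← Finset.mul_sum, ← Finset.mul_sum, h3, ← h4] at h5
  refine le_of_mul_le_mul_left ?_ x0
  linarith

/-- the unnormalised trial vector -/
theorem pre (X : Finset Λ) {Ω' : (Λ → Q) → ℂ} (h' : nsq Ω' = 1) :
    ∃ (Φ : (Λ → Q) → ℂ) (k : Matrix ({z // z ∈ X} → Q) ({z // z ∈ X} → Q) ℂ), Prj k ∧
      7 / 8 ≤ qf (lift X k) Ω' ∧ amp X Φ * (amp X Ω')ᴴ = k ∧ 0 < nr Φ ∧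
      nr Φ ≤ Real.exp (8 * (entropy X Ω' + 1)) := by
  obtain ⟨V, l, hV, h1, h2, h3, h4⟩ := ent_basis X h'
  have hm := markov h2 h3 (ent_nonneg X h') h4
  set x := 8 * (entropy X Ω' + 1) with hx
  have hl1 : ∀ i, l i ≤ 1 := fun i =>
    h3 ▸ Finset.single_le_sum (fun i _ => h2 i) (Finset.mem_univ i)
  have he := Real.exp_pos (-x)
  set r := fr V fun i => if Real.exp (-x) ≤ l i then (l i)⁻¹ else 0 with hr
  have hn : nsq (lift X r *ᵥ Ω') = ∑ i, (if Real.exp (-x) ≤ l i then (l i)⁻¹ else 0) := by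
    have e := trace_rho X (lift X r *ᵥ Ω')
    rw [rho_amp, amp_lift, conjTranspose_mul, Matrix.mul_assoc, ← Matrix.mul_assoc (amp X Ω'),
      ← rho_amp, h1, hr, fr_ct, fr_mul hV, fr_mul hV, ent_trace_fr hV] at e
    rw [← Complex.ofReal_injective e]
    refine Finset.sum_congr rfl fun i _ => ?_
    split_ifs with h
    · have : l i ≠ 0 := (he.trans_le h).ne'
      field_simp
    · simp
  refine ⟨lift X r *ᵥ Ω', fr V fun i => if Real.exp (-x) ≤ l i then 1 else 0,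
    Typ0A.prj hV fun i => by split_ifs <;> simp, ?_, ?_, ?_, ?_⟩
  · rw [qf, ip_lift, ← rho_amp, h1, fr_mul hV, ent_trace_fr hV, Complex.ofReal_re]
    exact hm
  · rw [amp_lift, Matrix.mul_assoc, ← rho_amp, h1, hr, fr_mul hV]
    refine congrArg (fr V) (funext fun i => ?_)
    split_ifs with h
    · exact inv_mul_cancel₀ (he.trans_le h).ne'
    · simp
  · refine Real.sqrt_pos.2 ?_
    rw [hn]
    refine lt_of_lt_of_le (by norm_num) (hm.trans (Finset.sum_le_sum fun i _ => ?_))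
    split_ifs with h
    · rw [one_mul]
      exact (hl1 i).trans ((one_le_inv₀ (he.trans_le h)).2 (hl1 i))
    · simp
  · rw [nr, Real.sqrt_le_left (Real.exp_pos x).le, hn, ← mul_one (Real.exp x ^ 2),
      ← congrArg (Real.exp x ^ 2 * ·) h3, Finset.mul_sum]
    refine Finset.sum_le_sum fun i _ => ?_
    split_ifs with h
    · have h0 := he.trans_le h
      rw [Real.exp_neg, inv_le_iff_one_le_mul₀' (Real.exp_pos x)] at h
      rw [inv_le_iff_one_le_mul₀ h0]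
      nlinarith
    · exact mul_nonneg (sq_nonneg _) (h2 i)

theorem last {n : Type} [Fintype n] [DecidableEq n] {K : Matrix n n ℂ} (hK : Prj K)
    {Ω' Ω : n → ℂ} (h' : nsq Ω' = 1) (h : nsq Ω = 1) (hc : 99 / 100 ≤ ‖star Ω ⬝ᵥ Ω'‖)
    (hq : 7 / 8 ≤ qf K Ω') : 1 / 2 ≤ ‖ip Ω' K Ω‖ := by
  set z := star Ω' ⬝ᵥ Ω with hz
  have hzs : star Ω ⬝ᵥ Ω' = star z := (dot_star Ω' Ω).symm
  rw [hzs, norm_star] at hc
  have h1 : nsq (Ω - z • Ω') = 1 - ‖z‖ ^ 2 := by
    rw [nsq_sub, nsq_smul, h, h', dotProduct_smul, hzs, smul_eq_mul, Complex.star_def,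
      Complex.mul_conj', ← Complex.ofReal_pow, Complex.ofReal_re]
    ring
  have h2 : nr (Ω - z • Ω') ≤ 15 / 100 := by
    rw [nr, Real.sqrt_le_left (by norm_num), h1]
    nlinarith
  have hn : nr Ω' = 1 := by rw [nr, h', Real.sqrt_one]
  have h3 := hK.bd.ip Ω' (Ω - z • Ω')
  rw [hn] at h3
  have h4 : z * ip Ω' K Ω' = ip Ω' K Ω - ip Ω' K (Ω - z • Ω') := by
    simp only [ip, mulVec_sub, mulVec_smul, dotProduct_sub, dotProduct_smul, smul_eq_mul]
    ring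
  have h5 : 7 / 8 ≤ ‖ip Ω' K Ω'‖ := hq.trans (Complex.re_le_norm _)
  have h6 := norm_sub_le (ip Ω' K Ω) (ip Ω' K (Ω - z • Ω'))
  rw [← h4, norm_mul] at h6
  nlinarith

end Bil2A

theorem swap_dot (X : Finset Λ) (Ω χ Φ : (Λ → Q) → ℂ) :
    star (bp (fun _ => false) Ω Ω) ⬝ᵥ bp (fun z => decide (z ∈ X)) χ Φ =
      trace (amp X χ * (amp X Ω)ᴴ * (amp X Φ * (amp X Ω)ᴴ)) := by
  have e := sum_lay (Q := Q) (fun _ : Λ => false) fun x y => star (Ω x * Ω y) *
    (χ (fun z => if z ∈ X then y z else x z) * Φ fun z => if z ∈ X then x z else y z)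
  have e1 : star (bp (fun _ => false) Ω Ω) ⬝ᵥ bp (fun z => decide (z ∈ X)) χ Φ =
      ∑ x, ∑ y, star (Ω x * Ω y) *
        (χ (fun z => if z ∈ X then y z else x z) * Φ fun z => if z ∈ X then x z else y z) := by
    rw [← e]
    refine Finset.sum_congr rfl fun s _ => ?_
    have a1 : lay (fun z => decide (z ∈ X)) s = fun z => if z ∈ X then
        lay (opp fun _ => false) s z else lay (fun _ => false) s z := by
      funext z
      by_cases hz : z ∈ X <;> simp [lay, opp, hz]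
    have a2 : lay (opp fun z => decide (z ∈ X)) s = fun z => if z ∈ X then
        lay (fun _ => false) s z else lay (opp fun _ => false) s z := by
      funext z
      by_cases hz : z ∈ X <;> simp [lay, opp, hz]
    simp only [bp, Pi.star_apply]
    rw [a1, a2]
  have g : ∀ a c a' c', (fun z => if z ∈ X then glue (Q := Q) X a c z else glue X a' c' z) =
      glue X a c' := by
    intro a c a' c'
    funext z
    by_cases hz : z ∈ X <;> simp [glue, hz]
  rw [e1, sum_glue X]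
  simp only [sum_glue X (β := ℂ), g, trace, diag, mul_apply, conjTranspose_apply, amp,
    Finset.sum_mul_sum]
  rw [Finset.sum_comm (s := Finset.univ) (t := Finset.univ)
    (f := fun (p : {z // z ∈ X} → Q) (q : {z // z ∈ X} → Q) => _)]
  refine Finset.sum_congr rfl fun q _ => ?_
  rw [Finset.sum_comm]
  refine Finset.sum_congr rfl fun p _ => Finset.sum_congr rfl fun c _ =>
    Finset.sum_congr rfl fun d _ => ?_
  rw [star_mul']
  ring

theorem trial (X : Finset Λ) {Ω' Ω : (Λ → Q) → ℂ} (h' : nsq Ω' = 1) (h : nsq Ω = 1)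
    (hc : 99 / 100 ≤ ‖star Ω ⬝ᵥ Ω'‖) : ∃ (Φ : (Λ → Q) → ℂ) (γ : ℝ), nsq Φ = 1 ∧
      Real.exp (-(8 * (entropy X Ω' + 1))) ≤ γ ∧
      nr (emb (opp fun z => decide (z ∈ X)) (vecMulVec Φ (star Φ)) *ᵥ
        bp (fun _ => false) Ω' Ω') ≤ γ ∧
      γ / 2 ≤ ‖star (bp (fun _ => false) Ω' Ω') ⬝ᵥ bp (fun z => decide (z ∈ X)) Ω Φ‖ := by
  obtain ⟨Φ1, k, hk, hq, ha, h0, h1⟩ := Bil2A.pre X h'
  set γ := (nr Φ1)⁻¹ with hγ
  have γ0 : 0 < γ := inv_pos.2 h0
  have hK : Prj (lift X k) := ⟨by rw [IsHermitian, ← lift_ct, hk.1.eq], by rw [← lift_mul, hk.2]⟩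
  have hΦ : nsq ((γ : ℂ) • Φ1) = 1 := by
    rw [nsq_smul, Complex.norm_real, Real.norm_eq_abs, sq_abs, ← nr_sq, ← mul_pow, hγ,
      inv_mul_cancel₀ h0.ne', one_pow]
  have hd : ∀ χ, ‖star (bp (fun _ => false) Ω' Ω') ⬝ᵥ
      bp (fun z => decide (z ∈ X)) χ ((γ : ℂ) • Φ1)‖ = γ * ‖ip Ω' (lift X k) χ‖ := fun χ => by
    rw [swap_dot, amp_smul, Matrix.smul_mul, ha, Matrix.mul_smul, trace_smul, trace_mul_comm,
      ← ip_lift, smul_eq_mul, norm_mul, Complex.norm_real, Real.norm_eq_abs, abs_of_pos γ0]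
  have hn : nr Ω' = 1 := by rw [nr, h', Real.sqrt_one]
  refine ⟨(γ : ℂ) • Φ1, γ, hΦ, ?_, ?_, ?_⟩
  · rw [Real.exp_neg]
    exact inv_anti₀ h0 h1
  · have hP := emb_prj (opp fun z => decide (z ∈ X)) (Bil2A.prj_rank hΦ)
    obtain ⟨χ, hχ⟩ := emb_rank (fun z => decide (z ∈ X)) ((γ : ℂ) • Φ1)
      (bp (fun _ => false) Ω' Ω')
    have h2 := hP.qf (bp (fun _ => false) Ω' Ω')
    have h3 := hK.bd.ip Ω' χ
    have h4 : nsq χ ≤ γ * ‖ip Ω' (lift X k) χ‖ := by
      rw [qf, ip, hχ, nsq_bp, hΦ, mul_one] at h2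
      rw [← h2, ← hd]
      exact Complex.re_le_norm _
    rw [hχ, nr, nsq_bp, hΦ, mul_one, ← nr]
    rw [hn, one_mul, one_mul] at h3
    rw [← nr_sq] at h4
    have h5 := nr_nonneg χ
    by_contra h6
    have h7 := mul_le_mul_of_nonneg_left h3 γ0.le
    nlinarith [not_le.1 h6]
  · rw [hd]
    have := mul_le_mul_of_nonneg_left (Bil2A.last hK h' h hc hq) γ0.le
    linarith

end Vale.Agent.P356G
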