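import Vale.Agent.P356G.RepB0

/- Symmetrisers, product vectors, tensor powers.
`sg_insert`: `π ∈ SG (insert a G)` is uniquely `swap a j * π'` with `j = π a ∈ insert a G`, `π' ∈ SG G`.
`ip_tv_split`: split the sum over configurations at the copy `a` (`Loc.exists_colift` on the replica
level with the set `{a}`, or entrywise).
`swap_units`: entrywise. `tens_near`: `tensF (if j ∈ S then 1 - ε h else 1)`, induction on `S` with the
error bound `(1 + ε b) ^ |S| - 1 - |S| ε b`, and `(1 + y) ^ N ≤ exp (N y) ≤ 1 + N y + (N y) ^ 2`. -/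

namespace Vale.Agent.P356G

open Matrix Vale.Agent.P356

variable {Λ Q : Type} [Fintype Λ] [DecidableEq Λ] [Fintype Q] [DecidableEq Q] {N : ℕ}

namespace RepBA

/-- the tensor power on the copies of `S` -/
def T (S : Finset (Fin N)) (O : Matrix (Λ → Q) (Λ → Q) ℂ) : RM Λ Q N :=
  tensF fun j => if j ∈ S then O else 1

theorem T_empty (O : Matrix (Λ → Q) (Λ → Q) ℂ) : T (∅ : Finset (Fin N)) O = 1 := by
  simp only [T, Finset.notMem_empty, if_false, tensF_one]

theorem T_univ (O : Matrix (Λ → Q) (Λ → Q) ℂ) :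
    T (Finset.univ : Finset (Fin N)) O = tens N O := by
  simp only [T, Finset.mem_univ, if_true, tens_eq]

theorem T_insert {a : Fin N} {S : Finset (Fin N)} (ha : a ∉ S) (O : Matrix (Λ → Q) (Λ → Q) ℂ) :
    T (insert a S) O = one a O * T S O := by
  rw [T, T, one_eq, tensF_mul]
  congr 1
  funext j
  by_cases h : j = a
  · simp [h, ha]
  · simp [h]

theorem herm (a : Fin N) {L : Matrix (Λ → Q) (Λ → Q) ℂ} (hL : L.IsHermitian) :
    (one a L).IsHermitian := by
  rw [IsHermitian, one_ct, hL]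

theorem herm_sum (S : Finset (Fin N)) {L : Matrix (Λ → Q) (Λ → Q) ℂ} (hL : L.IsHermitian) :
    (∑ a ∈ S, one a L).IsHermitian := by
  rw [IsHermitian, conjTranspose_sum]
  exact Finset.sum_congr rfl fun a _ => herm a hL

theorem unit_vec (Y : Finset Λ) (a : Fin N) (x y : {z // z ∈ Y} → Q)
    (w : (Fin N → Λ → Q) → ℂ) (u : Fin N → Λ → Q) :
    (one a (lift Y (single x y 1)) *ᵥ w) u =
      if res Y (u a) = x then w (Function.update u a (glue Y y (cores Y (u a)))) else 0 := by
  rw [mulVec, dotProduct,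
    Finset.sum_eq_single (Function.update u a (glue Y y (cores Y (u a))))]
  · rw [one, if_pos fun j hj => (Function.update_of_ne hj _ _).symm, Function.update_self, lift,
      cores_glue, res_glue, if_pos rfl, single_apply]
    by_cases h : res Y (u a) = x
    · simp [h]
    · simp [h, Ne.symm h]
  · intro t _ ht
    rw [one, lift, single_apply]
    split_ifs with h1 h2 h3
    · refine absurd (funext fun j => ?_) ht
      by_cases h : j = a
      · rw [h, Function.update_self, h2, h3.2, glue_res]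
      · rw [Function.update_of_ne h, h1 j h]
    all_goals exact zero_mul _
  · simp

end RepBA

theorem ip_tv_split [Nonempty Q] (a : Fin N) (O : Matrix (Λ → Q) (Λ → Q) ℂ) {X : RM Λ Q N}
    (hX : Loc (fun j => j ≠ a) X) {ξ : (Λ → Q) → ℂ} (hξ : nsq ξ = 1) :
    ip (tv N ξ) (one a O * X) (tv N ξ) = ip ξ O ξ * ip (tv N ξ) X (tv N ξ) := by
  have h1 : star ξ ⬝ᵥ ξ = 1 := by rw [← nsq_eq, hξ, Complex.ofReal_one]
  obtain ⟨p, hp⟩ : ∃ p, p = vecMulVec ξ (star ξ) := ⟨_, rfl⟩
  have p1 : p * O * p = ip ξ O ξ • p := by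
    rw [hp, mul_assoc, mul_vecMulVec, vecMulVec_mul_vecMulVec, vecMulVec_smul, ip]
  have p2 : p * p = p := by rw [hp, vecMulVec_mul_vecMulVec, h1, one_smul]
  have p3 : pᴴ = p := by rw [hp, conjTranspose_vecMulVec, star_star]
  have p4 : p *ᵥ ξ = ξ := by rw [hp, vecMulVec_mulVec, h1, MulOpposite.op_one, one_smul]
  have t1 : tens N p *ᵥ tv N ξ = tv N ξ := by rw [tens_tv, p4]
  have t2 : one a p *ᵥ tv N ξ = tv N ξ := by
    conv_lhs => rw [← t1, mulVec_mulVec, one_eq, tens_eq, tensF_mul]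
    conv_rhs => rw [← t1, tens_eq]
    congr 2
    funext j
    by_cases h : j = a
    · rw [h, Function.update_self, p2]
    · rw [Function.update_of_ne h, one_mul]
  have t3 : ∀ M : RM Λ Q N, ip (tv N ξ) (one a p * M) (tv N ξ) = ip (tv N ξ) M (tv N ξ) :=
    fun M => by rw [ip, ← mulVec_mulVec, dot_mulVec, one_ct, p3, t2, ip]
  have t4 : (one a O * X) *ᵥ tv N ξ = (one a O * one a p * X) *ᵥ tv N ξ := by
    rw [mul_assoc, (one_loc a p).comm hX fun j h h' => h' h, ← mul_assoc, ← mulVec_mulVec _ _ (one a p),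
      t2]
  have t5 : ip (tv N ξ) (one a p * (one a O * X)) (tv N ξ) =
      ip (tv N ξ) (one a p * (one a O * one a p * X)) (tv N ξ) := by
    rw [ip, ip, ← mulVec_mulVec, t4, mulVec_mulVec]
  rw [← t3, t5, ← mul_assoc, ← mul_assoc, ← one_mul', ← one_mul', p1, one_smul', smul_mul_assoc, ip,
    smul_mulVec, dotProduct_smul, smul_eq_mul]
  exact congrArg _ (t3 X)
theorem qf_one_tv [Nonempty Q] (a : Fin N) (O : Matrix (Λ → Q) (Λ → Q) ℂ) {ξ : (Λ → Q) → ℂ}
    (hξ : nsq ξ = 1) : qf (one a O) (tv N ξ) = qf O ξ := by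
  have := ip_tv_split a O (loc_one _) hξ
  rw [mul_one, ip.eq_def _ 1, one_mulVec, ← nsq_eq, nsq_tv, hξ, one_pow, Complex.ofReal_one,
    mul_one] at this
  rw [qf, this, qf]
theorem swap_units (Y : Finset Λ) {a j : Fin N} (h : a ≠ j) :
    pm Q Y (Equiv.swap a j) = ∑ x : {z // z ∈ Y} → Q, ∑ y : {z // z ∈ Y} → Q,
      one a (lift Y (single x y 1)) * one j (lift Y (single y x 1)) := by
  refine loc_mat_ext fun w => funext fun u => ?_
  rw [pm_mulVec]
  simp only [sum_mulVec, Finset.sum_apply, ← mulVec_mulVec, RepBA.unit_vec,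
    Function.update_of_ne h.symm, Finset.sum_ite_irrel, Finset.sum_ite_eq, Finset.mem_univ,
    if_true, Finset.sum_const_zero]
  congr 1
  funext i s
  rw [pa, inv_inv]
  by_cases h1 : i = j
  · rw [h1, Function.update_self, Equiv.swap_apply_right]
    by_cases hs : s ∈ Y <;> simp [glue, hs, res, cores]
  · rw [Function.update_of_ne h1]
    by_cases h2 : i = a
    · rw [h2, Function.update_self, Equiv.swap_apply_left]
      by_cases hs : s ∈ Y <;> simp [glue, hs, res, cores]
    · rw [Function.update_of_ne h2, Equiv.swap_apply_of_ne_of_ne h2 h1, ite_self]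
theorem mg_units (Y : Finset Λ) (ξ : (Λ → Q) → ℂ) :
    mg Y ξ = ∑ x : {z // z ∈ Y} → Q, ∑ y : {z // z ∈ Y} → Q,
      ip ξ (lift Y (single x y 1)) ξ • lift Y (single y x 1) := by
  simp only [ip_lift, trace_single_mul, ← rho_amp, one_smul]
  ext s t
  simp only [mg, Matrix.sum_apply, Matrix.smul_apply, lift, smul_eq_mul]
  split_ifs
  · simp [single_apply, ite_and]
  · simp
theorem tens_bd {O : Matrix (Λ → Q) (Λ → Q) ℂ} (h : Bd O 1) : Bd (tens N O) 1 := by
  rw [← RepBA.T_univ]
  induction (Finset.univ : Finset (Fin N)) using Finset.induction_on with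
  | empty => rw [RepBA.T_empty]; exact bd_one
  | insert a S ha ih =>
    rw [RepBA.T_insert ha]
    simpa using (one_bd a zero_le_one h).mul ih zero_le_one
theorem tens_prj {O : Matrix (Λ → Q) (Λ → Q) ℂ} (h : Prj O) : Prj (tens N O) :=
  ⟨by rw [IsHermitian, tens_ct, h.1], by rw [← tens_mul, h.2]⟩
theorem hexp_sum_one {L : Matrix (Λ → Q) (Λ → Q) ℂ} (hL : L.IsHermitian) :
    hexp (∑ a : Fin N, one a L) = tens N (hexp L) := by
  rw [← RepBA.T_univ]
  induction (Finset.univ : Finset (Fin N)) using Finset.induction_on with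
  | empty => rw [RepBA.T_empty, Finset.sum_empty, hexp_zero]
  | insert a S ha ih =>
    rw [RepBA.T_insert ha, Finset.sum_insert ha, hexp_add (RepBA.herm a hL) (RepBA.herm_sum S hL)
      (Commute.sum_right _ _ _ fun b hb => one_comm (ne_of_mem_of_not_mem hb ha).symm L L), ih, hexp,
      one_hf a hL, hexp]
theorem tens_pd {O : Matrix (Λ → Q) (Λ → Q) ℂ} (h : Pd O) : Pd (tens N O) := by
  rw [← hexp_log h, ← hexp_sum_one (hlog_herm O)]
  exact hexp_pd (RepBA.herm_sum _ (hlog_herm O))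
theorem hlog_tens {O : Matrix (Λ → Q) (Λ → Q) ℂ} (h : Pd O) :
    hlog (tens N O) = ∑ a : Fin N, one a (hlog O) := by
  have hs := RepBA.herm_sum (Finset.univ : Finset (Fin N)) (hlog_herm O)
  conv_lhs => rw [← hexp_log h, ← hexp_sum_one (hlog_herm O), hlog, hexp, hf_comp hs]
  simp only [Real.log_exp, hf_id hs]
theorem tens_near {h : Matrix (Λ → Q) (Λ → Q) ℂ} {b ε : ℝ} (hb0 : 0 ≤ b) (hb : Bd h b) (hε : 0 ≤ ε)
    (h1 : N * ε * b ≤ 1) :
    Bd (tens N (1 - (ε : ℂ) • h) - (1 - (ε : ℂ) • ∑ a : Fin N, one a h)) ((N * ε * b) ^ 2) := by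
  have hy : 0 ≤ ε * b := mul_nonneg hε hb0
  have hn : ‖(ε : ℂ)‖ = ε := by rw [Complex.norm_real, Real.norm_of_nonneg hε]
  have key : ∀ S : Finset (Fin N), Bd (RepBA.T S (1 - (ε : ℂ) • h) -
      (1 - (ε : ℂ) • ∑ a ∈ S, one a h)) ((1 + ε * b) ^ S.card - 1 - S.card * (ε * b)) := by
    intro S
    induction S using Finset.induction_on with
    | empty =>
      intro v
      simp [RepBA.T_empty, nr_zero]
    | insert a S ha ih =>
      have b1 := (one_bd a hb0 hb).smul (ε : ℂ)
      have b2 := (Bd.sum S fun c _ => one_bd c hb0 hb).smul (ε : ℂ)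
      rw [hn] at b1 b2
      have b3 := ((bd_one.sub b1).mul ih (by positivity)).add (b1.mul b2 hy)
      rw [RepBA.T_insert ha, Finset.sum_insert ha, one_sub, one_one, one_smul', smul_add,
        Finset.card_insert_of_notMem ha]
      generalize RepBA.T S (1 - (ε : ℂ) • h) = T at b3
      generalize (ε : ℂ) • ∑ a ∈ S, one a h = B at b3
      generalize (ε : ℂ) • one a h = A at b3
      rw [show (1 - A) * T - (1 - (A + B)) = (1 - A) * (T - (1 - B)) + A * B by noncomm_ring]
      refine b3.mono (le_of_eq ?_)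
      rw [Finset.sum_const, nsmul_eq_mul]
      push_cast
      ring
  have h2 := key Finset.univ
  rw [RepBA.T_univ, Finset.card_univ, Fintype.card_fin] at h2
  refine h2.mono ?_
  have h3 : (1 + ε * b) ^ N ≤ Real.exp (N * (ε * b)) := by
    rw [Real.exp_nat_mul]
    exact pow_le_pow_left₀ (by positivity) (by linarith [Real.add_one_le_exp (ε * b)]) N
  have h4 := Real.abs_exp_sub_one_sub_id_le (x := N * (ε * b))
    (by rw [abs_of_nonneg (by positivity), ← mul_assoc]; exact h1)
  rw [mul_assoc]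
  linarith [le_abs_self (Real.exp (N * (ε * b)) - 1 - N * (ε * b))]
theorem sum_one_sym (a : Fin N) (h : Matrix (Λ → Q) (Λ → Q) ℂ) {v : (Fin N → Λ → Q) → ℂ}
    (hv : Sy Finset.univ v) :
    (∑ b : Fin N, one b h) *ᵥ v = (N : ℂ) • (PS Λ Q Finset.univ * one a h) *ᵥ v := by
  have hm : ∀ π : Equiv.Perm (Fin N), π ∈ SG (Finset.univ : Finset (Fin N)) := fun π => by
    rw [SG_univ]
    exact Finset.mem_univ π
  have h1 : Sy Finset.univ ((∑ b : Fin N, one b h) *ᵥ v) := hv.mulVec fun π _ => by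
    change _ * _ = _ * _
    rw [Finset.mul_sum, ← Equiv.sum_comp π fun b => one b h, Finset.sum_mul]
    exact Finset.sum_congr rfl fun b _ => one_conj b h π
  have h2 : ∀ b, (PS Λ Q Finset.univ * one b h) *ᵥ v = (PS Λ Q Finset.univ * one a h) *ᵥ v :=
    fun b => by
      have h3 := one_conj a h (Equiv.swap a b)
      rw [Equiv.swap_apply_left] at h3
      conv_lhs => rw [← hv _ (hm (Equiv.swap a b)), mulVec_mulVec, mul_assoc, ← h3, ← mul_assoc,
        (pm_PS (hm _)).2]
  rw [← (sy_iff _ _).1 h1, mulVec_mulVec, Finset.mul_sum, sum_mulVec]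
  simp only [h2, Finset.sum_const, Finset.card_univ, Fintype.card_fin, Nat.cast_smul_eq_nsmul]

end Vale.Agent.P356G
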