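import Vale.Agent.P356G.D2
import Vale.Agent.P356G.Cont
import Vale.Agent.P356G.RepB

/- `typical`: induction on `S`; the new factor is `1 - hf (X i) (ind (x i))`, a projector (`hf_mul`,
`hf_ct`) commuting with everything that commutes with `X i` (`hf_comm`); `v - P' P v = (v - P v) + P (v - P' v)`;
a vector fixed by the product is fixed by each factor; `hf_meas` for the last clause.
`mo_compl`: like `ent_compl` (copy the proof of `ent_rect` for a function vanishing at zero).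
`mom_univ`, `mom_empty`: the marginal is a rank one projector, the eigenvalues are `0` or `1` with sum one.
`tens_bd'`: scale to a contraction (`r = 0` forces `O = 0`).
`drop`: see the formula in the docstring; two applications of strong subadditivity. -/

namespace Vale.Agent.P356G

open Matrix Vale.Agent.P356

namespace Typ2A

theorem prj_ind {n : Type} [Fintype n] [DecidableEq n] {X : Matrix n n ℂ} (hX : X.IsHermitian)
    (x : ℝ) : Prj (hf X (ind x)) := by
  refine ⟨?_, ?_⟩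
  · rw [Matrix.IsHermitian, hf_ct]
    refine hf_congr hX fun i => ?_
    unfold ind; split_ifs <;> simp
  · rw [hf_mul hX]
    refine hf_congr hX fun i => ?_
    unfold ind; split_ifs <;> simp

theorem qf_le {n : Type} [Fintype n] [DecidableEq n] {X : Matrix n n ℂ} (hX : X.IsHermitian)
    {x : ℝ} {u : n → ℂ} (h : hf X (ind x) *ᵥ u = 0) : qf X u ≤ x * nsq u := by
  obtain ⟨w, w0, w1, w2, w3⟩ := hf_meas hX u
  have h1 := w3 (ind x)
  rw [h, show nsq (0 : n → ℂ) = 0 by simp [nsq], eq_comm,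
    Finset.sum_eq_zero_iff_of_nonneg fun i _ => mul_nonneg (w0 i) (sq_nonneg _)] at h1
  have h2 := w2 fun y => y
  rw [hf_id hX] at h2
  rw [h2, ← w1, Finset.mul_sum]
  refine Finset.sum_le_sum fun i hi => ?_
  by_cases hx : x < hX.eigenvalues i
  · have : w i = 0 := by simpa [ind, hx] using h1 i hi
    simp [this]
  · rw [mul_comm x]
    exact mul_le_mul_of_nonneg_left (not_lt.1 hx) (w0 i)

theorem rect {n m : Type} [Fintype n] [DecidableEq n] [Fintype m] [DecidableEq m]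
    (U : Matrix n m ℂ) {M : Matrix n n ℂ} {N : Matrix m m ℂ} (hM : M.IsHermitian)
    (hN : N.IsHermitian) (h1 : M = U * Uᴴ) (h2 : N = (Uᴴ * U)ᵀ) (φ : ℝ → ℝ) (h0 : φ 0 = 0) :
    ∑ j, φ (hN.eigenvalues j) = ∑ i, φ (hM.eigenvalues i) := by
  obtain ⟨V, hV, h3⟩ := herm_spec hM
  obtain ⟨W, hW, h4⟩ := herm_spec (isHermitian_conjTranspose_mul_self U)
  generalize hM.eigenvalues = l at h3 ⊢
  generalize (isHermitian_conjTranspose_mul_self U).eigenvalues = k at h4
  have e : (Wᴴᵀ)ᴴ = Wᵀ := by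
    ext i j
    simp
  have hW' : Wᴴᵀ * (Wᴴᵀ)ᴴ = 1 := by
    rw [e, ← transpose_mul, hW, transpose_one]
  have h5 : N = fr Wᴴᵀ k := by
    rw [h2, h4, fr, fr, fn, fn, e, transpose_mul, transpose_mul, diagonal_transpose,
      Matrix.mul_assoc]
  rw [sum_eig hN hW' k h5]
  have h6 : fr V l * U = U * fr W k := by
    rw [← h3, ← h4, h1, Matrix.mul_assoc]
  have h7 := intertwine hV hW U l k h6 fun x => φ x / x
  have h8 : trace ((fr V fun i => φ (l i) / l i) * fr V l) =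
      trace ((fr W fun j => φ (k j) / k j) * fr W k) := by
    rw [← h3, ← h4, h1, ← Matrix.mul_assoc, h7, trace_mul_cycle, trace_mul_comm]
  have e2 : ∀ x : ℝ, φ x / x * x = φ x := fun x => by
    rcases eq_or_ne x 0 with rfl | h
    · rw [mul_zero, h0]
    · exact div_mul_cancel₀ _ h
  rw [fr_mul hV, fr_mul hW, ent_trace_fr hV, ent_trace_fr hW, Complex.ofReal_inj] at h8
  simp only [e2] at h8
  exact h8.symm

end Typ2A
open Typ2A

theorem typical {n ι : Type} [Fintype n] [DecidableEq n] [DecidableEq ι] (S : Finset ι)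
    (X : ι → Matrix n n ℂ) (x : ι → ℝ) (hX : ∀ i ∈ S, (X i).IsHermitian)
    (hc : ∀ i ∈ S, ∀ j ∈ S, Commute (X i) (X j)) (v : n → ℂ) {e : ℝ}
    (he : ∀ i ∈ S, nr (hf (X i) (ind (x i)) *ᵥ v) ≤ e) :
    ∃ P : Matrix n n ℂ, Prj P ∧ (∀ Z, (∀ i ∈ S, Commute Z (X i)) → Commute Z P) ∧
      nr (v - P *ᵥ v) ≤ S.card * e ∧ ∀ u, P *ᵥ u = u → ∀ i ∈ S, qf (X i) u ≤ x i * nsq u := by
  induction S using Finset.induction_on with
  | empty => exact ⟨1, ⟨isHermitian_one, one_mul _⟩, fun Z _ => Commute.one_right Z,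
      by simp [nr_zero], by simp⟩
  | insert a S ha ih =>
    have m := fun i (hi : i ∈ S) => Finset.mem_insert_of_mem (b := a) hi
    have ma := Finset.mem_insert_self a S
    obtain ⟨P, p1, p2, p3, p4⟩ := ih (fun i hi => hX i (m i hi))
      (fun i hi j hj => hc i (m i hi) j (m j hj)) fun i hi => he i (m i hi)
    have q1 := (prj_ind (hX a ma) (x a)).compl
    have q2 : ∀ Z, Commute Z (X a) → Commute Z (1 - hf (X a) (ind (x a))) := fun Z hZ =>
      (Commute.one_right Z).sub_right (hf_comm hZ _)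
    have q3 := (p2 _ fun i hi => (q2 _ (hc i (m i hi) a ma)).symm).symm
    refine ⟨P * (1 - hf (X a) (ind (x a))), p1.mul q1 q3,
      fun Z hZ => (p2 Z fun i hi => hZ i (m i hi)).mul_right (q2 Z (hZ a ma)), ?_, fun u hu => ?_⟩
    · have e1 : v - (P * (1 - hf (X a) (ind (x a)))) *ᵥ v =
          v - P *ᵥ v + P *ᵥ (hf (X a) (ind (x a)) *ᵥ v) := by
        rw [mul_sub, mul_one, sub_mulVec, mulVec_mulVec]; abel
      rw [e1, Finset.card_insert_of_notMem ha]
      have := p1.bd (hf (X a) (ind (x a)) *ᵥ v)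
      push_cast
      linarith [nr_add (v - P *ᵥ v) (P *ᵥ (hf (X a) (ind (x a)) *ᵥ v)), he a ma]
    · have u1 : P *ᵥ u = u := by
        conv_lhs => rw [← hu, mulVec_mulVec, ← mul_assoc, p1.2, hu]
      have u2 : (1 - hf (X a) (ind (x a))) *ᵥ u = u := by
        conv_lhs => rw [← hu, mulVec_mulVec, q3.eq, ← mul_assoc, q1.2, ← q3.eq, hu]
      rw [sub_mulVec, one_mulVec, sub_eq_self] at u2
      exact Finset.forall_mem_insert _ _ _ |>.2 ⟨qf_le (hX a ma) u2, p4 u u1⟩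

variable {Λ Q : Type} [Fintype Λ] [DecidableEq Λ] [Fintype Q] [DecidableEq Q] [Nonempty Q]

theorem mo_compl (Y : Finset Λ) (ξ : (Λ → Q) → ℂ) {a : ℝ} (ha : a ≠ 0) : mo Yᶜ ξ a = mo Y ξ a := by
  refine rect (fun a c => ξ (glue Y a (entE1 Y c))) (rho_herm Y ξ) (rho_herm Yᶜ ξ) ?_ ?_
    (fun x => x ^ a) (Real.zero_rpow ha)
  · ext a b
    exact ((entE1 Y).sum_comp fun c => ξ (glue Y a c) * star (ξ (glue Y b c))).symm
  · ext a b
    simp only [rho, transpose_apply, ent_glue_compl]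
    rw [(entE2 Y).sum_comp fun c => ξ (glue Y c (entE1 Y a)) * star (ξ (glue Y c (entE1 Y b)))]
    exact Finset.sum_congr rfl fun c _ => mul_comm _ _
theorem Mom.compl {Y : Finset Λ} {ξ : (Λ → Q) → ℂ} {s v : ℝ} (h : Mom Y ξ s v) (hs : 0 < s)
    (hs1 : s < 1) : Mom Yᶜ ξ s v := by
  rwa [Mom, mo_compl Y ξ (by linarith), mo_compl Y ξ (by linarith), ent_compl]
theorem Mom.mono {Y : Finset Λ} {ξ : (Λ → Q) → ℂ} {s v v' : ℝ} (h : Mom Y ξ s v) (hv : v ≤ v') :
    Mom Y ξ s v' := by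
  exact ⟨h.1.trans (Real.exp_le_exp.2 (by linarith)), h.2.trans (Real.exp_le_exp.2 (by linarith))⟩
theorem ent_empty {ξ : (Λ → Q) → ℂ} (hξ : nsq ξ = 1) : entropy (∅ : Finset Λ) ξ = 0 := by
  exact le_antisymm (by simpa using ent_le_card ∅ hξ) (ent_nonneg _ hξ)
theorem ent_univ {ξ : (Λ → Q) → ℂ} (hξ : nsq ξ = 1) : entropy (Finset.univ : Finset Λ) ξ = 0 := by
  rw [← Finset.compl_empty, ent_compl, ent_empty hξ]
theorem mom_empty {ξ : (Λ → Q) → ℂ} (hξ : nsq ξ = 1) (s : ℝ) : Mom (∅ : Finset Λ) ξ s 0 := by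
  obtain ⟨V, l, hV, h1, -, h3, -⟩ := ent_basis ∅ hξ
  have h4 : ∀ a, mo (∅ : Finset Λ) ξ a = 1 := fun a => by
    rw [mo, sum_eig (rho_herm ∅ ξ) hV l h1 fun x => x ^ a, Fintype.sum_unique]
    rw [Fintype.sum_unique] at h3
    rw [h3, Real.one_rpow]
  simp [Mom, h4, ent_empty hξ]
theorem mom_univ {ξ : (Λ → Q) → ℂ} (hξ : nsq ξ = 1) {s : ℝ} (hs : 0 < s) (hs1 : s < 1) :
    Mom (Finset.univ : Finset Λ) ξ s 0 := by
  rw [← Finset.compl_empty]
  exact (mom_empty hξ s).compl hs hs1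
theorem tens_bd' (N : ℕ) {O : Matrix (Λ → Q) (Λ → Q) ℂ} {r : ℝ} (hr : 0 ≤ r) (h : Bd O r) :
    Bd (tens N O) (r ^ N) := by
  have h1 : Bd (((r⁻¹ : ℝ) : ℂ) • O) 1 := (h.smul _).mono (by
    rw [Complex.norm_real, Real.norm_of_nonneg (inv_nonneg.2 hr)]
    exact inv_mul_le_one_of_le₀ le_rfl hr)
  have h2 : tens N O = ((r : ℂ) ^ N) • tens N (((r⁻¹ : ℝ) : ℂ) • O) := by
    ext s t
    have : ∀ i j, O i j = r * (((r⁻¹ : ℝ) : ℂ) * O i j) := fun i j => by
      rcases hr.eq_or_lt with rfl | h0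
      · simpa using h.entry i j
      · rw [← mul_assoc, ← Complex.ofReal_mul, mul_inv_cancel₀ h0.ne', Complex.ofReal_one, one_mul]
    simp only [tens, Matrix.smul_apply, smul_eq_mul]
    rw [Finset.prod_congr rfl fun j _ => this _ _, Finset.prod_mul_distrib, Finset.prod_const,
      Finset.card_univ, Fintype.card_fin]
  rw [h2]
  simpa [abs_of_nonneg hr] using (tens_bd (N := N) h1).smul ((r : ℂ) ^ N)
theorem MI_nonneg {k : Cfg Λ} (h : Disjoint k.1 k.2) {ξ : (Λ → Q) → ℂ} (hξ : nsq ξ = 1) :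
    0 ≤ MI k ξ := by
  exact sub_nonneg.2 (ent_union h hξ)
theorem MI_mono {ξ : (Λ → Q) → ℂ}
    (hssa : ∀ A B : Finset Λ, entropy (A ∪ B) ξ + entropy (A ∩ B) ξ ≤ entropy A ξ + entropy B ξ)
    {A B A' B' : Finset Λ} (h : Disjoint A B) (hA : A' ⊆ A) (hB : B' ⊆ B) :
    MI (A', B') ξ ≤ MI (A, B) ξ := by
  have k : ∀ {A B A' : Finset Λ}, Disjoint A B → A' ⊆ A →
      entropy (A ∪ B) ξ + entropy A' ξ ≤ entropy A ξ + entropy (A' ∪ B) ξ := fun {A B A'} h hA => by
    have := hssa A (A' ∪ B)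
    rwa [← Finset.union_assoc, Finset.union_eq_left.2 hA, Finset.inter_union_distrib_left,
      Finset.inter_eq_right.2 hA, Finset.disjoint_iff_inter_eq_empty.1 h, Finset.union_empty] at this
  have h1 := k h hA
  have h2 := k (h.symm.mono_right hA) hB
  rw [Finset.union_comm B, Finset.union_comm B'] at h2
  simp only [MI]
  linarith
/-- `L = slab 0 a1`, `G = slab a1 a2`, `C = slab a2 a3`, `G' = slab a3 a4`, `R = slab a4 T`; by purity
`I(L G C : R) + I(C G' R : L) - I(C : L R) = I(L G : G' R) + I(L : R) - I(G : G')` -/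
theorem drop {ξ : (Λ → Q) → ℂ}
    (hssa : ∀ A B : Finset Λ, entropy (A ∪ B) ξ + entropy (A ∩ B) ξ ≤ entropy A ξ + entropy B ξ)
    (ht : Λ → ℕ) {a1 a2 a3 a4 T : ℕ} (h1 : a1 ≤ a2) (h2 : a2 ≤ a3) (h3 : a3 ≤ a4) (h4 : a4 ≤ T)
    (hT : ∀ z, ht z < T) :
    MI (slab ht 0 a1, slab ht a4 T) ξ + MI (slab ht a2 a3, slab ht 0 a1 ∪ slab ht a4 T) ξ ≤
      MI (slab ht 0 a3, slab ht a4 T) ξ + MI (slab ht a2 T, slab ht 0 a1) ξ := by
  have m : ∀ a b z, z ∈ slab ht a b ↔ a ≤ ht z ∧ ht z < b := fun a b z => by simp [slab]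
  have k := MI_mono hssa (A := slab ht 0 a2) (B := slab ht a3 T) (A' := slab ht a1 a2)
    (B' := slab ht a3 a4) (Finset.disjoint_left.2 fun z => by simp only [m]; omega)
    (fun z => by simp only [m]; omega) fun z => by simp only [m]; omega
  have e : ∀ A B : Finset Λ, (∀ z, z ∈ B ↔ z ∉ A) → entropy B ξ = entropy A ξ := fun A B h => by
    rw [← ent_compl A]
    congr 1
    ext z
    rw [h, Finset.mem_compl]
  have e1 := e (slab ht a2 a3) (slab ht 0 a2 ∪ slab ht a3 T) fun z => by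
    have := hT z; simp only [m, Finset.mem_union]; omega
  have e2 := e (slab ht a2 a3 ∪ (slab ht 0 a1 ∪ slab ht a4 T)) (slab ht a1 a2 ∪ slab ht a3 a4)
    fun z => by have := hT z; simp only [m, Finset.mem_union]; omega
  have e3 := e (slab ht 0 a3) (slab ht a3 T) fun z => by have := hT z; simp only [m]; omega
  have e4 := e (slab ht 0 a3 ∪ slab ht a4 T) (slab ht a3 a4) fun z => by
    have := hT z; simp only [m, Finset.mem_union]; omega
  have e5 := e (slab ht a2 T) (slab ht 0 a2) fun z => by have := hT z; simp only [m]; omega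
  have e6 := e (slab ht a2 T ∪ slab ht 0 a1) (slab ht a1 a2) fun z => by
    have := hT z; simp only [m, Finset.mem_union]; omega
  simp only [MI] at k ⊢
  linarith

end Vale.Agent.P356G
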