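import Vale.Agent.P356G.Bil1
import Vale.Agent.P356G.Typ2

/- The bilayer data. Index type `Bool × ι`. The sets: for `H0 + 1 < a ≤ b ≤ T = 2 H0 + 1` and
`k = flat (ht2 T ht) a b`: layer `false` has `slab 0 a`, `slab b (T + 1)`; layer `true` has
`slab (T + 1 - a) (T + 1)`, `slab 0 (T + 1 - b)`; the world `σ = (ht ≤ H0)` has `slab (T + 1 - a) a` and
`slab 0 (T + 1 - b) ∪ slab b (T + 1)`, the other world has `univ` and `∅` (all by `ext`, `simp`, `omega`).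
A single slab is a union with the empty slab `slab 0 0`; use `Mom.compl` or rewrite unions of slabs. -/

namespace Vale.Agent.P356G

open Matrix Vale.Agent.P356

variable {Λ Q ι : Type} [Fintype Λ] [DecidableEq Λ] [Fintype Q] [DecidableEq Q] [Nonempty Q]
  [Fintype ι] [DecidableEq ι]

namespace Bil3A

omit [DecidableEq Λ] in
theorem mem_slab {ht : Λ → ℕ} {x y : ℕ} {z : Λ} : z ∈ slab ht x y ↔ x ≤ ht z ∧ ht z < y := by
  unfold slab
  rw [Finset.mem_filter]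
  simp only [Finset.mem_univ, true_and]

omit [DecidableEq Q] [Nonempty Q] [Fintype Q] in
theorem sets {ht : Λ → ℕ} {H0 a b : ℕ} (hh : ∀ z, ht z ≤ 2 * H0 + 1) (h1 : H0 + 1 < a) (h2 : a ≤ b)
    (h3 : b ≤ 2 * H0 + 1) :
    (wd (fun _ => false) (flat (ht2 (2 * H0 + 1) ht) a b).1 = slab ht 0 a ∧
      wd (fun _ => false) (flat (ht2 (2 * H0 + 1) ht) a b).2 = slab ht b (2 * H0 + 2) ∧
      wd (opp fun _ => false) (flat (ht2 (2 * H0 + 1) ht) a b).1 =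
        slab ht (2 * H0 + 2 - a) (2 * H0 + 2) ∧
      wd (opp fun _ => false) (flat (ht2 (2 * H0 + 1) ht) a b).2 = slab ht 0 (2 * H0 + 2 - b)) ∧
    wd (fun z => decide (z ∈ slab ht 0 (H0 + 1))) (flat (ht2 (2 * H0 + 1) ht) a b).1 =
        slab ht (2 * H0 + 2 - a) a ∧
      wd (fun z => decide (z ∈ slab ht 0 (H0 + 1))) (flat (ht2 (2 * H0 + 1) ht) a b).2 =
        slab ht 0 (2 * H0 + 2 - b) ∪ slab ht b (2 * H0 + 2) ∧
      wd (opp fun z => decide (z ∈ slab ht 0 (H0 + 1))) (flat (ht2 (2 * H0 + 1) ht) a b).1 =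
        Finset.univ ∧
      wd (opp fun z => decide (z ∈ slab ht 0 (H0 + 1))) (flat (ht2 (2 * H0 + 1) ht) a b).2 = ∅ := by
  have m1 : ∀ (σ : Λ → Bool) z, z ∈ wd σ (flat (ht2 (2 * H0 + 1) ht) a b).1 ↔
      (if σ z then 2 * H0 + 1 - ht z else ht z) < a := fun σ z => by
    unfold wd flat
    rw [Finset.mem_filter, Finset.mem_filter]
    simp only [Finset.mem_univ, true_and, ht2]
  have m2 : ∀ (σ : Λ → Bool) z, z ∈ wd σ (flat (ht2 (2 * H0 + 1) ht) a b).2 ↔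
      b ≤ (if σ z then 2 * H0 + 1 - ht z else ht z) := fun σ z => by
    unfold wd flat
    rw [Finset.mem_filter, Finset.mem_filter]
    simp only [Finset.mem_univ, true_and, ht2]
  refine ⟨⟨?_, ?_, ?_, ?_⟩, ?_, ?_, ?_, ?_⟩ <;> ext z <;> have := hh z <;>
    simp only [m1, m2, opp, Finset.mem_union, mem_slab, Finset.mem_univ, Finset.notMem_empty,
      Bool.not_false, Bool.false_eq_true, if_true, if_false, decide_eq_true_eq, Bool.not_eq_true',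
      decide_eq_false_iff_not, iff_true, iff_false] <;> (try split_ifs) <;> omega

end Bil3A

theorem terms_bil {h : ι → Matrix (Λ → Q) (Λ → Q) ℂ} {Z : ι → Finset Λ} {I : Finset ι} {ht : Λ → ℕ}
    {T bot l1 s1 s2 l1' s1' s2' : ℕ} {J J' : ℝ} (hT : Terms h Z I ht T l1 s1 s2 J)
    (hh : ∀ z, ht z ≤ T) (hb : 0 < bot) (h1 : l1 ≤ l1') (h2 : s1 ≤ s1') (h3 : s2 ≤ s2')
    (h4 : J ≤ J') : Terms2 (fun y : Bool × ι => emb (fun _ => y.1) (h y.2))
      (fun y => (Z y.2).image fun z => (y.1, z)) (Finset.univ ×ˢ I) (ht2 T ht) bot T l1' s1' s2' J' := by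
  have mem : ∀ {y : Bool × ι} {p : Bool × Λ}, p ∈ (Z y.2).image (fun z => (y.1, z)) ↔
      p.1 = y.1 ∧ p.2 ∈ Z y.2 := by
    intro y p
    rw [Finset.mem_image]
    exact ⟨fun ⟨z, hz, e⟩ => e ▸ ⟨rfl, hz⟩, fun h => ⟨p.2, h.2, by rw [← h.1]⟩⟩
  have memI : ∀ {y : Bool × ι}, y ∈ Finset.univ ×ˢ I ↔ y.2 ∈ I := by
    intro y
    simp
  refine ⟨fun y => emb_ps _ (hT.ps y.2),
    fun y => (emb_loc _ (hT.loc y.2)).mono fun p hp => mem.2 hp, fun y hy => ?_, fun y hy => ?_,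
    fun y hy => Finset.card_image_le.trans ((hT.card _ (memI.1 hy)).trans h2),
    fun y hy p hp p' hp' => ?_, fun p => ?_⟩
  · have hf := hT.far y.2 fun h => hy (memI.2 h)
    cases hy1 : y.1
    · refine Or.inl fun p hp => ?_
      obtain ⟨e1, e2⟩ := (mem (y := (false, y.2))).1 hp
      simp only [ht2, e1]
      exact hf _ e2
    · refine Or.inr fun p hp => ?_
      obtain ⟨e1, e2⟩ := (mem (y := (true, y.2))).1 hp
      have := hf _ e2
      simp only [ht2, e1, if_true]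
      omega
  · refine (emb_le _ (hT.ps y.2).1 (hT.bd _ (memI.1 hy))).mono ⟨isHermitian_one, fun v => ?_⟩ h4
    rw [qf_one]
    exact nsq_nonneg v
  · obtain ⟨e1, e2⟩ := mem.1 hp
    obtain ⟨e3, e4⟩ := mem.1 hp'
    have a1 := hT.diam _ (memI.1 hy) _ e2 _ e4
    have a2 := hT.diam _ (memI.1 hy) _ e4 _ e2
    have a3 := hh p.2
    have a4 := hh p'.2
    simp only [ht2, e1, e3]
    split_ifs <;> omega
  · refine le_trans (Finset.card_le_card_of_injOn (fun y => y.2) (fun y hy => ?_)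
      fun y hy y' hy' e => ?_) ((hT.deg p.2).trans h3)
    · obtain ⟨a1, a2⟩ := Finset.mem_filter.1 (Finset.mem_coe.1 hy)
      exact Finset.mem_coe.2 (Finset.mem_filter.2 ⟨memI.1 a1, (mem.1 a2).2⟩)
    · obtain ⟨-, a2⟩ := Finset.mem_filter.1 (Finset.mem_coe.1 hy)
      obtain ⟨-, a3⟩ := Finset.mem_filter.1 (Finset.mem_coe.1 hy')
      exact Prod.ext ((mem.1 a2).1.symm.trans (mem.1 a3).1) e

theorem sum_bil (h : ι → Matrix (Λ → Q) (Λ → Q) ℂ) :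
    ∑ y : Bool × ι, emb (fun _ => y.1) (h y.2) =
      emb (fun _ => false) (∑ i, h i) + emb (opp fun _ => false) (∑ i, h i) := by
  rw [Fintype.sum_prod_type, Fintype.sum_bool, emb_sum, emb_sum, add_comm]
  rfl

theorem mi_gs {ht : Λ → ℕ} {H0 a b : ℕ} (hh : ∀ z, ht z ≤ 2 * H0 + 1) (h1 : H0 + 1 < a) (h2 : a ≤ b)
    (h3 : b ≤ 2 * H0 + 1) {Ω : (Λ → Q) → ℂ} (hΩ : nsq Ω = 1) :
    MI (flat (ht2 (2 * H0 + 1) ht) a b) (bp (fun _ => false) Ω Ω) =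
      MI (slab ht 0 a, slab ht b (2 * H0 + 2)) Ω +
        MI (slab ht (2 * H0 + 2 - a) (2 * H0 + 2), slab ht 0 (2 * H0 + 2 - b)) Ω := by
  obtain ⟨⟨e1, e2, e3, e4⟩, -⟩ := Bil3A.sets hh h1 h2 h3
  unfold MI
  rw [ent_bp _ _ hΩ hΩ, ent_bp _ _ hΩ hΩ, ent_bp _ _ hΩ hΩ, wd_union, wd_union, e1, e2, e3, e4]
  ring

theorem mi_trial {ht : Λ → ℕ} {H0 a b : ℕ} (hh : ∀ z, ht z ≤ 2 * H0 + 1) (h1 : H0 + 1 < a)
    (h2 : a ≤ b) (h3 : b ≤ 2 * H0 + 1) {Ω Φ : (Λ → Q) → ℂ} (hΩ : nsq Ω = 1) (hΦ : nsq Φ = 1) :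
    MI (flat (ht2 (2 * H0 + 1) ht) a b) (bp (fun z => decide (z ∈ slab ht 0 (H0 + 1))) Ω Φ) =
      MI (slab ht (2 * H0 + 2 - a) a,
        slab ht 0 (2 * H0 + 2 - b) ∪ slab ht b (2 * H0 + 2)) Ω := by
  obtain ⟨-, e1, e2, e3, e4⟩ := Bil3A.sets hh h1 h2 h3
  unfold MI
  rw [ent_bp _ _ hΩ hΦ, ent_bp _ _ hΩ hΦ, ent_bp _ _ hΩ hΦ, wd_union, wd_union, e1, e2, e3, e4,
    Finset.union_empty, ent_univ hΦ, ent_empty hΦ]
  ring

theorem mom_gs {ht : Λ → ℕ} {H0 a b : ℕ} (hh : ∀ z, ht z ≤ 2 * H0 + 1) (h1 : H0 + 1 < a)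
    (h2 : a ≤ b) (h3 : b ≤ 2 * H0 + 1) {Ω Φ : (Λ → Q) → ℂ} (hΩ : nsq Ω = 1) (hΦ : nsq Φ = 1)
    {s v : ℝ} (hs : 0 < s) (hs1 : s < 1) (hv : 0 ≤ v)
    (hm : ∀ x y z w, Mom (slab ht x y ∪ slab ht z w) Ω s v) :
    Mom3 (flat (ht2 (2 * H0 + 1) ht) a b) (bp (fun _ => false) Ω Ω) s (2 * v) ∧
      Mom3 (flat (ht2 (2 * H0 + 1) ht) a b)
        (bp (fun z => decide (z ∈ slab ht 0 (H0 + 1))) Ω Φ) s (2 * v) := by
  obtain ⟨⟨e1, e2, e3, e4⟩, f1, f2, f3, f4⟩ := Bil3A.sets hh h1 h2 h3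
  have one : ∀ x y, Mom (slab ht x y) Ω s v := fun x y => by
    have := hm x y x y
    rwa [Finset.union_self] at this
  have u0 := (mom_univ hΦ hs hs1).mono hv
  have u1 := (mom_empty hΦ s).mono hv
  rw [two_mul v]
  refine ⟨⟨mom_bp _ _ hΩ hΩ ?_ ?_, mom_bp _ _ hΩ hΩ ?_ ?_, mom_bp _ _ hΩ hΩ ?_ ?_⟩,
    mom_bp _ _ hΩ hΦ ?_ ?_, mom_bp _ _ hΩ hΦ ?_ ?_, mom_bp _ _ hΩ hΦ ?_ ?_⟩
  · rw [e1]; exact one _ _
  · rw [e3]; exact one _ _
  · rw [e2]; exact one _ _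
  · rw [e4]; exact one _ _
  · rw [wd_union, e1, e2]; exact hm _ _ _ _
  · rw [wd_union, e3, e4]; exact hm _ _ _ _
  · rw [f1]; exact one _ _
  · rw [f3]; exact u0
  · rw [f2]; exact hm _ _ _ _
  · rw [f4]; exact u1
  · rw [wd_union, f1, f2]
    have e : slab ht (2 * H0 + 2 - a) a ∪ (slab ht 0 (2 * H0 + 2 - b) ∪ slab ht b (2 * H0 + 2)) =
        (slab ht (2 * H0 + 2 - b) (2 * H0 + 2 - a) ∪ slab ht a b)ᶜ := by
      ext z
      have := hh z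
      simp only [slab, Finset.mem_union, Finset.mem_compl, Finset.mem_filter, Finset.mem_univ,
        true_and]
      omega
    rw [e]
    exact (hm _ _ _ _).compl hs hs1
  · rw [wd_union, f3, f4, Finset.union_empty]; exact u0

theorem loc_trial {ht : Λ → ℕ} {H0 : ℕ} (hh : ∀ z, ht z ≤ 2 * H0 + 1)
    (O : Matrix (Λ → Q) (Λ → Q) ℂ) : Loc (fun y => ht2 (2 * H0 + 1) ht y < H0 + 1)
      (emb (opp fun z => decide (z ∈ slab ht 0 (H0 + 1))) O) := by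
  refine (emb_loc _ (loc_true O)).mono fun y hy => ?_
  have h1 := hy.1
  have h2 := hh y.2
  by_cases h : ht y.2 < H0 + 1
  · have e : y.1 = false := by
      rw [h1]
      simp only [opp, Bil3A.mem_slab, h, Nat.zero_le, and_self, decide_true, Bool.not_true]
    simpa [ht2, e] using h
  · have e : y.1 = true := by
      rw [h1]
      simp only [opp, Bil3A.mem_slab, h, and_false, decide_false, Bool.not_false]
    simp only [ht2, e, if_true]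
    omega

end Vale.Agent.P356G
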