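import Vale.Agent.P356G.RepB

/- Block operators. For `a ∉ G`, `one a F` commutes with `P o` (`Loc.comm` on the replica level with
`one_loc`, `Meas.loc`). `blk_hf`: `hf_inter` with `Z = P o`: `P o * blk F = one a (F o) * P o`. -/

namespace Vale.Agent.P356G

open Matrix Vale.Agent.P356

variable {Λ Q : Type} [Fintype Λ] [DecidableEq Λ] [Fintype Q] [DecidableEq Q] [Nonempty Q] {N : ℕ}
  {O O' : Type} [Fintype O] [Fintype O'] {G G' : Finset (Fin N)} {P : O → RM Λ Q N}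
  {P' : O' → RM Λ Q N} {a : Fin N}

theorem Meas.comm (h : Meas G P) (ha : a ∉ G) (F : Matrix (Λ → Q) (Λ → Q) ℂ) (o : O) :
    Commute (one a F) (P o) :=
  (one_loc a F).comm (h.loc o) fun _ hj hG => ha (hj ▸ hG)

omit [Nonempty Q] in
theorem Meas.nsq (h : Meas G P) (u : (Fin N → Λ → Q) → ℂ) : ∑ o, nsq (P o *ᵥ u) = nsq u := by
  rw [← qf_one u, ← h.sum, qf_sum]
  exact Finset.sum_congr rfl fun o _ => (Prj.qf ⟨h.herm o, h.idem o⟩ u).symm

theorem BlkA.comm (h : Meas G P) (h' : Meas G' P') (hd : Disjoint G G') (o : O) (o' : O') :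
    Commute (P o) (P' o') :=
  (h.loc o).comm (h'.loc o') fun _ hj => Finset.disjoint_left.1 hd hj

theorem Meas.prod (h : Meas G P) (h' : Meas G' P') (hd : Disjoint G G') :
    Meas (G ∪ G') fun o : O × O' => P o.1 * P' o.2 where
  herm := fun o =>
    (Prj.mul ⟨h.herm o.1, h.idem o.1⟩ ⟨h'.herm o.2, h'.idem o.2⟩ (BlkA.comm h h' hd _ _)).1
  idem := fun o =>
    (Prj.mul ⟨h.herm o.1, h.idem o.1⟩ ⟨h'.herm o.2, h'.idem o.2⟩ (BlkA.comm h h' hd _ _)).2
  orth := fun o o' ho => by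
    rw [(BlkA.comm h h' hd o'.1 o.2).symm.mul_mul_mul_comm]
    by_cases h1 : o.1 = o'.1
    · rw [h'.orth o.2 o'.2 fun h2 => ho (Prod.ext h1 h2), Matrix.mul_zero]
    · rw [h.orth _ _ h1, Matrix.zero_mul]
  sum := by
    rw [Fintype.sum_prod_type, ← Finset.sum_mul_sum, h.sum, h'.sum, Matrix.mul_one]
  loc := fun o => ((h.loc o.1).mono fun _ hj => Finset.mem_union_left _ hj).mul
    ((h'.loc o.2).mono fun _ hj => Finset.mem_union_right _ hj)

omit [Nonempty Q] in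
theorem blk_fst (h' : Meas G' P') (F : O → Matrix (Λ → Q) (Λ → Q) ℂ) :
    blk a (fun o : O × O' => P o.1 * P' o.2) (fun o => F o.1) = blk a P F := by
  rw [blk, blk, Fintype.sum_prod_type]
  refine Finset.sum_congr rfl fun o _ => ?_
  simp only [← Finset.mul_sum]
  rw [h'.sum, Matrix.mul_one]

theorem blk_snd (h : Meas G P) (h' : Meas G' P') (hd : Disjoint G G')
    (F : O' → Matrix (Λ → Q) (Λ → Q) ℂ) :
    blk a (fun o : O × O' => P o.1 * P' o.2) (fun o => F o.2) = blk a P' F := by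
  rw [blk, blk, Fintype.sum_prod_type_right]
  refine Finset.sum_congr rfl fun o _ => ?_
  simp only [← Finset.mul_sum, ← Finset.sum_mul]
  rw [h.sum, Matrix.one_mul]

theorem BlkA.left (h : Meas G P) (ha : a ∉ G) (F : O → Matrix (Λ → Q) (Λ → Q) ℂ) (o : O) :
    P o * blk a P F = one a (F o) * P o := by
  rw [blk, Finset.mul_sum, Finset.sum_eq_single o]
  · rw [← Matrix.mul_assoc, ← (h.comm ha _ o).eq, Matrix.mul_assoc, h.idem]
  · intro o' _ ho
    rw [← Matrix.mul_assoc, ← (h.comm ha _ o).eq, Matrix.mul_assoc, h.orth _ _ ho.symm,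
      Matrix.mul_zero]
  · exact fun k => absurd (Finset.mem_univ o) k

theorem blk_mul (h : Meas G P) (ha : a ∉ G) (F F' : O → Matrix (Λ → Q) (Λ → Q) ℂ) :
    blk a P F * blk a P F' = blk a P fun o => F o * F' o := by
  conv_lhs => rw [blk, Finset.sum_mul]
  refine Finset.sum_congr rfl fun o _ => ?_
  rw [Matrix.mul_assoc, BlkA.left h ha, one_mul', Matrix.mul_assoc]

omit [Nonempty Q] in
theorem blk_const (h : Meas G P) (F : Matrix (Λ → Q) (Λ → Q) ℂ) :
    blk a P (fun _ => F) = one a F := by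
  rw [blk, ← Finset.mul_sum, h.sum, Matrix.mul_one]

omit [Nonempty Q] in
theorem blk_one (h : Meas G P) : blk a P (fun _ => 1) = 1 := by
  rw [blk_const h, one_one]

omit [Nonempty Q] in
theorem blk_add (F F' : O → Matrix (Λ → Q) (Λ → Q) ℂ) :
    blk a P (fun o => F o + F' o) = blk a P F + blk a P F' := by
  simp only [blk, one_add, Matrix.add_mul, Finset.sum_add_distrib]

omit [Nonempty Q] in
theorem blk_sub (F F' : O → Matrix (Λ → Q) (Λ → Q) ℂ) :
    blk a P (fun o => F o - F' o) = blk a P F - blk a P F' := by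
  simp only [blk, one_sub, Matrix.sub_mul, Finset.sum_sub_distrib]

omit [Nonempty Q] in
theorem blk_smul (c : ℂ) (F : O → Matrix (Λ → Q) (Λ → Q) ℂ) :
    blk a P (fun o => c • F o) = c • blk a P F := by
  simp only [blk, one_smul', Matrix.smul_mul, Finset.smul_sum]

theorem blk_ct (h : Meas G P) (ha : a ∉ G) (F : O → Matrix (Λ → Q) (Λ → Q) ℂ) :
    (blk a P F)ᴴ = blk a P fun o => (F o)ᴴ := by
  rw [blk, blk, conjTranspose_sum]
  refine Finset.sum_congr rfl fun o _ => ?_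
  rw [conjTranspose_mul, one_ct, (h.herm o).eq, (h.comm ha _ o).eq]

theorem nsq_blk (h : Meas G P) (ha : a ∉ G) (F : O → Matrix (Λ → Q) (Λ → Q) ℂ)
    (u : (Fin N → Λ → Q) → ℂ) :
    nsq (blk a P F *ᵥ u) = ∑ o, nsq (one a (F o) *ᵥ (P o *ᵥ u)) := by
  rw [← h.nsq]
  refine Finset.sum_congr rfl fun o _ => ?_
  rw [mulVec_mulVec, mulVec_mulVec, BlkA.left h ha]

theorem blk_bd (h : Meas G P) (ha : a ∉ G) {F : O → Matrix (Λ → Q) (Λ → Q) ℂ} {r : ℝ} (hr : 0 ≤ r)
    (hF : ∀ o, Bd (F o) r) : Bd (blk a P F) r := fun v => by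
  rw [nr_le_iff _ _ hr, nsq_blk h ha, ← h.nsq v, Finset.mul_sum]
  exact Finset.sum_le_sum fun o _ => (one_bd a hr (hF o)).nsq _

omit [Nonempty Q] in
theorem BlkA.one_spIn (a : Fin N) {F : Matrix (Λ → Q) (Λ → Q) ℂ} {lo hi : ℝ} (hF : SpIn F lo hi)
    (v : (Fin N → Λ → Q) → ℂ) : lo * nsq v ≤ qf (one a F) v ∧ qf (one a F) v ≤ hi * nsq v := by
  have h1 : ((lo : ℂ) • (1 : Matrix (Λ → Q) (Λ → Q) ℂ)).IsHermitian := by
    rw [IsHermitian, conjTranspose_smul, conjTranspose_one, Complex.star_def, Complex.conj_ofReal]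
  have h2 := one_le a h1 hF.1 (x := 1) (fun u => by
    rw [qf_smul, qf_one, one_mul]
    exact (hF.2 u).1) v
  have h3 := one_le a hF.1 isHermitian_one (x := hi) (fun u => by
    rw [qf_one]
    exact (hF.2 u).2) v
  rw [one_smul', one_one, qf_smul, qf_one, one_mul] at h2
  rw [one_one, qf_one] at h3
  exact ⟨h2, h3⟩

theorem BlkA.herm (h : Meas G P) (ha : a ∉ G) {F : O → Matrix (Λ → Q) (Λ → Q) ℂ}
    (hF : ∀ o, (F o).IsHermitian) : (blk a P F).IsHermitian := by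
  rw [IsHermitian, blk_ct h ha]
  congr 1
  exact funext fun o => (hF o).eq

theorem blk_spIn (h : Meas G P) (ha : a ∉ G) {F : O → Matrix (Λ → Q) (Λ → Q) ℂ} {lo hi : ℝ}
    (hF : ∀ o, SpIn (F o) lo hi) : SpIn (blk a P F) lo hi := by
  refine ⟨BlkA.herm h ha fun o => (hF o).1, fun v => ?_⟩
  have e : qf (blk a P F) v = ∑ o, qf (one a (F o)) (P o *ᵥ v) := by
    rw [blk, qf_sum]
    refine Finset.sum_congr rfl fun o _ => ?_
    rw [← qf_conj, (h.herm o).eq, ← (h.comm ha _ o).eq, Matrix.mul_assoc, h.idem]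
  rw [e, ← h.nsq v, Finset.mul_sum, Finset.mul_sum]
  exact ⟨Finset.sum_le_sum fun o _ => (BlkA.one_spIn a (hF o) _).1,
    Finset.sum_le_sum fun o _ => (BlkA.one_spIn a (hF o) _).2⟩

theorem blk_hf (h : Meas G P) (ha : a ∉ G) {F : O → Matrix (Λ → Q) (Λ → Q) ℂ}
    (hF : ∀ o, (F o).IsHermitian) (f : ℝ → ℂ) : hf (blk a P F) f = blk a P fun o => hf (F o) f := by
  rw [← Matrix.one_mul (hf (blk a P F) f), ← h.sum, Finset.sum_mul]
  refine Finset.sum_congr rfl fun o _ => ?_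
  have h1 : (one a (F o)).IsHermitian := by rw [IsHermitian, one_ct, (hF o).eq]
  rw [hf_inter (BlkA.herm h ha hF) h1 (P o) (BlkA.left h ha F o), one_hf a (hF o)]

omit [Nonempty Q] in
theorem BlkA.nsq_one (M : Matrix (Λ → Q) (Λ → Q) ℂ) (y : (Fin N → Λ → Q) → ℂ) :
    nsq (one a M *ᵥ y) = qf (one a (Mᴴ * M)) y := by
  rw [← qf_ct_mul, one_ct, one_mul']

theorem BlkA.rank {n : Type} [Fintype n] (x ψ : n → ℂ) :
    (vecMulVec x (star ψ))ᴴ * vecMulVec x (star ψ) = (nsq x : ℂ) • vecMulVec ψ (star ψ) := by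
  ext i j
  simp only [mul_apply, conjTranspose_apply, vecMulVec_apply, Matrix.smul_apply, nsq_eq,
    dotProduct, Pi.star_apply, star_mul', star_star, smul_eq_mul, Finset.sum_mul]
  exact Finset.sum_congr rfl fun k _ => by ring

omit [Nonempty Q] in
theorem nsq_one_rank (x : (Λ → Q) → ℂ) {ψ : (Λ → Q) → ℂ} (hψ : nsq ψ = 1)
    (y : (Fin N → Λ → Q) → ℂ) : nsq (one a (vecMulVec x (star ψ)) *ᵥ y) =
      nsq x * nsq (one a (vecMulVec ψ (star ψ)) *ᵥ y) := by
  rw [BlkA.nsq_one, BlkA.nsq_one, BlkA.rank, BlkA.rank, one_smul', one_smul', qf_smul, qf_smul, hψ,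
    one_mul]

omit [Nonempty Q] in
theorem mg_univ (ψ : (Λ → Q) → ℂ) : mg Finset.univ ψ = vecMulVec ψ (star ψ) := by
  have : IsEmpty {x : Λ // x ∉ (Finset.univ : Finset Λ)} := ⟨fun x => x.2 (Finset.mem_univ _)⟩
  ext s t
  have e : ∀ (u : Λ → Q) c, glue Finset.univ (res Finset.univ u) c = u := fun u c => by
    rw [Subsingleton.elim c (cores Finset.univ u), glue_res]
  rw [mg, lift, if_pos (Subsingleton.elim _ _), rho, Fintype.sum_unique, e, e]
  rfl

theorem BlkA.units {n : Type} [Fintype n] [DecidableEq n] (F : Matrix n n ℂ) :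
    ∑ s, ∑ s', (F * single s s' (1 : ℂ))ᴴ * (F * single s s' (1 : ℂ)) =
      ((∑ i, ∑ j, ‖F i j‖ ^ 2 : ℝ) : ℂ) • (1 : Matrix n n ℂ) := by
  have e : ∀ s s' : n, (F * single s s' (1 : ℂ))ᴴ * (F * single s s' (1 : ℂ)) =
      ((∑ i, ‖F i s‖ ^ 2 : ℝ) : ℂ) • single s' s' (1 : ℂ) := fun s s' => by
    rw [conjTranspose_mul, conjTranspose_single, Matrix.mul_assoc, ← Matrix.mul_assoc Fᴴ,
      ← Matrix.mul_assoc, single_mul_mul_single, smul_single, star_one, one_mul, mul_one,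
      smul_eq_mul, mul_one, mul_apply]
    congr 1
    push_cast
    refine Finset.sum_congr rfl fun i _ => ?_
    rw [conjTranspose_apply, Complex.star_def, Complex.conj_mul']
  simp only [e, ← Finset.smul_sum, sum_single_one, ← Finset.sum_smul]
  rw [Finset.sum_comm, Complex.ofReal_sum]

omit [Nonempty Q] in
/-- `∑ x y, (E x y)ᴴ Fᴴ F (E x y) = hs F` -/
theorem nsq_units (F : Matrix (Λ → Q) (Λ → Q) ℂ) (y : (Fin N → Λ → Q) → ℂ) :
    ∑ s, ∑ s', nsq (one a (F * single s s' 1) *ᵥ y) = (∑ i, ∑ j, ‖F i j‖ ^ 2) * nsq y := by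
  simp only [BlkA.nsq_one, ← qf_sum, ← one_sum]
  rw [BlkA.units, one_smul', one_one, qf_smul, qf_one]

end Vale.Agent.P356G
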