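import Vale.Agent.P356G.ColE0

/- One collar: `lo = fl V`, `hi = fl 0`, `W = (Jd + 1) l1`, `Sw = 2 ^ (m - m0)`, epochs of length `Ls`.
`epoch`: induction on `i ≤ Ls` with `Seq.snoc`; own step: `cstep` with the potential bound
`B i z = N / 2 + N (1 + 2 s1) / 2 ^ m * #{i' < i, tm i' ∈ own, z ∈ Z (tm i')} ≤ N` (at most `Sw s2` such
`i'`), factor `1 + y ≤ exp y`; other steps: keep `U`, factor one. At most `Sw * own.card` own steps.
`collar`: induction on the epochs. Start of an epoch at depth `d0`: `U r = lf (seed)` (`seed` with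
`hi = fl (d0 + r)`, `lo = fl (d0 + r + W)`, `pot_seed`, `small_ev`); end: `val_bind`, `val_mono`, `reset`,
`val_same` give `val (Mb (const (fl (d0 + W + r)))) (bal p 0) ≤ exp (η N) met U`; join with `Seq.last`,
`Seq.append`; first and last comparison with `hi`, `lo` by `retreat`, `val_mono`, `val_same`,
`Seq.first`, `Seq.last`. Choose `η` small depending on `Ep`, `own.card`; then `m` large. -/

namespace Vale.Agent.P356G

open Matrix Vale.Agent.P356 Filter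

namespace ColEA
variable {Λ Q ι : Type} [Fintype Λ] [DecidableEq Λ] [Fintype Q] [DecidableEq Q] [Nonempty Q]
  [DecidableEq ι] {N : ℕ} {θ : ℝ} {t : ℕ} {ht : Λ → ℕ} {a b : ℕ}

theorem inA_Lam {p d V : ℕ} (h : d + 2 ^ p ≤ V) : InA θ t (fl ht a b V) (fl ht a b 0)
    (Lam Q N θ t p fun r => fl ht a b (d + r)) := by
  have h1 := inA_val (Q := Q) (θ := θ) (t := t) (lo := fl ht a b V) (hi := fl ht a b 0)
    (T := (Tr.bal p 0).map fun r => fun _ : Fin N => fl ht a b (d + r))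
    ((Tr.all_map _ _).2 ((Tr.all_bal p 0).mono fun r hr _ => fl_btw (Nat.zero_le _) (by omega)))
  rwa [Tr.val_map] at h1

theorem le_val {α : Type} {T : Tr α} {M : α → RM Λ Q N} {A : RM Λ Q N} {x : ℝ} (hA : Pd A)
    (h : T.All fun c => Pd (M c) ∧ Le A x (M c)) : Le A x (T.val M) := by
  have h1 := Tr.val_mono (M := M) (M' := fun _ => A) (T := T) (x := x)
    (h.mono fun c hc => ⟨hc.1, hA, hc.2⟩)
  rwa [Tr.val_same hA] at h1

theorem val_le {α : Type} {T : Tr α} {M : α → RM Λ Q N} {A : RM Λ Q N} {x : ℝ} (hA : Pd A)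
    (h : T.All fun c => Pd (M c) ∧ Le (M c) x A) : Le (T.val M) x A := by
  have h1 := Tr.val_mono (M := fun _ => A) (M' := M) (T := T) (x := x)
    (h.mono fun c hc => ⟨hA, hc.1, hc.2⟩)
  rwa [Tr.val_same hA] at h1

/-- one epoch between two families of flat pairs -/
theorem one_epoch {own : Finset ι} {S : ι → RM Λ Q N} {tm : ℕ → ι} {p d V Ls l1 Jd n0 : ℕ}
    {x y : ℝ} (hy : 0 ≤ y) (hab : a ≤ b) (hl : 0 < l1) (hLs : 0 < Ls)
    (hV : d + 2 ^ p + (Jd + 1) * l1 ≤ V)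
    (hn : (2 ^ Jd * Fintype.card (Cfg Λ) : ℝ) * n0 ≤ 1 / 2 * N)
    (hs : ∀ lo hi : Cfg Λ, Disjoint hi.1 hi.2 → Btw lo hi lo → ∃ c : Fin N → Cfg Λ,
      Win lo hi n0 c ∧ (Finset.univ.filter fun a => c a ≠ hi).card ≤ Fintype.card (Cfg Λ) * n0 ∧
        Le (Mb Q θ t c) y (Mb Q θ t fun _ : Fin N => hi))
    (hr : ∀ (lo hi : Cfg Λ) (c : Fin N → Cfg Λ), Disjoint hi.1 hi.2 → Btw lo hi lo →
      Win lo hi n0 c → Le (Mb Q θ t fun _ : Fin N => lo) y (Mb Q θ t c))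
    (he : ∀ U : ℕ → Tr (Fin N → Cfg Λ), UI ht a b d l1 Jd n0 p U (fun _ => N / 2) →
      ∃ U' : ℕ → Tr (Fin N → Cfg Λ), UI ht a b d l1 Jd n0 p U' (fun _ => N) ∧
        Seq θ t (fl ht a b V) (fl ht a b 0) own S tm Ls (met Q θ t p U) (met Q θ t p U') x) :
    Seq θ t (fl ht a b V) (fl ht a b 0) own S tm Ls (Lam Q N θ t p fun r => fl ht a b (d + r))
      (Lam Q N θ t p fun r => fl ht a b (d + (Jd + 1) * l1 + r)) (x * y * y) := by
  choose c hc1 hc2 hc3 using fun r : ℕ => hs (fl ht a b (d + r + (Jd + 1) * l1))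
    (fl ht a b (d + r)) (fl_disj hab _) (fl_btw (Nat.le_add_right _ _) le_rfl)
  obtain ⟨U, hU, hS⟩ := he (fun r => Tr.lf (c r)) fun r _ => by
    refine ⟨⟨hc1 r, le_trans (Finset.card_le_card fun z hz => ?_) (hc2 r)⟩, fun z => ?_⟩
    · simp only [Finset.mem_filter, Finset.mem_univ, true_and] at hz ⊢
      exact fun e => hz (by rw [e]; exact fl_btw le_rfl (Nat.le_add_right _ _))
    · refine (pot_seed hab hl (hc1 r).1 z).trans ?_
      have h1 : ((Finset.univ.filter fun x => c r x ≠ fl ht a b (d + r)).card : ℝ) ≤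
          Fintype.card (Cfg Λ) * n0 := by exact_mod_cast hc2 r
      have h2 := mul_le_mul_of_nonneg_left h1 (show (0 : ℝ) ≤ 2 ^ Jd by positivity)
      change _ ≤ (N : ℝ) / 2
      linarith
  refine (hS.first hLs (inA_Lam (by omega)) hy ?_).last hLs (inA_Lam (by omega)) hy ?_
  · rw [met, Tr.val_bind]
    exact Tr.val_mono (Tr.all_of _ fun r => ⟨Mb_pd _, Mb_pd _, hc3 r⟩)
  · rw [met, Tr.val_bind]
    refine Tr.val_mono ((Tr.all_bal p 0).mono fun r h =>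
      ⟨Tr.val_pd (Tr.all_of _ fun _ => Mb_pd _), Mb_pd _, le_val (Mb_pd _) ?_⟩)
    simp only [add_right_comm d _ r]
    exact (hU r (by omega)).1.mono fun c hc => ⟨Mb_pd _,
      hr _ _ c (fl_disj hab _) (fl_btw (Nat.le_add_right _ _) le_rfl) hc.1⟩

theorem arith {Ep mI k N u η C : ℝ} (hE : 0 ≤ Ep) (hk : k ≤ mI) (hk0 : 0 ≤ k) (hN : 1 ≤ N)
    (hu : 0 ≤ u) (hη : 0 ≤ η) (hC : 0 ≤ C) (h1 : Ep * mI * u ≤ 1)
    (h2 : η * (4 * (Ep + Ep * mI + 1)) = 1) (h3 : Ep * mI * C ≤ 1 / 2) :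
    Ep * (k * (N * (u + 2 * η) + C) + η * N + η * N) + η * N + η * N ≤ 2 * N := by
  have h4 : k * (N * (u + 2 * η) + C) ≤ mI * (N * (u + 2 * η) + C) :=
    mul_le_mul_of_nonneg_right hk (by positivity)
  have h5 := mul_le_mul_of_nonneg_left h4 hE
  have h6 := mul_le_mul_of_nonneg_left h1 (show 0 ≤ N by linarith)
  have h7 : N * (η * (4 * (Ep + Ep * mI + 1))) = N := by rw [h2, mul_one]
  nlinarith

end ColEA

theorem collar (Λ Q ι : Type) [Fintype Λ] [DecidableEq Λ] [Fintype Q] [DecidableEq Q] [Nonempty Q]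
    [DecidableEq ι] (θ ε0 J : ℝ) (s1 s2 l1 Jd p m0 Ep mI : ℕ) (hθ : 0 < θ) (hθ1 : θ ≤ 1 / 16)
    (hε : 0 < ε0) (hε1 : ε0 ≤ 1) (hJ : 0 < J) (hl : 0 < l1) (hJd : 1 ≤ Jd) (hEp : 0 < Ep)
    (hlog : 4 * θ * Real.log ((3 * (Fintype.card Q : ℝ) ^ s1 + 2) / ε0) ≤ 1)
    (hm0 : 2 * s2 * (1 + 2 * s1) ≤ 2 ^ m0) (herr : Ep * mI * (ε0 + 6 * s1 / 2 ^ Jd) ≤ 1) :
    ∀ᶠ δ in nhdsWithin (0 : ℝ) (Set.Ioi 0), ∀ᶠ N : ℕ in atTop, ∀ᶠ m : ℕ in atTop,
      ∀ (ht : Λ → ℕ) (a b V Ls : ℕ) (Z : ι → Finset Λ) (g : ι → Matrix (Λ → Q) (Λ → Q) ℂ)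
        (own : Finset ι) (tm : ℕ → ι), a + l1 ≤ b → 2 ^ p + Ep * ((Jd + 1) * l1) ≤ V → V ≤ a →
        0 < Ls → own.card ≤ mI →
        (∀ y ∈ own, Dm ht l1 (Z y) ∧ (Z y).card ≤ s1 ∧ Loc (fun z => z ∈ Z y) (g y) ∧
          Le ((g y)ᴴ * g y) J 1) → (∀ z, (own.filter fun y => z ∈ Z y).card ≤ s2) →
        (∀ e y, ((Finset.range Ls).filter fun i => tm (e * Ls + i) = y).card ≤ 2 ^ (m - m0)) →
        Seq θ (t0 δ N) (fl ht a b V) (fl ht a b 0) own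
          (fun y => tens N (1 - ((1 / (2 ^ m * (500 * J * (2 * ((Jd + 2) * l1) / 2 ^ p))) : ℝ) : ℂ) •
            ((g y)ᴴ * g y))) tm (Ep * Ls) (Mb Q θ (t0 δ N) fun _ : Fin N => fl ht a b 0)
          (Mb Q θ (t0 δ N) fun _ : Fin N => fl ht a b V) (Real.exp (2 * N)) := by
  have hM : (0 : ℝ) < 4 * (Ep + Ep * mI + 1) := by positivity
  obtain ⟨η, hη, hη1, hη2⟩ : ∃ η : ℝ, 0 < η ∧ η ≤ 1 ∧ η * (4 * (Ep + Ep * mI + 1)) = 1 :=
    ⟨1 / (4 * (Ep + Ep * mI + 1)), by positivity, by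
      rw [div_le_one hM]
      have : (0 : ℝ) ≤ Ep + Ep * mI := by positivity
      linarith, one_div_mul_cancel hM.ne'⟩
  have hθ8 : θ ≤ 1 / 8 := by linarith
  filter_upwards [epoch Λ Q ι θ η ε0 J s1 s2 l1 Jd p m0 hθ hθ1 hη hη1 hε hε1 hJ hl hJd hlog hm0,
    seed Λ Q θ η hθ hθ8 hη, reset Λ Q θ η hθ hθ8 hη, retreat Λ Q θ η hθ hθ8 hη,
    small_ev (2 ^ Jd * Fintype.card (Cfg Λ)) (1 / 2) (by norm_num)] with δ e1 e2 e3 e4 e5
  filter_upwards [e1, e2, e3, e4, e5] with N ⟨Cq, hCq, f1⟩ f2 f3 f4 ⟨_, _, hN, _, _, _, _, f5⟩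
  have hm : ∀ᶠ m : ℕ in atTop, (Ep * mI : ℝ) * (Cq / 2 ^ m) ≤ 1 / 2 := by
    filter_upwards [(tendsto_pow_atTop_atTop_of_one_lt (one_lt_two (α := ℝ))).eventually_ge_atTop
      (2 * (Ep * mI * Cq))] with m h
    rw [← mul_div_assoc, div_le_iff₀ (by positivity)]
    linarith
  filter_upwards [f1, hm] with m g1 g2 ht a b V Ls Z g own tm hab hV hVa hLs hown hZ hdeg hcnt
  have hab' : a ≤ b := by omega
  have hy := (Real.exp_pos (η * N)).le
  have key : ∀ e, e ≤ Ep → Seq θ (t0 δ N) (fl ht a b V) (fl ht a b 0) own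
      (fun y => tens N (1 - ((1 / (2 ^ m * (500 * J * (2 * ((Jd + 2) * l1) / 2 ^ p))) : ℝ) : ℂ) •
        ((g y)ᴴ * g y))) tm (e * Ls) (Lam Q N θ (t0 δ N) p fun r => fl ht a b (0 + r))
      (Lam Q N θ (t0 δ N) p fun r => fl ht a b (e * ((Jd + 1) * l1) + r))
      ((Real.exp (own.card * (N * (ε0 + 2 * η + 6 * s1 / 2 ^ Jd) + Cq / 2 ^ m)) *
        Real.exp (η * N) * Real.exp (η * N)) ^ e) := by
    intro e
    induction e with
    | zero =>
      intro _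
      simp only [zero_mul, pow_zero]
      exact Seq.refl (ColEA.inA_Lam (by omega))
    | succ e ih =>
      intro he
      have h1 : (e + 1) * ((Jd + 1) * l1) ≤ Ep * ((Jd + 1) * l1) := Nat.mul_le_mul_right _ he
      rw [add_one_mul] at h1
      rw [add_one_mul, add_one_mul e, pow_succ]
      exact (ih (by omega)).append (ColEA.one_epoch hy hab' hl hLs (by omega) f5 f2 f3
        fun U hU => g1 ht a b _ V Ls Z g own _ U hab (by omega) hVa hZ hdeg (hcnt e) hU)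
  have hn : 0 < Ep * Ls := Nat.mul_pos hEp hLs
  refine (((key Ep le_rfl).first hn (inA_Mb fun _ => fl_btw le_rfl (Nat.zero_le _)) hy ?_).last hn
    (inA_Mb fun _ => fl_btw (Nat.zero_le _) le_rfl) hy ?_).mono ?_
  · exact ColEA.val_le (Mb_pd _) (Tr.all_of _ fun r =>
      ⟨Mb_pd _, f4 _ _ (fl_disj hab' _) (fl_btw (Nat.zero_le _) le_rfl)⟩)
  · exact ColEA.le_val (Mb_pd _) ((Tr.all_bal p 0).mono fun r hr =>
      ⟨Mb_pd _, f4 _ _ (fl_disj hab' _) (fl_btw (by omega) le_rfl)⟩)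
  · simp only [← Real.exp_add, ← Real.exp_nat_mul]
    refine Real.exp_le_exp.2 ?_
    have := ColEA.arith (k := own.card) (N := N) (u := ε0 + 6 * s1 / 2 ^ Jd) (C := Cq / 2 ^ m)
      (Nat.cast_nonneg Ep) (Nat.cast_le.2 hown) (Nat.cast_nonneg _) (Nat.one_le_cast.2 hN)
      (by positivity) hη.le (by positivity) herr hη2 g2
    rwa [add_right_comm ε0] at this

end Vale.Agent.P356G
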