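import Vale.Agent.P356G.Seq0

/- Sequences of metrics and products of commuting collars.
`InA.comm`: two applications of the bicommutant clause. `pr_swap`: `pr_pull` for both products, the
common factor `R` is positive definite (`pr_pd`), `qf_mul`, `cpw R (1/2)` commutes with `S` and keeps
symmetric vectors (`cpw_comm`, `Sy.mulVec`). `prod`: induction on the time; in one time step replace the
factors one at a time (induction on the number of replaced factors), first the owner together with the
application of `S` (if there is no owner, `S` is a contraction commuting with the product). -/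

namespace Vale.Agent.P356G

open Matrix Vale.Agent.P356

variable {Λ Q ι : Type} [Fintype Λ] [DecidableEq Λ] [Fintype Q] [DecidableEq Q] [Nonempty Q]
  [DecidableEq ι] {N : ℕ} {θ : ℝ} {t : ℕ}

variable {lo hi lo' hi' : Cfg Λ} {own : Finset ι} {S : ι → RM Λ Q N} {tm : ℕ → ι}

namespace SeqA

variable {n : ℕ} {P : ℕ → RM Λ Q N → Prop} {M M' : ℕ → RM Λ Q N}

/-- families of commuting classes of positive matrices -/
structure Fam (n : ℕ) (P : ℕ → RM Λ Q N → Prop) : Prop where
  pd : ∀ a X, P a X → Pd X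
  pm : ∀ a X, P a X → ∀ π, Commute (pm Q Finset.univ π) X
  cm : ∀ a b X Y, a < n → b < n → a ≠ b → P a X → P b Y → Commute X Y

theorem Fam.comm (F : Fam n P) (hM : ∀ a, a < n → P a (M a)) (a : ℕ) (ha : a < n) (b : ℕ)
    (hb : b < n) : Commute (M a) (M b) := by
  rcases eq_or_ne a b with rfl | e
  exacts [Commute.refl _, F.cm a b _ _ ha hb e (hM a ha) (hM b hb)]

theorem upd {j : ℕ} {B : RM Λ Q N} (hM : ∀ a, a < n → P a (M a)) (hB : P j B) (a : ℕ)
    (ha : a < n) : P a (Function.update M j B a) := by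
  rcases eq_or_ne a j with rfl | e
  · rwa [Function.update_self]
  · rw [Function.update_of_ne e]
    exact hM a ha

theorem upd_comm {j : ℕ} {T : RM Λ Q N} (hT : ∀ a, a < n → a ≠ j → Commute T (M a)) :
    Commute T (pr (Function.update M j 1) n) :=
  pr_comm _ _ _ fun a ha => by
    rcases eq_or_ne a j with rfl | e
    · rw [Function.update_self]
      exact Commute.one_right _
    · rw [Function.update_of_ne e]
      exact hT a ha e

theorem swap (F : Fam n P) (hM : ∀ a, a < n → P a (M a)) {j : ℕ} (hj : j < n) {B T : RM Λ Q N}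
    (hB : P j B) (hT : ∀ a, a < n → a ≠ j → Commute T (M a)) {y : ℝ}
    (h : ∀ w, Sy Finset.univ w → qf B (T *ᵥ w) ≤ y * qf (M j) w) (v : (Fin N → Λ → Q) → ℂ)
    (hv : Sy Finset.univ v) :
    qf (pr (Function.update M j B) n) (T *ᵥ v) ≤ y * qf (pr M n) v := by
  have hR : Pd (pr (Function.update M j 1) n) := by
    refine pr_pd _ _ (fun a ha => ?_) fun a ha b hb => ?_
    · rcases eq_or_ne a j with rfl | e
      · rw [Function.update_self]
        exact pd_one
      · rw [Function.update_of_ne e]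
        exact F.pd a _ (hM a ha)
    · rcases eq_or_ne a j with rfl | e
      · rw [Function.update_self]
        exact Commute.one_left _
      rcases eq_or_ne b j with rfl | e'
      · rw [Function.update_self]
        exact Commute.one_right _
      rw [Function.update_of_ne e, Function.update_of_ne e']
      exact F.comm hM a ha b hb
  rw [pr_pull M n j hj (F.comm hM j hj), pr_pull _ n j hj (F.comm (upd hM hB) j hj),
    Function.update_idem, Function.update_self,
    qf_mul hR (upd_comm fun a ha e => F.cm j a _ _ hj ha e.symm hB (hM a ha)).symm,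
    qf_mul hR (upd_comm fun a ha _ => F.comm hM j hj a ha).symm, mulVec_mulVec,
    ← (cpw_comm (upd_comm hT) (1 / 2)).eq, ← mulVec_mulVec]
  exact h _ (hv.mulVec fun π _ => cpw_comm (upd_comm fun a ha _ => F.pm a _ (hM a ha) π) _)

theorem repl (F : Fam n P) (hM : ∀ a, a < n → P a (M a)) (hM' : ∀ a, a < n → P a (M' a))
    {lam : ℕ → ℝ} (A : Finset ℕ) (hA : ∀ a ∈ A, a < n ∧ 0 ≤ lam a ∧ Le (M' a) (lam a) (M a))
    (v : (Fin N → Λ → Q) → ℂ) (hv : Sy Finset.univ v) :
    qf (pr (A.piecewise M' M) n) v ≤ (∏ a ∈ A, lam a) * qf (pr M n) v := by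
  induction A using Finset.induction_on with
  | empty => simp
  | insert j A hj ih =>
    obtain ⟨h1, h2, h3⟩ := hA j (Finset.mem_insert_self _ _)
    have hP : ∀ a, a < n → P a (A.piecewise M' M a) := fun a ha => by
      unfold Finset.piecewise
      split_ifs
      exacts [hM' a ha, hM a ha]
    have := swap F hP h1 (hM' j h1) (T := 1) (fun _ _ _ => Commute.one_left _) (y := lam j)
      (fun w _ => by
        rw [one_mulVec, Finset.piecewise_eq_of_notMem _ _ _ hj]
        exact h3 w) v hv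
    rw [one_mulVec] at this
    rw [Finset.piecewise_insert, Finset.prod_insert hj, mul_assoc]
    exact this.trans (mul_le_mul_of_nonneg_left
      (ih fun a ha => hA a (Finset.mem_insert_of_mem ha)) h2)

theorem step (F : Fam n P) (hM : ∀ a, a < n → P a (M a)) (hM' : ∀ a, a < n → P a (M' a))
    {lam : ℕ → ℝ} {O : ℕ → Prop} (hO : ∀ a b, a < n → b < n → O a → O b → a = b) {T : RM Λ Q N}
    (hT : Bd T 1) (hπ : ∀ π, Commute (pm Q Finset.univ π) T)
    (hc : ∀ a, a < n → ¬ O a → Commute T (M a))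
    (h : ∀ a, a < n → 0 ≤ lam a ∧
      (O a → ∀ v, Sy Finset.univ v → qf (M' a) (T *ᵥ v) ≤ lam a * qf (M a) v) ∧
      (¬ O a → Le (M' a) (lam a) (M a))) (v : (Fin N → Λ → Q) → ℂ) (hv : Sy Finset.univ v) :
    qf (pr M' n) (T *ᵥ v) ≤ (∏ a ∈ Finset.range n, lam a) * qf (pr M n) v := by
  have hTv : Sy Finset.univ (T *ᵥ v) := hv.mulVec fun π _ => hπ π
  by_cases ho : ∃ j, j < n ∧ O j
  · obtain ⟨j, hj, ho⟩ := ho
    have hn : ∀ a, a < n → a ≠ j → ¬ O a := fun a ha e h => e (hO a j ha hj h ho)
    have h1 := swap F hM hj (hM' j hj) (fun a ha e => hc a ha (hn a ha e)) ((h j hj).2.1 ho) v hv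
    have h2 := repl F (upd hM (hM' j hj)) hM' (lam := lam) ((Finset.range n).erase j)
      (fun a ha => by
        obtain ⟨e, ha⟩ := Finset.mem_erase.1 ha
        rw [Finset.mem_range] at ha
        rw [Function.update_of_ne e]
        exact ⟨ha, (h a ha).1, (h a ha).2.2 (hn a ha e)⟩) _ hTv
    rw [pr_congr _ M' n fun a ha => by
      rcases eq_or_ne a j with rfl | e
      · rw [Finset.piecewise_eq_of_notMem _ _ _ (Finset.notMem_erase _ _), Function.update_self]
      · exact Finset.piecewise_eq_of_mem _ _ _ (Finset.mem_erase.2 ⟨e, Finset.mem_range.2 ha⟩)] at h2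
    rw [← Finset.prod_erase_mul _ _ (Finset.mem_range.2 hj), mul_assoc]
    exact h2.trans (mul_le_mul_of_nonneg_left h1 (Finset.prod_nonneg fun a ha =>
      (h a (Finset.mem_range.1 (Finset.mem_of_mem_erase ha))).1))
  · have hn : ∀ a, a < n → ¬ O a := fun a ha h => ho ⟨a, ha, h⟩
    have hR : Pd (pr M n) := pr_pd _ _ (fun a ha => F.pd a _ (hM a ha)) (F.comm hM)
    have h1 : qf (pr M n) (T *ᵥ v) ≤ qf (pr M n) v := by
      rw [← mul_one (pr M n), qf_mul hR (Commute.one_right _), qf_mul hR (Commute.one_right _),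
        qf_one, qf_one, mulVec_mulVec,
        ← (cpw_comm (pr_comm M T n fun a ha => hc a ha (hn a ha)) (1 / 2)).eq, ← mulVec_mulVec]
      simpa using hT.nsq (cpw (pr M n) (1 / 2) *ᵥ v)
    have h2 := repl F hM hM' (lam := lam) (Finset.range n) (fun a ha => by
      rw [Finset.mem_range] at ha
      exact ⟨ha, (h a ha).1, (h a ha).2.2 (hn a ha)⟩) _ hTv
    rw [pr_congr _ M' n fun a ha =>
      Finset.piecewise_eq_of_mem _ _ _ (Finset.mem_range.2 ha)] at h2
    exact h2.trans (mul_le_mul_of_nonneg_left h1 (Finset.prod_nonneg fun a ha =>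
      (h a (Finset.mem_range.1 ha)).1))

end SeqA

theorem prod (ht : 0 < t) (n k : ℕ) (lo hi : ℕ → Cfg Λ) (own : ℕ → Finset ι) (L0 L1 : ℕ → RM Λ Q N)
    (x : ℝ) (hd : ∀ j, j < n → Disjoint (hi j).1 (hi j).2)
    (hc : ∀ i j, i < j → j < n → (lo i).2ᶜ ⊆ (lo j).1)
    (ho : ∀ i j, i < n → j < n → i ≠ j → Disjoint (own i) (own j))
    (hS : ∀ y, Bd (S y) 1 ∧ ∀ π, Commute (pm Q Finset.univ π) (S y))
    (hS' : ∀ y j, j < n → y ∉ own j → ∀ c : Fin N → Cfg Λ, (∀ a, Btw (lo j) (hi j) (c a)) →
      Commute (S y) (Mb Q θ t c))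
    (h : ∀ j, j < n → Seq θ t (lo j) (hi j) (own j) S tm k (L0 j) (L1 j) x)
    (v : (Fin N → Λ → Q) → ℂ) (hv : Sy Finset.univ v) :
    qf (pr L1 n) (seg (fun i => S (tm i)) 0 k *ᵥ v) ≤ x ^ n * qf (pr L0 n) v := by
  have F : SeqA.Fam n fun j (X : RM Λ Q N) => InA θ t (lo j) (hi j) X := by
    refine ⟨fun _ _ h => h.1, fun _ _ h π => h.pm π, fun a b X Y ha hb e hX hY => ?_⟩
    rcases lt_or_gt_of_ne e with e | e
    · exact hX.comm ht hY (hd a ha) (hd b hb) (hc a b e hb)
    · exact (hY.comm ht hX (hd b hb) (hd a ha) (hc b a e ha)).symm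
  choose! L lam h0 h1 h2 h3 h4 using h
  have key : ∀ m, m ≤ k → qf (pr (fun j => L j m) n) (seg (fun i => S (tm i)) 0 m *ᵥ v) ≤
      (∏ j ∈ Finset.range n, ∏ i ∈ Finset.range m, lam j i) * qf (pr (fun j => L j 0) n) v := by
    intro m hm
    induction m with
    | zero => simp [seg]
    | succ m ih =>
      have hs : Sy Finset.univ (seg (fun i => S (tm i)) 0 m *ᵥ v) := hv.mulVec fun π _ =>
        (seg_comm _ _ 0 m fun r _ _ => ((hS (tm r)).2 π).symm.eq).symm
      have := SeqA.step F (M := fun j => L j m) (M' := fun j => L j (m + 1))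
        (fun a ha => h2 a ha m (by omega)) (fun a ha => h2 a ha _ hm) (lam := fun j => lam j m)
        (O := fun j => tm m ∈ own j)
        (fun a b ha hb h h' => by_contra fun e => Finset.disjoint_left.1 (ho a b ha hb e) h h')
        (hS (tm m)).1 (hS (tm m)).2
        (fun a ha h => (h2 a ha m (by omega)).2 _ (hS' _ a ha h)) (fun a ha => h3 a ha m hm) _ hs
      rw [seg, zero_add, ← mulVec_mulVec]
      simp only [Finset.prod_range_succ, Finset.prod_mul_distrib]
      rw [mul_comm (∏ j ∈ Finset.range n, ∏ i ∈ Finset.range m, lam j i), mul_assoc]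
      exact this.trans (mul_le_mul_of_nonneg_left (ih (by omega)) (Finset.prod_nonneg fun a ha =>
        (h3 a (Finset.mem_range.1 ha) m hm).1))
  have hk := key k le_rfl
  have hM : ∀ a, a < n → InA θ t (lo a) (hi a) (L a 0) := fun a ha => h2 a ha 0 (Nat.zero_le _)
  have hp := (pr_pd _ n (fun a ha => (hM a ha).1) (F.comm hM)).ps.2 v
  rw [pr_congr _ L1 n h1, pr_congr _ L0 n h0] at hk
  rw [pr_congr _ L0 n h0] at hp
  refine hk.trans (mul_le_mul_of_nonneg_right ?_ hp)
  rw [← Finset.card_range n, ← Finset.prod_const, Finset.card_range]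
  exact Finset.prod_le_prod (fun a ha => Finset.prod_nonneg fun i hi =>
    (h3 a (Finset.mem_range.1 ha) i (Finset.mem_range.1 hi)).1)
    fun a ha => h4 a (Finset.mem_range.1 ha)

end Vale.Agent.P356G
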