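import Vale.Agent.P356G.ColS
import Vale.Agent.P356G.Seq

/- One collar: `lo = fl V`, `hi = fl 0`, `W = (Jd + 1) l1`, `Sw = 2 ^ (m - m0)`, epochs of length `Ls`.
`epoch`: induction on `i ≤ Ls` with `Seq.snoc`; own step: `cstep` with the potential bound
`B i z = N / 2 + N (1 + 2 s1) / 2 ^ m * #{i' < i, tm i' ∈ own, z ∈ Z (tm i')} ≤ N` (at most `Sw s2` such
`i'`), factor `1 + y ≤ exp y`; other steps: keep `U`, factor one. At most `Sw * own.card` own steps.
`collar`: induction on the epochs. Start of an epoch at depth `d0`: `U r = lf (seed)` (`seed` with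
`hi = fl (d0 + r)`, `lo = fl (d0 + r + W)`, `pot_seed`, `small_ev`); end: `val_bind`, `val_mono`, `reset`,
`val_same` give `val (Mb (const (fl (d0 + W + r)))) (bal p 0) ≤ exp (η N) met U`; join with `Seq.last`,
`Seq.append`; first and last comparison with `hi`, `lo` by `retreat`, `val_mono`, `val_same`,
`Seq.first`, `Seq.last`. Choose `η` small depending on `Ep`, `own.card`; then `m` large. -/

namespace Vale.Agent.P356G

open Matrix Vale.Agent.P356 Filter

namespace ColE0A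

variable {Λ Q : Type} [Fintype Λ] [DecidableEq Λ] [Fintype Q] [DecidableEq Q] [Nonempty Q]
  {N : ℕ} {ht : Λ → ℕ} {a b d0 l1 Jd m p V : ℕ} {U : ℕ → Tr (Fin N → Cfg Λ)} {B B' : Λ → ℝ}

theorem mono (h : UI ht a b d0 l1 Jd m p U B) (hB : ∀ z, B z ≤ B' z) :
    UI ht a b d0 l1 Jd m p U B' := fun r hr => ⟨(h r hr).1, fun z => ((h r hr).2 z).trans (hB z)⟩

theorem inA {θ : ℝ} {t : ℕ} (h : UI ht a b d0 l1 Jd m p U B)
    (hV : d0 + 2 ^ p + (Jd + 1) * l1 ≤ V) :
    InA θ t (fl ht a b V) (fl ht a b 0) (met Q θ t p U) :=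
  inA_val ((Tr.all_bind U _).2 ((Tr.all_bal p 0).mono fun r hr =>
    (h r (by simpa using hr.2)).1.mono fun c hc x => (hc.1.1 x).trans
      (fl_btw (Nat.zero_le _) (by omega)) (fl_btw (Nat.zero_le _) (by omega))))

theorem count {ι : Type} [DecidableEq ι] (tm : ℕ → ι) (s : Finset ι) {i L k : ℕ} (hi : i ≤ L)
    (h : ∀ y, ((Finset.range L).filter fun i => tm i = y).card ≤ k) :
    ((Finset.range i).filter fun i => tm i ∈ s).card ≤ k * s.card :=
  Finset.card_le_mul_card_image_of_maps_to (f := tm) (fun _ h => (Finset.mem_filter.1 h).2) k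
    fun y _ => (Finset.card_le_card (Finset.filter_subset_filter _
      ((Finset.filter_subset _ _).trans (Finset.range_mono hi)))).trans (h y)

theorem count_succ {ι : Type} [DecidableEq ι] (tm : ℕ → ι) (s : Finset ι) (i : ℕ) :
    (((Finset.range (i + 1)).filter fun i => tm i ∈ s).card : ℝ) =
      ((Finset.range i).filter fun i => tm i ∈ s).card + if tm i ∈ s then 1 else 0 := by
  simp only [Finset.card_filter, Finset.sum_range_succ]
  push_cast
  rfl

end ColE0A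

open ColE0A in
theorem epoch (Λ Q ι : Type) [Fintype Λ] [DecidableEq Λ] [Fintype Q] [DecidableEq Q] [Nonempty Q]
    [DecidableEq ι] (θ η ε0 J : ℝ) (s1 s2 l1 Jd p m0 : ℕ) (hθ : 0 < θ) (hθ1 : θ ≤ 1 / 16)
    (hη : 0 < η) (hη1 : η ≤ 1) (hε : 0 < ε0) (hε1 : ε0 ≤ 1) (hJ : 0 < J) (hl : 0 < l1)
    (hJd : 1 ≤ Jd) (hlog : 4 * θ * Real.log ((3 * (Fintype.card Q : ℝ) ^ s1 + 2) / ε0) ≤ 1)
    (hm0 : 2 * s2 * (1 + 2 * s1) ≤ 2 ^ m0) :
    ∀ᶠ δ in nhdsWithin (0 : ℝ) (Set.Ioi 0), ∀ᶠ N : ℕ in atTop, ∃ Cq : ℝ, 0 ≤ Cq ∧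
      ∀ᶠ m : ℕ in atTop, ∀ (ht : Λ → ℕ) (a b d0 V Ls : ℕ) (Z : ι → Finset Λ)
        (g : ι → Matrix (Λ → Q) (Λ → Q) ℂ) (own : Finset ι) (tm : ℕ → ι)
        (U : ℕ → Tr (Fin N → Cfg Λ)), a + l1 ≤ b → d0 + 2 ^ p + (Jd + 1) * l1 ≤ V → V ≤ a →
        (∀ y ∈ own, Dm ht l1 (Z y) ∧ (Z y).card ≤ s1 ∧ Loc (fun z => z ∈ Z y) (g y) ∧
          Le ((g y)ᴴ * g y) J 1) → (∀ z, (own.filter fun y => z ∈ Z y).card ≤ s2) →
        (∀ y, ((Finset.range Ls).filter fun i => tm i = y).card ≤ 2 ^ (m - m0)) →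
        UI ht a b d0 l1 Jd (ns δ N) p U (fun _ => N / 2) →
        ∃ U' : ℕ → Tr (Fin N → Cfg Λ), UI ht a b d0 l1 Jd (ns δ N) p U' (fun _ => N) ∧
          Seq θ (t0 δ N) (fl ht a b V) (fl ht a b 0) own
            (fun y => tens N (1 - ((1 / (2 ^ m * (500 * J * (2 * ((Jd + 2) * l1) / 2 ^ p))) : ℝ) : ℂ) •
              ((g y)ᴴ * g y))) tm Ls (met Q θ (t0 δ N) p U) (met Q θ (t0 δ N) p U')
            (Real.exp (own.card * (N * (ε0 + 2 * η + 6 * s1 / 2 ^ Jd) + Cq / 2 ^ m))) := by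
  filter_upwards [cstep Λ Q θ η ε0 J s1 l1 Jd p hθ hθ1 hη hη1 hε hε1 hJ hl hJd hlog] with δ hδ
  filter_upwards [hδ] with N ⟨Cq, hCq, hN⟩
  refine ⟨Cq, hCq, ?_⟩
  filter_upwards [hN, eventually_ge_atTop m0] with m hm hmm ht a b d0 V Ls Z g own tm U hab hV hVa
    hown hdeg hcnt hU
  set y0 : ℝ := N * (ε0 + 2 * η + 6 * s1 / 2 ^ Jd) / 2 ^ m + Cq / (2 ^ m) ^ 2 with hy0
  have hy : 0 ≤ y0 := by positivity
  have hB : ∀ i, i ≤ Ls → ∀ z, N / 2 + (N : ℝ) * (1 + 2 * s1) / 2 ^ m * ((Finset.range i).filter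
      fun i => tm i ∈ own.filter fun y => z ∈ Z y).card ≤ N := fun i hi z => by
    have h1 := (count tm _ hi hcnt).trans (Nat.mul_le_mul_left _ (hdeg z))
    have h2 := Nat.mul_le_mul_left (2 ^ (m - m0)) hm0
    rw [← pow_add, Nat.sub_add_cancel hmm] at h2
    have h3 : 2 * (1 + 2 * s1) * ((Finset.range i).filter
      fun i => tm i ∈ own.filter fun y => z ∈ Z y).card ≤ 2 ^ m :=
      (Nat.mul_le_mul_left _ h1).trans (le_of_eq_of_le (by ring) h2)
    have h4 := mul_le_mul_of_nonneg_left ((Nat.cast_le (α := ℝ)).2 h3) N.cast_nonneg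
    push_cast at h4
    rw [← le_sub_iff_add_le', div_mul_eq_mul_div, div_le_iff₀ (by positivity)]
    linarith
  have key : ∀ i, i ≤ Ls → ∃ U' : ℕ → Tr (Fin N → Cfg Λ), UI ht a b d0 l1 Jd (ns δ N) p U'
      (fun z => N / 2 + (N : ℝ) * (1 + 2 * s1) / 2 ^ m * ((Finset.range i).filter
        fun i => tm i ∈ own.filter fun y => z ∈ Z y).card) ∧
      Seq θ (t0 δ N) (fl ht a b V) (fl ht a b 0) own
        (fun y => tens N (1 - ((1 / (2 ^ m * (500 * J * (2 * ((Jd + 2) * l1) / 2 ^ p))) : ℝ) : ℂ) •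
          ((g y)ᴴ * g y))) tm i (met Q θ (t0 δ N) p U) (met Q θ (t0 δ N) p U')
        (Real.exp (((Finset.range i).filter fun i => tm i ∈ own).card * y0)) := by
    intro i
    induction i with
    | zero => exact fun _ => ⟨U, mono hU fun z => by simp, (Seq.refl (inA hU hV)).mono (by simp)⟩
    | succ i ih =>
      intro hi
      obtain ⟨U', h1, h2⟩ := ih (Nat.le_of_succ_le hi)
      simp only [count_succ]
      by_cases ho : tm i ∈ own
      · obtain ⟨a1, a2, a3, a4⟩ := hown _ ho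
        obtain ⟨U'', h3, h4⟩ := hm ht a b d0 _ _ U' _ hab (hV.trans hVa) a1 a2 a3 a4 h1
          (hB i (Nat.le_of_succ_le hi))
        refine ⟨U'', mono h3 fun z => le_of_eq ?_, (h2.snoc (inA h3 hV) (y := 1 + y0)
          (by positivity) (fun _ v hv => (h4 v hv).trans_eq (by rw [hy0, add_assoc]))
          fun h => (h ho).elim).mono ?_⟩
        · simp only [Finset.mem_filter, ho, true_and]
          split_ifs <;> ring
        · rw [if_pos ho, add_mul, one_mul, Real.exp_add, add_comm 1]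
          exact mul_le_mul_of_nonneg_left (Real.add_one_le_exp y0) (Real.exp_nonneg _)
      · refine ⟨U', mono h1 fun z => le_of_eq ?_, (h2.snoc (inA h1 hV) zero_le_one
          (fun h => (ho h).elim) fun _ v => (one_mul _).ge).mono ?_⟩
        · simp only [Finset.mem_filter, ho, false_and, if_false, add_zero]
        · rw [if_neg ho, add_zero, mul_one]
  obtain ⟨U', h1, h2⟩ := key Ls le_rfl
  refine ⟨U', mono h1 (hB Ls le_rfl), h2.mono (Real.exp_le_exp.2 ?_)⟩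
  have h3 := (count tm own le_rfl hcnt).trans
    (Nat.mul_le_mul_right _ (Nat.pow_le_pow_right two_pos (Nat.sub_le m m0)))
  refine (mul_le_mul_of_nonneg_right ((Nat.cast_le (α := ℝ)).2 h3) hy).trans_eq ?_
  rw [hy0]
  push_cast
  field_simp

end Vale.Agent.P356G
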