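import Vale.Agent.P356G.MeanT

/- Geometry of one collar. Everything is `omega` after unfolding `fl`, `flat`, `dep`, `rm`, `Btw`, `NoX`
(`Nat.div_le_div_right`, `Nat.add_div_right`, `Nat.le_div_iff_mul_le` for the levels).
`cross_few`: if `Z` is empty nothing crosses; otherwise let `μ` be the least height on `Z`; a bad `r` has
`μ < a - (d0 + r) ≤ μ + l1 + W` or `μ < b + d0 + r + W ≤ μ + l1 + W`; use `Tr.ex_bal`. -/

namespace Vale.Agent.P356G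

open Matrix Vale.Agent.P356

variable {Λ : Type} [Fintype Λ] [DecidableEq Λ] {N : ℕ}

/-- the flat pair at depth `d` -/
def fl (ht : Λ → ℕ) (a b d : ℕ) : Cfg Λ := flat ht (a - d) (b + d)

/-- depth of a site behind the cuts -/
def dep (ht : Λ → ℕ) (a b d : ℕ) (z : Λ) : ℕ :=
  if ht z < a - d then a - d - 1 - ht z else ht z - (b + d)

/-- removed sites -/
def rm (hi k : Cfg Λ) : Finset Λ := (hi.1 \ k.1) ∪ (hi.2 \ k.2)

/-- weighted number of copies in which `z` is removed -/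
noncomputable def pot (ht : Λ → ℕ) (a b d l1 : ℕ) (c : Fin N → Cfg Λ) (z : Λ) : ℝ :=
  2 ^ (dep ht a b d z / l1) * (Finset.univ.filter fun x => z ∈ rm (fl ht a b d) (c x)).card

open Classical in
/-- invariant of a leaf -/
def WI (ht : Λ → ℕ) (a b d l1 Jd m : ℕ) (c : Fin N → Cfg Λ) : Prop :=
  Win (fl ht a b (d + (Jd + 1) * l1)) (fl ht a b d) m c ∧
    (Finset.univ.filter fun x => ¬ Btw (fl ht a b (d + Jd * l1)) (fl ht a b d) (c x)).card ≤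
      Fintype.card (Cfg Λ) * m

/-- heights on `Z` differ by at most `l1` -/
def Dm (ht : Λ → ℕ) (l1 : ℕ) (Z : Finset Λ) : Prop := ∀ z ∈ Z, ∀ z' ∈ Z, ht z ≤ ht z' + l1

variable {ht : Λ → ℕ} {a b d l1 Jd : ℕ} {Z : Finset Λ} {k : Cfg Λ}

namespace ColGA

omit [DecidableEq Λ] in
theorem m1 {z : Λ} : z ∈ (fl ht a b d).1 ↔ ht z < a - d := by simp [fl, flat]

omit [DecidableEq Λ] in
theorem m2 {z : Λ} : z ∈ (fl ht a b d).2 ↔ b + d ≤ ht z := by simp [fl, flat]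

omit [Fintype Λ] in
theorem mr {hi : Cfg Λ} {z : Λ} :
    z ∈ rm hi k ↔ (z ∈ hi.1 ∧ z ∉ k.1) ∨ (z ∈ hi.2 ∧ z ∉ k.2) := by simp [rm]

omit [Fintype Λ] in
theorem cross (h : ¬ NoX Z k) :
    (∃ u ∈ Z, u ∉ k.1) ∧ (∃ v ∈ Z, v ∉ k.2) ∧ ∃ w ∈ Z, w ∈ k.1 ∨ w ∈ k.2 := by
  rw [NoX, not_or, not_or, Finset.not_subset, Finset.not_subset, Finset.not_disjoint_iff] at h
  obtain ⟨h1, h2, w, hw, h3⟩ := h
  exact ⟨h1, h2, w, hw, Finset.mem_union.1 h3⟩

end ColGA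

theorem fl_btw {d1 d2 d3 : ℕ} (h1 : d1 ≤ d2) (h2 : d2 ≤ d3) :
    Btw (fl ht a b d3) (fl ht a b d1) (fl ht a b d2) := by
  refine ⟨fun z hz => ?_, fun z hz => ?_, fun z hz => ?_, fun z hz => ?_⟩ <;>
    simp only [ColGA.m1, ColGA.m2] at hz ⊢ <;> omega
theorem Btw.trans {lo hi lo' hi' : Cfg Λ} (h : Btw lo hi k) (h1 : Btw lo' hi' lo)
    (h2 : Btw lo' hi' hi) : Btw lo' hi' k :=
  ⟨h1.1.trans h.1, h.2.1.trans h2.2.1, h1.2.2.1.trans h.2.2.1, h.2.2.2.trans h2.2.2.2⟩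
theorem fl_disj (hab : a ≤ b) (d : ℕ) : Disjoint (fl ht a b d).1 (fl ht a b d).2 := by
  refine Finset.disjoint_left.2 fun z h1 h2 => ?_
  rw [ColGA.m1] at h1
  rw [ColGA.m2] at h2
  omega
theorem Btw.disj {lo hi : Cfg Λ} (h : Btw lo hi k) (hd : Disjoint hi.1 hi.2) : Disjoint k.1 k.2 :=
  hd.mono h.2.1 h.2.2.2
theorem one_side (hab : a + l1 ≤ b) (hZ : Dm ht l1 Z) {lo : Cfg Λ} (h : Btw lo (fl ht a b d) k) :
    Disjoint Z k.1 ∨ Disjoint Z k.2 := by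
  by_contra hc
  rw [not_or, Finset.not_disjoint_iff, Finset.not_disjoint_iff] at hc
  obtain ⟨⟨u, hu, hu'⟩, v, hv, hv'⟩ := hc
  have h1 := ColGA.m1.1 (h.2.1 hu')
  have h2 := ColGA.m2.1 (h.2.2.2 hv')
  have h3 := hZ v hv u hu
  omega
theorem dest_ne (h : ¬ NoX Z k) : (k.1 \ Z, k.2 \ Z) ≠ k := by
  obtain ⟨-, -, w, hw, h1 | h1⟩ := ColGA.cross h
  · intro e
    rw [← e] at h1
    exact (Finset.mem_sdiff.1 h1).2 hw
  · intro e
    rw [← e] at h1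
    exact (Finset.mem_sdiff.1 h1).2 hw
theorem dest_win (hZ : Dm ht l1 Z) (hk : Btw (fl ht a b (d + Jd * l1)) (fl ht a b d) k)
    (h : ¬ NoX Z k) :
    Btw (fl ht a b (d + (Jd + 1) * l1)) (fl ht a b d) (k.1 \ Z, k.2 \ Z) := by
  obtain ⟨⟨u, hu, hu'⟩, ⟨v, hv, hv'⟩, -⟩ := ColGA.cross h
  have h1 := mt (fun e => hk.1 (ColGA.m1.2 e)) hu'
  have h2 := mt (fun e => hk.2.2.1 (ColGA.m2.2 e)) hv'
  rw [add_one_mul]
  refine ⟨fun z hz => ?_, Finset.sdiff_subset.trans hk.2.1, fun z hz => ?_,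
    Finset.sdiff_subset.trans hk.2.2.2⟩
  · rw [ColGA.m1] at hz
    refine Finset.mem_sdiff.2 ⟨hk.1 (ColGA.m1.2 (by omega)), fun hz' => ?_⟩
    have := hZ u hu z hz'
    omega
  · rw [ColGA.m2] at hz
    refine Finset.mem_sdiff.2 ⟨hk.2.2.1 (ColGA.m2.2 (by omega)), fun hz' => ?_⟩
    have := hZ z hz' v hv
    omega
theorem deep (hab : a ≤ b) (hl : 0 < l1) (hJ : 1 ≤ Jd) (hZ : Dm ht l1 Z)
    (hk : Btw (fl ht a b (d + Jd * l1)) (fl ht a b d) k) (h : ¬ NoX Z k)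
    (hd : ¬ Btw (fl ht a b (d + Jd * l1)) (fl ht a b d) (k.1 \ Z, k.2 \ Z)) :
    ∃ z ∈ Z, z ∈ rm (fl ht a b d) k ∧ Jd ≤ dep ht a b d z / l1 + 1 := by
  obtain ⟨⟨u, hu, hu'⟩, ⟨v, hv, hv'⟩, -⟩ := ColGA.cross h
  obtain ⟨J, rfl⟩ : ∃ J, Jd = J + 1 := ⟨Jd - 1, by omega⟩
  rw [add_one_mul] at hk hd
  by_contra hc
  refine hd ⟨fun y hy => Finset.mem_sdiff.2 ⟨hk.1 hy, fun hy' => hc ?_⟩,
    Finset.sdiff_subset.trans hk.2.1,
    fun y hy => Finset.mem_sdiff.2 ⟨hk.2.2.1 hy, fun hy' => hc ?_⟩,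
    Finset.sdiff_subset.trans hk.2.2.2⟩
  · rw [ColGA.m1] at hy
    have h1 := hZ u hu y hy'
    have h2 : ht u < a - d := by omega
    refine ⟨u, hu, ColGA.mr.2 (Or.inl ⟨ColGA.m1.2 h2, hu'⟩), Nat.succ_le_succ ?_⟩
    rw [Nat.le_div_iff_mul_le hl, dep, if_pos h2]
    omega
  · rw [ColGA.m2] at hy
    have h1 := hZ y hy' v hv
    have h2 : b + d ≤ ht v := by omega
    refine ⟨v, hv, ColGA.mr.2 (Or.inr ⟨ColGA.m2.2 h2, hv'⟩), Nat.succ_le_succ ?_⟩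
    rw [Nat.le_div_iff_mul_le hl, dep, if_neg (by omega)]
    omega
theorem level_up (hab : a ≤ b) (hl : 0 < l1) (hZ : Dm ht l1 Z) {lo : Cfg Λ}
    (hk : Btw lo (fl ht a b d) k) (h : ¬ NoX Z k) {z : Λ}
    (hz : z ∈ rm (fl ht a b d) (k.1 \ Z, k.2 \ Z)) (hz' : z ∉ rm (fl ht a b d) k) :
    z ∈ Z ∧ (dep ht a b d z / l1 = 0 ∨
      ∃ z' ∈ Z, z' ∈ rm (fl ht a b d) k ∧ dep ht a b d z / l1 ≤ dep ht a b d z' / l1 + 1) := by
  obtain ⟨⟨u, hu, hu'⟩, ⟨v, hv, hv'⟩, -⟩ := ColGA.cross h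
  rw [ColGA.mr, not_or, not_and, not_and, not_not, not_not] at hz'
  rcases ColGA.mr.1 hz with ⟨h1, h2⟩ | ⟨h1, h2⟩
  · have hzZ : z ∈ Z := by
      by_contra hc
      exact h2 (Finset.mem_sdiff.2 ⟨hz'.1 h1, hc⟩)
    have h3 := hZ u hu z hzZ
    rw [ColGA.m1] at h1
    refine ⟨hzZ, ?_⟩
    by_cases h4 : ht u < a - d
    · refine Or.inr ⟨u, hu, ColGA.mr.2 (Or.inl ⟨ColGA.m1.2 h4, hu'⟩), ?_⟩
      rw [← Nat.add_div_right _ hl, dep, dep, if_pos h1, if_pos h4]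
      exact Nat.div_le_div_right (by omega)
    · refine Or.inl (Nat.div_eq_of_lt ?_)
      rw [dep, if_pos h1]
      omega
  · have hzZ : z ∈ Z := by
      by_contra hc
      exact h2 (Finset.mem_sdiff.2 ⟨hz'.2 h1, hc⟩)
    have h3 := hZ z hzZ v hv
    rw [ColGA.m2] at h1
    refine ⟨hzZ, ?_⟩
    by_cases h4 : b + d ≤ ht v
    · refine Or.inr ⟨v, hv, ColGA.mr.2 (Or.inr ⟨ColGA.m2.2 h4, hv'⟩), ?_⟩
      rw [← Nat.add_div_right _ hl, dep, dep, if_neg (by omega), if_neg (by omega)]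
      exact Nat.div_le_div_right (by omega)
    · refine Or.inl (Nat.div_eq_of_lt ?_)
      rw [dep, if_neg (by omega)]
      omega
theorem level_le (hab : a ≤ b) (hl : 0 < l1)
    (hk : Btw (fl ht a b (d + (Jd + 1) * l1)) (fl ht a b d) k) {z : Λ}
    (hz : z ∈ rm (fl ht a b d) k) : dep ht a b d z / l1 ≤ Jd := by
  rw [← Nat.lt_succ_iff, Nat.div_lt_iff_lt_mul hl]
  change _ < (Jd + 1) * l1
  rcases ColGA.mr.1 hz with ⟨h1, h2⟩ | ⟨h1, h2⟩
  · have h3 := mt (fun e => hk.1 (ColGA.m1.2 e)) h2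
    rw [ColGA.m1] at h1
    rw [dep, if_pos h1]
    omega
  · have h3 := mt (fun e => hk.2.2.1 (ColGA.m2.2 e)) h2
    rw [ColGA.m2] at h1
    rw [dep, if_neg (by omega)]
    omega
theorem pot_nonneg (c : Fin N → Cfg Λ) (z : Λ) : 0 ≤ pot ht a b d l1 c z := by
  unfold pot
  positivity
theorem pot_seed (hab : a ≤ b) (hl : 0 < l1) {c : Fin N → Cfg Λ}
    (hc : ∀ x, Btw (fl ht a b (d + (Jd + 1) * l1)) (fl ht a b d) (c x)) (z : Λ) :
    pot ht a b d l1 c z ≤ 2 ^ Jd * (Finset.univ.filter fun x => c x ≠ fl ht a b d).card := by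
  unfold pot
  rcases (Finset.univ.filter fun x => z ∈ rm (fl ht a b d) (c x)).eq_empty_or_nonempty with
    h | ⟨x, hx⟩
  · rw [h, Finset.card_empty, Nat.cast_zero, mul_zero]
    positivity
  · refine mul_le_mul (pow_le_pow_right₀ one_le_two
      (level_le hab hl (hc x) (Finset.mem_filter.1 hx).2)) (Nat.cast_le.2
        (Finset.card_le_card fun y hy => Finset.mem_filter.2 ⟨Finset.mem_univ _, fun e => ?_⟩))
      (by positivity) (by positivity)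
    have h1 := (Finset.mem_filter.1 hy).2
    rw [e, ColGA.mr] at h1
    tauto
open Classical in
theorem cross_few (p d0 W : ℕ) (hZ : Dm ht l1 Z) (ha : d0 + 2 ^ p + W ≤ a) :
    (Tr.bal p 0).ex (fun r => if ∀ k, Btw (fl ht a b (d0 + r + W)) (fl ht a b (d0 + r)) k → NoX Z k
      then 0 else 1) ≤ 2 * (l1 + W) / 2 ^ p := by
  rw [Tr.ex_bal, Finset.sum_ite, Finset.sum_const_zero, zero_add, Finset.sum_const, nsmul_eq_mul,
    mul_one]
  refine div_le_div_of_nonneg_right ?_ (by positivity)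
  have e : (2 : ℝ) * (l1 + W) = ((l1 + W + (l1 + W) : ℕ) : ℝ) := by
    push_cast
    ring
  rw [e, Nat.cast_le]
  rcases Z.eq_empty_or_nonempty with rfl | hne
  · refine le_of_eq_of_le (Finset.card_eq_zero.2 (Finset.filter_false_of_mem fun r _ => ?_))
      (Nat.zero_le _)
    exact not_not.2 fun k _ => Or.inl (Finset.empty_subset _)
  obtain ⟨y, hy, hmin⟩ := Z.exists_min_image ht hne
  refine (Finset.card_le_card (t := Finset.Ico (a - d0 - ht y - l1 - W) (a - d0 - ht y) ∪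
    Finset.Ico (ht y + 1 - (b + d0 + W)) (ht y + l1 + 1 - (b + d0))) fun r hr => ?_).trans
    ((Finset.card_union_le _ _).trans ?_)
  · have h0 := (Finset.mem_filter.1 hr).2
    rw [not_forall] at h0
    obtain ⟨k, hk⟩ := h0
    rw [Classical.not_imp, zero_add] at hk
    obtain ⟨⟨u, hu, hu'⟩, ⟨v, hv, hv'⟩, w, hw, hw'⟩ := ColGA.cross hk.2
    have h1 := mt (fun e => hk.1.1 (ColGA.m1.2 e)) hu'
    have h2 := mt (fun e => hk.1.2.2.1 (ColGA.m2.2 e)) hv'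
    have h3 := hZ u hu y hy
    have h4 := hZ w hw y hy
    have h5 := hmin v hv
    have h6 := hmin w hw
    rw [Finset.mem_union, Finset.mem_Ico, Finset.mem_Ico]
    rcases hw' with h7 | h7
    · have h8 := ColGA.m1.1 (hk.1.2.1 h7)
      omega
    · have h8 := ColGA.m2.1 (hk.1.2.2.2 h7)
      omega
  · rw [Nat.card_Ico, Nat.card_Ico]
    omega
theorem small_groups (c : Fin N → Cfg Λ) (m : ℕ) :
    (Finset.univ.filter fun x => (grp c (c x)).card ≤ m).card ≤ Fintype.card (Cfg Λ) * m := by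
  refine (Finset.card_le_mul_card_image (f := c) _ m fun k hk => ?_).trans ?_
  · obtain ⟨x, hx, rfl⟩ := Finset.mem_image.1 hk
    refine le_trans (Finset.card_le_card fun y hy => ?_) (Finset.mem_filter.1 hx).2
    exact Finset.mem_filter.2 ⟨Finset.mem_univ _, (Finset.mem_filter.1 hy).2⟩
  · rw [mul_comm]
    exact Nat.mul_le_mul_right _ (Finset.card_le_univ _)

end Vale.Agent.P356G
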