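import Vale.Agent.P356G.RepE

/- The leaf inequality. `P = PS univ`, `P' = PS (univ.erase a0)`, `sw a = pm univ (swap a0 a)`,
`Mt = P' (N⁻¹ ∑ a, sw a (T a)ᴴ (T a) sw a) P' + (1 - P')`, `Dc = N⁻¹ ∑ a, P (df a)ᴴ (df a) P`.
With `v' = P v`, `u' = P' u`: `γ v = one a0 g v'` is fixed by `P'` (`one_comm_fix`),
`sw a * one a0 g v' = one a g v'` (`one_conj`, `v'` symmetric), so
`<u, Mt γ v> = N⁻¹ ∑ <T a sw a u', T a (one a g) v'>`; `γ M v = one a0 g P Th Th v'`, `PS_univ a0`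
gives `<u, γ M v> = N⁻¹ ∑ <sw a u', one a g Th Th v'> = N⁻¹ ∑ <T a sw a u', (T' a)ᴴ one a g Th Th v'>`
(`T' a * T a = 1`). Cauchy-Schwarz in the sum over `a`. -/

namespace Vale.Agent.P356G

open Matrix Vale.Agent.P356

namespace LeafA

variable {n ι : Type} [Fintype n] [DecidableEq n] [Fintype ι]

omit [DecidableEq n] in
theorem qf_avg (r : ℝ) (X : ι → Matrix n n ℂ) (v : n → ℂ) :
    qf ((r : ℂ) • ∑ a, (X a)ᴴ * X a) v = r * ∑ a, nsq (X a *ᵥ v) := by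
  simp only [qf_smul, qf_sum, qf_ct_mul]

omit [DecidableEq n] in
theorem herm_avg (r : ℝ) (X : ι → Matrix n n ℂ) :
    ((r : ℂ) • ∑ a, (X a)ᴴ * X a).IsHermitian := by
  simp [IsHermitian, conjTranspose_sum]

omit [DecidableEq n] in
theorem cs_avg {r : ℝ} (hr : 0 ≤ r) (X Y : ι → Matrix n n ℂ) (u v : n → ℂ) :
    ‖star u ⬝ᵥ (((r : ℂ) • ∑ a, (X a)ᴴ * Y a) *ᵥ v)‖ ^ 2 ≤
      (r * ∑ a, nsq (X a *ᵥ u)) * (r * ∑ a, nsq (Y a *ᵥ v)) := by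
  have e : star u ⬝ᵥ (((r : ℂ) • ∑ a, (X a)ᴴ * Y a) *ᵥ v) =
      (r : ℂ) * ∑ a, star (X a *ᵥ u) ⬝ᵥ (Y a *ᵥ v) := by
    rw [smul_mulVec, dotProduct_smul, smul_eq_mul, sum_mulVec, dotProduct_sum]
    congr 1
    refine Finset.sum_congr rfl fun a _ => ?_
    rw [← mulVec_mulVec, dot_mulVec, conjTranspose_conjTranspose]
  have h1 : ‖∑ a, star (X a *ᵥ u) ⬝ᵥ (Y a *ᵥ v)‖ ≤ ∑ a, nr (X a *ᵥ u) * nr (Y a *ᵥ v) :=
    (norm_sum_le _ _).trans (Finset.sum_le_sum fun a _ => dot_le _ _)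
  have h2 := Finset.sum_mul_sq_le_sq_mul_sq Finset.univ (fun a => nr (X a *ᵥ u))
    fun a => nr (Y a *ᵥ v)
  simp only [nr_sq] at h2
  have h3 := (pow_le_pow_left₀ (norm_nonneg _) h1 2).trans h2
  rw [e, norm_mul, mul_pow, Complex.norm_real, Real.norm_of_nonneg hr, mul_mul_mul_comm, ← sq]
  exact mul_le_mul_of_nonneg_left h3 (sq_nonneg r)

theorem core {r : ℝ} (hr : 0 < r) {P' : Matrix n n ℂ} (hP : Prj P') (X Y : ι → Matrix n n ℂ)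
    (a0 : ι) {Z γ W : Matrix n n ℂ} (hZ : Z * X a0 = P') (hγ : P' * γ = γ)
    (h : ((r : ℂ) • ∑ a, (X a)ᴴ * X a) * γ - W = (r : ℂ) • ∑ a, (X a)ᴴ * Y a) :
    ∃ Mt Dc : Matrix n n ℂ, Pd Mt ∧ Ps Dc ∧ (∀ v, qf Dc v = r * ∑ a, nsq (Y a *ᵥ v)) ∧
      ∀ u v, ‖star u ⬝ᵥ ((Mt * γ - W) *ᵥ v)‖ ^ 2 ≤ qf Mt u * qf Dc v := by
  have hs : ∀ (X : ι → Matrix n n ℂ) v, 0 ≤ r * ∑ a, nsq (X a *ᵥ v) := fun X v =>
    mul_nonneg hr.le (Finset.sum_nonneg fun a _ => nsq_nonneg _)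
  have hq : ∀ v, qf ((r : ℂ) • ∑ a, (X a)ᴴ * X a + (1 - P')) v =
      r * ∑ a, nsq (X a *ᵥ v) + nsq ((1 - P') *ᵥ v) := fun v => by
    rw [qf_add, qf_avg, hP.compl.qf]
  refine ⟨(r : ℂ) • ∑ a, (X a)ᴴ * X a + (1 - P'), (r : ℂ) • ∑ a, (Y a)ᴴ * Y a,
    ⟨(herm_avg r X).add hP.compl.1, fun v hv => ?_⟩,
    ⟨herm_avg r Y, fun v => (hs Y v).trans_eq (qf_avg r Y v).symm⟩, qf_avg r Y, fun u v => ?_⟩
  · rw [hq]
    by_contra hn
    have h1 := hs X v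
    have h2 := nsq_nonneg ((1 - P') *ᵥ v)
    have h3 : (1 - P') *ᵥ v = 0 := eq_zero_of_nsq _ (by linarith)
    have h4 : ∑ a, nsq (X a *ᵥ v) = 0 :=
      (mul_eq_zero.1 (by linarith : r * ∑ a, nsq (X a *ᵥ v) = 0)).resolve_left hr.ne'
    have h5 : X a0 *ᵥ v = 0 := eq_zero_of_nsq _
      ((Finset.sum_eq_zero_iff_of_nonneg fun a _ => nsq_nonneg _).1 h4 a0 (Finset.mem_univ _))
    rw [sub_mulVec, one_mulVec, ← hZ, ← mulVec_mulVec, h5, mulVec_zero, sub_zero] at h3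
    exact hv h3
  · have e : ((r : ℂ) • ∑ a, (X a)ᴴ * X a + (1 - P')) * γ - W = (r : ℂ) • ∑ a, (X a)ᴴ * Y a := by
      rw [Matrix.add_mul, Matrix.sub_mul, Matrix.one_mul, hγ, sub_self, add_zero, h]
    rw [e, hq, qf_avg]
    refine (cs_avg hr.le X Y u v).trans (mul_le_mul_of_nonneg_right ?_ (hs Y v))
    exact le_add_of_nonneg_right (nsq_nonneg _)

end LeafA

variable {Λ Q : Type} [Fintype Λ] [DecidableEq Λ] [Fintype Q] [DecidableEq Q] [Nonempty Q] {N : ℕ}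
  {θ : ℝ} {t : ℕ}

theorem leaf (c : Fin N → Cfg Λ) (g : Matrix (Λ → Q) (Λ → Q) ℂ) (a0 : Fin N)
    (T T' : Fin N → RM Λ Q N) (hT : ∀ a, T a * T' a = 1) :
    ∃ Mt Dc : RM Λ Q N, Pd Mt ∧ Ps Dc ∧
      (∀ v, qf Dc v = (∑ a, nsq (df θ t c g a (T a) (T' a) *ᵥ (PS Λ Q Finset.univ *ᵥ v))) / N) ∧
      ∀ u v, ‖star u ⬝ᵥ ((Mt * (one a0 g * PS Λ Q Finset.univ) -
        one a0 g * PS Λ Q Finset.univ * Mb Q θ t c) *ᵥ v)‖ ^ 2 ≤ qf Mt u * qf Dc v := by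
  have hN : (0 : ℝ) < N := Nat.cast_pos.2 a0.pos
  have hP := PS_prj (Λ := Λ) (Q := Q) (Finset.univ : Finset (Fin N))
  have hP' := PS_prj (Λ := Λ) (Q := Q) (Finset.univ.erase a0)
  have hU := PS_univ (Λ := Λ) (Q := Q) a0
  have hc : PS Λ Q (Finset.univ.erase a0) * one a0 g = one a0 g * PS Λ Q (Finset.univ.erase a0) :=
    PS_comm fun π hπ => (one_comm_fix _ (mem_SG.1 hπ a0 (by simp)) g).symm
  have hS : ∀ a, pm Q Finset.univ (Equiv.swap a0 a) * PS Λ Q Finset.univ = PS Λ Q Finset.univ :=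
    fun a => (pm_PS (mem_SG.2 fun j hj => absurd (Finset.mem_univ j) hj)).1
  have hH : ∀ a, (pm Q (Finset.univ : Finset Λ) (Equiv.swap a0 a))ᴴ =
      pm Q Finset.univ (Equiv.swap a0 a) := fun a => by rw [pm_ct, Equiv.swap_inv]
  have hPP : PS Λ Q (Finset.univ.erase a0) * PS Λ Q Finset.univ = PS Λ Q Finset.univ := by
    rw [hU, ← Matrix.mul_assoc, hP'.2]
  have hγ : PS Λ Q (Finset.univ.erase a0) * (one a0 g * PS Λ Q Finset.univ) =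
      one a0 g * PS Λ Q Finset.univ := by
    rw [← Matrix.mul_assoc, hc, Matrix.mul_assoc, hPP]
  have h1 : ∀ a, pm Q Finset.univ (Equiv.swap a0 a) * (one a0 g * PS Λ Q Finset.univ) =
      one a g * PS Λ Q Finset.univ := fun a => by
    rw [← Matrix.mul_assoc, one_conj, Equiv.swap_apply_left, Matrix.mul_assoc, hS]
  have h2 : ∀ a, one a0 g * pm Q Finset.univ (Equiv.swap a0 a) =
      pm Q Finset.univ (Equiv.swap a0 a) * one a g := fun a => by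
    rw [one_conj, Equiv.swap_apply_right]
  have hT' : ∀ a, T' a * T a = 1 := fun a => mul_eq_one_comm.1 (hT a)
  have hT2 : ∀ a, (T a)ᴴ * (T' a)ᴴ = 1 := fun a => by
    rw [← conjTranspose_mul, hT', conjTranspose_one]
  have hM : PS Λ Q Finset.univ * Mb Q θ t c =
      PS Λ Q Finset.univ * (Th Q θ t c * Th Q θ t c * PS Λ Q Finset.univ) := by
    rw [Mb, Matrix.mul_add, Matrix.mul_sub, Matrix.mul_one, hP.2, sub_self, add_zero,
      Matrix.mul_assoc (PS Λ Q Finset.univ), ← Matrix.mul_assoc (PS Λ Q Finset.univ), hP.2]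
  have h3 : one a0 g * PS Λ Q Finset.univ = ((N : ℝ)⁻¹ : ℝ) • ∑ a, PS Λ Q (Finset.univ.erase a0) *
      (pm Q Finset.univ (Equiv.swap a0 a) * one a g) := by
    rw [hU, ← Matrix.mul_assoc, ← hc, Matrix.mul_assoc, Matrix.mul_smul, Matrix.mul_smul,
      Matrix.mul_sum, Matrix.mul_sum]
    simp only [h2]
    ext x y
    simp
  obtain ⟨Mt, Dc, k1, k2, k3, k4⟩ := LeafA.core (inv_pos.2 hN) hP'
    (fun a => T a * pm Q Finset.univ (Equiv.swap a0 a) * PS Λ Q (Finset.univ.erase a0))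
    (fun a => df θ t c g a (T a) (T' a) * PS Λ Q Finset.univ) a0 (Z := T' a0)
    (W := one a0 g * PS Λ Q Finset.univ * Mb Q θ t c)
    (by rw [Equiv.swap_self, ← Equiv.Perm.one_def, pm_one, Matrix.mul_one, ← Matrix.mul_assoc, hT',
      Matrix.one_mul]) hγ (by
      rw [Matrix.mul_assoc (one a0 g), hM, ← Matrix.mul_assoc (one a0 g), Matrix.smul_mul,
        Matrix.sum_mul]
      nth_rewrite 2 [h3]
      rw [Matrix.smul_mul, Matrix.sum_mul, ← Complex.coe_smul, ← smul_sub, ← Finset.sum_sub_distrib]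
      congr 1
      refine Finset.sum_congr rfl fun a _ => ?_
      have e := hT2 a
      simp only [conjTranspose_mul, hH, hP'.1.eq, df, Matrix.mul_assoc, hγ, h1, Matrix.sub_mul,
        Matrix.mul_sub]
      rw [← Matrix.mul_assoc (T a)ᴴ (T' a)ᴴ, e, Matrix.one_mul])
  refine ⟨Mt, Dc, k1, k2, fun v => ?_, k4⟩
  rw [k3, inv_mul_eq_div]
  simp only [mulVec_mulVec]

/-- the step operator on symmetric vectors (`tens_near`, `sum_one_sym`) -/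
theorem leaf_near (g : Matrix (Λ → Q) (Λ → Q) ℂ) (a0 : Fin N) {b ε : ℝ} (hb0 : 0 ≤ b)
    (hb : Bd (gᴴ * g) b) (hε : 0 ≤ ε) (h1 : N * ε * b ≤ 1) :
    Bd ((one a0 g * PS Λ Q Finset.univ)ᴴ * (one a0 g * PS Λ Q Finset.univ)) b ∧
    ∀ v, Sy Finset.univ v → nr (tens N (1 - (ε : ℂ) • (gᴴ * g)) *ᵥ v - (v - ((N * ε : ℝ) : ℂ) •
      (((one a0 g * PS Λ Q Finset.univ)ᴴ * (one a0 g * PS Λ Q Finset.univ)) *ᵥ v))) ≤
      (N * ε * b) ^ 2 * nr v := by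
  have hP := PS_prj (Λ := Λ) (Q := Q) (Finset.univ : Finset (Fin N))
  have e : (one a0 g * PS Λ Q Finset.univ)ᴴ * (one a0 g * PS Λ Q Finset.univ) =
      PS Λ Q Finset.univ * one a0 (gᴴ * g) * PS Λ Q Finset.univ := by
    rw [conjTranspose_mul, hP.1.eq, one_ct, one_mul']
    simp only [Matrix.mul_assoc]
  rw [e]
  refine ⟨by simpa using (hP.bd.mul (one_bd a0 hb0 hb) zero_le_one).mul hP.bd (by simpa using hb0),
    fun v hv => ?_⟩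
  have h := tens_near hb0 hb hε h1 v
  rw [sub_mulVec, sub_mulVec, one_mulVec, smul_mulVec, sum_one_sym a0 _ hv, smul_smul] at h
  rw [← mulVec_mulVec, (sy_iff _ v).1 hv]
  push_cast
  rwa [mul_comm (N : ℂ)]

end Vale.Agent.P356G
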