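import Vale.Agent.P356G.RepF0

/- Alternative forms of the tilt. `Th_alt`: `hf_agree` on the set of vectors symmetric in every group,
`Lw_compl`.
`noncross`: for the pair `k0 = c a` take the three sets (or complements) disjoint from `Z`
(`Z ⊆ A`: `(A ∪ B)ᶜ, Aᶜ, B`; `Z ⊆ B`: `(A ∪ B)ᶜ, A, Bᶜ`; else `A ∪ B, A, B`), for other pairs the
original sets; `X` = the exponential in `Th_alt` commutes with `one a g` (`one_comm_disj`,
`one_comm_fix`); `T = X`, `T' = X⁻¹ = hexp (-..)`; `Th Th v = X X v`.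
`Mb_low`: `X` = alternative form with the sets `(A ∪ B)ᶜ, A, Bᶜ` (for empty groups the terms vanish or
choose anything), all inside `U`; on symmetric vectors `PS Th Th PS = PS X X PS`; let
`X' = N!⁻¹ ∑ π, pm U π * X X * pm U π⁻¹`; it is in `Alg U`, equals the average over `pm univ π`
(`X` commutes with `pm Uᶜ π`), so commutes with `PS` and `PS X X PS = X' PS`. `Mb_high`: the same with
`(A ∪ B)ᶜ, Aᶜ, B`... inside `Uᶜ` one needs `(A ∪ B)ᶜ ⊆ Uᶜ`, `Aᶜ ⊆ Uᶜ`, `B ⊆ Uᶜ`. -/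

namespace Vale.Agent.P356G

open Matrix Vale.Agent.P356

variable {Λ Q : Type} [Fintype Λ] [DecidableEq Λ] [Fintype Q] [DecidableEq Q] [Nonempty Q] {N : ℕ}
  {θ : ℝ} {t : ℕ}

namespace RepFA

omit [Nonempty Q] in
theorem ext_vec {X Y : RM Λ Q N} (h : ∀ v, X *ᵥ v = Y *ᵥ v) : X = Y :=
  Matrix.toLin'.injective (LinearMap.ext h)

omit [Nonempty Q] in
theorem avg {U : Finset Λ} {E : RM Λ Q N} (hE : Alg U E) : ∃ X : RM Λ Q N, Alg U X ∧
    Commute (PS Λ Q Finset.univ) X ∧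
      PS Λ Q Finset.univ * E * PS Λ Q Finset.univ = X * PS Λ Q Finset.univ := by
  have h1 : ∀ π : Equiv.Perm (Fin N), pm Q U π * E * pm Q U π⁻¹ =
      pm Q Finset.univ π * E * pm Q Finset.univ π⁻¹ := by
    intro π
    have h2 : Commute (pm Q Uᶜ π) E := hE _ fun Y hY σ =>
      pm_comm_disj (disjoint_compl_left.mono_right hY) π σ
    have h3 : Commute (pm Q Uᶜ π) (pm Q U π⁻¹) := pm_comm_disj disjoint_compl_left _ _
    rw [← pm_compl U π, ← pm_compl U π⁻¹, mul_assoc (pm Q U π) (pm Q Uᶜ π), h2.eq]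
    simp only [mul_assoc]
    rw [← mul_assoc (pm Q Uᶜ π), h3.eq, mul_assoc, ← pm_mul, mul_inv_cancel, pm_one, mul_one]
  refine ⟨(((SG (Finset.univ : Finset (Fin N))).card : ℂ)⁻¹) •
    ∑ π ∈ SG Finset.univ, pm Q U π * E * pm Q U π⁻¹, fun Z hZ => ?_, PS_comm fun σ _ => ?_, ?_⟩
  · exact (Commute.sum_right _ _ _ fun π _ =>
      ((hZ U le_rfl π).mul_right (hE Z hZ)).mul_right (hZ U le_rfl π⁻¹)).smul_right _
  · refine Commute.smul_right ?_ _
    simp only [h1, SG_univ]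
    rw [Commute, SemiconjBy, Finset.mul_sum, Finset.sum_mul, ← Equiv.sum_comp (Equiv.mulLeft σ)
      (fun π => pm Q Finset.univ π * E * pm Q Finset.univ π⁻¹ * pm Q Finset.univ σ)]
    refine Finset.sum_congr rfl fun π _ => ?_
    simp only [Equiv.coe_mulLeft, mul_assoc]
    rw [← pm_mul _ _ σ, _root_.mul_inv_rev, inv_mul_cancel_right, pm_mul, mul_assoc]
  · simp only [h1]
    conv_lhs => rw [mul_assoc]; lhs; rw [PS]
    rw [smul_mul_assoc, smul_mul_assoc, Finset.sum_mul, Finset.sum_mul]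
    congr 1
    refine Finset.sum_congr rfl fun π hπ => ?_
    rw [mul_assoc _ (pm Q _ π⁻¹), (pm_PS (SG_inv hπ)).1, mul_assoc]

theorem core {c : Fin N → Cfg Λ} (ht : 0 < t) {U : Finset Λ} (Y1 Y2 Y3 : Cfg Λ → Finset Λ)
    (h1 : ∀ k, Y1 k = k.1 ∪ k.2 ∨ Y1 k = (k.1 ∪ k.2)ᶜ) (h2 : ∀ k, Y2 k = k.1 ∨ Y2 k = k.1ᶜ)
    (h3 : ∀ k, Y3 k = k.2 ∨ Y3 k = k.2ᶜ)
    (h : ∀ a, Y1 (c a) ⊆ U ∧ Y2 (c a) ⊆ U ∧ Y3 (c a) ⊆ U) :
    ∃ X : RM Λ Q N, Alg U X ∧ Commute (PS Λ Q Finset.univ) X ∧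
      Mb Q θ t c = X * PS Λ Q Finset.univ + (1 - PS Λ Q Finset.univ) := by
  set E : RM Λ Q N := hexp ((θ : ℂ) • ∑ k : Cfg Λ, (Lw Q (Y1 k) (grp c k) t -
      Lw Q (Y2 k) (grp c k) (DD Λ Q * t) - Lw Q (Y3 k) (grp c k) (DD Λ Q * t))) with hE
  have hA : Alg U E := by
    intro Z hZ
    refine hf_comm (Commute.smul_right (Commute.sum_right _ _ _ fun k _ => ?_) _) _
    rcases (grp c k).eq_empty_or_nonempty with h0 | ⟨a, ha⟩
    · have ht' : 0 < DD Λ Q * t := Nat.mul_pos DD_pos ht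
      rw [h0, Lw_empty _ ht, Lw_empty _ ht', Lw_empty _ ht']
      simp
    · obtain rfl : c a = k := (Finset.mem_filter.1 ha).2
      exact ((comm_Lw _ fun π _ => hZ _ (h a).1 π).sub_right
        (comm_Lw _ fun π _ => hZ _ (h a).2.1 π)).sub_right (comm_Lw _ fun π _ => hZ _ (h a).2.2 π)
  have hT : Th Q θ t c * Th Q θ t c * PS Λ Q Finset.univ = E * E * PS Λ Q Finset.univ := by
    refine ext_vec fun v => ?_
    have hv : ∀ k, Sy (grp c k) (PS Λ Q Finset.univ *ᵥ v) := fun k =>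
      (sy_PS _ v).mono (Finset.subset_univ _)
    simp only [← mulVec_mulVec]
    rw [Th_alt c Y1 Y2 Y3 h1 h2 h3 fun k => Th_sy c k le_rfl (hv k), Th_alt c Y1 Y2 Y3 h1 h2 h3 hv]
  obtain ⟨X, hX1, hX2, hX3⟩ := avg (E := E * E) fun Z hZ => (hA Z hZ).mul_right (hA Z hZ)
  exact ⟨X, hX1, hX2, by rw [Mb, mul_assoc, hT, ← mul_assoc, hX3]⟩

omit [Nonempty Q] in
theorem herm_smul {A : RM Λ Q N} (hA : A.IsHermitian) (x : ℝ) : ((x : ℂ) • A).IsHermitian := by
  rw [IsHermitian, conjTranspose_smul, hA.eq]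
  simp

omit [Nonempty Q] in
theorem pm_Lc (k : Cfg Λ) (π : Equiv.Perm (Fin N)) :
    Commute (pm Q Finset.univ π) (Lc Q t k Finset.univ) := by
  have h : ∀ (Y : Finset Λ) (t : ℕ), Commute (pm Q Finset.univ π) (Lw Q Y Finset.univ t) :=
    fun Y t => by
      have h1 : Commute (pm Q Finset.univ π) (om Q Y Finset.univ t) :=
        om_comm t (Or.inl ⟨Finset.subset_univ _, by simp⟩)
      unfold Lw hlog
      exact hf_comm h1 _
  exact ((h _ _).sub_right (h _ _)).sub_right (h _ _)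

theorem Lc_Lc {k k' : Cfg Λ} (hk : Disjoint k.1 k.2) (hk' : Disjoint k'.1 k'.2) (h : k.2ᶜ ⊆ k'.1) :
    Commute (Lc Q t k' (Finset.univ : Finset (Fin N))) (Lc Q t k Finset.univ) := by
  have h1 : ∀ (Y : Finset Λ) (s : ℕ), Y ⊆ k'.1 →
      Commute (Lc Q t k' (Finset.univ : Finset (Fin N))) (Lw Q Y Finset.univ s) := fun Y s hY =>
    ((Lw_Lw _ _ (Or.inr (Or.inl (disjoint_compl_right.mono_left
      (hY.trans Finset.subset_union_left))))).sub_left
      (Lw_Lw _ _ (Or.inl ⟨hY, le_rfl⟩))).sub_left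
      (Lw_Lw _ _ (Or.inl ⟨hY.trans hk'.le_compl_right, le_rfl⟩))
  exact ((h1 _ _ ((Finset.compl_subset_compl.2 Finset.subset_union_right).trans h)).sub_right
    (h1 _ _ (Finset.Subset.trans hk.le_compl_right h))).sub_right (h1 _ _ h)

end RepFA

open RepFA

theorem Mb_low {c : Fin N → Cfg Λ} (hc : Ok c) (ht : 0 < t) {U : Finset Λ}
    (h : ∀ a, (c a).2ᶜ ⊆ U) : ∃ X : RM Λ Q N, Alg U X ∧ Commute (PS Λ Q Finset.univ) X ∧
      Mb Q θ t c = X * PS Λ Q Finset.univ + (1 - PS Λ Q Finset.univ) :=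
  core ht (fun k => (k.1 ∪ k.2)ᶜ) (fun k => k.1) (fun k => k.2ᶜ) (fun _ => Or.inr rfl)
    (fun _ => Or.inl rfl) (fun _ => Or.inr rfl) fun a =>
      ⟨(Finset.compl_subset_compl.2 Finset.subset_union_right).trans (h a),
        Finset.Subset.trans (hc a).le_compl_right (h a), h a⟩

theorem Mb_high {c : Fin N → Cfg Λ} (hc : Ok c) (ht : 0 < t) {U : Finset Λ}
    (h : ∀ a, U ⊆ (c a).1) : ∃ X : RM Λ Q N, Alg Uᶜ X ∧ Commute (PS Λ Q Finset.univ) X ∧
      Mb Q θ t c = X * PS Λ Q Finset.univ + (1 - PS Λ Q Finset.univ) :=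
  core ht (fun k => (k.1 ∪ k.2)ᶜ) (fun k => k.1ᶜ) (fun k => k.2) (fun _ => Or.inr rfl)
    (fun _ => Or.inr rfl) (fun _ => Or.inl rfl) fun a =>
      ⟨Finset.compl_subset_compl.2 ((h a).trans Finset.subset_union_left),
        Finset.compl_subset_compl.2 (h a),
        Finset.Subset.trans (hc a).le_compl_left (Finset.compl_subset_compl.2 (h a))⟩

theorem Mb_Mb {c c' : Fin N → Cfg Λ} (hc : Ok c) (hc' : Ok c') (ht : 0 < t) {U : Finset Λ}
    (h : ∀ a, (c a).2ᶜ ⊆ U) (h' : ∀ a, U ⊆ (c' a).1) : Commute (Mb Q θ t c) (Mb Q θ t c') := by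
  obtain ⟨X, h1, h2, h3⟩ := Mb_low (Q := Q) (θ := θ) hc ht h
  obtain ⟨X', h1', h2', h3'⟩ := Mb_high (Q := Q) (θ := θ) hc' ht h'
  have h4 : Commute X X' := Alg.comm disjoint_compl_right h1 h1'
  have h5 : Commute X (Mb Q θ t c') := by
    rw [h3']
    exact (h4.mul_right h2.symm).add_right ((Commute.one_right _).sub_right h2.symm)
  rw [h3]
  exact (h5.mul_left (Mb_PS c')).add_left ((Commute.one_left _).sub_left (Mb_PS c'))

theorem tens_Mb {c : Fin N → Cfg Λ} (hc : Ok c) (ht : 0 < t) {Z : Finset Λ} (hZ : ∀ a, NoX Z (c a))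
    {O : Matrix (Λ → Q) (Λ → Q) ℂ} (hO : Loc (fun z => z ∈ Z) O) :
    Commute (tens N O) (Mb Q θ t c) := by
  have h1 : Commute (tens N O) (PS Λ Q Finset.univ) :=
    (PS_comm fun π _ => (tens_comm_univ O π).symm).symm
  have h2 : Commute (tens N O) (Th Q θ t c) := by
    refine comm_Tp ht fun a _ π _ => ?_
    rcases hZ a with h | h | h
    · exact ⟨tens_comm (Or.inl (h.trans Finset.subset_union_left)) hO π,
        tens_comm (Or.inl h) hO π, tens_comm (Or.inr ((hc a).mono_left h)) hO π⟩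
    · exact ⟨tens_comm (Or.inl (h.trans Finset.subset_union_right)) hO π,
        tens_comm (Or.inr ((hc a).symm.mono_left h)) hO π, tens_comm (Or.inl h) hO π⟩
    · exact ⟨tens_comm (Or.inr h) hO π,
        tens_comm (Or.inr (h.mono_right Finset.subset_union_left)) hO π,
        tens_comm (Or.inr (h.mono_right Finset.subset_union_right)) hO π⟩
  exact ((h1.mul_right (h2.mul_right h2)).mul_right h1).add_right
    ((Commute.one_right _).sub_right h1)

theorem Lc_herm (k : Cfg Λ) (G : Finset (Fin N)) : (Lc Q t k G).IsHermitian :=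
  ((Lw_herm _ _ _).sub (Lw_herm _ _ _)).sub (Lw_herm _ _ _)

theorem RepFA.sy_hexp (k : Cfg Λ) (x : ℂ) {v : (Fin N → Λ → Q) → ℂ} (hv : Sy Finset.univ v) :
    Sy Finset.univ (hexp (x • Lc Q t k Finset.univ) *ᵥ v) :=
  hv.mulVec fun π _ => hf_comm ((pm_Lc k π).smul_right x) _

theorem RepFA.Th_one (k : Cfg Λ) (ht : 0 < t) {v : (Fin N → Λ → Q) → ℂ} (hv : Sy Finset.univ v) :
    Th Q θ t (fun _ : Fin N => k) *ᵥ v = hexp ((θ : ℂ) • Lc Q t k Finset.univ) *ᵥ v := by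
  have ht' : 0 < DD Λ Q * t := Nat.mul_pos DD_pos ht
  rw [Th_alt _ (fun k => (k.1 ∪ k.2)ᶜ) (fun k => k.1) (fun k => k.2ᶜ) (fun _ => Or.inr rfl)
    (fun _ => Or.inl rfl) (fun _ => Or.inr rfl) fun _ => hv.mono (Finset.subset_univ _),
    Finset.sum_eq_single k]
  · rw [show grp (fun _ : Fin N => k) k = Finset.univ by simp [grp], Lc]
  · intro k' _ hne
    rw [show grp (fun _ : Fin N => k) k' = ∅ by simp [grp, hne.symm], Lw_empty _ ht,
      Lw_empty _ ht', Lw_empty _ ht']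
    simp
  · simp

theorem RepFA.Mb_one (k : Cfg Λ) (ht : 0 < t) {v : (Fin N → Λ → Q) → ℂ} (hv : Sy Finset.univ v) :
    Mb Q θ t (fun _ : Fin N => k) *ᵥ v =
      hexp (((2 * θ : ℝ) : ℂ) • Lc Q t k Finset.univ) *ᵥ v := by
  have h1 := (sy_iff _ _).1 hv
  have h2 : ((2 * θ : ℝ) : ℂ) • Lc Q t k (Finset.univ : Finset (Fin N)) =
      (θ : ℂ) • Lc Q t k Finset.univ + (θ : ℂ) • Lc Q t k Finset.univ := by
    rw [← add_smul]; push_cast; rw [two_mul]
  have h3 := herm_smul (Lc_herm (Q := Q) (t := t) k (Finset.univ : Finset (Fin N))) θ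
  rw [Mb, add_mulVec, sub_mulVec, one_mulVec, h1, sub_self, add_zero]
  simp only [← mulVec_mulVec]
  rw [h1, Th_one k ht hv, Th_one k ht (sy_hexp k _ hv),
    (sy_iff _ _).1 (sy_hexp k _ (sy_hexp k _ hv)), h2, hexp_add h3 h3 (Commute.refl _),
    mulVec_mulVec]

/-- products of constant leaves: `Mb (const k) v = hexp (2 θ Lc k univ) v` on symmetric vectors
(`Th_alt`, only the group of `k` is nonempty); all sets are nested or disjoint, so the `Lc` commute -/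
theorem Mb_const (k : ℕ → Cfg Λ) (n : ℕ) (ht : 0 < t) (hd : ∀ j, j < n → Disjoint (k j).1 (k j).2)
    (hk : ∀ i j, i < j → j < n → (k i).2ᶜ ⊆ (k j).1) {v : (Fin N → Λ → Q) → ℂ}
    (hv : Sy Finset.univ v) :
    pr (fun j => Mb Q θ t fun _ : Fin N => k j) n *ᵥ v =
      hexp (((2 * θ : ℝ) : ℂ) • ∑ j ∈ Finset.range n, Lc Q t (k j) Finset.univ) *ᵥ v := by
  induction n generalizing v with
  | zero => simp [pr, hexp_zero]
  | succ n ih =>
    have h1 : (∑ j ∈ Finset.range n, Lc Q t (k j) (Finset.univ : Finset (Fin N))).IsHermitian := by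
      rw [IsHermitian, conjTranspose_sum]
      exact Finset.sum_congr rfl fun j _ => (Lc_herm _ _).eq
    have h2 : Commute (Lc Q t (k n) (Finset.univ : Finset (Fin N)))
        (∑ j ∈ Finset.range n, Lc Q t (k j) Finset.univ) :=
      Commute.sum_right _ _ _ fun j hj => Lc_Lc (hd j (by have := Finset.mem_range.1 hj; omega))
        (hd n (by omega)) (hk j n (Finset.mem_range.1 hj) (by omega))
    rw [pr, ← mulVec_mulVec, Mb_one _ ht hv, ih (fun j hj => hd j (by omega))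
      (fun i j hij hj => hk i j hij (by omega)) (sy_hexp _ _ hv), Finset.sum_range_succ, smul_add,
      hexp_add (herm_smul h1 _) (herm_smul (Lc_herm _ _) _) ((h2.symm.smul_left _).smul_right _),
      mulVec_mulVec]

end Vale.Agent.P356G
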