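import Vale.Agent.P356G.RepE

/- Crude bounds. By `rh_spIn`, `cpw_bd_pos` with `m = |G| + 1 ≤ N`, `t / 2 ≤ t - D`, `δ N ≤ t ≤ N`:
`|inc| ≤ ((t + m) / m) ^ θ (m / (D t - D)) ^ (2 θ) ≤ (8 / δ ^ 2) ^ θ`,
`|incI| ≤ ((D t + m) / m) ^ (2 θ) (m / (t - D)) ^ θ ≤ (8 D ^ 2 N / (δ m)) ^ θ`.
`df_crude`: `T = Tp c (univ.erase a)`, `T' = T⁻¹`, `Th c = inc T = T incᴴ` (`Tp_inc`, Hermitian), `T` commutes
with `one a g` (`Tp_one`), so `df v = one a g (incI - incᴴ) (Th c v)`.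
`move_crude`: `Th_move`. -/

namespace Vale.Agent.P356G

open Matrix Vale.Agent.P356 Filter

variable {Λ Q : Type} [Fintype Λ] [DecidableEq Λ] [Fintype Q] [DecidableEq Q] [Nonempty Q] {N : ℕ}
  {θ δ : ℝ} {t : ℕ}

namespace CrudeA

theorem three {x y z b θ : ℝ} (hx : 0 ≤ x) (hy : 0 ≤ y) (hz : 0 ≤ z) (hθ : 0 ≤ θ)
    (h : x * y * z ≤ b) : x ^ θ * y ^ θ * z ^ θ ≤ b ^ θ := by
  rw [← Real.mul_rpow hx hy, ← Real.mul_rpow (mul_nonneg hx hy) hz]
  exact Real.rpow_le_rpow (by positivity) h hθ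

theorem card_le {a : Fin N} {G : Finset (Fin N)} (ha : a ∉ G) : (G.card : ℝ) + 1 ≤ N := by
  have h := Finset.card_le_univ (insert a G)
  rw [Finset.card_insert_of_notMem ha, Fintype.card_fin] at h
  exact_mod_cast h

theorem card_erase (c : Fin N → Cfg Λ) (a : Fin N) :
    (((grp c (c a)).erase a).card : ℝ) + 1 = (grp c (c a)).card := by
  have h : a ∈ grp c (c a) := Finset.mem_filter.2 ⟨Finset.mem_univ _, rfl⟩
  exact_mod_cast Finset.card_erase_add_one h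

end CrudeA

theorem inc_crude (hθ : 0 ≤ θ) (hδ : 0 < δ) (h1 : 2 * DD Λ Q < t) (h2 : δ * N ≤ t) (h3 : t ≤ N)
    (k : Cfg Λ) {a : Fin N} {G : Finset (Fin N)} (ha : a ∉ G) :
    Bd (inc Q θ t k a G) ((8 / δ ^ 2) ^ θ) ∧
      Bd (incI Q θ t k a G) ((8 * (DD Λ Q : ℝ) ^ 2 * N / (δ * (G.card + 1))) ^ θ) := by
  have hD : (1 : ℝ) ≤ DD Λ Q := by exact_mod_cast (DD_pos : 0 < DD Λ Q)
  have ht : 2 * (DD Λ Q : ℝ) + 1 ≤ t := by exact_mod_cast h1
  have hN : (t : ℝ) ≤ N := by exact_mod_cast h3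
  have hm := CrudeA.card_le ha
  have g0 : (0 : ℝ) ≤ G.card := Nat.cast_nonneg _
  have b1 := fun Y : Finset Λ => cpw_bd_pos (rh_spIn (Q := Q) Y ha t)
    (div_pos (by linarith) (by linarith))
    (div_le_div_of_nonneg_right (by linarith) (by linarith)) hθ
  have b2 := fun Y : Finset Λ => cpw_bd_pos (rh_spIn (Q := Q) Y ha (DD Λ Q * t))
    (div_pos (by push_cast; nlinarith) (by linarith))
    (div_le_div_of_nonneg_right (by linarith) (by linarith)) hθ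
  push_cast at b2
  generalize (DD Λ Q : ℝ) = D at *
  generalize (G.card : ℝ) = g at *
  have l1 : 0 < (t : ℝ) - D := by linarith
  have l2 : (t : ℝ) / 2 ≤ D * t - D := by nlinarith
  have l3 : 0 < D * t - D := by linarith
  have n0 : (0 : ℝ) < N := by linarith
  constructor
  · refine (((b1 _).1.mul (b2 _).2 (by positivity)).mul (b2 _).2 (by positivity)).mono ?_
    rw [Real.rpow_neg_eq_inv_rpow]
    refine CrudeA.three (by positivity) (by positivity) (by positivity) hθ ?_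
    have e : (t + g) / (g + 1) * ((D * t - D) / (g + 1))⁻¹ * ((D * t - D) / (g + 1))⁻¹ =
        (t + g) * (g + 1) / (D * t - D) ^ 2 := by field_simp
    rw [e, div_le_div_iff₀ (by positivity) (by positivity)]
    have u1 : (t + g) * (g + 1) ≤ 2 * N * N := mul_le_mul (by linarith) hm (by linarith) (by linarith)
    have u2 : (δ * N / 2) ^ 2 ≤ (D * t - D) ^ 2 := pow_le_pow_left₀ (by positivity) (by linarith) 2
    nlinarith [mul_le_mul_of_nonneg_right u1 (sq_nonneg δ)]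
  · refine (((b2 _).1.mul (b2 _).1 (by positivity)).mul (b1 _).2 (by positivity)).mono ?_
    rw [Real.rpow_neg_eq_inv_rpow]
    refine CrudeA.three (by positivity) (by positivity) (by positivity) hθ ?_
    have e : (D * t + g) / (g + 1) * ((D * t + g) / (g + 1)) * ((t - D) / (g + 1))⁻¹ =
        (D * t + g) ^ 2 / (t - D) / (g + 1) := by field_simp
    rw [e, ← div_div]
    refine div_le_div_of_nonneg_right ?_ (by linarith)
    rw [div_le_div_iff₀ l1 hδ]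
    have u1 : (D * t + g) ^ 2 ≤ (2 * D * N) ^ 2 :=
      pow_le_pow_left₀ (by positivity) (by nlinarith) 2
    have u2 : δ * N / 2 ≤ t - D := by linarith
    nlinarith [mul_le_mul_of_nonneg_right u1 hδ.le,
      mul_le_mul_of_nonneg_left u2 (show 0 ≤ 8 * D ^ 2 * N by positivity)]

theorem move_crude (hθ : 0 ≤ θ) (hθ1 : θ ≤ 1 / 8) (hδ : 0 < δ) (hδ1 : δ ≤ 1) (h1 : 2 * DD Λ Q < t)
    (h2 : δ * N ≤ t) (h3 : t ≤ N) {c : Fin N → Cfg Λ} (hc : Ok c) (a : Fin N) {k : Cfg Λ}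
    (hk : Disjoint k.1 k.2) (v : (Fin N → Λ → Q) → ℂ) :
    nsq (Th Q θ t (Function.update c a k) *ᵥ v) ≤
      64 * (DD Λ Q : ℝ) ^ 2 / δ * (N / (grp c (c a)).card) * nsq (Th Q θ t c *ᵥ v) := by
  have b1 := (inc_crude hθ hδ h1 h2 h3 k (Finset.notMem_erase a (grp c k))).1
  have b2 := (inc_crude hθ hδ h1 h2 h3 (c a) (Finset.notMem_erase a (grp c (c a)))).2
  have hm := CrudeA.card_le (Finset.notMem_erase a (grp c (c a)))
  have m0 : (0 : ℝ) < (grp c (c a)).card := by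
    rw [← CrudeA.card_erase]
    positivity
  have hD : (1 : ℝ) ≤ DD Λ Q := by exact_mod_cast (DD_pos : 0 < DD Λ Q)
  rw [CrudeA.card_erase] at b2 hm
  rw [Th_move hc a hk (by omega), ← mulVec_mulVec]
  refine ((b1.mul b2 (by positivity)).nsq _).trans
    (mul_le_mul_of_nonneg_right ?_ (by rw [← nr_sq]; positivity))
  generalize (DD Λ Q : ℝ) = D at *
  generalize ((grp c (c a)).card : ℝ) = m at *
  obtain ⟨Y, hY⟩ : ∃ Y, Y = 64 * D ^ 2 / δ * (N / m) := ⟨_, rfl⟩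
  have u1 : 1 ≤ (N : ℝ) / m := (one_le_div m0).2 hm
  have u2 : 1 / δ ≤ Y := by
    rw [hY]
    refine le_trans (div_le_div_of_nonneg_right (by nlinarith) hδ.le)
      (le_mul_of_one_le_right (by positivity) u1)
  have u3 : 1 ≤ 1 / δ := (one_le_div hδ).2 hδ1
  have u4 : 8 / δ ^ 2 * (8 * D ^ 2 * N / (δ * m)) = Y * (1 / δ) ^ 2 := by
    rw [hY]
    field_simp
    ring
  have u5 : Y * (1 / δ) ^ 2 ≤ Y ^ 3 := by
    rw [pow_succ' Y 2]
    exact mul_le_mul_of_nonneg_left (pow_le_pow_left₀ (by linarith) u2 2) (by linarith)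
  have y0 : 0 ≤ Y := by linarith
  rw [← hY, ← Real.mul_rpow (by positivity) (by positivity), u4]
  refine (pow_le_pow_left₀ (by positivity) (Real.rpow_le_rpow (by positivity) u5 hθ) 2).trans ?_
  rw [← Real.rpow_natCast, ← Real.rpow_natCast, ← Real.rpow_mul y0, ← Real.rpow_mul y0]
  refine (Real.rpow_le_rpow_of_exponent_le (u3.trans u2) (z := 1) ?_).trans_eq (Real.rpow_one Y)
  push_cast
  linarith

theorem df_crude (hθ : 0 ≤ θ) (hθ1 : θ ≤ 1 / 16) (hδ : 0 < δ) (hδ1 : δ ≤ 1) (h1 : 2 * DD Λ Q < t)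
    (h2 : δ * N ≤ t) (h3 : t ≤ N) {c : Fin N → Cfg Λ} (hc : Ok c) (a : Fin N)
    (hg : δ * N ≤ (grp c (c a)).card) (g : Matrix (Λ → Q) (Λ → Q) ℂ) {J : ℝ} (hJ : 0 ≤ J)
    (h : Le (gᴴ * g) J 1) : ∃ T T' : RM Λ Q N, T * T' = 1 ∧ ∀ v,
      nsq (df θ t c g a T T' *ᵥ v) ≤
        32 * (DD Λ Q : ℝ) ^ 2 * δ ^ (-1 / 4 : ℝ) * J * nsq (Th Q θ t c *ᵥ v) := by
  obtain ⟨T, hT⟩ : ∃ T, T = Tp Q θ t c (Finset.univ.erase a) := ⟨_, rfl⟩
  have pT : Pd T := hT ▸ Tp_pd c _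
  have cT : Commute (one a g) T := hT ▸ Tp_one c (Finset.notMem_erase a _) (by omega) g
  have e1 : Th Q θ t c = inc Q θ t (c a) a ((grp c (c a)).erase a) * T := by
    rw [Th, Tp_inc (Finset.mem_univ a) (fun b _ => hc b) (by omega), Finset.inter_univ, hT]
  have e2 : Th Q θ t c = T * (inc Q θ t (c a) a ((grp c (c a)).erase a))ᴴ := by
    have h4 : (Th Q θ t c)ᴴ = Th Q θ t c := (Tp_pd c Finset.univ).1
    rw [← h4, e1, conjTranspose_mul, pT.1]
  obtain ⟨b1, b2⟩ := inc_crude hθ hδ h1 h2 h3 (c a) (Finset.notMem_erase a (grp c (c a)))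
  have e3 := (inc_incI (Q := Q) (θ := θ) (t := t) (c a) a ((grp c (c a)).erase a)).2
  rw [CrudeA.card_erase] at b2
  generalize inc Q θ t (c a) a ((grp c (c a)).erase a) = X at *
  generalize incI Q θ t (c a) a ((grp c (c a)).erase a) = X' at *
  have e4 : df θ t c g a T (cpw T (-1)) = one a g * ((X' - Xᴴ) * Th Q θ t c) := by
    have h4 : X' * Th Q θ t c = T := by rw [e1, ← mul_assoc, e3, one_mul]
    have h5 : cpw T (-1) * Th Q θ t c = Xᴴ := by rw [e2, ← mul_assoc, (cpw_inv pT).1, one_mul]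
    rw [df, cpw_ct, star_neg, star_one, ← (cpw_comm cT (-1)).eq, ← cT.eq, sub_mul, mul_sub, h4,
      mul_assoc, ← mul_assoc (cpw T (-1)), h5]
  refine ⟨T, cpw T (-1), (cpw_inv pT).2, fun v => ?_⟩
  have h4 := one_le a (isHermitian_conjTranspose_mul_self g) isHermitian_one h
    ((X' - Xᴴ) *ᵥ (Th Q θ t c *ᵥ v))
  rw [one_one, qf_one, one_mul', ← one_ct, qf_ct_mul] at h4
  rw [e4, ← mulVec_mulVec, ← mulVec_mulVec, mul_comm _ J, mul_assoc]
  refine h4.trans (mul_le_mul_of_nonneg_left (((b2.sub (b1.ct (by positivity))).nsq _).trans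
    (mul_le_mul_of_nonneg_right ?_ (by rw [← nr_sq]; positivity))) hJ)
  have hD : (1 : ℝ) ≤ DD Λ Q := by exact_mod_cast (DD_pos : 0 < DD Λ Q)
  have m0 : (0 : ℝ) < (grp c (c a)).card := by
    rw [← CrudeA.card_erase]
    positivity
  generalize (DD Λ Q : ℝ) = D at *
  generalize ((grp c (c a)).card : ℝ) = m at *
  have d1 : 1 ≤ D ^ 2 := one_le_pow₀ hD
  have u1 : (8 * D ^ 2 * N / (δ * m)) ^ θ ≤ (8 * D ^ 2 / δ ^ 2) ^ θ := by
    refine Real.rpow_le_rpow (by positivity) ?_ hθ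
    rw [div_le_div_iff₀ (by positivity) (by positivity)]
    nlinarith [mul_le_mul_of_nonneg_left hg (show 0 ≤ 8 * D ^ 2 * δ by positivity)]
  have u2 : (8 / δ ^ 2) ^ θ ≤ (8 * D ^ 2 / δ ^ 2) ^ θ :=
    Real.rpow_le_rpow (by positivity) (div_le_div_of_nonneg_right (by linarith) (by positivity)) hθ
  have u3 : ((8 * D ^ 2 / δ ^ 2) ^ θ) ^ 2 = (8 * D ^ 2) ^ (θ * 2) * δ ^ (-(4 * θ)) := by
    rw [← Real.rpow_natCast, ← Real.rpow_mul (by positivity),
      Real.div_rpow (by positivity) (by positivity), ← Real.rpow_natCast δ, ← Real.rpow_mul hδ.le,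
      Real.rpow_neg hδ.le, div_eq_mul_inv]
    congr 3
    push_cast
    ring
  have u4 : (8 * D ^ 2) ^ (θ * 2) ≤ 8 * D ^ 2 :=
    (Real.rpow_le_rpow_of_exponent_le (by linarith) (by linarith)).trans_eq (Real.rpow_one _)
  have u5 : δ ^ (-(4 * θ)) ≤ δ ^ (-1 / 4 : ℝ) :=
    Real.rpow_le_rpow_of_exponent_ge hδ hδ1 (by linarith)
  have u6 := mul_le_mul u4 u5 (by positivity) (by positivity)
  have u7 := pow_le_pow_left₀ (by positivity) (add_le_add u1 u2) 2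
  nlinarith

end Vale.Agent.P356G
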