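import Vale.Agent.P356G.KeyA
import Vale.Agent.P356G.Crude

/- Crude reset to the constant configuration and the seed configuration of a window. -/

namespace Vale.Agent.P356G

open Matrix Vale.Agent.P356 Filter

namespace Reset0A

variable {Λ Q : Type} [Fintype Λ] [DecidableEq Λ] [Fintype Q] [DecidableEq Q] {N : ℕ}

omit [Fintype Λ] in
theorem ne_update (c : Fin N → Cfg Λ) (a : Fin N) (k : Cfg Λ) :
    (Finset.univ.filter fun b => Function.update c a k b ≠ k) =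
      (Finset.univ.filter fun b => c b ≠ k).erase a := by
  ext b
  by_cases hb : b = a
  · subst hb
    simp
  · simp [hb]

omit [Fintype Λ] in
theorem grp_update (c : Fin N → Cfg Λ) (a : Fin N) {k k' : Cfg Λ} (h : k' ≠ k) :
    grp (Function.update c a k) k' = (grp c k').erase a := by
  ext b
  by_cases hb : b = a
  · subst hb
    simp [grp, h.symm]
  · simp [grp, hb]

omit [Fintype Λ] [DecidableEq Λ] in
theorem ok_update {c : Fin N → Cfg Λ} (hc : Ok c) (a : Fin N) {k : Cfg Λ}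
    (hk : Disjoint k.1 k.2) : Ok (Function.update c a k) := fun b => by
  by_cases hb : b = a
  · rw [hb, Function.update_self]; exact hk
  · rw [Function.update_of_ne hb]; exact hc b

theorem prod_step (X : ℝ) (c : Fin N → Cfg Λ) (a : Fin N) {lo : Cfg Λ} (ha : c a ≠ lo) :
    (∏ k ∈ Finset.univ.erase lo, X ^ (grp c k).card / (grp c k).card.factorial) =
      (∏ k ∈ Finset.univ.erase lo, X ^ (grp (Function.update c a lo) k).card /
        (grp (Function.update c a lo) k).card.factorial) * (X / (grp c (c a)).card) := by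
  have hm : c a ∈ Finset.univ.erase lo := Finset.mem_erase.2 ⟨ha, Finset.mem_univ _⟩
  rw [← Finset.mul_prod_erase _ _ hm, ← Finset.mul_prod_erase _ _ hm, mul_right_comm]
  congr 1
  · have h1 : a ∈ grp c (c a) := Finset.mem_filter.2 ⟨Finset.mem_univ _, rfl⟩
    rw [grp_update c a ha, ← Finset.card_erase_add_one h1, Nat.factorial_succ, pow_succ]
    have : (((grp c (c a)).erase a).card.factorial : ℝ) ≠ 0 :=
      Nat.cast_ne_zero.2 (Nat.factorial_ne_zero _)
    push_cast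
    field_simp
  · refine Finset.prod_congr rfl fun k hk => ?_
    have h1 := Finset.mem_erase.1 hk
    have h2 := Finset.mem_erase.1 h1.2
    rw [grp_update c a h2.1, Finset.erase_eq_of_notMem]
    simpa [grp] using h1.1.symm

theorem crude_up [Nonempty Q] {t : ℕ} {θ δ : ℝ} (hθ : 0 ≤ θ) (hθ1 : θ ≤ 1 / 8) (hδ : 0 < δ)
    (hδ1 : δ ≤ 1) (h1 : 2 * DD Λ Q < t) (h2 : δ * N ≤ t) (h3 : t ≤ N) {hi : Cfg Λ}
    (hhi : Disjoint hi.1 hi.2) (v : (Fin N → Λ → Q) → ℂ) (m : ℕ) (hm : 2 * m ≤ N) :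
    ∀ c : Fin N → Cfg Λ, Ok c → (Finset.univ.filter fun a => c a ≠ hi).card = m →
      nsq (Th Q θ t c *ᵥ v) ≤
        (128 * (DD Λ Q : ℝ) ^ 2 / δ) ^ m * nsq (Th Q θ t (fun _ => hi) *ᵥ v) := by
  induction m with
  | zero =>
    intro c _ hc
    have : c = fun _ => hi := funext fun a => by
      by_contra h
      exact Finset.notMem_empty a (Finset.card_eq_zero.1 hc ▸
        Finset.mem_filter.2 ⟨Finset.mem_univ a, h⟩)
    rw [this, pow_zero, one_mul]
  | succ m ih =>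
    intro c hc hcm
    obtain ⟨a, ha⟩ := Finset.card_pos.1 (hcm.symm ▸ Nat.add_one_pos m :
      0 < (Finset.univ.filter fun a => c a ≠ hi).card)
    have e1 : (Finset.univ.filter fun b => Function.update c a hi b ≠ hi).card = m := by
      rw [ne_update, Finset.card_erase_of_mem ha, hcm]
      rfl
    have i1 := ih (by omega) _ (ok_update hc a hhi) e1
    have i2 := move_crude (Q := Q) hθ hθ1 hδ hδ1 h1 h2 h3 (ok_update hc a hhi) a (hc a) v
    rw [Function.update_idem, Function.update_eq_self, Function.update_self] at i2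
    have e2 : (grp (Function.update c a hi) hi).card + m = N := by
      rw [← e1, grp, Finset.card_filter_add_card_filter_not, Finset.card_univ, Fintype.card_fin]
    have g0 : (0 : ℝ) < (grp (Function.update c a hi) hi).card := by
      exact_mod_cast (show 0 < (grp (Function.update c a hi) hi).card by omega)
    have g1 : (N : ℝ) / (grp (Function.update c a hi) hi).card ≤ 2 := by
      rw [div_le_iff₀ g0]
      exact_mod_cast (show N ≤ 2 * (grp (Function.update c a hi) hi).card by omega)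
    have g2 : 64 * (DD Λ Q : ℝ) ^ 2 / δ * (N / (grp (Function.update c a hi) hi).card) ≤
        128 * (DD Λ Q : ℝ) ^ 2 / δ :=
      (mul_le_mul_of_nonneg_left g1 (by positivity)).trans_eq (by ring)
    rw [pow_succ', mul_assoc]
    exact i2.trans (mul_le_mul g2 i1 (nsq_nonneg _) (by positivity))

theorem pow_exp {A δ x : ℝ} (hA : 0 < A) (hδ : 0 < δ) {m : ℕ} {s : ℝ} (hm : (m : ℝ) ≤ s)
    (h : 4 * A ^ (1 / 4 : ℝ) * δ ^ (-1 / 4 : ℝ) * s ≤ x) : (A / δ) ^ m ≤ Real.exp x := by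
  have hz : 0 < A / δ := by positivity
  have h1 : Real.log (A / δ) ≤ 4 * A ^ (1 / 4 : ℝ) * δ ^ (-1 / 4 : ℝ) := by
    have := Real.log_le_rpow_div hz.le (show (0 : ℝ) < 1 / 4 by norm_num)
    rw [Real.div_rpow hA.le hδ.le] at this
    rw [show (-1 / 4 : ℝ) = -(1 / 4) by norm_num, Real.rpow_neg hδ.le]
    calc _ ≤ _ := this
      _ = _ := by ring
  rw [← Real.exp_log (pow_pos hz m), Real.log_pow, Real.exp_le_exp]
  have h4 : 0 ≤ 4 * A ^ (1 / 4 : ℝ) * δ ^ (-1 / 4 : ℝ) := by positivity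
  calc _ ≤ m * (4 * A ^ (1 / 4 : ℝ) * δ ^ (-1 / 4 : ℝ)) :=
        mul_le_mul_of_nonneg_left h1 (Nat.cast_nonneg m)
    _ ≤ s * (4 * A ^ (1 / 4 : ℝ) * δ ^ (-1 / 4 : ℝ)) := mul_le_mul_of_nonneg_right hm h4
    _ ≤ _ := by rw [mul_comm]; exact h

theorem exists_win {lo hi : Cfg Λ} (hlo : Btw lo hi lo) {m : ℕ}
    (hm : Fintype.card (Cfg Λ) * m ≤ N) : ∃ c : Fin N → Cfg Λ, Win lo hi m c ∧
      (Finset.univ.filter fun a => c a ≠ hi).card ≤ Fintype.card (Cfg Λ) * m := by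
  classical
  obtain ⟨e⟩ : Nonempty (Cfg Λ × Fin m ↪ Fin N) :=
    Function.Embedding.nonempty_of_card_le (by simpa using hm)
  have hh : Btw lo hi hi := ⟨hlo.2.1, subset_rfl, hlo.2.2.2, subset_rfl⟩
  refine ⟨Function.extend e (fun p => if Btw lo hi p.1 then p.1 else hi) (fun _ => hi),
    ⟨fun a => ?_, fun k hk => ?_⟩, ?_⟩
  · by_cases ha : ∃ p, e p = a
    · obtain ⟨p, rfl⟩ := ha
      rw [e.injective.extend_apply]
      split_ifs with h
      exacts [h, hh]
    · rw [Function.extend_apply' _ _ _ ha]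
      exact hh
  · have hinj : Function.Injective fun i : Fin m => e (k, i) := fun i j hij =>
      (Prod.ext_iff.1 (e.injective hij)).2
    have := Finset.card_image_of_injective (Finset.univ : Finset (Fin m)) hinj
    rw [Finset.card_univ, Fintype.card_fin] at this
    refine this.ge.trans (Finset.card_le_card fun a ha => ?_)
    obtain ⟨i, -, rfl⟩ := Finset.mem_image.1 ha
    refine Finset.mem_filter.2 ⟨Finset.mem_univ _, ?_⟩
    rw [e.injective.extend_apply]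
    exact if_pos hk
  · have := Finset.card_image_le (s := (Finset.univ : Finset (Cfg Λ × Fin m))) (f := e)
    rw [Finset.card_univ, Fintype.card_prod, Fintype.card_fin] at this
    refine (Finset.card_le_card fun a ha => ?_).trans this
    by_contra h
    refine (Finset.mem_filter.1 ha).2 (Function.extend_apply' _ _ _ ?_)
    rintro ⟨p, rfl⟩
    exact h (Finset.mem_image_of_mem _ (Finset.mem_univ p))

end Reset0A

/-- `δ N ≤ t0 ≤ N`, `δ N ≤ ns`, and `K δ ^ (-1/4) ns ≤ η N` eventually -/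
theorem small_ev (K η : ℝ) (hη : 0 < η) : ∀ᶠ δ in nhdsWithin (0 : ℝ) (Set.Ioi 0),
    ∀ᶠ N : ℕ in atTop, 0 < δ ∧ δ ≤ 1 ∧ 0 < N ∧ δ * N ≤ t0 δ N ∧ t0 δ N ≤ N ∧ δ * N ≤ ns δ N ∧
      K * δ ^ (-1 / 4 : ℝ) * ns δ N ≤ η * N ∧ K * ns δ N ≤ η * N := by
  have hK : 0 < |K| + 1 := by positivity
  have hκ : 0 < η / (2 * (|K| + 1)) := by positivity
  generalize hk : η / (2 * (|K| + 1)) = κ at hκ
  have hk' : η = κ * (2 * (|K| + 1)) := by rw [← hk]; field_simp
  filter_upwards [Ioo_mem_nhdsGT (show (0 : ℝ) < min 1 (κ ^ 4) by positivity)] with δ hδ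
  have h0 : 0 < δ := hδ.1
  have h1 : δ ≤ 1 := hδ.2.le.trans (min_le_left _ _)
  have h2 : δ ≤ κ ^ 4 := hδ.2.le.trans (min_le_right _ _)
  have hs0 : 0 < Real.sqrt δ := Real.sqrt_pos.2 h0
  have hs1 : δ ≤ Real.sqrt δ := Real.le_sqrt_of_sq_le (by nlinarith)
  have r1 : 1 ≤ δ ^ (-1 / 4 : ℝ) :=
    Real.one_le_rpow_of_pos_of_le_one_of_nonpos h0 h1 (by norm_num)
  have r2 : δ ^ (-1 / 4 : ℝ) * Real.sqrt δ ≤ κ := by
    rw [Real.sqrt_eq_rpow, ← Real.rpow_add h0]
    refine (Real.rpow_le_rpow h0.le h2 (by norm_num)).trans_eq ?_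
    rw [← Real.rpow_natCast, ← Real.rpow_mul hκ.le]
    norm_num
  filter_upwards [(tendsto_natCast_atTop_atTop.const_mul_atTop hs0).eventually_ge_atTop (1 : ℝ),
    eventually_gt_atTop 0] with N e1 e2
  have hN0 : (0 : ℝ) ≤ N := Nat.cast_nonneg N
  have a1 : Real.sqrt δ * N ≤ ns δ N := Nat.le_ceil _
  have a2 : (ns δ N : ℝ) < Real.sqrt δ * N + 1 := Nat.ceil_lt_add_one (by positivity)
  have a3 : (0 : ℝ) ≤ ns δ N := Nat.cast_nonneg _
  have a4 : δ ^ (-1 / 4 : ℝ) * ns δ N ≤ 2 * κ * N :=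
    calc δ ^ (-1 / 4 : ℝ) * ns δ N ≤ δ ^ (-1 / 4 : ℝ) * (2 * (Real.sqrt δ * N)) :=
          mul_le_mul_of_nonneg_left (by linarith) (by linarith)
      _ = 2 * (δ ^ (-1 / 4 : ℝ) * Real.sqrt δ) * N := by ring
      _ ≤ 2 * κ * N := by gcongr
  have a5 : (ns δ N : ℝ) ≤ δ ^ (-1 / 4 : ℝ) * ns δ N := le_mul_of_one_le_left a3 r1
  have a6 : ∀ x : ℝ, 0 ≤ x → x ≤ 2 * κ * N → K * x ≤ η * N := fun x hx hx' =>
    calc K * x ≤ (|K| + 1) * (2 * κ * N) :=
          mul_le_mul ((le_abs_self K).trans (by linarith)) hx' hx hK.le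
      _ = η * N := by rw [hk']; ring
  refine ⟨h0, h1, e2, Nat.le_ceil _, Nat.ceil_le.2 (mul_le_of_le_one_left hN0 h1),
    (mul_le_mul_of_nonneg_right hs1 hN0).trans a1, ?_, a6 _ a3 (a5.trans a4)⟩
  rw [mul_assoc]
  exact a6 _ (a3.trans a5) a4

theorem crude_down {Λ Q : Type} [Fintype Λ] [DecidableEq Λ] [Fintype Q] [DecidableEq Q]
    [Nonempty Q] {N t : ℕ} {θ δ : ℝ} (hθ : 0 ≤ θ) (hθ1 : θ ≤ 1 / 8) (hδ : 0 < δ) (hδ1 : δ ≤ 1)
    (h1 : 2 * DD Λ Q < t) (h2 : δ * N ≤ t) (h3 : t ≤ N) {lo : Cfg Λ} (hlo : Disjoint lo.1 lo.2)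
    {c : Fin N → Cfg Λ} (hc : Ok c) (v : (Fin N → Λ → Q) → ℂ) :
    nsq (Th Q θ t (fun _ => lo) *ᵥ v) ≤ (∏ k ∈ Finset.univ.erase lo,
      (64 * (DD Λ Q : ℝ) ^ 2 / δ * N) ^ (grp c k).card / (grp c k).card.factorial) *
        nsq (Th Q θ t c *ᵥ v) := by
  generalize hm : (Finset.univ.filter fun a => c a ≠ lo).card = m
  induction m generalizing c with
  | zero =>
    have e : c = fun _ => lo := funext fun a => by
      by_contra h
      exact Finset.notMem_empty a (Finset.card_eq_zero.1 hm ▸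
        Finset.mem_filter.2 ⟨Finset.mem_univ a, h⟩)
    subst e
    rw [Finset.prod_eq_one, one_mul]
    intro k hk
    have : grp (fun _ : Fin N => lo) k = ∅ := by
      simp [grp, (Finset.ne_of_mem_erase hk).symm]
    simp [this]
  | succ m ih =>
    obtain ⟨a, ha⟩ := Finset.card_pos.1 (hm.symm ▸ Nat.add_one_pos m :
      0 < (Finset.univ.filter fun a => c a ≠ lo).card)
    have e1 : (Finset.univ.filter fun b => Function.update c a lo b ≠ lo).card = m := by
      rw [Reset0A.ne_update, Finset.card_erase_of_mem ha, hm]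
      rfl
    have i1 := ih (Reset0A.ok_update hc a hlo) e1
    have i2 := move_crude (Q := Q) hθ hθ1 hδ hδ1 h1 h2 h3 hc a hlo v
    rw [← mul_div_assoc] at i2
    rw [Reset0A.prod_step _ c a (Finset.mem_filter.1 ha).2, mul_assoc]
    refine i1.trans (mul_le_mul_of_nonneg_left i2 (Finset.prod_nonneg fun k _ => ?_))
    positivity

theorem seed (Λ Q : Type) [Fintype Λ] [DecidableEq Λ] [Fintype Q] [DecidableEq Q] [Nonempty Q]
    (θ η : ℝ) (hθ : 0 < θ) (hθ1 : θ ≤ 1 / 8) (hη : 0 < η) :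
    ∀ᶠ δ in nhdsWithin (0 : ℝ) (Set.Ioi 0), ∀ᶠ N : ℕ in atTop, ∀ lo hi : Cfg Λ,
      Disjoint hi.1 hi.2 → Btw lo hi lo → ∃ c : Fin N → Cfg Λ, Win lo hi (ns δ N) c ∧
        (Finset.univ.filter fun a => c a ≠ hi).card ≤ Fintype.card (Cfg Λ) * ns δ N ∧
        Le (Mb Q θ (t0 δ N) c) (Real.exp (η * N)) (Mb Q θ (t0 δ N) fun _ : Fin N => hi) := by
  have hD : (0 : ℝ) < DD Λ Q := by
    unfold DD
    exact_mod_cast Fintype.card_pos
  filter_upwards [par_ev (DD Λ Q) 1 one_pos, small_ev (2 * Fintype.card (Cfg Λ)) 1 one_pos,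
    small_ev (4 * (128 * (DD Λ Q : ℝ) ^ 2) ^ (1 / 4 : ℝ) * Fintype.card (Cfg Λ)) η hη]
    with δ k1 k2 k3
  filter_upwards [k1, k2, k3] with N k1 k2 k3
  obtain ⟨hδ, hδ1, -, h2, h3, -, -, h4⟩ := k2
  have h5 := k3.2.2.2.2.2.2.1
  have h6 : 2 * (Fintype.card (Cfg Λ) * ns δ N) ≤ N := by
    rw [one_mul, mul_assoc] at h4
    exact_mod_cast h4
  intro lo hi hd hlo
  obtain ⟨c, c1, c2⟩ := Reset0A.exists_win (N := N) hlo (m := ns δ N) (by omega)
  refine ⟨c, c1, c2, Mb_le (Real.one_le_exp (by positivity)) fun v _ => ?_⟩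
  refine (Reset0A.crude_up hθ.le hθ1 hδ hδ1 k1.1 h2 h3 hd v _ (by omega) c
    (fun b => hd.mono (c1.1 b).2.1 (c1.1 b).2.2.2) rfl).trans
    (mul_le_mul_of_nonneg_right ?_ (nsq_nonneg _))
  refine Reset0A.pow_exp (by positivity) hδ (s := (Fintype.card (Cfg Λ) : ℝ) * ns δ N)
    (by exact_mod_cast c2) (le_of_eq_of_le ?_ h5)
  ring

end Vale.Agent.P356G
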