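import Vale.Agent.P356G.Key
import Vale.Agent.P356G.Reset0

/- Reset of a window configuration to the constant configuration `lo`: moves by `key` while a group is
large, then the crude bound. -/

namespace Vale.Agent.P356G

open Matrix Vale.Agent.P356 Filter

namespace ResetA

variable {Λ : Type} [Fintype Λ] [DecidableEq Λ] {N : ℕ}

/-- number of sides that are not yet at `lo` -/
def w (lo k : Cfg Λ) : ℕ := (if k.1 = lo.1 then 0 else 1) + if k.2 = lo.2 then 0 else 1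

omit [Fintype Λ] in
theorem w_le (lo k : Cfg Λ) : w lo k ≤ 2 := by
  unfold w
  split_ifs <;> omega

omit [Fintype Λ] in
theorem pick {lo hi k : Cfg Λ} (hd : Disjoint hi.1 hi.2) (hlo : Btw lo hi lo) (hk : Btw lo hi k)
    (hne : k ≠ lo) : ∃ Z : Finset Λ, (Disjoint Z k.1 ∨ Disjoint Z k.2) ∧
      Btw lo hi (k.1 \ Z, k.2 \ Z) ∧ w lo (k.1 \ Z, k.2 \ Z) < w lo k := by
  have hk' : Disjoint k.1 k.2 := hd.mono hk.2.1 hk.2.2.2
  by_cases h1 : k.1 = lo.1
  · have h2 : k.2 ≠ lo.2 := fun h2 => hne (Prod.ext h1 h2)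
    have d : Disjoint (k.2 \ lo.2) k.1 := hk'.symm.mono_left Finset.sdiff_subset
    have e1 : k.1 \ (k.2 \ lo.2) = k.1 := Finset.sdiff_eq_self_of_disjoint d.symm
    have e2 : k.2 \ (k.2 \ lo.2) = lo.2 := Finset.sdiff_sdiff_eq_self hk.2.2.1
    refine ⟨k.2 \ lo.2, Or.inl d, ?_, ?_⟩ <;> rw [e1, e2]
    · exact ⟨hk.1, hk.2.1, hlo.2.2.1, hlo.2.2.2⟩
    · simp [w, h1, h2]
  · have d : Disjoint (k.1 \ lo.1) k.2 := hk'.mono_left Finset.sdiff_subset
    have e1 : k.2 \ (k.1 \ lo.1) = k.2 := Finset.sdiff_eq_self_of_disjoint d.symm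
    have e2 : k.1 \ (k.1 \ lo.1) = lo.1 := Finset.sdiff_sdiff_eq_self hk.1
    refine ⟨k.1 \ lo.1, Or.inr d, ?_, ?_⟩ <;> rw [e1, e2]
    · exact ⟨hlo.1, hlo.2.1, hk.2.2.1, hk.2.2.2⟩
    · simp [w, h1]

omit [Fintype Λ] in
theorem win_update {lo hi k' : Cfg Λ} {m : ℕ} {c : Fin N → Cfg Λ} (h : Win lo hi m c) (a : Fin N)
    (ha : m < (grp c (c a)).card) (hk : Btw lo hi k') : Win lo hi m (Function.update c a k') := by
  refine ⟨fun b => ?_, fun k hk => ?_⟩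
  · by_cases hb : b = a
    · rw [hb, Function.update_self]; exact hk
    · rw [Function.update_of_ne hb]; exact h.1 b
  · have hs : (grp c k).erase a ⊆ grp (Function.update c a k') k := fun b hb => by
      rw [Finset.mem_erase] at hb
      simp only [grp, Finset.mem_filter, Finset.mem_univ, true_and] at hb ⊢
      rw [Function.update_of_ne hb.1, hb.2]
    refine le_trans ?_ (Finset.card_le_card hs)
    by_cases hc : c a = k
    · rw [hc] at ha
      have := Finset.pred_card_le_card_erase (s := grp c k) (a := a)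
      omega
    · rw [Finset.erase_eq_of_notMem (by simpa [grp] using hc)]
      exact h.2 k hk

omit [Fintype Λ] in
theorem phase1 {lo hi : Cfg Λ} (hd : Disjoint hi.1 hi.2) (hlo : Btw lo hi lo) {m : ℕ}
    {E : (Fin N → Cfg Λ) → ℝ} (hE : ∀ c, 0 ≤ E c) {x : ℝ} (hx : 1 ≤ x)
    (hk : ∀ (c : Fin N → Cfg Λ) (a : Fin N) (Z : Finset Λ), Ok c →
      (Disjoint Z (c a).1 ∨ Disjoint Z (c a).2) → ((c a).1 \ Z, (c a).2 \ Z) ≠ c a →
      m ≤ (grp c (c a)).card → m ≤ (grp c ((c a).1 \ Z, (c a).2 \ Z)).card →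
      E (Function.update c a ((c a).1 \ Z, (c a).2 \ Z)) ≤ x * E c) (n : ℕ) :
    ∀ c : Fin N → Cfg Λ, ∑ a, w lo (c a) ≤ n → Win lo hi m c → ∃ c' : Fin N → Cfg Λ,
      (∀ a, Btw lo hi (c' a)) ∧ (∀ k, k ≠ lo → (grp c' k).card ≤ m) ∧ E c' ≤ x ^ n * E c := by
  induction n using Nat.strong_induction_on with
  | _ n ih =>
    intro c hn hc
    by_cases h : ∀ k, k ≠ lo → (grp c k).card ≤ m
    · exact ⟨c, hc.1, h, le_mul_of_one_le_left (hE c) (one_le_pow₀ hx)⟩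
    push Not at h
    obtain ⟨k, hk0, hk1⟩ := h
    obtain ⟨a, ha⟩ := Finset.card_pos.1 (lt_of_le_of_lt (Nat.zero_le _) hk1)
    obtain rfl : c a = k := by simpa [grp] using ha
    obtain ⟨Z, z1, z2, z3⟩ := pick hd hlo (hc.1 a) hk0
    have hlt : ∑ b, w lo (Function.update c a ((c a).1 \ Z, (c a).2 \ Z) b) < ∑ b, w lo (c b) := by
      refine Finset.sum_lt_sum (fun b _ => ?_) ⟨a, Finset.mem_univ a, ?_⟩
      · by_cases hb : b = a
        · rw [hb, Function.update_self]; exact z3.le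
        · rw [Function.update_of_ne hb]
      · rw [Function.update_self]; exact z3
    obtain ⟨c', a1, a2, a3⟩ := ih (n - 1) (by omega) _ (by omega) (win_update hc a hk1 z2)
    have a4 := hk c a Z (fun b => hd.mono (hc.1 b).2.1 (hc.1 b).2.2.2) z1
      (fun e => z3.ne (by rw [e])) hk1.le (hc.2 _ z2)
    refine ⟨c', a1, a2, a3.trans ?_⟩
    have e : x ^ n = x ^ (n - 1) * x := by rw [← pow_succ]; congr 1; omega
    rw [e, mul_assoc]
    exact mul_le_mul_of_nonneg_left a4 (by positivity)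

theorem factor {A δ e : ℝ} (hA : 0 < A) (hδ : 0 < δ) (he : 0 < e) {m s : ℕ} (hm : m ≤ s)
    (h : 4 * (A / e) ^ (1 / 4 : ℝ) * δ ^ (-1 / 4 : ℝ) * s ≤ e * N) :
    (A / δ * N) ^ m / m.factorial ≤ Real.exp (2 * e * N) := by
  have hz : 0 < A / e / δ := by positivity
  have h1 : Real.log (A / e / δ) ≤ 4 * (A / e) ^ (1 / 4 : ℝ) * δ ^ (-1 / 4 : ℝ) := by
    have := Real.log_le_rpow_div hz.le (show (0 : ℝ) < 1 / 4 by norm_num)
    rw [Real.div_rpow (by positivity) hδ.le] at this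
    rw [show (-1 / 4 : ℝ) = -(1 / 4) by norm_num, Real.rpow_neg hδ.le]
    calc _ ≤ _ := this
      _ = _ := by ring
  have h2 : (A / e / δ) ^ m ≤ Real.exp (e * N) := by
    rw [← Real.exp_log (pow_pos hz m), Real.log_pow, Real.exp_le_exp]
    have h3 : (m : ℝ) ≤ s := by exact_mod_cast hm
    have h4 : 0 ≤ 4 * (A / e) ^ (1 / 4 : ℝ) * δ ^ (-1 / 4 : ℝ) := by positivity
    calc _ ≤ m * (4 * (A / e) ^ (1 / 4 : ℝ) * δ ^ (-1 / 4 : ℝ)) :=
          mul_le_mul_of_nonneg_left h1 (Nat.cast_nonneg m)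
      _ ≤ s * (4 * (A / e) ^ (1 / 4 : ℝ) * δ ^ (-1 / 4 : ℝ)) := mul_le_mul_of_nonneg_right h3 h4
      _ ≤ _ := by rw [mul_comm]; exact h
  have h5 := Real.pow_div_factorial_le_exp (e * N) (by positivity) m
  have e1 : (A / δ * N) ^ m / m.factorial = (A / e / δ) ^ m * ((e * N) ^ m / m.factorial) := by
    rw [← mul_div_assoc, ← mul_pow]
    congr 2
    field_simp
  rw [e1, show 2 * e * N = e * N + e * N by ring, Real.exp_add]
  exact mul_le_mul h2 h5 (by positivity) (Real.exp_pos _).le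

end ResetA

theorem reset (Λ Q : Type) [Fintype Λ] [DecidableEq Λ] [Fintype Q] [DecidableEq Q] [Nonempty Q]
    (θ η : ℝ) (hθ : 0 < θ) (hθ1 : θ ≤ 1 / 8) (hη : 0 < η) :
    ∀ᶠ δ in nhdsWithin (0 : ℝ) (Set.Ioi 0), ∀ᶠ N : ℕ in atTop, ∀ (lo hi : Cfg Λ)
      (c : Fin N → Cfg Λ), Disjoint hi.1 hi.2 → Btw lo hi lo → Win lo hi (ns δ N) c →
      Le (Mb Q θ (t0 δ N) fun _ : Fin N => lo) (Real.exp (η * N)) (Mb Q θ (t0 δ N) c) := by
  have hC : (0 : ℝ) < Fintype.card (Cfg Λ) := by exact_mod_cast Fintype.card_pos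
  have hD : (0 : ℝ) < DD Λ Q := by
    unfold DD
    exact_mod_cast Fintype.card_pos
  set e : ℝ := η / (4 * Fintype.card (Cfg Λ)) with he
  have he0 : 0 < e := by positivity
  filter_upwards [key Λ Q θ (η / 4) hθ hθ1 (by positivity),
    small_ev (4 * (64 * (DD Λ Q : ℝ) ^ 2 / e) ^ (1 / 4 : ℝ)) e he0] with δ k1 k2
  filter_upwards [k1, k2] with N k1 k2
  obtain ⟨h1, hk⟩ := k1
  obtain ⟨hδ, hδ1, -, h2, h3, -, h4, -⟩ := k2
  intro lo hi c hd hlo hc
  refine Mb_le (Real.one_le_exp (by positivity)) fun v hv => ?_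
  obtain ⟨c', a1, a2, a3⟩ := ResetA.phase1 hd hlo (m := ns δ N)
    (E := fun c => nsq (Th Q θ (t0 δ N) c *ᵥ v)) (fun c => nsq_nonneg _) (x := 1 + η / 4)
    (by linarith) (fun c a Z b1 b2 b3 b4 b5 => (hk c a Z b1 b2 b3 b4 b5).1 v hv) (2 * N) c
    ((Finset.sum_le_card_nsmul _ _ 2 fun a _ => ResetA.w_le lo (c a)).trans (by simp [mul_comm])) hc
  have a4 := crude_down hθ.le hθ1 hδ hδ1 h1 h2 h3 (hd.mono hlo.2.1 hlo.2.2.2)
    (c := c') (fun b => hd.mono (a1 b).2.1 (a1 b).2.2.2) v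
  have a5 : (∏ k ∈ Finset.univ.erase lo,
      (64 * (DD Λ Q : ℝ) ^ 2 / δ * N) ^ (grp c' k).card / (grp c' k).card.factorial) ≤
      Real.exp (η / 2 * N) := by
    refine (Finset.prod_le_prod (g := fun _ => Real.exp (2 * e * N)) (fun k _ => by positivity)
      fun k hk => ResetA.factor (by positivity) hδ he0 (a2 k (Finset.ne_of_mem_erase hk)) h4).trans ?_
    rw [Finset.prod_const]
    refine (pow_le_pow_right₀ (Real.one_le_exp (by positivity)) (Finset.card_le_univ _)).trans_eq ?_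
    rw [← Real.exp_nat_mul, he]
    congr 1
    field_simp
    norm_num
  have a6 : (1 + η / 4) ^ (2 * N) ≤ Real.exp (η / 2 * N) := by
    refine (pow_le_pow_left₀ (by positivity) (by linarith [Real.add_one_le_exp (η / 4)] :
      1 + η / 4 ≤ Real.exp (η / 4)) _).trans_eq ?_
    rw [← Real.exp_nat_mul]
    congr 1
    push_cast
    ring
  have n1 := nsq_nonneg (Th Q θ (t0 δ N) c *ᵥ v)
  calc _ ≤ _ := a4
    _ ≤ Real.exp (η / 2 * N) * (Real.exp (η / 2 * N) * nsq (Th Q θ (t0 δ N) c *ᵥ v)) :=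
        mul_le_mul a5 (a3.trans (mul_le_mul_of_nonneg_right a6 n1)) (nsq_nonneg _)
          (Real.exp_pos _).le
    _ = _ := by rw [← mul_assoc, ← Real.exp_add]; congr 2; ring

theorem retreat (Λ Q : Type) [Fintype Λ] [DecidableEq Λ] [Fintype Q] [DecidableEq Q] [Nonempty Q]
    (θ η : ℝ) (hθ : 0 < θ) (hθ1 : θ ≤ 1 / 8) (hη : 0 < η) :
    ∀ᶠ δ in nhdsWithin (0 : ℝ) (Set.Ioi 0), ∀ᶠ N : ℕ in atTop, ∀ lo hi : Cfg Λ,
      Disjoint hi.1 hi.2 → Btw lo hi lo →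
      Le (Mb Q θ (t0 δ N) fun _ : Fin N => lo) (Real.exp (η * N))
        (Mb Q θ (t0 δ N) fun _ : Fin N => hi) := by
  filter_upwards [reset Λ Q θ (η / 2) hθ hθ1 (by positivity),
    seed Λ Q θ (η / 2) hθ hθ1 (by positivity)] with δ k1 k2
  filter_upwards [k1, k2] with N k1 k2
  intro lo hi hd hlo
  obtain ⟨c, c1, -, c2⟩ := k2 lo hi hd hlo
  have := (k1 lo hi c hd hlo c1).trans c2 (Real.exp_pos _).le
  rwa [← Real.exp_add, show η / 2 * N + η / 2 * N = η * N by ring] at this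

end Vale.Agent.P356G
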