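import Vale.Agent.P356G.ColG
import Vale.Agent.P356G.Reset
import Vale.Agent.P356G.RepF
import Vale.Agent.P356G.Leaf

/- One leaf. For each copy `x` with pair `k = c x`, destination `k' = (k.1 \ Z, k.2 \ Z)`:
(0) `NoX Z k`: `noncross`, defect zero, `mv x = c`;
(i) crossing, `k'` in the inner window (depth `d + Jd l1`) and group larger than `ns`: `key`,
`mv x = update c x k'`;
(ii) crossing, `k'` in the outer window, not (i): `key`, `mv x = c`, defect at most `1000 J * 3 * nsq (Th c v)`;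
these are small groups (`small_groups`), seeds (second part of `WI`) or deep copies (`deep`, their number
is at most `∑ z ∈ Z, 2 pot c z / 2 ^ Jd`);
(iii) otherwise `k` is not in the inner window (`dest_win`), `df_crude`, `mv x = c`.
Choose `T x, T' x` accordingly, apply `leaf`; `Mb_qf` with `v' = PS v`; `small_ev`.
Potential: `level_up`. -/

namespace Vale.Agent.P356G

open Matrix Vale.Agent.P356 Filter

namespace ColLA

section Geo

variable {Λ : Type} [Fintype Λ] [DecidableEq Λ] {N : ℕ}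

/-- weight of a removed site -/
noncomputable def ind (ht : Λ → ℕ) (a b d l1 : ℕ) (k : Cfg Λ) (z : Λ) : ℝ :=
  if z ∈ rm (fl ht a b d) k then 2 ^ (dep ht a b d z / l1) else 0

variable {ht : Λ → ℕ} {a b d l1 Jd m : ℕ} {Z : Finset Λ} {k : Cfg Λ} {c : Fin N → Cfg Λ}

theorem ind_nonneg (k : Cfg Λ) (z : Λ) : 0 ≤ ind ht a b d l1 k z := by
  unfold ind
  split_ifs
  · positivity
  · exact le_rfl

theorem pot_eq (c : Fin N → Cfg Λ) (z : Λ) :
    pot ht a b d l1 c z = ∑ x, ind ht a b d l1 (c x) z := by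
  unfold pot ind
  rw [← Finset.sum_filter, Finset.sum_const, nsmul_eq_mul, mul_comm]

theorem pot_update (c : Fin N → Cfg Λ) (x : Fin N) (k : Cfg Λ) (z : Λ) :
    pot ht a b d l1 (Function.update c x k) z - pot ht a b d l1 c z =
      ind ht a b d l1 k z - ind ht a b d l1 (c x) z := by
  rw [pot_eq, pot_eq, ← Finset.sum_sub_distrib, Finset.sum_eq_single x]
  · rw [Function.update_self]
  · intro y _ hy
    rw [Function.update_of_ne hy, sub_self]
  · intro h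
    exact absurd (Finset.mem_univ x) h

theorem bound_nonneg (k : Cfg Λ) (z : Λ) :
    (0 : ℝ) ≤ if z ∈ Z then 1 + 2 * ∑ z' ∈ Z, ind ht a b d l1 k z' else 0 := by
  split_ifs
  · have := Finset.sum_nonneg fun z' (_ : z' ∈ Z) =>
      ind_nonneg (ht := ht) (a := a) (b := b) (d := d) (l1 := l1) k z'
    linarith
  · exact le_rfl

theorem ind_move (hab : a ≤ b) (hl : 0 < l1) (hZ : Dm ht l1 Z) {lo : Cfg Λ}
    (hk : Btw lo (fl ht a b d) k) (h : ¬ NoX Z k) (z : Λ) :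
    ind ht a b d l1 (k.1 \ Z, k.2 \ Z) z - ind ht a b d l1 k z ≤
      if z ∈ Z then 1 + 2 * ∑ z' ∈ Z, ind ht a b d l1 k z' else 0 := by
  have h0 := bound_nonneg (ht := ht) (a := a) (b := b) (d := d) (l1 := l1) (Z := Z) k z
  by_cases h1 : z ∈ rm (fl ht a b d) (k.1 \ Z, k.2 \ Z)
  · by_cases h2 : z ∈ rm (fl ht a b d) k
    · have : ind ht a b d l1 (k.1 \ Z, k.2 \ Z) z = ind ht a b d l1 k z := by
        simp only [ind, if_pos h1, if_pos h2]
      linarith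
    · obtain ⟨hz, h3⟩ := level_up hab hl hZ hk h h1 h2
      have hs := Finset.sum_nonneg fun z' (_ : z' ∈ Z) =>
        ind_nonneg (ht := ht) (a := a) (b := b) (d := d) (l1 := l1) k z'
      have e1 : ind ht a b d l1 (k.1 \ Z, k.2 \ Z) z = 2 ^ (dep ht a b d z / l1) := if_pos h1
      have e2 : ind ht a b d l1 k z = 0 := if_neg h2
      rw [if_pos hz, e1, e2]
      rcases h3 with h3 | ⟨z', hz', h4, h5⟩
      · rw [h3, pow_zero]
        linarith
      · have h6 := Finset.single_le_sum (f := fun z' => ind ht a b d l1 k z')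
          (fun z' _ => ind_nonneg k z') hz'
        have e3 : ind ht a b d l1 k z' = 2 ^ (dep ht a b d z' / l1) := if_pos h4
        have h7 : (2 : ℝ) ^ (dep ht a b d z / l1) ≤ 2 ^ (dep ht a b d z' / l1 + 1) :=
          pow_le_pow_right₀ (by norm_num) h5
        rw [pow_succ] at h7
        simp only [e3] at h6
        linarith
  · have e1 : ind ht a b d l1 (k.1 \ Z, k.2 \ Z) z = 0 := if_neg h1
    have := ind_nonneg (ht := ht) (a := a) (b := b) (d := d) (l1 := l1) k z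
    linarith

theorem ind_deep (hab : a ≤ b) (hl : 0 < l1) (hJ : 1 ≤ Jd) (hZ : Dm ht l1 Z)
    (hk : Btw (fl ht a b (d + Jd * l1)) (fl ht a b d) k) (h : ¬ NoX Z k)
    (hd : ¬ Btw (fl ht a b (d + Jd * l1)) (fl ht a b d) (k.1 \ Z, k.2 \ Z)) :
    3 ≤ 6 * (∑ z' ∈ Z, ind ht a b d l1 k z') / 2 ^ Jd := by
  obtain ⟨z, hz, h1, h2⟩ := deep hab hl hJ hZ hk h hd
  have h6 := Finset.single_le_sum (f := fun z' => ind ht a b d l1 k z')
    (fun z' _ => ind_nonneg k z') hz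
  have e3 : ind ht a b d l1 k z = 2 ^ (dep ht a b d z / l1) := if_pos h1
  have h7 : (2 : ℝ) ^ Jd ≤ 2 ^ (dep ht a b d z / l1 + 1) := pow_le_pow_right₀ (by norm_num) h2
  rw [pow_succ] at h7
  simp only [e3] at h6
  rw [le_div_iff₀ (by positivity)]
  linarith

theorem inner_outer (hk : Btw (fl ht a b (d + Jd * l1)) (fl ht a b d) k) :
    Btw (fl ht a b (d + (Jd + 1) * l1)) (fl ht a b d) k :=
  hk.trans (fl_btw (Nat.le_add_right _ _) (by rw [Nat.add_mul]; omega))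
    (fl_btw le_rfl (Nat.le_add_right _ _))

theorem wi_move (h : WI ht a b d l1 Jd m c) (x : Fin N)
    (hk : Btw (fl ht a b (d + Jd * l1)) (fl ht a b d) k) (hm : m < (grp c (c x)).card) :
    WI ht a b d l1 Jd m (Function.update c x k) := by
  obtain ⟨⟨h1, h2⟩, h3⟩ := h
  refine ⟨⟨fun y => ?_, fun k' hk' => ?_⟩, le_trans (Finset.card_le_card fun y hy => ?_) h3⟩
  · by_cases hy : y = x
    · rw [hy, Function.update_self]
      exact inner_outer hk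
    · rw [Function.update_of_ne hy]
      exact h1 y
  · have hs : (grp c k').erase x ⊆ grp (Function.update c x k) k' := by
      intro y hy
      rw [Finset.mem_erase] at hy
      simp only [grp, Finset.mem_filter, Finset.mem_univ, true_and] at hy ⊢
      rw [Function.update_of_ne hy.1]
      exact hy.2
    refine le_trans ?_ (Finset.card_le_card hs)
    by_cases hx : x ∈ grp c k'
    · have e : c x = k' := by simpa [grp] using hx
      rw [Finset.card_erase_of_mem hx, ← e]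
      omega
    · rw [Finset.erase_eq_of_notMem hx]
      exact h2 k' hk'
  · simp only [Finset.mem_filter, Finset.mem_univ, true_and] at hy ⊢
    by_cases hyx : y = x
    · rw [hyx, Function.update_self] at hy
      exact absurd hk hy
    · rwa [Function.update_of_ne hyx] at hy

theorem wi_bad (h : WI ht a b d l1 Jd m c) : ∃ S : Finset (Fin N),
    (∀ x, ¬ Btw (fl ht a b (d + Jd * l1)) (fl ht a b d) (c x) → x ∈ S) ∧
      S.card ≤ Fintype.card (Cfg Λ) * m := by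
  refine ⟨_, fun x hx => ?_, h.2⟩
  simp only [Finset.mem_filter, Finset.mem_univ, true_and]
  exact hx

theorem sum_ite_card (S : Finset (Fin N)) (r : ℝ) :
    ∑ x, (if x ∈ S then r else 0) = S.card * r := by
  rw [Finset.sum_ite_mem, Finset.univ_inter, Finset.sum_const, nsmul_eq_mul]

end Geo

variable {Λ Q : Type} [Fintype Λ] [DecidableEq Λ] [Fintype Q] [DecidableEq Q] [Nonempty Q]
  {N t : ℕ} {θ η ε0 J K : ℝ} {ht : Λ → ℕ} {a b d l1 Jd m : ℕ} {Z : Finset Λ} {c : Fin N → Cfg Λ}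
  {g : Matrix (Λ → Q) (Λ → Q) ℂ}

theorem copy (hη : 0 < η) (hη1 : η ≤ 1) (hε : 0 < ε0) (hε1 : ε0 ≤ 1) (hK : 0 ≤ K) (hJ : 0 < J)
    (hab : a + l1 ≤ b) (hl : 0 < l1) (hJd : 1 ≤ Jd) (hZ : Dm ht l1 Z)
    (hg : Loc (fun z => z ∈ Z) g) (hW : WI ht a b d l1 Jd m c) (hc : Ok c)
    {S1 S2 : Finset (Fin N)} (hS1 : ∀ x, (grp c (c x)).card ≤ m → x ∈ S1)
    (hS2 : ∀ x, ¬ Btw (fl ht a b (d + Jd * l1)) (fl ht a b d) (c x) → x ∈ S2) (x : Fin N)
    (hkey : (Disjoint Z (c x).1 ∨ Disjoint Z (c x).2) → ((c x).1 \ Z, (c x).2 \ Z) ≠ c x →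
      m ≤ (grp c (c x)).card → m ≤ (grp c ((c x).1 \ Z, (c x).2 \ Z)).card →
      ∃ T T' : RM Λ Q N, T * T' = 1 ∧ ∀ v, Sy Finset.univ v →
        nsq (df θ t c g x T T' *ᵥ v) ≤ 1000 * J * (nsq (Th Q θ t c *ᵥ v) -
          nsq (Th Q θ t (Function.update c x ((c x).1 \ Z, (c x).2 \ Z)) *ᵥ v) +
          (ε0 + η) * nsq (Th Q θ t c *ᵥ v)))
    (hcr : ∃ T T' : RM Λ Q N, T * T' = 1 ∧ ∀ v,
      nsq (df θ t c g x T T' *ᵥ v) ≤ K * J * nsq (Th Q θ t c *ᵥ v)) :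
    ∃ (c' : Fin N → Cfg Λ) (T T' : RM Λ Q N), T * T' = 1 ∧ WI ht a b d l1 Jd m c' ∧
      (∀ z, pot ht a b d l1 c' z - pot ht a b d l1 c z ≤
        if z ∈ Z then 1 + 2 * ∑ z' ∈ Z, ind ht a b d l1 (c x) z' else 0) ∧
      ∀ v, Sy Finset.univ v → nsq (Th Q θ t c' *ᵥ v) - nsq (Th Q θ t c *ᵥ v) +
        nsq (df θ t c g x T T' *ᵥ v) / (1000 * J) ≤
        (ε0 + η + (if x ∈ S1 then 3 else 0) + (if x ∈ S2 then 3 + K else 0) +
          6 * (∑ z' ∈ Z, ind ht a b d l1 (c x) z') / 2 ^ Jd) * nsq (Th Q θ t c *ᵥ v) := by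
  have hab' : a ≤ b := by omega
  have hJ' : 0 < 1000 * J := by positivity
  have i1 : (0 : ℝ) ≤ if x ∈ S1 then 3 else 0 := by split_ifs <;> norm_num
  have i2 : (0 : ℝ) ≤ if x ∈ S2 then 3 + K else 0 := by
    split_ifs
    · linarith
    · exact le_rfl
  have i3 : (0 : ℝ) ≤ 6 * (∑ z' ∈ Z, ind ht a b d l1 (c x) z') / 2 ^ Jd :=
    div_nonneg (mul_nonneg (by norm_num) (Finset.sum_nonneg fun z' _ => ind_nonneg _ z'))
      (by positivity)
  have stay : ∀ (T T' : RM Λ Q N) (r : ℝ), T * T' = 1 →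
      r ≤ ε0 + η + (if x ∈ S1 then 3 else 0) + (if x ∈ S2 then 3 + K else 0) +
          6 * (∑ z' ∈ Z, ind ht a b d l1 (c x) z') / 2 ^ Jd →
      (∀ v, Sy Finset.univ v →
        nsq (df θ t c g x T T' *ᵥ v) ≤ 1000 * J * (r * nsq (Th Q θ t c *ᵥ v))) →
      ∃ (c' : Fin N → Cfg Λ) (T T' : RM Λ Q N), T * T' = 1 ∧ WI ht a b d l1 Jd m c' ∧
      (∀ z, pot ht a b d l1 c' z - pot ht a b d l1 c z ≤
        if z ∈ Z then 1 + 2 * ∑ z' ∈ Z, ind ht a b d l1 (c x) z' else 0) ∧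
      ∀ v, Sy Finset.univ v → nsq (Th Q θ t c' *ᵥ v) - nsq (Th Q θ t c *ᵥ v) +
        nsq (df θ t c g x T T' *ᵥ v) / (1000 * J) ≤
        (ε0 + η + (if x ∈ S1 then 3 else 0) + (if x ∈ S2 then 3 + K else 0) +
          6 * (∑ z' ∈ Z, ind ht a b d l1 (c x) z') / 2 ^ Jd) * nsq (Th Q θ t c *ᵥ v) := by
    intro T T' r hT hr h
    refine ⟨c, T, T', hT, hW, fun z => ?_, fun v hv => ?_⟩
    · rw [sub_self]
      exact bound_nonneg _ _
    · rw [sub_self, zero_add, div_le_iff₀' hJ']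
      exact (h v hv).trans (mul_le_mul_of_nonneg_left
        (mul_le_mul_of_nonneg_right hr (nsq_nonneg _)) hJ'.le)
  by_cases h0 : NoX Z (c x)
  · obtain ⟨T, T', hT, h⟩ := noncross (θ := θ) (t := t) hc x h0 hg
    refine stay T T' 0 hT (by linarith) fun v hv => ?_
    rw [h v hv, ← nr_sq, nr_zero]
    simp
  by_cases h1 : Btw (fl ht a b (d + (Jd + 1) * l1)) (fl ht a b d) ((c x).1 \ Z, (c x).2 \ Z)
  · obtain ⟨T, T', hT, h⟩ := hkey (one_side hab hZ (hW.1.1 x)) (dest_ne h0)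
      (hW.1.2 _ (hW.1.1 x)) (hW.1.2 _ h1)
    by_cases h2 : Btw (fl ht a b (d + Jd * l1)) (fl ht a b d) ((c x).1 \ Z, (c x).2 \ Z) ∧
        m < (grp c (c x)).card
    · refine ⟨_, T, T', hT, wi_move hW x h2.1 h2.2, fun z => ?_, fun v hv => ?_⟩
      · rw [pot_update]
        exact ind_move hab' hl hZ (hW.1.1 x) h0 z
      · have h3 := (div_le_iff₀' hJ').2 (h v hv)
        have h4 := mul_nonneg (add_nonneg (add_nonneg i1 i2) i3) (nsq_nonneg (Th Q θ t c *ᵥ v))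
        linarith
    · refine stay T T' 3 hT ?_ fun v hv => ?_
      · by_cases h3 : m < (grp c (c x)).card
        · by_cases h4 : Btw (fl ht a b (d + Jd * l1)) (fl ht a b d) (c x)
          · have := ind_deep hab' hl hJd hZ h4 h0 fun h5 => h2 ⟨h5, h3⟩
            linarith
          · rw [if_pos (hS2 x h4)]
            linarith
        · rw [if_pos (hS1 x (by omega))]
          linarith
      · refine (h v hv).trans (mul_le_mul_of_nonneg_left ?_ hJ'.le)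
        have h4 := nsq_nonneg (Th Q θ t c *ᵥ v)
        have h5 := nsq_nonneg
          (Th Q θ t (Function.update c x ((c x).1 \ Z, (c x).2 \ Z)) *ᵥ v)
        have h6 : (ε0 + η) * nsq (Th Q θ t c *ᵥ v) ≤ 2 * nsq (Th Q θ t c *ᵥ v) :=
          mul_le_mul_of_nonneg_right (by linarith) h4
        linarith
  · obtain ⟨T, T', hT, h⟩ := hcr
    refine stay T T' K hT ?_ fun v _ => (h v).trans ?_
    · rw [if_pos (hS2 x fun h4 => h1 (dest_win hZ h4 h0))]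
      linarith
    · have := mul_nonneg (mul_nonneg hK hJ.le) (nsq_nonneg (Th Q θ t c *ᵥ v))
      linarith

theorem total (hN : 0 < N) (hη : 0 < η) (hε : 0 < ε0) (hJ : 0 < J)
    {S1 S2 : Finset (Fin N)} (hS : S1.card * 3 + S2.card * (3 + K) ≤ η * N) (a0 : Fin N)
    (h : ∀ x, ∃ (c' : Fin N → Cfg Λ) (T T' : RM Λ Q N), T * T' = 1 ∧ WI ht a b d l1 Jd m c' ∧
      (∀ z, pot ht a b d l1 c' z - pot ht a b d l1 c z ≤
        if z ∈ Z then 1 + 2 * ∑ z' ∈ Z, ind ht a b d l1 (c x) z' else 0) ∧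
      ∀ v, Sy Finset.univ v → nsq (Th Q θ t c' *ᵥ v) - nsq (Th Q θ t c *ᵥ v) +
        nsq (df θ t c g x T T' *ᵥ v) / (1000 * J) ≤
        (ε0 + η + (if x ∈ S1 then 3 else 0) + (if x ∈ S2 then 3 + K else 0) +
          6 * (∑ z' ∈ Z, ind ht a b d l1 (c x) z') / 2 ^ Jd) * nsq (Th Q θ t c *ᵥ v)) :
    ∃ (mv : Fin N → Fin N → Cfg Λ) (Mt Dc : RM Λ Q N), Pd Mt ∧ Ps Dc ∧
      (∀ u v, ‖star u ⬝ᵥ ((Mt * (one a0 g * PS Λ Q Finset.univ) -
        one a0 g * PS Λ Q Finset.univ * Mb Q θ t c) *ᵥ v)‖ ^ 2 ≤ qf Mt u * qf Dc v) ∧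
      (∀ x, WI ht a b d l1 Jd m (mv x)) ∧
      (∀ z, ∑ x, (pot ht a b d l1 (mv x) z - pot ht a b d l1 c z) ≤
        if z ∈ Z then N + 2 * ∑ z' ∈ Z, pot ht a b d l1 c z' else 0) ∧
      ∀ v, ∑ x, (qf (Mb Q θ t (mv x)) v - qf (Mb Q θ t c) v) +
        N / (1000 * J) * qf Dc v ≤ (N * (ε0 + 2 * η) +
          6 * (∑ z' ∈ Z, pot ht a b d l1 c z') / 2 ^ Jd) * qf (Mb Q θ t c) v := by
  choose mv T T' hT hW hp hd using h
  obtain ⟨Mt, Dc, hM, hD, hq, hcs⟩ := leaf (θ := θ) (t := t) c g a0 T T' hT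
  have hsum : ∑ x, ∑ z' ∈ Z, ind ht a b d l1 (c x) z' = ∑ z' ∈ Z, pot ht a b d l1 c z' := by
    rw [Finset.sum_comm]
    exact Finset.sum_congr rfl fun z' _ => (pot_eq c z').symm
  refine ⟨mv, Mt, Dc, hM, hD, hcs, hW, fun z => ?_, fun v => ?_⟩
  · refine (Finset.sum_le_sum fun x _ => hp x z).trans ?_
    split_ifs
    · rw [Finset.sum_add_distrib, ← Finset.mul_sum, hsum]
      simp
    · simp
  · have hN' : (0 : ℝ) < N := by exact_mod_cast hN
    have h1 := Finset.sum_le_sum fun x (_ : x ∈ Finset.univ) => hd x _ (sy_PS Finset.univ v)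
    rw [← Finset.sum_mul, Finset.sum_add_distrib, ← Finset.sum_div] at h1
    simp only [Finset.sum_add_distrib, sum_ite_card, ← Finset.sum_div, ← Finset.mul_sum, hsum,
      Finset.sum_const, Finset.card_univ, Fintype.card_fin, nsmul_eq_mul] at h1
    have e1 : ∀ x, qf (Mb Q θ t (mv x)) v - qf (Mb Q θ t c) v =
        nsq (Th Q θ t (mv x) *ᵥ (PS Λ Q Finset.univ *ᵥ v)) -
          nsq (Th Q θ t c *ᵥ (PS Λ Q Finset.univ *ᵥ v)) := fun x => by
      rw [Mb_qf, Mb_qf]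
      ring
    have e2 : (N : ℝ) / (1000 * J) * qf Dc v =
        (∑ x, nsq (df θ t c g x (T x) (T' x) *ᵥ (PS Λ Q Finset.univ *ᵥ v))) / (1000 * J) := by
      rw [hq]
      field_simp
    have hA : nsq (Th Q θ t c *ᵥ (PS Λ Q Finset.univ *ᵥ v)) ≤ qf (Mb Q θ t c) v := by
      rw [Mb_qf]
      have := nsq_nonneg (v - PS Λ Q Finset.univ *ᵥ v)
      linarith
    have hP : (0 : ℝ) ≤ 6 * (∑ z' ∈ Z, pot ht a b d l1 c z') / 2 ^ Jd :=
      div_nonneg (mul_nonneg (by norm_num) (Finset.sum_nonneg fun z' _ => pot_nonneg _ z'))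
        (by positivity)
    simp only [e1, e2]
    refine h1.trans (mul_le_mul (by linarith) hA (nsq_nonneg _) (by positivity))

end ColLA

theorem leaf_zero {Λ Q : Type} [Fintype Λ] [DecidableEq Λ] [Fintype Q] [DecidableEq Q] [Nonempty Q]
    {N t : ℕ} {θ : ℝ} {c : Fin N → Cfg Λ} (hc : Ok c) {Z : Finset Λ} (hZ : ∀ x, NoX Z (c x))
    {g : Matrix (Λ → Q) (Λ → Q) ℂ} (hg : Loc (fun z => z ∈ Z) g) (a0 : Fin N) :
    ∃ Mt : RM Λ Q N, Pd Mt ∧ ∀ u v, ‖star u ⬝ᵥ ((Mt * (one a0 g * PS Λ Q Finset.univ) -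
      one a0 g * PS Λ Q Finset.univ * Mb Q θ t c) *ᵥ v)‖ ^ 2 ≤ qf Mt u * qf (0 : RM Λ Q N) v := by
  choose T T' hT h using fun x => noncross (θ := θ) (t := t) hc x (hZ x) hg
  obtain ⟨Mt, Dc, hM, -, hq, hcs⟩ := leaf (θ := θ) (t := t) c g a0 T T' hT
  refine ⟨Mt, hM, fun u v => ?_⟩
  have h1 : qf Dc v = 0 := by
    rw [hq, Finset.sum_eq_zero, zero_div]
    intro x _
    rw [h x _ (sy_PS Finset.univ v), ← nr_sq, nr_zero]
    simp
  rw [qf_zero, ← h1]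
  exact hcs u v

open ColLA in
theorem leaf_step (Λ Q : Type) [Fintype Λ] [DecidableEq Λ] [Fintype Q] [DecidableEq Q] [Nonempty Q]
    (θ η ε0 : ℝ) (s1 : ℕ) (hθ : 0 < θ) (hθ1 : θ ≤ 1 / 16) (hη : 0 < η) (hη1 : η ≤ 1) (hε : 0 < ε0)
    (hε1 : ε0 ≤ 1) (hlog : 4 * θ * Real.log ((3 * (Fintype.card Q : ℝ) ^ s1 + 2) / ε0) ≤ 1) :
    ∀ᶠ δ in nhdsWithin (0 : ℝ) (Set.Ioi 0), ∀ᶠ N : ℕ in atTop,
      ∀ (ht : Λ → ℕ) (a b d l1 Jd : ℕ) (Z : Finset Λ) (g : Matrix (Λ → Q) (Λ → Q) ℂ) (J : ℝ)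
        (c : Fin N → Cfg Λ) (a0 : Fin N), a + l1 ≤ b → 0 < l1 → 1 ≤ Jd → Dm ht l1 Z →
        Z.card ≤ s1 → Loc (fun z => z ∈ Z) g → 0 < J → Le (gᴴ * g) J 1 →
        WI ht a b d l1 Jd (ns δ N) c →
        ∃ (mv : Fin N → Fin N → Cfg Λ) (Mt Dc : RM Λ Q N), Pd Mt ∧ Ps Dc ∧
          (∀ u v, ‖star u ⬝ᵥ ((Mt * (one a0 g * PS Λ Q Finset.univ) -
            one a0 g * PS Λ Q Finset.univ * Mb Q θ (t0 δ N) c) *ᵥ v)‖ ^ 2 ≤ qf Mt u * qf Dc v) ∧
          (∀ x, WI ht a b d l1 Jd (ns δ N) (mv x)) ∧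
          (∀ z, ∑ x, (pot ht a b d l1 (mv x) z - pot ht a b d l1 c z) ≤
            if z ∈ Z then N + 2 * ∑ z' ∈ Z, pot ht a b d l1 c z' else 0) ∧
          ∀ v, ∑ x, (qf (Mb Q θ (t0 δ N) (mv x)) v - qf (Mb Q θ (t0 δ N) c) v) +
            N / (1000 * J) * qf Dc v ≤ (N * (ε0 + 2 * η) +
              6 * (∑ z' ∈ Z, pot ht a b d l1 c z') / 2 ^ Jd) * qf (Mb Q θ (t0 δ N) c) v := by
  have hθ2 : θ ≤ 1 / 8 := by linarith
  filter_upwards [key Λ Q θ η hθ hθ2 hη, small_ev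
    (Fintype.card (Cfg Λ) * (6 + 32 * (DD Λ Q : ℝ) ^ 2)) (η / 2) (by linarith)] with δ h1 h2
  filter_upwards [h1, h2] with N hkey hs
  obtain ⟨hD, hkey⟩ := hkey
  obtain ⟨hδ, hδ1, hN, s1', s2, s3, s4, s5⟩ := hs
  intro ht a b d l1 Jd Z g J c a0 hab hl hJd hZ hZc hg hJ hgJ hW
  have hc : Ok c := fun x => (hW.1.1 x).disj (fl_disj (by omega) d)
  have hr : 0 ≤ δ ^ (-1 / 4 : ℝ) := Real.rpow_nonneg hδ.le _
  have hK : 0 ≤ 32 * (DD Λ Q : ℝ) ^ 2 * δ ^ (-1 / 4 : ℝ) := by positivity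
  have hlog' : 4 * θ * Real.log ((3 * (Fintype.card Q : ℝ) ^ Z.card + 2) / ε0) ≤ 1 := by
    refine le_trans (mul_le_mul_of_nonneg_left (Real.log_le_log (by positivity) ?_)
      (by positivity)) hlog
    have hq : (1 : ℝ) ≤ Fintype.card Q := by exact_mod_cast Fintype.card_pos
    have := pow_le_pow_right₀ hq hZc
    exact div_le_div_of_nonneg_right (by linarith) hε.le
  obtain ⟨S2, hS2, hS2c⟩ := wi_bad hW
  have hS1c := small_groups c (ns δ N)
  refine total (S1 := Finset.univ.filter fun x => (grp c (c x)).card ≤ ns δ N) (S2 := S2)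
    (K := 32 * (DD Λ Q : ℝ) ^ 2 * δ ^ (-1 / 4 : ℝ)) hN hη hε hJ ?_ a0 fun x => ?_
  · have c1 : ((Finset.univ.filter fun x => (grp c (c x)).card ≤ ns δ N).card : ℝ) ≤
        Fintype.card (Cfg Λ) * ns δ N := by exact_mod_cast hS1c
    have c2 : (S2.card : ℝ) ≤ Fintype.card (Cfg Λ) * ns δ N := by exact_mod_cast hS2c
    have c3 := mul_le_mul_of_nonneg_right c2 (add_nonneg (by norm_num : (0 : ℝ) ≤ 3) hK)
    have c4 : (0 : ℝ) ≤ Fintype.card (Cfg Λ) * ns δ N := by positivity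
    have c5 := mul_nonneg c4 hr
    have c6 := mul_nonneg c4 (sq_nonneg (DD Λ Q : ℝ))
    linarith
  · refine copy hη hη1 hε hε1 hK hJ hab hl hJd hZ hg hW hc (fun y hy => ?_) hS2 x
      (fun k1 k2 k3 k4 => (hkey c x Z hc k1 k2 k3 k4).2 ε0 hε hε1 hlog' g J hJ.le hg hgJ)
      (df_crude hθ.le hθ1 hδ hδ1 hD s1' s2 hc x (s3.trans ?_) g hJ.le hgJ)
    · exact Finset.mem_filter.2 ⟨Finset.mem_univ _, hy⟩
    · exact_mod_cast hW.1.2 _ (hW.1.1 x)

end Vale.Agent.P356G
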