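import Vale.Agent.P356G.Step0

/- STEP. Work on `n ⊕ m` with leaves `MM c = fromBlocks (M c) 0 0 (Mt c)`, `D` from `tderiv MM T`,
`Λ = val MM = fromBlocks Λ1 0 0 Λ2` (`val_blocks`), `E = fromBlocks 0 γᴴ 0 0`, `Q1`, `Q2` the block
projectors, `p = (v, 0)`, `p' = (v', 0)`, `q = (0, γ v)`.
1. Leaves: `Blk ((w/2) (Dc ⊕ 0)) (E MM - MM E) ((2 φ c / w) MM Q2)` (from `hD`, AM-GM; if `φ c = 0`
then `Dc c = 0` and the middle form vanishes). Apply `D`, evaluate at `p`, `q`:
`-2 re <v, Λ1 γᴴ γ v> ≤ (w/2) qf (D (Dc ⊕ 0)) p` because `2 ex φ / w - 2 ≤ 0`.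
2. `qf (val N) v' = qf (val (N ⊕ Mt)) p' ≤ qf (D (N ⊕ Mt)) p' = qf Λ1 v' + qf X p'`,
`X = D ((N - M) ⊕ 0)` Hermitian with `± X ≤ x Λ Q1 ≤ x hi`, so `qf X p' ≤ qf X p + x hi d (2 + d) nsq v`.
3. `qf Λ1 v' ≤ qf Λ1 v - 2 s re <v, Λ1 γᴴ γ v> + hi (2 s2 + d ^ 2) nsq v`.
4. `D ((N - M + s (w/2) Dc) ⊕ 0) ≤ D (e MM Q1) = ex e Λ Q1`; finally `lo nsq v ≤ qf Λ1 v`.
PAY: `ex_map`, `ex_bal`; upper bound by `val_am`; lower bound by `val_mono` against the leaves
`exp (x a) M c` with `x = log (lo / hi)` on the moved leaves and `0` elsewhere, `val_smul`,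
`exp y ≥ 1 + y`, `log (hi / lo) ≤ hi / lo`. -/

namespace Vale.Agent.P356G

open Matrix Vale.Agent.P356

variable {n m : Type} [Fintype n] [DecidableEq n] [Fintype m] [DecidableEq m] {α : Type}

namespace StepA

theorem avg {N : ℕ} (k : ℕ) (hk : N ≤ 2 ^ k) (y0 : ℝ) (y : Fin N → ℝ) :
    (Tr.bal k 0).ex (fun r => if h : r < N then y ⟨r, h⟩ else y0) =
      y0 + (∑ a, (y a - y0)) / 2 ^ k := by
  have e1 : ∀ r, (if h : r < N then y ⟨r, h⟩ else y0) =
      y0 + (if h : r < N then y ⟨r, h⟩ - y0 else 0) := by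
    intro r
    by_cases h : r < N <;> simp [h]
  have e2 : ∑ r ∈ Finset.range (2 ^ k), (if h : r < N then y ⟨r, h⟩ - y0 else 0) =
      ∑ a, (y a - y0) := by
    rw [← Finset.sum_subset (Finset.range_subset_range.2 hk)
      (fun r _ hr => dif_neg (by simpa using hr)), Finset.sum_range]
    exact Finset.sum_congr rfl fun a _ => by simp
  simp only [e1]
  rw [Tr.ex_add, Tr.ex_const, Tr.ex_bal]
  simp only [zero_add, e2]

theorem pd_smul {A : Matrix n n ℂ} (hA : Pd A) {t : ℝ} (ht : 0 < t) : Pd ((t : ℂ) • A) := by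
  refine ⟨?_, fun v hv => ?_⟩
  · unfold Matrix.IsHermitian
    rw [Matrix.conjTranspose_smul, hA.1.eq]
    simp
  · rw [qf_smul]
    exact mul_pos ht (hA.2 v hv)

end StepA

theorem pay_ex {N : ℕ} (k : ℕ) (hk : N ≤ 2 ^ k) (c : α) (mv : Fin N → α) (φ : α → ℝ) :
    (Tr.pay k c mv).ex φ = φ c + (∑ a, (φ (mv a) - φ c)) / 2 ^ k := by
  unfold Tr.pay
  rw [Tr.ex_map, ← StepA.avg k hk (φ c) fun a => φ (mv a)]
  simp only [apply_dite φ]
theorem pay_all {N : ℕ} (k : ℕ) (c : α) (mv : Fin N → α) {p : α → Prop} (hc : p c)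
    (h : ∀ a, p (mv a)) : (Tr.pay k c mv).All p := by
  unfold Tr.pay
  rw [Tr.all_map]
  refine Tr.all_of _ fun r => ?_
  by_cases hr : r < N
  · rw [dif_pos hr]
    exact h _
  · rw [dif_neg hr]
    exact hc
theorem pay_near {N : ℕ} (k : ℕ) (hk : N ≤ 2 ^ k) (c : α) (mv : Fin N → α) (M : α → Matrix n n ℂ)
    {lo hi : ℝ} (hlo : 0 < lo) (hh : lo ≤ hi) (hc : SpIn (M c) lo hi)
    (h : ∀ a, SpIn (M (mv a)) lo hi) (v : n → ℂ) :
    |qf ((Tr.pay k c mv).val M) v - qf (M c) v| ≤ N / 2 ^ k * (hi / lo) * qf (M c) v := by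
  have hhi : 0 < hi := hlo.trans_le hh
  have hv := nsq_nonneg v
  obtain ⟨c1, c2⟩ := hc.2 v
  have c0 : 0 ≤ qf (M c) v := le_trans (mul_nonneg hlo.le hv) c1
  have hP : (0 : ℝ) < 2 ^ k := by positivity
  have hN : (0 : ℝ) ≤ N / 2 ^ k := by positivity
  rw [abs_le]
  constructor
  · have hall : (Tr.bal k 0).All fun r => Pd (M (if h : r < N then mv ⟨r, h⟩ else c)) ∧
        Pd ((Real.exp (if _h : r < N then Real.log (lo / hi) else 0) : ℂ) • M c) ∧
        Le ((Real.exp (if _h : r < N then Real.log (lo / hi) else 0) : ℂ) • M c) 1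
          (M (if h : r < N then mv ⟨r, h⟩ else c)) := by
      refine Tr.all_of _ fun r => ⟨?_, StepA.pd_smul (hc.pd hlo) (Real.exp_pos _), fun u => ?_⟩
      · by_cases hr : r < N
        · rw [dif_pos hr]
          exact (h _).pd hlo
        · rw [dif_neg hr]
          exact hc.pd hlo
      · rw [qf_smul, one_mul]
        by_cases hr : r < N
        · rw [dif_pos hr, dif_pos hr, Real.exp_log (div_pos hlo hhi)]
          calc lo / hi * qf (M c) u ≤ lo / hi * (hi * nsq u) :=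
                mul_le_mul_of_nonneg_left (hc.2 u).2 (div_pos hlo hhi).le
            _ = lo * nsq u := by field_simp
            _ ≤ _ := ((h _).2 u).1
        · rw [dif_neg hr, dif_neg hr, Real.exp_zero, one_mul]
    have h1 := Tr.val_mono hall v
    rw [Tr.val_smul (hc.pd hlo), qf_smul, one_mul,
      StepA.avg k hk 0 fun _ => Real.log (lo / hi)] at h1
    simp only [sub_zero, zero_add, Finset.sum_const, Finset.card_univ, Fintype.card_fin,
      nsmul_eq_mul] at h1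
    have h2 := Real.one_sub_inv_le_log_of_pos (div_pos hlo hhi)
    rw [inv_div] at h2
    have h3 : -(N / 2 ^ k * (hi / lo)) ≤ N * Real.log (lo / hi) / 2 ^ k := by
      have := mul_le_mul_of_nonneg_left h2 hN
      rw [mul_div_right_comm]
      linarith
    have h4 := Real.add_one_le_exp (N * Real.log (lo / hi) / 2 ^ k)
    have h5 := mul_le_mul_of_nonneg_right ((add_le_add h3 (le_refl 1)).trans h4) c0
    unfold Tr.pay
    rw [Tr.val_map]
    linarith
  · have h1 := Tr.val_am (pay_all k c mv (p := fun a => Pd (M a)) (hc.pd hlo)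
      fun a => (h a).pd hlo) v
    rw [pay_ex k hk] at h1
    have h2 : hi * nsq v ≤ hi / lo * qf (M c) v := by
      calc hi * nsq v = hi / lo * (lo * nsq v) := by field_simp
        _ ≤ _ := mul_le_mul_of_nonneg_left c1 (div_pos hhi hlo).le
    have h3 : ∑ a, (qf (M (mv a)) v - qf (M c) v) ≤ ∑ _a : Fin N, hi / lo * qf (M c) v :=
      Finset.sum_le_sum fun a _ => by linarith [((h a).2 v).2]
    rw [Finset.sum_const, Finset.card_univ, Fintype.card_fin, nsmul_eq_mul] at h3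
    have h4 := div_le_div_of_nonneg_right h3 hP.le
    rw [mul_div_right_comm, ← mul_assoc] at h4
    linarith

end Vale.Agent.P356G
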