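import Vale.Agent.P356G.ColL
import Vale.Agent.P356G.Step

/- One step of one collar. Fix `N > 0`, `a0`, `lo hi` from `Mb_spIn`, `σ = 2⁻ᵐ`, `ε = σ / (500 J w)`,
`s = N ε`, `γ = one a0 g * PS`. Tree `T = (bal p 0).bind fun r => (U r).map (r, ·)`; `φ (r, c) = 0` if `Z`
crosses nothing in the window of `r` (`cross_few`, `ex_bind`, `ex_map`, `ex_const`), else `1`.
Choose (`Classical.choose`, total functions on leaves, junk where the invariant fails) `mv, Mt, Dc` from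
`leaf_step` if `φ = 1`, and `mv x = c`, `Dc = 0`, `leaf_zero` if `φ = 0`.
`U' r = (U r).bind fun c => pay m c (mv (r, c))`, `N (r, c) = val Mb (pay ..)`; `val_bind`, `val_map`.
`step` with `x = N σ hi / lo` (`pay_near`), `he` from `val_am`, `pay_ex` (`s w / 2 = σ N / (1000 J)`),
`e (r, c) = σ (N (ε0 + 2 η) + 6 ∑ pot / 2 ^ Jd)`, `leaf_near` with `b = J`; `1 ≤ r`-wise potential bound by
`ex_bind`, `pay_ex`, `ex_mono`. Second order terms are `≤ Cq σ ^ 2` once `N ε J ≤ 1`, `N ≤ 2 ^ m`. -/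

namespace Vale.Agent.P356G

open Matrix Vale.Agent.P356 Filter

/-- the metric of a family of trees -/
noncomputable def met {Λ : Type} [Fintype Λ] [DecidableEq Λ] (Q : Type) [Fintype Q] [DecidableEq Q]
    {N : ℕ} (θ : ℝ) (t p : ℕ) (U : ℕ → Tr (Fin N → Cfg Λ)) : RM Λ Q N :=
  ((Tr.bal p 0).bind U).val (Mb Q θ t)

/-- invariant of a family of trees -/
def UI {Λ : Type} [Fintype Λ] [DecidableEq Λ] {N : ℕ} (ht : Λ → ℕ) (a b d0 l1 Jd m p : ℕ)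
    (U : ℕ → Tr (Fin N → Cfg Λ)) (B : Λ → ℝ) : Prop :=
  ∀ r, r < 2 ^ p → (U r).All (WI ht a b (d0 + r) l1 Jd m) ∧
    ∀ z, (U r).ex (fun c => pot ht a b (d0 + r) l1 c z) ≤ B z

namespace ColSA

theorem arith {lo hi k n σ : ℝ} (hlo : 0 < lo) (hh : lo ≤ hi) (hk : 0 ≤ k) (hn : 0 ≤ n) (hσ : 0 ≤ σ)
    (h1 : σ * k ≤ 1) :
    hi / lo * (2 * (σ * k) ^ 2 + (2 * (σ * k)) ^ 2 +
      n * σ * (hi / lo) * (2 * (σ * k)) * (2 + 2 * (σ * k))) ≤
      hi / lo * (6 * k ^ 2 + 8 * n * k * (hi / lo)) * σ ^ 2 := by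
  have h0 : 0 ≤ hi / lo := div_nonneg (hlo.le.trans hh) hlo.le
  rw [mul_assoc (hi / lo)]
  refine mul_le_mul_of_nonneg_left ?_ h0
  have h2 := mul_le_mul_of_nonneg_left (show 2 + 2 * (σ * k) ≤ 4 by linarith)
    (show 0 ≤ n * σ * (hi / lo) * (2 * (σ * k)) by positivity)
  nlinarith

theorem sum_le {Λ α : Type} {T : Tr α} {f : Λ → α → ℝ} {Z : Finset Λ} {s : ℕ} {B : Λ → ℝ} {n : ℝ}
    (hn : 0 ≤ n) (hZ : Z.card ≤ s) (h : ∀ z, T.ex (f z) ≤ B z) (hB : ∀ z, B z ≤ n) :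
    T.ex (fun c => ∑ z ∈ Z, f z c) ≤ s * n := by
  rw [Tr.ex_sum]
  refine (Finset.sum_le_card_nsmul _ _ _ fun z _ => (h z).trans (hB z)).trans ?_
  rw [nsmul_eq_mul]
  exact mul_le_mul_of_nonneg_right (by exact_mod_cast hZ) hn

theorem ex_aff {α : Type} (T : Tr α) (f : α → ℝ) (x y : ℝ) :
    T.ex (fun c => x + y * f c) = x + y * T.ex f := by
  rw [Tr.ex_add, Tr.ex_const, Tr.ex_mul]

end ColSA

theorem cstep (Λ Q : Type) [Fintype Λ] [DecidableEq Λ] [Fintype Q] [DecidableEq Q] [Nonempty Q]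
    (θ η ε0 J : ℝ) (s1 l1 Jd p : ℕ) (hθ : 0 < θ) (hθ1 : θ ≤ 1 / 16) (hη : 0 < η) (hη1 : η ≤ 1)
    (hε : 0 < ε0) (hε1 : ε0 ≤ 1) (hJ : 0 < J) (hl : 0 < l1) (hJd : 1 ≤ Jd)
    (hlog : 4 * θ * Real.log ((3 * (Fintype.card Q : ℝ) ^ s1 + 2) / ε0) ≤ 1) :
    ∀ᶠ δ in nhdsWithin (0 : ℝ) (Set.Ioi 0), ∀ᶠ N : ℕ in atTop, ∃ Cq : ℝ, 0 ≤ Cq ∧
      ∀ᶠ m : ℕ in atTop, ∀ (ht : Λ → ℕ) (a b d0 : ℕ) (Z : Finset Λ)
        (g : Matrix (Λ → Q) (Λ → Q) ℂ) (U : ℕ → Tr (Fin N → Cfg Λ)) (B : Λ → ℝ),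
        a + l1 ≤ b → d0 + 2 ^ p + (Jd + 1) * l1 ≤ a → Dm ht l1 Z → Z.card ≤ s1 →
        Loc (fun z => z ∈ Z) g → Le (gᴴ * g) J 1 → UI ht a b d0 l1 Jd (ns δ N) p U B →
        (∀ z, B z ≤ N) → ∃ U' : ℕ → Tr (Fin N → Cfg Λ),
          UI ht a b d0 l1 Jd (ns δ N) p U'
            (fun z => B z + if z ∈ Z then (N : ℝ) * (1 + 2 * s1) / 2 ^ m else 0) ∧
          ∀ v, Sy Finset.univ v →
            qf (met Q θ (t0 δ N) p U') (tens N (1 - ((1 / (2 ^ m * (500 * J *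
              (2 * ((Jd + 2) * l1) / 2 ^ p))) : ℝ) : ℂ) • (gᴴ * g)) *ᵥ v) ≤
            (1 + N * (ε0 + 2 * η + 6 * s1 / 2 ^ Jd) / 2 ^ m + Cq / (2 ^ m) ^ 2) *
              qf (met Q θ (t0 δ N) p U) v := by
  classical
  filter_upwards [leaf_step Λ Q θ η ε0 s1 hθ hθ1 hη hη1 hε hε1 hlog] with δ hδ
  filter_upwards [hδ, eventually_gt_atTop 0] with N hN hN0
  obtain ⟨lo, hi, hlo, hh, hsp⟩ := Mb_spIn (Λ := Λ) (Q := Q) N θ (t0 δ N)
  obtain ⟨w, hw⟩ : ∃ w : ℝ, w = 2 * ((Jd + 2) * l1) / 2 ^ p := ⟨_, rfl⟩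
  have hw0 : 0 < w := by
    have : (0 : ℝ) < l1 := by exact_mod_cast hl
    rw [hw]
    positivity
  have hhi : 0 ≤ hi / lo := div_nonneg (hlo.le.trans hh) hlo.le
  have hN' : (0 : ℝ) ≤ N := Nat.cast_nonneg N
  refine ⟨hi / lo * (6 * (N / (500 * w)) ^ 2 + 8 * N * (N / (500 * w)) * (hi / lo)),
    by positivity, ?_⟩
  filter_upwards [(tendsto_pow_atTop_atTop_of_one_lt (one_lt_two (α := ℕ))).eventually_ge_atTop N,
    (tendsto_pow_atTop_atTop_of_one_lt (one_lt_two (α := ℝ))).eventually_ge_atTop (N / (500 * w))]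
    with m hm hm' ht a b d0 Z g U B hab hd0 hZ hs hg hgJ hU hB
  rw [← hw]
  have h2m : (0 : ℝ) < 2 ^ m := by positivity
  let a0 : Fin N := ⟨0, hN0⟩
  let φ : ℕ → ℝ := fun r => if ∀ k, Btw (fl ht a b (d0 + r + (Jd + 1) * l1)) (fl ht a b (d0 + r)) k →
    NoX Z k then 0 else 1
  have hex : ∀ y : ℕ × (Fin N → Cfg Λ), ∃ (mv : Fin N → Fin N → Cfg Λ) (Mt Dc : RM Λ Q N),
      WI ht a b (d0 + y.1) l1 Jd (ns δ N) y.2 → (φ y.1 = 1 ∨ (φ y.1 = 0 ∧ Dc = 0)) ∧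
        Pd Mt ∧ Ps Dc ∧
          (∀ u v, ‖star u ⬝ᵥ ((Mt * (one a0 g * PS Λ Q Finset.univ) -
            one a0 g * PS Λ Q Finset.univ * Mb Q θ (t0 δ N) y.2) *ᵥ v)‖ ^ 2 ≤
              qf Mt u * qf Dc v) ∧
          (∀ x, WI ht a b (d0 + y.1) l1 Jd (ns δ N) (mv x)) ∧
          (∀ z, ∑ x, (pot ht a b (d0 + y.1) l1 (mv x) z - pot ht a b (d0 + y.1) l1 y.2 z) ≤
            if z ∈ Z then N + 2 * ∑ z' ∈ Z, pot ht a b (d0 + y.1) l1 y.2 z' else 0) ∧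
          ∀ v, ∑ x, (qf (Mb Q θ (t0 δ N) (mv x)) v - qf (Mb Q θ (t0 δ N) y.2) v) +
            N / (1000 * J) * qf Dc v ≤ (N * (ε0 + 2 * η) +
              6 * (∑ z' ∈ Z, pot ht a b (d0 + y.1) l1 y.2 z') / 2 ^ Jd) *
                qf (Mb Q θ (t0 δ N) y.2) v := by
    rintro ⟨r, c⟩
    by_cases hc : WI ht a b (d0 + r) l1 Jd (ns δ N) c
    swap
    · exact ⟨fun _ => c, 0, 0, fun h => absurd h hc⟩
    by_cases hx : ∀ k, Btw (fl ht a b (d0 + r + (Jd + 1) * l1)) (fl ht a b (d0 + r)) k → NoX Z k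
    · obtain ⟨Mt, h1, h2⟩ := leaf_zero (t := t0 δ N) (θ := θ) (c := c)
        (fun x => (hc.1.1 x).disj (fl_disj (by omega) _)) (fun x => hx _ (hc.1.1 x)) hg a0
      have h0 : 0 ≤ ∑ z' ∈ Z, pot ht a b (d0 + r) l1 c z' :=
        Finset.sum_nonneg fun z _ => pot_nonneg c z
      refine ⟨fun _ => c, Mt, 0, fun _ => ⟨Or.inr ⟨if_pos hx, rfl⟩, h1,
        ⟨isHermitian_zero, fun v => (qf_zero v).ge⟩, h2, fun _ => hc, fun z => ?_, fun v => ?_⟩⟩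
      · simp only [sub_self, Finset.sum_const_zero]
        split_ifs
        · positivity
        · exact le_rfl
      · simp only [sub_self, Finset.sum_const_zero, qf_zero, mul_zero, add_zero]
        exact mul_nonneg (by positivity) ((Mb_pd c).ps.2 v)
    · obtain ⟨mv, Mt, Dc, h⟩ := hN ht a b (d0 + r) l1 Jd Z g J c a0 hab hl hJd hZ hs hg hJ hgJ hc
      exact ⟨mv, Mt, Dc, fun _ => ⟨Or.inl (if_neg hx), h⟩⟩
  choose mv Mt Dc hP using hex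
  have hsum : ∀ r, r < 2 ^ p →
      (U r).ex (fun c => ∑ z ∈ Z, pot ht a b (d0 + r) l1 c z) ≤ s1 * N := fun r hr =>
    ColSA.sum_le (f := fun z c => pot ht a b (d0 + r) l1 c z) hN' hs (hU r hr).2 hB
  refine ⟨fun r => (U r).bind fun c => Tr.pay m c (mv (r, c)), fun r hr => ⟨?_, fun z => ?_⟩,
    fun v hv => ?_⟩
  · exact (Tr.all_bind _ _).2 ((hU r hr).1.mono fun c hc =>
      pay_all m c _ hc (hP (r, c) hc).2.2.2.2.1)
  · rw [Tr.ex_bind]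
    by_cases hz : z ∈ Z
    · refine (Tr.ex_mono (ψ := fun c => pot ht a b (d0 + r) l1 c z + (N / 2 ^ m + 2 / 2 ^ m *
        ∑ z' ∈ Z, pot ht a b (d0 + r) l1 c z')) ((hU r hr).1.mono fun c hc => ?_)).trans ?_
      · have h1 := (hP (r, c) hc).2.2.2.2.2.1 z
        rw [if_pos hz] at h1
        rw [pay_ex m hm]
        exact add_le_add le_rfl ((div_le_div_of_nonneg_right h1 h2m.le).trans_eq (by ring))
      · rw [Tr.ex_add, ColSA.ex_aff]
        simp only [if_pos hz]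
        refine add_le_add ((hU r hr).2 z) ((add_le_add le_rfl
          (mul_le_mul_of_nonneg_left (hsum r hr) (by positivity))).trans_eq (by ring))
    · simp only [if_neg hz, add_zero]
      refine (Tr.ex_mono ((hU r hr).1.mono fun c hc => ?_)).trans ((hU r hr).2 z)
      have h1 := (hP (r, c) hc).2.2.2.2.2.1 z
      rw [if_neg hz] at h1
      rw [pay_ex m hm]
      exact add_le_of_nonpos_right (div_nonpos_of_nonpos_of_nonneg h1 h2m.le)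
  let T : Tr (ℕ × (Fin N → Cfg Λ)) := (Tr.bal p 0).bind fun r => (U r).map fun c => (r, c)
  have hT : T.All fun y => WI ht a b (d0 + y.1) l1 Jd (ns δ N) y.2 :=
    (Tr.all_bind _ _).2 ((Tr.all_bal p 0).mono fun r hr =>
      (Tr.all_map _ _).2 (hU r (by omega)).1)
  have e1 : T.val (fun y => Mb Q θ (t0 δ N) y.2) = met Q θ (t0 δ N) p U := by
    simp only [T, met, Tr.val_bind, Tr.val_map]
  have e2 : T.val (fun y => (Tr.pay m y.2 (mv y)).val (Mb Q θ (t0 δ N))) =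
      met Q θ (t0 δ N) p fun r => (U r).bind fun c => Tr.pay m c (mv (r, c)) := by
    simp only [T, met, Tr.val_bind, Tr.val_map]
  have hφ : T.ex (fun y => φ y.1) ≤ w := by
    simp only [T, Tr.ex_bind, Tr.ex_map, Tr.ex_const]
    refine (cross_few (b := b) p d0 ((Jd + 1) * l1) hZ hd0).trans_eq ?_
    rw [hw]
    push_cast
    ring
  have hbd : Bd (gᴴ * g) J := bd_of_qf (ps_ct_mul g).1 fun u => by
    rw [abs_of_nonneg ((ps_ct_mul g).2 u), ← qf_one]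
    exact hgJ u
  have hk0 : 0 ≤ N / (500 * w) := by positivity
  have e3 : N * (1 / (2 ^ m * (500 * J * w))) * J = 1 / 2 ^ m * (N / (500 * w)) := by field_simp
  have hk1 : 1 / 2 ^ m * (N / (500 * w)) ≤ 1 := by
    rw [one_div, inv_mul_le_iff₀ h2m, mul_one]
    exact hm'
  obtain ⟨hγ, hnear⟩ := leaf_near g a0 (ε := 1 / (2 ^ m * (500 * J * w))) hJ.le hbd (by positivity)
    (e3.trans_le hk1)
  have hv' := hnear v hv
  rw [e3] at hv'
  have key := step T (fun y => Mb Q θ (t0 δ N) y.2)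
    (fun y => (Tr.pay m y.2 (mv y)).val (Mb Q θ (t0 δ N))) Dc Mt (one a0 g * PS Λ Q Finset.univ)
    (fun y => φ y.1) (fun y => N * (ε0 + 2 * η) / 2 ^ m + 6 / 2 ^ Jd / 2 ^ m *
      ∑ z' ∈ Z, pot ht a b (d0 + y.1) l1 y.2 z') w (N * (1 / (2 ^ m * (500 * J * w))))
    ((1 / 2 ^ m * (N / (500 * w))) ^ 2) J (N / 2 ^ m * (hi / lo)) (2 * (1 / 2 ^ m * (N / (500 * w))))
    lo hi hlo hw0 (by positivity) (by positivity) (by positivity) hJ.le hγ
    (by rw [e3]; nlinarith [mul_nonneg (show (0 : ℝ) ≤ 1 / 2 ^ m by positivity) hk0]) hφ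
    (hT.mono fun y hy => ⟨hsp _, Tr.val_pd (Tr.all_of _ fun c => Mb_pd c), (hP y hy).2.1,
      (hP y hy).2.2.1⟩)
    (hT.mono fun y hy => (hP y hy).1) (hT.mono fun y hy => (hP y hy).2.2.2.1)
    (Tr.all_of _ fun y u => pay_near m hm y.2 (mv y) _ hlo hh (hsp _) (fun _ => hsp _) u)
    (hT.mono fun y hy u => ?_) v _ hv'
  · rw [e1, e2] at key
    refine key.trans (mul_le_mul_of_nonneg_right ?_
      ((Tr.val_pd (Tr.all_of _ fun c => Mb_pd c)).ps.2 v))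
    refine add_le_add (add_le_add le_rfl ?_) ?_
    · simp only [T, Tr.ex_bind, Tr.ex_map, ColSA.ex_aff]
      refine (add_le_add le_rfl (mul_le_mul_of_nonneg_left
        ((Tr.ex_mono ((Tr.all_bal p 0).mono fun r hr => hsum r (by omega))).trans_eq
          (Tr.ex_const _ _)) (by positivity))).trans_eq (by ring)
    · have h1 := ColSA.arith hlo hh hk0 hN' (show (0 : ℝ) ≤ 1 / 2 ^ m by positivity) hk1
      rw [mul_one_div] at h1
      exact h1.trans_eq (by ring)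
  · have h1 := Tr.val_am (T := Tr.pay m y.2 (mv y)) (Tr.all_of _ fun c => Mb_pd (Q := Q) (θ := θ)
      (t := t0 δ N) c) u
    rw [pay_ex m hm] at h1
    have h2 := div_le_div_of_nonneg_right ((hP y hy).2.2.2.2.2.2 u) h2m.le
    have e4 : N * (1 / (2 ^ m * (500 * J * w))) * (w / 2) = N / (1000 * J) / 2 ^ m := by
      field_simp
      norm_num
    rw [e4]
    refine (add_le_add h1 le_rfl).trans (le_trans (le_of_eq ?_)
      ((add_le_add (le_refl (qf (Mb Q θ (t0 δ N) y.2) u)) h2).trans_eq ?_)) <;> ring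

end Vale.Agent.P356G
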