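import Vale.Agent.P356G.SCa

/- Continuity and subadditivity of the entropy, and the one copy flow.
`ent_cont`: Klein (`klein_tr` or `ent_klein`) against `σ = (rho Y v + 1 / d) / 2`, whose logarithm has
norm at most `log (2 d)`: `S u ≤ - <u, log σ u> ≤ - <v, log σ v> + 2 ϑ log (2 d)` and
`- <v, log σ v> ≤ S v + log 2`; `|<u, X u> - <v, X v>| ≤ 2 |X| nr (u - c v)`.
`flow1`: `|sweep - (1 - ε H)| ≤ C ε ^ 2` (induction on the list), both are contractions for small `ε`, so the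
powers differ by at most `k C ε ^ 2`; decompose `ζ = <Ω, ζ> Ω + ζ'`, on the orthogonal complement of `Ω`
`|1 - ε H| ≤ 1 - ε Δ` (`hf_meas`, or: `X = 1 - ε H` is positive, keeps the complement and `qf X ≤ 1 - ε Δ`
there), `(1 - ε E) ^ k ≥ exp (- 2 ε E k)`. -/

namespace Vale.Agent.P356G

open Matrix Vale.Agent.P356

variable {Λ Q : Type} [Fintype Λ] [DecidableEq Λ] [Fintype Q] [DecidableEq Q] [Nonempty Q]

namespace Cont0A

theorem unit {n : Type} [Fintype n] {u : n → ℂ} (hu : nsq u = 1) : nr u = 1 := by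
  rw [nr, hu, Real.sqrt_one]

theorem cont_fr_le {n : Type} [Fintype n] [DecidableEq n] {V : Matrix n n ℂ} (hV : V * Vᴴ = 1)
    (f : n → ℝ) {K : ℝ} (hK : 0 ≤ K) (hf : ∀ i, |f i| ≤ K) (w : n → ℂ) :
    nr (fr V f *ᵥ w) ≤ K * nr w := by
  have hV' : Vᴴ * Vᴴᴴ = 1 := by rw [conjTranspose_conjTranspose, uni_symm hV]
  have e : fr V f *ᵥ w = V *ᵥ (diagonal (fun i => (f i : ℂ)) *ᵥ (Vᴴ *ᵥ w)) := by
    rw [fr, fn, mulVec_mulVec, mulVec_mulVec]
  rw [nr_le_iff _ _ hK, e, nsq_uni hV, ← nsq_uni hV' w, nsq, nsq, Finset.mul_sum]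
  refine Finset.sum_le_sum fun i _ => ?_
  rw [mulVec_diagonal, norm_mul, mul_pow, Complex.norm_real, Real.norm_eq_abs]
  exact mul_le_mul_of_nonneg_right (pow_le_pow_left₀ (abs_nonneg _) (hf i) 2) (sq_nonneg _)

theorem cont_ip_sub {n : Type} [Fintype n] [DecidableEq n] {M : Matrix n n ℂ} (hM : Mᴴ = M) {K : ℝ}
    (hK : ∀ w, nr (M *ᵥ w) ≤ K * nr w) {u v : n → ℂ} (hu : nsq u = 1) (hv : nsq v = 1)
    {θ : ℝ} (hK0 : 0 ≤ K) (h : nr (u - v) ≤ θ) : (ip v M v).re - (ip u M u).re ≤ 2 * θ * K := by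
  have e : ip v M v - ip u M u = -(star (u - v) ⬝ᵥ (M *ᵥ u) + star (M *ᵥ v) ⬝ᵥ (u - v)) := by
    have e1 : star (M *ᵥ v) ⬝ᵥ (u - v) = star v ⬝ᵥ (M *ᵥ (u - v)) := by
      rw [dot_mulVec, hM]
    rw [e1, ip, ip, star_sub, sub_dotProduct, mulVec_sub, dotProduct_sub]
    ring
  have h1 := dot_le (u - v) (M *ᵥ u)
  have h2 := dot_le (M *ᵥ v) (u - v)
  have h3 := hK u
  have h4 := hK v
  rw [unit hu, mul_one] at h3
  rw [unit hv, mul_one] at h4
  have h5 : nr (u - v) * nr (M *ᵥ u) ≤ θ * K :=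
    mul_le_mul h h3 (nr_nonneg _) ((nr_nonneg _).trans h)
  have h6 : nr (M *ᵥ v) * nr (u - v) ≤ K * θ := mul_le_mul h4 h (nr_nonneg _) hK0
  have h7 := Complex.re_le_norm (ip v M v - ip u M u)
  rw [Complex.sub_re] at h7
  rw [e, norm_neg] at h7
  have h8 := norm_add_le (star (u - v) ⬝ᵥ (M *ᵥ u)) (star (M *ᵥ v) ⬝ᵥ (u - v))
  linarith

theorem cont (Y : Finset Λ) {u v : (Λ → Q) → ℂ} (hu : nsq u = 1) (hv : nsq v = 1)
    {θ : ℝ} (h : nr (u - v) ≤ θ) :
    entropy Y u ≤ entropy Y v + Real.log 2 +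
      2 * θ * (Real.log 2 + Y.card * Real.log (Fintype.card Q)) := by
  obtain ⟨V0, l, hV, h1, h2, h3, h4⟩ := ent_basis Y hv
  have hq : (1 : ℝ) ≤ Fintype.card Q := by exact_mod_cast Fintype.card_pos
  have hD : (1 : ℝ) ≤ (Fintype.card Q : ℝ) ^ Y.card := one_le_pow₀ hq
  have hn : (0 : ℝ) < ((Fintype.card Q : ℝ) ^ Y.card)⁻¹ := inv_pos.2 (by linarith)
  have hn1 : ((Fintype.card Q : ℝ) ^ Y.card)⁻¹ ≤ 1 := inv_le_one_of_one_le₀ hD
  have hl1 : ∀ i, l i ≤ 1 := fun i => by
    rw [← h3]; exact Finset.single_le_sum (fun i _ => h2 i) (Finset.mem_univ _)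
  set d : ({x // x ∈ Y} → Q) → ℝ :=
    fun i => (1 - 1 / 2) * l i + 1 / 2 * ((Fintype.card Q : ℝ) ^ Y.card)⁻¹ with hd
  have hpos : ∀ i, 0 < d i := fun i => by have := h2 i; simp only [hd]; positivity
  have hS := (spec_ofBip Y hV l h2 h3).mix (1 / 2) (by norm_num) (by norm_num)
  have hk := ent_klein hu hS fun s => hpos _
  set K := Real.log 2 + Y.card * Real.log (Fintype.card Q) with hKdef
  have hlog2 : 0 < Real.log 2 := Real.log_pos (by norm_num)
  have hK0 : 0 ≤ K := add_nonneg hlog2.le (mul_nonneg (Nat.cast_nonneg _) (Real.log_nonneg hq))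
  have habs : ∀ i, |Real.log (d i)| ≤ K := by
    intro i
    have a1 : d i ≤ 1 := by have := hl1 i; simp only [hd]; linarith
    have a2 : Real.log (d i) ≤ 0 := Real.log_nonpos (hpos i).le a1
    have a3 : Real.log (2⁻¹ * ((Fintype.card Q : ℝ) ^ Y.card)⁻¹) ≤ Real.log (d i) := by
      refine Real.log_le_log (by positivity) ?_
      have := h2 i; simp only [hd]; linarith
    rw [Real.log_mul (by norm_num) hn.ne', Real.log_inv, Real.log_inv, Real.log_pow] at a3
    rw [abs_of_nonpos a2]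
    linarith
  have hsub := cont_ip_sub (fr_ct (lift Y V0) fun s => Real.log (d (res Y s)))
    (cont_fr_le hS.uni _ hK0 fun s => habs _) hu hv hK0 h
  have hvv : -(ip v (fr (lift Y V0) fun s => Real.log (d (res Y s))) v).re ≤ entropy Y v + Real.log 2 := by
    have hδ' : ∑ i, Real.negMulLog (l i) + Real.log 2 = ∑ i, (Real.negMulLog (l i) + Real.log 2 * l i) := by
      rw [Finset.sum_add_distrib, ← Finset.mul_sum, h3, mul_one]
    rw [h4, ent_ip Y v V0 fun i => Real.log (d i), h1, fr_mul hV,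
      ent_trace_fr hV, Complex.ofReal_re, ← Finset.sum_neg_distrib, hδ']
    refine Finset.sum_le_sum fun i _ => ?_
    rcases (h2 i).eq_or_lt with h5 | h5
    · rw [← h5]
      simp
    · have h6 : Real.log (2⁻¹ * l i) ≤ Real.log (d i) := by
        refine Real.log_le_log (by positivity) ?_
        simp only [hd]; linarith
      rw [Real.log_mul (by norm_num) h5.ne', Real.log_inv] at h6
      have h7 := mul_le_mul_of_nonneg_right h6 h5.le
      rw [Real.negMulLog]
      linarith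
  have hk' : entropy Y u ≤ -(ip u (fr (lift Y V0) fun s => Real.log (d (res Y s))) u).re := hk
  linarith

omit [Nonempty Q] in
theorem ent_smul (Y : Finset Λ) (v : (Λ → Q) → ℂ) {c : ℂ} (hc : ‖c‖ = 1) :
    entropy Y (c • v) = entropy Y v := by
  have h1 : c * star c = 1 := by
    rw [Complex.star_def, Complex.mul_conj', hc]
    simp
  have e : rho Y (c • v) = rho Y v := by
    have e1 : amp Y (c • v) = c • amp Y v := rfl
    rw [rho_amp, rho_amp, e1, conjTranspose_smul, Matrix.smul_mul, Matrix.mul_smul, smul_smul, h1,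
      one_smul]
  have k : ∀ {M M' : Matrix ({x // x ∈ Y} → Q) ({x // x ∈ Y} → Q) ℂ} (h : M.IsHermitian)
      (h' : M'.IsHermitian), M = M' → h.eigenvalues = h'.eigenvalues := by
    rintro M M' h h' rfl
    rfl
  rw [entropy, entropy, k (rho_herm Y (c • v)) (rho_herm Y v) e]

theorem ent_empty {Ω : (Λ → Q) → ℂ} (hΩ : nsq Ω = 1) : entropy ∅ Ω ≤ 0 := by
  simpa using ent_le_card (∅ : Finset Λ) hΩ

end Cont0A

theorem ent_cont (Y : Finset Λ) {u v : (Λ → Q) → ℂ} (hu : nsq u = 1) (hv : nsq v = 1) {c : ℂ}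
    (hc : ‖c‖ = 1) {ϑ : ℝ} (h : nr (u - c • v) ≤ ϑ) :
    |entropy Y u - entropy Y v| ≤
      Real.log 2 + 2 * ϑ * Real.log (2 * (Fintype.card Q : ℝ) ^ Y.card) := by
  have hv' : nsq (c • v) = 1 := by rw [nsq_smul, hc, hv]; norm_num
  have h1 := Cont0A.cont Y hu hv' h
  have h2 := Cont0A.cont Y hv' hu ((nr_sub_comm _ _).trans_le h)
  rw [Cont0A.ent_smul Y v hc] at h1 h2
  rw [Real.log_mul two_ne_zero (pow_pos ent_q_pos _).ne', Real.log_pow, abs_le]
  constructor <;> linarith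

theorem ent_diff {A B : Finset Λ} (h : Disjoint A B) {Ω : (Λ → Q) → ℂ} (hΩ : nsq Ω = 1) :
    entropy A Ω ≤ entropy (A ∪ B) Ω + entropy B Ω := by
  have e : Aᶜ = (A ∪ B)ᶜ ∪ B := by
    ext z
    have : z ∈ A → z ∉ B := fun hz => Finset.disjoint_left.1 h hz
    simp only [Finset.mem_compl, Finset.mem_union]
    tauto
  rw [← ent_compl A, e, ← ent_compl (A ∪ B)]
  exact ent_union (Finset.disjoint_left.2 fun z hz hz' =>
    Finset.mem_compl.1 hz (Finset.mem_union_right _ hz')) hΩ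

theorem slab_split (ht : Λ → ℕ) {a b c : ℕ} (h1 : a ≤ b) (h2 : b ≤ c) :
    slab ht a c = slab ht a b ∪ slab ht b c ∧ Disjoint (slab ht a b) (slab ht b c) := by
  constructor
  · ext z
    simp only [slab, Finset.mem_union, Finset.mem_filter, Finset.mem_univ, true_and]
    omega
  · rw [Finset.disjoint_left]
    intro z
    simp only [slab, Finset.mem_filter, Finset.mem_univ, true_and]
    omega

theorem ent_slab (ht : Λ → ℕ) (h0 V i j m : ℕ) (hij : i ≤ j) (hj : j ≤ m) {Ω : (Λ → Q) → ℂ}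
    (hΩ : nsq Ω = 1) : entropy (slab ht (h0 + i * V) (h0 + j * V)) Ω ≤
      ∑ x ∈ Finset.range m, entropy (slab ht (h0 + x * V) (h0 + (x + 1) * V)) Ω := by
  have key : ∀ j, i ≤ j → entropy (slab ht (h0 + i * V) (h0 + j * V)) Ω ≤
      ∑ x ∈ Finset.Ico i j, entropy (slab ht (h0 + x * V) (h0 + (x + 1) * V)) Ω := by
    intro j hj
    induction j, hj using Nat.le_induction with
    | base =>
      have e : slab ht (h0 + i * V) (h0 + i * V) = ∅ := by
        ext z
        simp only [slab, Finset.mem_filter, Finset.mem_univ, true_and, Finset.notMem_empty]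
        constructor
        · omega
        · exact False.elim
      rw [e, Finset.Ico_self, Finset.sum_empty]
      exact Cont0A.ent_empty hΩ
    | succ j hj ih =>
      obtain ⟨e, d⟩ := slab_split ht (a := h0 + i * V) (b := h0 + j * V) (c := h0 + (j + 1) * V)
        (Nat.add_le_add_left (Nat.mul_le_mul_right V hj) h0)
        (Nat.add_le_add_left (Nat.mul_le_mul_right V (Nat.le_succ j)) h0)
      rw [e, Finset.sum_Ico_succ_top hj]
      exact (ent_union d hΩ).trans (add_le_add ih le_rfl)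
  refine (key j hij).trans (Finset.sum_le_sum_of_subset_of_nonneg (fun x hx => ?_)
    fun x _ _ => ent_nonneg _ hΩ)
  have := Finset.mem_Ico.1 hx
  exact Finset.mem_range.2 (by omega)

end Vale.Agent.P356G
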