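import Vale.Agent.P356G.CoreA

/- Choice of parameters in `coreA` (`l1 = s1 = s2 = J = Lg`): `mI = I.card ≤ 2 ^ Lg`, `Jd = 3 Lg + 4`,
`ε0 = 1 / (2 * 4 ^ Lg)`, `p` with `V / 4 < 2 ^ p ≤ V / 2` (`Nat.log`), `Ep = V / (2 (Jd + 1) Lg)` (so
`Ep ≥ V / (4 (Jd + 1) Lg) > 0`, `Ep ≤ V ≤ 2 ^ Lg`), `m0` least with `2 Lg (1 + 2 Lg) ≤ 2 ^ m0` (so
`2 ^ m0 ≤ 12 Lg ^ 2`), `Lq = 4 ^ Lg`; then `V ^ 2 / (C0 Lg ^ 7) ≤ β ≤ V ^ 2` and `0 ≤ E`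
(positivity of the terms at `Ω`). Any large constant such as `C = 10 ^ 9` works. -/

namespace Vale.Agent.P356G

open Matrix Vale.Agent.P356

namespace CoreA

theorem log_le {x : ℝ} {k : ℕ} (h0 : 0 < x) (h : x ≤ 2 ^ k) : Real.log x ≤ k := by
  have h2 : Real.log 2 ≤ 1 := by
    have := Real.log_le_sub_one_of_pos (show (0 : ℝ) < 2 by norm_num)
    linarith
  calc Real.log x ≤ Real.log (2 ^ k) := Real.log_le_log h0 h
    _ = k * Real.log 2 := Real.log_pow _ _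
    _ ≤ k := mul_le_of_le_one_right (Nat.cast_nonneg k) h2

theorem beta {L V E P M β : ℝ} (hL : 1 ≤ L) (hV : 0 < V) (hE1 : E ≤ V) (hE2 : V ≤ 32 * L ^ 2 * E)
    (hP1 : P ≤ V) (hP2 : V ≤ 4 * P) (hM1 : 1 ≤ M) (hM2 : M ≤ 12 * L ^ 2)
    (hβ : β = E / (M * (500 * L * (2 * ((3 * L + 4 + 2) * L) / P)))) :
    0 ≤ β ∧ β ≤ V ^ 2 ∧ V ^ 2 ≤ 14000000 * L ^ 7 * β := by
  have hP : 0 < P := by linarith
  have hE : 0 < E := by
    by_contra hc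
    have := mul_nonpos_of_nonneg_of_nonpos (show 0 ≤ 32 * L ^ 2 by positivity) (not_lt.1 hc)
    linarith
  set D := M * (1000 * L ^ 2 * (3 * L + 6)) with hD
  have hL2 : 1 ≤ L ^ 2 := one_le_pow₀ hL
  have D1 : 1 ≤ D := one_le_mul_of_one_le_of_one_le hM1 (by nlinarith)
  have D2 : D ≤ 12 * L ^ 2 * (1000 * L ^ 2 * (9 * L)) :=
    mul_le_mul hM2 (mul_le_mul_of_nonneg_left (by linarith) (by positivity)) (by positivity)
      (by positivity)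
  have e : β = E * P / D := by
    rw [hβ, hD]
    field_simp
    ring
  have h1 : E * P ≤ V * V := mul_le_mul hE1 hP1 hP.le hV.le
  have h2 : V * V ≤ 32 * L ^ 2 * E * (4 * P) := mul_le_mul hE2 hP2 hV.le (by positivity)
  have b0 : 0 ≤ β := by rw [e]; positivity
  refine ⟨b0, ?_, ?_⟩
  · rw [e]
    exact (div_le_self (by positivity) D1).trans (by linarith)
  · have h3 : E * P = D * β := by rw [e]; field_simp
    have h4 := mul_le_mul_of_nonneg_right D2 b0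
    have h5 := mul_le_mul_of_nonneg_left h4 (show 0 ≤ 128 * L ^ 2 by positivity)
    have h6 : 0 ≤ L ^ 7 * β := by positivity
    calc V ^ 2 ≤ 128 * L ^ 2 * (D * β) := by rw [← h3]; linarith
      _ ≤ _ := by linarith

theorem ex_p {V : ℕ} (h : 2 ≤ V) : ∃ p, 2 * 2 ^ p ≤ V ∧ V ≤ 4 * 2 ^ p := by
  have h1 := Nat.pow_log_le_self 2 (show V / 2 ≠ 0 by omega)
  have h2 := Nat.lt_pow_succ_log_self one_lt_two (V / 2)
  rw [pow_succ] at h2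
  exact ⟨Nat.log 2 (V / 2), by omega, by omega⟩

theorem ex_m {L : ℕ} (hL : 1 ≤ L) : ∃ m, 2 * L * (1 + 2 * L) ≤ 2 ^ m ∧ 2 ^ m ≤ 12 * L ^ 2 := by
  have h1 := Nat.pow_log_le_self 2 (show 2 * L * (1 + 2 * L) ≠ 0 by positivity)
  have h2 := Nat.lt_pow_succ_log_self one_lt_two (2 * L * (1 + 2 * L))
  refine ⟨_, h2.le, ?_⟩
  rw [pow_succ]
  nlinarith

theorem ex_E {L V : ℕ} (hL : 1 ≤ L) (hV : 10 ^ 9 * L ^ 2 ≤ V) : ∃ Ep, 0 < Ep ∧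
    2 * (Ep * ((3 * L + 4 + 1) * L)) ≤ V ∧ V ≤ 32 * L ^ 2 * Ep ∧ Ep ≤ V := by
  have hD : 0 < 2 * ((3 * L + 4 + 1) * L) := by positivity
  have hD2 : 2 * ((3 * L + 4 + 1) * L) ≤ 16 * L ^ 2 := by nlinarith
  have h1 := Nat.div_pos (show 2 * ((3 * L + 4 + 1) * L) ≤ V by omega) hD
  have h2 := Nat.div_mul_le_self V (2 * ((3 * L + 4 + 1) * L))
  have h3 := Nat.lt_mul_div_succ V hD
  refine ⟨_, h1, by linarith, ?_, Nat.div_le_self _ _⟩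
  nlinarith

theorem hlog {L n : ℕ} {q : ℝ} (hL : 1 ≤ L) (hn : 10 ^ 9 * L ^ 2 ≤ n) (q0 : 0 < q)
    (q1 : q ≤ 2 ^ L) : 8 * Real.log ((3 * q ^ L + 2) / (1 / (2 * (2 ^ L) ^ 2))) ≤ n := by
  have h1 : q ^ L ≤ (2 ^ L) ^ L := pow_le_pow_left₀ q0.le q1 L
  have h2 : (1 : ℝ) ≤ (2 ^ L) ^ L := one_le_pow₀ (one_le_pow₀ one_le_two)
  have h3 := log_le (x := (3 * q ^ L + 2) / (1 / (2 * (2 ^ L) ^ 2)))
    (k := L * L + L * 2 + 4) (by positivity) (by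
      rw [pow_add, pow_add, pow_mul, pow_mul, div_div_eq_mul_div, div_one]
      nlinarith [sq_nonneg ((2 : ℝ) ^ L)])
  have h4 : ((8 * (L * L + L * 2 + 4) : ℕ) : ℝ) ≤ n := Nat.cast_le.2 (by nlinarith)
  push_cast at h3 h4
  linarith

theorem herr {L : ℕ} {a b : ℝ} (b0 : 0 ≤ b) (h1 : a ≤ 2 ^ L) (h2 : b ≤ 2 ^ L) :
    a * b * (1 / (2 * (2 ^ L) ^ 2) + 6 * (L : ℝ) / 2 ^ (3 * L + 4)) ≤ 1 := by
  have T1 : (L : ℝ) + 1 ≤ 2 ^ L := by exact_mod_cast (Nat.lt_two_pow_self : L < 2 ^ L)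
  rw [pow_add, mul_comm 3 L, pow_mul]
  generalize (2 : ℝ) ^ L = T at *
  have T0 : 0 < T := by linarith [Nat.cast_nonneg (α := ℝ) L]
  have h3 : 6 * (L : ℝ) / (T ^ 3 * 2 ^ 4) ≤ 1 / (2 * T ^ 2) := by
    rw [div_le_div_iff₀ (by positivity) (by positivity)]
    nlinarith [mul_le_mul_of_nonneg_right T1 (sq_nonneg T), sq_nonneg T, pow_pos T0 3]
  calc _ ≤ T * T * (1 / (2 * T ^ 2) + 1 / (2 * T ^ 2)) := by gcongr
    _ = 1 := by field_simp; norm_num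

theorem hLq {L c : ℕ} {q : ℝ} (q0 : 0 < q) (q1 : q ≤ 2 ^ L) (hc : c ≤ 2 ^ L) :
    Real.log (2 * q ^ c) ≤ (2 ^ L) ^ 2 := by
  have T1 : (L : ℝ) + 1 ≤ 2 ^ L := by exact_mod_cast (Nat.lt_two_pow_self : L < 2 ^ L)
  have T2 : (1 : ℝ) ≤ 2 ^ L := one_le_pow₀ one_le_two
  have h1 : q ^ c ≤ (2 ^ L) ^ 2 ^ L :=
    (pow_le_pow_left₀ q0.le q1 _).trans (pow_le_pow_right₀ T2 hc)
  have h3 := log_le (x := 2 * q ^ c) (k := L * 2 ^ L + 1) (by positivity) (by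
    rw [pow_succ, pow_mul]
    linarith)
  push_cast at h3
  nlinarith

theorem hbeta {L : ℕ} {S β Δ V : ℝ} (hL : (1 : ℝ) ≤ L) (S0 : 0 ≤ S) (hΔ : 0 < Δ)
    (b2 : V ^ 2 ≤ 14000000 * L ^ 7 * β) (hC : 10 ^ 9 * (L : ℝ) ^ 7 * (S + L) ≤ Δ * V ^ 2) :
    4 * S + 12 + Real.log ((2 ^ L) ^ 2) ≤ β * Δ := by
  have h3 := log_le (x := (2 ^ L) ^ 2) (k := L * 2) (by positivity) (by rw [pow_mul])
  push_cast at h3
  have h4 := mul_le_mul_of_nonneg_left b2 hΔ.le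
  refine le_of_mul_le_mul_left ?_ (show (0 : ℝ) < 14000000 * L ^ 7 by positivity)
  have h5 : 4 * S + 12 + Real.log ((2 ^ L) ^ 2) ≤ 14 * (S + L) := by linarith
  have h6 := mul_le_mul_of_nonneg_left h5 (show (0 : ℝ) ≤ 14000000 * L ^ 7 by positivity)
  have h7 : (0 : ℝ) ≤ L ^ 7 * (S + L) := by positivity
  linarith

end CoreA

theorem core : ∃ C : ℝ, 1 ≤ C ∧ ∀ (Λ Q ι : Type) [Fintype Λ] [DecidableEq Λ] [Fintype Q]
    [DecidableEq Q] [Nonempty Q] [Fintype ι] [DecidableEq ι] [Nonempty ι]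
    (h : ι → Matrix (Λ → Q) (Λ → Q) ℂ) (Z : ι → Finset Λ) (I : Finset ι) (ht : Λ → ℕ)
    (h0 V n Lg : ℕ) (E Δ : ℝ) (Ω : (Λ → Q) → ℂ),
    Terms h Z I ht (h0 + 4 * n * V) Lg Lg Lg Lg → GS (∑ i, h i) Ω E Δ → 0 < Δ → 1 ≤ Lg →
    C * (Lg : ℝ) ^ 2 ≤ n → C * (Lg : ℝ) ^ 2 ≤ V → V ≤ 2 ^ Lg → I.card ≤ 2 ^ Lg →
    Fintype.card Q ≤ 2 ^ Lg → (slab ht 0 (h0 + 4 * n * V)).card ≤ 2 ^ Lg →
    E * (V : ℝ) ^ 2 ≤ 1 →
    C * (Lg : ℝ) ^ 7 * (entropy (slab ht 0 h0) Ω + Lg) ≤ Δ * (V : ℝ) ^ 2 →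
    entropy (slab ht 0 h0) Ω ≤ C * n * ∑ i ∈ Finset.range (4 * n),
      (entropy (slab ht (h0 + i * V) (h0 + (i + 1) * V)) Ω + 1) := by
  refine ⟨10 ^ 9, by norm_num, ?_⟩
  intro Λ Q ι _ _ _ _ _ _ _ _ h Z I ht h0 V n L E Δ Ω hT hG hΔ hL hn hV hV2 hI hQ hS hE hC
  have hn' : 10 ^ 9 * L ^ 2 ≤ n := by exact_mod_cast hn
  have hV' : 10 ^ 9 * L ^ 2 ≤ V := by exact_mod_cast hV
  have hL2 : L ≤ L ^ 2 := Nat.le_self_pow two_ne_zero L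
  have hL' : (1 : ℝ) ≤ L := by exact_mod_cast hL
  obtain ⟨p, hp1, hp2⟩ := CoreA.ex_p (show 2 ≤ V by omega)
  obtain ⟨m, hm1, hm2⟩ := CoreA.ex_m hL
  obtain ⟨Ep, hE0, hE1, hE2, hE3⟩ := CoreA.ex_E hL hV'
  have T1 : (1 : ℝ) ≤ (2 ^ L) ^ 2 := one_le_pow₀ (one_le_pow₀ one_le_two)
  have q0 : (0 : ℝ) < Fintype.card Q := by exact_mod_cast Fintype.card_pos
  have q1 : (Fintype.card Q : ℝ) ≤ 2 ^ L := by exact_mod_cast hQ
  obtain ⟨b0, b1, b2⟩ := CoreA.beta (V := V) (E := Ep) (P := 2 ^ p) (M := 2 ^ m) hL'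
    (by exact_mod_cast (show 0 < V by omega)) (by exact_mod_cast hE3) (by exact_mod_cast hE2)
    (by exact_mod_cast (show 2 ^ p ≤ V by omega)) (by exact_mod_cast hp2)
    (one_le_pow₀ one_le_two) (by exact_mod_cast hm2) rfl
  have S0 := ent_nonneg (slab ht 0 h0) hG.1
  refine (coreA Λ Q ι h Z I ht h0 V n (1 / (2 * (2 ^ L) ^ 2)) L E Δ _ ((2 ^ L) ^ 2) L L L
    (3 * L + 4) p m Ep Ω hT hG hΔ (by omega) (by positivity) ?_ (by linarith) hL (by omega) hE0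
    (CoreA.hlog hL hn' q0 q1) hm1 (CoreA.herr (Nat.cast_nonneg _)
      (by exact_mod_cast hE3.trans hV2) (by exact_mod_cast hI)) (by omega)
    (by rw [Nat.cast_add, Nat.cast_mul]; rfl) ?_ (CoreA.hLq q0 q1 hS) T1
    (CoreA.hbeta hL' S0 hΔ b2 hC)).trans ?_
  · rw [div_le_one (by positivity)]
    linarith
  · rcases le_total E 0 with h1 | h1
    · exact (mul_nonpos_of_nonneg_of_nonpos b0 h1).trans zero_le_one
    · exact (mul_le_mul_of_nonneg_right b1 h1).trans (by linarith)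
  · refine mul_le_mul_of_nonneg_right (mul_le_mul_of_nonneg_right (by norm_num) (by positivity))
      (Finset.sum_nonneg fun i _ => ?_)
    linarith [ent_nonneg (slab ht (h0 + i * V) (h0 + (i + 1) * V)) hG.1]

end Vale.Agent.P356G
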