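import Vale.Agent.P356G.Flow2
import Vale.Agent.P356G.Bil2
import Vale.Agent.P356G.Bil3

/- Apply `flow2` on the bilayer with `Lg + 1` (`terms_bil`, `sum_bil`, `gs_bp`, `trial` for `X = slab 0 (H0 + 1)`,
`c = 8 (S' + 1)`, `P2 = emb (opp σ) (Φ Φ*)`, `emb_prj`, `emb_bp`, `bp_opp`, `dot_bp`), `bot = H0 + 1`, `top = T = 2 H0 + 1`.
Windows: `cj = H0 + 1 + j (2 K + 4) V + (K + 1) V`, `g j i = MI (flat (cj - i V) (cj + V + i V)) (bp Ω Ω)`, by `mi_gs`,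
`MI_nonneg`, `ent_nonneg`: `0 ≤ g j i ≤ 4 Smax` for `i ≤ K`; telescoping gives `i j < K` with
`g j i - g j (i + 1) ≤ 4 Smax / K`; `a j = cj - i V`, `b j = cj + V + i V`, `fl .. V` is the window `i + 1`.
`mi_trial`, `drop` (with `a1 = T + 1 - b`, `a2 = T + 1 - a`, `a3 = a`, `a4 = b`, top `T + 1`) and `MI_mono` give
`g j i - MI (fl .. 0) τ ≥ MI (slab 0 1, slab T (T + 1)) Ω`. Divide by `n`. -/

namespace Vale.Agent.P356G

open Matrix Vale.Agent.P356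

namespace Core2A

theorem tele (g : ℕ → ℝ) {K : ℕ} (hK : 0 < K) {x : ℝ} (h0 : g 0 ≤ x) (h1 : 0 ≤ g K) :
    ∃ i, i < K ∧ g i - g (i + 1) ≤ x / K := by
  obtain ⟨i, hi, h⟩ := Finset.exists_le_of_sum_le (s := Finset.range K)
    (f := fun i => g i - g (i + 1)) (g := fun _ => x / K) ⟨0, Finset.mem_range.2 hK⟩ (by
      rw [Finset.sum_range_sub', Finset.sum_const, Finset.card_range, nsmul_eq_mul,
        mul_div_cancel₀ _ (Nat.cast_pos.2 hK).ne']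
      linarith)
  exact ⟨i, Finset.mem_range.1 hi, h⟩

theorem wins (g : ℕ → ℕ → ℝ) {H0 V n K : ℕ} {x : ℝ} (hK : 0 < K) (hV : 0 < V)
    (hH : n * ((2 * K + 4) * V) ≤ H0)
    (hg : ∀ a b, H0 + 1 < a → a ≤ b → b ≤ 2 * H0 + 1 → 0 ≤ g a b ∧ g a b ≤ x) :
    ∃ a b : ℕ → ℕ, Wins a b n V (H0 + 1) (2 * H0 + 1) ∧
      ∀ j, j < n → g (a j) (b j) - g (a j - V) (b j + V) ≤ x / K := by
  have e1 : (2 * K + 4) * V = 2 * (K * V) + 4 * V := by ring
  generalize (2 * K + 4) * V = W at hH e1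
  have e2 : ∀ i j, i < j → i * W + W ≤ j * W := fun i j h => by
    rw [← Nat.succ_mul]
    exact Nat.mul_le_mul_right _ h
  have e3 : ∀ i, i < K → i * V + V ≤ K * V := fun i h => by
    rw [← Nat.succ_mul]
    exact Nat.mul_le_mul_right _ h
  have key : ∀ j, ∃ i, i < K ∧ (j < n →
      g (H0 + 1 + j * W + K * V + V - i * V) (H0 + 1 + j * W + K * V + 2 * V + i * V) -
        g (H0 + 1 + j * W + K * V + V - (i + 1) * V)
          (H0 + 1 + j * W + K * V + 2 * V + (i + 1) * V) ≤ x / K) := by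
    intro j
    by_cases hj : j < n
    · have := e2 j n hj
      obtain ⟨i, hi, h⟩ := tele (fun i => g (H0 + 1 + j * W + K * V + V - i * V)
        (H0 + 1 + j * W + K * V + 2 * V + i * V)) hK (hg _ _ (by omega) (by omega) (by omega)).2
        (hg _ _ (by omega) (by omega) (by omega)).1
      exact ⟨i, hi, fun _ => h⟩
    · exact ⟨0, hK, fun h => absurd h hj⟩
  choose i hi hk using key
  refine ⟨fun j => H0 + 1 + j * W + K * V + V - i j * V,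
    fun j => H0 + 1 + j * W + K * V + 2 * V + i j * V, ⟨fun j _ => ?_, fun j _ => ?_,
    fun j hj => ?_, fun l j hl _ => ?_⟩, fun j hj => ?_⟩
  · have := e3 _ (hi j)
    omega
  · have := e3 _ (hi j)
    omega
  · have := e3 _ (hi j)
    have := e2 j n hj
    omega
  · have := e3 _ (hi j)
    have := e3 _ (hi l)
    have := e2 l j hl
    omega
  · have := hk j hj
    rwa [add_one_mul (i j), ← Nat.sub_sub, ← add_assoc] at this

variable {Λ Q : Type} [Fintype Λ] [DecidableEq Λ] [Fintype Q] [DecidableEq Q] [Nonempty Q]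

theorem gb {ht : Λ → ℕ} {H0 a b : ℕ} (hh : ∀ z, ht z ≤ 2 * H0 + 1) (h1 : H0 + 1 < a) (h2 : a ≤ b)
    (h3 : b ≤ 2 * H0 + 1) {Ω : (Λ → Q) → ℂ} (hΩ : nsq Ω = 1) {Sm : ℝ}
    (hS : ∀ x y, entropy (slab ht x y) Ω ≤ Sm) :
    0 ≤ MI (flat (ht2 (2 * H0 + 1) ht) a b) (bp (fun _ => false) Ω Ω) ∧
      MI (flat (ht2 (2 * H0 + 1) ht) a b) (bp (fun _ => false) Ω Ω) ≤ 4 * Sm := by
  refine ⟨MI_nonneg (fl_disj (ht := ht2 (2 * H0 + 1) ht) h2 0)
    (by rw [nsq_bp, hΩ, mul_one]), ?_⟩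
  have key : ∀ x y z w, MI (slab ht x y, slab ht z w) Ω ≤ 2 * Sm := fun x y z w => by
    have := hS x y
    have := hS z w
    have := ent_nonneg (slab ht x y ∪ slab ht z w) hΩ
    rw [MI]
    linarith
  rw [mi_gs hh h1 h2 h3 hΩ]
  linarith [key 0 a b (2 * H0 + 2), key (2 * H0 + 2 - a) (2 * H0 + 2) 0 (2 * H0 + 2 - b)]

theorem low {ht : Λ → ℕ} {H0 a b : ℕ} (hh : ∀ z, ht z ≤ 2 * H0 + 1) (h1 : H0 + 1 < a) (h2 : a ≤ b)
    (h3 : b ≤ 2 * H0 + 1) {Ω Φ : (Λ → Q) → ℂ} (hΩ : nsq Ω = 1) (hΦ : nsq Φ = 1)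
    (hs : ∀ A B : Finset Λ, entropy (A ∪ B) Ω + entropy (A ∩ B) Ω ≤ entropy A Ω + entropy B Ω) :
    MI (slab ht 0 1, slab ht (2 * H0 + 1) (2 * H0 + 2)) Ω ≤
      MI (flat (ht2 (2 * H0 + 1) ht) a b) (bp (fun _ => false) Ω Ω) -
        MI (flat (ht2 (2 * H0 + 1) ht) a b)
          (bp (fun z => decide (z ∈ slab ht 0 (H0 + 1))) Ω Φ) := by
  have a1 := drop hs ht (a1 := 2 * H0 + 2 - b) (a2 := 2 * H0 + 2 - a) (a3 := a) (a4 := b)
    (T := 2 * H0 + 2) (by omega) (by omega) h2 (by omega) fun z => Nat.lt_succ_of_le (hh z)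
  have a2 := MI_mono hs (A := slab ht 0 (2 * H0 + 2 - b)) (B := slab ht b (2 * H0 + 2))
    (A' := slab ht 0 1) (B' := slab ht (2 * H0 + 1) (2 * H0 + 2))
    (Finset.disjoint_left.2 fun z => by
      simp only [slab, Finset.mem_filter, Finset.mem_univ, true_and]
      omega) (fun z => by
      simp only [slab, Finset.mem_filter, Finset.mem_univ, true_and]
      omega) fun z => by
      simp only [slab, Finset.mem_filter, Finset.mem_univ, true_and]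
      omega
  rw [mi_gs hh h1 h2 h3 hΩ, mi_trial hh h1 h2 h3 hΩ hΦ]
  linarith

theorem num {C L S Sm K n v s M : ℝ} (hC : 1 ≤ C) (hL : 1 ≤ L) (hS : 0 ≤ S) (hSm : 0 ≤ Sm / K)
    (hn : 0 < n) (hv : 0 ≤ v) (hs : 0 < s)
    (h : n * (M - 4 * Sm / K) ≤ C * ((L + 1) ^ 2 * (8 * (S + 1) + 1 + n) + n * ((2 * v + 1) / s))) :
    M ≤ 1152 * C * (Sm / K + L ^ 2 * (S + 1) / n + L ^ 2 + (v + 1) / s) := by
  have a1 : (L + 1) ^ 2 ≤ 4 * L ^ 2 := by nlinarith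
  have a2 : (2 * v + 1) / s ≤ 2 * ((v + 1) / s) := by
    rw [← mul_div_assoc]
    gcongr
    linarith
  have a3 : C * ((L + 1) ^ 2 * (8 * (S + 1) + 1 + n) + n * ((2 * v + 1) / s)) ≤
      C * (4 * L ^ 2 * (9 * (S + 1) + n) + n * (2 * ((v + 1) / s))) := by
    gcongr
    linarith
  have a4 : C * (4 * L ^ 2 * (9 * (S + 1) + n) + n * (2 * ((v + 1) / s))) =
      n * (C * (36 * (L ^ 2 * (S + 1) / n) + 4 * L ^ 2 + 2 * ((v + 1) / s))) := by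
    field_simp
    ring
  have a5 := le_of_mul_le_mul_left ((h.trans a3).trans_eq a4) hn
  have b1 : 0 ≤ C * (L ^ 2 * (S + 1) / n) := by positivity
  have b2 : 0 ≤ C * L ^ 2 := by positivity
  have b3 : 0 ≤ C * ((v + 1) / s) := by positivity
  have b4 := mul_le_mul_of_nonneg_right hC hSm
  rw [mul_div_assoc] at a5
  linarith

end Core2A

theorem core2 : ∃ C : ℝ, 1 ≤ C ∧ ∀ (Λ Q ι : Type) [Fintype Λ] [DecidableEq Λ] [Fintype Q]
    [DecidableEq Q] [Nonempty Q] [Fintype ι] [DecidableEq ι] [Nonempty ι]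
    (h : ι → Matrix (Λ → Q) (Λ → Q) ℂ) (Z : ι → Finset Λ) (I : Finset ι) (ht : Λ → ℕ)
    (H0 V n K Lg : ℕ) (E Δ s v Sm : ℝ) (Ω' Ω : (Λ → Q) → ℂ),
    Terms h Z I ht (2 * H0 + 1) Lg Lg Lg Lg → (∀ z, ht z ≤ 2 * H0 + 1) → GS (∑ i, h i) Ω' E Δ →
    0 < Δ → 1 ≤ Lg → 0 < n → 0 < K → n * ((2 * K + 4) * V) ≤ H0 → C * (Lg : ℝ) ^ 2 ≤ V →
    V ≤ 2 ^ Lg → I.card ≤ 2 ^ Lg → Fintype.card Q ≤ 2 ^ Lg → 2 * E * (V : ℝ) ^ 2 ≤ 1 →
    C * (Lg : ℝ) ^ 7 * (entropy (slab ht 0 (H0 + 1)) Ω' + 1) ≤ Δ * (V : ℝ) ^ 2 → nsq Ω = 1 →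
    99 / 100 ≤ ‖star Ω ⬝ᵥ Ω'‖ → 0 < s → s < 1 → 0 ≤ v →
    (∀ A B : Finset Λ, entropy (A ∪ B) Ω + entropy (A ∩ B) Ω ≤ entropy A Ω + entropy B Ω) →
    (∀ x y z w, Mom (slab ht x y ∪ slab ht z w) Ω s v ∧
      entropy (slab ht x y ∪ slab ht z w) Ω ≤ Sm) →
    MI (slab ht 0 1, slab ht (2 * H0 + 1) (2 * H0 + 2)) Ω ≤
      C * (Sm / K + (Lg : ℝ) ^ 2 * (entropy (slab ht 0 (H0 + 1)) Ω' + 1) / n + (Lg : ℝ) ^ 2 +
        (v + 1) / s) := by
  obtain ⟨C, hC, H⟩ := flow2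
  refine ⟨1152 * C, by linarith, ?_⟩
  intro Λ Q ι _ _ _ _ _ _ _ _ h Z I ht H0 V n K Lg E Δ s v Sm Ω' Ω hT hh hG hΔ hL hn hK hH hV hV2
    hI hQ hE hΔ2 hΩ hc hs hs1 hv hssa hm
  have hL' : (1 : ℝ) ≤ Lg := by exact_mod_cast hL
  have hV0 : 0 < V := Nat.cast_pos.1 (lt_of_lt_of_le (by positivity) hV)
  have hS' := ent_nonneg (slab ht 0 (H0 + 1)) hG.1
  have hS : ∀ x y, entropy (slab ht x y) Ω ≤ Sm := fun x y => by
    simpa only [Finset.union_self] using (hm x y x y).2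
  obtain ⟨Φ, γ, hΦ, g1, g2, g3⟩ := trial (slab ht 0 (H0 + 1)) hG.1 hΩ hc
  obtain ⟨a, b, hW, hab⟩ := Core2A.wins
    (fun a b => MI (flat (ht2 (2 * H0 + 1) ht) a b) (bp (fun _ => false) Ω Ω)) hK hV0 hH
    fun a b h1 h2 h3 => Core2A.gb hh h1 h2 h3 hΩ hS
  have hd : star Φ ⬝ᵥ Φ = 1 := by rw [← nsq_eq, hΦ, Complex.ofReal_one]
  have hH' : (∑ i, h i).IsHermitian := by
    rw [IsHermitian, conjTranspose_sum]
    exact Finset.sum_congr rfl fun i _ => (hT.ps i).1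
  have p2 : 2 ^ Lg ≤ 2 ^ (Lg + 1) := Nat.pow_le_pow_right two_pos (Nat.le_succ _)
  have key := H (Bool × Λ) Q (Bool × ι) _ _ _ (ht2 (2 * H0 + 1) ht) a b n V (H0 + 1) (2 * H0 + 1)
    (Lg + 1) (2 * E) Δ (8 * (entropy (slab ht 0 (H0 + 1)) Ω' + 1)) γ s (2 * v)
    (bp (fun _ => false) Ω' Ω') (bp (fun _ => false) Ω Ω)
    (bp (fun z => decide (z ∈ slab ht 0 (H0 + 1))) Ω Φ)
    (emb (opp fun z => decide (z ∈ slab ht 0 (H0 + 1))) (vecMulVec Φ (star Φ)))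
    (terms_bil hT hh (Nat.succ_pos _) (Nat.le_succ _) (Nat.le_succ _) (Nat.le_succ _)
      (Nat.cast_le.2 (Nat.le_succ _))) hW (by rw [sum_bil]; exact gs_bp _ hH' hΔ.le hG) hΔ
    (Nat.le_add_left _ _) (le_trans ?_ hV) (hV2.trans p2) ?_ (hQ.trans p2) hE (by positivity)
    (le_trans ?_ hΔ2) (by rw [nsq_bp, hΩ, mul_one]) (by rw [nsq_bp, hΩ, hΦ, mul_one])
    (emb_prj _ ⟨by rw [IsHermitian, conjTranspose_vecMulVec, star_star],
      by rw [vecMulVec_mul_vecMulVec, hd, one_smul]⟩) (loc_trial hh _) ?_ g1 g2 g3 ?_ hs hs1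
    (by positivity) fun j hj => ?_
  · refine Core2A.num hC hL' hS' (div_nonneg ((ent_nonneg _ hΩ).trans (hS 0 0)) K.cast_nonneg)
      (Nat.cast_pos.2 hn) hv hs ?_
    rw [Nat.cast_succ] at key
    refine le_trans ?_ key
    rw [← nsmul_eq_mul, ← Finset.card_range n, ← Finset.sum_const, Finset.card_range]
    refine Finset.sum_le_sum fun j hj => ?_
    have hj' := Finset.mem_range.1 hj
    have a1 := hW.lo j hj'
    have a2 := hW.mid j hj'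
    have a3 := hW.hi j hj'
    have a4 := Core2A.low hh (a := a j) (b := b j) (by omega) (by omega) (by omega) hΩ hΦ hssa
    have a5 := hab j hj'
    simp only [fl, Nat.sub_zero, Nat.add_zero]
    linarith
  · rw [Nat.cast_succ]
    have : ((Lg : ℝ) + 1) ^ 2 ≤ 1152 * Lg ^ 2 := by nlinarith
    nlinarith
  · rw [Finset.card_product, Finset.card_univ, Fintype.card_bool, pow_succ]
    omega
  · rw [Nat.cast_succ]
    have a1 : ((Lg : ℝ) + 1) ^ 7 ≤ (2 * Lg) ^ 7 := by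
      gcongr
      linarith
    have a2 : C * ((Lg : ℝ) + 1) ^ 7 * (8 * (entropy (slab ht 0 (H0 + 1)) Ω' + 1) + 1) ≤
        C * (2 * Lg) ^ 7 * (9 * (entropy (slab ht 0 (H0 + 1)) Ω' + 1)) := by
      gcongr
      linarith
    exact a2.trans (le_of_eq (by ring))
  · rw [← bp_opp, emb_bp, vecMulVec_mulVec, hd, MulOpposite.op_one, one_smul]
  · rw [dot_bp, norm_mul]
    nlinarith
  · have a1 := hW.lo j hj
    have a2 := hW.mid j hj
    have a3 := hW.hi j hj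
    exact ⟨(mom_gs hh (by omega) (by omega) (by omega) hΩ hΦ hs hs1 hv
      fun x y z w => (hm x y z w).1).1, (mom_gs hh (by omega) (by omega) (by omega) hΩ hΦ hs hs1 hv
      fun x y z w => (hm x y z w).1).2⟩

end Vale.Agent.P356G
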