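import Vale.Agent.P356G.End0

/- END. Let `ρ = rho Y ξ`, `d` the dimension of `Y`, `m = (1 - y) ρ + y / d` (positive definite, trace one,
a function of `ρ`), `T = tens (lift m)`, which commutes with `om Y univ t` (`tens_comm`, `comm_om`).
`Lw_lo`: `om_ge`, `hlog_mono`, `hlog_tens`, `qf_one_tv`, `hf_lift`, and
`tr (ρ log m) ≥ - S + log (1 - y)`; let `y → 0` or use `ent_approx`.
`Lw_hi`: `hlog om - hlog T = hlog (om T⁻¹)` (`hlog_mul`), `jensen`, `hexp_log`;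
`qf (om T⁻¹) (tv ξ) = qf om (tv χ)`, `χ = lift (m ^ (-1/2)) ξ`, whose marginal is `≤ c = 1 / (1 - y)`
(`mg_mul`), `nsq χ ≤ c d`; `om_exp` for the normalised `χ` gives `≤ c ^ N ∏ (t d + i) / (i + 1)`;
`tr (ρ log m) ≤ - S` (`klein_tr` or `ent_klein`); take `c = exp η`.
`finish`: `Mb_const`, `jensen`, `prod_small` with `C = D * D`, `d ≤ D`. -/

namespace Vale.Agent.P356G

open Matrix Vale.Agent.P356 Filter

variable {Λ Q : Type} [Fintype Λ] [DecidableEq Λ] [Fintype Q] [DecidableEq Q] [Nonempty Q]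

namespace EndA

variable {Y : Finset Λ} {V0 : Matrix ({z // z ∈ Y} → Q) ({z // z ∈ Y} → Q) ℂ}

omit [Nonempty Q] in
theorem lift_uni (hV : V0 * V0ᴴ = 1) : lift Y V0 * (lift Y V0)ᴴ = 1 := by
  rw [← lift_ct, ← lift_mul, hV, lift_one]

omit [Nonempty Q] in
theorem F_mul (hV : V0 * V0ᴴ = 1) (g h : ({z // z ∈ Y} → Q) → ℝ) :
    lift Y (fr V0 g) * lift Y (fr V0 h) = lift Y (fr V0 fun i => g i * h i) := by
  rw [← lift_mul, fr_mul hV]

omit [Nonempty Q] in
theorem F_ct (g : ({z // z ∈ Y} → Q) → ℝ) : (lift Y (fr V0 g))ᴴ = lift Y (fr V0 g) := by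
  rw [← lift_ct, fr_ct]

omit [Nonempty Q] in
theorem F_one (hV : V0 * V0ᴴ = 1) {g : ({z // z ∈ Y} → Q) → ℝ} (hg : ∀ i, g i = 1) :
    lift Y (fr V0 g) = 1 := by
  have : g = fun _ => 1 := funext hg
  subst this
  have h := fn_one hV
  have h2 : fr V0 (fun _ => (1 : ℝ)) = 1 := by
    unfold fr
    simpa using h
  rw [h2, lift_one]

omit [Nonempty Q] in
theorem F_log (hV : V0 * V0ᴴ = 1) (g : ({z // z ∈ Y} → Q) → ℝ) :
    hlog (lift Y (fr V0 g)) = lift Y (fr V0 fun i => Real.log (g i)) := by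
  rw [← fr_lift, ← fr_lift, hlog, hf_fn (lift_uni hV)]
  rfl

theorem F_qf (hV : V0 * V0ᴴ = 1) {ξ : (Λ → Q) → ℂ} {l : ({z // z ∈ Y} → Q) → ℝ}
    (hl : rho Y ξ = fr V0 l) (g : ({z // z ∈ Y} → Q) → ℝ) :
    qf (lift Y (fr V0 g)) ξ = ∑ i, g i * l i := by
  rw [qf, ← fr_lift, ent_ip, hl, fr_mul hV, ent_trace_fr hV, Complex.ofReal_re]

theorem fr_le {n : Type} [Fintype n] [DecidableEq n] {W : Matrix n n ℂ} (hW : W * Wᴴ = 1)
    {g : n → ℝ} {b : ℝ} (hg : ∀ i, g i ≤ b) : Le (fr W g) b 1 := by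
  intro v
  have h1 : fr W (fun i => b - g i) =
      (fr W fun i => Real.sqrt (b - g i))ᴴ * fr W fun i => Real.sqrt (b - g i) := by
    rw [fr_ct, fr_mul hW]
    exact congrArg _ (funext fun i => (Real.mul_self_sqrt (sub_nonneg.2 (hg i))).symm)
  have h2 : fr W (fun i => b - g i) + fr W g = (b : ℂ) • (1 : Matrix n n ℂ) := by
    rw [← fn_one hW, ← fn_smul, fr, fr, ← fn_add]
    exact congrArg _ (funext fun i => by push_cast; ring)
  have h3 := congrArg (fun M => qf M v) h2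
  simp only [qf_add, qf_smul] at h3
  rw [h1, qf_ct_mul] at h3
  have := nsq_nonneg ((fr W fun i => Real.sqrt (b - g i)) *ᵥ v)
  linarith

omit [Nonempty Q] in
theorem F_le (hV : V0 * V0ᴴ = 1) {g : ({z // z ∈ Y} → Q) → ℝ} {b : ℝ} (hg : ∀ i, g i ≤ b) :
    Le (lift Y (fr V0 g)) b 1 := by
  rw [← fr_lift]
  exact fr_le (lift_uni hV) fun s => hg _

omit [Nonempty Q] in
theorem F_comm {N : ℕ} (g : ({z // z ∈ Y} → Q) → ℝ) (t : ℕ) :
    Commute (tens N (lift Y (fr V0 g))) (om Q Y Finset.univ t) :=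
  comm_om t fun π _ => tens_comm (Or.inl subset_rfl) (loc_lift Y _) π

/-- the main estimate for a general positive weight -/
theorem core {N t : ℕ} (ht : DD Λ Q ≤ t) (hV : V0 * V0ᴴ = 1) {ξ : (Λ → Q) → ℂ} (hξ : nsq ξ = 1)
    {l ν : ({z // z ∈ Y} → Q) → ℝ} (hl : rho Y ξ = fr V0 l) (hν : ∀ i, 0 < ν i)
    (h1 : ∑ i, (ν i)⁻¹ * l i = 1) {b : ℝ} (hb0 : 0 ≤ b) (hb : ∀ i, (ν i)⁻¹ * l i ≤ b) :
    qf (Lw Q Y Finset.univ t) (tv N ξ) ≤ N * ∑ i, Real.log (ν i) * l i +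
      Real.log (∏ m ∈ Finset.range N, ((t : ℝ) + b * m) / (m + 1)) := by
  have ht0 : 0 < t := lt_of_lt_of_le DD_pos ht
  set R := lift Y (fr V0 fun i => (Real.sqrt (ν i))⁻¹) with hR
  set M := lift Y (fr V0 fun i => (ν i)⁻¹) with hM
  have hsq : ∀ i, (Real.sqrt (ν i))⁻¹ * (Real.sqrt (ν i))⁻¹ = (ν i)⁻¹ := fun i => by
    rw [← mul_inv, Real.mul_self_sqrt (hν i).le]
  have hRct : Rᴴ = R := F_ct _
  have hRR : R * R = M := by
    rw [hR, F_mul hV, hM]
    exact congrArg _ (congrArg _ (funext hsq))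
  have hRinv : lift Y (fr V0 fun i => Real.sqrt (ν i)) * R = 1 := by
    rw [hR, F_mul hV]
    exact F_one hV fun i => mul_inv_cancel₀ (Real.sqrt_pos.2 (hν i)).ne'
  have hMpd : Pd M := by
    have := Pd.conj pd_one hRinv
    rwa [Matrix.mul_one, hRct, hRR] at this
  have hom : Pd (om Q Y (Finset.univ : Finset (Fin N)) t) := om_pd Y _ ht
  have hT : Pd (tens N M) := tens_pd hMpd
  have hc : Commute (om Q Y (Finset.univ : Finset (Fin N)) t) (tens N M) := (F_comm _ t).symm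
  have hv : nsq (tv N ξ) = 1 := by rw [nsq_tv, hξ, one_pow]
  have e1 := congrArg (fun X => qf X (tv N ξ)) (hlog_mul hom hT hc)
  simp only [qf_add] at e1
  have e2 : qf (hlog (tens N M)) (tv N ξ) = -(N * ∑ i, Real.log (ν i) * l i) := by
    rw [hlog_tens hMpd, qf_sum]
    simp only [qf_one_tv _ _ hξ]
    rw [hM, F_log hV, F_qf hV hl]
    simp [Real.log_inv, Finset.sum_neg_distrib]
  have e3 := jensen (hlog_herm (om Q Y (Finset.univ : Finset (Fin N)) t * tens N M)) hv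
  rw [hexp_log (Pd.mul hom hT hc)] at e3
  have e4 : om Q Y (Finset.univ : Finset (Fin N)) t * tens N M =
      (tens N R)ᴴ * om Q Y Finset.univ t * tens N R := by
    have hcR : tens N R * om Q Y (Finset.univ : Finset (Fin N)) t =
      om Q Y Finset.univ t * tens N R := F_comm _ t
    rw [tens_ct, hRct, hcR, ← hRR, tens_mul, Matrix.mul_assoc]
  have hχ : nsq (R *ᵥ ξ) = 1 := by
    rw [← qf_ct_mul, hRct, hRR, hM, F_qf hV hl, h1]
  have hmg : Le (mg Y (R *ᵥ ξ)) b 1 := by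
    rw [mg_mul (loc_lift Y _), mg, hl, F_ct, F_mul hV, F_mul hV]
    refine F_le hV fun i => ?_
    have : (Real.sqrt (ν i))⁻¹ * l i * (Real.sqrt (ν i))⁻¹ = (ν i)⁻¹ * l i := by
      rw [← hsq i]; ring
    rw [this]
    exact hb i
  have e5 := om_exp (N := N) Y Finset.univ ht0 (fun G' => (om_pd Y G' ht).ps) hχ hb0 hmg
  rw [Finset.card_univ, Fintype.card_fin] at e5
  have e6 : qf (om Q Y (Finset.univ : Finset (Fin N)) t * tens N M) (tv N ξ) =
      qf (om Q Y Finset.univ t) (tv N (R *ᵥ ξ)) := by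
    rw [e4, qf_conj, tens_tv]
  have hP : 0 < ∏ m ∈ Finset.range N, ((t : ℝ) + b * m) / (m + 1) := by
    refine Finset.prod_pos fun m _ => ?_
    have : (0 : ℝ) < t := by exact_mod_cast ht0
    positivity
  have e7 := (Real.le_log_iff_exp_le hP).2 (e3.trans (e6.le.trans e5))
  rw [Lw]
  linarith

end EndA

theorem Lw_hi {N t : ℕ} (ht : DD Λ Q ≤ t) (Y : Finset Λ) {ξ : (Λ → Q) → ℂ} (hξ : nsq ξ = 1)
    {η : ℝ} (hη : 0 < η) : qf (Lw Q Y Finset.univ t) (tv N ξ) ≤ -(entropy Y ξ * N) + η * N +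
      Real.log (∏ m ∈ Finset.range N, (((DD Λ Q * t : ℕ) : ℝ) + m) / (m + 1)) := by
  obtain ⟨V0, l, hV, hl, hl0, hl1, hS⟩ := ent_basis Y hξ
  have ht0 : 0 < t := lt_of_lt_of_le DD_pos ht
  have htR : (0 : ℝ) < t := by exact_mod_cast ht0
  set d : ℝ := (Fintype.card ({z // z ∈ Y} → Q) : ℝ) with hd
  have hd0 : 0 < d := by
    rw [hd]; exact_mod_cast Fintype.card_pos
  have hdD : d ≤ DD Λ Q := by
    rw [hd]; exact_mod_cast card_le_DD Y
  set c : ℝ := Real.exp η with hc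
  have hc1 : 1 < c := Real.one_lt_exp_iff.2 hη
  have hc0 : 0 < c := by linarith
  have hy : 0 < 1 - c⁻¹ := by
    have := inv_lt_one_of_one_lt₀ hc1
    linarith
  set μ : ({z // z ∈ Y} → Q) → ℝ := fun i => c⁻¹ * l i + (1 - c⁻¹) / d with hμ
  have hμ0 : ∀ i, 0 < μ i := fun i => by
    have := hl0 i
    have h2 : 0 < (1 - c⁻¹) / d := div_pos hy hd0
    have h3 : 0 ≤ c⁻¹ * l i := by positivity
    simp only [hμ]
    linarith
  have hμ1 : ∑ i, μ i = 1 := by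
    simp only [hμ]
    rw [Finset.sum_add_distrib, ← Finset.mul_sum, hl1, Finset.sum_const, Finset.card_univ,
      nsmul_eq_mul, ← hd]
    field_simp
    ring
  have hlμ : ∀ i, (μ i)⁻¹ * l i ≤ c := fun i => by
    rw [inv_mul_le_iff₀ (hμ0 i)]
    have h2 : 0 < (1 - c⁻¹) / d := div_pos hy hd0
    have h3 : μ i * c = l i + (1 - c⁻¹) / d * c := by
      simp only [hμ]
      field_simp
    rw [h3]
    have := mul_pos h2 hc0
    linarith
  set a : ℝ := ∑ i, (μ i)⁻¹ * l i with ha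
  have ha0 : 0 < a := by
    obtain ⟨i, -, hi⟩ : ∃ i ∈ Finset.univ, l i ≠ 0 :=
      Finset.exists_ne_zero_of_sum_ne_zero (by rw [hl1]; exact one_ne_zero)
    refine Finset.sum_pos' (fun j _ => mul_nonneg (inv_pos.2 (hμ0 j)).le (hl0 j)) ⟨i, Finset.mem_univ _, ?_⟩
    exact mul_pos (inv_pos.2 (hμ0 i)) (lt_of_le_of_ne (hl0 i) (Ne.symm hi))
  have hac : a ≤ d * c := by
    have := Finset.sum_le_card_nsmul Finset.univ (fun i => (μ i)⁻¹ * l i) c fun i _ => hlμ i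
    rwa [Finset.card_univ, nsmul_eq_mul] at this
  have hcore := EndA.core (N := N) ht hV hξ (ν := fun i => a * μ i) hl
    (fun i => mul_pos ha0 (hμ0 i))
    (by
      simp only [mul_inv, mul_assoc]
      rw [← Finset.mul_sum, ← ha, inv_mul_cancel₀ ha0.ne'])
    (b := a⁻¹ * c) (by positivity)
    (fun i => by
      rw [mul_inv, mul_assoc]
      exact mul_le_mul_of_nonneg_left (hlμ i) (inv_pos.2 ha0).le)
  have h1 : ∑ i, Real.log (a * μ i) * l i ≤ Real.log a - entropy Y ξ := by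
    have h2 : ∀ i, Real.log (a * μ i) * l i ≤
        Real.log a * l i - Real.negMulLog (l i) + (μ i - l i) := fun i => by
      have := bip_log (hl0 i) (hμ0 i)
      rw [Real.log_mul ha0.ne' (hμ0 i).ne']
      linarith
    refine (Finset.sum_le_sum fun i _ => h2 i).trans (le_of_eq ?_)
    rw [Finset.sum_add_distrib, Finset.sum_sub_distrib, Finset.sum_sub_distrib, ← Finset.mul_sum,
      hl1, hμ1, hS]
    ring
  have hP1 : 0 < ∏ m ∈ Finset.range N, ((t : ℝ) + a⁻¹ * c * m) / (m + 1) :=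
    Finset.prod_pos fun m _ => by positivity
  have hD : (0 : ℝ) < ((DD Λ Q * t : ℕ) : ℝ) := by
    exact_mod_cast Nat.mul_pos DD_pos ht0
  have hP2 : 0 < ∏ m ∈ Finset.range N, (((DD Λ Q * t : ℕ) : ℝ) + m) / (m + 1) :=
    Finset.prod_pos fun m _ => by positivity
  have h3 : a ^ N * ∏ m ∈ Finset.range N, ((t : ℝ) + a⁻¹ * c * m) / (m + 1) ≤
      c ^ N * ∏ m ∈ Finset.range N, (((DD Λ Q * t : ℕ) : ℝ) + m) / (m + 1) := by
    rw [← Finset.card_range N, ← Finset.prod_const, ← Finset.prod_const, Finset.card_range,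
      ← Finset.prod_mul_distrib, ← Finset.prod_mul_distrib]
    refine Finset.prod_le_prod (fun m _ => by positivity) fun m _ => ?_
    rw [← mul_div_assoc, ← mul_div_assoc]
    refine div_le_div_of_nonneg_right ?_ (by positivity)
    have h4 : a * ((t : ℝ) + a⁻¹ * c * m) = a * t + c * m := by field_simp
    have h5 : a * t ≤ DD Λ Q * c * t :=
      mul_le_mul_of_nonneg_right (hac.trans (mul_le_mul_of_nonneg_right hdD hc0.le)) htR.le
    rw [h4]
    push_cast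
    linarith
  have h6 := Real.log_le_log (by positivity) h3
  rw [Real.log_mul (by positivity) hP1.ne', Real.log_mul (by positivity) hP2.ne', Real.log_pow,
    Real.log_pow, hc, Real.log_exp] at h6
  have h7 := mul_le_mul_of_nonneg_left h1 (Nat.cast_nonneg (α := ℝ) N)
  linarith

theorem finish (Λ Q : Type) [Fintype Λ] [DecidableEq Λ] [Fintype Q] [DecidableEq Q] [Nonempty Q]
    (η : ℝ) (hη : 0 < η) : ∀ᶠ δ in nhdsWithin (0 : ℝ) (Set.Ioi 0), ∀ᶠ N : ℕ in atTop,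
      ∀ (θ : ℝ) (n : ℕ) (k : ℕ → Cfg Λ) (ξ : (Λ → Q) → ℂ), 0 ≤ θ →
        (∀ j, j < n → Disjoint (k j).1 (k j).2) → (∀ i j, i < j → j < n → (k i).2ᶜ ⊆ (k j).1) →
        nsq ξ = 1 → Real.exp (2 * θ * (∑ j ∈ Finset.range n, (entropy (k j).1 ξ +
            entropy (k j).2ᶜ ξ - entropy ((k j).1 ∪ (k j).2)ᶜ ξ - η)) * N) ≤
          qf (pr (fun j => Mb Q θ (t0 δ N) fun _ : Fin N => k j) n) (tv N ξ) := by
  have hη4 : 0 < η / 4 := by positivity
  filter_upwards [prod_small (DD Λ Q * DD Λ Q) (η / 4) hη4, self_mem_nhdsWithin] with δ hδ hδ0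
  have hδ0' : 0 < δ := hδ0
  have hev : ∀ᶠ N : ℕ in atTop, (DD Λ Q : ℝ) ≤ δ * N :=
    (tendsto_natCast_atTop_atTop.const_mul_atTop hδ0').eventually_ge_atTop _
  filter_upwards [hδ, hev] with N hN hN2 θ n k ξ hθ hd hk hξ
  set t := t0 δ N with htdef
  have ht : DD Λ Q ≤ t := by
    have h := hN2.trans (Nat.le_ceil (δ * N))
    exact_mod_cast h
  have ht0 : 0 < t := lt_of_lt_of_le DD_pos ht
  have ht2 : DD Λ Q ≤ DD Λ Q * t := Nat.le_mul_of_pos_right _ ht0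
  have hv : nsq (tv N ξ) = 1 := by rw [nsq_tv, hξ, one_pow]
  have e1 : qf (pr (fun j => Mb Q θ t fun _ : Fin N => k j) n) (tv N ξ) =
      qf (hexp (((2 * θ : ℝ) : ℂ) • ∑ j ∈ Finset.range n, Lc Q t (k j) Finset.univ)) (tv N ξ) := by
    rw [qf, qf, ip, ip, Mb_const k n ht0 hd hk (sy_tv _ ξ)]
  have hH : (((2 * θ : ℝ) : ℂ) • ∑ j ∈ Finset.range n,
      Lc Q t (k j) (Finset.univ : Finset (Fin N))).IsHermitian := by
    unfold Matrix.IsHermitian
    rw [conjTranspose_smul, conjTranspose_sum]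
    have : ∀ j ∈ Finset.range n, (Lc Q t (k j) (Finset.univ : Finset (Fin N)))ᴴ =
        Lc Q t (k j) Finset.univ := fun j _ => Lc_herm _ _
    rw [Finset.sum_congr rfl this, Complex.star_def, Complex.conj_ofReal]
  rw [e1]
  refine le_trans (Real.exp_le_exp.2 ?_) (jensen hH hv)
  rw [qf_smul, qf_sum, mul_assoc (2 * θ), Finset.sum_mul]
  refine mul_le_mul_of_nonneg_left (Finset.sum_le_sum fun j _ => ?_) (by positivity)
  have hP : 0 < ∏ m ∈ Finset.range N, (((DD Λ Q * (DD Λ Q * t) : ℕ) : ℝ) + m) / (m + 1) := by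
    have hD : (0 : ℝ) < ((DD Λ Q * (DD Λ Q * t) : ℕ) : ℝ) := by
      exact_mod_cast Nat.mul_pos DD_pos (Nat.mul_pos DD_pos ht0)
    exact Finset.prod_pos fun m _ => by positivity
  rw [Nat.mul_assoc] at hN
  have hlog := (Real.log_le_iff_le_exp hP).2 hN
  have a1 := Lw_lo (N := N) ht ((k j).1 ∪ (k j).2)ᶜ hξ
  have a2 := Lw_hi (N := N) ht2 (k j).1 hξ hη4
  have a3 := Lw_hi (N := N) ht2 (k j).2ᶜ hξ hη4
  rw [Lc, qf_sub, qf_sub]
  linarith

end Vale.Agent.P356G
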