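import Vale.Agent.P356G.Typ0

/- Typical projectors. `typ1`: `rho Y Ω = fr V l` (`ent_basis`), `k = fr V (indicator of exp (-K (S + 1)) ≤ l i)`;
Markov: the other eigenvalues have `l i * K (S + 1) ≤ negMulLog (l i)`; the rank is at most
`exp (K (S + 1))` since `∑ l = 1`. `typ_rank`: `k = ∑ i ∈ typical, e i` with rank one projectors `e i`,
`∑ qf (lift (e i)) w = qf (lift k) w`, pick the largest.
`typ`: `X = slab 0 h0`, `R i` the slabs, `K i = lift (typ1 (R i) (16 n))`, `K' = pr K (4 n)`, commuting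
projectors (`Loc.comm`), union bound `nsq (K' Ω) ≥ 3/4`, `qf (lift kX) (K' Ω) ≥ 1/2`, `P = lift e * K'`.
`Spl`: a union of slabs `Y`; the product of the factors inside `Y` is local on `Y` (`Loc.exists_lift`), a
projector, and `spl_union` multiplies the traces. -/

namespace Vale.Agent.P356G

open Matrix Vale.Agent.P356

variable {Λ Q : Type} [Fintype Λ] [DecidableEq Λ] [Fintype Q] [DecidableEq Q] [Nonempty Q]

namespace TypA

/-- a local projector of bounded rank -/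
def LP (Y : Finset Λ) (r : ℝ) (M : Matrix (Λ → Q) (Λ → Q) ℂ) : Prop :=
  ∃ k : Matrix ({z // z ∈ Y} → Q) ({z // z ∈ Y} → Q) ℂ,
    Prj k ∧ (trace k).re ≤ Real.exp r ∧ M = lift Y k

variable {Y Y' : Finset Λ} {r r' : ℝ} {M M' : Matrix (Λ → Q) (Λ → Q) ℂ}

omit [Nonempty Q] in
theorem LP.prj (h : LP Y r M) : Prj M := by
  obtain ⟨k, hk, -, rfl⟩ := h
  exact ⟨by rw [IsHermitian, ← lift_ct, hk.1.eq], by rw [← lift_mul, hk.2]⟩

omit [Nonempty Q] in
theorem LP.loc (h : LP Y r M) : Loc (fun z => z ∈ Y) M := by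
  obtain ⟨k, -, -, rfl⟩ := h
  exact loc_lift Y k

theorem tr_prj {n : Type} [Fintype n] [DecidableEq n] {k : Matrix n n ℂ} (hk : Prj k) :
    0 ≤ (trace k).re ∧ (trace k).im = 0 := by
  constructor
  · have h1 : Ps k := ⟨hk.1, fun v => by rw [hk.qf]; exact nsq_nonneg _⟩
    have := h1.trace_mul pd_one.ps
    rwa [mul_one] at this
  · have h1 := trace_conjTranspose k
    rw [hk.1.eq] at h1
    exact Complex.conj_eq_iff_im.1 h1.symm

theorem LP.union (h : LP Y r M) (h' : LP Y' r' M') (hd : Disjoint Y Y') :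
    LP (Y ∪ Y') (r + r') (M * M') := by
  obtain ⟨k, hk, ht, rfl⟩ := h
  obtain ⟨k', hk', ht', rfl⟩ := h'
  obtain ⟨k2, h1, h2, h3⟩ := spl_union hd k k' hk hk'
  refine ⟨k2, h1, ?_, h3.symm⟩
  rw [h2, Complex.mul_re, (tr_prj hk).2, zero_mul, sub_zero, Real.exp_add]
  exact mul_le_mul ht ht' (tr_prj hk').1 (Real.exp_pos _).le

omit [Nonempty Q] in
theorem lp_empty : LP (∅ : Finset Λ) 0 (1 : Matrix (Λ → Q) (Λ → Q) ℂ) :=
  ⟨1, ⟨isHermitian_one, mul_one _⟩, by simp, (lift_one _).symm⟩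

omit [Nonempty Q] in
theorem LP.spl (h : LP Y r M) (hr : r ≤ r') (h' : Loc (fun z => z ∉ Y) M') :
    Spl (M * M') Y r' := by
  obtain ⟨k, hk, ht, rfl⟩ := h
  exact ⟨k, M', hk, ht.trans (Real.exp_le_exp.2 hr), h', rfl⟩

omit [DecidableEq Λ] in
theorem mem_slab {ht : Λ → ℕ} {a b : ℕ} {z : Λ} : z ∈ slab ht a b ↔ a ≤ ht z ∧ ht z < b := by
  simp [slab]

theorem LP.comm {ht : Λ → ℕ} {a b c d : ℕ} (h : LP (slab ht a b) r M) (h' : LP (slab ht c d) r' M')
    (hbc : b ≤ c) : Commute M M' :=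
  h.loc.comm h'.loc fun z h1 h2 => by
    rw [mem_slab] at h1 h2
    omega

theorem LP.cat {ht : Λ → ℕ} {a b c : ℕ} (h : LP (slab ht a b) r M) (h' : LP (slab ht b c) r' M')
    (hab : a ≤ b) (hbc : b ≤ c) : LP (slab ht a c) (r + r') (M * M') := by
  rw [(slab_split ht hab hbc).1]
  exact h.union h' (slab_split ht hab hbc).2

theorem lp_seg {ht : Λ → ℕ} {h0 V : ℕ} {K : ℕ → Matrix (Λ → Q) (Λ → Q) ℂ} {ρ : ℕ → ℝ}
    (hK : ∀ x, LP (slab ht (h0 + x * V) (h0 + (x + 1) * V)) (ρ x) (K x)) (a m : ℕ) :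
    LP (slab ht (h0 + a * V) (h0 + (a + m) * V)) (∑ x ∈ Finset.Ico a (a + m), ρ x)
      (seg K a m) := by
  induction m with
  | zero =>
    have : slab ht (h0 + a * V) (h0 + (a + 0) * V) = ∅ := by
      ext z
      rw [mem_slab]
      simp
    rw [this, add_zero, Finset.Ico_self, Finset.sum_empty]
    exact lp_empty
  | succ m ih =>
    rw [← add_assoc, Finset.sum_Ico_succ_top (Nat.le_add_right a m), seg,
      ← (ih.comm (hK (a + m)) le_rfl).eq]
    exact ih.cat (hK (a + m)) (by gcongr; omega)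
      (Nat.add_le_add_left (Nat.mul_le_mul_right V (Nat.le_succ _)) h0)

theorem qf_union {n : Type} [Fintype n] [DecidableEq n] {A B : Matrix n n ℂ} (hA : Prj A)
    (hB : Prj B) (hc : Commute A B) (v : n → ℂ) : qf A v + qf B v - nsq v ≤ qf (A * B) v := by
  have h1 : Prj ((1 - A) * (1 - B)) := hA.compl.mul hB.compl
    ((Commute.one_left _).sub_left ((Commute.one_right _).sub_right hc))
  have h2 : 0 ≤ qf ((1 - A) * (1 - B)) v := by
    rw [h1.qf]
    exact nsq_nonneg _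
  have h3 : (1 - A) * (1 - B) = 1 - A - B + A * B := by noncomm_ring
  rw [h3, qf_add, qf_sub, qf_sub, qf_one] at h2
  linarith

end TypA

open TypA in
theorem typ (ht : Λ → ℕ) (h0 V n : ℕ) (hn : 0 < n) {Ω : (Λ → Q) → ℂ} (hΩ : nsq Ω = 1) :
    ∃ P : Matrix (Λ → Q) (Λ → Q) ℂ, Prj P ∧
      Real.exp (-(4 * (entropy (slab ht 0 h0) Ω + 1))) / 2 ≤ nsq (P *ᵥ Ω) ∧
      ∀ i j, i ≤ j → j ≤ 4 * n →
        Spl P (slab ht 0 (h0 + j * V)) (16 * n * ∑ x ∈ Finset.range (4 * n),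
          (entropy (slab ht (h0 + x * V) (h0 + (x + 1) * V)) Ω + 1)) ∧
        Spl P (slab ht (h0 + i * V) (h0 + j * V)) (16 * n * ∑ x ∈ Finset.range (4 * n),
          (entropy (slab ht (h0 + x * V) (h0 + (x + 1) * V)) Ω + 1)) := by
  have hn' : (0 : ℝ) < 16 * n := by positivity
  choose k hk1 hk2 hk3 using fun x : ℕ =>
    typ1 (slab ht (h0 + x * V) (h0 + (x + 1) * V)) hΩ hn'
  obtain ⟨kX, hX1, hX2, hX3⟩ := typ1 (slab ht 0 h0) hΩ (K := 4) (by norm_num)
  set ρ : ℕ → ℝ := fun x =>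
    16 * n * (entropy (slab ht (h0 + x * V) (h0 + (x + 1) * V)) Ω + 1) with hρ
  set K : ℕ → Matrix (Λ → Q) (Λ → Q) ℂ := fun x => lift _ (k x) with hKd
  have hK : ∀ x, LP (slab ht (h0 + x * V) (h0 + (x + 1) * V)) (ρ x) (K x) := fun x =>
    ⟨k x, hk1 x, hk2 x, rfl⟩
  have hS := lp_seg hK
  have hq : ∀ m : ℕ, 1 - m / (16 * n : ℝ) ≤ qf (seg K 0 m) Ω := by
    intro m
    induction m with
    | zero => simp [seg, qf_one, hΩ]
    | succ m ih =>
      have h1 := qf_union (hK (0 + m)).prj (hS 0 m).prj ((hS 0 m).comm (hK (0 + m)) le_rfl).symm Ω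
      have h2 : 1 - 1 / (16 * n : ℝ) ≤ qf (K (0 + m)) Ω := hk3 (0 + m)
      rw [seg, Nat.cast_succ, add_div]
      linarith
  have hLX : LP (slab ht 0 h0) _ (lift _ kX) := ⟨kX, hX1, hX2, rfl⟩
  have hcX := hLX.comm (hS 0 (4 * n)) (by omega)
  obtain ⟨e, he1, he2, he3⟩ := typ_rank (slab ht 0 h0) hX1 (seg K 0 (4 * n) *ᵥ Ω)
  have hE : LP (slab ht 0 (h0 + 0 * V)) 0 (lift (slab ht 0 h0) e) := by
    rw [zero_mul, add_zero]
    exact ⟨e, he1, by simpa using he2, rfl⟩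
  have hρ0 : ∀ x, 0 ≤ ρ x := fun x =>
    mul_nonneg hn'.le (add_nonneg (ent_nonneg _ hΩ) zero_le_one)
  have hsum : ∀ a b, b ≤ 4 * n → ∑ x ∈ Finset.Ico a b, ρ x ≤ 16 * n * ∑ x ∈ Finset.range (4 * n),
      (entropy (slab ht (h0 + x * V) (h0 + (x + 1) * V)) Ω + 1) := by
    intro a b hb
    rw [Finset.mul_sum]
    refine Finset.sum_le_sum_of_subset_of_nonneg (fun x hx => ?_) fun x _ _ => hρ0 x
    rw [Finset.mem_Ico] at hx
    rw [Finset.mem_range]
    omega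
  refine ⟨lift _ e * seg K 0 (4 * n), hE.prj.mul (hS 0 _).prj (hE.comm (hS 0 _) le_rfl), ?_,
    fun i j hij hj => ?_⟩
  · have h1 := qf_union hLX.prj (hS 0 (4 * n)).prj hcX Ω
    have h2 := hq (4 * n)
    have h3 : ((4 * n : ℕ) : ℝ) / (16 * n) = 1 / 4 := by
      push_cast
      field_simp
      norm_num
    have h4 : qf (lift _ kX * seg K 0 (4 * n)) Ω = qf (lift _ kX) (seg K 0 (4 * n) *ᵥ Ω) := by
      rw [← qf_conj, (hS 0 _).prj.1.eq, ← hcX.eq, mul_assoc, (hS 0 _).prj.2]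
    rw [hE.prj.qf, mulVec_mulVec] at he3
    have h5 := mul_le_mul_of_nonneg_right hX2
      (nsq_nonneg ((lift (slab ht 0 h0) e * seg K 0 (4 * n)) *ᵥ Ω))
    rw [Real.exp_neg, div_le_iff₀ two_pos, inv_le_iff_one_le_mul₀ (Real.exp_pos _)]
    linarith
  · obtain ⟨m, rfl⟩ := Nat.exists_eq_add_of_le hij
    obtain ⟨l, hl⟩ := Nat.exists_eq_add_of_le hj
    have hA := hE.cat (hS 0 i) (Nat.zero_le _) (by gcongr; omega)
    have hB := hS i m
    have hC := hS (i + m) l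
    have hm : i * V ≤ (i + m) * V := Nat.mul_le_mul_right V hij
    rw [zero_add, zero_add] at hA
    have e1 : lift (slab ht 0 h0) e * seg K 0 (4 * n) =
        lift (slab ht 0 h0) e * seg K 0 i * seg K i m * seg K (i + m) l := by
      have hA0 := hS 0 i
      rw [zero_add] at hA0
      rw [hl, seg_add, seg_add, zero_add, zero_add, ← (hA0.comm hB le_rfl).eq,
        ← ((hA0.cat hB (by gcongr; omega) (by omega)).comm hC le_rfl).eq]
      simp only [mul_assoc]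
    constructor
    · rw [e1]
      refine (hA.cat hB (Nat.zero_le _) (by omega)).spl ?_ (hC.loc.mono fun z h1 h2 => ?_)
      · rw [Finset.sum_Ico_consecutive _ (Nat.zero_le i) hij]
        exact hsum _ _ hj
      · rw [mem_slab] at h1 h2
        omega
    · rw [e1, (hA.comm hB le_rfl).eq, mul_assoc]
      refine hB.spl (hsum _ _ hj) ((hA.loc.mono fun z h1 h2 => ?_).mul
        (hC.loc.mono fun z h1 h2 => ?_))
      · rw [mem_slab] at h1 h2
        omega
      · rw [mem_slab] at h1 h2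
        omega

end Vale.Agent.P356G
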