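import Vale.Agent.P356G.FlowR
import Vale.Agent.P356G.End
import Vale.Agent.P356G.Typ

/- The core inequality with explicit parameters. `S` = entropy of `X = slab 0 h0`, `Σ` the sum on the
right, `θ = 2 / n`. `P` from `typ`, `ζ = P Ω`, `pp = nsq ζ = <Ω, ζ> ≥ exp (-4 (S + 1)) / 2`.
`flow1` with `y = exp (-β Δ)`: `ξ = sweep ^ k ζ = c pp Ω + r`, `nr r ≤ 2 exp (-β Δ)`, so with
`ϑ = 4 exp (-β Δ) / (c pp)` (at most `1 / (4 Lq)` by `hβ`) the unit vector `ξ' = ξ / nr ξ` has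
`nr (ξ' - Ω) ≤ ϑ`, `nr ξ ≥ c pp / 2`; `ent_cont` changes each entropy by at most `2`.
Pick `δ`, `N ≥ 1`, `m` from the eventual statements `flowR`, `start`, `finish` (`η = 1`), `Eventually.exists`
after `and`; `k ε = β` for `k = Ep 2 ^ (m - m0)`, `m ≥ m0`. The sets: `(flat a b).1 = slab 0 a`,
`(flat a b).2ᶜ = slab 0 b`, `((flat a b).1 ∪ (flat a b).2)ᶜ = slab a b`. `ent_diff`, `ent_slab`:
each bracket in `finish` is at least `2 S - 3 Σ - 7`. Taking logarithms and dividing by `N`: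
`2 log (c pp / 2) + 4 (2 S - 3 Σ - 7) ≤ 2 n + 4 (32 n Σ + 1) + log pp`; `Σ ≥ 4 n`. -/

namespace Vale.Agent.P356G

open Matrix Vale.Agent.P356 Filter

namespace CoreAA

theorem nsq_eq {n : Type} [Fintype n] {v : n → ℂ} (h : nr v = 1) : nsq v = 1 := by
  rw [← nr_sq, h, one_pow]

/-- normalising a vector close to a multiple of a unit vector -/
theorem near {n : Type} [Fintype n] {ξ Ω : n → ℂ} (hΩ : nsq Ω = 1) {x ρ : ℝ} (hx : 0 < x)
    (hρ : 2 * ρ ≤ x) (h : nr (ξ - (x : ℂ) • Ω) ≤ ρ) : ∃ (u : ℝ) (ξ' : n → ℂ), x / 2 ≤ u ∧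
      ξ = (u : ℂ) • ξ' ∧ nsq ξ' = 1 ∧ nr (ξ' - (1 : ℂ) • Ω) ≤ 4 * ρ / x := by
  have h1 : nr Ω = 1 := by rw [nr, hΩ, Real.sqrt_one]
  have hs (y : ℝ) : nr ((y : ℂ) • Ω) = |y| := by
    rw [nr_smul, h1, mul_one, Complex.norm_real, Real.norm_eq_abs]
  have h2 := nr_add (ξ - (x : ℂ) • Ω) ((x : ℂ) • Ω)
  have h3 := nr_sub ξ (ξ - (x : ℂ) • Ω)
  rw [sub_add_cancel, hs, abs_of_pos hx] at h2
  rw [sub_sub_cancel, hs, abs_of_pos hx] at h3
  have hu : x / 2 ≤ nr ξ := by linarith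
  have hu0 : 0 < nr ξ := by linarith
  have hc : ((nr ξ : ℝ) : ℂ) ≠ 0 := Complex.ofReal_ne_zero.2 hu0.ne'
  have hi (v : n → ℂ) : nr (((nr ξ : ℝ) : ℂ)⁻¹ • v) = nr v / nr ξ := by
    rw [nr_smul, norm_inv, Complex.norm_real, Real.norm_of_nonneg hu0.le, div_eq_inv_mul]
  refine ⟨nr ξ, ((nr ξ : ℝ) : ℂ)⁻¹ • ξ, hu, (smul_inv_smul₀ hc ξ).symm,
    nsq_eq (by rw [hi, div_self hu0.ne']), ?_⟩
  have h4 : ((nr ξ : ℝ) : ℂ)⁻¹ • ξ - (1 : ℂ) • Ω =
      ((nr ξ : ℝ) : ℂ)⁻¹ • (ξ - (x : ℂ) • Ω + ((x - nr ξ : ℝ) : ℂ) • Ω) := by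
    rw [Complex.ofReal_sub, sub_smul, sub_add_sub_cancel, smul_sub, inv_smul_smul₀ hc, one_smul]
  have h5 := nr_add (ξ - (x : ℂ) • Ω) (((x - nr ξ : ℝ) : ℂ) • Ω)
  have h6 : |x - nr ξ| ≤ ρ := abs_le.2 ⟨by linarith, by linarith⟩
  have h7 : 0 ≤ ρ := (abs_nonneg _).trans h6
  rw [hs] at h5
  rw [h4, hi, div_le_div_iff₀ hu0 hx]
  nlinarith [mul_le_mul_of_nonneg_left hu h7]

theorem exp_ge : (8 : ℝ) ≤ Real.exp 3 ∧ (64 : ℝ) ≤ Real.exp 6 := by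
  have h : (2 : ℝ) ≤ Real.exp 1 := by linarith [Real.add_one_le_exp 1]
  have h3 := pow_le_pow_left₀ two_pos.le h 3
  have h6 := pow_le_pow_left₀ two_pos.le h 6
  rw [← Real.exp_nat_mul] at h3 h6
  norm_num at h3 h6
  exact ⟨h3, h6⟩

theorem small {S c pp Lq B : ℝ} (hc : Real.exp (-2) ≤ c) (hp : Real.exp (-(4 * (S + 1))) / 2 ≤ pp)
    (hL : 1 ≤ Lq) (hB : 4 * S + 12 + Real.log Lq ≤ B) :
    16 * Lq * (2 * Real.exp (-B)) ≤ c * pp := by
  have h1 : Lq * Real.exp (-B) ≤ Real.exp (-(4 * S + 12)) := by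
    rw [← Real.exp_log (show 0 < Lq by linarith), ← Real.exp_add, Real.exp_le_exp]
    linarith
  have h2 : Real.exp (-2) * (Real.exp (-(4 * (S + 1))) / 2) ≤ c * pp :=
    mul_le_mul hc hp (by positivity) ((Real.exp_pos _).le.trans hc)
  have h3 : Real.exp (-2) * Real.exp (-(4 * (S + 1))) =
      Real.exp 6 * Real.exp (-(4 * S + 12)) := by
    rw [← Real.exp_add, ← Real.exp_add]
    ring_nf
  nlinarith [mul_le_mul_of_nonneg_right exp_ge.2 (Real.exp_pos (-(4 * S + 12))).le]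

theorem root {u pp A B C : ℝ} {N : ℕ} (hN : 0 < N) (hp : 0 ≤ pp)
    (h : (u ^ N) ^ 2 * Real.exp (A * N) ≤ Real.exp (B * N) * (Real.exp (C * N) * pp ^ N)) :
    u ^ 2 * Real.exp A ≤ Real.exp (B + C) * pp := by
  refine le_of_pow_le_pow_left₀ hN.ne' (by positivity) ?_
  rw [mul_pow, mul_pow, ← Real.exp_nat_mul, ← Real.exp_nat_mul, ← pow_mul, mul_comm 2, pow_mul,
    mul_add, Real.exp_add, mul_assoc, mul_comm (N : ℝ), mul_comm (N : ℝ), mul_comm (N : ℝ)]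
  exact h

theorem fin {S Sg c pp u n A : ℝ} (hc : Real.exp (-2) ≤ c)
    (hp : Real.exp (-(4 * (S + 1))) / 2 ≤ pp) (hu : c * pp / 2 ≤ u) (hn : 32 ≤ n)
    (hS : 4 * n ≤ Sg) (hA : 4 * (2 * S - 3 * Sg - 7) ≤ A)
    (h : u ^ 2 * Real.exp A ≤ Real.exp (2 * n + 4 * (2 * (16 * n * Sg) + 1)) * pp) :
    S ≤ 50 * n * Sg := by
  have hc0 : 0 < c := (Real.exp_pos _).trans_le hc
  have hp0 : 0 < pp := lt_of_lt_of_le (by positivity) hp
  have h1 : (c * pp / 2) ^ 2 * Real.exp A ≤ u ^ 2 * Real.exp A :=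
    mul_le_mul_of_nonneg_right (pow_le_pow_left₀ (by positivity) hu 2) (Real.exp_pos _).le
  have h2 : c ^ 2 * (pp / 4) * Real.exp A ≤ Real.exp (2 * n + 4 * (2 * (16 * n * Sg) + 1)) := by
    refine le_of_mul_le_mul_right (le_trans (le_of_eq ?_) (h1.trans h)) hp0
    ring
  have h3 : Real.exp (-2) ^ 2 * (Real.exp (-(4 * (S + 1))) * Real.exp (-3)) * Real.exp A ≤
      c ^ 2 * (pp / 4) * Real.exp A := by
    have h4 : Real.exp (-3) ≤ 1 / 8 := by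
      rw [Real.exp_neg, ← one_div]
      exact one_div_le_one_div_of_le (by norm_num) exp_ge.1
    have h5 := mul_le_mul_of_nonneg_left h4 (Real.exp_pos (-(4 * (S + 1)))).le
    gcongr
    linarith
  have h6 := h3.trans h2
  rw [sq, ← Real.exp_add, ← Real.exp_add, ← Real.exp_add, ← Real.exp_add, Real.exp_le_exp] at h6
  nlinarith [mul_le_mul_of_nonneg_right hn (show 0 ≤ Sg by linarith)]

variable {Λ Q : Type} [Fintype Λ] [DecidableEq Λ]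

theorem sets (ht : Λ → ℕ) (a b : ℕ) : (flat ht a b).1 = slab ht 0 a ∧
    (flat ht a b).2ᶜ = slab ht 0 b ∧ ((flat ht a b).1 ∪ (flat ht a b).2)ᶜ = slab ht a b := by
  refine ⟨?_, ?_, ?_⟩ <;> ext z <;> simp [flat, slab]

theorem disj (ht : Λ → ℕ) {a b : ℕ} (h : a ≤ b) : Disjoint (flat ht a b).1 (flat ht a b).2 := by
  rw [Finset.disjoint_left]
  intro z h1 h2
  simp only [flat, Finset.mem_filter] at h1 h2
  omega

theorem nest (ht : Λ → ℕ) {a b a' b' : ℕ} (h : b ≤ a') :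
    (flat ht a b).2ᶜ ⊆ (flat ht a' b').1 := by
  intro z h1
  simp only [flat, Finset.mem_compl, Finset.mem_filter, Finset.mem_univ, true_and] at h1 ⊢
  omega

variable [Fintype Q] [DecidableEq Q] [Nonempty Q]

theorem cont (ht : Λ → ℕ) {a b T : ℕ} (hb : b ≤ T) {u v : (Λ → Q) → ℂ} (hu : nsq u = 1)
    (hv : nsq v = 1) {ϑ Lq : ℝ} (h : nr (u - (1 : ℂ) • v) ≤ ϑ) (hϑ : 4 * Lq * ϑ ≤ 1)
    (hL : Real.log (2 * (Fintype.card Q : ℝ) ^ (slab ht 0 T).card) ≤ Lq) :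
    |entropy (slab ht a b) u - entropy (slab ht a b) v| ≤ 2 := by
  refine (ent_cont _ hu hv norm_one h).trans ?_
  have hq : (1 : ℝ) ≤ Fintype.card Q := Nat.one_le_cast.2 Fintype.card_pos
  have h1 : (slab ht a b).card ≤ (slab ht 0 T).card := Finset.card_le_card fun z hz => by
    simp only [slab, Finset.mem_filter, Finset.mem_univ, true_and] at hz ⊢
    omega
  have h2 : Real.log (2 * (Fintype.card Q : ℝ) ^ (slab ht a b).card) ≤ Lq :=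
    le_trans (Real.log_le_log (by positivity) (by gcongr)) hL
  have h3 := mul_le_mul_of_nonneg_left h2 ((nr_nonneg _).trans h)
  have h4 := Real.log_le_sub_one_of_pos (two_pos (α := ℝ))
  linarith

theorem low (ht : Λ → ℕ) (h0 V : ℕ) {j m : ℕ} (hj : j ≤ m) {Ω : (Λ → Q) → ℂ} (hΩ : nsq Ω = 1) :
    entropy (slab ht 0 h0) Ω ≤ entropy (slab ht 0 (h0 + j * V)) Ω +
      ∑ x ∈ Finset.range m, entropy (slab ht (h0 + x * V) (h0 + (x + 1) * V)) Ω := by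
  obtain ⟨h1, h2⟩ := slab_split ht (Nat.zero_le h0) (Nat.le_add_right h0 (j * V))
  have h3 := ent_diff h2 hΩ
  have h4 := ent_slab ht h0 V 0 j m (Nat.zero_le _) hj hΩ
  rw [zero_mul, add_zero] at h4
  rw [h1]
  linarith

end CoreAA

theorem coreA (Λ Q ι : Type) [Fintype Λ] [DecidableEq Λ] [Fintype Q] [DecidableEq Q] [Nonempty Q]
    [Fintype ι] [DecidableEq ι] [Nonempty ι] (h : ι → Matrix (Λ → Q) (Λ → Q) ℂ) (Z : ι → Finset Λ)
    (I : Finset ι) (ht : Λ → ℕ) (h0 V n : ℕ) (ε0 J E Δ β Lq : ℝ) (s1 s2 l1 Jd p m0 Ep : ℕ)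
    (Ω : (Λ → Q) → ℂ) (hT : Terms h Z I ht (h0 + 4 * n * V) l1 s1 s2 J)
    (hG : GS (∑ i, h i) Ω E Δ) (hΔ : 0 < Δ) (hn : 32 ≤ n) (hε : 0 < ε0) (hε1 : ε0 ≤ 1) (hJ : 0 < J)
    (hl : 0 < l1) (hJd : 1 ≤ Jd) (hEp : 0 < Ep)
    (hlog : 8 * Real.log ((3 * (Fintype.card Q : ℝ) ^ s1 + 2) / ε0) ≤ n)
    (hm0 : 2 * s2 * (1 + 2 * s1) ≤ 2 ^ m0) (herr : Ep * I.card * (ε0 + 6 * s1 / 2 ^ Jd) ≤ 1)
    (hV : 2 ^ p + Ep * ((Jd + 1) * l1) ≤ V)
    (hβ0 : β = Ep / (2 ^ m0 * (500 * J * (2 * ((Jd + 2) * l1) / 2 ^ p)))) (hE : β * E ≤ 1)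
    (hLq : Real.log (2 * (Fintype.card Q : ℝ) ^ (slab ht 0 (h0 + 4 * n * V)).card) ≤ Lq)
    (hLq1 : 1 ≤ Lq) (hβ : 4 * entropy (slab ht 0 h0) Ω + 12 + Real.log Lq ≤ β * Δ) :
    entropy (slab ht 0 h0) Ω ≤ 50 * n * ∑ i ∈ Finset.range (4 * n),
      (entropy (slab ht (h0 + i * V) (h0 + (i + 1) * V)) Ω + 1) := by
  have hΩ := hG.1
  have hn0 : 0 < n := by omega
  have hnR : (32 : ℝ) ≤ n := by exact_mod_cast hn
  have hθ : (0 : ℝ) < 2 / n := by positivity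
  have hθn : 2 * (2 / n : ℝ) * n = 4 := by field_simp; norm_num
  obtain ⟨P, hP, hpp, hspl⟩ := typ ht h0 V n hn0 hΩ
  set Sg := ∑ i ∈ Finset.range (4 * n),
    (entropy (slab ht (h0 + i * V) (h0 + (i + 1) * V)) Ω + 1) with hSg
  have hsum : Sg = ∑ i ∈ Finset.range (4 * n),
      entropy (slab ht (h0 + i * V) (h0 + (i + 1) * V)) Ω + 4 * n := by
    simp [hSg, Finset.sum_add_distrib]
  have hs0 : 0 ≤ ∑ i ∈ Finset.range (4 * n),
      entropy (slab ht (h0 + i * V) (h0 + (i + 1) * V)) Ω :=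
    Finset.sum_nonneg fun _ _ => ent_nonneg _ hΩ
  have hA : (0 : ℝ) < 500 * J * (2 * ((Jd + 2) * l1) / 2 ^ p) := by positivity
  have hβp : 0 ≤ β := by rw [hβ0]; positivity
  obtain ⟨ε1, hε1', hfl⟩ := flow1 h hT.ps hG hΔ.le β _ hβp hE (Real.exp_pos (-(β * Δ)))
  obtain ⟨δ, e1, e2, e3⟩ := ((flowR Λ Q ι h Z I ht h0 V n (2 / n) ε0 J s1 s2 l1 Jd p m0 Ep hT hθ
    (by rw [div_le_iff₀ (by positivity)]; linarith) hε hε1 hJ hl hJd hEp
    (by rw [mul_div_assoc', div_mul_eq_mul_div, div_le_one (by positivity)]; linarith) hm0 herr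
    hV).and ((start Λ Q 1 one_pos).and (finish Λ Q 1 one_pos))).exists
  obtain ⟨N, f1, f2, f3, hN⟩ := (e1.and (e2.and (e3.and (eventually_gt_atTop 0)))).exists
  obtain ⟨m, g1, g2, hm⟩ := (f1.and (((tendsto_pow_atTop_atTop_of_one_lt
    (one_lt_two (α := ℝ))).eventually_ge_atTop (1 / (ε1 * (500 * J *
      (2 * ((Jd + 2) * l1) / 2 ^ p))))).and (eventually_ge_atTop m0))).exists
  generalize 500 * J * (2 * (((Jd : ℝ) + 2) * l1) / 2 ^ p) = A at hA hβ0 g1 g2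
  obtain ⟨c, hc, -, hξ⟩ := hfl (1 / (2 ^ m * A)) (Ep * 2 ^ (m - m0)) (by positivity)
    (by
      rw [div_le_iff₀ (by positivity)] at g2 ⊢
      linarith)
    (by
      obtain ⟨k, rfl⟩ := Nat.exists_eq_add_of_le hm
      rw [hβ0, add_tsub_cancel_left]
      push_cast
      rw [pow_add]
      field_simp)
  have hc0 : 0 < c := (Real.exp_pos _).trans_le hc
  have hp0 : 0 < nsq (P *ᵥ Ω) := lt_of_lt_of_le (by positivity) hpp
  have h1 : star Ω ⬝ᵥ P *ᵥ Ω = (nsq (P *ᵥ Ω) : ℂ) := by rw [← hP.qf, ← ip_herm hP.1]; rfl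
  have h2 : nr (P *ᵥ Ω) ≤ 1 := by
    have := hP.bd Ω
    rwa [show nr Ω = 1 by rw [nr, hΩ, Real.sqrt_one], mul_one] at this
  have h3 := (hξ (P *ᵥ Ω)).trans (mul_le_of_le_one_right (by positivity) h2)
  rw [h1, ← Complex.ofReal_mul, ← two_mul] at h3
  have h4 := CoreAA.small hc hpp hLq1 hβ
  have hρ : 0 < 2 * Real.exp (-(β * Δ)) := by positivity
  obtain ⟨u, ξ, hu, e, hξ1, hnear⟩ := CoreAA.near hΩ (mul_pos hc0 hp0)
    (by nlinarith [mul_le_mul_of_nonneg_right hLq1 hρ.le]) h3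
  have hcont (a j : ℕ) (hj : j ≤ 4 * n) := abs_le.1 (CoreAA.cont ht (a := a) (b := h0 + j * V)
    (Nat.add_le_add_left (Nat.mul_le_mul_right V hj) h0) hξ1 hΩ hnear
    (by rw [mul_div_assoc', div_le_one (mul_pos hc0 hp0)]; linarith) hLq)
  have k1 := g1 (P *ᵥ Ω)
  have k2 := f2 (2 / n) (16 * n * Sg) n
    (fun j => flat ht (h0 + (4 * j + 2) * V) (h0 + (4 * j + 3) * V)) P (P *ᵥ Ω) hθ.le
    (fun j _ => CoreAA.disj ht (by gcongr; omega))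
    (fun i j hij _ => CoreAA.nest ht (by gcongr ?_ + ?_ * _; exacts [le_rfl, by omega])) hP
    (by rw [mulVec_mulVec, hP.2]) fun j hj => by
      obtain ⟨a1, a2, a3⟩ := CoreAA.sets ht (h0 + (4 * j + 2) * V) (h0 + (4 * j + 3) * V)
      rw [a3, a1, a2]
      exact ⟨(hspl 0 _ (Nat.zero_le _) (by omega)).1, (hspl 0 _ (Nat.zero_le _) (by omega)).1,
        (hspl _ _ (by omega) (by omega)).2⟩
  have k3 := f3 (2 / n) n (fun j => flat ht (h0 + (4 * j + 1) * V) (h0 + (4 * j + 4) * V)) ξ hθ.le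
    (fun j _ => CoreAA.disj ht (by gcongr; omega))
    (fun i j hij _ => CoreAA.nest ht (by gcongr ?_ + ?_ * _; exacts [le_rfl, by omega])) hξ1
  rw [e, tv_smul, qf_vsmul, norm_pow, Complex.norm_real, Real.norm_eq_abs, abs_of_pos
    (lt_of_lt_of_le (by positivity) hu)] at k1
  have k4 := CoreAA.root hN hp0.le ((mul_le_mul_of_nonneg_left k3 (sq_nonneg _)).trans
    (k1.trans (mul_le_mul_of_nonneg_left k2 (Real.exp_pos _).le)))
  rw [hθn] at k4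
  refine CoreAA.fin hc hpp hu hnR (by linarith) ?_ k4
  rw [← hθn, mul_assoc]
  refine mul_le_mul_of_nonneg_left ?_ (by positivity)
  have k5 := Finset.card_nsmul_le_sum (Finset.range n) (fun j => entropy (flat ht
    (h0 + (4 * j + 1) * V) (h0 + (4 * j + 4) * V)).1 ξ + entropy (flat ht (h0 + (4 * j + 1) * V)
    (h0 + (4 * j + 4) * V)).2ᶜ ξ - entropy ((flat ht (h0 + (4 * j + 1) * V)
    (h0 + (4 * j + 4) * V)).1 ∪ (flat ht (h0 + (4 * j + 1) * V) (h0 + (4 * j + 4) * V)).2)ᶜ ξ - 1)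
    (2 * entropy (slab ht 0 h0) Ω - 3 * Sg - 7) fun j hj => by
      rw [Finset.mem_range] at hj
      obtain ⟨a1, a2, a3⟩ := CoreAA.sets ht (h0 + (4 * j + 1) * V) (h0 + (4 * j + 4) * V)
      rw [a3, a1, a2]
      have b1 := (hcont 0 (4 * j + 1) (by omega)).1
      have b2 := (hcont 0 (4 * j + 4) (by omega)).1
      have b3 := (hcont (h0 + (4 * j + 1) * V) (4 * j + 4) (by omega)).2
      have b4 := CoreAA.low ht h0 V (show 4 * j + 1 ≤ 4 * n by omega) hΩ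
      have b5 := CoreAA.low ht h0 V (show 4 * j + 4 ≤ 4 * n by omega) hΩ
      have b6 := ent_slab ht h0 V (4 * j + 1) (4 * j + 4) (4 * n) (by omega) (by omega) hΩ
      linarith
  rwa [Finset.card_range, nsmul_eq_mul] at k5

end Vale.Agent.P356G
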