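import Vale.Agent.P356G.ColG

namespace Vale.Agent.P356G

open Matrix Vale.Agent.P356

variable {Λ Q : Type} [Fintype Λ] [DecidableEq Λ] [Fintype Q] [DecidableEq Q]

/-- moments of the spectrum of a marginal -/
noncomputable def mo (Y : Finset Λ) (ξ : (Λ → Q) → ℂ) (a : ℝ) : ℝ :=
  ∑ i, (rho_herm Y ξ).eigenvalues i ^ a

/-- two sided moment bound -/
def Mom (Y : Finset Λ) (ξ : (Λ → Q) → ℂ) (s v : ℝ) : Prop :=
  mo Y ξ (1 + s) ≤ Real.exp (-(s * entropy Y ξ) + v) ∧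
    mo Y ξ (1 - s) ≤ Real.exp (s * entropy Y ξ + v)

/-- mutual information of a pair -/
noncomputable def MI (k : Cfg Λ) (ξ : (Λ → Q) → ℂ) : ℝ :=
  entropy k.1 ξ + entropy k.2 ξ - entropy (k.1 ∪ k.2) ξ

/-- moment bounds for the three sets of a pair -/
def Mom3 (k : Cfg Λ) (ξ : (Λ → Q) → ℂ) (s v : ℝ) : Prop :=
  Mom k.1 ξ s v ∧ Mom k.2 ξ s v ∧ Mom (k.1 ∪ k.2) ξ s v

/-- indicator of a half line -/
noncomputable def ind (x : ℝ) : ℝ → ℂ := fun y => if x < y then 1 else 0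

/-- positive terms: those of `I` are local and bounded, the others live at the top or at the bottom -/
structure Terms2 {ι : Type} [DecidableEq ι] (h : ι → Matrix (Λ → Q) (Λ → Q) ℂ) (Z : ι → Finset Λ)
    (I : Finset ι) (ht : Λ → ℕ) (bot top l1 s1 s2 : ℕ) (J : ℝ) : Prop where
  ps : ∀ i, Ps (h i)
  loc : ∀ i, Loc (fun z => z ∈ Z i) (h i)
  far : ∀ i, i ∉ I → (∀ z ∈ Z i, top ≤ ht z) ∨ ∀ z ∈ Z i, ht z < bot
  bd : ∀ i ∈ I, Le (h i) J 1
  card : ∀ i ∈ I, (Z i).card ≤ s1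
  diam : ∀ i ∈ I, ∀ z ∈ Z i, ∀ z' ∈ Z i, ht z ≤ ht z' + l1
  deg : ∀ z, (I.filter fun i => z ∈ Z i).card ≤ s2

/-- side by side windows -/
structure Wins (a b : ℕ → ℕ) (n V bot top : ℕ) : Prop where
  lo : ∀ j, j < n → bot + 2 * V ≤ a j
  mid : ∀ j, j < n → a j + V ≤ b j
  hi : ∀ j, j < n → b j + V ≤ top
  sep : ∀ i j, i < j → j < n → b i + 3 * V ≤ a j

/-- the configuration of the world `σ` of the bilayer -/
def lay (σ : Λ → Bool) (s : Bool × Λ → Q) : Λ → Q := fun z => s (σ z, z)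

/-- the other world -/
def opp (σ : Λ → Bool) : Λ → Bool := fun z => !σ z

/-- product vector: `u` on the world `σ`, `v` on the other world -/
def bp (σ : Λ → Bool) (u v : (Λ → Q) → ℂ) : (Bool × Λ → Q) → ℂ :=
  fun s => u (lay σ s) * v (lay (opp σ) s)

/-- an operator acting on the world `σ` -/
def emb (σ : Λ → Bool) (O : Matrix (Λ → Q) (Λ → Q) ℂ) : Matrix (Bool × Λ → Q) (Bool × Λ → Q) ℂ :=
  fun s t => if lay (opp σ) s = lay (opp σ) t then O (lay σ s) (lay σ t) else 0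

/-- the part of a set in the world `σ` -/
def wd (σ : Λ → Bool) (Y : Finset (Bool × Λ)) : Finset Λ :=
  Finset.univ.filter fun z => (σ z, z) ∈ Y

/-- the reflected height on the bilayer -/
def ht2 (T : ℕ) (ht : Λ → ℕ) (y : Bool × Λ) : ℕ := if y.1 then T - ht y.2 else ht y.2

end Vale.Agent.P356G
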