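import Vale.Agent.P356.Fin
import Vale.Agent.P356.Stmt

namespace Vale.Agent.P356G

open Matrix Vale.Agent.P356

section Calc

/-- Euclidean norm of a vector -/
noncomputable def nr {k : Type} [Fintype k] (v : k → ℂ) : ℝ := Real.sqrt (nsq v)

/-- quadratic form -/
noncomputable def qf {k : Type} [Fintype k] (M : Matrix k k ℂ) (v : k → ℂ) : ℝ := (ip v M v).re

variable {n : Type} [Fintype n] [DecidableEq n]

/-- operator norm bound -/
def Bd {m k : Type} [Fintype m] [Fintype k] (M : Matrix m k ℂ) (r : ℝ) : Prop :=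
  ∀ v, nr (M *ᵥ v) ≤ r * nr v

/-- order of quadratic forms: `A ≤ x B` -/
def Le (A : Matrix n n ℂ) (x : ℝ) (B : Matrix n n ℂ) : Prop := ∀ v, qf A v ≤ x * qf B v

/-- positive definite -/
def Pd (A : Matrix n n ℂ) : Prop := A.IsHermitian ∧ ∀ v, v ≠ 0 → 0 < qf A v

/-- positive semidefinite -/
def Ps (A : Matrix n n ℂ) : Prop := A.IsHermitian ∧ ∀ v, 0 ≤ qf A v

/-- `X` and `Y` are close on the vectors of `S` -/
def Ap (S : Set (n → ℂ)) (X Y : Matrix n n ℂ) (η : ℝ) : Prop :=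
  ∀ y ∈ S, nr ((X - Y) *ᵥ y) ≤ η * nr y

/-- `X` maps `S` to `S` -/
def Inv (S : Set (n → ℂ)) (X : Matrix n n ℂ) : Prop := ∀ y ∈ S, X *ᵥ y ∈ S

/-- the block matrix with rows `A X`, `X B` is positive -/
def Blk (A X B : Matrix n n ℂ) : Prop := ∀ p q, 2 * (ip p X q).re ≤ qf A p + qf B q

/-- ground state with energy `E` and gap `Δ` -/
def GS (H : Matrix n n ℂ) (Ω : n → ℂ) (E Δ : ℝ) : Prop :=
  nsq Ω = 1 ∧ H *ᵥ Ω = (E : ℂ) • Ω ∧
    ∀ u, Δ * (nsq u - ‖star Ω ⬝ᵥ u‖ ^ 2) + E * nsq u ≤ qf H u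

/-- function of a Hermitian matrix -/
noncomputable def hf (A : Matrix n n ℂ) (f : ℝ → ℂ) : Matrix n n ℂ :=
  if h : A.IsHermitian then
    fn (h.eigenvectorUnitary : Matrix n n ℂ) (fun i => f (h.eigenvalues i))
  else 0

/-- exponential -/
noncomputable def hexp (A : Matrix n n ℂ) : Matrix n n ℂ := hf A fun x => (Real.exp x : ℂ)

/-- logarithm -/
noncomputable def hlog (A : Matrix n n ℂ) : Matrix n n ℂ := hf A fun x => (Real.log x : ℂ)

/-- complex power -/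
noncomputable def cpw (A : Matrix n n ℂ) (z : ℂ) : Matrix n n ℂ :=
  hf A fun x => Complex.exp (z * (Real.log x : ℂ))

/-- the spectrum of the Hermitian matrix `A` lies in `[lo, hi]` -/
def SpIn (A : Matrix n n ℂ) (lo hi : ℝ) : Prop :=
  A.IsHermitian ∧ ∀ v, lo * nsq v ≤ qf A v ∧ qf A v ≤ hi * nsq v

/-- Hermitian projector -/
def Prj (P : Matrix n n ℂ) : Prop := P.IsHermitian ∧ P * P = P

/-- geometric mean -/
noncomputable def gm (A B : Matrix n n ℂ) : Matrix n n ℂ :=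
  cpw A (1 / 2) * cpw (cpw A (-1 / 2) * B * cpw A (-1 / 2)) (1 / 2) * cpw A (1 / 2)

/-- ordered product `M 0 * ... * M (j - 1)` -/
def pr (M : ℕ → Matrix n n ℂ) : ℕ → Matrix n n ℂ
  | 0 => 1
  | j + 1 => pr M j * M j

end Calc

/-- binary trees -/
inductive Tr (α : Type) : Type
  | lf : α → Tr α
  | nd : Tr α → Tr α → Tr α

namespace Tr

variable {α β : Type}

/-- iterated geometric mean -/
noncomputable def val {n : Type} [Fintype n] [DecidableEq n] (M : α → Matrix n n ℂ) :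
    Tr α → Matrix n n ℂ
  | lf a => M a
  | nd l r => gm (val M l) (val M r)

/-- average with dyadic weights -/
noncomputable def ex (φ : α → ℝ) : Tr α → ℝ
  | lf a => φ a
  | nd l r => (ex φ l + ex φ r) / 2

/-- all leaves satisfy `p` -/
def All (p : α → Prop) : Tr α → Prop
  | lf a => p a
  | nd l r => All p l ∧ All p r

/-- substitution -/
def bind (U : α → Tr β) : Tr α → Tr β
  | lf a => U a
  | nd l r => nd (bind U l) (bind U r)

/-- relabelling -/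
def map (f : α → β) : Tr α → Tr β
  | lf a => lf (f a)
  | nd l r => nd (map f l) (map f r)

/-- the balanced tree with leaves `o, ..., o + 2 ^ p - 1` -/
def bal : ℕ → ℕ → Tr ℕ
  | 0, o => lf o
  | p + 1, o => nd (bal p o) (bal p (o + 2 ^ p))

/-- the balanced tree of depth `m` with one leaf `mv a` for each `a` and all other leaves `c` -/
def pay {N : ℕ} (m : ℕ) (c : α) (mv : Fin N → α) : Tr α :=
  map (fun r => if h : r < N then mv ⟨r, h⟩ else c) (bal m 0)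

end Tr

variable {Λ Q : Type} [Fintype Λ] [DecidableEq Λ] [Fintype Q] [DecidableEq Q]

/-- the marginal on `Y`, on the full space -/
noncomputable def mg (Y : Finset Λ) (ψ : (Λ → Q) → ℂ) : Matrix (Λ → Q) (Λ → Q) ℂ :=
  lift Y (rho Y ψ)

/-- the regularised marginal -/
noncomputable def rg (α β : ℝ) (Y : Finset Λ) (ψ : (Λ → Q) → ℂ) : Matrix (Λ → Q) (Λ → Q) ℂ :=
  (α : ℂ) • 1 + (β : ℂ) • mg Y ψ

/-- the total dimension -/
def DD (Λ Q : Type) [Fintype Λ] [DecidableEq Λ] [Fintype Q] : ℕ := Fintype.card (Λ → Q)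

/-- pairs of regions -/
abbrev Cfg (Λ : Type) : Type := Finset Λ × Finset Λ

/-- `Z` does not cross the pair `k` -/
def NoX (Z : Finset Λ) (k : Cfg Λ) : Prop := Z ⊆ k.1 ∨ Z ⊆ k.2 ∨ Disjoint Z (k.1 ∪ k.2)

/-- `k` lies between `lo` and `hi` -/
def Btw (lo hi k : Cfg Λ) : Prop := lo.1 ⊆ k.1 ∧ k.1 ⊆ hi.1 ∧ lo.2 ⊆ k.2 ∧ k.2 ⊆ hi.2

/-- operators on `N` copies -/
abbrev RM (Λ Q : Type) (N : ℕ) : Type := Matrix (Fin N → Λ → Q) (Fin N → Λ → Q) ℂ

variable {N : ℕ}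

/-- permutation of the copies on the sites of `Y` -/
def pa (Y : Finset Λ) (π : Equiv.Perm (Fin N)) (x : Fin N → Λ → Q) : Fin N → Λ → Q :=
  fun j s => if s ∈ Y then x (π⁻¹ j) s else x j s

/-- the matrix of `pa` -/
def pm (Q : Type) [Fintype Q] [DecidableEq Q] (Y : Finset Λ) (π : Equiv.Perm (Fin N)) :
    RM Λ Q N :=
  fun x y => if x = pa Y π y then 1 else 0

/-- `O` on the copy `a` -/
def one (a : Fin N) (O : Matrix (Λ → Q) (Λ → Q) ℂ) : RM Λ Q N :=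
  fun x y => if ∀ j, j ≠ a → x j = y j then O (x a) (y a) else 0

/-- tensor product of operators -/
def tensF (E : Fin N → Matrix (Λ → Q) (Λ → Q) ℂ) : RM Λ Q N := fun x y => ∏ j, E j (x j) (y j)

/-- tensor power of an operator -/
def tens (N : ℕ) (O : Matrix (Λ → Q) (Λ → Q) ℂ) : RM Λ Q N := fun x y => ∏ j, O (x j) (y j)

/-- tensor power of a vector -/
def tv (N : ℕ) (ξ : (Λ → Q) → ℂ) : (Fin N → Λ → Q) → ℂ := fun x => ∏ j, ξ (x j)

/-- permutations supported in `G` -/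
def SG (G : Finset (Fin N)) : Finset (Equiv.Perm (Fin N)) :=
  Finset.univ.filter fun π => ∀ j, j ∉ G → π j = j

/-- symmetric in the copies of `G` -/
def Sy (G : Finset (Fin N)) (v : (Fin N → Λ → Q) → ℂ) : Prop :=
  ∀ π ∈ SG G, pm Q Finset.univ π *ᵥ v = v

/-- the symmetriser -/
noncomputable def PS (Λ Q : Type) [Fintype Λ] [DecidableEq Λ] [Fintype Q] [DecidableEq Q]
    (G : Finset (Fin N)) : RM Λ Q N :=
  (((SG G).card : ℂ)⁻¹) • ∑ π ∈ SG G, pm Q Finset.univ π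

/-- number of invariant colourings -/
def kap (t : ℕ) (π : Equiv.Perm (Fin N)) : ℕ :=
  (Finset.univ.filter fun e : Fin N → Fin t => ∀ j, e (π j) = e j).card

/-- the universal weight -/
noncomputable def om (Q : Type) [Fintype Q] [DecidableEq Q] (Y : Finset Λ) (G : Finset (Fin N))
    (t : ℕ) : RM Λ Q N :=
  (((G.card.factorial : ℂ))⁻¹ * (t : ℂ) ^ G.card / (t : ℂ) ^ N) •
    ∑ π ∈ SG G, (kap t π : ℂ) • pm Q Y π

/-- sum of transpositions -/
def xx (Q : Type) [Fintype Q] [DecidableEq Q] (Y : Finset Λ) (a : Fin N) (G : Finset (Fin N)) :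
    RM Λ Q N :=
  ∑ j ∈ G, pm Q Y (Equiv.swap a j)

/-- the one-copy increment -/
noncomputable def rh (Q : Type) [Fintype Q] [DecidableEq Q] (Y : Finset Λ) (a : Fin N)
    (G : Finset (Fin N)) (t : ℕ) : RM Λ Q N :=
  (((G.card + 1 : ℕ) : ℂ)⁻¹) • ((t : ℂ) • 1 + xx Q Y a G)

/-- logarithm of the weight -/
noncomputable def Lw (Q : Type) [Fintype Q] [DecidableEq Q] (Y : Finset Λ) (G : Finset (Fin N))
    (t : ℕ) : RM Λ Q N :=
  hlog (om Q Y G t)

/-- the copies carrying the pair `k` -/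
def grp (c : Fin N → Cfg Λ) (k : Cfg Λ) : Finset (Fin N) := Finset.univ.filter fun a => c a = k

/-- all pairs are disjoint -/
def Ok (c : Fin N → Cfg Λ) : Prop := ∀ a, Disjoint (c a).1 (c a).2

/-- mutual information operator of a group -/
noncomputable def Lk (Q : Type) [Fintype Q] [DecidableEq Q] (t : ℕ) (k : Cfg Λ)
    (G : Finset (Fin N)) : RM Λ Q N :=
  Lw Q (k.1 ∪ k.2) G t - Lw Q k.1 G (DD Λ Q * t) - Lw Q k.2 G (DD Λ Q * t)

/-- the same with complements -/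
noncomputable def Lc (Q : Type) [Fintype Q] [DecidableEq Q] (t : ℕ) (k : Cfg Λ)
    (G : Finset (Fin N)) : RM Λ Q N :=
  Lw Q (k.1 ∪ k.2)ᶜ G t - Lw Q k.1 G (DD Λ Q * t) - Lw Q k.2ᶜ G (DD Λ Q * t)

/-- the tilt on the copies of `S` -/
noncomputable def Tp (Q : Type) [Fintype Q] [DecidableEq Q] (θ : ℝ) (t : ℕ) (c : Fin N → Cfg Λ)
    (S : Finset (Fin N)) : RM Λ Q N :=
  hexp ((θ : ℂ) • ∑ k : Cfg Λ, Lk Q t k (grp c k ∩ S))

/-- the tilt -/
noncomputable def Th (Q : Type) [Fintype Q] [DecidableEq Q] (θ : ℝ) (t : ℕ) (c : Fin N → Cfg Λ) :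
    RM Λ Q N :=
  Tp Q θ t c Finset.univ

/-- the leaf metric -/
noncomputable def Mb (Q : Type) [Fintype Q] [DecidableEq Q] (θ : ℝ) (t : ℕ) (c : Fin N → Cfg Λ) :
    RM Λ Q N :=
  PS Λ Q Finset.univ * (Th Q θ t c * Th Q θ t c) * PS Λ Q Finset.univ + (1 - PS Λ Q Finset.univ)

/-- the increment of the tilt -/
noncomputable def inc (Q : Type) [Fintype Q] [DecidableEq Q] (θ : ℝ) (t : ℕ) (k : Cfg Λ)
    (a : Fin N) (G : Finset (Fin N)) : RM Λ Q N :=
  cpw (rh Q (k.1 ∪ k.2) a G t) θ * cpw (rh Q k.1 a G (DD Λ Q * t)) (-θ) *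
    cpw (rh Q k.2 a G (DD Λ Q * t)) (-θ)

/-- the inverse increment -/
noncomputable def incI (Q : Type) [Fintype Q] [DecidableEq Q] (θ : ℝ) (t : ℕ) (k : Cfg Λ)
    (a : Fin N) (G : Finset (Fin N)) : RM Λ Q N :=
  cpw (rh Q k.2 a G (DD Λ Q * t)) θ * cpw (rh Q k.1 a G (DD Λ Q * t)) θ *
    cpw (rh Q (k.1 ∪ k.2) a G t) (-θ)

/-- the defect operator of the copy `a` for the target `T` with inverse `T'` -/
noncomputable def df (θ : ℝ) (t : ℕ) (c : Fin N → Cfg Λ) (g : Matrix (Λ → Q) (Λ → Q) ℂ)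
    (a : Fin N) (T T' : RM Λ Q N) : RM Λ Q N :=
  T * one a g - T'ᴴ * one a g * (Th Q θ t c * Th Q θ t c)

/-- ancilla dimension -/
noncomputable def t0 (δ : ℝ) (N : ℕ) : ℕ := ⌈δ * N⌉₊

/-- minimal group size -/
noncomputable def ns (δ : ℝ) (N : ℕ) : ℕ := ⌈Real.sqrt δ * N⌉₊

/-- all copies lie in the window and all groups of the window are large -/
def Win (lo hi : Cfg Λ) (m : ℕ) (c : Fin N → Cfg Λ) : Prop :=
  (∀ a, Btw lo hi (c a)) ∧ ∀ k, Btw lo hi k → m ≤ (grp c k).card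

/-- positive and in the bicommutant of the leaves between `lo` and `hi` -/
def InA (θ : ℝ) (t : ℕ) (lo hi : Cfg Λ) (M : RM Λ Q N) : Prop :=
  Pd M ∧ ∀ Z : RM Λ Q N, (∀ c : Fin N → Cfg Λ, (∀ a, Btw lo hi (c a)) →
    Commute Z (Mb Q θ t c)) → Commute Z M

/-- in the bicommutant of the permutations on subsets of `U` -/
def Alg (U : Finset Λ) (X : RM Λ Q N) : Prop :=
  ∀ Z : RM Λ Q N, (∀ Y : Finset Λ, Y ⊆ U → ∀ π, Commute Z (pm Q Y π)) → Commute Z X

/-- the metric of a family of flat pairs -/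
noncomputable def Lam (Q : Type) [Fintype Q] [DecidableEq Q] (N : ℕ) (θ : ℝ) (t p : ℕ)
    (F : ℕ → Cfg Λ) : RM Λ Q N :=
  Tr.val (fun r => Mb Q θ t fun _ : Fin N => F r) (Tr.bal p 0)

/-- sites of height in `[a, b)` -/
def slab (ht : Λ → ℕ) (a b : ℕ) : Finset Λ := Finset.univ.filter fun z => a ≤ ht z ∧ ht z < b

/-- the flat pair: height below `a`, height at least `b` -/
def flat (ht : Λ → ℕ) (a b : ℕ) : Cfg Λ :=
  (Finset.univ.filter fun z => ht z < a, Finset.univ.filter fun z => b ≤ ht z)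

/-- one sweep through all terms -/
noncomputable def sweep {ι : Type} [Fintype ι] {n : Type} [Fintype n] [DecidableEq n]
    (h : ι → Matrix n n ℂ) (ε : ℝ) : Matrix n n ℂ :=
  (((Finset.univ : Finset ι).toList).map fun i => 1 - (ε : ℂ) • h i).reverse.prod

/-- block operators -/
noncomputable def blk {O : Type} [Fintype O] (a : Fin N) (P : O → RM Λ Q N)
    (F : O → Matrix (Λ → Q) (Λ → Q) ℂ) : RM Λ Q N :=
  ∑ o, one a (F o) * P o

/-- a projective measurement on the copies of `G` -/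
structure Meas {O : Type} [Fintype O] (G : Finset (Fin N)) (P : O → RM Λ Q N) : Prop where
  herm : ∀ o, (P o).IsHermitian
  idem : ∀ o, P o * P o = P o
  orth : ∀ o o', o ≠ o' → P o * P o' = 0
  sum : ∑ o, P o = 1
  loc : ∀ o, Loc (fun j => j ∈ G) (P o)

/-- positive terms: those of `I` are local and bounded, the others live at height `≥ top` -/
structure Terms {ι : Type} [DecidableEq ι] (h : ι → Matrix (Λ → Q) (Λ → Q) ℂ) (Z : ι → Finset Λ)
    (I : Finset ι) (ht : Λ → ℕ) (top l1 s1 s2 : ℕ) (J : ℝ) : Prop where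
  ps : ∀ i, Ps (h i)
  loc : ∀ i, Loc (fun z => z ∈ Z i) (h i)
  far : ∀ i, i ∉ I → ∀ z ∈ Z i, top ≤ ht z
  bd : ∀ i ∈ I, Le (h i) J 1
  card : ∀ i ∈ I, (Z i).card ≤ s1
  diam : ∀ i ∈ I, ∀ z ∈ Z i, ∀ z' ∈ Z i, ht z ≤ ht z' + l1
  deg : ∀ z, (I.filter fun i => z ∈ Z i).card ≤ s2

/-- parameters of the regularised marginals -/
structure Par (D a0 η α β : ℝ) : Prop where
  lo : a0 ≤ α
  b0 : 0 ≤ β
  b1 : β ≤ 1
  ab : 1 ≤ α + β
  hi : D * (D * α) + β ≤ 1 + η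

/-- the single copy increment at complex exponent -/
noncomputable def sinc (α β : ℝ) (A B : Finset Λ) (ψ : (Λ → Q) → ℂ) (z : ℂ) :
    Matrix (Λ → Q) (Λ → Q) ℂ :=
  cpw (rg α β (A ∪ B) ψ) z * cpw (rg (DD Λ Q * α) β A ψ) (-z) * cpw (rg (DD Λ Q * α) β B ψ) (-z)

/-- its inverse -/
noncomputable def sincI (α β : ℝ) (A B : Finset Λ) (ψ : (Λ → Q) → ℂ) (z : ℂ) :
    Matrix (Λ → Q) (Λ → Q) ℂ :=
  cpw (rg (DD Λ Q * α) β B ψ) z * cpw (rg (DD Λ Q * α) β A ψ) z * cpw (rg α β (A ∪ B) ψ) (-z)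

/-- the interpolating vector -/
noncomputable def phi (α β α' β' : ℝ) (A B B' : Finset Λ) (ψ τ : (Λ → Q) → ℂ) (z : ℂ) :
    (Λ → Q) → ℂ :=
  (sinc α' β' A B' τ z * sincI α β A B ψ z) *ᵥ ψ

/-- the two parameter family -/
noncomputable def phi2 (α β α' β' : ℝ) (A B B' : Finset Λ) (ψ τ : (Λ → Q) → ℂ) (z w : ℂ) :
    (Λ → Q) → ℂ :=
  (cpw (rg α' β' (A ∪ B') τ) w * cpw (rg (DD Λ Q * α') β' B' τ) (-w) *
    (cpw (rg (DD Λ Q * α') β' A τ) (-z) * cpw (rg (DD Λ Q * α) β A ψ) z) *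
    cpw (rg (DD Λ Q * α) β B ψ) w * cpw (rg α β (A ∪ B) ψ) (-w)) *ᵥ ψ

/-- Heisenberg evolution -/
noncomputable def ev {n : Type} [Fintype n] [DecidableEq n] (H : Matrix n n ℂ) (t : ℝ)
    (a : Matrix n n ℂ) : Matrix n n ℂ :=
  hf H (fun x => Complex.exp (Complex.I * t * x)) * a *
    hf H (fun x => Complex.exp (-(Complex.I * t * x)))

/-- entropy bound for boxes with sides at most `l` -/
def BoxB {L q : ℕ} (Ω : (Fin L × Fin L → Fin q) → ℂ) (l : ℕ) (F : ℝ) : Prop :=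
  ∀ x1 x2 y1 y2 : ℕ, x2 ≤ x1 + l → y2 ≤ y1 + l → entropy (box L x1 x2 y1 y2) Ω ≤ F

end Vale.Agent.P356G
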