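import Vale.Agent.P356G.RepF
import Vale.Agent.P356G.SCa

/- END. Let `ρ = rho Y ξ`, `d` the dimension of `Y`, `m = (1 - y) ρ + y / d` (positive definite, trace one,
a function of `ρ`), `T = tens (lift m)`, which commutes with `om Y univ t` (`tens_comm`, `comm_om`).
`Lw_lo`: `om_ge`, `hlog_mono`, `hlog_tens`, `qf_one_tv`, `hf_lift`, and
`tr (ρ log m) ≥ - S + log (1 - y)`; let `y → 0` or use `ent_approx`.
`Lw_hi`: `hlog om - hlog T = hlog (om T⁻¹)` (`hlog_mul`), `jensen`, `hexp_log`;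
`qf (om T⁻¹) (tv ξ) = qf om (tv χ)`, `χ = lift (m ^ (-1/2)) ξ`, whose marginal is `≤ c = 1 / (1 - y)`
(`mg_mul`), `nsq χ ≤ c d`; `om_exp` for the normalised `χ` gives `≤ c ^ N ∏ (t d + i) / (i + 1)`;
`tr (ρ log m) ≤ - S` (`klein_tr` or `ent_klein`); take `c = exp η`.
`finish`: `Mb_const`, `jensen`, `prod_small` with `C = D * D`, `d ≤ D`. -/

namespace Vale.Agent.P356G

open Matrix Vale.Agent.P356 Filter

variable {Λ Q : Type} [Fintype Λ] [DecidableEq Λ] [Fintype Q] [DecidableEq Q] [Nonempty Q]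

namespace End0A

variable {n : Type} [Fintype n] [DecidableEq n]

theorem qf_fr (U : Matrix n n ℂ) (f : n → ℝ) (v : n → ℂ) :
    qf (fr U f) v = ∑ i, f i * ‖(Uᴴ *ᵥ v) i‖ ^ 2 := by
  have e : ip v (fr U f) v = ((∑ i, f i * ‖(Uᴴ *ᵥ v) i‖ ^ 2 : ℝ) : ℂ) := by
    rw [ip, fr, fn, ← mulVec_mulVec, ← mulVec_mulVec, dot_mulVec, Complex.ofReal_sum]
    refine Finset.sum_congr rfl fun i _ => ?_
    rw [mulVec_diagonal, Pi.star_apply, Complex.star_def, mul_left_comm, Complex.conj_mul']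
    push_cast
    rfl
  rw [qf, e, Complex.ofReal_re]

theorem ps_fr (U : Matrix n n ℂ) {f : n → ℝ} (hf : ∀ i, 0 ≤ f i) : Ps (fr U f) :=
  ⟨fr_ct _ _, fun v => by
    rw [qf_fr]
    exact Finset.sum_nonneg fun i _ => mul_nonneg (hf i) (sq_nonneg _)⟩

theorem pd_fr {U : Matrix n n ℂ} (hU : U * Uᴴ = 1) {f : n → ℝ} (hf : ∀ i, 0 < f i) :
    Pd (fr U f) := by
  refine ⟨fr_ct _ _, fun v hv => ?_⟩
  have h : Uᴴ *ᵥ v ≠ 0 := fun h => hv (by rw [← one_mulVec v, ← hU, ← mulVec_mulVec, h, mulVec_zero])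
  obtain ⟨i, hi⟩ := Function.ne_iff.1 h
  rw [qf_fr]
  exact Finset.sum_pos' (fun i _ => mul_nonneg (hf i).le (sq_nonneg _))
    ⟨i, Finset.mem_univ i, mul_pos (hf i) (pow_pos (norm_pos_iff.2 hi) 2)⟩

end End0A

theorem Lw_lo {N t : ℕ} (ht : DD Λ Q ≤ t) (Y : Finset Λ) {ξ : (Λ → Q) → ℂ} (hξ : nsq ξ = 1) :
    -(entropy Y ξ * N) ≤ qf (Lw Q Y Finset.univ t) (tv N ξ) := by
  refine le_of_forall_pos_le_add fun ε hε => ?_
  have hN : (0 : ℝ) < N + 1 := by positivity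
  obtain ⟨V, d, hS, hd, hle⟩ := ent_approx Y hξ (ε / (N + 1)) (div_pos hε hN)
  obtain ⟨V0, d0, hV0, rfl, rfl, h0, h1⟩ := hS.toBip
  have hO : Pd (lift Y (fr V0 d0)) := by
    rw [← fr_lift]
    exact End0A.pd_fr hS.uni hd
  have h2 : Le (tens N (lift Y (fr V0 d0))) 1 (om Q Y (Finset.univ : Finset (Fin N)) t) := by
    have h := om_ge Y (Finset.univ : Finset (Fin N)) ht (End0A.ps_fr V0 h0)
      (by rw [ent_trace_fr hV0, Complex.ofReal_re, h1])
    simp only [Finset.mem_univ, if_true] at h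
    rwa [tens_eq]
  have h3 := hlog_mono (tens_pd hO) (om_pd Y Finset.univ ht)
    (comm_om t fun π _ => tens_comm (Or.inl subset_rfl) (loc_lift Y _) π) h2 (tv N ξ)
  have h4 : qf (hlog (lift Y (fr V0 d0))) ξ =
      (ip ξ (fr (lift Y V0) fun s => Real.log (d0 (res Y s))) ξ).re := by
    rw [← fr_lift, hlog, hf_fn hS.uni]
    rfl
  rw [hlog_tens hO, qf_sum] at h3
  simp only [qf_one_tv _ _ hξ, h4, Finset.sum_const, Finset.card_univ, Fintype.card_fin,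
    nsmul_eq_mul] at h3
  have h5 := mul_le_mul_of_nonneg_left hle (Nat.cast_nonneg N)
  have h6 : N * (ε / (N + 1)) ≤ ε := by
    rw [← mul_div_assoc, div_le_iff₀ hN]
    linarith
  unfold Lw
  linarith

end Vale.Agent.P356G
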