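import Vale.Agent.P356G.TailH
import Vale.Agent.P356G.Typ2

/- See the header of Start2, paragraph `end2`. -/

namespace Vale.Agent.P356G

open Matrix Vale.Agent.P356 Filter

namespace End2A

variable {Λ Q : Type} [Fintype Λ] [DecidableEq Λ] [Fintype Q] [DecidableEq Q] {N : ℕ}

/-- the three sets of a pair -/
def Ys (k : Cfg Λ) (a : Fin 3) : Finset Λ := ![(k.1 ∪ k.2)ᶜ, k.1, k.2ᶜ] a

/-- the three operators of a pair -/
noncomputable def Xs (Q : Type) [Fintype Q] [DecidableEq Q] (N t : ℕ) (k : Cfg Λ) (a : Fin 3) :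
    RM Λ Q N :=
  if a = 0 then -Lw Q (Ys k a) Finset.univ t else Lw Q (Ys k a) Finset.univ (DD Λ Q * t)

/-- nested or disjoint -/
def Rel (Y Y' : Finset Λ) : Prop := Y ⊆ Y' ∨ Y' ⊆ Y ∨ Disjoint Y Y'

omit [Fintype Λ] [DecidableEq Λ] in
theorem Rel.symm {Y Y' : Finset Λ} (h : Rel Y Y') : Rel Y' Y :=
  h.elim (fun h => .inr (.inl h)) fun h => h.elim .inl fun h => .inr (.inr h.symm)

theorem Rel.comm [Nonempty Q] {Y Y' : Finset Λ} (h : Rel Y Y') (t t' : ℕ) :
    Commute (Lw Q Y (Finset.univ : Finset (Fin N)) t) (Lw Q Y' Finset.univ t') := by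
  rcases h with h | h | h
  · exact (Lw_Lw _ _ (.inl ⟨h, le_rfl⟩)).symm
  · exact Lw_Lw _ _ (.inl ⟨h, le_rfl⟩)
  · exact (Lw_Lw _ _ (.inr (.inl h))).symm

theorem sub {k : Cfg Λ} (h : Disjoint k.1 k.2) (a : Fin 3) : Ys k a ⊆ k.2ᶜ := by
  fin_cases a
  · exact Finset.compl_subset_compl.2 Finset.subset_union_right
  · exact h.le_compl_right
  · exact subset_rfl

theorem inA {k : Cfg Λ} (h : Disjoint k.1 k.2) {Y : Finset Λ} (hY : Y ⊆ k.1) (a : Fin 3) :
    Rel Y (Ys k a) := by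
  fin_cases a
  · exact .inr (.inr (disjoint_compl_right.mono_left (hY.trans Finset.subset_union_left)))
  · exact .inl hY
  · exact .inl (hY.trans h.le_compl_right)

theorem same {k : Cfg Λ} (h : Disjoint k.1 k.2) (a b : Fin 3) : Rel (Ys k a) (Ys k b) := by
  fin_cases a
  · fin_cases b
    · exact .inl subset_rfl
    · exact (inA h subset_rfl 0).symm
    · exact .inl (sub h 0)
  · exact inA h subset_rfl b
  · exact .inr (.inl (sub h b))

theorem commX [Nonempty Q] {k k' : Cfg Λ} {a b : Fin 3} (h : Rel (Ys k a) (Ys k' b)) (t : ℕ) :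
    Commute (Xs Q N t k a) (Xs Q N t k' b) := by
  unfold Xs
  split_ifs
  · exact .neg_left (.neg_right (h.comm _ _))
  · exact .neg_left (h.comm _ _)
  · exact .neg_right (h.comm _ _)
  · exact h.comm _ _

theorem negLc (t : ℕ) (k : Cfg Λ) :
    Lc Q t k (Finset.univ : Finset (Fin N)) = -(Xs Q N t k 0 + Xs Q N t k 1 + Xs Q N t k 2) := by
  simp only [Lc, Xs, Ys, if_true, Fin.reduceEq, if_false, cons_val]
  abel

theorem fin {n : Type} [Fintype n] [DecidableEq n] {Y P : Matrix n n ℂ} (hY : Y.IsHermitian)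
    (hP : Prj P) (hc : Commute Y P) {c : ℝ} (h : ∀ u, P *ᵥ u = u → c * nsq u ≤ qf Y u)
    {w : n → ℂ} (hw : nsq w = 1) (ξ : n → ℂ) :
    ‖star (P *ᵥ w) ⬝ᵥ ξ‖ ^ 2 * Real.exp c ≤ qf (hexp Y) ξ := by
  have h1 := (hexp_pd hY).ps.cs (hexp (-Y) *ᵥ (P *ᵥ w)) ξ
  have h2 : hexp (-Y) * hexp Y = 1 := by simpa using hexp_neg hY.neg
  have h3 := hexp_le_on hY.neg hP hc.symm.neg_right (x := -c)
    (fun u hu => by rw [qf_neg]; linarith [h u hu]) (P *ᵥ w) (by rw [mulVec_mulVec, hP.2])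
  have h4 := hP.split w
  have h5 := nsq_nonneg (w - P *ᵥ w)
  have h6 := (hexp_pd hY).ps.2 ξ
  rw [← qf_conj, (hexp_herm _).eq, h2, Matrix.one_mul, ip, dot_mulVec, (hexp_herm _).eq,
    mulVec_mulVec, hexp_neg hY, one_mulVec] at h1
  have h7 : qf (hexp (-Y)) (P *ᵥ w) ≤ Real.exp (-c) :=
    h3.trans (mul_le_of_le_one_right (Real.exp_pos _).le (by linarith))
  rw [← le_div_iff₀ (Real.exp_pos c), div_eq_inv_mul, ← Real.exp_neg]
  exact h1.trans (mul_le_mul_of_nonneg_right h7 h6)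

end End2A

open End2A in
theorem end2 (Λ Q : Type) [Fintype Λ] [DecidableEq Λ] [Fintype Q] [DecidableEq Q] [Nonempty Q] :
    ∀ᶠ δ in nhdsWithin (0 : ℝ) (Set.Ioi 0), ∀ᶠ N : ℕ in atTop,
      ∀ (θ s v x : ℝ) (n : ℕ) (k : ℕ → Cfg Λ) (Ω : (Λ → Q) → ℂ), 0 ≤ θ → 0 < s → s < 1 → 0 ≤ v →
        2 * (12 + v) ≤ s * x → (∀ j, j < n → Disjoint (k j).1 (k j).2) →
        (∀ i j, i < j → j < n → (k i).2ᶜ ⊆ (k j).1) → nsq Ω = 1 →
        (∀ j, j < n → Mom3 (k j) Ω s v) → ∃ P : RM Λ Q N, Prj P ∧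
          nr (tv N Ω - P *ᵥ tv N Ω) ≤ 6 * n * Real.exp (-(5 * N)) ∧
          ∀ ξ, Sy Finset.univ ξ → ‖star (P *ᵥ tv N Ω) ⬝ᵥ ξ‖ ^ 2 *
              Real.exp (2 * θ * (∑ j ∈ Finset.range n, (MI (k j) Ω - 3 * x)) * N) ≤
            qf (pr (fun j => Mb Q θ (t0 δ N) fun _ : Fin N => k j) n) ξ := by
  filter_upwards [prod_small (DD Λ Q * DD Λ Q) 1 one_pos, self_mem_nhdsWithin] with δ hδ hδ0
  have hδ0' : 0 < δ := hδ0
  have hev : ∀ᶠ N : ℕ in atTop, (DD Λ Q : ℝ) ≤ δ * N :=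
    (tendsto_natCast_atTop_atTop.const_mul_atTop hδ0').eventually_ge_atTop _
  filter_upwards [hδ, hev] with N hN hN2 θ s v x n k Ω hθ hs hs1 hv hx hd hk hΩ hm
  set t := t0 δ N with htdef
  have ht : DD Λ Q ≤ t := by exact_mod_cast hN2.trans (Nat.le_ceil (δ * N))
  have ht0 : 0 < t := lt_of_lt_of_le DD_pos ht
  have ht2 : DD Λ Q ≤ DD Λ Q * t := Nat.le_mul_of_pos_right _ ht0
  have hN0 : (0 : ℝ) ≤ N := Nat.cast_nonneg N
  have hx0 : 24 ≤ x := by nlinarith
  have mem : ∀ i ∈ Finset.range n ×ˢ (Finset.univ : Finset (Fin 3)), i.1 < n := fun i hi =>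
    Finset.mem_range.1 (Finset.mem_product.1 hi).1
  have hc : ∀ i < n, ∀ j < n, ∀ a b, Commute (Xs Q N t (k i) a) (Xs Q N t (k j) b) :=
    fun i hi j hj a b => commX (by
      rcases lt_trichotomy i j with h | rfl | h
      · exact inA (hd j hj) ((sub (hd i hi) a).trans (hk i j h hj)) b
      · exact same (hd i hi) a b
      · exact (inA (hd i hi) ((sub (hd j hj) b).trans (hk j i h hi)) a).symm) t
  have e10 : ∀ {y : ℝ}, 10 ≤ y → Real.exp (-(y * N)) ≤ Real.exp (-(5 * N)) ^ 2 := fun hy => by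
    rw [← Real.exp_nat_mul, Real.exp_le_exp]
    push_cast
    nlinarith
  obtain ⟨P, hP, h1, h2, h3⟩ := typical (Finset.range n ×ˢ (Finset.univ : Finset (Fin 3)))
    (fun i => Xs Q N t (k i.1) i.2) (fun i => if i.2 = 0 then (entropy (Ys (k i.1) i.2) Ω + x) * N
      else (x - entropy (Ys (k i.1) i.2) Ω) * N) (fun i _ => by
        unfold Xs
        split_ifs
        exacts [(Lw_herm _ _ _).neg, Lw_herm _ _ _])
    (fun i hi j hj => hc _ (mem i hi) _ (mem j hj) _ _) (tv N Ω) (e := 2 * Real.exp (-(5 * N)))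
    fun i hi => by
      obtain ⟨m1, m2, m3⟩ := hm _ (mem i hi)
      have m4 : Mom (Ys (k i.1) i.2) Ω s v := by
        generalize i.2 = a
        fin_cases a
        exacts [m3.compl hs hs1, m1, m2.compl hs hs1]
      have e1 := sq_nonneg (Real.exp (-(5 * N)))
      refine Real.sqrt_le_iff.2 ⟨by positivity, ?_⟩
      unfold Xs
      split_ifs
      · linarith [tail_lo (N := N) ht _ hΩ hs hs1 m4 x, e10 (y := s * x - v - 1) (by linarith)]
      · have e2 : (2 : ℝ) ^ N ≤ Real.exp (1 * N) := by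
          rw [mul_comm, Real.exp_nat_mul]
          exact pow_le_pow_left₀ zero_le_two (by linarith [Real.add_one_le_exp 1]) N
        rw [Nat.mul_assoc] at hN
        have e3 := mul_le_mul_of_nonneg_left (mul_le_mul e2 hN (Finset.prod_nonneg fun m _ => by
          positivity) (Real.exp_pos _).le) (Real.exp_pos (-(x / 2 * N))).le
        rw [← Real.exp_add, ← Real.exp_add, show -(x / 2 * N) + (1 * N + 1 * N) =
          -((x / 2 - 2) * N) by ring] at e3
        linarith [tail_hi (N := N) ht2 _ hΩ hs hs1 m4 x, e10 (y := s * x / 2 - v - 1) (by linarith),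
          e10 (y := x / 2 - 2) (by linarith)]
  refine ⟨P, hP, h2.trans_eq (by simp; ring), fun ξ hξ => ?_⟩
  rw [qf, ip, Mb_const k n ht0 hd hk hξ]
  refine fin (RepEA.hs (RepE0A.herm_sum _ fun j => Lc_herm _ _) _) hP
    (h1 _ fun i hi => Commute.smul_left (Commute.sum_left _ _ _ fun j hj => ?_) _)
    (fun u hu => ?_) (by rw [nsq_tv, hΩ, one_pow]) ξ
  · have h4 := fun a => hc j (Finset.mem_range.1 hj) _ (mem i hi) a i.2
    rw [negLc]
    exact (((h4 0).add_left (h4 1)).add_left (h4 2)).neg_left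
  · rw [qf_smul, qf_sum, mul_assoc, mul_assoc, Finset.sum_mul]
    refine mul_le_mul_of_nonneg_left (Finset.sum_le_sum fun j hj => ?_) (by positivity)
    have h4 := fun a => h3 u hu (j, a) (Finset.mem_product.2 ⟨hj, Finset.mem_univ a⟩)
    have h5 := h4 0
    have h6 := h4 1
    have h7 := h4 2
    simp only [Ys, if_true, Fin.reduceEq, if_false, cons_val, ent_compl] at h5 h6 h7
    rw [negLc, qf_neg, qf_add, qf_add, MI]
    linarith

end Vale.Agent.P356G
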