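import Vale.Agent.P356G.Flow2A
import Vale.Agent.P356G.Core

/- The same choice of parameters as in Core.lean (reuse its auxiliary lemmas), `θ = 2 / (10 ^ 9 Lg ^ 2)` (then
`CoreA.hlog` with `n = 10 ^ 9 Lg ^ 2` gives `hlog`), `x = 2 (12 + v) / s`, `C = 10 ^ 10`. -/

namespace Vale.Agent.P356G

open Matrix Vale.Agent.P356 Filter

namespace Flow2A

theorem hbeta {L c β Δ V : ℝ} (hL : 1 ≤ L) (c0 : 0 ≤ c) (hΔ : 0 < Δ)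
    (b2 : V ^ 2 ≤ 14000000 * L ^ 7 * β) (hC : 10 ^ 10 * L ^ 7 * (c + 1) ≤ Δ * V ^ 2) :
    c + 5 ≤ β * Δ := by
  have h4 := mul_le_mul_of_nonneg_left b2 hΔ.le
  refine le_of_mul_le_mul_left ?_ (show (0 : ℝ) < 14000000 * L ^ 7 by positivity)
  have h5 : c + 5 ≤ 5 * (c + 1) := by linarith
  have h6 := mul_le_mul_of_nonneg_left h5 (show (0 : ℝ) ≤ 14000000 * L ^ 7 by positivity)
  have h7 : (0 : ℝ) ≤ L ^ 7 * (c + 1) := by positivity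
  linarith

theorem fin {L c n s v S : ℝ} (hL : 1 ≤ L) (c0 : 0 ≤ c) (n0 : 0 ≤ n) (hs : 0 < s) (hv : 0 ≤ v)
    (h : 2 * (2 / (10 ^ 9 * L ^ 2)) * S ≤
      2 * c + 8 + 2 * n + 12 * (2 / (10 ^ 9 * L ^ 2)) * n * (2 * (12 + v) / s)) :
    S ≤ 10 ^ 10 * (L ^ 2 * (c + 1 + n) + n * ((v + 1) / s)) := by
  have h1 : 0 < L ^ 2 := by positivity
  have h2 := mul_le_mul_of_nonneg_left h (show (0 : ℝ) ≤ 10 ^ 9 * L ^ 2 / 4 by positivity)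
  have e1 : 10 ^ 9 * L ^ 2 / 4 * (2 * (2 / (10 ^ 9 * L ^ 2)) * S) = S := by
    field_simp
    ring
  have e2 : 10 ^ 9 * L ^ 2 / 4 *
      (2 * c + 8 + 2 * n + 12 * (2 / (10 ^ 9 * L ^ 2)) * n * (2 * (12 + v) / s)) =
      10 ^ 9 * (L ^ 2 * (c / 2 + 2 + n / 2)) + 12 * (n * ((12 + v) / s)) := by
    field_simp
    ring
  rw [e1, e2] at h2
  have h3 : L ^ 2 * (c / 2 + 2 + n / 2) ≤ L ^ 2 * (2 * (c + 1 + n)) :=
    mul_le_mul_of_nonneg_left (by linarith) h1.le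
  have h4 : (12 + v) / s ≤ 12 * ((v + 1) / s) := by
    rw [← mul_div_assoc]
    exact div_le_div_of_nonneg_right (by linarith) hs.le
  have h5 := mul_le_mul_of_nonneg_left h4 n0
  have h6 : 0 ≤ L ^ 2 * (c + 1 + n) := by positivity
  have h7 : 0 ≤ n * ((v + 1) / s) := by positivity
  linarith

end Flow2A

theorem flow2 : ∃ C : ℝ, 1 ≤ C ∧ ∀ (Λ Q ι : Type) [Fintype Λ] [DecidableEq Λ] [Fintype Q]
    [DecidableEq Q] [Nonempty Q] [Fintype ι] [DecidableEq ι] [Nonempty ι]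
    (h : ι → Matrix (Λ → Q) (Λ → Q) ℂ) (Z : ι → Finset Λ) (I : Finset ι) (ht : Λ → ℕ)
    (a b : ℕ → ℕ) (n V bot top Lg : ℕ) (E Δ c γ s v : ℝ) (Ω' Ω τ : (Λ → Q) → ℂ)
    (P2 : Matrix (Λ → Q) (Λ → Q) ℂ), Terms2 h Z I ht bot top Lg Lg Lg Lg → Wins a b n V bot top →
    GS (∑ i, h i) Ω' E Δ → 0 < Δ → 1 ≤ Lg → C * (Lg : ℝ) ^ 2 ≤ V → V ≤ 2 ^ Lg → I.card ≤ 2 ^ Lg →
    Fintype.card Q ≤ 2 ^ Lg → E * (V : ℝ) ^ 2 ≤ 1 → 0 ≤ c →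
    C * (Lg : ℝ) ^ 7 * (c + 1) ≤ Δ * (V : ℝ) ^ 2 → nsq Ω = 1 → nsq τ = 1 → Prj P2 →
    Loc (fun z => ht z < bot) P2 → P2 *ᵥ τ = τ → Real.exp (-c) ≤ γ → nr (P2 *ᵥ Ω') ≤ γ →
    γ / 2 ≤ ‖star Ω' ⬝ᵥ τ‖ → 9 / 10 ≤ ‖star Ω ⬝ᵥ Ω'‖ → 0 < s → s < 1 → 0 ≤ v →
    (∀ j, j < n → Mom3 (fl ht (a j) (b j) V) Ω s v ∧ Mom3 (fl ht (a j) (b j) 0) τ s v) →
    ∑ j ∈ Finset.range n, (MI (fl ht (a j) (b j) V) Ω - MI (fl ht (a j) (b j) 0) τ) ≤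
      C * ((Lg : ℝ) ^ 2 * (c + 1 + n) + n * ((v + 1) / s)) := by
  refine ⟨10 ^ 10, by norm_num, ?_⟩
  intro Λ Q ι _ _ _ _ _ _ _ _ h Z I ht a b n V bot top L E Δ c γ s v Ω' Ω τ P2 hT hW hG hΔ hL hV
    hV2 hI hQ hE c0 hC hΩ hτ hP hPl hPτ hγ hγ1 hγ2 hΩ' hs hs1 hv hm
  have hV0 : 10 ^ 10 * L ^ 2 ≤ V := by exact_mod_cast hV
  have hV' : 10 ^ 9 * L ^ 2 ≤ V := by omega
  have hL2 : L ≤ L ^ 2 := Nat.le_self_pow two_ne_zero L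
  have hL' : (1 : ℝ) ≤ L := by exact_mod_cast hL
  have hL3 : (1 : ℝ) ≤ (L : ℝ) ^ 2 := one_le_pow₀ hL'
  obtain ⟨p, hp1, hp2⟩ := CoreA.ex_p (show 2 ≤ V by omega)
  obtain ⟨m, hm1, hm2⟩ := CoreA.ex_m hL
  obtain ⟨Ep, hE0, hE1, hE2, hE3⟩ := CoreA.ex_E hL hV'
  have T1 : (1 : ℝ) ≤ (2 ^ L) ^ 2 := one_le_pow₀ (one_le_pow₀ one_le_two)
  have q0 : (0 : ℝ) < Fintype.card Q := by exact_mod_cast Fintype.card_pos
  have q1 : (Fintype.card Q : ℝ) ≤ 2 ^ L := by exact_mod_cast hQ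
  obtain ⟨b0, b1, b2⟩ := CoreA.beta (V := V) (E := Ep) (P := 2 ^ p) (M := 2 ^ m) hL'
    (by exact_mod_cast (show 0 < V by omega)) (by exact_mod_cast hE3) (by exact_mod_cast hE2)
    (by exact_mod_cast (show 2 ^ p ≤ V by omega)) (by exact_mod_cast hp2)
    (one_le_pow₀ one_le_two) (by exact_mod_cast hm2) rfl
  have hlog := CoreA.hlog hL (le_refl (10 ^ 9 * L ^ 2)) q0 q1
  rw [Nat.cast_mul, Nat.cast_pow, Nat.cast_pow, Nat.cast_ofNat] at hlog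
  refine Flow2A.fin hL' c0 (Nat.cast_nonneg n) hs hv (flow2A Λ Q ι h Z I ht a b n V bot top
    (2 / (10 ^ 9 * (L : ℝ) ^ 2)) (1 / (2 * (2 ^ L) ^ 2)) L E Δ _ c γ s v (2 * (12 + v) / s) L L L
    (3 * L + 4) p m Ep Ω' Ω τ P2 hT hW hG hΔ (by positivity) ?_ (by positivity) ?_ (by linarith)
    hL (by omega) hE0 ?_ hm1 (CoreA.herr (Nat.cast_nonneg _)
      (by exact_mod_cast hE3.trans hV2) (by exact_mod_cast hI)) (by omega)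
    (by rw [Nat.cast_add, Nat.cast_mul]; rfl) ?_ (Flow2A.hbeta hL' c0 hΔ b2 hC) hΩ hτ hP hPl hPτ
    hγ hγ1 hγ2 hΩ' hs hs1 hv (le_of_eq (mul_div_cancel₀ _ hs.ne').symm) hm)
  · rw [div_le_div_iff₀ (by positivity) (by positivity)]
    linarith
  · rw [div_le_one (by positivity)]
    linarith
  · rw [← mul_div_assoc, div_mul_eq_mul_div, div_le_one (by positivity)]
    linarith
  · rcases le_total E 0 with h1 | h1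
    · exact (mul_nonpos_of_nonneg_of_nonpos b0 h1).trans zero_le_one
    · exact (mul_le_mul_of_nonneg_right b1 h1).trans (by linarith)

end Vale.Agent.P356G
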