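import Vale.Agent.P356G.TailH
import Vale.Agent.P356G.Typ2

/- Sharp start and end. `A = (k j).1`, `B = (k j).2`, `W = (A ∪ B)ᶜ`, index set `range n ×ˢ (univ : Finset (Fin 3))`.
`start2`: `typical` for `Lw W t`, `- Lw Aᶜ (D t)`, `- Lw B (D t)` with thresholds `(x - S W) N`,
`(S Aᶜ + x) N`, `(S B + x) N` (`Mom.compl`, `ent_compl`); all these sets are nested or disjoint (`Lw_Lw`);
tails `≤ 2 exp (- 10 N)` by `tail_hi`, `tail_lo`, `prod_small` (`C = D * D` covers both values of `t` by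
monotonicity, or use `C = D` and `C = D * D`; `η = 1`). `P (tv τ)` is symmetric (`comm_Lw`, `pm_conj` or
`om_comm`); `Mb_const`, then replace `Lc` by the form with `W, Aᶜ, B` on symmetric vectors (`Lw_compl`,
`hf_agree`), `hexp_le_on`. `tens O` commutes with the three logarithms by `tens_comm`.
`end2`: `typical` for `- Lw W t`, `Lw A (D t)`, `Lw Bᶜ (D t)`; with `Y = 2 θ ∑ Lc`,
`|<φ, ξ>| ^ 2 ≤ qf (hexp (-Y)) φ * qf (hexp Y) ξ` (`hexp (Y / 2)` and its inverse, `cs`). -/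

namespace Vale.Agent.P356G

open Matrix Vale.Agent.P356 Filter

namespace Start2A

variable {Λ Q : Type} [Fintype Λ] [DecidableEq Λ] [Fintype Q] [DecidableEq Q] [Nonempty Q]
  {N t : ℕ}

/-- the three sets of a pair -/
def YY (k : Cfg Λ) (r : Fin 3) : Finset Λ := ![(k.1 ∪ k.2)ᶜ, k.1ᶜ, k.2] r

/-- the three operators of a pair -/
noncomputable def XX (Q : Type) [Fintype Q] [DecidableEq Q] (N t : ℕ) (k : Cfg Λ) (r : Fin 3) :
    RM Λ Q N :=
  if r = 0 then Lw Q (YY k r) Finset.univ t else -Lw Q (YY k r) Finset.univ (DD Λ Q * t)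

/-- the three thresholds -/
noncomputable def th (N : ℕ) (τ : (Λ → Q) → ℂ) (x : ℝ) (k : Cfg Λ) (r : Fin 3) : ℝ :=
  if r = 0 then (x - entropy (YY k r) τ) * N else (entropy (YY k r) τ + x) * N

theorem Y_sub {k : Cfg Λ} (h : Disjoint k.1 k.2) (r : Fin 3) : YY k r ⊆ k.1ᶜ := by
  fin_cases r
  · exact Finset.compl_subset_compl.2 Finset.subset_union_left
  · exact subset_rfl
  · exact h.symm.le_compl_right

theorem Y_out {k : Cfg Λ} (h : Disjoint k.1 k.2) {Y : Finset Λ} (hY : Y ⊆ k.2) (r : Fin 3) :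
    Y ⊆ YY k r ∨ Disjoint Y (YY k r) := by
  fin_cases r
  · exact .inr (disjoint_compl_right.mono_left (hY.trans Finset.subset_union_right))
  · exact .inl (hY.trans h.symm.le_compl_right)
  · exact .inl hY

theorem nest {n : ℕ} {k : ℕ → Cfg Λ} (hd : ∀ j, j < n → Disjoint (k j).1 (k j).2)
    (hk : ∀ i j, i < j → j < n → (k i).2ᶜ ⊆ (k j).1) {i j : ℕ} (hi : i < n) (hj : j < n)
    (r r' : Fin 3) (s s' : ℕ) : Commute (Lw Q (YY (k i) r) (Finset.univ : Finset (Fin N)) s)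
      (Lw Q (YY (k j) r') Finset.univ s') := by
  have a : ∀ {Y Y' : Finset Λ} {s s' : ℕ}, Y ⊆ Y' ∨ Disjoint Y Y' →
      Commute (Lw Q Y' (Finset.univ : Finset (Fin N)) s') (Lw Q Y Finset.univ s) := fun h =>
    Lw_Lw _ _ (h.imp (fun h => ⟨h, subset_rfl⟩) .inl)
  have b : ∀ {i j : ℕ} (r r' : Fin 3), i < j → j < n →
      YY (k j) r' ⊆ YY (k i) r ∨ Disjoint (YY (k j) r') (YY (k i) r) := fun r r' h h' =>
    Y_out (hd _ (h.trans h')) ((Y_sub (hd _ h') r').trans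
      (compl_le_iff_compl_le.1 (hk _ _ h h'))) r
  rcases lt_trichotomy i j with h | rfl | h
  · exact a (b r r' h hj)
  · by_cases h1 : r = 1
    · exact a (.inl (h1 ▸ Y_sub (hd i hi) r'))
    by_cases h2 : r' = 1
    · exact (a (.inl (h2 ▸ Y_sub (hd i hi) r))).symm
    by_cases h3 : r' = 2
    · exact a (h3 ▸ Y_out (hd i hi) subset_rfl r)
    by_cases h4 : r = 2
    · exact (a (h4 ▸ Y_out (hd i hi) subset_rfl r')).symm
    obtain rfl : r = r' := by omega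
    exact a (.inl subset_rfl)
  · exact (a (b r' r h hi)).symm

omit [Nonempty Q] in
theorem comm_X {Z : RM Λ Q N} {k : Cfg Λ} {r : Fin 3}
    (h : ∀ s, Commute Z (Lw Q (YY k r) Finset.univ s)) : Commute Z (XX Q N t k r) := by
  unfold XX
  split_ifs
  exacts [h _, (h _).neg_right]

theorem X_herm (k : Cfg Λ) (r : Fin 3) : (XX Q N t k r).IsHermitian := by
  unfold XX
  split_ifs
  exacts [Lw_herm _ _ _, (Lw_herm _ _ _).neg]

theorem pm_Lw (π : Equiv.Perm (Fin N)) (Y : Finset Λ) (s : ℕ) :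
    Commute (pm Q Finset.univ π) (Lw Q Y Finset.univ s) :=
  RepE0A.clog (om_comm s (.inl ⟨Finset.subset_univ _, fun _ => by simp⟩))

theorem Lc_eq (k : Cfg Λ) {w : (Fin N → Λ → Q) → ℂ} (hw : Sy Finset.univ w) :
    Lc Q t k Finset.univ *ᵥ w = (∑ r, XX Q N t k r) *ᵥ w := by
  rw [Lc, sub_mulVec, sub_mulVec, Lw_compl k.1 _ hw, ← Lw_compl k.2 _ hw, Fin.sum_univ_three]
  simp [XX, YY, add_mulVec, neg_mulVec, sub_eq_add_neg]

theorem th_sum (N : ℕ) (τ : (Λ → Q) → ℂ) (x : ℝ) (k : Cfg Λ) :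
    ∑ r, th N τ x k r = (MI k τ + 3 * x) * N := by
  rw [Fin.sum_univ_three, MI, ← ent_compl k.1, ← ent_compl (k.1 ∪ k.2)]
  simp [th, YY, -Finset.compl_union]
  ring

theorem tails (ht : DD Λ Q ≤ t) {τ : (Λ → Q) → ℂ} (hτ : nsq τ = 1) {s v x : ℝ} (hs : 0 < s)
    (hs1 : s < 1) (hv : 0 ≤ v) (hx : 2 * (12 + v) ≤ s * x)
    (h : ∏ m ∈ Finset.range N, (((DD Λ Q * t : ℕ) : ℝ) + m) / (m + 1) ≤ Real.exp (1 * N))
    {k : Cfg Λ} (hM : Mom3 k τ s v) (r : Fin 3) :
    nr (hf (XX Q N t k r) (ind (th N τ x k r)) *ᵥ tv N τ) ≤ 2 * Real.exp (-(5 * N)) := by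
  have m : Mom (YY k r) τ s v := by
    fin_cases r
    exacts [hM.2.2.compl hs hs1, hM.1.compl hs hs1, hM.2.1]
  have x0 : 0 < x := (mul_pos_iff_of_pos_left hs).1 (by linarith)
  have x1 : 24 ≤ x := by nlinarith
  have N0 : (0 : ℝ) ≤ N := Nat.cast_nonneg N
  have e0 := Real.exp_pos (-(10 * N : ℝ))
  refine (Real.sqrt_le_left (by positivity)).2 (le_trans ?_ (show 2 * Real.exp (-(10 * N)) ≤ _ by
    rw [mul_pow, sq (Real.exp _), ← Real.exp_add, show -(5 * N : ℝ) + -(5 * N) = -(10 * N) by ring]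
    linarith))
  unfold XX th
  split_ifs
  · have h1 : (2 : ℝ) ^ N ≤ Real.exp (N * 1) := by
      rw [Real.exp_nat_mul]
      exact pow_le_pow_left₀ zero_le_two (by linarith [Real.add_one_le_exp 1]) N
    refine (tail_hi ht _ hτ hs hs1 m x).trans ((add_le_add ((mul_le_mul_of_nonneg_left
      (mul_le_mul h1 h (Finset.prod_nonneg fun m _ => by positivity) (Real.exp_pos _).le)
      (Real.exp_pos _).le).trans ?_) (Real.exp_le_exp.2 ?_)).trans_eq (two_mul _).symm)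
    · rw [← Real.exp_add, ← Real.exp_add]
      exact Real.exp_le_exp.2 (by nlinarith)
    · nlinarith
  · refine (tail_lo (ht.trans (Nat.le_mul_of_pos_left _ DD_pos)) _ hτ hs hs1 m x).trans
      (le_trans (Real.exp_le_exp.2 ?_) (le_mul_of_one_le_left e0.le one_le_two))
    nlinarith

theorem c3' {n : ℕ} {a e : ℝ}
    (h : a ≤ (Finset.range n ×ˢ (Finset.univ : Finset (Fin 3))).card * (2 * e)) :
    a ≤ 6 * n * e := by
  rw [Finset.card_product, Finset.card_range, Finset.card_univ, Fintype.card_fin] at h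
  push_cast at h
  linarith

end Start2A

open Start2A in
theorem start2 (Λ Q : Type) [Fintype Λ] [DecidableEq Λ] [Fintype Q] [DecidableEq Q] [Nonempty Q] :
    ∀ᶠ δ in nhdsWithin (0 : ℝ) (Set.Ioi 0), ∀ᶠ N : ℕ in atTop,
      ∀ (θ s v x : ℝ) (n : ℕ) (k : ℕ → Cfg Λ) (τ : (Λ → Q) → ℂ), 0 ≤ θ → 0 < s → s < 1 → 0 ≤ v →
        2 * (12 + v) ≤ s * x → (∀ j, j < n → Disjoint (k j).1 (k j).2) →
        (∀ i j, i < j → j < n → (k i).2ᶜ ⊆ (k j).1) → nsq τ = 1 →
        (∀ j, j < n → Mom3 (k j) τ s v) → ∃ P : RM Λ Q N, Prj P ∧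
          (∀ π, Commute (pm Q Finset.univ π) P) ∧
          (∀ (U : Finset Λ) (O : Matrix (Λ → Q) (Λ → Q) ℂ), Loc (fun z => z ∈ U) O →
            (∀ j, j < n → U ⊆ (k j).1) → Commute (tens N O) P) ∧
          nr (tv N τ - P *ᵥ tv N τ) ≤ 6 * n * Real.exp (-(5 * N)) ∧
          qf (pr (fun j => Mb Q θ (t0 δ N) fun _ : Fin N => k j) n) (P *ᵥ tv N τ) ≤
            Real.exp (2 * θ * (∑ j ∈ Finset.range n, (MI (k j) τ + 3 * x)) * N) := by
  filter_upwards [prod_small (DD Λ Q) 1 one_pos, self_mem_nhdsWithin] with δ h1 hδ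
  have hδ0 : 0 < δ := hδ
  filter_upwards [h1, eventually_ge_atTop ⌈(DD Λ Q : ℝ) / δ⌉₊] with N h2 hN
  intro θ s v x n k τ hθ hs hs1 hv hx hd hk hτ hM
  have ht : DD Λ Q ≤ t0 δ N := by
    have a1 : (DD Λ Q : ℝ) / δ ≤ N := Nat.ceil_le.1 hN
    rw [div_le_iff₀' hδ0] at a1
    exact_mod_cast a1.trans (Nat.le_ceil _)
  have ht0 : 0 < t0 δ N := DD_pos.trans_le ht
  generalize t0 δ N = t at h2 ht ht0
  have hj : ∀ p ∈ Finset.range n ×ˢ (Finset.univ : Finset (Fin 3)), p.1 < n := fun p hp =>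
    Finset.mem_range.1 (Finset.mem_product.1 hp).1
  have hc : ∀ p ∈ Finset.range n ×ˢ (Finset.univ : Finset (Fin 3)),
      ∀ q ∈ Finset.range n ×ˢ (Finset.univ : Finset (Fin 3)),
        Commute (XX Q N t (k p.1) p.2) (XX Q N t (k q.1) q.2) := fun p hp q hq =>
    comm_X fun s => (comm_X fun s' => nest hd hk (hj q hq) (hj p hp) _ _ _ _).symm
  obtain ⟨P, hP, c1, c2, c3⟩ := typical (Finset.range n ×ˢ (Finset.univ : Finset (Fin 3)))
    (fun p => XX Q N t (k p.1) p.2) (fun p => th N τ x (k p.1) p.2) (fun p _ => X_herm _ _) hc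
    (tv N τ) fun p hp => tails ht hτ hs hs1 hv hx h2 (hM _ (hj p hp)) p.2
  have c4 : ∀ π, Commute (pm Q Finset.univ π) P := fun π =>
    c1 _ fun p _ => comm_X fun s => pm_Lw _ _ _
  refine ⟨P, hP, c4, fun U O hO hU => c1 _ fun p hp => comm_X fun s => comm_Lw s fun π _ =>
    tens_comm (.inr ((disjoint_compl_right.mono_left (hU _ (hj p hp))).mono_right
      (Y_sub (hd _ (hj p hp)) _))) hO π, c3' c2, ?_⟩
  have hu : Sy Finset.univ (P *ᵥ tv N τ) := (sy_tv _ τ).mulVec fun π _ => c4 π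
  have a1 : (((2 * θ : ℝ) : ℂ) • ∑ p ∈ Finset.range n ×ˢ (Finset.univ : Finset (Fin 3)),
      XX Q N t (k p.1) p.2).IsHermitian := RepEA.hs (RepE0A.herm_sum _ fun p => X_herm _ _) _
  have e1 := hf_agree (RepEA.hs (RepE0A.herm_sum (Finset.range n) fun j =>
    Lc_herm (Q := Q) (t := t) (k j) Finset.univ) (2 * θ)) a1 (S := {w | Sy Finset.univ w})
    (fun w hw => Sy.mulVec hw fun π _ =>
      (Commute.sum_right _ _ _ fun j _ => RepFA.pm_Lc _ π).smul_right _)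
    (fun w hw => by
      rw [smul_mulVec, smul_mulVec, Finset.sum_product, sum_mulVec, sum_mulVec]
      exact congrArg _ (Finset.sum_congr rfl fun j _ => Lc_eq _ hw))
    (fun y => (Real.exp y : ℂ)) _ hu
  have h3 := hexp_le_on a1 hP
    ((Commute.sum_right _ _ _ fun p hp => (c1 _ (hc p hp)).symm).smul_right _)
    (x := 2 * θ * (∑ j ∈ Finset.range n, (MI (k j) τ + 3 * x)) * N) (fun u hu => by
      have h4 := Finset.sum_le_sum (c3 u hu)
      rw [← qf_sum, ← Finset.sum_mul, Finset.sum_product (f := fun p => th N τ x (k p.1) p.2)] at h4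
      simp only [th_sum, ← Finset.sum_mul] at h4
      rw [qf_smul, mul_assoc (2 * θ), mul_assoc (2 * θ)]
      exact mul_le_mul_of_nonneg_left h4 (by positivity)) (P *ᵥ tv N τ)
    (by rw [mulVec_mulVec, hP.2])
  have h4 := hP.bd.nsq (tv N τ)
  rw [nsq_tv, hτ, one_pow, one_pow, one_mul] at h4
  rw [qf, ip, Mb_const k n ht0 hd hk hu, hexp, e1]
  exact h3.trans (mul_le_of_le_one_right (Real.exp_pos _).le h4)

end Vale.Agent.P356G
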