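import Vale.Agent.P356G.FlowR2
import Vale.Agent.P356G.Start2
import Vale.Agent.P356G.End2

/- Compare with CoreA.lean. `flow1` with `y = exp (-β Δ)` gives `S = sweep ^ k = cf |Ω'><Ω'| + err`,
`|err| ≤ 2 exp (-β Δ) ≤ cf γ / 10`. So `Bd (S * P2) (1.1 cf γ)` and `|<Ω, S τ>| ≥ 0.35 cf γ`.
`P` from `start2` (pairs `fl .. 0`, state `τ`), `P'` from `end2` (pairs `fl .. V`, state `Ω`),
`ζ = P (tv τ)` symmetric, fixed by `tens P2`, `ξ = tens S ζ` symmetric (`tens_comm_univ`).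
`<P' tv Ω, ξ> = <Ω, S τ> ^ N - <tv Ω, tens (S P2) (tv τ - ζ)> - <tv Ω - P' tv Ω, tens (S P2) ζ>` (`dot_tv`,
`tens_tv`, `tens_mul`, `tens_bd'`), so its norm is at least
`(0.35 cf γ) ^ N - 12 n exp (-5 N) (1.1 cf γ) ^ N ≥ (cf γ / 6) ^ N` for large `N`. Chain `end2`, `flowR2`,
`start2`, take logarithms, divide by `N`. -/

namespace Vale.Agent.P356G

open Matrix Vale.Agent.P356 Filter

namespace Flow2AA

theorem nr_one {n : Type} [Fintype n] {v : n → ℂ} (h : nsq v = 1) : nr v = 1 := by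
  rw [nr, h, Real.sqrt_one]

theorem exp_ge : (20 : ℝ) ≤ Real.exp 3 ∧ (36 : ℝ) ≤ Real.exp 4 := by
  have h : (2.718 : ℝ) ≤ Real.exp 1 := by linarith [Real.exp_one_gt_d9]
  have h3 := pow_le_pow_left₀ (by norm_num) h 3
  have h4 := pow_le_pow_left₀ (by norm_num) h 4
  rw [← Real.exp_nat_mul] at h3 h4
  norm_num at h3 h4
  exact ⟨by linarith, by linarith⟩

theorem small {c cf γ B : ℝ} (hc : Real.exp (-2) ≤ cf) (hγ : Real.exp (-c) ≤ γ) (hB : c + 5 ≤ B) :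
    Real.exp (-B) + Real.exp (-B) ≤ cf * γ / 10 := by
  have h1 : Real.exp (-B) ≤ Real.exp (-(c + 5)) := Real.exp_le_exp.2 (by linarith)
  have h2 : Real.exp (-2) * Real.exp (-c) ≤ cf * γ :=
    mul_le_mul hc hγ (Real.exp_pos _).le ((Real.exp_pos _).le.trans hc)
  have h3 : Real.exp (-2) * Real.exp (-c) = Real.exp 3 * Real.exp (-(c + 5)) := by
    rw [← Real.exp_add, ← Real.exp_add]
    ring_nf
  have h4 := mul_le_mul_of_nonneg_right exp_ge.1 (Real.exp_pos (-(c + 5))).le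
  linarith

theorem large (n : ℕ) : ∀ᶠ N : ℕ in atTop, ∀ g : ℝ, 0 ≤ g →
    (g / 6) ^ N + 2 * ((11 / 10 * g) ^ N * (6 * n * Real.exp (-(5 * N)))) ≤ (7 / 20 * g) ^ N := by
  have h1 := (tendsto_pow_atTop_nhds_zero_of_lt_one (r := (11 / 21 : ℝ)) (by norm_num)
    (by norm_num)).const_mul (1 + 12 * (n : ℝ))
  rw [mul_zero] at h1
  filter_upwards [h1.eventually (ge_mem_nhds one_pos)] with N hN g hg
  have h2 : Real.exp (-(5 * N)) ≤ (1 / 6) ^ N := by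
    have h3 : Real.exp (-5) ≤ 1 / 6 := by
      rw [Real.exp_neg, ← one_div]
      exact one_div_le_one_div_of_le (by norm_num) (by linarith [Real.add_one_le_exp 5])
    have h4 := pow_le_pow_left₀ (Real.exp_pos _).le h3 N
    rwa [← Real.exp_nat_mul, show (N : ℝ) * -5 = -(5 * N) by ring] at h4
  have h3 : (g / 6) ^ N ≤ (11 / 60 * g) ^ N := pow_le_pow_left₀ (by positivity) (by linarith) N
  have h4 : (11 / 10 * g) ^ N * (1 / 6) ^ N = (11 / 60 * g) ^ N := by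
    rw [← mul_pow]; congr 1; ring
  have h5 : (11 / 60 * g) ^ N = (11 / 21) ^ N * (7 / 20 * g) ^ N := by
    rw [← mul_pow]; congr 1; ring
  have h6 : (11 / 10 * g) ^ N * (6 * n * Real.exp (-(5 * N))) ≤
      (11 / 10 * g) ^ N * (6 * n * (1 / 6) ^ N) := by gcongr
  have h7 := mul_le_mul_of_nonneg_right hN (show 0 ≤ (7 / 20 * g) ^ N by positivity)
  calc _ ≤ (11 / 60 * g) ^ N + 2 * ((11 / 10 * g) ^ N * (6 * n * (1 / 6) ^ N)) := by linarith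
    _ = (11 / 60 * g) ^ N + 12 * n * ((11 / 10 * g) ^ N * (1 / 6) ^ N) := by ring
    _ = (1 + 12 * n) * (11 / 21) ^ N * (7 / 20 * g) ^ N := by rw [h4, h5]; ring
    _ ≤ _ := by linarith

theorem root {u A B C : ℝ} {N : ℕ} (hN : 0 < N)
    (h : (u ^ N) ^ 2 * Real.exp (A * N) ≤ Real.exp (B * N) * Real.exp (C * N)) :
    u ^ 2 * Real.exp A ≤ Real.exp (B + C) := by
  refine le_of_pow_le_pow_left₀ hN.ne' (by positivity) ?_
  rw [mul_pow, ← Real.exp_nat_mul, ← Real.exp_nat_mul, ← pow_mul, mul_comm 2, pow_mul,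
    mul_add, Real.exp_add, mul_comm (N : ℝ), mul_comm (N : ℝ), mul_comm (N : ℝ)]
  exact h

theorem fin {c cf γ A B : ℝ} (hc : Real.exp (-2) ≤ cf) (hγ : Real.exp (-c) ≤ γ)
    (h : (cf * γ / 6) ^ 2 * Real.exp A ≤ Real.exp B) : A ≤ 2 * c + 8 + B := by
  have h2 : Real.exp (-2) * Real.exp (-c) ≤ cf * γ :=
    mul_le_mul hc hγ (Real.exp_pos _).le ((Real.exp_pos _).le.trans hc)
  have h3 : Real.exp (-4) ≤ 1 / 36 := by
    rw [Real.exp_neg, ← one_div]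
    exact one_div_le_one_div_of_le (by norm_num) exp_ge.2
  have h4 : (Real.exp (-2) * Real.exp (-c)) ^ 2 * Real.exp (-4) ≤ (cf * γ) ^ 2 * (1 / 36) :=
    mul_le_mul (pow_le_pow_left₀ (by positivity) h2 2) h3 (Real.exp_pos _).le (sq_nonneg _)
  have h5 : (cf * γ) ^ 2 * (1 / 36) = (cf * γ / 6) ^ 2 := by ring
  have h6 := (mul_le_mul_of_nonneg_right (h4.trans h5.le) (Real.exp_pos A).le).trans h
  rw [sq, ← Real.exp_add, ← Real.exp_add, ← Real.exp_add, ← Real.exp_add, Real.exp_le_exp] at h6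
  linarith

theorem near {n : Type} [Fintype n] [DecidableEq n] {S P2 : Matrix n n ℂ} {Ω' Ω τ : n → ℂ}
    {cf γ : ℝ} (hc : 0 < cf) (hγ : 0 < γ) (h1 : nsq Ω' = 1) (hΩ : nsq Ω = 1) (hτ : nsq τ = 1)
    (hP : Prj P2) (hS : ∀ ζ, nr (S *ᵥ ζ - ((cf : ℂ) * (star Ω' ⬝ᵥ ζ)) • Ω') ≤ cf * γ / 10 * nr ζ)
    (hγ1 : nr (P2 *ᵥ Ω') ≤ γ) (hγ2 : γ / 2 ≤ ‖star Ω' ⬝ᵥ τ‖) (hΩ' : 9 / 10 ≤ ‖star Ω ⬝ᵥ Ω'‖) :
    Bd (S * P2) (11 / 10 * (cf * γ)) ∧ 7 / 20 * (cf * γ) ≤ ‖star Ω ⬝ᵥ (S *ᵥ τ)‖ := by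
  have hn : ‖(cf : ℂ)‖ = cf := by rw [Complex.norm_real, Real.norm_of_nonneg hc.le]
  have hg : 0 < cf * γ := mul_pos hc hγ
  refine ⟨fun v => ?_, ?_⟩
  · have a1 := nr_add (S *ᵥ (P2 *ᵥ v) - ((cf : ℂ) * (star Ω' ⬝ᵥ (P2 *ᵥ v))) • Ω')
      (((cf : ℂ) * (star Ω' ⬝ᵥ (P2 *ᵥ v))) • Ω')
    rw [sub_add_cancel, nr_smul, nr_one h1, mul_one, norm_mul, hn] at a1
    have a2 : star Ω' ⬝ᵥ (P2 *ᵥ v) = star (P2 *ᵥ Ω') ⬝ᵥ v := by
      rw [star_mulVec, hP.1.eq, dotProduct_mulVec]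
    have a3 := (dot_le (P2 *ᵥ Ω') v).trans (mul_le_mul_of_nonneg_right hγ1 (nr_nonneg v))
    rw [← a2] at a3
    have a4 := mul_le_mul_of_nonneg_left a3 hc.le
    have a5 := hP.bd v
    rw [one_mul] at a5
    have a6 := (hS (P2 *ᵥ v)).trans (mul_le_mul_of_nonneg_left a5 (by positivity))
    rw [← mulVec_mulVec]
    linarith
  · have a1 := dot_le Ω (S *ᵥ τ - ((cf : ℂ) * (star Ω' ⬝ᵥ τ)) • Ω')
    have a2 := hS τ
    rw [nr_one hτ, mul_one] at a2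
    rw [nr_one hΩ, one_mul, dotProduct_sub, dotProduct_smul, smul_eq_mul] at a1
    have a3 := norm_sub_norm_le ((cf : ℂ) * (star Ω' ⬝ᵥ τ) * (star Ω ⬝ᵥ Ω')) (star Ω ⬝ᵥ (S *ᵥ τ))
    rw [norm_sub_rev, norm_mul, norm_mul, hn] at a3
    have a4 : cf * (γ / 2) * (9 / 10) ≤ cf * ‖star Ω' ⬝ᵥ τ‖ * ‖star Ω ⬝ᵥ Ω'‖ := by gcongr
    linarith

theorem three {n : Type} [Fintype n] {X : Matrix n n ℂ} {u u' w w' : n → ℂ} {r e : ℝ} (hr : 0 ≤ r)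
    (hX : Bd X r) (hu : nr u = 1) (hw : nr w' ≤ 1) (h1 : nr (u - u') ≤ e) (h2 : nr (w - w') ≤ e) :
    ‖star u ⬝ᵥ (X *ᵥ w)‖ ≤ ‖star u' ⬝ᵥ (X *ᵥ w')‖ + 2 * (r * e) := by
  have e1 : star u ⬝ᵥ (X *ᵥ w) = star u' ⬝ᵥ (X *ᵥ w') + star u ⬝ᵥ (X *ᵥ (w - w')) +
      star (u - u') ⬝ᵥ (X *ᵥ w') := by
    rw [mulVec_sub, dotProduct_sub, star_sub, sub_dotProduct]; ring
  have a1 := dot_le u (X *ᵥ (w - w'))
  rw [hu, one_mul] at a1
  have a2 := a1.trans ((hX _).trans (mul_le_mul_of_nonneg_left h2 hr))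
  have a3 := (hX w').trans (mul_le_of_le_one_right hr hw)
  have a4 := (dot_le (u - u') (X *ᵥ w')).trans
    (mul_le_mul h1 a3 (nr_nonneg _) ((nr_nonneg _).trans h1))
  have a5 := norm_add₃_le (a := star u' ⬝ᵥ (X *ᵥ w')) (b := star u ⬝ᵥ (X *ᵥ (w - w')))
    (c := star (u - u') ⬝ᵥ (X *ᵥ w'))
  rw [e1]
  linarith

variable {Λ : Type} [Fintype Λ] [DecidableEq Λ]

theorem disj (ht : Λ → ℕ) {a b : ℕ} (d : ℕ) (h : a ≤ b) :
    Disjoint (fl ht a b d).1 (fl ht a b d).2 := by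
  rw [Finset.disjoint_left]
  intro z h1 h2
  simp only [fl, flat, Finset.mem_filter] at h1 h2
  omega

theorem nest (ht : Λ → ℕ) {a b a' b' d : ℕ} (h : b + 2 * d ≤ a') :
    (fl ht a b d).2ᶜ ⊆ (fl ht a' b' d).1 := by
  intro z h1
  simp only [fl, flat, Finset.mem_compl, Finset.mem_filter, Finset.mem_univ, true_and] at h1 ⊢
  omega

end Flow2AA

theorem flow2A (Λ Q ι : Type) [Fintype Λ] [DecidableEq Λ] [Fintype Q] [DecidableEq Q] [Nonempty Q]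
    [Fintype ι] [DecidableEq ι] [Nonempty ι] (h : ι → Matrix (Λ → Q) (Λ → Q) ℂ) (Z : ι → Finset Λ)
    (I : Finset ι) (ht : Λ → ℕ) (a b : ℕ → ℕ) (n V bot top : ℕ) (θ ε0 J E Δ β c γ s v x : ℝ)
    (s1 s2 l1 Jd p m0 Ep : ℕ) (Ω' Ω τ : (Λ → Q) → ℂ) (P2 : Matrix (Λ → Q) (Λ → Q) ℂ)
    (hT : Terms2 h Z I ht bot top l1 s1 s2 J) (hW : Wins a b n V bot top)
    (hG : GS (∑ i, h i) Ω' E Δ) (hΔ : 0 < Δ) (hθ : 0 < θ) (hθ1 : θ ≤ 1 / 16) (hε : 0 < ε0)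
    (hε1 : ε0 ≤ 1) (hJ : 0 < J) (hl : 0 < l1) (hJd : 1 ≤ Jd) (hEp : 0 < Ep)
    (hlog : 4 * θ * Real.log ((3 * (Fintype.card Q : ℝ) ^ s1 + 2) / ε0) ≤ 1)
    (hm0 : 2 * s2 * (1 + 2 * s1) ≤ 2 ^ m0) (herr : Ep * I.card * (ε0 + 6 * s1 / 2 ^ Jd) ≤ 1)
    (hV : 2 ^ p + Ep * ((Jd + 1) * l1) ≤ V)
    (hβ0 : β = Ep / (2 ^ m0 * (500 * J * (2 * ((Jd + 2) * l1) / 2 ^ p)))) (hE : β * E ≤ 1)
    (hβ : c + 5 ≤ β * Δ) (hΩ : nsq Ω = 1) (hτ : nsq τ = 1) (hP : Prj P2)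
    (hPl : Loc (fun z => ht z < bot) P2) (hPτ : P2 *ᵥ τ = τ) (hγ : Real.exp (-c) ≤ γ)
    (hγ1 : nr (P2 *ᵥ Ω') ≤ γ) (hγ2 : γ / 2 ≤ ‖star Ω' ⬝ᵥ τ‖) (hΩ' : 9 / 10 ≤ ‖star Ω ⬝ᵥ Ω'‖)
    (hs : 0 < s) (hs1 : s < 1) (hv : 0 ≤ v) (hx : 2 * (12 + v) ≤ s * x)
    (hm : ∀ j, j < n → Mom3 (fl ht (a j) (b j) V) Ω s v ∧ Mom3 (fl ht (a j) (b j) 0) τ s v) :
    2 * θ * ∑ j ∈ Finset.range n, (MI (fl ht (a j) (b j) V) Ω - MI (fl ht (a j) (b j) 0) τ) ≤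
      2 * c + 8 + 2 * n + 12 * θ * n * x := by
  have hA : (0 : ℝ) < 500 * J * (2 * ((Jd + 2) * l1) / 2 ^ p) := by positivity
  have hβp : 0 ≤ β := by rw [hβ0]; positivity
  have hγ0 : 0 < γ := (Real.exp_pos _).trans_le hγ
  obtain ⟨ε1, hε1', hfl⟩ := flow1 h hT.ps hG hΔ.le β _ hβp hE (Real.exp_pos (-(β * Δ)))
  obtain ⟨δ, e1, e2, e3⟩ := ((flowR2 Λ Q ι h Z I ht a b n V bot top θ ε0 J s1 s2 l1 Jd p m0 Ep hT hW
    hθ hθ1 hε hε1 hJ hl hJd hEp hlog hm0 herr hV).and ((start2 Λ Q).and (end2 Λ Q))).exists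
  obtain ⟨N, f1, f2, f3, f4, hN⟩ :=
    (e1.and (e2.and (e3.and ((Flow2AA.large n).and (eventually_gt_atTop 0))))).exists
  obtain ⟨m, g1, g2, hm'⟩ := (f1.and (((tendsto_pow_atTop_atTop_of_one_lt
    (one_lt_two (α := ℝ))).eventually_ge_atTop (1 / (ε1 * (500 * J *
      (2 * ((Jd + 2) * l1) / 2 ^ p))))).and (eventually_ge_atTop m0))).exists
  generalize 500 * J * (2 * (((Jd : ℝ) + 2) * l1) / 2 ^ p) = A at hA hβ0 g1 g2
  obtain ⟨cf, hc, -, hξ⟩ := hfl (1 / (2 ^ m * A)) (Ep * 2 ^ (m - m0)) (by positivity)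
    (by
      rw [div_le_iff₀ (by positivity)] at g2 ⊢
      linarith)
    (by
      obtain ⟨k, rfl⟩ := Nat.exists_eq_add_of_le hm'
      rw [hβ0, add_tsub_cancel_left]
      push_cast
      rw [pow_add]
      field_simp)
  generalize sweep h (1 / (2 ^ m * A)) ^ (Ep * 2 ^ (m - m0)) = S at g1 hξ
  have hc0 : 0 < cf := (Real.exp_pos _).trans_le hc
  have hg : 0 < cf * γ := mul_pos hc0 hγ0
  obtain ⟨b1, b2⟩ := Flow2AA.near hc0 hγ0 hG.1 hΩ hτ hP (fun ζ => (hξ ζ).trans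
    (mul_le_mul_of_nonneg_right (Flow2AA.small hc hγ hβ) (nr_nonneg ζ))) hγ1 hγ2 hΩ'
  obtain ⟨P, hPp, hPs, hPc, hPn, hPq⟩ := f2 θ s v x n (fun j => fl ht (a j) (b j) 0) τ hθ.le hs hs1 hv
    hx (fun j hj => Flow2AA.disj ht 0 (by have := hW.mid j hj; omega))
    (fun i j hij hj => Flow2AA.nest ht (by have := hW.sep i j hij hj; omega)) hτ
    fun j hj => (hm j hj).2
  obtain ⟨P', -, hPn', hPq'⟩ := f3 θ s v x n (fun j => fl ht (a j) (b j) V) Ω hθ.le hs hs1 hv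
    hx (fun j hj => Flow2AA.disj ht V (by have := hW.mid j hj; omega))
    (fun i j hij hj => Flow2AA.nest ht (by have := hW.sep i j hij hj; omega)) hΩ
    fun j hj => (hm j hj).1
  have hsy : Sy Finset.univ (P *ᵥ tv N τ) := (sy_tv _ τ).mulVec fun π _ => hPs π
  have hsy' : Sy Finset.univ (tens N S *ᵥ (P *ᵥ tv N τ)) :=
    hsy.mulVec fun π _ => (tens_comm_univ S π).symm
  have hcm : Commute (tens N P2) P := hPc (Finset.univ.filter fun z => ht z < bot) P2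
    (by simpa only [Finset.mem_filter, Finset.mem_univ, true_and] using hPl) fun j hj z hz => by
      have := hW.lo j hj
      simp only [fl, flat, Finset.mem_filter, Finset.mem_univ, true_and] at hz ⊢
      omega
  have hfix : tens N (S * P2) *ᵥ (P *ᵥ tv N τ) = tens N S *ᵥ (P *ᵥ tv N τ) := by
    rw [tens_mul, ← mulVec_mulVec, mulVec_mulVec _ (tens N P2), hcm.eq, ← mulVec_mulVec, tens_tv, hPτ]
  have hτN : nr (tv N τ) = 1 := Flow2AA.nr_one (by rw [nsq_tv, hτ, one_pow])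
  have hΩN : nr (tv N Ω) = 1 := Flow2AA.nr_one (by rw [nsq_tv, hΩ, one_pow])
  have k0 := Flow2AA.three (by positivity) (tens_bd' N (by positivity) b1) hΩN
    (by simpa only [hτN, mul_one] using hPp.bd (tv N τ)) hPn' hPn
  rw [hfix, tens_tv, dot_tv, norm_pow, ← mulVec_mulVec, hPτ] at k0
  have k1 := pow_le_pow_left₀ (by positivity) b2 N
  have k2 : (cf * γ / 6) ^ N ≤ ‖star (P' *ᵥ tv N Ω) ⬝ᵥ (tens N S *ᵥ (P *ᵥ tv N τ))‖ := by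
    linarith [f4 _ hg.le]
  have k3 := (mul_le_mul_of_nonneg_right (pow_le_pow_left₀ (by positivity) k2 2)
    (Real.exp_pos _).le).trans ((hPq' _ hsy').trans ((g1 _ hsy).trans
      (mul_le_mul_of_nonneg_left hPq (Real.exp_pos _).le)))
  have k4 := Flow2AA.fin hc hγ (Flow2AA.root hN k3)
  simp only [Finset.sum_sub_distrib, Finset.sum_add_distrib, Finset.sum_const, Finset.card_range,
    nsmul_eq_mul] at k4 ⊢
  linarith

end Vale.Agent.P356G
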