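import Vale.Agent.P356G.ColE

/- The flow on replicas. `g y = hf (h y) sqrt` (`sqrt_ps`, `hf_loc`), `l = univ.toList`,
`tm i = l[i % l.length]`, `Ls = 2 ^ (m - m0) * l.length`; `sweep_seg` identifies the product.
Collar `j < n`: `a = h0 + (4 j + 2) V`, `b = h0 + (4 j + 3) V`, `own j` = the `y ∈ I` with `Z y` nonempty
and least height in `[h0 + 4 j V, h0 + 4 (j + 1) V)`. If `y ∉ own j` then `Z y` is empty, or lies below
`h0 + (4 j + 1) V`, or above `h0 + (4 j + 4) V` (`l1 ≤ V`, `far`), so `tens_Mb` applies. `1 - ε h y` is a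
contraction for `m` large (`bd_exists`, `bd_of_qf`), `tens_bd`, `tens_comm_univ`; `collar`, `prod`,
`tens_mul`, `tens_tv`, `sy_tv`. -/

namespace Vale.Agent.P356G

open Matrix Vale.Agent.P356 Filter

namespace FlowRA

theorem seg_list {ι n : Type} [Fintype n] [DecidableEq n] (f : ι → Matrix n n ℂ)
    (P : ℕ → Matrix n n ℂ) (l : List ι) (j : ℕ) (h : ∀ i (hi : i < l.length), P (j + i) = f l[i]) :
    seg P j l.length = (l.map f).reverse.prod := by
  induction l generalizing j with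
  | nil => rfl
  | cons a l ih =>
    rw [List.length_cons, seg_succ', ih (j + 1) fun i hi => ?_, List.map_cons, List.reverse_cons,
      List.prod_append, List.prod_singleton]
    · exact congrArg _ (h 0 (by simp))
    · rw [add_assoc, add_comm 1]
      exact h (i + 1) (by simpa using hi)

theorem seg_tens {Λ Q : Type} [Fintype Λ] [DecidableEq Λ] [Fintype Q] [DecidableEq Q] [Nonempty Q]
    (N : ℕ) (P : ℕ → Matrix (Λ → Q) (Λ → Q) ℂ) (k : ℕ) :
    seg (fun i => tens N (P i)) 0 k = tens N (seg P 0 k) := by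
  induction k with
  | zero => exact tens_one.symm
  | succ k ih => rw [seg, seg, ih, tens_mul]

theorem contr {n : Type} [Fintype n] [DecidableEq n] {A : Matrix n n ℂ} (hA : Ps A) {κ : ℝ}
    (hκ : 0 < κ) : ∀ᶠ m : ℕ in atTop, Bd (1 - ((1 / (2 ^ m * κ) : ℝ) : ℂ) • A) 1 := by
  obtain ⟨r, hr, hb⟩ := bd_exists A
  filter_upwards [(tendsto_pow_atTop_atTop_of_one_lt (one_lt_two (α := ℝ))).eventually_ge_atTop
    (r / κ)] with m hm
  have h0 : (0 : ℝ) < 2 ^ m * κ := by positivity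
  have h1 : 1 / (2 ^ m * κ) * r ≤ 1 := by
    rw [div_mul_eq_mul_div, one_mul, div_le_one h0]
    exact (div_le_iff₀ hκ).1 hm
  refine bd_of_qf (Matrix.isHermitian_one.sub ?_) fun v => ?_
  · rw [Matrix.IsHermitian, Matrix.conjTranspose_smul, hA.1.eq, Complex.star_def,
      Complex.conj_ofReal]
  · have a1 := mul_nonneg (one_div_pos.2 h0).le (hA.2 v)
    have a2 := mul_le_mul_of_nonneg_left ((le_abs_self _).trans (hb.qf v)) (one_div_pos.2 h0).le
    have a3 := mul_le_mul_of_nonneg_right h1 (nsq_nonneg v)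
    have a4 := nsq_nonneg v
    rw [qf_sub, qf_one, qf_smul, abs_le]
    constructor <;> linarith

end FlowRA

theorem sweep_seg {ι n : Type} [Fintype ι] [Nonempty ι] [DecidableEq ι] [Fintype n] [DecidableEq n] :
    ∃ tm : ℕ → ι, (∀ (k s : ℕ) (y : ι), ((Finset.range (k * Fintype.card ι)).filter
        fun i => tm (s * Fintype.card ι + i) = y).card = k) ∧
      ∀ (h : ι → Matrix n n ℂ) (ε : ℝ) (k : ℕ),
        seg (fun i => 1 - (ε : ℂ) • h (tm i)) 0 (k * Fintype.card ι) = sweep h ε ^ k := by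
  have hc : 0 < Fintype.card ι := Fintype.card_pos
  have hl : (Finset.univ : Finset ι).toList.length = Fintype.card ι := Finset.length_toList _
  have hm : ∀ i, i % Fintype.card ι < (Finset.univ : Finset ι).toList.length := fun i =>
    (Nat.mod_lt i hc).trans_eq hl.symm
  refine ⟨fun i => (Finset.univ : Finset ι).toList[i % Fintype.card ι]'(hm i), fun k s y => ?_,
    fun h ε k => ?_⟩
  · obtain ⟨r, hr, rfl⟩ := List.getElem_of_mem (Finset.mem_toList.2 (Finset.mem_univ y))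
    have e := Nat.count_modEq_card (k * Fintype.card ι) hc r
    rw [Nat.count_eq_card_filter_range, Nat.mul_div_cancel _ hc, Nat.mul_mod_left,
      if_neg (Nat.not_lt_zero _), add_zero] at e
    refine Eq.trans (congrArg _ (Finset.filter_congr fun i _ => ?_)) e
    rw [(Finset.nodup_toList _).getElem_inj_iff, Nat.ModEq, Nat.mul_add_mod_self_right,
      Nat.mod_eq_of_lt (hr.trans_eq hl)]
  · induction k with
    | zero => rw [zero_mul, pow_zero, seg]
    | succ k ih =>
      rw [add_mul, one_mul, seg_add, ih, pow_succ', zero_add]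
      congr 1
      have := FlowRA.seg_list (fun i => 1 - (ε : ℂ) • h i)
        (fun i => 1 - (ε : ℂ) • h ((Finset.univ : Finset ι).toList[i % Fintype.card ι]'(hm i)))
        (Finset.univ : Finset ι).toList (k * Fintype.card ι) fun i hi => by
          simp only [Nat.mul_add_mod_self_right, Nat.mod_eq_of_lt (hi.trans_eq hl)]
      rwa [hl] at this

theorem flowR (Λ Q ι : Type) [Fintype Λ] [DecidableEq Λ] [Fintype Q] [DecidableEq Q] [Nonempty Q]
    [Fintype ι] [DecidableEq ι] [Nonempty ι] (h : ι → Matrix (Λ → Q) (Λ → Q) ℂ) (Z : ι → Finset Λ)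
    (I : Finset ι) (ht : Λ → ℕ) (h0 V n : ℕ) (θ ε0 J : ℝ) (s1 s2 l1 Jd p m0 Ep : ℕ)
    (hT : Terms h Z I ht (h0 + 4 * n * V) l1 s1 s2 J) (hθ : 0 < θ) (hθ1 : θ ≤ 1 / 16)
    (hε : 0 < ε0) (hε1 : ε0 ≤ 1) (hJ : 0 < J) (hl : 0 < l1) (hJd : 1 ≤ Jd) (hEp : 0 < Ep)
    (hlog : 4 * θ * Real.log ((3 * (Fintype.card Q : ℝ) ^ s1 + 2) / ε0) ≤ 1)
    (hm0 : 2 * s2 * (1 + 2 * s1) ≤ 2 ^ m0) (herr : Ep * I.card * (ε0 + 6 * s1 / 2 ^ Jd) ≤ 1)
    (hV : 2 ^ p + Ep * ((Jd + 1) * l1) ≤ V) :
    ∀ᶠ δ in nhdsWithin (0 : ℝ) (Set.Ioi 0), ∀ᶠ N : ℕ in atTop, ∀ᶠ m : ℕ in atTop,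
      ∀ ξ : (Λ → Q) → ℂ,
        qf (pr (fun j => Mb Q θ (t0 δ N) fun _ : Fin N =>
            flat ht (h0 + (4 * j + 1) * V) (h0 + (4 * j + 4) * V)) n)
          (tv N ((sweep h (1 / (2 ^ m * (500 * J * (2 * ((Jd + 2) * l1) / 2 ^ p)))) ^
            (Ep * 2 ^ (m - m0))) *ᵥ ξ)) ≤
        Real.exp (2 * n * N) * qf (pr (fun j => Mb Q θ (t0 δ N) fun _ : Fin N =>
            flat ht (h0 + (4 * j + 2) * V) (h0 + (4 * j + 3) * V)) n) (tv N ξ) := by
  classical
  obtain ⟨tm, htm, hseg⟩ := sweep_seg (ι := ι) (n := Λ → Q)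
  have hκ : (0 : ℝ) < 500 * J * (2 * ((Jd + 2) * l1) / 2 ^ p) := by positivity
  have hlV : l1 ≤ V :=
    ((Nat.le_mul_of_pos_left l1 (Nat.succ_pos Jd)).trans (Nat.le_mul_of_pos_left _ hEp)).trans
      ((Nat.le_add_left _ _).trans hV)
  have hcon := eventually_all.2 fun y => FlowRA.contr (hT.ps y) hκ
  have hg : ∀ y, (hf (h y) fun x => (Real.sqrt x : ℂ))ᴴ * (hf (h y) fun x => (Real.sqrt x : ℂ)) =
      h y := fun y => sqrt_ps (hT.ps y)
  have mul : ∀ j c : ℕ, (4 * j + c) * V = 4 * (j * V) + c * V := fun j c => by ring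
  have mono : ∀ i j : ℕ, i < j → i * V + V ≤ j * V := fun i j hij => by
    rw [← Nat.succ_mul]
    exact Nat.mul_le_mul_right V hij
  have eV : ∀ j, fl ht (h0 + (4 * j + 2) * V) (h0 + (4 * j + 3) * V) V =
      flat ht (h0 + (4 * j + 1) * V) (h0 + (4 * j + 4) * V) := fun j => by
    rw [fl]
    congr 1 <;> simp only [mul] <;> omega
  have m1 : ∀ j z, z ∈ (fl ht (h0 + (4 * j + 2) * V) (h0 + (4 * j + 3) * V) V).1 ↔
      ht z < h0 + 4 * (j * V) + V := fun j z => by
    rw [eV]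
    simp only [flat, mul, Finset.mem_filter, Finset.mem_univ, true_and, one_mul, add_assoc]
  have m2 : ∀ j z, z ∈ (fl ht (h0 + (4 * j + 2) * V) (h0 + (4 * j + 3) * V) V).2 ↔
      h0 + 4 * (j * V) + 4 * V ≤ ht z := fun j z => by
    rw [eV]
    simp only [flat, mul, Finset.mem_filter, Finset.mem_univ, true_and, add_assoc]
  have hV0 : 0 < V := hl.trans_le hlV
  obtain ⟨own, hown⟩ : ∃ own : ℕ → Finset ι, ∀ j y, y ∈ own j ↔ y ∈ I ∧ ∃ z ∈ Z y,
      h0 + 4 * (j * V) ≤ ht z ∧ ht z < h0 + 4 * (j * V) + 4 * V ∧ ∀ z' ∈ Z y, ht z ≤ ht z' :=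
    ⟨fun j => I.filter fun y => ∃ z ∈ Z y, h0 + 4 * (j * V) ≤ ht z ∧
      ht z < h0 + 4 * (j * V) + 4 * V ∧ ∀ z' ∈ Z y, ht z ≤ ht z', fun _ _ => Finset.mem_filter⟩
  have hsub : ∀ j, own j ⊆ I := fun j y hy => ((hown j y).1 hy).1
  have hdis : ∀ j d, Disjoint (fl ht (h0 + (4 * j + 2) * V) (h0 + (4 * j + 3) * V) d).1
      (fl ht (h0 + (4 * j + 2) * V) (h0 + (4 * j + 3) * V) d).2 := fun j d =>
    fl_disj (by simp only [mul]; omega) d
  filter_upwards [collar Λ Q ι θ ε0 J s1 s2 l1 Jd p m0 Ep I.card hθ hθ1 hε hε1 hJ hl hJd hEp hlog hm0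
    herr, self_mem_nhdsWithin] with δ hδ hδ0
  filter_upwards [hδ, eventually_gt_atTop 0] with N hN hN0
  filter_upwards [hN, hcon] with m hm hb ξ
  have ht0 : 0 < t0 δ N := Nat.ceil_pos.2 (mul_pos hδ0 (Nat.cast_pos.2 hN0))
  have key := prod (θ := θ) (tm := tm) (S := fun y => tens N
      (1 - ((1 / (2 ^ m * (500 * J * (2 * ((Jd + 2) * l1) / 2 ^ p))) : ℝ) : ℂ) • h y)) ht0 n
    (Ep * (2 ^ (m - m0) * Fintype.card ι))
    (fun j => fl ht (h0 + (4 * j + 2) * V) (h0 + (4 * j + 3) * V) V)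
    (fun j => fl ht (h0 + (4 * j + 2) * V) (h0 + (4 * j + 3) * V) 0) own
    (fun j => Mb Q θ (t0 δ N) fun _ : Fin N =>
      fl ht (h0 + (4 * j + 2) * V) (h0 + (4 * j + 3) * V) 0)
    (fun j => Mb Q θ (t0 δ N) fun _ : Fin N =>
      fl ht (h0 + (4 * j + 2) * V) (h0 + (4 * j + 3) * V) V) (Real.exp (2 * N))
    (fun j _ => hdis j 0)
    (fun i j hij _ z hz => by
      have := mono i j hij
      have := mt (m2 i z).2 (Finset.mem_compl.1 hz)
      exact (m1 j z).2 (by omega))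
    (fun i j _ _ hij => Finset.disjoint_left.2 fun y hi hj => by
      obtain ⟨-, z, a1, a2, a3, a4⟩ := (hown i y).1 hi
      obtain ⟨-, z', b1, b2, b3, b4⟩ := (hown j y).1 hj
      have c1 := a4 z' b1
      have c2 := b4 z a1
      rcases lt_or_gt_of_ne hij with hij | hij
      · have := mono i j hij
        omega
      · have := mono j i hij
        omega)
    (fun y => ⟨tens_bd (hb y), fun π => (tens_comm_univ _ π).symm⟩)
    (fun y j hj hy c hc => by
      refine tens_Mb (Z := Z y) (fun a => (hc a).disj (hdis j 0)) ht0 (fun a => ?_) ?_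
      · have k1 : (∀ z ∈ Z y, ht z < h0 + 4 * (j * V) + V) → NoX (Z y) (c a) := fun k =>
          Or.inl fun z hz => (hc a).1 ((m1 j z).2 (k z hz))
        have k2 : (∀ z ∈ Z y, h0 + 4 * (j * V) + 4 * V ≤ ht z) → NoX (Z y) (c a) := fun k =>
          Or.inr (Or.inl fun z hz => (hc a).2.2.1 ((m2 j z).2 (k z hz)))
        by_cases hI : y ∈ I
        · rcases (Z y).eq_empty_or_nonempty with he | he
          · exact k1 fun z hz => by simp [he] at hz
          · obtain ⟨z, hz, hmin⟩ := (Z y).exists_min_image ht he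
            rcases lt_or_ge (ht z) (h0 + 4 * (j * V)) with h1 | h1
            · refine k1 fun z' hz' => ?_
              have := hT.diam y hI z' hz' z hz
              omega
            · refine k2 fun z' hz' => le_trans ?_ (hmin z' hz')
              exact not_lt.1 fun h2 => hy ((hown j y).2 ⟨hI, z, hz, h1, h2, hmin⟩)
        · refine k2 fun z hz => ?_
          have := hT.far y hI z hz
          have := mono j n hj
          have : 4 * n * V = 4 * (n * V) := mul_assoc _ _ _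
          omega
      · rw [sub_eq_add_neg, ← neg_smul]
        exact loc_add (loc_one _) (loc_smul (hT.loc y) _))
    (fun j _ => by
      have := hm ht (h0 + (4 * j + 2) * V) (h0 + (4 * j + 3) * V) V (2 ^ (m - m0) * Fintype.card ι) Z
        (fun y => hf (h y) fun x => (Real.sqrt x : ℂ)) (own j) tm (by simp only [mul]; omega) hV
        (by simp only [mul]; omega) (Nat.mul_pos (Nat.two_pow_pos _) Fintype.card_pos)
        (Finset.card_le_card (hsub j))
        (fun y hy => ⟨hT.diam y (hsub j hy), hT.card y (hsub j hy), hf_loc (hT.loc y) _, by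
          rw [hg]
          exact hT.bd y (hsub j hy)⟩)
        (fun z => (Finset.card_le_card (Finset.filter_subset_filter _ (hsub j))).trans (hT.deg z))
        fun e y => by
          rw [← mul_assoc]
          exact (htm _ _ y).le
      simpa only [hg] using this)
    (tv N ξ) (sy_tv _ ξ)
  rw [FlowRA.seg_tens, ← mul_assoc Ep, hseg, tens_tv, ← Real.exp_nat_mul] at key
  simp only [eV] at key
  rw [show 2 * (n : ℝ) * N = n * (2 * N) by ring]
  exact key

end Vale.Agent.P356G
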