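import Vale.Agent.P356G.D2
import Vale.Agent.P356G.FlowR

/- Copy the proof of `flowR` (FlowR.lean). Collar `j` has the cuts `a j`, `b j`; `own j` = the `y ∈ I` with
`Z y` nonempty and least height `μ` with `a j ≤ μ + V + l1` and `μ < b j + V` (`l1 ≤ V`, `Wins.sep` makes them
disjoint). The vector is an arbitrary symmetric one; `tens` of the product is the product of the `tens`. -/

namespace Vale.Agent.P356G

open Matrix Vale.Agent.P356 Filter

theorem flowR2 (Λ Q ι : Type) [Fintype Λ] [DecidableEq Λ] [Fintype Q] [DecidableEq Q] [Nonempty Q]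
    [Fintype ι] [DecidableEq ι] [Nonempty ι] (h : ι → Matrix (Λ → Q) (Λ → Q) ℂ) (Z : ι → Finset Λ)
    (I : Finset ι) (ht : Λ → ℕ) (a b : ℕ → ℕ) (n V bot top : ℕ) (θ ε0 J : ℝ)
    (s1 s2 l1 Jd p m0 Ep : ℕ) (hT : Terms2 h Z I ht bot top l1 s1 s2 J) (hW : Wins a b n V bot top)
    (hθ : 0 < θ) (hθ1 : θ ≤ 1 / 16) (hε : 0 < ε0) (hε1 : ε0 ≤ 1) (hJ : 0 < J) (hl : 0 < l1)
    (hJd : 1 ≤ Jd) (hEp : 0 < Ep)
    (hlog : 4 * θ * Real.log ((3 * (Fintype.card Q : ℝ) ^ s1 + 2) / ε0) ≤ 1)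
    (hm0 : 2 * s2 * (1 + 2 * s1) ≤ 2 ^ m0) (herr : Ep * I.card * (ε0 + 6 * s1 / 2 ^ Jd) ≤ 1)
    (hV : 2 ^ p + Ep * ((Jd + 1) * l1) ≤ V) :
    ∀ᶠ δ in nhdsWithin (0 : ℝ) (Set.Ioi 0), ∀ᶠ N : ℕ in atTop, ∀ᶠ m : ℕ in atTop,
      ∀ v : (Fin N → Λ → Q) → ℂ, Sy Finset.univ v →
        qf (pr (fun j => Mb Q θ (t0 δ N) fun _ : Fin N => fl ht (a j) (b j) V) n)
          (tens N (sweep h (1 / (2 ^ m * (500 * J * (2 * ((Jd + 2) * l1) / 2 ^ p)))) ^
            (Ep * 2 ^ (m - m0))) *ᵥ v) ≤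
        Real.exp (2 * n * N) *
          qf (pr (fun j => Mb Q θ (t0 δ N) fun _ : Fin N => fl ht (a j) (b j) 0) n) v := by
  classical
  obtain ⟨tm, htm, hseg⟩ := sweep_seg (ι := ι) (n := Λ → Q)
  have hκ : (0 : ℝ) < 500 * J * (2 * ((Jd + 2) * l1) / 2 ^ p) := by positivity
  have hlV : l1 ≤ V :=
    ((Nat.le_mul_of_pos_left l1 (Nat.succ_pos Jd)).trans (Nat.le_mul_of_pos_left _ hEp)).trans
      ((Nat.le_add_left _ _).trans hV)
  have hcon := eventually_all.2 fun y => FlowRA.contr (hT.ps y) hκ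
  have hg : ∀ y, (hf (h y) fun x => (Real.sqrt x : ℂ))ᴴ * (hf (h y) fun x => (Real.sqrt x : ℂ)) =
      h y := fun y => sqrt_ps (hT.ps y)
  have m1 : ∀ j z, z ∈ (fl ht (a j) (b j) V).1 ↔ ht z < a j - V := fun j z => ColGA.m1
  have m2 : ∀ j z, z ∈ (fl ht (a j) (b j) V).2 ↔ b j + V ≤ ht z := fun j z => ColGA.m2
  obtain ⟨own, hown⟩ : ∃ own : ℕ → Finset ι, ∀ j y, y ∈ own j ↔ y ∈ I ∧ ∃ z ∈ Z y,
      a j ≤ ht z + V + l1 ∧ ht z < b j + V ∧ ∀ z' ∈ Z y, ht z ≤ ht z' :=
    ⟨fun j => I.filter fun y => ∃ z ∈ Z y, a j ≤ ht z + V + l1 ∧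
      ht z < b j + V ∧ ∀ z' ∈ Z y, ht z ≤ ht z', fun _ _ => Finset.mem_filter⟩
  have hsub : ∀ j, own j ⊆ I := fun j y hy => ((hown j y).1 hy).1
  have hdis : ∀ j, j < n → ∀ d, Disjoint (fl ht (a j) (b j) d).1 (fl ht (a j) (b j) d).2 :=
    fun j hj d => fl_disj ((Nat.le_add_right _ _).trans (hW.mid j hj)) d
  filter_upwards [collar Λ Q ι θ ε0 J s1 s2 l1 Jd p m0 Ep I.card hθ hθ1 hε hε1 hJ hl hJd hEp hlog hm0
    herr, self_mem_nhdsWithin] with δ hδ hδ0
  filter_upwards [hδ, eventually_gt_atTop 0] with N hN hN0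
  filter_upwards [hN, hcon] with m hm hb v hv
  have ht0 : 0 < t0 δ N := Nat.ceil_pos.2 (mul_pos hδ0 (Nat.cast_pos.2 hN0))
  have key := prod (θ := θ) (tm := tm) (S := fun y => tens N
      (1 - ((1 / (2 ^ m * (500 * J * (2 * ((Jd + 2) * l1) / 2 ^ p))) : ℝ) : ℂ) • h y)) ht0 n
    (Ep * (2 ^ (m - m0) * Fintype.card ι))
    (fun j => fl ht (a j) (b j) V) (fun j => fl ht (a j) (b j) 0) own
    (fun j => Mb Q θ (t0 δ N) fun _ : Fin N => fl ht (a j) (b j) 0)
    (fun j => Mb Q θ (t0 δ N) fun _ : Fin N => fl ht (a j) (b j) V) (Real.exp (2 * N))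
    (fun j hj => hdis j hj 0)
    (fun i j hij hj z hz => by
      have := hW.sep i j hij hj
      have := mt (m2 i z).2 (Finset.mem_compl.1 hz)
      exact (m1 j z).2 (by omega))
    (fun i j hi' hj' hij => Finset.disjoint_left.2 fun y hi hj => by
      obtain ⟨-, z, a1, a2, a3, a4⟩ := (hown i y).1 hi
      obtain ⟨-, z', b1, b2, b3, b4⟩ := (hown j y).1 hj
      have c1 := a4 z' b1
      have c2 := b4 z a1
      rcases lt_or_gt_of_ne hij with hij | hij
      · have := hW.sep i j hij hj'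
        omega
      · have := hW.sep j i hij hi'
        omega)
    (fun y => ⟨tens_bd (hb y), fun π => (tens_comm_univ _ π).symm⟩)
    (fun y j hj hy c hc => by
      refine tens_Mb (Z := Z y) (fun e => (hc e).disj (hdis j hj 0)) ht0 (fun e => ?_) ?_
      · have k1 : (∀ z ∈ Z y, ht z < a j - V) → NoX (Z y) (c e) := fun k =>
          Or.inl fun z hz => (hc e).1 ((m1 j z).2 (k z hz))
        have k2 : (∀ z ∈ Z y, b j + V ≤ ht z) → NoX (Z y) (c e) := fun k =>
          Or.inr (Or.inl fun z hz => (hc e).2.2.1 ((m2 j z).2 (k z hz)))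
        by_cases hI : y ∈ I
        · rcases (Z y).eq_empty_or_nonempty with he | he
          · exact k1 fun z hz => by simp [he] at hz
          · obtain ⟨z, hz, hmin⟩ := (Z y).exists_min_image ht he
            rcases lt_or_ge (ht z + V + l1) (a j) with h1 | h1
            · refine k1 fun z' hz' => ?_
              have := hT.diam y hI z' hz' z hz
              omega
            · refine k2 fun z' hz' => le_trans ?_ (hmin z' hz')
              exact not_lt.1 fun h2 => hy ((hown j y).2 ⟨hI, z, hz, h1, h2, hmin⟩)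
        · rcases hT.far y hI with hf' | hf'
          · exact k2 fun z hz => (hW.hi j hj).trans (hf' z hz)
          · refine k1 fun z hz => ?_
            have := hf' z hz
            have := hW.lo j hj
            omega
      · rw [sub_eq_add_neg, ← neg_smul]
        exact loc_add (loc_one _) (loc_smul (hT.loc y) _))
    (fun j hj => by
      have e1 := hW.mid j hj
      have e2 := hW.lo j hj
      have := hm ht (a j) (b j) V (2 ^ (m - m0) * Fintype.card ι) Z
        (fun y => hf (h y) fun x => (Real.sqrt x : ℂ)) (own j) tm (by omega) hV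
        (by omega) (Nat.mul_pos (Nat.two_pow_pos _) Fintype.card_pos)
        (Finset.card_le_card (hsub j))
        (fun y hy => ⟨hT.diam y (hsub j hy), hT.card y (hsub j hy), hf_loc (hT.loc y) _, by
          rw [hg]
          exact hT.bd y (hsub j hy)⟩)
        (fun z => (Finset.card_le_card (Finset.filter_subset_filter _ (hsub j))).trans (hT.deg z))
        fun e y => by
          rw [← mul_assoc]
          exact (htm _ _ y).le
      simpa only [hg] using this)
    v hv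
  rw [FlowRA.seg_tens, ← mul_assoc Ep, hseg, ← Real.exp_nat_mul] at key
  rw [show 2 * (n : ℝ) * N = n * (2 * N) by ring]
  exact key

end Vale.Agent.P356G
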