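import Vale.Agent.P356G.Vec

/- Functional calculus `hf`. Basic tool: `hf_fn` (any unitary diagonalisation computes `hf`; prove it
from `lin_conj` / `intertwine` of P356/Lin with `U = 1`), then `fn_mul`, `fn_ct`, `fn_add`, `fn_smul`. -/

namespace Vale.Agent.P356G

open Matrix Vale.Agent.P356

variable {n m : Type} [Fintype n] [DecidableEq n] [Fintype m] [DecidableEq m]

namespace FunA

theorem inter {V : Matrix n n ℂ} {W : Matrix m m ℂ} (hV : V * Vᴴ = 1) (hW : W * Wᴴ = 1)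
    (U : Matrix n m ℂ) (l : n → ℝ) (k : m → ℝ) (h : fr V l * U = U * fr W k) (φ : ℝ → ℂ) :
    fn V (fun i => φ (l i)) * U = U * fn W fun j => φ (k j) := by
  have h1 := (lin_conj hV hW U _ _).1 h
  refine (lin_conj hV hW U _ _).2 fun i j => ?_
  by_cases h0 : (Vᴴ * U * W) i j = 0
  · rw [h0, mul_zero, zero_mul]
  · rw [Complex.ofReal_injective (mul_right_cancel₀ h0 ((h1 i j).trans (mul_comm _ _))), mul_comm]

theorem fn_vec (V : Matrix n n ℂ) (g v : n → ℂ) :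
    fn V g *ᵥ v = V *ᵥ fun i => g i * (Vᴴ *ᵥ v) i := by
  rw [fn, ← mulVec_mulVec, ← mulVec_mulVec]
  congr 1
  funext i
  rw [mulVec_diagonal]

theorem nsq_fn {V : Matrix n n ℂ} (hV : V * Vᴴ = 1) (g v : n → ℂ) :
    nsq (fn V g *ᵥ v) = ∑ i, ‖(Vᴴ *ᵥ v) i‖ ^ 2 * ‖g i‖ ^ 2 := by
  rw [fn_vec, nsq_uni hV, nsq]
  exact Finset.sum_congr rfl fun i _ => by rw [norm_mul, mul_pow, mul_comm]

theorem qf_fr (V : Matrix n n ℂ) (g : n → ℝ) (v : n → ℂ) :
    qf (fr V g) v = ∑ i, ‖(Vᴴ *ᵥ v) i‖ ^ 2 * g i := by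
  rw [qf, ip, fr, fn_vec, dot_mulVec, dotProduct, Complex.re_sum]
  refine Finset.sum_congr rfl fun i _ => ?_
  rw [Pi.star_apply, mul_left_comm, Complex.star_def, Complex.conj_mul', Complex.re_ofReal_mul,
    ← Complex.ofReal_pow, Complex.ofReal_re, mul_comm]

end FunA

theorem hf_spec {A : Matrix n n ℂ} (hA : A.IsHermitian) :
    ∃ V : Matrix n n ℂ, V * Vᴴ = 1 ∧ A = fr V hA.eigenvalues ∧
      ∀ f : ℝ → ℂ, hf A f = fn V fun i => f (hA.eigenvalues i) := by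
  refine ⟨(hA.eigenvectorUnitary : Matrix n n ℂ),
    Matrix.mem_unitaryGroup_iff.1 hA.eigenvectorUnitary.2, ?_, fun f => dif_pos hA⟩
  have := hA.spectral_theorem
  rw [Unitary.conjStarAlgAut_apply] at this
  exact this
theorem hf_fn {V : Matrix n n ℂ} (hV : V * Vᴴ = 1) (l : n → ℝ) (f : ℝ → ℂ) :
    hf (fr V l) f = fn V fun i => f (l i) := by
  obtain ⟨W, hW, e, h⟩ := hf_spec (A := fr V l) (fr_ct V l)
  have := FunA.inter hW hV 1 _ l (by rw [Matrix.mul_one, Matrix.one_mul, ← e]) f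
  rwa [Matrix.mul_one, Matrix.one_mul, ← h] at this
theorem hf_mul {A : Matrix n n ℂ} (hA : A.IsHermitian) (f g : ℝ → ℂ) :
    hf A f * hf A g = hf A fun x => f x * g x := by
  obtain ⟨V, hV, -, h⟩ := hf_spec hA
  rw [h, h, h, fn_mul hV]
theorem hf_add {A : Matrix n n ℂ} (hA : A.IsHermitian) (f g : ℝ → ℂ) :
    hf A (fun x => f x + g x) = hf A f + hf A g := by
  obtain ⟨V, -, -, h⟩ := hf_spec hA
  rw [h, h, h, fn_add]
theorem hf_sub {A : Matrix n n ℂ} (hA : A.IsHermitian) (f g : ℝ → ℂ) :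
    hf A (fun x => f x - g x) = hf A f - hf A g := by
  rw [eq_sub_iff_add_eq, ← hf_add hA]
  simp only [sub_add_cancel]
theorem hf_smul {A : Matrix n n ℂ} (hA : A.IsHermitian) (c : ℂ) (f : ℝ → ℂ) :
    hf A (fun x => c * f x) = c • hf A f := by
  obtain ⟨V, -, -, h⟩ := hf_spec hA
  rw [h, h, fn_smul]
theorem hf_ct (A : Matrix n n ℂ) (f : ℝ → ℂ) : (hf A f)ᴴ = hf A fun x => star (f x) := by
  by_cases hA : A.IsHermitian
  · obtain ⟨V, -, -, h⟩ := hf_spec hA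
    rw [h, h, fn_ct]
  · rw [hf, hf, dif_neg hA, dif_neg hA, conjTranspose_zero]
theorem hf_herm (A : Matrix n n ℂ) (f : ℝ → ℝ) : (hf A fun x => (f x : ℂ)).IsHermitian := by
  rw [IsHermitian, hf_ct]
  simp only [Complex.star_def, Complex.conj_ofReal]
theorem hf_const {A : Matrix n n ℂ} (hA : A.IsHermitian) (c : ℂ) :
    hf A (fun _ => c) = c • (1 : Matrix n n ℂ) := by
  obtain ⟨V, hV, -, h⟩ := hf_spec hA
  rw [h, ← fn_one hV, ← fn_smul]
  simp only [mul_one]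
theorem hf_id {A : Matrix n n ℂ} (hA : A.IsHermitian) : hf A (fun x => (x : ℂ)) = A := by
  obtain ⟨V, -, e, h⟩ := hf_spec hA
  exact (h _).trans e.symm
theorem hf_pow {A : Matrix n n ℂ} (hA : A.IsHermitian) (j : ℕ) :
    hf A (fun x => (x : ℂ) ^ j) = A ^ j := by
  induction j with
  | zero => simp only [pow_zero, hf_const hA, one_smul]
  | succ j ih => simp only [pow_succ, ← hf_mul hA, ih, hf_id hA]
theorem hf_congr {A : Matrix n n ℂ} (hA : A.IsHermitian) {f g : ℝ → ℂ}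
    (h : ∀ i, f (hA.eigenvalues i) = g (hA.eigenvalues i)) : hf A f = hf A g := by
  obtain ⟨V, -, -, h'⟩ := hf_spec hA
  rw [h', h', funext h]
theorem hf_comp {A : Matrix n n ℂ} (hA : A.IsHermitian) (g : ℝ → ℝ) (f : ℝ → ℂ) :
    hf (hf A fun x => (g x : ℂ)) f = hf A fun x => f (g x) := by
  obtain ⟨V, hV, -, h⟩ := hf_spec hA
  rw [h, h]
  exact hf_fn hV (fun i => g (hA.eigenvalues i)) f
theorem hf_scalar (c : ℝ) (f : ℝ → ℂ) :
    hf ((c : ℂ) • (1 : Matrix n n ℂ)) f = f c • (1 : Matrix n n ℂ) := by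
  have h1 : (1 : Matrix n n ℂ) * 1ᴴ = 1 := by simp
  have h2 : ∀ c : ℂ, fn (1 : Matrix n n ℂ) (fun _ => c) = c • 1 := fun c => by
    have := fn_smul (1 : Matrix n n ℂ) c fun _ => 1
    rwa [fn_one h1, mul_one] at this
  rw [← h2, ← h2]
  exact hf_fn h1 (fun _ => c) f
theorem hf_inter {A : Matrix n n ℂ} {B : Matrix m m ℂ} (hA : A.IsHermitian) (hB : B.IsHermitian)
    (Z : Matrix m n ℂ) (h : Z * A = B * Z) (f : ℝ → ℂ) : Z * hf A f = hf B f * Z := by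
  obtain ⟨V, hV, e, h1⟩ := hf_spec hA
  obtain ⟨W, hW, e', h2⟩ := hf_spec hB
  rw [h1, h2]
  exact (FunA.inter hW hV Z _ _ (by rw [← e, ← e', h]) f).symm
theorem hf_comm {A Z : Matrix n n ℂ} (h : Commute Z A) (f : ℝ → ℂ) : Commute Z (hf A f) := by
  by_cases hA : A.IsHermitian
  · exact hf_inter hA hA Z h f
  · rw [hf, dif_neg hA]
    exact Commute.zero_right Z
theorem hf_comm2 {A B : Matrix n n ℂ} (h : Commute A B) (f g : ℝ → ℂ) :
    Commute (hf A f) (hf B g) :=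
  hf_comm (hf_comm h.symm f).symm g
theorem hf_eigvec {A : Matrix n n ℂ} (hA : A.IsHermitian) {v : n → ℂ} {x : ℝ}
    (h : A *ᵥ v = (x : ℂ) • v) (f : ℝ → ℂ) : hf A f *ᵥ v = f x • v := by
  have h1 : ((x : ℂ) • (1 : Matrix Unit Unit ℂ)).IsHermitian := by
    simp [IsHermitian, conjTranspose_smul]
  have := hf_inter h1 hA (replicateCol Unit v)
    (by rw [← replicateCol_mulVec, h, Matrix.mul_smul, Matrix.mul_one, replicateCol_smul]) f
  rw [hf_scalar, ← replicateCol_mulVec, Matrix.mul_smul, Matrix.mul_one,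
    ← replicateCol_smul] at this
  exact (replicateCol_injective this).symm
theorem FunA.eig {A : Matrix n n ℂ} (hA : A.IsHermitian) (i : n) :
    ∃ v, nsq v = 1 ∧ qf A v = hA.eigenvalues i := by
  obtain ⟨V, hV, e, -⟩ := hf_spec hA
  have h1 : Vᴴ *ᵥ V *ᵥ Pi.single i 1 = Pi.single i 1 := by
    rw [mulVec_mulVec, uni_symm hV, one_mulVec]
  have h2 : ∀ g : n → ℝ, ∑ j, ‖(Pi.single i 1 : n → ℂ) j‖ ^ 2 * g j = g i := fun g => by
    rw [Finset.sum_eq_single i] <;> simp +contextual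
  refine ⟨V *ᵥ Pi.single i 1, ?_, ?_⟩
  · rw [nsq_uni hV, nsq]
    simpa using h2 fun _ => 1
  · conv_lhs => rw [e]
    rw [FunA.qf_fr, h1, h2]
theorem SpIn.eig {A : Matrix n n ℂ} {lo hi : ℝ} (h : SpIn A lo hi) (i : n) :
    lo ≤ h.1.eigenvalues i ∧ h.1.eigenvalues i ≤ hi := by
  obtain ⟨v, h1, h2⟩ := FunA.eig h.1 i
  have := h.2 v
  rwa [h1, h2, mul_one, mul_one] at this
theorem Pd.eig {A : Matrix n n ℂ} (h : Pd A) (i : n) : 0 < h.1.eigenvalues i := by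
  obtain ⟨v, h1, h2⟩ := FunA.eig h.1 i
  refine h2 ▸ h.2 v fun h0 => ?_
  simp [h0, nsq] at h1
theorem Ps.eig {A : Matrix n n ℂ} (h : Ps A) (i : n) : 0 ≤ h.1.eigenvalues i := by
  obtain ⟨v, -, h2⟩ := FunA.eig h.1 i
  exact h2 ▸ h.2 v
/-- spectral measure of a vector -/
theorem hf_meas {A : Matrix n n ℂ} (hA : A.IsHermitian) (v : n → ℂ) :
    ∃ w : n → ℝ, (∀ i, 0 ≤ w i) ∧ ∑ i, w i = nsq v ∧
      (∀ f : ℝ → ℝ, qf (hf A fun x => (f x : ℂ)) v = ∑ i, w i * f (hA.eigenvalues i)) ∧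
      ∀ f : ℝ → ℂ, nsq (hf A f *ᵥ v) = ∑ i, w i * ‖f (hA.eigenvalues i)‖ ^ 2 := by
  obtain ⟨V, hV, -, h⟩ := hf_spec hA
  refine ⟨fun i => ‖(Vᴴ *ᵥ v) i‖ ^ 2, fun i => sq_nonneg _, ?_, fun f => ?_, fun f => ?_⟩
  · exact nsq_uni (by rw [conjTranspose_conjTranspose, uni_symm hV]) v
  · rw [h]
    exact FunA.qf_fr V (fun i => f (hA.eigenvalues i)) v
  · rw [h, FunA.nsq_fn hV]
theorem hf_bd {A : Matrix n n ℂ} (hA : A.IsHermitian) {f : ℝ → ℂ} {r : ℝ} (hr : 0 ≤ r)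
    (h : ∀ i, ‖f (hA.eigenvalues i)‖ ≤ r) : Bd (hf A f) r := fun v => by
  obtain ⟨w, h0, h1, -, h2⟩ := hf_meas hA v
  rw [nr_le_iff _ _ hr, h2, ← h1, Finset.mul_sum]
  refine Finset.sum_le_sum fun i _ => ?_
  rw [mul_comm]
  exact mul_le_mul_of_nonneg_right (pow_le_pow_left₀ (norm_nonneg _) (h i) 2) (h0 i)
theorem hf_le {A : Matrix n n ℂ} (hA : A.IsHermitian) {f g : ℝ → ℝ}
    (h : ∀ i, f (hA.eigenvalues i) ≤ g (hA.eigenvalues i)) (v : n → ℂ) :
    qf (hf A fun x => (f x : ℂ)) v ≤ qf (hf A fun x => (g x : ℂ)) v := by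
  obtain ⟨w, h0, -, h1, -⟩ := hf_meas hA v
  rw [h1, h1]
  exact Finset.sum_le_sum fun i _ => mul_le_mul_of_nonneg_left (h i) (h0 i)
theorem hf_spIn {A : Matrix n n ℂ} (hA : A.IsHermitian) {f : ℝ → ℝ} {lo hi : ℝ}
    (h : ∀ i, lo ≤ f (hA.eigenvalues i) ∧ f (hA.eigenvalues i) ≤ hi) :
    SpIn (hf A fun x => (f x : ℂ)) lo hi := by
  refine ⟨hf_herm A f, fun v => ?_⟩
  obtain ⟨w, h0, h1, h2, -⟩ := hf_meas hA v
  rw [h2, ← h1, Finset.mul_sum, Finset.mul_sum]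
  constructor <;> refine Finset.sum_le_sum fun i _ => ?_
  · rw [mul_comm]
    exact mul_le_mul_of_nonneg_left (h i).1 (h0 i)
  · rw [mul_comm hi]
    exact mul_le_mul_of_nonneg_left (h i).2 (h0 i)
theorem hf_pd {A : Matrix n n ℂ} (hA : A.IsHermitian) {f : ℝ → ℝ}
    (h : ∀ i, 0 < f (hA.eigenvalues i)) : Pd (hf A fun x => (f x : ℂ)) := by
  refine ⟨hf_herm A f, fun v hv => ?_⟩
  obtain ⟨w, h0, h1, h2, -⟩ := hf_meas hA v
  rw [h2]
  have h3 : ∑ i, w i ≠ 0 := fun h' => hv (eq_zero_of_nsq v (h1 ▸ h'))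
  obtain ⟨i, hi, h4⟩ := Finset.exists_ne_zero_of_sum_ne_zero h3
  exact Finset.sum_pos' (fun i _ => mul_nonneg (h0 i) (h i).le)
    ⟨i, hi, mul_pos ((h0 i).lt_of_ne' h4) (h i)⟩
theorem hf_ps (A : Matrix n n ℂ) {f : ℝ → ℝ} (h : ∀ x, 0 ≤ f x) :
    Ps (hf A fun x => (f x : ℂ)) := by
  refine ⟨hf_herm A f, fun v => ?_⟩
  by_cases hA : A.IsHermitian
  · obtain ⟨w, h0, -, h2, -⟩ := hf_meas hA v
    rw [h2]
    exact Finset.sum_nonneg fun i _ => mul_nonneg (h0 i) (h _)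
  · rw [hf, dif_neg hA, qf_zero]
theorem hf_trace {A : Matrix n n ℂ} (hA : A.IsHermitian) (f : ℝ → ℂ) :
    trace (hf A f) = ∑ i, f (hA.eigenvalues i) := by
  obtain ⟨V, hV, -, h⟩ := hf_spec hA
  rw [h, trace_fn hV]
theorem FunA.proj {A : Matrix n n ℂ} (hA : A.IsHermitian) : ∃ (S : Finset ℝ)
    (P : ℝ → Matrix n n ℂ), ∑ x ∈ S, P x = 1 ∧ (∀ x, A * P x = (x : ℂ) • P x) ∧
      ∀ x Z, Commute Z A → Commute Z (P x) := by
  classical
  refine ⟨Finset.univ.image hA.eigenvalues, fun x => hf A fun y => if y = x then 1 else 0, ?_,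
    fun x => ?_, fun x Z h => hf_comm h _⟩
  · obtain ⟨V, hV, -, h⟩ := hf_spec hA
    simp only [h]
    rw [← fn_sum, ← fn_one hV]
    congr 1
    funext i
    simp
  · have := hf_mul hA (fun y => (y : ℂ)) fun y => if y = x then 1 else 0
    rw [hf_id hA] at this
    rw [this, ← hf_smul hA]
    congr 1
    funext y
    split_ifs with h <;> simp [h]
/-- joint diagonalisation of two commuting Hermitian matrices (diagonalise `A + t B` for a
real `t` separating all pairs, or diagonalise `B` inside the eigenspaces of `A`) -/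
theorem joint {A B : Matrix n n ℂ} (hA : A.IsHermitian) (hB : B.IsHermitian) (h : Commute A B) :
    ∃ (V : Matrix n n ℂ) (a b : n → ℝ), V * Vᴴ = 1 ∧ A = fr V a ∧ B = fr V b := by
  classical
  obtain ⟨S, P, p1, p2, p3⟩ := FunA.proj hA
  obtain ⟨T, R, r1, r2, -⟩ := FunA.proj hB
  obtain ⟨t, ht⟩ := Infinite.exists_notMem_finset
    (((S ×ˢ T) ×ˢ (S ×ˢ T)).image fun p => (p.1.1 - p.2.1) / (p.2.2 - p.1.2))
  have hi : Set.InjOn (fun p : ℝ × ℝ => p.1 + t * p.2) (S ×ˢ T : Finset (ℝ × ℝ)) := by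
    intro p hp q hq e
    have e' : p.1 + t * p.2 = q.1 + t * q.2 := e
    have h2 : p.2 = q.2 := by
      by_contra h2
      refine ht (Finset.mem_image.2 ⟨(p, q), Finset.mem_product.2 ⟨hp, hq⟩, ?_⟩)
      rw [div_eq_iff (sub_ne_zero.2 (Ne.symm h2))]
      linarith
    rw [h2] at e'
    exact Prod.ext (add_right_cancel e') h2
  obtain ⟨χ, hχ⟩ : ∃ χ : ℝ → ℝ × ℝ, ∀ x ∈ S, ∀ y ∈ T, χ (x + t * y) = (x, y) :=
    ⟨_, fun x hx y hy => hi.leftInvOn_invFunOn (Finset.mem_coe.2 (Finset.mk_mem_product hx hy))⟩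
  have hC : (A + (t : ℂ) • B).IsHermitian := by
    rw [IsHermitian, conjTranspose_add, conjTranspose_smul, hA, hB, Complex.star_def,
      Complex.conj_ofReal]
  have a1 : ∀ x y, A * (P x * R y) = (x : ℂ) • (P x * R y) := fun x y => by
    rw [← mul_assoc, p2, smul_mul_assoc]
  have b1 : ∀ x y, B * (P x * R y) = (y : ℂ) • (P x * R y) := fun x y => by
    rw [← mul_assoc, (p3 x B h.symm).eq, mul_assoc, r2, mul_smul_comm]
  have c1 : ∀ (x y : ℝ) (f : ℝ → ℂ),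
      hf (A + (t : ℂ) • B) f * (P x * R y) = f (x + t * y) • (P x * R y) := fun x y f => by
    have h1 : (((x + t * y : ℝ) : ℂ) • (1 : Matrix n n ℂ)).IsHermitian := by
      rw [IsHermitian, conjTranspose_smul, conjTranspose_one, Complex.star_def,
        Complex.conj_ofReal]
    rw [← hf_inter h1 hC (P x * R y) ?_ f, hf_scalar, mul_smul_comm, mul_one]
    rw [add_mul, smul_mul_assoc, a1, b1, smul_smul, ← add_smul, mul_smul_comm, mul_one]
    push_cast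
    rfl
  have ext : ∀ M M' : Matrix n n ℂ, (∀ x ∈ S, ∀ y ∈ T, M * (P x * R y) = M' * (P x * R y)) →
      M = M' := fun M M' h' => by
    have e : (1 : Matrix n n ℂ) = ∑ x ∈ S, ∑ y ∈ T, P x * R y := by
      rw [← Finset.sum_mul_sum, p1, r1, mul_one]
    rw [← mul_one M, ← mul_one M', e]
    simp only [Finset.mul_sum]
    exact Finset.sum_congr rfl fun x hx => Finset.sum_congr rfl fun y hy => h' x hx y hy
  obtain ⟨V, hV, -, e⟩ := hf_spec hC
  refine ⟨V, fun i => (χ (hC.eigenvalues i)).1, fun i => (χ (hC.eigenvalues i)).2, hV, ?_, ?_⟩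
  · refine Eq.trans (ext _ _ fun x hx y hy => ?_) (e fun z => ((χ z).1 : ℂ))
    rw [a1, c1, hχ x hx y hy]
  · refine Eq.trans (ext _ _ fun x hx y hy => ?_) (e fun z => ((χ z).2 : ℂ))
    rw [b1, c1, hχ x hx y hy]
theorem hf_blocks {A : Matrix n n ℂ} {B : Matrix m m ℂ} (hA : A.IsHermitian) (hB : B.IsHermitian)
    (f : ℝ → ℂ) : hf (fromBlocks A 0 0 B) f = fromBlocks (hf A f) 0 0 (hf B f) := by
  obtain ⟨V, hV, e, h1⟩ := hf_spec hA
  obtain ⟨W, hW, e', h2⟩ := hf_spec hB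
  have h3 : ∀ (g : ℝ → ℂ), fn (fromBlocks V 0 0 W)
      (fun i => g (Sum.elim hA.eigenvalues hB.eigenvalues i)) =
      fromBlocks (hf A g) 0 0 (hf B g) := fun g => by
    have : (fun i => g (Sum.elim hA.eigenvalues hB.eigenvalues i)) =
        Sum.elim (fun i => g (hA.eigenvalues i)) fun i => g (hB.eigenvalues i) :=
      funext fun i => by cases i <;> rfl
    rw [this, h1, h2, fn, ← fromBlocks_diagonal, fromBlocks_conjTranspose, fromBlocks_multiply,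
      fromBlocks_multiply]
    simp [fn]
  have h4 := h3 fun x => (x : ℂ)
  rw [hf_id hA, hf_id hB] at h4
  rw [← h3, ← h4]
  refine hf_fn ?_ _ f
  rw [fromBlocks_conjTranspose, fromBlocks_multiply]
  simp [hV, hW]

end Vale.Agent.P356G
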