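import Vale.Agent.P356G.FunB0

/- Exponentials, logarithms, complex powers. Use `hf_mul`, `hf_congr` with `Pd.eig`, `joint` + `hf_fn`
for two commuting matrices, `hf_meas` for Jensen and for bounds. -/

namespace Vale.Agent.P356G

open Matrix Vale.Agent.P356

variable {n : Type} [Fintype n] [DecidableEq n]

namespace FunBA

theorem qf_fr (V : Matrix n n ℂ) (f : n → ℝ) (v : n → ℂ) :
    qf (fr V f) v = ∑ i, f i * ‖(Vᴴ *ᵥ v) i‖ ^ 2 := by
  have h := qf_conj (diagonal fun i => (f i : ℂ)) Vᴴ v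
  rw [conjTranspose_conjTranspose] at h
  refine h.trans ?_
  generalize Vᴴ *ᵥ v = u
  simp only [qf, ip, dotProduct, mulVec_diagonal, Complex.re_sum, Pi.star_apply]
  refine Finset.sum_congr rfl fun i _ => ?_
  rw [mul_left_comm, Complex.star_def, Complex.conj_mul', ← Complex.ofReal_pow,
    ← Complex.ofReal_mul, Complex.ofReal_re]

theorem back {V : Matrix n n ℂ} (hV : V * Vᴴ = 1) (u : n → ℂ) : Vᴴ *ᵥ (V *ᵥ u) = u := by
  rw [mulVec_mulVec, uni_symm hV, one_mulVec]

theorem test {V : Matrix n n ℂ} (hV : V * Vᴴ = 1) (i : n) :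
    nsq (V *ᵥ Pi.single i 1) = 1 ∧ ∀ a : n → ℝ, qf (fr V a) (V *ᵥ Pi.single i 1) = a i := by
  have h : ∀ a : n → ℝ, ∑ j, a j * ‖(Pi.single i 1 : n → ℂ) j‖ ^ 2 = a i := fun a => by
    rw [Finset.sum_eq_single i (fun j _ hj => by simp [hj]) (by simp)]
    simp
  refine ⟨?_, fun a => by rw [qf_fr, back hV, h]⟩
  rw [nsq_uni hV]
  simpa [nsq] using h fun _ => 1

theorem pos {V : Matrix n n ℂ} (hV : V * Vᴴ = 1) {a : n → ℝ} (h : Pd (fr V a)) (i : n) :
    0 < a i := by
  rw [← (test hV i).2 a]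
  refine h.2 _ fun h0 => ?_
  have h1 := (test hV i).1
  rw [h0] at h1
  simp [nsq] at h1

theorem add (V : Matrix n n ℂ) (a b : n → ℝ) : fr V a + fr V b = fr V fun i => a i + b i := by
  simp only [fr, Complex.ofReal_add, fn_add]

theorem on {A P : Matrix n n ℂ} (hA : A.IsHermitian) (hP : P.IsHermitian) (hc : Commute P A)
    (f : ℝ → ℝ) (c : ℝ) (h : ∀ w, nsq w = 1 → P *ᵥ w = w → c ≤ f (qf A w)) (v : n → ℂ)
    (hv : P *ᵥ v = v) : c * nsq v ≤ qf (hf A fun x => (f x : ℂ)) v := by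
  obtain ⟨V, p, a, hV, rfl, rfl⟩ := joint hP hA hc
  have h1 : ∀ u i, (Vᴴ *ᵥ (fr V p *ᵥ u)) i = p i * (Vᴴ *ᵥ u) i := fun u i => by
    rw [fr, fn, ← mulVec_mulVec, ← mulVec_mulVec, back hV, mulVec_diagonal]
  have h2 : nsq v = nsq (Vᴴ *ᵥ v) :=
    (nsq_uni (by rw [conjTranspose_conjTranspose, uni_symm hV]) v).symm
  rw [hf_fn hV, h2, nsq, Finset.mul_sum]
  refine le_trans (Finset.sum_le_sum fun i _ => ?_) (qf_fr V (fun i => f (a i)) v).ge
  by_cases hi : (p i : ℂ) = 1
  · refine mul_le_mul_of_nonneg_right ?_ (sq_nonneg _)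
    rw [← (test hV i).2 a]
    refine h _ (test hV i).1 ?_
    rw [fr, fn, ← mulVec_mulVec, ← mulVec_mulVec, back hV, diagonal_mulVec_single, hi, one_mul]
  · have h3 := h1 v i
    rw [hv] at h3
    have h4 : (Vᴴ *ᵥ v) i = 0 := by
      by_contra h4
      exact hi (mul_right_cancel₀ h4 (h3.symm.trans (one_mul _).symm))
    simp [h4]

end FunBA

theorem hexp_herm (A : Matrix n n ℂ) : (hexp A).IsHermitian := hf_herm A _
theorem hlog_herm (A : Matrix n n ℂ) : (hlog A).IsHermitian := hf_herm A _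
theorem hexp_pd {A : Matrix n n ℂ} (hA : A.IsHermitian) : Pd (hexp A) :=
  hf_pd hA fun _ => Real.exp_pos _
theorem hexp_zero : hexp (0 : Matrix n n ℂ) = 1 := by
  have h := hf_scalar (n := n) 0 fun x => (Real.exp x : ℂ)
  simpa [hexp] using h
theorem hlog_one : hlog (1 : Matrix n n ℂ) = 0 := by
  have h := hf_scalar (n := n) 1 fun x => (Real.log x : ℂ)
  simpa [hlog] using h
theorem hexp_add {A B : Matrix n n ℂ} (hA : A.IsHermitian) (hB : B.IsHermitian) (h : Commute A B) :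
    hexp (A + B) = hexp A * hexp B := by
  obtain ⟨V, a, b, hV, rfl, rfl⟩ := joint hA hB h
  simp only [hexp, FunBA.add, hf_fn hV, fn_mul hV, Real.exp_add, Complex.ofReal_mul]
theorem hexp_neg {A : Matrix n n ℂ} (hA : A.IsHermitian) : hexp A * hexp (-A) = 1 := by
  rw [← hexp_add hA hA.neg (Commute.refl A).neg_right, add_neg_cancel, hexp_zero]
theorem hexp_smul_log {A : Matrix n n ℂ} (hA : A.IsHermitian) (x : ℝ) :
    hexp ((x : ℂ) • hlog A) = cpw A x := by
  have h := hf_comp hA (fun y => x * Real.log y) fun y => (Real.exp y : ℂ)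
  simp only [Complex.ofReal_mul, Complex.ofReal_exp, hf_smul hA] at h
  simpa only [hexp, hlog, cpw, Complex.ofReal_exp] using h
theorem hexp_log {A : Matrix n n ℂ} (hA : Pd A) : hexp (hlog A) = A := by
  refine (hf_comp hA.1 Real.log _).trans ((hf_congr hA.1 fun i => ?_).trans (hf_id hA.1))
  rw [Real.exp_log (hA.eig i)]
theorem hlog_mul {A B : Matrix n n ℂ} (hA : Pd A) (hB : Pd B) (h : Commute A B) :
    hlog (A * B) = hlog A + hlog B := by
  obtain ⟨V, a, b, hV, rfl, rfl⟩ := joint hA.1 hB.1 h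
  simp only [hlog, fr_mul hV, hf_fn hV, ← fn_add, ← Complex.ofReal_add,
    ← Real.log_mul (FunBA.pos hV hA _).ne' (FunBA.pos hV hB _).ne']
/-- Jensen -/
theorem jensen {A : Matrix n n ℂ} (hA : A.IsHermitian) {v : n → ℂ} (hv : nsq v = 1) :
    Real.exp (qf A v) ≤ qf (hexp A) v := by
  obtain ⟨w, h1, h2, h3, -⟩ := hf_meas hA v
  have h4 := h3 fun x => x
  rw [hf_id hA] at h4
  rw [h4, hexp, h3]
  exact convexOn_exp.map_sum_le (fun i _ => h1 i) (h2.trans hv) fun _ _ => Set.mem_univ _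
/-- the logarithm is monotone on commuting matrices -/
theorem hlog_mono {A B : Matrix n n ℂ} (hA : Pd A) (hB : Pd B) (h : Commute A B) (hle : Le A 1 B)
    (v : n → ℂ) : qf (hlog A) v ≤ qf (hlog B) v := by
  obtain ⟨V, a, b, hV, rfl, rfl⟩ := joint hA.1 hB.1 h
  rw [hlog, hlog, hf_fn hV, hf_fn hV]
  refine (FunBA.qf_fr V (fun i => Real.log (a i)) v).trans_le (le_trans
    (Finset.sum_le_sum fun i _ => mul_le_mul_of_nonneg_right
      (Real.log_le_log (FunBA.pos hV hA i) ?_) (sq_nonneg _))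
    (FunBA.qf_fr V (fun i => Real.log (b i)) v).ge)
  have h1 := hle (V *ᵥ Pi.single i 1)
  rwa [one_mul, (FunBA.test hV i).2, (FunBA.test hV i).2] at h1
theorem hlog_le {A : Matrix n n ℂ} (hA : Pd A) {x : ℝ} (hx : 0 < x) (h : Le A x 1) (v : n → ℂ) :
    qf (hlog A) v ≤ Real.log x * nsq v := by
  have h0 : SpIn A 0 x := ⟨hA.1, fun u => ⟨by simpa using hA.ps.2 u, qf_one u ▸ h u⟩⟩
  have h1 := hf_le hA.1 (f := Real.log) (g := fun _ => Real.log x)
    (fun i => Real.log_le_log (hA.eig i) (h0.eig i).2) v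
  rwa [hf_const hA.1, qf_smul, qf_one] at h1
/-- lower bound of the logarithm on the range of a commuting projector
(replace `A` by `P A P + x (1 - P)`, which agrees with `A` on the range, `hf_inter` with `Z = P`) -/
theorem hlog_ge_on {A P : Matrix n n ℂ} (hA : Pd A) (hP : Prj P) (hc : Commute P A) {x : ℝ}
    (hx : 0 < x) (h : ∀ v, P *ᵥ v = v → x * nsq v ≤ qf A v) (v : n → ℂ) (hv : P *ᵥ v = v) :
    Real.log x * nsq v ≤ qf (hlog A) v :=
  FunBA.on hA.1 hP.1 hc Real.log _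
    (fun w h1 h2 => Real.log_le_log hx (by simpa [h1] using h w h2)) v hv
/-- upper bound of the exponential on the range of a commuting projector -/
theorem hexp_le_on {A P : Matrix n n ℂ} (hA : A.IsHermitian) (hP : Prj P) (hc : Commute P A)
    {x : ℝ} (h : ∀ v, P *ᵥ v = v → qf A v ≤ x * nsq v) (v : n → ℂ) (hv : P *ᵥ v = v) :
    qf (hexp A) v ≤ Real.exp x * nsq v := by
  have h1 := FunBA.on hA hP.1 hc (fun y => (-1 : ℝ) * Real.exp y) (-Real.exp x)
    (fun w h1 h2 => by simpa [h1] using h w h2) v hv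
  simp only [Complex.ofReal_mul, hf_smul hA, qf_smul] at h1
  rw [hexp]
  linarith
/-- Klein: `tr (R log W) ≤ tr (R log R) + log tr W` for a density matrix `R` -/
theorem klein_tr {R W : Matrix n n ℂ} (hR : Ps R) (h1 : (trace R).re = 1) (hW : Pd W) :
    (trace (R * hlog W)).re ≤
      -∑ i, Real.negMulLog (hR.1.eigenvalues i) + Real.log (trace W).re := by
  obtain ⟨V, hV, e1, -⟩ := hf_spec hR.1
  obtain ⟨U, hU, e2, e3⟩ := hf_spec hW.1
  have t1 : ∑ i, hR.1.eigenvalues i = 1 := by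
    rw [← h1]
    conv_rhs => rw [e1, ent_trace_fr hV, Complex.ofReal_re]
  have t2 : ∑ i, hW.1.eigenvalues i = (trace W).re := by
    conv_rhs => rw [e2, ent_trace_fr hU, Complex.ofReal_re]
  have hn : (Finset.univ : Finset n).Nonempty :=
    Finset.nonempty_of_sum_ne_zero (t1 ▸ one_ne_zero)
  have t3 : 0 < (trace W).re := t2 ▸ Finset.sum_pos (fun i _ => hW.eig i) hn
  generalize (trace W).re = T at t2 t3
  have h2 := klein hV hU _ (fun i => hW.1.eigenvalues i / T) hR.eig t1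
    (fun i => div_pos (hW.eig i) t3) (by rw [← Finset.sum_div, t2, div_self t3.ne'])
  have h3 : fr U (fun i => Real.log (hW.1.eigenvalues i / T)) = hlog W - (Real.log T : ℂ) • 1 := by
    rw [hlog, ← hf_const hW.1, ← hf_sub hW.1, e3, fr]
    simp only [Real.log_div (hW.eig _).ne' t3.ne', Complex.ofReal_sub]
  rw [h3, ← e1, sub_mul, smul_mul_assoc, one_mul, trace_sub, trace_smul, trace_mul_comm,
    Complex.sub_re, smul_eq_mul, Complex.re_ofReal_mul, h1] at h2
  linarith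
/-- square root of a positive semidefinite matrix -/
theorem sqrt_ps {A : Matrix n n ℂ} (hA : Ps A) :
    (hf A fun x => (Real.sqrt x : ℂ))ᴴ * (hf A fun x => (Real.sqrt x : ℂ)) = A := by
  rw [(hf_herm A Real.sqrt).eq, hf_mul hA.1]
  refine (hf_congr hA.1 fun i => ?_).trans (hf_id hA.1)
  rw [← Complex.ofReal_mul, Real.mul_self_sqrt (hA.eig i)]

end Vale.Agent.P356G
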