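import Vale.Agent.P356G.Fun

/- Exponentials, logarithms, complex powers. Use `hf_mul`, `hf_congr` with `Pd.eig`, `joint` + `hf_fn`
for two commuting matrices, `hf_meas` for Jensen and for bounds. -/

namespace Vale.Agent.P356G

open Matrix Vale.Agent.P356

variable {n : Type} [Fintype n] [DecidableEq n]

namespace FunB0A

theorem real (A : Matrix n n ℂ) (x : ℝ) :
    cpw A x = hf A fun t => (Real.exp (x * Real.log t) : ℂ) := by
  simp only [cpw, Complex.ofReal_exp, Complex.ofReal_mul]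

theorem fn_inj {V : Matrix n n ℂ} (hV : V * Vᴴ = 1) {f g : n → ℂ} (h : fn V f = fn V g) :
    f = g := by
  have h1 : Vᴴ * V = 1 := mul_eq_one_comm.1 hV
  have h2 : ∀ f : n → ℂ, Vᴴ * fn V f * V = diagonal f := fun f => by
    unfold fn
    rw [← Matrix.mul_assoc, ← Matrix.mul_assoc, h1, Matrix.one_mul, Matrix.mul_assoc, h1,
      Matrix.mul_one]
  exact diagonal_injective (by rw [← h2, ← h2, h])

theorem norm_exp (z : ℂ) (t : ℝ) :
    ‖Complex.exp (z * (Real.log t : ℂ))‖ = Real.exp (z.re * Real.log t) := by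
  rw [Complex.norm_exp, Complex.re_mul_ofReal]

theorem norm_exp' (z : ℂ) {t : ℝ} (ht : 0 < t) :
    ‖Complex.exp (z * (Real.log t : ℂ))‖ = t ^ z.re := by
  rw [norm_exp, Real.rpow_def_of_pos ht, mul_comm]

end FunB0A

theorem cpw_add {A : Matrix n n ℂ} (hA : A.IsHermitian) (z w : ℂ) :
    cpw A (z + w) = cpw A z * cpw A w := by
  simp only [cpw, hf_mul hA, add_mul, Complex.exp_add]
theorem cpw_zero {A : Matrix n n ℂ} (hA : A.IsHermitian) : cpw A 0 = 1 := by
  simp only [cpw, zero_mul, Complex.exp_zero, hf_const hA, one_smul]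
theorem cpw_neg {A : Matrix n n ℂ} (hA : A.IsHermitian) (z : ℂ) : cpw A z * cpw A (-z) = 1 := by
  rw [← cpw_add hA, add_neg_cancel, cpw_zero hA]
theorem cpw_one {A : Matrix n n ℂ} (hA : Pd A) : cpw A 1 = A := by
  refine (hf_congr hA.1 fun i => ?_).trans (hf_id hA.1)
  rw [one_mul, ← Complex.ofReal_exp, Real.exp_log (hA.eig i)]
theorem cpw_ct (A : Matrix n n ℂ) (z : ℂ) : (cpw A z)ᴴ = cpw A (star z) := by
  simp only [cpw, hf_ct, Complex.star_def, ← Complex.exp_conj, map_mul, Complex.conj_ofReal]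
theorem cpw_herm (A : Matrix n n ℂ) (x : ℝ) : (cpw A x).IsHermitian :=
  FunB0A.real A x ▸ hf_herm A _
theorem cpw_pd {A : Matrix n n ℂ} (hA : A.IsHermitian) (x : ℝ) : Pd (cpw A x) :=
  FunB0A.real A x ▸ hf_pd hA fun _ => Real.exp_pos _
theorem cpw_half {A : Matrix n n ℂ} (hA : Pd A) : cpw A (1 / 2) * cpw A (1 / 2) = A := by
  rw [← cpw_add hA.1, add_halves, cpw_one hA]
theorem cpw_half_herm (A : Matrix n n ℂ) : (cpw A (1 / 2))ᴴ = cpw A (1 / 2) := by
  rw [cpw_ct]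
  simp
theorem cpw_nhalf_herm (A : Matrix n n ℂ) : (cpw A (-1 / 2))ᴴ = cpw A (-1 / 2) := by
  rw [cpw_ct]
  simp
theorem cpw_half_inv {A : Matrix n n ℂ} (hA : A.IsHermitian) :
    cpw A (1 / 2) * cpw A (-1 / 2) = 1 ∧ cpw A (-1 / 2) * cpw A (1 / 2) = 1 := by
  rw [← cpw_add hA, ← cpw_add hA, ← cpw_zero hA]
  constructor <;> congr 1 <;> ring
theorem cpw_inv {A : Matrix n n ℂ} (hA : Pd A) : cpw A (-1) * A = 1 ∧ A * cpw A (-1) = 1 := by
  have h1 := cpw_add hA.1 (-1) 1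
  have h2 := cpw_neg hA.1 1
  rw [neg_add_cancel, cpw_zero hA.1] at h1
  rw [cpw_one hA] at h1 h2
  exact ⟨h1.symm, h2⟩
theorem cpw_cpw {A : Matrix n n ℂ} (hA : A.IsHermitian) (x : ℝ) (z : ℂ) :
    cpw (cpw A x) z = cpw A (x * z) := by
  rw [FunB0A.real, cpw, hf_comp hA, cpw]
  congr 1
  funext t
  rw [Real.log_exp]
  push_cast
  ring_nf
theorem cpw_id (z : ℂ) : cpw (1 : Matrix n n ℂ) z = 1 := by
  have := hf_scalar (n := n) 1 fun x => Complex.exp (z * (Real.log x : ℂ))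
  simpa [cpw] using this
theorem cpw_comm {A Z : Matrix n n ℂ} (h : Commute Z A) (z : ℂ) : Commute Z (cpw A z) :=
  hf_comm h _
theorem cpw_uni {A : Matrix n n ℂ} (hA : A.IsHermitian) {z : ℂ} (hz : z.re = 0) :
    cpw A z * (cpw A z)ᴴ = 1 := by
  have h : star z = -z := Complex.ext (by simp [hz]) (by simp)
  rw [cpw_ct, h, cpw_neg hA]
/-- uniqueness of the positive square root -/
theorem sqrt_unique {A X : Matrix n n ℂ} (hX : Pd X) (h : X * X = A) : cpw A (1 / 2) = X := by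
  have h1 := cpw_cpw hX.1 2 (1 / 2)
  have h2 := cpw_add hX.1 1 1
  rw [cpw_one hX, h, one_add_one_eq_two] at h2
  rw [Complex.ofReal_ofNat, h2, show (2 : ℂ) * (1 / 2) = 1 by norm_num, cpw_one hX] at h1
  exact h1
theorem cpw_bd {A : Matrix n n ℂ} {lo hi : ℝ} (hA : SpIn A lo hi) (h0 : 0 < lo) (z : ℂ) :
    Bd (cpw A z) (max (lo ^ z.re) (hi ^ z.re)) := by
  refine hf_bd hA.1 (le_max_of_le_left (Real.rpow_nonneg h0.le _)) fun i => ?_
  obtain ⟨h1, h2⟩ := hA.eig i
  rw [FunB0A.norm_exp' z (h0.trans_le h1)]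
  rcases le_total 0 z.re with h | h
  · exact le_max_of_le_right (Real.rpow_le_rpow (h0.le.trans h1) h2 h)
  · exact le_max_of_le_left (Real.rpow_le_rpow_of_nonpos h0 h1 h)
theorem cpw_bd_pos {A : Matrix n n ℂ} {lo hi : ℝ} (hA : SpIn A lo hi) (h0 : 0 < lo) (hh : lo ≤ hi)
    {x : ℝ} (hx : 0 ≤ x) : Bd (cpw A x) (hi ^ x) ∧ Bd (cpw A (-x)) (lo ^ (-x)) := by
  have h1 := cpw_bd hA h0 x
  have h2 := cpw_bd hA h0 (-x)
  rw [Complex.ofReal_re, max_eq_right (Real.rpow_le_rpow h0.le hh hx)] at h1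
  rw [Complex.neg_re, Complex.ofReal_re,
    max_eq_left (Real.rpow_le_rpow_of_nonpos h0 hh (neg_nonpos.2 hx))] at h2
  exact ⟨h1, h2⟩
theorem cpw_diff (A : Matrix n n ℂ) (i j : n) : Differentiable ℂ fun z => cpw A z i j := by
  unfold cpw hf
  split_ifs with h
  · simp only [fn, Matrix.mul_apply, diagonal_apply, mul_ite, mul_zero, Finset.sum_ite_eq',
      Finset.mem_univ, if_true]
    fun_prop
  · exact differentiable_const _
theorem cpw_bdd (A : Matrix n n ℂ) (R : ℝ) :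
    ∃ C, 0 ≤ C ∧ ∀ z : ℂ, |z.re| ≤ R → Bd (cpw A z) C := by
  by_cases hA : A.IsHermitian
  · refine ⟨∑ i, Real.exp (R * |Real.log (hA.eigenvalues i)|), by positivity, fun z hz =>
      hf_bd hA (by positivity) fun i => ?_⟩
    rw [FunB0A.norm_exp]
    refine le_trans (Real.exp_le_exp.2 ((le_abs_self _).trans ?_))
      (Finset.single_le_sum (f := fun i => Real.exp (R * |Real.log (hA.eigenvalues i)|))
        (fun _ _ => (Real.exp_pos _).le) (Finset.mem_univ i))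
    rw [abs_mul]
    exact mul_le_mul_of_nonneg_right hz (abs_nonneg _)
  · refine ⟨0, le_rfl, fun z _ v => ?_⟩
    simp [cpw, hf, hA, nr_zero]
theorem FunB0A.pos {V : Matrix n n ℂ} (hV : V * Vᴴ = 1) {a : n → ℝ} (h : Pd (fr V a)) (i : n) :
    0 < a i := by
  have h1 := cpw_one h
  rw [cpw, hf_fn hV] at h1
  have h2 := congrFun (FunB0A.fn_inj hV h1) i
  rw [one_mul, ← Complex.ofReal_exp, Complex.ofReal_inj] at h2
  exact h2 ▸ Real.exp_pos _

theorem cpw_mul {A B : Matrix n n ℂ} (hA : Pd A) (hB : Pd B) (h : Commute A B) (z : ℂ) :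
    cpw (A * B) z = cpw A z * cpw B z := by
  obtain ⟨V, a, b, hV, rfl, rfl⟩ := joint hA.1 hB.1 h
  rw [fr_mul hV]
  simp only [cpw, hf_fn hV, fn_mul hV]
  congr 1
  funext i
  rw [Real.log_mul (FunB0A.pos hV hA i).ne' (FunB0A.pos hV hB i).ne', ← Complex.exp_add]
  push_cast
  ring_nf
theorem Pd.mul {A B : Matrix n n ℂ} (hA : Pd A) (hB : Pd B) (h : Commute A B) : Pd (A * B) := by
  have h1 := hB.conj (cpw_half_inv hA.1).2
  rwa [cpw_half_herm, Matrix.mul_assoc, (cpw_comm h.symm _).eq, ← Matrix.mul_assoc,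
    cpw_half hA] at h1
theorem Ps.mul {A B : Matrix n n ℂ} (hA : Ps A) (hB : Ps B) (h : Commute A B) : Ps (A * B) := by
  have h1 := hB.conj (hf A fun x => (Real.sqrt x : ℂ))
  have h2 : (hf A fun x => (Real.sqrt x : ℂ)) * (hf A fun x => (Real.sqrt x : ℂ)) = A := by
    rw [hf_mul hA.1]
    refine (hf_congr hA.1 fun i => ?_).trans (hf_id hA.1)
    rw [← Complex.ofReal_mul, Real.mul_self_sqrt (hA.eig i)]
  rwa [(hf_herm A _).eq, Matrix.mul_assoc, (hf_comm h.symm _).eq, ← Matrix.mul_assoc, h2] at h1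
theorem pr_pd (M : ℕ → Matrix n n ℂ) (j : ℕ) (h : ∀ i, i < j → Pd (M i))
    (hc : ∀ i, i < j → ∀ i', i' < j → Commute (M i) (M i')) : Pd (pr M j) := by
  induction j with
  | zero => exact pd_one
  | succ j ih =>
    exact (ih (fun i hi => h i (by omega)) fun i hi i' hi' => hc i (by omega) i' (by omega)).mul
      (h j (by omega)) (pr_comm M (M j) j fun i hi => hc j (by omega) i (by omega)).symm
/-- quadratic form of a product of commuting positive matrices -/
theorem qf_mul {R A : Matrix n n ℂ} (hR : Pd R) (h : Commute R A) (v : n → ℂ) :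
    qf (R * A) v = qf A (cpw R (1 / 2) *ᵥ v) := by
  rw [← qf_conj, cpw_half_herm, Matrix.mul_assoc, (cpw_comm h.symm _).eq, ← Matrix.mul_assoc,
    cpw_half hR]

end Vale.Agent.P356G
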