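import Vale.Agent.P356G.FunC0

/- Polynomial arguments. `hf_poly`: Lagrange interpolation on the finite set of eigenvalues
(`Lagrange.interpolate` over `ℂ` on the image of the eigenvalues), `hf A (eval p) = aeval A p` by
induction on `p`. `ap`: `exists_polynomial_near_of_continuousOn` (Weierstrass),
`A ^ k - B ^ k = ∑ B ^ (k - 1 - i) (A - B) A ^ i`. -/

namespace Vale.Agent.P356G

open Matrix Vale.Agent.P356

variable {n : Type} [Fintype n] [DecidableEq n]

namespace FunCA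

omit [DecidableEq n] in
theorem ap_add {S : Set (n → ℂ)} {X Y X' Y' : Matrix n n ℂ} {η η' : ℝ} (h : Ap S X Y η)
    (h' : Ap S X' Y' η') : Ap S (X + X') (Y + Y') (η + η') := by
  intro y hy
  rw [add_sub_add_comm, Matrix.add_mulVec, add_mul]
  exact (nr_add _ _).trans (add_le_add (h y hy) (h' y hy))

omit [DecidableEq n] in
theorem ap_smul {S : Set (n → ℂ)} {X Y : Matrix n n ℂ} {η : ℝ} (h : Ap S X Y η) (c : ℂ) :
    Ap S (c • X) (c • Y) (‖c‖ * η) := by
  intro y hy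
  rw [← smul_sub, Matrix.smul_mulVec, nr_smul, mul_assoc]
  exact mul_le_mul_of_nonneg_left (h y hy) (norm_nonneg c)

theorem bd_pow {A : Matrix n n ℂ} {r : ℝ} (h : Bd A r) (hr : 0 ≤ r) (j : ℕ) :
    Bd (A ^ j) (r ^ j) := by
  induction j with
  | zero => simpa using bd_one
  | succ j ih =>
    rw [pow_succ, pow_succ]
    exact ih.mul h (pow_nonneg hr j)

theorem bd_sp {A : Matrix n n ℂ} {lo hi : ℝ} (h : SpIn A lo hi) : Bd A (|lo| + |hi|) := by
  have h1 := hf_bd h.1 (f := fun x => (x : ℂ)) (r := |lo| + |hi|) (by positivity) fun i => by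
    obtain ⟨h2, h3⟩ := h.eig i
    rw [Complex.norm_real, Real.norm_eq_abs, abs_le]
    constructor
    · linarith [neg_abs_le lo, abs_nonneg hi]
    · linarith [le_abs_self hi, abs_nonneg lo]
  rwa [hf_id h.1] at h1

theorem ap_pow {r : ℝ} (hr : 0 ≤ r) (j : ℕ) : ∃ C : ℝ, 0 ≤ C ∧
    ∀ (k : Type) [Fintype k] [DecidableEq k] (A B : Matrix k k ℂ) (S : Set (k → ℂ)) (e : ℝ),
      0 ≤ e → Bd A r → Bd B r → Inv S A → Ap S A B e → Ap S (A ^ j) (B ^ j) (C * e) := by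
  induction j with
  | zero =>
    refine ⟨0, le_rfl, fun k _ _ A B S e _ _ _ _ _ y _ => ?_⟩
    simp [nr_zero]
  | succ j ih =>
    obtain ⟨C, hC, ih⟩ := ih
    have hp := pow_nonneg hr j
    refine ⟨(r + r ^ j) * (C + 1), by positivity, fun k _ _ A B S e he hA hB hi h => ?_⟩
    have h1 := (ih k A B S e he hA hB hi h).mul h hi (r := r + r ^ j) (hA.mono (by linarith))
      ((bd_pow hB hr j).mono (by linarith)) (mul_nonneg hC he) (by positivity)
    rw [pow_succ, pow_succ]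
    exact h1.mono (le_of_eq (by ring))

theorem ap_poly {r : ℝ} (hr : 0 ≤ r) (p : Polynomial ℂ) : ∃ C : ℝ, 0 ≤ C ∧
    ∀ (k : Type) [Fintype k] [DecidableEq k] (A B : Matrix k k ℂ) (S : Set (k → ℂ)) (e : ℝ),
      0 ≤ e → Bd A r → Bd B r → Inv S A → Ap S A B e →
      Ap S (Polynomial.aeval A p) (Polynomial.aeval B p) (C * e) := by
  induction p using Polynomial.induction_on' with
  | add p q hp hq =>
    obtain ⟨C, hC, hp⟩ := hp
    obtain ⟨D, hD, hq⟩ := hq
    refine ⟨C + D, add_nonneg hC hD, fun k _ _ A B S e he hA hB hi h => ?_⟩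
    rw [map_add, map_add, add_mul]
    exact ap_add (hp k A B S e he hA hB hi h) (hq k A B S e he hA hB hi h)
  | monomial j a =>
    obtain ⟨C, hC, hp⟩ := ap_pow hr j
    refine ⟨‖a‖ * C, by positivity, fun k _ _ A B S e he hA hB hi h => ?_⟩
    rw [Polynomial.aeval_monomial, Polynomial.aeval_monomial, ← Algebra.smul_def,
      ← Algebra.smul_def, mul_assoc]
    exact ap_smul (hp k A B S e he hA hB hi h) a

theorem ap_near {A : Matrix n n ℂ} {lo hi : ℝ} (hA : SpIn A lo hi) (S : Set (n → ℂ)) {f : ℝ → ℝ}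
    {p : Polynomial ℝ} {ε : ℝ} (hε : 0 ≤ ε) (h : ∀ x ∈ Set.Icc lo hi, |p.eval x - f x| < ε) :
    Ap S (Polynomial.aeval A (p.map (algebraMap ℝ ℂ))) (hf A fun x => (f x : ℂ)) ε := by
  intro y _
  rw [← hf_aeval hA.1, ← hf_sub hA.1]
  refine hf_bd hA.1 hε (fun i => ?_) y
  have h1 : (p.map (algebraMap ℝ ℂ)).eval ((hA.1.eigenvalues i : ℝ) : ℂ) =
      ((p.eval (hA.1.eigenvalues i) : ℝ) : ℂ) := by
    rw [Polynomial.eval_map_algebraMap]
    exact Polynomial.aeval_algebraMap_apply_eq_algebraMap_eval (A := ℂ) (hA.1.eigenvalues i) p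
  rw [h1, ← Complex.ofReal_sub, Complex.norm_real, Real.norm_eq_abs]
  exact (h _ (hA.eig i)).le

end FunCA

/-- dimension free approximate functional calculus -/
theorem ap (f : ℝ → ℝ) (lo hi : ℝ) (hf' : ContinuousOn f (Set.Icc lo hi)) (η : ℝ) (hη : 0 < η) :
    ∃ e : ℝ, 0 < e ∧ ∀ (k : Type) [Fintype k] [DecidableEq k] (A B : Matrix k k ℂ)
      (S : Set (k → ℂ)), SpIn A lo hi → SpIn B lo hi → Inv S A → Ap S A B e →
      Ap S (hf A fun x => (f x : ℂ)) (hf B fun x => (f x : ℂ)) η := by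
  obtain ⟨p, hp⟩ := exists_polynomial_near_of_continuousOn lo hi f hf' (η / 3) (by positivity)
  obtain ⟨C, hC, h1⟩ := FunCA.ap_poly (r := |lo| + |hi|) (by positivity) (p.map (algebraMap ℝ ℂ))
  refine ⟨η / 3 / (C + 1), by positivity, fun k _ _ A B S hA hB hi h => ?_⟩
  have h2 := h1 k A B S _ (by positivity) (FunCA.bd_sp hA) (FunCA.bd_sp hB) hi h
  have h3 := ((FunCA.ap_near hA S (by positivity) hp).symm.trans h2).trans
    (FunCA.ap_near hB S (by positivity) hp)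
  refine h3.mono ?_
  have h4 : C * (η / 3 / (C + 1)) ≤ η / 3 := by
    rw [← mul_div_assoc, div_le_iff₀ (by positivity)]
    nlinarith
  linarith

theorem ap_cpw (x lo hi : ℝ) (h0 : 0 < lo) (η : ℝ) (hη : 0 < η) :
    ∃ e : ℝ, 0 < e ∧ ∀ (k : Type) [Fintype k] [DecidableEq k] (A B : Matrix k k ℂ)
      (S : Set (k → ℂ)), SpIn A lo hi → SpIn B lo hi → Inv S A → Ap S A B e →
      Ap S (cpw A x) (cpw B x) η := by
  have hc : ContinuousOn (fun y : ℝ => Real.exp (x * Real.log y)) (Set.Icc lo hi) :=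
    (continuousOn_const.mul (Real.continuousOn_log.mono fun y hy =>
      (h0.trans_le hy.1).ne')).rexp
  obtain ⟨e, he, h⟩ := ap _ lo hi hc η hη
  refine ⟨e, he, fun k _ _ A B S hA hB hi h1 => ?_⟩
  have h2 := h k A B S hA hB hi h1
  simp only [Complex.ofReal_exp, Complex.ofReal_mul] at h2
  exact h2

/-- three lines on the strip `a ≤ re z ≤ b`
(`Complex.HadamardThreeLines.norm_le_interp_of_mem_verticalClosedStrip'`) -/
theorem three (F : ℂ → ℂ) (hF : Differentiable ℂ F) (a b A B : ℝ) (hab : a < b) (hA : 0 ≤ A)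
    (hB : 0 ≤ B) (hb : ∃ C, ∀ z : ℂ, a ≤ z.re → z.re ≤ b → ‖F z‖ ≤ C)
    (ha : ∀ z : ℂ, z.re = a → ‖F z‖ ≤ A) (hb' : ∀ z : ℂ, z.re = b → ‖F z‖ ≤ B) (z : ℂ)
    (h1 : a ≤ z.re) (h2 : z.re ≤ b) :
    ‖F z‖ ≤ A ^ (1 - (z.re - a) / (b - a)) * B ^ ((z.re - a) / (b - a)) := by
  obtain ⟨C, hC⟩ := hb
  refine Complex.HadamardThreeLines.norm_le_interp_of_mem_verticalClosedStrip' hab ⟨h1, h2⟩
    hF.diffContOnCl ⟨C, ?_⟩ (fun w hw => ha w hw) fun w hw => hb' w hw
  rintro _ ⟨w, hw, rfl⟩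
  exact hC w hw.1 hw.2

end Vale.Agent.P356G
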