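import Vale.Agent.P356G.FunB

/- Polynomial arguments. `hf_poly`: Lagrange interpolation on the finite set of eigenvalues
(`Lagrange.interpolate` over `ℂ` on the image of the eigenvalues), `hf A (eval p) = aeval A p` by
induction on `p`. `ap`: `exists_polynomial_near_of_continuousOn` (Weierstrass),
`A ^ k - B ^ k = ∑ B ^ (k - 1 - i) (A - B) A ^ i`. -/

namespace Vale.Agent.P356G

open Matrix Vale.Agent.P356

variable {n : Type} [Fintype n] [DecidableEq n]

theorem hf_aeval {A : Matrix n n ℂ} (hA : A.IsHermitian) (p : Polynomial ℂ) :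
    hf A (fun x => p.eval (x : ℂ)) = Polynomial.aeval A p := by
  induction p using Polynomial.induction_on' with
  | add p q hp hq => simp only [Polynomial.eval_add, map_add, hf_add hA, hp, hq]
  | monomial k a =>
    simp only [Polynomial.eval_monomial, Polynomial.aeval_monomial]
    rw [hf_smul hA, hf_pow hA, Algebra.smul_def]

namespace FunC0A

theorem interp (T : Finset ℝ) (f : ℝ → ℂ) : ∃ p : Polynomial ℂ, ∀ x ∈ T, p.eval (x : ℂ) = f x :=
  ⟨Lagrange.interpolate T (fun x : ℝ => (x : ℂ)) f, fun _ hx =>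
    Lagrange.eval_interpolate_at_node f Complex.ofReal_injective.injOn hx⟩

theorem ind {A : Matrix n n ℂ} {P : Matrix n n ℂ → Prop} (h1 : ∀ k : ℕ, P (A ^ k))
    (h2 : ∀ X Y, P X → P Y → P (X + Y)) (h3 : ∀ (c : ℂ) X, P X → P (c • X)) (p : Polynomial ℂ) :
    P (Polynomial.aeval A p) := by
  induction p using Polynomial.induction_on' with
  | add p q hp hq =>
    rw [map_add]
    exact h2 _ _ hp hq
  | monomial k a =>
    rw [Polynomial.aeval_monomial, ← Algebra.smul_def]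
    exact h3 _ _ (h1 k)

end FunC0A

/-- one polynomial computes `f` on two matrices -/
theorem hf_poly {A B : Matrix n n ℂ} (hA : A.IsHermitian) (hB : B.IsHermitian) (f : ℝ → ℂ) :
    ∃ p : Polynomial ℂ, hf A f = Polynomial.aeval A p ∧ hf B f = Polynomial.aeval B p := by
  obtain ⟨p, hp⟩ := FunC0A.interp
    (Finset.univ.image hA.eigenvalues ∪ Finset.univ.image hB.eigenvalues) f
  refine ⟨p, ?_, ?_⟩
  · rw [← hf_aeval hA]
    exact hf_congr hA fun i => (hp _ (by simp)).symm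
  · rw [← hf_aeval hB]
    exact hf_congr hB fun i => (hp _ (by simp)).symm
theorem hf_inv {A : Matrix n n ℂ} (S : Submodule ℂ (n → ℂ)) (h : Inv (S : Set (n → ℂ)) A)
    (f : ℝ → ℂ) : Inv (S : Set (n → ℂ)) (hf A f) := by
  by_cases hA : A.IsHermitian
  · obtain ⟨p, hp, -⟩ := hf_poly hA hA f
    rw [hp]
    refine FunC0A.ind (P := Inv (S : Set (n → ℂ))) (fun k => ?_) (fun X Y hX hY y hy => ?_)
      (fun c X hX y hy => ?_) p
    · induction k with
      | zero => intro y hy; rwa [pow_zero, one_mulVec]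
      | succ k ih =>
        intro y hy
        rw [pow_succ, ← mulVec_mulVec]
        exact ih _ (h y hy)
    · rw [add_mulVec]
      exact S.add_mem (hX y hy) (hY y hy)
    · rw [smul_mulVec]
      exact S.smul_mem c (hX y hy)
  · intro y _
    rw [hf, dif_neg hA, zero_mulVec]
    exact S.zero_mem
/-- agreement on an invariant set -/
theorem hf_agree {A B : Matrix n n ℂ} (hA : A.IsHermitian) (hB : B.IsHermitian) {S : Set (n → ℂ)}
    (h : Inv S A) (hAB : ∀ y ∈ S, A *ᵥ y = B *ᵥ y) (f : ℝ → ℂ) (y : n → ℂ) (hy : y ∈ S) :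
    hf A f *ᵥ y = hf B f *ᵥ y := by
  obtain ⟨p, h1, h2⟩ := hf_poly hA hB f
  have k : ∀ j : ℕ, ∀ y ∈ S, A ^ j *ᵥ y = B ^ j *ᵥ y := fun j => by
    induction j with
    | zero => intro y _; rw [pow_zero, pow_zero]
    | succ j ih =>
      intro y hy
      rw [pow_succ, pow_succ, ← mulVec_mulVec, ← mulVec_mulVec, ih _ (h y hy), hAB y hy]
  rw [h1, h2]
  clear h1 h2
  induction p using Polynomial.induction_on' with
  | add p q hp hq => rw [map_add, map_add, add_mulVec, add_mulVec, hp, hq]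
  | monomial j a =>
    rw [Polynomial.aeval_monomial, Polynomial.aeval_monomial, ← Algebra.smul_def,
      ← Algebra.smul_def, smul_mulVec, smul_mulVec, k j y hy]
theorem loc_add {Λ Q : Type} [Fintype Λ] [DecidableEq Λ] [Fintype Q] [DecidableEq Q]
    {p : Λ → Prop} {A B : Matrix (Λ → Q) (Λ → Q) ℂ} (h : Loc p A) (h' : Loc p B) :
    Loc p (A + B) := by
  refine ⟨fun s t x h1 h2 => ?_, fun s t s' t' h1 h2 h3 h4 => ?_⟩
  · rw [Matrix.add_apply, h.1 s t x h1 h2, h'.1 s t x h1 h2, add_zero]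
  · rw [Matrix.add_apply, Matrix.add_apply, h.2 s t s' t' h1 h2 h3 h4, h'.2 s t s' t' h1 h2 h3 h4]
theorem loc_smul {Λ Q : Type} [Fintype Λ] [DecidableEq Λ] [Fintype Q] [DecidableEq Q]
    {p : Λ → Prop} {A : Matrix (Λ → Q) (Λ → Q) ℂ} (h : Loc p A) (c : ℂ) : Loc p (c • A) := by
  refine ⟨fun s t x h1 h2 => ?_, fun s t s' t' h1 h2 h3 h4 => ?_⟩
  · rw [Matrix.smul_apply, h.1 s t x h1 h2, smul_zero]
  · rw [Matrix.smul_apply, Matrix.smul_apply, h.2 s t s' t' h1 h2 h3 h4]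
theorem loc_sub {Λ Q : Type} [Fintype Λ] [DecidableEq Λ] [Fintype Q] [DecidableEq Q]
    {p : Λ → Prop} {A B : Matrix (Λ → Q) (Λ → Q) ℂ} (h : Loc p A) (h' : Loc p B) :
    Loc p (A - B) := by
  refine ⟨fun s t x h1 h2 => ?_, fun s t s' t' h1 h2 h3 h4 => ?_⟩
  · rw [Matrix.sub_apply, h.1 s t x h1 h2, h'.1 s t x h1 h2, sub_zero]
  · rw [Matrix.sub_apply, Matrix.sub_apply, h.2 s t s' t' h1 h2 h3 h4, h'.2 s t s' t' h1 h2 h3 h4]
theorem loc_sum {Λ Q ι : Type} [Fintype Λ] [DecidableEq Λ] [Fintype Q] [DecidableEq Q]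
    {p : Λ → Prop} (S : Finset ι) {A : ι → Matrix (Λ → Q) (Λ → Q) ℂ} (h : ∀ i ∈ S, Loc p (A i)) :
    Loc p (∑ i ∈ S, A i) := by
  exact Finset.sum_induction A (Loc p) (fun _ _ => loc_add)
    ⟨fun _ _ _ _ _ => rfl, fun _ _ _ _ _ _ _ _ => rfl⟩ h
theorem hf_loc {Λ Q : Type} [Fintype Λ] [DecidableEq Λ] [Fintype Q] [DecidableEq Q] [Nonempty Q]
    {p : Λ → Prop} {A : Matrix (Λ → Q) (Λ → Q) ℂ} (h : Loc p A) (f : ℝ → ℂ) : Loc p (hf A f) := by
  by_cases hA : A.IsHermitian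
  · obtain ⟨q, hq, -⟩ := hf_poly hA hA f
    rw [hq]
    refine FunC0A.ind (P := Loc p) (fun k => ?_) (fun _ _ => loc_add)
      (fun c _ hX => loc_smul hX c) q
    induction k with
    | zero =>
      rw [pow_zero]
      exact loc_one p
    | succ k ih =>
      rw [pow_succ]
      exact ih.mul h
  · rw [hf, dif_neg hA]
    exact ⟨fun _ _ _ _ _ => rfl, fun _ _ _ _ _ _ _ _ => rfl⟩
theorem hf_lift {Λ Q : Type} [Fintype Λ] [DecidableEq Λ] [Fintype Q] [DecidableEq Q]
    (Y : Finset Λ) {m : Matrix ({x // x ∈ Y} → Q) ({x // x ∈ Y} → Q) ℂ} (hm : m.IsHermitian)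
    (f : ℝ → ℂ) : hf (lift Y m) f = lift Y (hf m f) := by
  obtain ⟨V, h1, h2, h3⟩ := hf_spec hm
  have h4 : lift Y V * (lift Y V)ᴴ = 1 := by rw [← lift_ct, ← lift_mul, h1, lift_one]
  rw [h3, ← fn_lift]
  conv_lhs => rw [h2, ← fr_lift]
  exact hf_fn h4 _ f

end Vale.Agent.P356G
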