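import Vale.Agent.P356G.KeyB

/- `key`: `k = c a`, `k' = (k.1 \ Z, k.2 \ Z) ≠ k`, `G = (grp c k).erase a`, `G' = grp c k'` (`a ∉ G'`),
`u = Th c v` is symmetric in `insert a G = grp c k` and `G'` (`Th_sy`), `Th c' v = inc' incI u` (`Th_move`)
is symmetric in `grp c' k' = insert a G'`. If `Z` is disjoint from `k.1` apply `key0` with
`(A, B, B') = (k.1, k.2, k.2 \ Z)`, otherwise with `(k.2, k.1, k.1 \ Z)` and `inc_swap`.
`T0 = Tp c (univ.erase a)`, `Th c = inc T0 = T0 incᴴ` (`Tp_inc`, Hermitian), `T = s T0`, `T' = T0⁻¹ s'`,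
`T0` commutes with `one a g` (`Tp_one`): `df v = (s g incI - s'ᴴ g incᴴ) u`. -/

namespace Vale.Agent.P356G

open Matrix Vale.Agent.P356 Filter

namespace KeyA

theorem big (D : ℕ) {δ : ℝ} (hδ : 0 < δ) : ∀ᶠ N : ℕ in atTop, D < t0 δ N := by
  filter_upwards [(tendsto_natCast_atTop_atTop.const_mul_atTop hδ).eventually_gt_atTop (D : ℝ)]
    with N hN
  exact Nat.lt_ceil.2 hN

theorem logle {q : ℕ} (hq : 0 < q) {m n : ℕ} (h : m ≤ n) {θ ε : ℝ} (hθ : 0 < θ) (hε : 0 < ε)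
    (h1 : 4 * θ * Real.log ((3 * (q : ℝ) ^ n + 2) / ε) ≤ 1) :
    4 * θ * Real.log ((3 * (q : ℝ) ^ m + 2) / ε) ≤ 1 := by
  have h2 : (q : ℝ) ^ m ≤ (q : ℝ) ^ n := pow_le_pow_right₀ (by exact_mod_cast hq) h
  refine le_trans (mul_le_mul_of_nonneg_left (Real.log_le_log (by positivity) ?_)
    (by positivity)) h1
  exact div_le_div_of_nonneg_right (by linarith) hε.le

variable {Λ Q : Type} [Fintype Λ] [DecidableEq Λ] [Fintype Q] [DecidableEq Q] [Nonempty Q] {N : ℕ}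

theorem target {θ : ℝ} {t : ℕ} {c : Fin N → Cfg Λ} (hc : Ok c) (ht : DD Λ Q < t) (a : Fin N)
    (g : Matrix (Λ → Q) (Λ → Q) ℂ) {s s' : RM Λ Q N} (h : s * s' = 1) :
    ∃ T T' : RM Λ Q N, T * T' = 1 ∧ df θ t c g a T T' =
      (s * one a g * incI Q θ t (c a) a ((grp c (c a)).erase a) -
        s'ᴴ * one a g * (inc Q θ t (c a) a ((grp c (c a)).erase a))ᴴ) * Th Q θ t c := by
  have h1 := Tp_inc (Q := Q) (θ := θ) (c := c) (Finset.mem_univ a) (fun b _ => hc b) ht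
  rw [Finset.inter_univ] at h1
  have h2 := Tp_pd (Q := Q) (θ := θ) (t := t) c (Finset.univ.erase a)
  have h3 := (Tp_one (Q := Q) (θ := θ) c (Finset.notMem_erase a Finset.univ)
    (Nat.zero_lt_of_lt ht) g).eq
  have h4 := (inc_incI (Q := Q) (θ := θ) (t := t) (c a) a ((grp c (c a)).erase a)).2
  have h5 := (Tp_pd (Q := Q) (θ := θ) (t := t) c Finset.univ).1.eq
  obtain ⟨h6, h7⟩ := cpw_inv h2
  have h8 : (cpw (Tp Q θ t c (Finset.univ.erase a)) (-1))ᴴ =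
      cpw (Tp Q θ t c (Finset.univ.erase a)) (-1) := by
    rw [cpw_ct]
    simp
  refine ⟨s * Tp Q θ t c (Finset.univ.erase a),
    cpw (Tp Q θ t c (Finset.univ.erase a)) (-1) * s', ?_, ?_⟩
  · rw [mul_assoc, ← mul_assoc (Tp Q θ t c _), h7, one_mul, h]
  · unfold df Th
    rw [conjTranspose_mul, h8]
    generalize cpw (Tp Q θ t c (Finset.univ.erase a)) (-1) = U at *
    generalize inc Q θ t (c a) a ((grp c (c a)).erase a) = X at *
    generalize incI Q θ t (c a) a ((grp c (c a)).erase a) = X' at *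
    have h9 : Tp Q θ t c Finset.univ = Tp Q θ t c (Finset.univ.erase a) * Xᴴ := by
      rw [← h5, h1, conjTranspose_mul, h2.1.eq]
    generalize Tp Q θ t c (Finset.univ.erase a) = T0 at *
    generalize Tp Q θ t c Finset.univ = T1 at *
    generalize one a g = O at *
    have e1 : s * O * X' * T1 = s * T0 * O := by
      rw [h1, mul_assoc, ← mul_assoc X', h4, one_mul, mul_assoc, h3, mul_assoc]
    have e2 : s'ᴴ * U * O * (T1 * T1) = s'ᴴ * O * Xᴴ * T1 := by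
      have e3 : U * O * T1 = O * Xᴴ := by
        rw [h9, mul_assoc, ← mul_assoc O, h3, ← mul_assoc, ← mul_assoc, h6, one_mul]
      rw [mul_assoc s'ᴴ O, ← e3]
      simp only [mul_assoc]
    rw [sub_mul, e1, e2]

end KeyA

theorem key (Λ Q : Type) [Fintype Λ] [DecidableEq Λ] [Fintype Q] [DecidableEq Q] [Nonempty Q]
    (θ η : ℝ) (hθ : 0 < θ) (hθ1 : θ ≤ 1 / 8) (hη : 0 < η) :
    ∀ᶠ δ in nhdsWithin (0 : ℝ) (Set.Ioi 0), ∀ᶠ N : ℕ in atTop, 2 * DD Λ Q < t0 δ N ∧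
      ∀ (c : Fin N → Cfg Λ) (a : Fin N) (Z : Finset Λ), Ok c →
      (Disjoint Z (c a).1 ∨ Disjoint Z (c a).2) → ((c a).1 \ Z, (c a).2 \ Z) ≠ c a →
      ns δ N ≤ (grp c (c a)).card → ns δ N ≤ (grp c ((c a).1 \ Z, (c a).2 \ Z)).card →
      (∀ v, Sy Finset.univ v →
        nsq (Th Q θ (t0 δ N) (Function.update c a ((c a).1 \ Z, (c a).2 \ Z)) *ᵥ v) ≤
          (1 + η) * nsq (Th Q θ (t0 δ N) c *ᵥ v)) ∧
      ∀ ε0 : ℝ, 0 < ε0 → ε0 ≤ 1 →
        4 * θ * Real.log ((3 * (Fintype.card Q : ℝ) ^ Z.card + 2) / ε0) ≤ 1 →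
        ∀ (g : Matrix (Λ → Q) (Λ → Q) ℂ) (J : ℝ), 0 ≤ J → Loc (fun z => z ∈ Z) g →
        Le (gᴴ * g) J 1 → ∃ T T' : RM Λ Q N, T * T' = 1 ∧ ∀ v, Sy Finset.univ v →
          nsq (df θ (t0 δ N) c g a T T' *ᵥ v) ≤ 1000 * J * (nsq (Th Q θ (t0 δ N) c *ᵥ v) -
            nsq (Th Q θ (t0 δ N) (Function.update c a ((c a).1 \ Z, (c a).2 \ Z)) *ᵥ v) +
            (ε0 + η) * nsq (Th Q θ (t0 δ N) c *ᵥ v)) := by
  filter_upwards [key0 Λ Q θ η hθ hθ1 hη, self_mem_nhdsWithin] with δ h0 hδ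
  filter_upwards [h0, KeyA.big (2 * DD Λ Q) hδ] with N h1 hN
  refine ⟨hN, fun c a Z hc hZ hne hn hn' => ?_⟩
  have ht : DD Λ Q < t0 δ N := by omega
  have hq : 0 < Fintype.card Q := Fintype.card_pos
  have ha : a ∈ grp c (c a) := by simp [grp]
  have ha' : a ∉ grp c ((c a).1 \ Z, (c a).2 \ Z) := fun h =>
    hne (Finset.mem_filter.1 h).2.symm
  have hd : Disjoint ((c a).1 \ Z) ((c a).2 \ Z) :=
    (hc a).mono Finset.sdiff_subset Finset.sdiff_subset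
  have hGG : Disjoint ((grp c (c a)).erase a) (grp c ((c a).1 \ Z, (c a).2 \ Z)) := by
    refine Finset.disjoint_left.2 fun b hb hb' => hne ?_
    exact (Finset.mem_filter.1 hb').2.symm.trans
      (Finset.mem_filter.1 (Finset.mem_of_mem_erase hb)).2
  have hcard : ns δ N ≤ ((grp c (c a)).erase a).card + 1 := by
    rwa [Finset.card_erase_add_one ha]
  have hmv := Th_move (Q := Q) (θ := θ) hc a (k := ((c a).1 \ Z, (c a).2 \ Z)) hd ht
  rw [Finset.erase_eq_of_notMem ha'] at hmv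
  have hs1 : ∀ v, Sy Finset.univ v →
      Sy (insert a ((grp c (c a)).erase a)) (Th Q θ (t0 δ N) c *ᵥ v) := fun v hv =>
    Th_sy c (c a) (Finset.insert_erase ha).le (hv.mono (Finset.subset_univ _))
  have hs2 : ∀ v, Sy Finset.univ v →
      Sy (grp c ((c a).1 \ Z, (c a).2 \ Z)) (Th Q θ (t0 δ N) c *ᵥ v) := fun v hv =>
    Th_sy c _ subset_rfl (hv.mono (Finset.subset_univ _))
  have hs3 : ∀ v, Sy Finset.univ v → Sy (insert a (grp c ((c a).1 \ Z, (c a).2 \ Z)))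
      (Th Q θ (t0 δ N) (Function.update c a ((c a).1 \ Z, (c a).2 \ Z)) *ᵥ v) := by
    intro v hv
    refine Th_sy _ ((c a).1 \ Z, (c a).2 \ Z) (fun b hb => ?_) (hv.mono (Finset.subset_univ _))
    refine Finset.mem_filter.2 ⟨Finset.mem_univ _, ?_⟩
    rcases Finset.mem_insert.1 hb with rfl | hb
    · exact Function.update_self _ _ _
    · have hba : b ≠ a := by
        rintro rfl
        exact ha' hb
      rw [Function.update_of_ne hba]
      exact (Finset.mem_filter.1 hb).2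
  obtain ⟨A, B, B', hAB, hB, hBZ, hL, e1, e2, e3⟩ : ∃ A B B' : Finset Λ, Disjoint A B ∧ B' ⊆ B ∧
      B \ B' ⊆ Z ∧ (∀ z ∈ Z, z ∉ A ∪ B') ∧
      inc Q θ (t0 δ N) (A, B') a (grp c ((c a).1 \ Z, (c a).2 \ Z)) =
        inc Q θ (t0 δ N) ((c a).1 \ Z, (c a).2 \ Z) a (grp c ((c a).1 \ Z, (c a).2 \ Z)) ∧
      incI Q θ (t0 δ N) (A, B) a ((grp c (c a)).erase a) =
        incI Q θ (t0 δ N) (c a) a ((grp c (c a)).erase a) ∧
      inc Q θ (t0 δ N) (A, B) a ((grp c (c a)).erase a) =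
        inc Q θ (t0 δ N) (c a) a ((grp c (c a)).erase a) := by
    rcases hZ with hZ | hZ
    · refine ⟨(c a).1, (c a).2, (c a).2 \ Z, hc a, Finset.sdiff_subset,
        (Finset.sdiff_sdiff_self_left _ _).le.trans Finset.inter_subset_right, fun z hz h => ?_,
        ?_, rfl, rfl⟩
      · rcases Finset.mem_union.1 h with h | h
        · exact Finset.disjoint_left.1 hZ hz h
        · exact (Finset.mem_sdiff.1 h).2 hz
      · rw [Finset.sdiff_eq_self_of_disjoint hZ.symm]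
    · refine ⟨(c a).2, (c a).1, (c a).1 \ Z, (hc a).symm, Finset.sdiff_subset,
        (Finset.sdiff_sdiff_self_left _ _).le.trans Finset.inter_subset_right, fun z hz h => ?_,
        ?_, (inc_swap (hc a).symm _ _).2, (inc_swap (hc a).symm _ _).1⟩
      · rcases Finset.mem_union.1 h with h | h
        · exact Finset.disjoint_left.1 hZ hz h
        · exact (Finset.mem_sdiff.1 h).2 hz
      · rw [(inc_swap hd _ _).1, Finset.sdiff_eq_self_of_disjoint hZ.symm]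
  obtain ⟨k1, k2⟩ := h1 A B B' _ _ a hAB hB hGG (Finset.notMem_erase a _) ha' hcard hn'
  rw [e1, e2] at k1
  rw [e1, e2, e3] at k2
  refine ⟨fun v hv => ?_, fun ε0 p0 p1 hl g J hJ hg hgJ => ?_⟩
  · have h3 := hs3 v hv
    rw [hmv, ← mulVec_mulVec] at h3 ⊢
    exact k1 _ (hs1 v hv) (hs2 v hv) h3
  · obtain ⟨s, s', hss, k3⟩ := k2 ε0 p0 p1 (KeyA.logle hq (Finset.card_le_card hBZ) hθ p0 hl)
    obtain ⟨T, T', hT, hdf⟩ := KeyA.target (θ := θ) hc ht a g hss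
    refine ⟨T, T', hT, fun v hv => ?_⟩
    have h3 := hs3 v hv
    rw [hmv, ← mulVec_mulVec] at h3
    rw [hdf, hmv, ← mulVec_mulVec v, ← mulVec_mulVec v]
    exact k3 g J hJ (hg.mono hL) hgJ _ (hs1 v hv) (hs2 v hv) h3

end Vale.Agent.P356G
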