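import Vale.Agent.P356G.RepE0

/- The tilts. Throughout `DD < t`, so all weights and increments are positive definite (`om_pd`,
`rh_spIn`, `DD * t ≥ t`). Groups of different pairs are disjoint, so all `Lk` commute (`om_om`,
`hf_comm2`); an empty group gives `Lw = hlog 1 = 0`.
`Tp_inc`: split off `k = c a` from the sum (`hexp_add`), with `G = (grp c k ∩ S).erase a`:
`exp θ (L⁺AB - L⁺A - L⁺B) = exp θ L⁺AB * exp (-θ L⁺A) * exp (-θ L⁺B)`, `L⁺Y = hlog (rh Y) + LY`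
(`om_insert`, `hlog_mul`, `rh_om`), `hexp_smul_log`; `om (A ∪ B) G` commutes with `rh A`, `rh B`. -/

namespace Vale.Agent.P356G

open Matrix Vale.Agent.P356

variable {Λ Q : Type} [Fintype Λ] [DecidableEq Λ] [Fintype Q] [DecidableEq Q] [Nonempty Q] {N : ℕ}
  {θ : ℝ} {t : ℕ}

namespace RepEA

section
variable {n : Type} [Fintype n] [DecidableEq n]

theorem cc {A B : Matrix n n ℂ} (h : Commute A B) (z w : ℂ) : Commute (cpw A z) (cpw B w) :=
  hf_comm2 h _ _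

omit [Fintype n] [DecidableEq n] in
theorem hs {A : Matrix n n ℂ} (h : A.IsHermitian) (x : ℝ) : ((x : ℂ) • A).IsHermitian := by
  simp [IsHermitian, conjTranspose_smul, h.eq]

theorem absorb {Z P : Matrix n n ℂ} (X : Matrix n n ℂ) (h1 : Z * P = P) (h2 : P * Z = P) :
    Commute Z (P * X * P + (1 - P)) :=
  Commute.add_right (by rw [Commute, SemiconjBy, ← mul_assoc, ← mul_assoc, h1, mul_assoc _ P, h2])
    ((Commute.one_right _).sub_right (h1.trans h2.symm))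

end

theorem Lk_herm (k : Cfg Λ) (G : Finset (Fin N)) : (Lk Q t k G).IsHermitian :=
  ((Lw_herm _ _ _).sub (Lw_herm _ _ _)).sub (Lw_herm _ _ _)

theorem Lk_comm (k k' : Cfg Λ) {G G' : Finset (Fin N)} (h : Disjoint G' G) :
    Commute (Lk Q t k G) (Lk Q t k' G') := by
  have h1 : ∀ (Y Y' : Finset Λ) (s s' : ℕ), Commute (Lw Q Y G s) (Lw Q Y' G' s') :=
    fun Y Y' s s' => Lw_Lw _ _ (.inr (.inr h))
  have h2 : ∀ (Y : Finset Λ) (s : ℕ), Commute (Lw Q Y G s) (Lk Q t k' G') :=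
    fun Y s => ((h1 _ _ _ _).sub_right (h1 _ _ _ _)).sub_right (h1 _ _ _ _)
  exact ((h2 _ _).sub_left (h2 _ _)).sub_left (h2 _ _)

theorem split (c : Fin N → Cfg Λ) (S : Finset (Fin N)) (k : Cfg Λ) :
    Tp Q θ t c S = hexp ((θ : ℂ) • Lk Q t k (grp c k ∩ S)) *
      hexp ((θ : ℂ) • ∑ k' ∈ Finset.univ.erase k, Lk Q t k' (grp c k' ∩ S)) := by
  rw [Tp, ← Finset.add_sum_erase _ _ (Finset.mem_univ k), smul_add]
  refine hexp_add (hs (Lk_herm _ _) θ) (hs (isSelfAdjoint_sum _ fun k' _ => Lk_herm _ _) θ)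
    ((Commute.sum_right _ _ _ fun k' hk => Lk_comm _ _ ?_).smul_left _ |>.smul_right _)
  refine Finset.disjoint_left.2 fun j h1 h2 => Finset.ne_of_mem_erase hk ?_
  simp only [grp, Finset.mem_inter, Finset.mem_filter] at h1 h2
  exact h1.1.2.symm.trans h2.1.2

theorem three {k : Cfg Λ} (hk : Disjoint k.1 k.2) (G : Finset (Fin N)) :
    hexp ((θ : ℂ) • Lk Q t k G) = cpw (om Q (k.1 ∪ k.2) G t) θ *
      cpw (om Q k.1 G (DD Λ Q * t)) (-θ) * cpw (om Q k.2 G (DD Λ Q * t)) (-θ) := by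
  have c1 := Lw_Lw (Q := Q) (G := G) (DD Λ Q * t) t
    (.inl ⟨Finset.subset_union_left (s₁ := k.1) (s₂ := k.2), le_rfl⟩)
  have c2 := Lw_Lw (Q := Q) (G := G) (DD Λ Q * t) t
    (.inl ⟨Finset.subset_union_right (s₁ := k.1) (s₂ := k.2), le_rfl⟩)
  have c3 := Lw_Lw (Q := Q) (G := G) (G' := G) (DD Λ Q * t) (DD Λ Q * t) (.inr (.inl hk.symm))
  rw [← Complex.ofReal_neg, ← hexp_smul_log (om_herm _ _ _), ← hexp_smul_log (om_herm _ _ _),
    ← hexp_smul_log (om_herm _ _ _), ← Lw, ← Lw, ← Lw,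
    ← hexp_add (hs (Lw_herm _ _ _) _) (hs (Lw_herm _ _ _) _) ((c1.smul_left _).smul_right _),
    ← hexp_add ((hs (Lw_herm _ _ _) _).add (hs (Lw_herm _ _ _) _)) (hs (Lw_herm _ _ _) _)
      (((c2.smul_left _).add_left (c3.smul_left _)).smul_right _), Lk, smul_sub, smul_sub,
    Complex.ofReal_neg, neg_smul, neg_smul, sub_eq_add_neg, sub_eq_add_neg]

theorem step {k : Cfg Λ} (hk : Disjoint k.1 k.2) {a : Fin N} {G : Finset (Fin N)} (ha : a ∉ G)
    (ht : DD Λ Q < t) : hexp ((θ : ℂ) • Lk Q t k (insert a G)) =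
      inc Q θ t k a G * hexp ((θ : ℂ) • Lk Q t k G) := by
  have h0 : t ≤ DD Λ Q * t := Nat.le_mul_of_pos_left _ DD_pos
  have h1 : ∀ (Y : Finset Λ) (s : ℕ) (z : ℂ), t ≤ s → Pd (rh Q Y a G s) →
      cpw (om Q Y (insert a G) s) z = cpw (rh Q Y a G s) z * cpw (om Q Y G s) z :=
    fun Y s z h hp => by
      rw [om_insert Y ha (by omega),
        cpw_mul hp (om_pd Y G (by omega)) (rh_om ha _ _ (.inl le_rfl)).symm]
  have c1 := cc (rh_om (Q := Q) ha (DD Λ Q * t) t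
    (.inl (Finset.subset_union_left (s₁ := k.1) (s₂ := k.2)))) θ (-θ)
  have c2 := cc (rh_om (Q := Q) ha (DD Λ Q * t) t
    (.inl (Finset.subset_union_right (s₁ := k.1) (s₂ := k.2)))) θ (-θ)
  have c3 := cc (rh_om (Q := Q) ha (DD Λ Q * t) (DD Λ Q * t) (.inr hk.symm)) (-θ) (-θ)
  rw [three hk, three hk, h1 _ _ _ le_rfl (rh_pd _ ha ht).1, h1 _ _ _ h0 (rh_pd _ ha ht).2,
    h1 _ _ _ h0 (rh_pd _ ha ht).2, inc]
  simp only [mul_assoc]
  rw [c1.left_comm, c3.left_comm, c2.left_comm]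

end RepEA

theorem Tp_inc {c : Fin N → Cfg Λ} {S : Finset (Fin N)} {a : Fin N} (ha : a ∈ S)
    (hd : ∀ b ∈ S, Disjoint (c b).1 (c b).2) (ht : DD Λ Q < t) :
    Tp Q θ t c S = inc Q θ t (c a) a ((grp c (c a) ∩ S).erase a) * Tp Q θ t c (S.erase a) := by
  have e1 : grp c (c a) ∩ S = insert a ((grp c (c a) ∩ S).erase a) :=
    (Finset.insert_erase (by simp [grp, ha])).symm
  have e2 : ∑ k ∈ Finset.univ.erase (c a), Lk Q t k (grp c k ∩ S.erase a) =
      ∑ k ∈ Finset.univ.erase (c a), Lk Q t k (grp c k ∩ S) :=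
    Finset.sum_congr rfl fun k hk => by
      rw [Finset.inter_erase, Finset.erase_eq_of_notMem]
      simp [grp, (Finset.ne_of_mem_erase hk).symm]
  rw [RepEA.split c S (c a), RepEA.split c (S.erase a) (c a), e2, Finset.inter_erase, ← mul_assoc,
    ← RepEA.step (hd a ha) (Finset.notMem_erase a _) ht, ← e1]

theorem inc_incI (k : Cfg Λ) (a : Fin N) (G : Finset (Fin N)) :
    inc Q θ t k a G * incI Q θ t k a G = 1 ∧ incI Q θ t k a G * inc Q θ t k a G = 1 := by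
  have h : ∀ (Y : Finset Λ) (s : ℕ), cpw (rh Q Y a G s) (-θ) * cpw (rh Q Y a G s) θ = 1 :=
    fun Y s => mul_eq_one_comm.1 (cpw_neg (rh_herm Y a G s) θ)
  have h1 : inc Q θ t k a G * incI Q θ t k a G = 1 := by
    simp only [inc, incI, mul_assoc]
    rw [← mul_assoc (cpw (rh Q k.2 a G _) _), h, one_mul, ← mul_assoc (cpw (rh Q k.1 a G _) _), h,
      one_mul, cpw_neg (rh_herm _ _ _ _)]
  exact ⟨h1, mul_eq_one_comm.1 h1⟩

theorem inc_swap {A B : Finset Λ} (h : Disjoint A B) (a : Fin N) (G : Finset (Fin N)) :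
    inc Q θ t (A, B) a G = inc Q θ t (B, A) a G ∧ incI Q θ t (A, B) a G = incI Q θ t (B, A) a G := by
  have h1 : Commute (rh Q A a G (DD Λ Q * t)) (rh Q B a G (DD Λ Q * t)) :=
    comm_rh _ fun j _ => (rh_comm _ (.inr (.inl h))).symm
  simp only [inc, incI, Finset.union_comm B A]
  rw [mul_assoc, (RepEA.cc h1 _ _).eq, (RepEA.cc h1 _ _).eq, mul_assoc]
  exact ⟨rfl, rfl⟩

/-- moving the copy `a` -/
theorem Th_move {c : Fin N → Cfg Λ} (hc : Ok c) (a : Fin N) {k : Cfg Λ} (hk : Disjoint k.1 k.2)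
    (ht : DD Λ Q < t) :
    Th Q θ t (Function.update c a k) = inc Q θ t k a ((grp c k).erase a) *
      incI Q θ t (c a) a ((grp c (c a)).erase a) * Th Q θ t c := by
  have h1 := Tp_inc (Q := Q) (θ := θ) (c := Function.update c a k) (Finset.mem_univ a)
    (fun b _ => by
      by_cases e : b = a
      · simpa [e] using hk
      · simpa [e] using hc b) ht
  have h2 := Tp_inc (Q := Q) (θ := θ) (c := c) (Finset.mem_univ a) (fun b _ => hc b) ht
  have e : (grp (Function.update c a k) k).erase a = (grp c k).erase a := by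
    ext b
    simp +contextual [grp]
  rw [Function.update_self, Finset.inter_univ, e, Tp_congr (c' := c) fun b hb =>
    Function.update_of_ne (Finset.ne_of_mem_erase hb) _ _] at h1
  rw [Finset.inter_univ] at h2
  rw [Th, Th, h1, h2, mul_assoc, ← mul_assoc (incI _ _ _ _ _ _), (inc_incI _ _ _).2, one_mul]

theorem Mb_qf (c : Fin N → Cfg Λ) (v : (Fin N → Λ → Q) → ℂ) :
    qf (Mb Q θ t c) v = nsq (Th Q θ t c *ᵥ (PS Λ Q Finset.univ *ᵥ v)) +
      nsq (v - PS Λ Q Finset.univ *ᵥ v) := by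
  have hP := PS_prj (Λ := Λ) (Q := Q) (Finset.univ : Finset (Fin N))
  have h1 := qf_conj (Th Q θ t c * Th Q θ t c) (PS Λ Q Finset.univ) v
  have h2 := qf_ct_mul (Th Q θ t c) (PS Λ Q Finset.univ *ᵥ v)
  rw [hP.1.eq] at h1
  rw [Th, (Tp_pd c _).1.eq, ← Th] at h2
  rw [Mb, qf_add, h1, h2, hP.compl.qf, sub_mulVec, one_mulVec]

theorem Mb_qf_sy (c : Fin N → Cfg Λ) {v : (Fin N → Λ → Q) → ℂ} (hv : Sy Finset.univ v) :
    qf (Mb Q θ t c) v = nsq (Th Q θ t c *ᵥ v) := by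
  rw [Mb_qf, (sy_iff _ _).1 hv, sub_self]
  simp [nsq]

theorem Mb_pd (c : Fin N → Cfg Λ) : Pd (Mb Q θ t c) := by
  have hP := PS_prj (Λ := Λ) (Q := Q) (Finset.univ : Finset (Fin N))
  have hT : Pd (Th Q θ t c * Th Q θ t c) := (Tp_pd c _).mul (Tp_pd c _) (Commute.refl _)
  refine ⟨IsHermitian.add ?_ hP.compl.1, fun v hv => ?_⟩
  · have h := isHermitian_conjTranspose_mul_mul (PS Λ Q Finset.univ) hT.1
    rwa [hP.1.eq] at h
  · have h1 := qf_conj (Th Q θ t c * Th Q θ t c) (PS Λ Q Finset.univ) v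
    rw [hP.1.eq] at h1
    rw [Mb, qf_add, h1, hP.compl.qf, sub_mulVec, one_mulVec]
    by_cases e : PS Λ Q Finset.univ *ᵥ v = 0
    · rw [e, sub_zero, ← qf_one]
      exact add_pos_of_nonneg_of_pos (hT.ps.2 _) (pd_one.2 v hv)
    · exact add_pos_of_pos_of_nonneg (hT.2 _ e) (nsq_nonneg _)

theorem Mb_PS (c : Fin N → Cfg Λ) : Commute (PS Λ Q Finset.univ) (Mb Q θ t c) := by
  have hP := (PS_prj (Λ := Λ) (Q := Q) (Finset.univ : Finset (Fin N))).2
  exact RepEA.absorb _ hP hP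

theorem Mb_pm (c : Fin N → Cfg Λ) (π : Equiv.Perm (Fin N)) :
    Commute (pm Q Finset.univ π) (Mb Q θ t c) := by
  have h := pm_PS (Λ := Λ) (Q := Q) (G := Finset.univ) (π := π) (by simp [SG_univ])
  exact RepEA.absorb _ h.1 h.2

theorem Mb_spIn (N : ℕ) (θ : ℝ) (t : ℕ) :
    ∃ lo hi : ℝ, 0 < lo ∧ lo ≤ hi ∧ ∀ c : Fin N → Cfg Λ, SpIn (Mb Q θ t c) lo hi := by
  choose lo hi h0 h1 h2 using fun c : Fin N → Cfg Λ => (Mb_pd (Q := Q) (θ := θ) (t := t) c).spIn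
  obtain ⟨c1, m1⟩ := Finite.exists_min lo
  obtain ⟨c2, m2⟩ := Finite.exists_max hi
  exact ⟨lo c1, hi c2, h0 c1, (h1 c1).trans (m2 c1), fun c => (h2 c).mono (m1 c) (m2 c)⟩

theorem Mb_le {c c' : Fin N → Cfg Λ} {x : ℝ} (hx : 1 ≤ x)
    (h : ∀ v, Sy Finset.univ v → nsq (Th Q θ t c' *ᵥ v) ≤ x * nsq (Th Q θ t c *ᵥ v)) :
    Le (Mb Q θ t c') x (Mb Q θ t c) := by
  intro v
  rw [Mb_qf, Mb_qf, mul_add]
  exact add_le_add (h _ (sy_PS _ v)) (le_mul_of_one_le_left (nsq_nonneg _) hx)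

end Vale.Agent.P356G
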