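import Vale.Agent.P356G.SCb

/- Strip bounds by `three`. On the line `re z = 1/4` interpolate along `ζ ↦ phi2 (z + ζ) (z - ζ)`,
`-1/4 ≤ re ζ ≤ 1/4` (entire by `cpw_diff`, bounded by `cpw_bdd`), the ends are `hol_R1`, `hol_R2`;
then interpolate between `re z = 0` (`phi_axis`) and `re z = 1/4`. Note `0 ≤ η` from `Par`
(`D ≥ 1`, `1 ≤ α + β ≤ D (D α) + β`). The same on the left. -/

namespace Vale.Agent.P356G

open Matrix Vale.Agent.P356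

variable {Λ Q : Type} [Fintype Λ] [DecidableEq Λ] [Fintype Q] [DecidableEq Q] [Nonempty Q]
  {a0 η α β α' β' : ℝ} {A B B' : Finset Λ} {ψ τ : (Λ → Q) → ℂ} {W : Matrix (Λ → Q) (Λ → Q) ℂ}

namespace SCcA

theorem herm (α β : ℝ) (Y : Finset Λ) (ψ : (Λ → Q) → ℂ) : (rg α β Y ψ).IsHermitian := by
  rw [IsHermitian, rg, conjTranspose_add, conjTranspose_smul, conjTranspose_smul, conjTranspose_one,
    (mg_ps Y ψ).1.eq, Complex.star_def, Complex.conj_ofReal, Complex.conj_ofReal]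

theorem loc (α β : ℝ) (Y : Finset Λ) (ψ : (Λ → Q) → ℂ) (z : ℂ) :
    Loc (fun s => s ∈ Y) (cpw (rg α β Y ψ) z) := hf_loc (rg_loc α β Y ψ) _

theorem comm (hd : Disjoint A B) (z w : ℂ) :
    cpw (rg α β A ψ) z * cpw (rg α' β' B τ) w = cpw (rg α' β' B τ) w * cpw (rg α β A ψ) z :=
  (loc α β A ψ z).comm (loc α' β' B τ w) fun _ h => Finset.disjoint_left.1 hd h

theorem pow_le {a t : ℝ} (ha : 0 < a) (ht : |t| ≤ 1) : a ^ t ≤ max a a⁻¹ := by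
  rw [abs_le] at ht
  rcases le_total 1 a with h | h
  · exact ((Real.rpow_le_rpow_of_exponent_le h ht.2).trans_eq (Real.rpow_one a)).trans
      (le_max_left _ _)
  · exact ((Real.rpow_le_rpow_of_exponent_ge ha h ht.1).trans_eq (Real.rpow_neg_one a)).trans
      (le_max_right _ _)

theorem par (h0 : 0 < a0) (hp : Par (DD Λ Q) a0 η α β) :
    α ≤ DD Λ Q * α ∧ DD Λ Q * α + β ≤ 1 + η ∧ 0 ≤ η := by
  have h1 : (1 : ℝ) ≤ DD Λ Q := by exact_mod_cast Fintype.card_pos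
  have h2 : 0 < α := h0.trans_le hp.lo
  have h3 : α ≤ DD Λ Q * α := le_mul_of_one_le_left h2.le h1
  have h4 : DD Λ Q * α ≤ DD Λ Q * (DD Λ Q * α) := le_mul_of_one_le_left (h2.le.trans h3) h1
  exact ⟨h3, by linarith [hp.hi], by linarith [hp.hi, hp.ab]⟩

variable {n : Type} [Fintype n] [DecidableEq n]

/-- entrywise entire -/
def MD (F : ℂ → Matrix n n ℂ) : Prop := ∀ i j, Differentiable ℂ fun z => F z i j

omit [DecidableEq n] in
theorem MD.mul {F G : ℂ → Matrix n n ℂ} (h : MD F) (h' : MD G) : MD fun z => F z * G z := by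
  intro i j
  simp only [Matrix.mul_apply]
  exact Differentiable.fun_sum fun k _ => (h i k).mul (h' k j)

theorem md_cpw (M : Matrix n n ℂ) {e : ℂ → ℂ} (he : Differentiable ℂ e) :
    MD fun z => cpw M (e z) := fun i j => (cpw_diff M i j).comp he

omit [DecidableEq n] in
theorem MD.dot {F : ℂ → Matrix n n ℂ} (h : MD F) (x v : n → ℂ) :
    Differentiable ℂ fun z => star x ⬝ᵥ (F z *ᵥ v) := by
  simp only [dotProduct, mulVec]
  exact Differentiable.fun_sum fun i _ => (Differentiable.fun_sum fun j _ =>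
    (h i j).mul_const _).const_mul _

/-- uniformly bounded families -/
def UB {ι : Type} (F : ι → Matrix n n ℂ) : Prop := ∃ C, 0 ≤ C ∧ ∀ i, Bd (F i) C

omit [DecidableEq n] in
theorem UB.mul {ι : Type} {F G : ι → Matrix n n ℂ} (h : UB F) (h' : UB G) :
    UB fun i => F i * G i := by
  obtain ⟨C, hC, h⟩ := h
  obtain ⟨C', hC', h'⟩ := h'
  exact ⟨C * C', mul_nonneg hC hC', fun i => (h i).mul (h' i) hC⟩

theorem ub_cpw {ι : Type} (M : Matrix n n ℂ) {e : ι → ℂ} (he : ∀ i, |(e i).re| ≤ 1) :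
    UB fun i => cpw M (e i) := by
  obtain ⟨C, hC, h⟩ := cpw_bdd M 1
  exact ⟨C, hC, fun i => h _ (he i)⟩

omit [DecidableEq n] in
theorem UB.vec {ι : Type} {F : ι → Matrix n n ℂ} (h : UB F) (v : n → ℂ) :
    ∃ C, 0 ≤ C ∧ ∀ i, nr (F i *ᵥ v) ≤ C := by
  obtain ⟨C, hC, h⟩ := h
  exact ⟨C * nr v, mul_nonneg hC (nr_nonneg v), fun i => h i v⟩

omit [DecidableEq n] in
theorem dot_bd {W : Matrix n n ℂ} (hW : Bd W 1) {τ v : n → ℂ} (hτ : nsq τ = 1) {C : ℝ}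
    (h : nr v ≤ C) : ‖star τ ⬝ᵥ (W *ᵥ v)‖ ≤ C := by
  have h1 := dot_le τ (W *ᵥ v)
  have h2 := hW v
  rw [nr, hτ, Real.sqrt_one, one_mul] at h1
  linarith

theorem phi2_bdd : ∃ C : ℝ, 0 ≤ C ∧ ∀ z w : ℂ, |z.re| ≤ 1 → |w.re| ≤ 1 →
    nr (phi2 α β α' β' A B B' ψ τ z w) ≤ C := by
  let ι := {p : ℂ × ℂ // |p.1.re| ≤ 1 ∧ |p.2.re| ≤ 1}
  have a1 : ∀ i : ι, |i.1.1.re| ≤ 1 := fun i => i.2.1
  have a2 : ∀ i : ι, |i.1.2.re| ≤ 1 := fun i => i.2.2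
  have b1 : ∀ i : ι, |(-i.1.1).re| ≤ 1 := fun i => by rw [Complex.neg_re, abs_neg]; exact a1 i
  have b2 : ∀ i : ι, |(-i.1.2).re| ≤ 1 := fun i => by rw [Complex.neg_re, abs_neg]; exact a2 i
  obtain ⟨C, hC, h⟩ := (((((ub_cpw (rg α' β' (A ∪ B') τ) a2).mul
    (ub_cpw (rg (DD Λ Q * α') β' B' τ) b2)).mul ((ub_cpw (rg (DD Λ Q * α') β' A τ) b1).mul
    (ub_cpw (rg (DD Λ Q * α) β A ψ) a1))).mul (ub_cpw (rg (DD Λ Q * α) β B ψ) a2)).mul
    (ub_cpw (rg α β (A ∪ B) ψ) b2)).vec ψ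
  exact ⟨C, hC, fun z w hz hw => h ⟨(z, w), hz, hw⟩⟩

theorem phi2_diff (x : (Λ → Q) → ℂ) {e e' : ℂ → ℂ} (he : Differentiable ℂ e)
    (he' : Differentiable ℂ e') :
    Differentiable ℂ fun z => star x ⬝ᵥ phi2 α β α' β' A B B' ψ τ (e z) (e' z) :=
  (((((md_cpw _ he').mul (md_cpw _ he'.neg)).mul ((md_cpw _ he.neg).mul (md_cpw _ he))).mul
    (md_cpw _ he')).mul (md_cpw _ he'.neg)).dot x ψ

/-- interpolation along the antidiagonal -/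
theorem mid (hτ : nsq τ = 1) (hW1 : Bd W 1) {z : ℂ} (hz : |z.re| ≤ 1 / 4) {M : ℝ} (hM : 0 < M)
    (h1 : ∀ u w : ℂ, u.re = z.re - 1 / 4 → w.re = z.re + 1 / 4 →
      ‖star τ ⬝ᵥ (W *ᵥ phi2 α β α' β' A B B' ψ τ u w)‖ ≤ M)
    (h2 : ∀ u w : ℂ, u.re = z.re + 1 / 4 → w.re = z.re - 1 / 4 →
      ‖star τ ⬝ᵥ (W *ᵥ phi2 α β α' β' A B B' ψ τ u w)‖ ≤ M) :
    ‖star τ ⬝ᵥ (W *ᵥ phi2 α β α' β' A B B' ψ τ z z)‖ ≤ M := by
  obtain ⟨C, -, hC⟩ := phi2_bdd (α := α) (β := β) (α' := α') (β' := β') (A := A) (B := B)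
    (B' := B') (ψ := ψ) (τ := τ)
  rw [abs_le] at hz
  have h := three (fun ζ => star τ ⬝ᵥ (W *ᵥ phi2 α β α' β' A B B' ψ τ (z + ζ) (z - ζ)))
    (by
      simp only [dot_mulVec W τ]
      exact phi2_diff _ (by fun_prop) (by fun_prop))
    (-1 / 4) (1 / 4) M M (by norm_num) hM.le hM.le
    ⟨C, fun ζ a b => dot_bd hW1 hτ (hC _ _
      (by rw [Complex.add_re, abs_le]; constructor <;> linarith [hz.1, hz.2])
      (by rw [Complex.sub_re, abs_le]; constructor <;> linarith [hz.1, hz.2]))⟩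
    (fun ζ a => h1 _ _ (by rw [Complex.add_re]; linarith) (by rw [Complex.sub_re]; linarith))
    (fun ζ a => h2 _ _ (by rw [Complex.add_re]; linarith) (by rw [Complex.sub_re]; linarith))
    0 (by norm_num) (by norm_num)
  rwa [add_zero, sub_zero, ← Real.rpow_add hM, sub_add_cancel, Real.rpow_one] at h

end SCcA

theorem sinc_sincI (α β : ℝ) (A B : Finset Λ) (ψ : (Λ → Q) → ℂ) (z : ℂ) :
    sinc α β A B ψ z * sincI α β A B ψ z = 1 ∧ sincI α β A B ψ z * sinc α β A B ψ z = 1 := by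
  have e : ∀ (a b : ℝ) (Y : Finset Λ) (X : Matrix (Λ → Q) (Λ → Q) ℂ),
      cpw (rg a b Y ψ) (-z) * (cpw (rg a b Y ψ) z * X) = X := fun a b Y X => by
    rw [← Matrix.mul_assoc, mul_eq_one_comm.1 (cpw_neg (SCcA.herm a b Y ψ) z), Matrix.one_mul]
  have h : sinc α β A B ψ z * sincI α β A B ψ z = 1 := by
    simp only [sinc, sincI, Matrix.mul_assoc, e]
    exact cpw_neg (SCcA.herm α β _ ψ) z
  exact ⟨h, mul_eq_one_comm.1 h⟩
theorem sinc_ct (hd : Disjoint A B) (α β : ℝ) (ψ : (Λ → Q) → ℂ) (x : ℝ) :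
    (sinc α β A B ψ x)ᴴ = sincI α β A B ψ (-x) ∧ (sincI α β A B ψ x)ᴴ = sinc α β A B ψ (-x) := by
  refine ⟨?_, ?_⟩
  · simp only [sinc, sincI, conjTranspose_mul, cpw_ct, star_neg, Complex.star_def,
      Complex.conj_ofReal, neg_neg, Matrix.mul_assoc]
  · simp only [sinc, sincI, conjTranspose_mul, cpw_ct, star_neg, Complex.star_def,
      Complex.conj_ofReal, neg_neg, Matrix.mul_assoc]
theorem sinc_loc (α β : ℝ) (A B : Finset Λ) (ψ : (Λ → Q) → ℂ) (z : ℂ) :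
    Loc (fun s => s ∈ A ∪ B) (sinc α β A B ψ z) ∧ Loc (fun s => s ∈ A ∪ B) (sincI α β A B ψ z) := by
  have a : ∀ c w, Loc (fun s => s ∈ A ∪ B) (cpw (rg c β A ψ) w) := fun c w =>
    (SCcA.loc c β A ψ w).mono fun _ h => Finset.mem_union_left _ h
  have b : ∀ c w, Loc (fun s => s ∈ A ∪ B) (cpw (rg c β B ψ) w) := fun c w =>
    (SCcA.loc c β B ψ w).mono fun _ h => Finset.mem_union_right _ h
  exact ⟨((SCcA.loc _ _ _ _ _).mul (a _ _)).mul (b _ _),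
    ((b _ _).mul (a _ _)).mul (SCcA.loc _ _ _ _ _)⟩
/-- all six powers have spectrum in `[a0, 2]` -/
theorem sinc_bd (a0 : ℝ) (h0 : 0 < a0) : ∃ R : ℝ, 1 ≤ R ∧ ∀ (η α β : ℝ) (A B : Finset Λ)
    (ψ : (Λ → Q) → ℂ) (z : ℂ), η ≤ 1 → Par (DD Λ Q) a0 η α β → nsq ψ = 1 → |z.re| ≤ 1 →
    Bd (sinc α β A B ψ z) R ∧ Bd (sincI α β A B ψ z) R := by
  obtain ⟨r, hr⟩ : ∃ r, r = max (max a0 a0⁻¹) 2 := ⟨_, rfl⟩
  have h2 : 2 ≤ r := hr ▸ le_max_right _ _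
  refine ⟨r * r * r, by nlinarith [mul_self_nonneg r, mul_le_mul h2 h2 zero_le_two (by linarith)],
    fun η α β A B ψ z hη hp hψ hz => ?_⟩
  obtain ⟨p1, p2, -⟩ := SCcA.par h0 hp
  have key : ∀ (c : ℝ) (Y : Finset Λ) (w : ℂ), α ≤ c → c ≤ DD Λ Q * α → |w.re| ≤ 1 →
      Bd (cpw (rg c β Y ψ) w) r := fun c Y w c1 c2 hw =>
    (cpw_bd ((rg_spIn c hp.b0 Y hψ).mono (hp.lo.trans c1) (show c + β ≤ 2 by linarith)) h0 w).mono
      (hr ▸ max_le_max (SCcA.pow_le h0 hw) ((SCcA.pow_le two_pos hw).trans (by norm_num)))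
  have hz' : |(-z).re| ≤ 1 := by rwa [Complex.neg_re, abs_neg]
  have r0 : 0 ≤ r := by linarith
  exact ⟨((key _ _ _ le_rfl p1 hz).mul (key _ _ _ p1 le_rfl hz') r0).mul (key _ _ _ p1 le_rfl hz')
      (mul_nonneg r0 r0), ((key _ _ _ p1 le_rfl hz).mul (key _ _ _ p1 le_rfl hz) r0).mul
      (key _ _ _ le_rfl p1 hz') (mul_nonneg r0 r0)⟩
theorem phi_eq (hd : Disjoint A B) (hB : B' ⊆ B) (z : ℂ) :
    phi α β α' β' A B B' ψ τ z = phi2 α β α' β' A B B' ψ τ z z := by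
  rw [phi, phi2, sinc, sincI, Matrix.mul_assoc (cpw (rg α' β' (A ∪ B') τ) z),
    SCcA.comm (hd.mono_right hB), ← SCcA.comm hd]
  simp only [Matrix.mul_assoc]
theorem phi_axis (hψ : nsq ψ = 1) {z : ℂ} (hz : z.re = 0) :
    nsq (phi α β α' β' A B B' ψ τ z) = 1 := by
  have hz' : (-z).re = 0 := by rw [Complex.neg_re, hz, neg_zero]
  simp only [phi, sinc, sincI, ← mulVec_mulVec, nsq_uni (cpw_uni (SCcA.herm _ _ _ _) hz),
    nsq_uni (cpw_uni (SCcA.herm _ _ _ _) hz'), hψ]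
theorem phi_diff (x : (Λ → Q) → ℂ) :
    Differentiable ℂ fun z => star x ⬝ᵥ phi α β α' β' A B B' ψ τ z := by
  have a : Differentiable ℂ fun z : ℂ => z := differentiable_id
  exact ((((SCcA.md_cpw _ a).mul (SCcA.md_cpw _ a.neg)).mul (SCcA.md_cpw _ a.neg)).mul
    (((SCcA.md_cpw _ a).mul (SCcA.md_cpw _ a)).mul (SCcA.md_cpw _ a.neg))).dot x ψ
theorem phi_bdd : ∃ C : ℝ, 0 ≤ C ∧ ∀ z : ℂ, |z.re| ≤ 1 → nr (phi α β α' β' A B B' ψ τ z) ≤ C := by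
  have a : ∀ i : {z : ℂ // |z.re| ≤ 1}, |i.1.re| ≤ 1 := fun i => i.2
  have b : ∀ i : {z : ℂ // |z.re| ≤ 1}, |(-i.1).re| ≤ 1 := fun i => by
    rw [Complex.neg_re, abs_neg]; exact a i
  obtain ⟨C, hC, h⟩ := ((((SCcA.ub_cpw (rg α' β' (A ∪ B') τ) a).mul
    (SCcA.ub_cpw (rg (DD Λ Q * α') β' A τ) b)).mul (SCcA.ub_cpw (rg (DD Λ Q * α') β' B' τ) b)).mul
    (((SCcA.ub_cpw (rg (DD Λ Q * α) β B ψ) a).mul (SCcA.ub_cpw (rg (DD Λ Q * α) β A ψ) a)).mul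
    (SCcA.ub_cpw (rg α β (A ∪ B) ψ) b))).vec ψ
  exact ⟨C, hC, fun z hz => h ⟨z, hz⟩⟩
theorem strip_R (h0 : 0 < a0) (hp : Par (DD Λ Q) a0 η α β) (hq : Par (DD Λ Q) a0 η α' β')
    (hd : Disjoint A B) (hB : B' ⊆ B) (hψ : nsq ψ = 1) (hτ : nsq τ = 1)
    (hW : Loc (fun z => z ∉ A ∪ B') W) (hW1 : Bd W 1) {z : ℂ} (h1 : 0 ≤ z.re) (h2 : z.re ≤ 1 / 4) :
    ‖star τ ⬝ᵥ (W *ᵥ phi α β α' β' A B B' ψ τ z)‖ ≤ Real.sqrt (1 + η) := by
  obtain ⟨-, -, hη⟩ := SCcA.par h0 hp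
  have hM : 1 ≤ Real.sqrt (1 + η) := Real.one_le_sqrt.2 (by linarith)
  have hM0 : 0 < Real.sqrt (1 + η) := by linarith
  obtain ⟨C, -, hC⟩ := phi_bdd (α := α) (β := β) (α' := α') (β' := β') (A := A) (B := B)
    (B' := B') (ψ := ψ) (τ := τ)
  have h := three (fun z => star τ ⬝ᵥ (W *ᵥ phi α β α' β' A B B' ψ τ z))
    (by
      simp only [dot_mulVec W τ]
      exact phi_diff _)
    0 (1 / 4) _ _ (by norm_num) hM0.le hM0.le
    ⟨C, fun ζ a b => SCcA.dot_bd hW1 hτ (hC _ (by rw [abs_le]; constructor <;> linarith))⟩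
    (fun ζ a => SCcA.dot_bd hW1 hτ (by rw [nr, phi_axis hψ a, Real.sqrt_one]; exact hM))
    (fun ζ a => by
      rw [phi_eq hd hB]
      exact SCcA.mid hτ hW1 (by rw [a]; norm_num) hM0
        (fun u w hu hw => Real.le_sqrt_of_sq_le
          (hol_R2 h0 hp hq hd hB hψ hτ hW hW1 (by linarith) (by linarith)))
        (fun u w hu hw => Real.le_sqrt_of_sq_le
          (hol_R1 h0 hp hq hd hB hψ hτ hW hW1 (by linarith) (by linarith))))
    z h1 h2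
  rwa [← Real.rpow_add hM0, sub_add_cancel, Real.rpow_one] at h
theorem strip_L (h0 : 0 < a0) (hp : Par (DD Λ Q) a0 η α β) (hq : Par (DD Λ Q) a0 η α' β')
    (hd : Disjoint A B) (hB : B' ⊆ B) (hψ : nsq ψ = 1) (hτ : nsq τ = 1)
    (hW : Loc (fun z => z ∉ A ∪ B') W) (hW1 : Bd W 1) {z : ℂ} (h1 : -1 / 4 ≤ z.re) (h2 : z.re ≤ 0) :
    ‖star τ ⬝ᵥ (W *ᵥ phi α β α' β' A B B' ψ τ z)‖ ≤
      ((Fintype.card Q : ℝ) ^ (B \ B').card * Real.sqrt (1 + η)) ^ (-4 * z.re) := by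
  obtain ⟨-, -, hη⟩ := SCcA.par h0 hp
  have hM : 1 ≤ Real.sqrt (1 + η) := Real.one_le_sqrt.2 (by linarith)
  have hy : (1 : ℝ) ≤ (Fintype.card Q : ℝ) ^ (B \ B').card :=
    one_le_pow₀ (by exact_mod_cast Fintype.card_pos)
  have hM0 : 0 < (Fintype.card Q : ℝ) ^ (B \ B').card * Real.sqrt (1 + η) := by positivity
  obtain ⟨C, -, hC⟩ := phi_bdd (α := α) (β := β) (α' := α') (β' := β') (A := A) (B := B)
    (B' := B') (ψ := ψ) (τ := τ)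
  have h := three (fun z => star τ ⬝ᵥ (W *ᵥ phi α β α' β' A B B' ψ τ z))
    (by
      simp only [dot_mulVec W τ]
      exact phi_diff _)
    (-1 / 4) 0 _ 1 (by norm_num) hM0.le zero_le_one
    ⟨C, fun ζ a b => SCcA.dot_bd hW1 hτ (hC _ (by rw [abs_le]; constructor <;> linarith))⟩
    (fun ζ a => by
      rw [phi_eq hd hB]
      refine SCcA.mid hτ hW1 (by rw [a]; norm_num) hM0 (fun u w hu hw => ?_) fun u w hu hw => ?_
      · exact (Real.le_sqrt_of_sq_le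
          (hol_L1 h0 hp hq hd hB hψ hτ hW hW1 (by linarith) (by linarith))).trans
          (le_mul_of_one_le_left (by linarith) hy)
      · refine le_of_sq_le_sq ?_ hM0.le
        rw [mul_pow, Real.sq_sqrt (by linarith)]
        exact hol_L2 h0 hp hq hd hB hψ hτ hW hW1 (by linarith) (by linarith))
    (fun ζ a => SCcA.dot_bd hW1 hτ (by rw [nr, phi_axis hψ a, Real.sqrt_one]))
    z h1 h2
  rwa [Real.one_rpow, mul_one,
    show 1 - (z.re - -1 / 4) / (0 - -1 / 4) = -4 * z.re by ring] at h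

end Vale.Agent.P356G
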