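import Vale.Agent.P356G.MF
import Vale.Agent.P356G.RepE
import Vale.Agent.P356G.SCc

/- Transfer from increments to single copy operators.
`par_ev`: `δ N ≤ t0 ≤ δ N + 1`, `√δ N ≤ ns`, so `δ ≤ t0 / (m + 1) ≤ √δ + 1 / (√δ N)`.
`trans`: `rh Y a G s - blk (rg (s / (|G| + 1)) β Y ψ) = β (xx / |G| - blk (mg Y ψ))` with
`β = |G| / (|G| + 1)`; both have spectrum in `[δ / 2, 2]` (`rh_spIn`, `blk_spIn`, `rg_spIn`, `Par`);
`ap_cpw`, `blk_hf`, then `Ap.mul` twice (`blk_mul`), invariance of `S` by `Sy.mulVec` with `rh_comm`,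
`cpw_comm`; norms by `cpw_bd`. For the adjoint use the reversed product and `sinc_ct`-like unfolding:
`(inc)ᴴ = rhB ^ (-θ) rhA ^ (-θ) rhAB ^ θ` matches `sincI .. (-θ)` factor by factor. -/

namespace Vale.Agent.P356G

open Matrix Vale.Agent.P356 Filter

namespace KeyAA

/-- one factor of a product -/
structure Fac {n : Type} [Fintype n] [DecidableEq n] (S : Set (n → ℂ)) (X Y : Matrix n n ℂ)
    (η r : ℝ) : Prop where
  ap : Ap S X Y η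
  inv : Inv S X
  bx : Bd X r
  bY : Bd Y r

theorem fac3 {n : Type} [Fintype n] [DecidableEq n] {S : Set (n → ℂ)}
    {X1 X2 X3 Y1 Y2 Y3 : Matrix n n ℂ} {η r : ℝ} (h1 : Fac S X1 Y1 η r) (h2 : Fac S X2 Y2 η r)
    (h3 : Fac S X3 Y3 η r) (hη : 0 ≤ η) (hr : 1 ≤ r) :
    Bd (X1 * X2 * X3) (r * r * r) ∧ Inv S (X1 * X2 * X3) ∧
      Ap S (X1 * X2 * X3) (Y1 * Y2 * Y3) (r * r * (r * (η + η) + η)) := by
  have hr0 : 0 ≤ r := by linarith
  have hrr : 0 ≤ r * r := mul_nonneg hr0 hr0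
  refine ⟨(h1.bx.mul h2.bx hr0).mul h3.bx hrr, (h1.inv.mul h2.inv).mul h3.inv, ?_⟩
  exact (h1.ap.mul h2.ap h2.inv h2.bx h1.bY hη hr0).mul h3.ap h3.inv
    (h3.bx.mono (by nlinarith)) (h1.bY.mul h2.bY hr0) (by positivity) hrr

variable {Λ Q : Type} [Fintype Λ] [DecidableEq Λ] [Fintype Q] [DecidableEq Q] [Nonempty Q] {N : ℕ}
  {O : Type} [Fintype O] {P : O → RM Λ Q N} {G G' H : Finset (Fin N)} {a : Fin N}

omit [Nonempty Q] in
theorem inv_of (hG : a ∉ G) (hG' : a ∉ G') (hd : Disjoint G G') (Y : Finset Λ) (s : ℕ)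
    {X : RM Λ Q N} (hX : ∀ Z, Commute Z (rh Q Y a G s) → Commute Z X) :
    Inv {u | Sy G u ∧ Sy G' u} X := fun _ hy =>
  ⟨hy.1.mulVec fun _ hπ => hX _ (rh_comm s (Or.inl
      ⟨Finset.subset_univ _, mem_SG.1 hπ a hG, SG_mem hπ⟩)),
    hy.2.mulVec fun _ hπ => hX _ (rh_comm s (Or.inr (Or.inr
      ⟨mem_SG.1 hπ a hG', fun j hj => mem_SG.1 hπ j (Finset.disjoint_left.1 hd hj)⟩)))⟩

theorem rh_sub (hP : Meas H P) (hg : 0 < G.card) (Y : Finset Λ) (s : ℕ) (ψ : O → (Λ → Q) → ℂ)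
    {α : ℝ} (hα : α = (s : ℝ) / (G.card + 1)) :
    rh Q Y a G s - blk a P (fun o => rg α ((G.card : ℝ) / (G.card + 1)) Y (ψ o)) =
      (((G.card : ℝ) / (G.card + 1) : ℝ) : ℂ) •
        ((G.card : ℂ)⁻¹ • xx Q Y a G - blk a P fun o => mg Y (ψ o)) := by
  have h0 : (G.card : ℂ) ≠ 0 := Nat.cast_ne_zero.2 hg.ne'
  have h1 : (G.card : ℂ) + 1 ≠ 0 := by exact_mod_cast Nat.succ_ne_zero G.card
  unfold rg rh
  rw [blk_add, blk_smul, blk_smul, blk_one hP, hα]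
  push_cast
  match_scalars <;> field_simp <;> ring

theorem fac (lo hi x η : ℝ) (h0 : 0 < lo) (hη : 0 < η) : ∃ e : ℝ, 0 < e ∧
    ∀ (N : ℕ) (O : Type) [Fintype O] (P : O → RM Λ Q N) (ψ : O → (Λ → Q) → ℂ)
      (G G' H : Finset (Fin N)) (a : Fin N) (Y : Finset Λ) (s : ℕ) (α : ℝ),
      α = (s : ℝ) / (G.card + 1) → 2 * DD Λ Q < s → 2 * lo ≤ α →
      α + (G.card : ℝ) / (G.card + 1) ≤ hi → 0 < G.card → Meas H P → a ∉ H → a ∉ G → a ∉ G' →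
      Disjoint G G' → (∀ o, nsq (ψ o) = 1) →
      Ap {u | Sy G u ∧ Sy G' u} ((G.card : ℂ)⁻¹ • xx Q Y a G) (blk a P fun o => mg Y (ψ o)) e →
      Fac {u | Sy G u ∧ Sy G' u} (cpw (rh Q Y a G s) x)
        (blk a P fun o => cpw (rg α ((G.card : ℝ) / (G.card + 1)) Y (ψ o)) x) η
        (max (lo ^ x) (hi ^ x)) := by
  obtain ⟨e, he, hap⟩ := ap_cpw x lo hi h0 η hη
  refine ⟨e, he, fun N O _ P ψ G G' H a Y s α hα hs hlo hhi hg hP hH hG hG' hd hψ hA => ?_⟩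
  have hp : (0 : ℝ) < G.card + 1 := by positivity
  have hβ0 : (0 : ℝ) ≤ (G.card : ℝ) / (G.card + 1) := by positivity
  have hβ1 : (G.card : ℝ) / (G.card + 1) ≤ 1 := (div_le_one hp).2 (by linarith)
  have hs' : 2 * (DD Λ Q : ℝ) ≤ s := by exact_mod_cast hs.le
  have h1 : SpIn (rh Q Y a G s) lo hi := by
    refine (rh_spIn Y hG s).mono ?_ ?_
    · rw [hα, le_div_iff₀ hp] at hlo
      rw [le_div_iff₀ hp]
      linarith
    · rw [add_div, ← hα]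
      exact hhi
  have h2 : ∀ o, SpIn (rg α ((G.card : ℝ) / (G.card + 1)) Y (ψ o)) lo hi := fun o =>
    (rg_spIn α hβ0 Y (hψ o)).mono (by linarith) hhi
  have h3 := blk_spIn hP hH h2
  have h4 : cpw (blk a P fun o => rg α ((G.card : ℝ) / (G.card + 1)) Y (ψ o)) x =
      blk a P fun o => cpw (rg α ((G.card : ℝ) / (G.card + 1)) Y (ψ o)) x :=
    blk_hf hP hH (fun o => (h2 o).1) _
  rw [← h4]
  refine ⟨hap _ _ _ _ h1 h3 (inv_of hG hG' hd Y s fun _ h => h) fun y hy => ?_,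
    inv_of hG hG' hd Y s fun _ h => cpw_comm h _, by simpa using cpw_bd h1 h0 x,
    by simpa using cpw_bd h3 h0 x⟩
  rw [rh_sub hP hg Y s ψ hα, smul_mulVec, nr_smul, Complex.norm_real, Real.norm_of_nonneg hβ0]
  exact (mul_le_of_le_one_left (nr_nonneg _) hβ1).trans (hA y hy)

theorem Fac.mono {n : Type} [Fintype n] [DecidableEq n] {S : Set (n → ℂ)} {X Y : Matrix n n ℂ}
    {η r r' : ℝ} (h : Fac S X Y η r) (hr : r ≤ r') : Fac S X Y η r' :=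
  ⟨h.ap, h.inv, h.bx.mono hr, h.bY.mono hr⟩

end KeyAA

theorem par_ev (D : ℕ) (η : ℝ) (hη : 0 < η) : ∀ᶠ δ in nhdsWithin (0 : ℝ) (Set.Ioi 0),
    ∀ᶠ N : ℕ in atTop, 2 * D < t0 δ N ∧ ∀ m : ℕ, ns δ N ≤ m + 1 → m + 1 ≤ N →
      Par D δ η ((t0 δ N : ℝ) / (m + 1)) ((m : ℝ) / (m + 1)) := by
  have hκ : 0 < η / (2 * ((D : ℝ) ^ 2 + 1)) := by positivity
  generalize hk : η / (2 * ((D : ℝ) ^ 2 + 1)) = κ at hκ
  have hk' : η = κ * (2 * ((D : ℝ) ^ 2 + 1)) := by rw [← hk]; field_simp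
  filter_upwards [Ioo_mem_nhdsGT (show (0 : ℝ) < κ ^ 2 by positivity)] with δ hδ
  have hs0 : 0 < Real.sqrt δ := Real.sqrt_pos.2 hδ.1
  have hs1 : Real.sqrt δ ≤ κ := Real.sqrt_le_iff.2 ⟨hκ.le, hδ.2.le⟩
  have hss : Real.sqrt δ * Real.sqrt δ = δ := Real.mul_self_sqrt hδ.1.le
  have e1 := (tendsto_natCast_atTop_atTop.const_mul_atTop hδ.1).eventually_gt_atTop
    (((2 * D : ℕ) : ℝ))
  have e2 := (tendsto_natCast_atTop_atTop.const_mul_atTop (mul_pos hκ hs0)).eventually_ge_atTop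
    (1 : ℝ)
  filter_upwards [e1, e2] with N h1 h2
  have ht : 2 * D < t0 δ N := Nat.lt_ceil.2 h1
  refine ⟨ht, fun m hm hN => ?_⟩
  have hN0 : (0 : ℝ) ≤ N := Nat.cast_nonneg N
  have hp : (0 : ℝ) < m + 1 := by positivity
  have a1 : δ * N ≤ t0 δ N := Nat.le_ceil _
  have a2 : (t0 δ N : ℝ) < δ * N + 1 := Nat.ceil_lt_add_one (mul_nonneg hδ.1.le hN0)
  have a3 : Real.sqrt δ * N ≤ m + 1 := by
    have := Nat.ceil_le.1 hm
    push_cast at this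
    exact this
  have a4 : (m : ℝ) + 1 ≤ N := by exact_mod_cast hN
  have a5 : (1 : ℝ) ≤ t0 δ N := by exact_mod_cast (show 1 ≤ t0 δ N by omega)
  have hβ1 : (m : ℝ) / (m + 1) ≤ 1 := (div_le_one hp).2 (by linarith)
  have a6 : (t0 δ N : ℝ) / (m + 1) ≤ 2 * κ := by
    rw [div_le_iff₀ hp]
    have b1 : δ * N ≤ κ * (Real.sqrt δ * N) := by
      rw [← mul_assoc]
      exact mul_le_mul_of_nonneg_right (by nlinarith) hN0
    have b2 := mul_le_mul_of_nonneg_left a3 hκ.le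
    nlinarith
  refine ⟨?_, by positivity, hβ1, ?_, ?_⟩
  · rw [le_div_iff₀ hp]
    nlinarith [mul_le_mul_of_nonneg_left a4 hδ.1.le]
  · rw [← add_div, le_div_iff₀ hp]
    linarith
  · have b3 := mul_le_mul_of_nonneg_left a6 (sq_nonneg (D : ℝ))
    nlinarith

theorem ns_large (δ : ℝ) (hδ : 0 < δ) (n0 : ℕ) : ∀ᶠ N : ℕ in atTop, n0 < ns δ N := by
  filter_upwards [(tendsto_natCast_atTop_atTop.const_mul_atTop
    (Real.sqrt_pos.2 hδ)).eventually_gt_atTop (n0 : ℝ)] with N h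
  exact Nat.lt_ceil.2 h

theorem trans (Λ Q : Type) [Fintype Λ] [DecidableEq Λ] [Fintype Q] [DecidableEq Q] [Nonempty Q]
    (δ θ e : ℝ) (hδ : 0 < δ) (hθ : 0 ≤ θ) (hθ1 : θ ≤ 1) (he : 0 < e) :
    ∃ e' R : ℝ, 0 < e' ∧ 1 ≤ R ∧ ∀ (N t : ℕ) (O : Type) [Fintype O] (P : O → RM Λ Q N)
      (ψ : O → (Λ → Q) → ℂ) (G G' H : Finset (Fin N)) (a : Fin N) (A B : Finset Λ) (η : ℝ),
      η ≤ 1 → 2 * DD Λ Q < t → Par (DD Λ Q) δ η ((t : ℝ) / (G.card + 1)) ((G.card : ℝ) / (G.card + 1)) →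
      0 < G.card → Meas H P → a ∉ H → a ∉ G → a ∉ G' → Disjoint G G' → (∀ o, nsq (ψ o) = 1) →
      (∀ Y : Finset Λ, Ap {u | Sy G u ∧ Sy G' u} ((G.card : ℂ)⁻¹ • xx Q Y a G)
        (blk a P fun o => mg Y (ψ o)) e') →
      (Bd (inc Q θ t (A, B) a G) R ∧ Bd (incI Q θ t (A, B) a G) R ∧ Bd (inc Q θ t (A, B) a G)ᴴ R) ∧
      (Inv {u | Sy G u ∧ Sy G' u} (inc Q θ t (A, B) a G) ∧
        Inv {u | Sy G u ∧ Sy G' u} (incI Q θ t (A, B) a G)) ∧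
      Ap {u | Sy G u ∧ Sy G' u} (inc Q θ t (A, B) a G) (blk a P fun o =>
        sinc ((t : ℝ) / (G.card + 1)) ((G.card : ℝ) / (G.card + 1)) A B (ψ o) θ) e ∧
      Ap {u | Sy G u ∧ Sy G' u} (incI Q θ t (A, B) a G) (blk a P fun o =>
        sincI ((t : ℝ) / (G.card + 1)) ((G.card : ℝ) / (G.card + 1)) A B (ψ o) θ) e ∧
      Ap {u | Sy G u ∧ Sy G' u} (inc Q θ t (A, B) a G)ᴴ (blk a P fun o =>
        sincI ((t : ℝ) / (G.card + 1)) ((G.card : ℝ) / (G.card + 1)) A B (ψ o) (-θ)) e := by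
  obtain ⟨r, hr1, hr2, hr3⟩ : ∃ r : ℝ, 1 ≤ r ∧ max ((δ / 2) ^ θ) (2 ^ θ) ≤ r ∧
      max ((δ / 2) ^ (-θ)) (2 ^ (-θ)) ≤ r :=
    ⟨max 1 (max _ _), le_max_left _ _, (le_max_left _ _).trans (le_max_right _ _),
      (le_max_right _ _).trans (le_max_right _ _)⟩
  have hr0 : 0 < r := by linarith
  have hη1 : 0 < e / (r * r * (2 * r + 1)) := by positivity
  have hee : r * r * (r * (e / (r * r * (2 * r + 1)) + e / (r * r * (2 * r + 1))) +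
      e / (r * r * (2 * r + 1))) = e := by field_simp; ring
  generalize e / (r * r * (2 * r + 1)) = η1 at hη1 hee
  obtain ⟨e1, he1, f1⟩ := KeyAA.fac (Λ := Λ) (Q := Q) (δ / 2) 2 θ η1 (by positivity) hη1
  obtain ⟨e2, he2, f2⟩ := KeyAA.fac (Λ := Λ) (Q := Q) (δ / 2) 2 (-θ) η1 (by positivity) hη1
  refine ⟨min e1 e2, r * r * r, lt_min he1 he2, by nlinarith [mul_pos hr0 hr0], ?_⟩
  intro N t O _ P ψ G G' H a A B η hη ht hp hg hP hH hG hG' hd hψ hA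
  have hD : 1 ≤ DD Λ Q := DD_pos
  have hD' : (1 : ℝ) ≤ DD Λ Q := by exact_mod_cast hD
  have hlo := hp.lo
  have hhi := hp.hi
  have hα0 : (0 : ℝ) ≤ (t : ℝ) / (G.card + 1) := by positivity
  have c1 : (t : ℝ) / (G.card + 1) ≤ DD Λ Q * ((t : ℝ) / (G.card + 1)) := by nlinarith
  have c2 : DD Λ Q * ((t : ℝ) / (G.card + 1)) ≤
      DD Λ Q * (DD Λ Q * ((t : ℝ) / (G.card + 1))) := by nlinarith
  have ht2 : 2 * DD Λ Q < DD Λ Q * t := ht.trans_le (Nat.le_mul_of_pos_left _ hD)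
  have hq : DD Λ Q * ((t : ℝ) / (G.card + 1)) = ((DD Λ Q * t : ℕ) : ℝ) / (G.card + 1) := by
    push_cast
    ring
  have p1 := fun Y => (f1 N O P ψ G G' H a Y t _ rfl ht (by linarith) (by linarith) hg hP hH hG hG'
    hd hψ ((hA Y).mono (min_le_left _ _))).mono hr2
  have p2 := fun Y => (f2 N O P ψ G G' H a Y t _ rfl ht (by linarith) (by linarith) hg hP hH hG hG'
    hd hψ ((hA Y).mono (min_le_right _ _))).mono hr3
  have p3 := fun Y => (f1 N O P ψ G G' H a Y _ _ hq ht2 (by linarith) (by linarith) hg hP hH hG hG'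
    hd hψ ((hA Y).mono (min_le_left _ _))).mono hr2
  have p4 := fun Y => (f2 N O P ψ G G' H a Y _ _ hq ht2 (by linarith) (by linarith) hg hP hH hG hG'
    hd hψ ((hA Y).mono (min_le_right _ _))).mono hr3
  rw [Complex.ofReal_neg] at p2 p4
  have q1 := KeyAA.fac3 (p1 (A ∪ B)) (p4 A) (p4 B) hη1.le hr1
  have q2 := KeyAA.fac3 (p3 B) (p3 A) (p2 (A ∪ B)) hη1.le hr1
  have q3 := KeyAA.fac3 (p4 B) (p4 A) (p1 (A ∪ B)) hη1.le hr1
  rw [blk_mul hP hH, blk_mul hP hH, hee] at q1 q2 q3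
  have hct : (inc Q θ t (A, B) a G)ᴴ = cpw (rh Q B a G (DD Λ Q * t)) (-θ) *
      cpw (rh Q A a G (DD Λ Q * t)) (-θ) * cpw (rh Q (A ∪ B) a G t) θ := by
    simp only [inc, conjTranspose_mul, cpw_ct, star_neg, Complex.star_def, Complex.conj_ofReal,
      mul_assoc]
  rw [hct]
  refine ⟨⟨q1.1, q2.1, q3.1⟩, ⟨q1.2.1, q2.2.1⟩, q1.2.2, q2.2.2, ?_⟩
  simp only [sincI, neg_neg]
  exact q3.2.2

end Vale.Agent.P356G
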