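import Vale.Agent.P356G.SC0

/- The single copy inequality. `f z = <τ, phi z>`, `M = √(1 + η)`, `c` the phase of `f θ`,
`ε' = 1 - |f θ| / M ≤ 1 - |f θ| ^ 2 + η`, `lam = 1 / (ε' + ε0)`; `s, s', U` from `fid` for `φ = phi (-θ)`,
`e = η`, `Y = A ∪ B'`; `ν = nr (U τ - c τ)`, `u z = <U τ - c τ, phi z>`, `u0 = <U τ - c τ, c τ>`,
`re u0 ≤ - ν ^ 2 / 2`. `extrap` applied to `u - u0` and `g z = c * star (f (- star z)) / M` gives
`re (u (-θ)) ≤ - ν ^ 2 / 2 + e ^ 2 (ν √(ε' + ε0) + ε0) ≤ 35 (ε' + ε0)`.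
With `F = re <U τ, φ> + η ≤ e + 1 ≤ 4` (`strip_L`): the left side is at most
`(1 + |f| ^ 2) F - 2 |f| re (star c * f (-θ)) = (1 - |f|) ^ 2 F + 2 |f| (re (u (-θ)) + η)`.
`extrap`: `three` on `[-1/4, 0]` for `H z = u z * exp (- lam (1 - g z))`; on the axis
`|H| ≤ ν √(3 s) exp (- lam s) ≤ ν √(ε' + ε0)` with `s = 1 - re (g z)` (use `√(3 s) exp (- lam s) ≤ lam ^ (-1/2)`,
as `3 y ≤ exp (2 y)`), on the left line `|H| ≤ Bm`; with `a = max (ν √(ε' + ε0)) ε0`,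
`Bm ^ (4 θ) a ^ (1 - 4 θ) ≤ e a`. -/

namespace Vale.Agent.P356G

open Matrix Vale.Agent.P356

namespace SCA

theorem phase (w : ℂ) : ∃ c : ℂ, ‖c‖ = 1 ∧ w = (‖w‖ : ℂ) * c := by
  by_cases h : w = 0
  · exact ⟨1, by simp, by simp [h]⟩
  · have h' : (‖w‖ : ℂ) ≠ 0 := by simpa using h
    exact ⟨w / ‖w‖, by simp [h], by field_simp⟩

theorem e2 : Real.exp 2 ≤ 37 / 5 := by
  have h := Real.exp_one_lt_d9
  have h0 := Real.exp_pos 1
  rw [show (2 : ℝ) = 1 + 1 by norm_num, Real.exp_add]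
  nlinarith

theorem ar {a M η ε F r : ℝ} (ha : 0 ≤ a) (haM : a ≤ M) (hM : 1 ≤ M) (hM2 : M ^ 2 = 1 + η)
    (hη : 0 < η) (hη1 : η ≤ 1) (hε : 0 < ε) (hF : F ≤ 4) (hr : r ≤ 35 * (1 - a / M + ε)) :
    (1 - a) ^ 2 * F + 2 * a * (r + η) ≤ 200 * (1 - a ^ 2 + 2 * η + ε) := by
  have h1 : 1 - a / M ≤ 1 - a ^ 2 + η := by
    rw [show 1 - a / M = (M - a) / M by field_simp, div_le_iff₀ (by linarith)]
    have : 1 - a ^ 2 + η = (M - a) * (M + a) := by linarith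
    rw [this, mul_assoc]
    exact le_mul_of_one_le_right (by linarith) (by nlinarith)
  have h2 : 0 ≤ 1 - a ^ 2 + η := by nlinarith
  have h3 : (1 - a) ^ 2 ≤ 1 - a ^ 2 + 2 * η := by
    rcases le_total a 1 with h | h
    · nlinarith
    · have : M ≤ 1 + η := by nlinarith
      nlinarith
  have h4 : a ≤ 3 / 2 := by nlinarith
  have h5 := mul_le_mul_of_nonneg_left hF (sq_nonneg (1 - a))
  have h6 : a * (r + η) ≤ a * (35 * (1 - a ^ 2 + η + ε) + η) :=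
    mul_le_mul_of_nonneg_left (by linarith) ha
  have h7 : a * (35 * (1 - a ^ 2 + η + ε) + η) ≤ 3 / 2 * (35 * (1 - a ^ 2 + η + ε) + η) :=
    mul_le_mul_of_nonneg_right h4 (by linarith)
  linarith

theorem core {n : Type} [Fintype n] [DecidableEq n] (p : ℂ → n → ℂ) (τ x : n → ℂ) (c : ℂ)
    (θ ε M d : ℝ) (hθ : 0 < θ) (hθ' : θ ≤ 1 / 4) (hε : 0 < ε) (hε1 : ε ≤ 1) (hd0 : 0 ≤ d)
    (hlog : 4 * θ * Real.log ((3 * d + 2) / ε) ≤ 1) (hM : 1 ≤ M) (hM' : M ≤ 3 / 2)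
    (hτ : nsq τ = 1) (hx : nsq x ≤ 1) (hc : ‖c‖ = 1)
    (hf : star τ ⬝ᵥ p θ = (‖star τ ⬝ᵥ p θ‖ : ℂ) * c)
    (hd : ∀ y, Differentiable ℂ fun z => star y ⬝ᵥ p z) (hax : ∀ z : ℂ, z.re = 0 → nsq (p z) = 1)
    (hR : ∀ z : ℂ, 0 ≤ z.re → z.re ≤ 1 / 4 → ‖star τ ⬝ᵥ p z‖ ≤ M)
    (hL : ∀ z : ℂ, -1 / 4 ≤ z.re → z.re ≤ 0 →
      ‖star τ ⬝ᵥ p z‖ ≤ 3 / 2 * d ∧ ‖star x ⬝ᵥ p z‖ ≤ 3 / 2 * d) :
    (star x ⬝ᵥ p (-θ)).re - (star c * (star τ ⬝ᵥ p (-θ))).re ≤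
      35 * (1 - ‖star τ ⬝ᵥ p θ‖ / M + ε) := by
  have M0 : 0 < M := by linarith
  have hct : nsq (c • τ) = 1 := by rw [nsq_smul, hc, hτ]; norm_num
  have n1 : ∀ v : n → ℂ, nsq v ≤ 1 → nr v ≤ 1 := fun v hv => Real.sqrt_le_one.2 hv
  have hu : ∀ v, star (x - c • τ) ⬝ᵥ v = star x ⬝ᵥ v - star c * (star τ ⬝ᵥ v) := fun v => by
    rw [star_sub, sub_dotProduct, star_smul, smul_dotProduct, smul_eq_mul]
  set ν := nr (x - c • τ) with hν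
  have ν0 : 0 ≤ ν := nr_nonneg _
  have ν2 : ν ≤ 2 := (nr_sub _ _).trans (by linarith [n1 _ hx, n1 _ hct.le])
  have u0 : (star (x - c • τ) ⬝ᵥ (c • τ)).re ≤ -ν ^ 2 / 2 := by
    rw [hν, nr_sq, nsq_sub, star_sub, sub_dotProduct, ← nsq_eq, hct, Complex.sub_re,
      Complex.ofReal_re]
    linarith
  have hg : Differentiable ℂ fun z : ℂ => c * star (star τ ⬝ᵥ p (-star z)) / M := by
    refine (Differentiable.const_mul (fun z => ?_) c).div_const _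
    have := (((hd τ).comp differentiable_neg) (star z)).star_star
    rwa [star_star] at this
  have gre : ∀ w : ℂ, (c * star w / M).re = (star c * w).re / M := fun w => by
    rw [Complex.div_ofReal_re]; simp
  have gle : ∀ w : ℂ, (star c * w).re ≤ ‖w‖ := fun w =>
    (Complex.re_le_norm _).trans (by rw [norm_mul, norm_star, hc, one_mul])
  have a1 : ‖star τ ⬝ᵥ p θ‖ / M ≤ 1 :=
    (div_le_one M0).2 (hR _ (by simpa using hθ.le) (by simpa using hθ'))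
  have key := extrap (fun z => star (x - c • τ) ⬝ᵥ p z - star (x - c • τ) ⬝ᵥ (c • τ)) _
    ((hd _).sub_const _) hg θ ν (1 - ‖star τ ⬝ᵥ p θ‖ / M) ε (3 * d + 2) hθ hθ' ν0 (by linarith) hε
    (by linarith) hlog (fun z h1 h2 => ⟨?_, ?_⟩) (fun z hz => ?_) ?_
  · have k1 := Complex.re_le_norm
      (star (x - c • τ) ⬝ᵥ p (-θ) - star (x - c • τ) ⬝ᵥ (c • τ))
    rw [Complex.sub_re, hu (p _), Complex.sub_re] at k1
    have s2 := Real.sq_sqrt (show 0 ≤ 1 - ‖star τ ⬝ᵥ p θ‖ / M + ε by linarith)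
    have s0 := Real.sqrt_nonneg (1 - ‖star τ ⬝ᵥ p θ‖ / M + ε)
    have k2 := key.trans (mul_le_mul_of_nonneg_right e2 (by positivity))
    rw [hu (p _)] at k2
    generalize Real.sqrt (1 - ‖star τ ⬝ᵥ p θ‖ / M + ε) = s at s2 s0 k2
    linarith [sq_nonneg (ν - 37 / 5 * s)]
  · have k1 := (dot_le (x - c • τ) (c • τ)).trans
      (mul_le_mul ν2 (n1 _ hct.le) (nr_nonneg _) (by norm_num))
    refine (norm_sub_le _ _).trans ?_
    rw [hu (p z)]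
    have k2 := norm_sub_le (star x ⬝ᵥ p z) (star c * (star τ ⬝ᵥ p z))
    rw [norm_mul, norm_star, hc] at k2
    linarith [(hL z h1 h2).1, (hL z h1 h2).2]
  · rw [gre, div_le_one M0]
    exact (gle _).trans (hR _ (by simp; linarith) (by simp; linarith))
  · have e : -star z = z := by
      apply Complex.ext <;> simp [hz]
    rw [← dotProduct_sub, e, gre]
    refine (dot_le _ _).trans (mul_le_mul_of_nonneg_left (Real.sqrt_le_sqrt ?_) ν0)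
    have k1 : (star c * (star τ ⬝ᵥ p z)).re ≤ 1 := (gle _).trans ((dot_le _ _).trans
      (mul_le_one₀ (n1 _ hτ.le) (nr_nonneg _) (n1 _ (hax z hz).le)))
    have k2 : (star (p z) ⬝ᵥ (c • τ)).re = (star c * (star τ ⬝ᵥ p z)).re := by
      rw [← dot_star, star_smul, smul_dotProduct, smul_eq_mul]; simp
    rw [nsq_sub, hax z hz, hct, k2]
    obtain ⟨y, hy⟩ : ∃ y, y = (star c * (star τ ⬝ᵥ p z)).re / M := ⟨_, rfl⟩
    have k3 : (star c * (star τ ⬝ᵥ p z)).re = M * y := by rw [hy]; field_simp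
    rw [← hy]
    rw [k3] at k1 ⊢
    rcases le_total y 0 with h | h <;> nlinarith
  · have e : -star (-(θ : ℂ)) = θ := by simp
    rw [e, gre]
    conv_lhs => rw [hf, mul_left_comm, Complex.star_def, Complex.conj_mul', hc]
    simp

end SCA
open SCA

theorem sc (Λ Q : Type) [Fintype Λ] [DecidableEq Λ] [Fintype Q] [DecidableEq Q] [Nonempty Q]
    (a0 η : ℝ) (h0 : 0 < a0) (hη : 0 < η) (hη1 : η ≤ 1) : ∃ R : ℝ, 1 ≤ R ∧
    ∀ (θ ε0 α β α' β' : ℝ) (A B B' : Finset Λ) (ψ τ : (Λ → Q) → ℂ), 0 < θ → θ ≤ 1 / 8 → 0 < ε0 →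
      ε0 ≤ 1 → 4 * θ * Real.log ((3 * (Fintype.card Q : ℝ) ^ (B \ B').card + 2) / ε0) ≤ 1 →
      Par (DD Λ Q) a0 η α β → Par (DD Λ Q) a0 η α' β' → Disjoint A B → B' ⊆ B → nsq ψ = 1 →
      nsq τ = 1 → ∃ s s' : Matrix (Λ → Q) (Λ → Q) ℂ, Loc (fun z => z ∈ A ∪ B') s ∧
        Loc (fun z => z ∈ A ∪ B') s' ∧ s * s' = 1 ∧ Bd s R ∧ Bd s' R ∧
        nsq ((star τ ⬝ᵥ phi α β α' β' A B B' ψ τ θ) • (s *ᵥ τ) -
            s'ᴴ *ᵥ phi α β α' β' A B B' ψ τ (-θ)) ≤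
          200 * (1 - ‖star τ ⬝ᵥ phi α β α' β' A B B' ψ τ θ‖ ^ 2 + 2 * η + ε0) := by
  obtain ⟨R0, r1, hR0⟩ := sinc_bd (Λ := Λ) (Q := Q) a0 h0
  obtain ⟨R, hR1, hR⟩ := fid Λ Q (R0 * R0) η hη
  refine ⟨R, hR1, fun θ ε0 α β α' β' A B B' ψ τ t0 t1 e0 e1 hlog hp hq hd hB hψ hτ => ?_⟩
  have hθ : |(-(θ : ℂ)).re| ≤ 1 := by
    rw [Complex.neg_re, Complex.ofReal_re, abs_neg, abs_of_pos t0]; linarith
  obtain ⟨s, s', U, l1, l2, hs, b1, b2, l3, b3, f1, f2⟩ := hR (A ∪ B') τ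
    (phi α β α' β' A B B' ψ τ (-θ)) hτ (by
      have := ((hR0 η α' β' A B' τ _ hη1 hq hτ hθ).1.mul (hR0 η α β A B ψ _ hη1 hp hψ hθ).2
        (by linarith)) ψ
      rwa [nr, nr, hψ, Real.sqrt_one, mul_one] at this)
  refine ⟨s, s', l1, l2, hs, b1, b2, ?_⟩
  set d : ℝ := (Fintype.card Q : ℝ) ^ (B \ B').card with hdd
  have d1 : 1 ≤ d := one_le_pow₀ (by exact_mod_cast Fintype.card_pos)
  set M := Real.sqrt (1 + η) with hM
  have M2 : M ^ 2 = 1 + η := Real.sq_sqrt (by linarith)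
  have M1 : 1 ≤ M := Real.one_le_sqrt.2 (by linarith)
  have M3 : M ≤ 3 / 2 := by nlinarith
  have dM : 1 ≤ d * M := by nlinarith
  have sR : ∀ z : ℂ, 0 ≤ z.re → z.re ≤ 1 / 4 → ‖star τ ⬝ᵥ phi α β α' β' A B B' ψ τ z‖ ≤ M :=
    fun z h1 h2 => by simpa using strip_R h0 hp hq hd hB hψ hτ (loc_one _) bd_one h1 h2
  have sL : ∀ z : ℂ, -1 / 4 ≤ z.re → z.re ≤ 0 →
      ‖star τ ⬝ᵥ phi α β α' β' A B B' ψ τ z‖ ≤ (d * M) ^ (-4 * z.re) ∧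
      ‖star (U *ᵥ τ) ⬝ᵥ phi α β α' β' A B B' ψ τ z‖ ≤ (d * M) ^ (-4 * z.re) := fun z h1 h2 => by
    have k1 := strip_L h0 hp hq hd hB hψ hτ (loc_one _) bd_one h1 h2
    have k2 := strip_L h0 hp hq hd hB hψ hτ l3.ct (b3.ct zero_le_one) h1 h2
    rw [one_mulVec] at k1
    rw [dot_mulVec, conjTranspose_conjTranspose] at k2
    exact ⟨k1, k2⟩
  have sL' : ∀ z : ℂ, -1 / 4 ≤ z.re → (d * M) ^ (-4 * z.re) ≤ 3 / 2 * d := fun z h1 =>
    (Real.rpow_le_self_of_one_le dM (by linarith)).trans (by nlinarith)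
  obtain ⟨c, hc, hf⟩ := phase (star τ ⬝ᵥ phi α β α' β' A B B' ψ τ θ)
  have key := core (phi α β α' β' A B B' ψ τ) τ (U *ᵥ τ) c θ ε0 M d t0 (by linarith) e0 e1
    (by linarith) hlog M1 M3 hτ (by simpa [hτ] using b3.nsq τ) hc hf phi_diff
    (fun z hz => phi_axis hψ hz) sR fun z h1 h2 =>
      ⟨(sL z h1 h2).1.trans (sL' z h1), (sL z h1 h2).2.trans (sL' z h1)⟩
  have hF : (star (U *ᵥ τ) ⬝ᵥ phi α β α' β' A B B' ψ τ (-θ)).re + η ≤ 4 := by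
    have k1 := (Complex.re_le_norm _).trans
      (sL (-θ) (by simp; linarith) (by simp; linarith)).2
    have k2 : Real.log (d * M) ≤ Real.log ((3 * d + 2) / ε0) :=
      Real.log_le_log (by linarith) (by rw [le_div_iff₀ e0]; nlinarith)
    have k3 : Real.log (d * M) * (-4 * (-(θ : ℂ)).re) ≤ 1 := by
      rw [Complex.neg_re, Complex.ofReal_re]; nlinarith
    rw [Real.rpow_def_of_pos (by linarith)] at k1
    linarith [Real.exp_le_exp.2 k3, Real.exp_one_lt_d9]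
  have k4 := ar (norm_nonneg _) (sR θ (by simpa using t0.le) (by simp; linarith)) M1 M2 hη hη1 e0
    hF key
  refine le_trans ?_ k4
  have k5 : star ((star τ ⬝ᵥ phi α β α' β' A B B' ψ τ θ) • (s *ᵥ τ)) ⬝ᵥ
      (s'ᴴ *ᵥ phi α β α' β' A B B' ψ τ (-θ)) = (‖star τ ⬝ᵥ phi α β α' β' A B B' ψ τ θ‖ : ℂ) *
        (star c * (star τ ⬝ᵥ phi α β α' β' A B B' ψ τ (-θ))) := by
    rw [star_smul, smul_dotProduct, dot_mulVec, conjTranspose_conjTranspose, mulVec_mulVec,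
      mul_eq_one_comm.1 hs, one_mulVec, smul_eq_mul, ← mul_assoc]
    congr 1
    conv_lhs => rw [hf]
    simp
  rw [nsq_sub, nsq_smul, k5, Complex.re_ofReal_mul]
  have := mul_le_mul_of_nonneg_left f1 (sq_nonneg ‖star τ ⬝ᵥ phi α β α' β' A B B' ψ τ θ‖)
  linarith

end Vale.Agent.P356G
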