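import Vale.Agent.P356G.KeyA
import Vale.Agent.P356G.SC

/- The replica inequality for one move. Apply `mf` to `G` (states `ψ`) and `G'` (states `τ`), take the
product measurement on `G ∪ G'` (`Meas.prod`, `blk_fst`, `blk_snd`), and `trans` twice (for `G'` swap the
conjunction). Write `X = incI (A,B) a G`, `X' = inc (A,B') a G'`, `w = X' X u`, `f o = <τ, phi θ>`,
`m o = nsq (one a (ψ ψ*) (P o u))`, `∑ m o ≤ nsq u`.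
`u ≈ blk (ψ ψ*) u` since `xx univ a G u = |G| u` (`Sy.xx`, `mg_univ`); `w ≈ blk (τ τ*) w`;
so `w ≈ blk (τ τ* sinc sincI ψ ψ*) u = blk (f τ ψ*) u`, `nsq = ∑ |f o| ^ 2 m o` (`nsq_blk`, `nsq_one_rank`),
`|f| ^ 2 ≤ 1 + η` (`strip_R` with `W = 1`). For the second part take `s1 o, s1' o` from `sc`,
`s = blk (s1 * sinc τ θ)`, `s' = blk (sincI τ θ * s1')`. `X u = incI' w ≈ blk (sincI τ θ) blk (f τ ψ*) u`;
`g` commutes with all operators local on `A ∪ B'`; `s g X u ≈ blk (g (f s1 τ) ψ*) u`,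
`s'ᴴ g incᴴ u ≈ blk (g (s1'ᴴ phi (-θ)) ψ*) u` (`sinc_ct`). Use `sc` with a smaller `η`, `nsq_add_le`,
and choose the approximation error after `δ` and all norm bounds. -/

namespace Vale.Agent.P356G

open Matrix Vale.Agent.P356 Filter

namespace KeyBA

section Gen

variable {n : Type} [Fintype n] [DecidableEq n]

omit [DecidableEq n] in
theorem near1 {Pψ Pτ Y Y' : Matrix n n ℂ} {R e : ℝ} (hR : 1 ≤ R) (he0 : 0 ≤ e) (he1 : e ≤ 1)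
    (hY : Bd Y R) (hY' : Bd Y' R) (hτ : Bd Pτ 1) {u x w : n → ℂ}
    (h1 : nr (u - Pψ *ᵥ u) ≤ e * nr u) (h2 : nr (x - Y *ᵥ u) ≤ e * nr u)
    (h3 : nr (w - Y' *ᵥ x) ≤ e * nr x) (h4 : nr (w - Pτ *ᵥ w) ≤ e * nr w) :
    nr x ≤ 2 * R * nr u ∧ nr (w - (Pτ * (Y' * Y * Pψ)) *ᵥ u) ≤ 8 * R ^ 2 * e * nr u := by
  have hu := nr_nonneg u
  have hx : nr x ≤ 2 * R * nr u := by
    have a1 := nr_add (x - Y *ᵥ u) (Y *ᵥ u)
    rw [sub_add_cancel] at a1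
    have a2 := hY u
    nlinarith
  have hw : nr w ≤ 4 * R ^ 2 * nr u := by
    have a1 := nr_add (w - Y' *ᵥ x) (Y' *ᵥ x)
    rw [sub_add_cancel] at a1
    have a2 := hY' x
    have a3 : (e + R) * nr x ≤ (2 * R) * (2 * R * nr u) :=
      mul_le_mul (by linarith) hx (nr_nonneg x) (by linarith)
    nlinarith
  refine ⟨hx, ?_⟩
  have e1 : w - (Pτ * (Y' * Y * Pψ)) *ᵥ u = (w - Pτ *ᵥ w) + Pτ *ᵥ ((w - Y' *ᵥ x) +
      Y' *ᵥ ((x - Y *ᵥ u) + Y *ᵥ (u - Pψ *ᵥ u))) := by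
    simp only [mulVec_add, mulVec_sub, ← mulVec_mulVec]
    abel
  rw [e1]
  have b1 := nr_add (w - Pτ *ᵥ w) (Pτ *ᵥ ((w - Y' *ᵥ x) +
      Y' *ᵥ ((x - Y *ᵥ u) + Y *ᵥ (u - Pψ *ᵥ u))))
  have b2 := hτ ((w - Y' *ᵥ x) + Y' *ᵥ ((x - Y *ᵥ u) + Y *ᵥ (u - Pψ *ᵥ u)))
  have b3 := nr_add (w - Y' *ᵥ x) (Y' *ᵥ ((x - Y *ᵥ u) + Y *ᵥ (u - Pψ *ᵥ u)))
  have b4 := hY' ((x - Y *ᵥ u) + Y *ᵥ (u - Pψ *ᵥ u))
  have b5 := nr_add (x - Y *ᵥ u) (Y *ᵥ (u - Pψ *ᵥ u))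
  have b6 := hY (u - Pψ *ᵥ u)
  have hR0 : 0 ≤ R := by linarith
  have c1 := mul_le_mul_of_nonneg_left h1 hR0
  have c2 : nr ((x - Y *ᵥ u) + Y *ᵥ (u - Pψ *ᵥ u)) ≤ e * nr u + R * (e * nr u) := by linarith
  have c3 := mul_le_mul_of_nonneg_left c2 hR0
  have c4 := mul_le_mul_of_nonneg_left hx he0
  have c5 := mul_le_mul_of_nonneg_left hw he0
  have c6 : 0 ≤ e * nr u := mul_nonneg he0 hu
  have c7 : R * (e * nr u) ≤ R ^ 2 * (e * nr u) :=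
    mul_le_mul_of_nonneg_right (by nlinarith) c6
  nlinarith

omit [DecidableEq n] in
theorem near2 {Pψ Y' Z Z' S1 S2 : Matrix n n ℂ} {R R1 e : ℝ} (hR : 1 ≤ R) (hR1 : 1 ≤ R1)
    (he0 : 0 ≤ e) (hZ : Bd Z R) (hZ' : Bd Z' R) (hS1 : Bd S1 R1) (hS2 : Bd S2 R1)
    {u x w y w0 : n → ℂ} (h1 : nr (u - Pψ *ᵥ u) ≤ e * nr u) (hx : nr x ≤ 2 * R * nr u)
    (h3 : nr (w - Y' *ᵥ x) ≤ e * nr x) (h5 : nr (w - w0) ≤ 8 * R ^ 2 * e * nr u)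
    (h6 : nr (y - Z *ᵥ u) ≤ e * nr u) :
    nr (((S1 * Y') *ᵥ x - (S2 * Z') *ᵥ y) - (S1 *ᵥ w0 - (S2 * (Z' * Z * Pψ)) *ᵥ u)) ≤
      12 * R1 * R ^ 2 * e * nr u := by
  have hu := nr_nonneg u
  have e1 : ((S1 * Y') *ᵥ x - (S2 * Z') *ᵥ y) - (S1 *ᵥ w0 - (S2 * (Z' * Z * Pψ)) *ᵥ u) =
      S1 *ᵥ ((w - w0) - (w - Y' *ᵥ x)) -
        S2 *ᵥ (Z' *ᵥ ((y - Z *ᵥ u) + Z *ᵥ (u - Pψ *ᵥ u))) := by
    simp only [mulVec_add, mulVec_sub, ← mulVec_mulVec]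
    abel
  rw [e1]
  have hR0 : 0 ≤ R := by linarith
  have hR10 : 0 ≤ R1 := by linarith
  have b1 := nr_sub (S1 *ᵥ ((w - w0) - (w - Y' *ᵥ x)))
    (S2 *ᵥ (Z' *ᵥ ((y - Z *ᵥ u) + Z *ᵥ (u - Pψ *ᵥ u))))
  have b2 := hS1 ((w - w0) - (w - Y' *ᵥ x))
  have b3 := nr_sub (w - w0) (w - Y' *ᵥ x)
  have b4 := hS2 (Z' *ᵥ ((y - Z *ᵥ u) + Z *ᵥ (u - Pψ *ᵥ u)))
  have b5 := hZ' ((y - Z *ᵥ u) + Z *ᵥ (u - Pψ *ᵥ u))
  have b6 := nr_add (y - Z *ᵥ u) (Z *ᵥ (u - Pψ *ᵥ u))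
  have b7 := hZ (u - Pψ *ᵥ u)
  have c6 : 0 ≤ e * nr u := mul_nonneg he0 hu
  have c7 : R * (e * nr u) ≤ R ^ 2 * (e * nr u) :=
    mul_le_mul_of_nonneg_right (by nlinarith) c6
  have c1 := mul_le_mul_of_nonneg_left h1 hR0
  have c2 : nr ((y - Z *ᵥ u) + Z *ᵥ (u - Pψ *ᵥ u)) ≤ e * nr u + R * (e * nr u) := by linarith
  have c3 := mul_le_mul_of_nonneg_left c2 hR0
  have c4 := mul_le_mul_of_nonneg_left hx he0
  have d1 : nr ((w - w0) - (w - Y' *ᵥ x)) ≤ 10 * (R ^ 2 * (e * nr u)) := by nlinarith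
  have d2 : nr (Z' *ᵥ ((y - Z *ᵥ u) + Z *ᵥ (u - Pψ *ᵥ u))) ≤ 2 * (R ^ 2 * (e * nr u)) := by
    nlinarith
  have d3 := mul_le_mul_of_nonneg_left d1 hR10
  have d4 := mul_le_mul_of_nonneg_left d2 hR10
  nlinarith

omit [DecidableEq n] in
theorem near3 {u w w0 : n → ℂ} {μ ζ : ℝ} (hμ1 : μ ≤ 1) (hζ0 : 0 ≤ ζ) (hζ : ζ ≤ μ / 25)
    (h : nr (w - w0) ≤ ζ * nr u) (h0 : nsq w0 ≤ (1 + μ / 2) * nsq u) :
    nsq w ≤ nsq w0 + μ / 5 * nsq u := by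
  have hu := nr_nonneg u
  have hq := nsq_nonneg u
  have h1 : nr w0 ≤ 3 / 2 * nr u := by
    rw [nr_le_iff _ _ (by norm_num)]
    nlinarith
  have h2 := nsq_near w w0 h
  have h3 : ζ * nr u * (2 * nr w0 + ζ * nr u) ≤ ζ * nr u * (4 * nr u) :=
    mul_le_mul_of_nonneg_left (by nlinarith) (mul_nonneg hζ0 hu)
  have h4 := nr_sq u
  have h5 : ζ * nr u * (4 * nr u) = 4 * ζ * nsq u := by rw [← h4]; ring
  nlinarith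

omit [DecidableEq n] in
theorem near4 {u w w0 v v0 : n → ℂ} {μ η ζ ε0 : ℝ} (hμ0 : 0 ≤ μ) (hμ1 : μ ≤ 1) (hμη : μ ≤ η)
    (hζ0 : 0 ≤ ζ) (hζ : ζ ≤ μ / 10) (hε : 0 ≤ ε0) (h : nr (v - v0) ≤ ζ * nr u)
    (h0 : nsq w0 ≤ (1 + μ / 2) * nsq u) (h1 : nsq w ≤ nsq w0 + μ / 5 * nsq u)
    (h2 : nsq v0 ≤ 200 * ((1 + μ + ε0) * nsq u - nsq w0)) :
    nsq v ≤ 1000 * (nsq u - nsq w + (ε0 + η) * nsq u) := by
  have hq := nsq_nonneg u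
  have a1 := nsq_add_le (v - v0) v0
  rw [sub_add_cancel] at a1
  have a2 := (nr_le_iff _ _ hζ0).1 h
  have a3 : ζ ^ 2 * nsq u ≤ μ * nsq u := mul_le_mul_of_nonneg_right (by nlinarith) hq
  have a4 := mul_le_mul_of_nonneg_right hμη hq
  have a5 := mul_nonneg hε hq
  have a6 := mul_nonneg hμ0 hq
  nlinarith

omit [DecidableEq n] in
theorem rk1 (τ ψ : n → ℂ) (M : Matrix n n ℂ) :
    vecMulVec τ (star τ) * (M * vecMulVec ψ (star ψ)) =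
      vecMulVec ((star τ ⬝ᵥ (M *ᵥ ψ)) • τ) (star ψ) := by
  rw [mul_vecMulVec, mul_vecMulVec, vecMulVec_mulVec, op_smul_eq_smul]

omit [DecidableEq n] in
theorem rk_bd {τ : n → ℂ} (h : nsq τ = 1) : Bd (vecMulVec τ (star τ)) 1 := by
  have h1 := bd_rank τ τ
  rwa [← sq, nr_sq, h] at h1

theorem bd_le {g : Matrix n n ℂ} {J : ℝ} (hJ : 0 ≤ J) (h : Le (gᴴ * g) J 1) :
    Bd g (Real.sqrt J) := by
  intro v
  rw [nr_le_iff _ _ (Real.sqrt_nonneg J), Real.sq_sqrt hJ]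
  have := h v
  rwa [qf_ct_mul, qf_one] at this

end Gen

variable {Λ Q : Type} [Fintype Λ] [DecidableEq Λ] [Fintype Q] [DecidableEq Q] [Nonempty Q] {N : ℕ}
  {O : Type} [Fintype O] {P : O → RM Λ Q N} {H : Finset (Fin N)} {a : Fin N}
  {ψ τ : O → (Λ → Q) → ℂ}

theorem nsq_rk (hP : Meas H P) (ha : a ∉ H) (hψ : ∀ o, nsq (ψ o) = 1) (x : O → (Λ → Q) → ℂ)
    (u : (Fin N → Λ → Q) → ℂ) :
    nsq (blk a P (fun o => vecMulVec (x o) (star (ψ o))) *ᵥ u) =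
      ∑ o, nsq (x o) * nsq (one a (vecMulVec (ψ o) (star (ψ o))) *ᵥ (P o *ᵥ u)) := by
  rw [nsq_blk hP ha]
  exact Finset.sum_congr rfl fun o _ => nsq_one_rank (x o) (hψ o) _

theorem sum_m (hP : Meas H P) (ha : a ∉ H) (hψ : ∀ o, nsq (ψ o) = 1)
    (u : (Fin N → Λ → Q) → ℂ) :
    ∑ o, nsq (one a (vecMulVec (ψ o) (star (ψ o))) *ᵥ (P o *ᵥ u)) ≤ nsq u := by
  rw [← nsq_blk hP ha]
  have := (blk_bd hP ha zero_le_one fun o => rk_bd (hψ o)).nsq u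
  simpa using this

theorem part1 (hP : Meas H P) (ha : a ∉ H) (hψ : ∀ o, nsq (ψ o) = 1) (hτ : ∀ o, nsq (τ o) = 1)
    {Y Y' : O → Matrix (Λ → Q) (Λ → Q) ℂ} {R e μ : ℝ} (hR : 1 ≤ R) (he0 : 0 ≤ e) (hμ1 : μ ≤ 1)
    (he : 200 * R ^ 2 * e ≤ μ) (hY : ∀ o, Bd (Y o) R) (hY' : ∀ o, Bd (Y' o) R)
    (hf : ∀ o, ‖star (τ o) ⬝ᵥ ((Y' o * Y o) *ᵥ ψ o)‖ ^ 2 ≤ 1 + μ / 2)
    {u x w : (Fin N → Λ → Q) → ℂ}
    (h1 : nr (u - blk a P (fun o => vecMulVec (ψ o) (star (ψ o))) *ᵥ u) ≤ e * nr u)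
    (h2 : nr (x - blk a P Y *ᵥ u) ≤ e * nr u) (h3 : nr (w - blk a P Y' *ᵥ x) ≤ e * nr x)
    (h4 : nr (w - blk a P (fun o => vecMulVec (τ o) (star (τ o))) *ᵥ w) ≤ e * nr w) :
    ∃ w0, w0 = blk a P (fun o => vecMulVec ((star (τ o) ⬝ᵥ ((Y' o * Y o) *ᵥ ψ o)) • τ o)
        (star (ψ o))) *ᵥ u ∧ nr x ≤ 2 * R * nr u ∧ nr (w - w0) ≤ 8 * R ^ 2 * e * nr u ∧
      nsq w0 ≤ (1 + μ / 2) * nsq u ∧ nsq w ≤ nsq w0 + μ / 5 * nsq u := by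
  have hR0 : 0 ≤ R := by linarith
  have hRe : 0 ≤ R ^ 2 * e := by positivity
  have he1 : e ≤ 1 := by
    have : 1 * e ≤ R ^ 2 * e := mul_le_mul_of_nonneg_right (by nlinarith) he0
    linarith
  obtain ⟨hx, hw⟩ := near1 hR he0 he1 (blk_bd hP ha hR0 hY) (blk_bd hP ha hR0 hY')
    (blk_bd hP ha zero_le_one fun o => rk_bd (hτ o)) h1 h2 h3 h4
  rw [blk_mul hP ha, blk_mul hP ha, blk_mul hP ha] at hw
  simp only [rk1] at hw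
  have h0 : nsq (blk a P (fun o => vecMulVec ((star (τ o) ⬝ᵥ ((Y' o * Y o) *ᵥ ψ o)) • τ o)
      (star (ψ o))) *ᵥ u) ≤ (1 + μ / 2) * nsq u := by
    rw [nsq_rk hP ha hψ]
    have hμ0 : 0 ≤ 1 + μ / 2 := by linarith
    refine le_trans ?_ (mul_le_mul_of_nonneg_left (sum_m hP ha hψ u) hμ0)
    rw [Finset.mul_sum]
    refine Finset.sum_le_sum fun o _ => mul_le_mul_of_nonneg_right ?_ (nsq_nonneg _)
    rw [nsq_smul, hτ o, mul_one]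
    exact hf o
  exact ⟨_, rfl, hx, hw, h0, near3 hμ1 (by positivity) (by linarith) hw h0⟩

theorem part2 (hP : Meas H P) (ha : a ∉ H) (hψ : ∀ o, nsq (ψ o) = 1) (hτ : ∀ o, nsq (τ o) = 1)
    {Y Y' Z Z' s1 s2 : O → Matrix (Λ → Q) (Λ → Q) ℂ} {R R1 e μ η ε0 J : ℝ} (hR : 1 ≤ R)
    (hR1 : 1 ≤ R1) (he0 : 0 ≤ e) (hμ1 : μ ≤ 1) (hμη : μ ≤ η) (hε : 0 ≤ ε0) (hJ : 0 ≤ J)
    (he : 200 * R1 * R ^ 2 * e ≤ μ) (hY : ∀ o, Bd (Y o) R) (hY' : ∀ o, Bd (Y' o) R)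
    (hZ : ∀ o, Bd (Z o) R) (hZ' : ∀ o, Bd (Z' o) R) (hs1 : ∀ o, Bd (s1 o) R1)
    (hs2 : ∀ o, Bd (s2 o) R1)
    (hf : ∀ o, ‖star (τ o) ⬝ᵥ ((Y' o * Y o) *ᵥ ψ o)‖ ^ 2 ≤ 1 + μ / 2)
    (hsc : ∀ o, nsq ((star (τ o) ⬝ᵥ ((Y' o * Y o) *ᵥ ψ o)) • (s1 o *ᵥ τ o) -
      s2 o *ᵥ ((Z' o * Z o) *ᵥ ψ o)) ≤
      200 * (1 - ‖star (τ o) ⬝ᵥ ((Y' o * Y o) *ᵥ ψ o)‖ ^ 2 + 2 * (μ / 2) + ε0))
    {g : Matrix (Λ → Q) (Λ → Q) ℂ} (hg : Le (gᴴ * g) J 1)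
    (hc1 : ∀ o, s1 o * Y' o * g = g * (s1 o * Y' o))
    (hc2 : ∀ o, s2 o * Z' o * g = g * (s2 o * Z' o))
    {u x w y : (Fin N → Λ → Q) → ℂ}
    (h1 : nr (u - blk a P (fun o => vecMulVec (ψ o) (star (ψ o))) *ᵥ u) ≤ e * nr u)
    (h2 : nr (x - blk a P Y *ᵥ u) ≤ e * nr u) (h3 : nr (w - blk a P Y' *ᵥ x) ≤ e * nr x)
    (h4 : nr (w - blk a P (fun o => vecMulVec (τ o) (star (τ o))) *ᵥ w) ≤ e * nr w)
    (h6 : nr (y - blk a P Z *ᵥ u) ≤ e * nr u) :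
    nsq ((blk a P (fun o => s1 o * Y' o) * one a g) *ᵥ x -
      (blk a P (fun o => s2 o * Z' o) * one a g) *ᵥ y) ≤
      1000 * J * (nsq u - nsq w + (ε0 + η) * nsq u) := by
  have hR0 : 0 ≤ R := by linarith
  have hR10 : 0 ≤ R1 := by linarith
  have hRe : 0 ≤ R ^ 2 * e := by positivity
  have hRe' : 1 * (R ^ 2 * e) ≤ R1 * (R ^ 2 * e) := mul_le_mul_of_nonneg_right hR1 hRe
  have hμ0 : 0 ≤ μ := by nlinarith
  obtain ⟨w0, hw0, hx, hw, h0, hww⟩ := part1 hP ha hψ hτ hR he0 hμ1 (by nlinarith) hY hY' hf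
    h1 h2 h3 h4
  have hn := near2 hR hR1 he0 (blk_bd hP ha hR0 hZ) (blk_bd hP ha hR0 hZ')
    (blk_bd hP ha hR10 hs1) (blk_bd hP ha hR10 hs2) h1 hx h3 hw h6
  have ev : blk a P s1 *ᵥ w0 - (blk a P s2 * (blk a P Z' * blk a P Z *
      blk a P fun o => vecMulVec (ψ o) (star (ψ o)))) *ᵥ u =
      blk a P (fun o => vecMulVec ((star (τ o) ⬝ᵥ ((Y' o * Y o) *ᵥ ψ o)) • (s1 o *ᵥ τ o) -
        s2 o *ᵥ ((Z' o * Z o) *ᵥ ψ o)) (star (ψ o))) *ᵥ u := by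
    rw [hw0, mulVec_mulVec, blk_mul hP ha, blk_mul hP ha, blk_mul hP ha, blk_mul hP ha,
      ← sub_mulVec, ← blk_sub]
    simp only [mul_vecMulVec, sub_vecMulVec, mulVec_smul]
  rw [ev, blk_mul hP ha, blk_mul hP ha] at hn
  have hv0 : nsq (blk a P (fun o => vecMulVec ((star (τ o) ⬝ᵥ ((Y' o * Y o) *ᵥ ψ o)) •
      (s1 o *ᵥ τ o) - s2 o *ᵥ ((Z' o * Z o) *ᵥ ψ o)) (star (ψ o))) *ᵥ u) ≤
      200 * ((1 + μ + ε0) * nsq u - nsq w0) := by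
    have hm := mul_le_mul_of_nonneg_left (sum_m hP ha hψ u) (by linarith : 0 ≤ 1 + μ + ε0)
    refine le_trans ?_ (mul_le_mul_of_nonneg_left (sub_le_sub_right hm _) (by norm_num))
    rw [hw0, nsq_rk hP ha hψ, nsq_rk hP ha hψ, Finset.mul_sum, ← Finset.sum_sub_distrib,
      Finset.mul_sum]
    refine Finset.sum_le_sum fun o _ => ?_
    rw [nsq_smul, hτ o, mul_one]
    have := mul_le_mul_of_nonneg_right (hsc o)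
      (nsq_nonneg (one a (vecMulVec (ψ o) (star (ψ o))) *ᵥ (P o *ᵥ u)))
    linarith
  have hfin := near4 hμ0 hμ1 hμη (by positivity) (by nlinarith) hε hn h0 hww hv0
  have c1 : blk a P (fun o => s1 o * Y' o) * one a g = one a g * blk a P fun o => s1 o * Y' o := by
    rw [← blk_const hP g, blk_mul hP ha, blk_mul hP ha]
    simp only [hc1]
  have c2 : blk a P (fun o => s2 o * Z' o) * one a g = one a g * blk a P fun o => s2 o * Z' o := by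
    rw [← blk_const hP g, blk_mul hP ha, blk_mul hP ha]
    simp only [hc2]
  rw [c1, c2, ← mulVec_mulVec, ← mulVec_mulVec, ← mulVec_sub]
  have hb := (one_bd a (Real.sqrt_nonneg J) (bd_le hJ hg)).nsq
    ((blk a P fun o => s1 o * Y' o) *ᵥ x - (blk a P fun o => s2 o * Z' o) *ᵥ y)
  rw [Real.sq_sqrt hJ] at hb
  have := mul_le_mul_of_nonneg_left hfin hJ
  linarith

omit [Nonempty Q] in
theorem ap_vec {S : Set ((Fin N → Λ → Q) → ℂ)} {X Y : RM Λ Q N} {e e' : ℝ} (h : Ap S X Y e')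
    (he : e' ≤ e) {u : (Fin N → Λ → Q) → ℂ} (hu : u ∈ S) :
    nr (X *ᵥ u - Y *ᵥ u) ≤ e * nr u := by
  have := h.mono he u hu
  rwa [sub_mulVec] at this

theorem ap_fix {S : Set ((Fin N → Λ → Q) → ℂ)} {G : Finset (Fin N)} (h0 : 0 < G.card)
    {e e' : ℝ} (h : Ap S ((G.card : ℂ)⁻¹ • xx Q Finset.univ a G)
      (blk a P fun o => mg Finset.univ (ψ o)) e') (he : e' ≤ e) {u : (Fin N → Λ → Q) → ℂ}
    (hu : u ∈ S) (hs : Sy (insert a G) u) :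
    nr (u - blk a P (fun o => vecMulVec (ψ o) (star (ψ o))) *ᵥ u) ≤ e * nr u := by
  have h1 := ap_vec h he hu
  have h2 : (G.card : ℂ) ≠ 0 := by exact_mod_cast h0.ne'
  rw [smul_mulVec, hs.xx, smul_smul, inv_mul_cancel₀ h2, one_smul] at h1
  simpa only [mg_univ] using h1

theorem mid (hP : Meas H P) (ha : a ∉ H) (hψ : ∀ o, nsq (ψ o) = 1) (hτ : ∀ o, nsq (τ o) = 1)
    {δ θ μ η R R1 e α β α' β' : ℝ} {A B B' : Finset Λ} {G G' : Finset (Fin N)}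
    {X X' Xc : RM Λ Q N} (hδ : 0 < δ) (hθ : 0 < θ) (hθ1 : θ ≤ 1 / 8) (hμ0 : 0 < μ) (hμ1 : μ ≤ 1)
    (hμη : μ ≤ η) (hR : 1 ≤ R) (hR1 : 1 ≤ R1) (he0 : 0 < e) (he : 200 * R1 * R ^ 2 * e ≤ μ)
    (hp1 : Par (DD Λ Q) δ (μ / 2) α β) (hp2 : Par (DD Λ Q) δ (μ / 2) α' β') (hAB : Disjoint A B)
    (hB : B' ⊆ B)
    (hb1 : ∀ o (z : ℂ), |z.re| ≤ 1 → Bd (sincI α β A B (ψ o) z) R)
    (hb2 : ∀ o (z : ℂ), |z.re| ≤ 1 → Bd (sinc α' β' A B' (τ o) z) R)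
    (hsc : ∀ ε0 : ℝ, 0 < ε0 → ε0 ≤ 1 →
      4 * θ * Real.log ((3 * (Fintype.card Q : ℝ) ^ (B \ B').card + 2) / ε0) ≤ 1 →
      ∀ o, ∃ s s' : Matrix (Λ → Q) (Λ → Q) ℂ, Loc (fun z => z ∈ A ∪ B') s ∧
        Loc (fun z => z ∈ A ∪ B') s' ∧ s * s' = 1 ∧ Bd s R1 ∧ Bd s' R1 ∧
        nsq ((star (τ o) ⬝ᵥ phi α β α' β' A B B' (ψ o) (τ o) θ) • (s *ᵥ τ o) -
            s'ᴴ *ᵥ phi α β α' β' A B B' (ψ o) (τ o) (-θ)) ≤
          200 * (1 - ‖star (τ o) ⬝ᵥ phi α β α' β' A B B' (ψ o) (τ o) θ‖ ^ 2 + 2 * (μ / 2) + ε0))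
    (hG : 0 < G.card) (hG' : 0 < G'.card)
    (hA1 : Ap {u | Sy G u ∧ Sy G' u} ((G.card : ℂ)⁻¹ • xx Q Finset.univ a G)
      (blk a P fun o => mg Finset.univ (ψ o)) e)
    (hA2 : Ap {u | Sy G' u ∧ Sy G u} ((G'.card : ℂ)⁻¹ • xx Q Finset.univ a G')
      (blk a P fun o => mg Finset.univ (τ o)) e)
    (hI1 : Inv {u | Sy G u ∧ Sy G' u} X) (hI2 : Inv {u | Sy G' u ∧ Sy G u} X')
    (hB1 : Ap {u | Sy G u ∧ Sy G' u} X (blk a P fun o => sincI α β A B (ψ o) θ) e)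
    (hB2 : Ap {u | Sy G u ∧ Sy G' u} Xc (blk a P fun o => sincI α β A B (ψ o) (-θ)) e)
    (hB3 : Ap {u | Sy G' u ∧ Sy G u} X' (blk a P fun o => sinc α' β' A B' (τ o) θ) e) :
    (∀ u, Sy (insert a G) u → Sy G' u → Sy (insert a G') ((X' * X) *ᵥ u) →
        nsq ((X' * X) *ᵥ u) ≤ (1 + η) * nsq u) ∧
      ∀ ε0 : ℝ, 0 < ε0 → ε0 ≤ 1 →
        4 * θ * Real.log ((3 * (Fintype.card Q : ℝ) ^ (B \ B').card + 2) / ε0) ≤ 1 →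
        ∃ s s' : RM Λ Q N, s * s' = 1 ∧ ∀ (g : Matrix (Λ → Q) (Λ → Q) ℂ) (J : ℝ), 0 ≤ J →
          Loc (fun z => z ∉ A ∪ B') g → Le (gᴴ * g) J 1 → ∀ u, Sy (insert a G) u → Sy G' u →
          Sy (insert a G') ((X' * X) *ᵥ u) →
          nsq ((s * one a g * X - s'ᴴ * one a g * Xc) *ᵥ u) ≤
            1000 * J * (nsq u - nsq ((X' * X) *ᵥ u) + (ε0 + η) * nsq u) := by
  have he' : 200 * R ^ 2 * e ≤ μ := by
    have : 1 * (R ^ 2 * e) ≤ R1 * (R ^ 2 * e) := mul_le_mul_of_nonneg_right hR1 (by positivity)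
    linarith
  have hAB' : Disjoint A B' := hAB.mono_right hB
  have hθa : |((θ : ℂ)).re| ≤ 1 := by
    rw [Complex.ofReal_re, abs_of_pos hθ]; linarith
  have hθb : |(-(θ : ℂ)).re| ≤ 1 := by rwa [Complex.neg_re, abs_neg]
  have hf : ∀ o, ‖star (τ o) ⬝ᵥ
      ((sinc α' β' A B' (τ o) θ * sincI α β A B (ψ o) θ) *ᵥ ψ o)‖ ^ 2 ≤ 1 + μ / 2 := by
    intro o
    have h1 := strip_R hδ hp1 hp2 hAB hB (hψ o) (hτ o) (loc_one _) bd_one (z := θ)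
      (by rw [Complex.ofReal_re]; exact hθ.le) (by rw [Complex.ofReal_re]; linarith)
    rw [one_mulVec] at h1
    have h2 := pow_le_pow_left₀ (norm_nonneg _) h1 2
    rwa [Real.sq_sqrt (by linarith)] at h2
  have hS : ∀ u, Sy (insert a G) u → Sy G' u → Sy (insert a G') ((X' * X) *ᵥ u) →
      nr (u - blk a P (fun o => vecMulVec (ψ o) (star (ψ o))) *ᵥ u) ≤ e * nr u ∧
      nr (X *ᵥ u - blk a P (fun o => sincI α β A B (ψ o) θ) *ᵥ u) ≤ e * nr u ∧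
      nr ((X' * X) *ᵥ u - blk a P (fun o => sinc α' β' A B' (τ o) θ) *ᵥ (X *ᵥ u)) ≤
        e * nr (X *ᵥ u) ∧
      nr ((X' * X) *ᵥ u - blk a P (fun o => vecMulVec (τ o) (star (τ o))) *ᵥ ((X' * X) *ᵥ u)) ≤
          e * nr ((X' * X) *ᵥ u) ∧
      nr (Xc *ᵥ u - blk a P (fun o => sincI α β A B (ψ o) (-θ)) *ᵥ u) ≤ e * nr u := by
    intro u hu hu' hw
    have m1 : u ∈ {u : (Fin N → Λ → Q) → ℂ | Sy G u ∧ Sy G' u} :=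
      ⟨hu.mono (Finset.subset_insert _ _), hu'⟩
    have m2 : X *ᵥ u ∈ {u : (Fin N → Λ → Q) → ℂ | Sy G' u ∧ Sy G u} := (hI1 u m1).symm
    have m3 := hI2 _ m2
    rw [mulVec_mulVec] at m3
    refine ⟨ap_fix hG hA1 le_rfl m1 hu, ap_vec hB1 le_rfl m1, ?_,
      ap_fix hG' hA2 le_rfl m3 hw, ap_vec hB2 le_rfl m1⟩
    rw [← mulVec_mulVec]
    exact ap_vec hB3 le_rfl m2
  refine ⟨fun u hu hu' hw => ?_, fun ε0 hε hε1 hlog => ?_⟩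
  · obtain ⟨h1, h2, h3, h4, -⟩ := hS u hu hu' hw
    obtain ⟨w0, -, -, -, h5, h6⟩ := part1 hP ha hψ hτ hR he0.le
      hμ1 he' (fun o => hb1 o _ hθa) (fun o => hb2 o _ hθa) hf h1 h2 h3 h4
    have := mul_le_mul_of_nonneg_right hμη (nsq_nonneg u)
    have := mul_nonneg hμ0.le (nsq_nonneg u)
    linarith
  choose s1 s1' hl1 hl2 hss hs1 hs2 hsn using hsc ε0 hε hε1 hlog
  refine ⟨blk a P fun o => s1 o * sinc α' β' A B' (τ o) θ,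
    blk a P fun o => sincI α' β' A B' (τ o) θ * s1' o, ?_, fun g J hJ hg hgJ u hu hu' hw => ?_⟩
  · rw [blk_mul hP ha, ← blk_one (a := a) hP]
    congr 1
    funext o
    rw [Matrix.mul_assoc, ← Matrix.mul_assoc (sinc _ _ _ _ _ _), (sinc_sincI _ _ _ _ _ _).1,
      Matrix.one_mul, hss]
  obtain ⟨h1, h2, h3, h4, h6⟩ := hS u hu hu' hw
  rw [blk_ct hP ha, sub_mulVec, ← mulVec_mulVec _ _ X, ← mulVec_mulVec _ _ Xc]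
  simp only [conjTranspose_mul, (sinc_ct hAB' _ _ _ _).2]
  exact part2 hP ha hψ hτ hR hR1 he0.le hμ1 hμη hε.le hJ he
    (fun o => hb1 o _ hθa) (fun o => hb2 o _ hθa) (fun o => hb1 o _ hθb)
    (fun o => hb2 o _ hθb) hs1 (fun o => (hs2 o).ct (by linarith)) hf hsn hgJ
    (fun o => ((hl1 o).mul (sinc_loc _ _ _ _ _ _).1).comm hg fun z hz hz' => hz' hz)
    (fun o => ((hl2 o).ct.mul (sinc_loc _ _ _ _ _ _).1).comm hg fun z hz hz' => hz' hz)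
    h1 h2 h3 h4 h6

theorem prodm {O' : Type} [Fintype O'] {P' : O' → RM Λ Q N} {τ : O' → (Λ → Q) → ℂ}
    {G G' : Finset (Fin N)} {e : ℝ} (hGG : Disjoint G G') (hP : Meas G P) (hP' : Meas G' P')
    (hψ : ∀ o, nsq (ψ o) = 1) (hτ : ∀ o, nsq (τ o) = 1)
    (hap : ∀ Y : Finset Λ, Ap {u | Sy G u} ((G.card : ℂ)⁻¹ • xx Q Y a G)
      (blk a P fun o => mg Y (ψ o)) e)
    (hap' : ∀ Y : Finset Λ, Ap {u | Sy G' u} ((G'.card : ℂ)⁻¹ • xx Q Y a G')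
      (blk a P' fun o => mg Y (τ o)) e) :
    ∃ (PP : O × O' → RM Λ Q N) (ψ2 τ2 : O × O' → (Λ → Q) → ℂ), Meas (G ∪ G') PP ∧
      (∀ o, nsq (ψ2 o) = 1) ∧ (∀ o, nsq (τ2 o) = 1) ∧
      (∀ Y : Finset Λ, Ap {u | Sy G u ∧ Sy G' u} ((G.card : ℂ)⁻¹ • xx Q Y a G)
        (blk a PP fun o => mg Y (ψ2 o)) e) ∧
      ∀ Y : Finset Λ, Ap {u | Sy G' u ∧ Sy G u} ((G'.card : ℂ)⁻¹ • xx Q Y a G')
        (blk a PP fun o => mg Y (τ2 o)) e := by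
  refine ⟨fun o => P o.1 * P' o.2, fun o => ψ o.1, fun o => τ o.2, hP.prod hP' hGG,
    fun o => hψ o.1, fun o => hτ o.2, fun Y => ?_, fun Y => ?_⟩
  · rw [blk_fst hP' fun o => mg Y (ψ o)]
    exact (hap Y).sub fun u hu => hu.1
  · rw [blk_snd hP hP' hGG fun o => mg Y (τ o)]
    exact (hap' Y).sub fun u hu => hu.1

end KeyBA

open KeyBA in
theorem key0 (Λ Q : Type) [Fintype Λ] [DecidableEq Λ] [Fintype Q] [DecidableEq Q] [Nonempty Q]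
    (θ η : ℝ) (hθ : 0 < θ) (hθ1 : θ ≤ 1 / 8) (hη : 0 < η) :
    ∀ᶠ δ in nhdsWithin (0 : ℝ) (Set.Ioi 0), ∀ᶠ N : ℕ in atTop,
      ∀ (A B B' : Finset Λ) (G G' : Finset (Fin N)) (a : Fin N), Disjoint A B → B' ⊆ B →
      Disjoint G G' → a ∉ G → a ∉ G' → ns δ N ≤ G.card + 1 → ns δ N ≤ G'.card →
      (∀ u, Sy (insert a G) u → Sy G' u →
        Sy (insert a G') ((inc Q θ (t0 δ N) (A, B') a G' * incI Q θ (t0 δ N) (A, B) a G) *ᵥ u) →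
        nsq ((inc Q θ (t0 δ N) (A, B') a G' * incI Q θ (t0 δ N) (A, B) a G) *ᵥ u) ≤
          (1 + η) * nsq u) ∧
      ∀ ε0 : ℝ, 0 < ε0 → ε0 ≤ 1 →
        4 * θ * Real.log ((3 * (Fintype.card Q : ℝ) ^ (B \ B').card + 2) / ε0) ≤ 1 →
        ∃ s s' : RM Λ Q N, s * s' = 1 ∧ ∀ (g : Matrix (Λ → Q) (Λ → Q) ℂ) (J : ℝ), 0 ≤ J →
          Loc (fun z => z ∉ A ∪ B') g → Le (gᴴ * g) J 1 → ∀ u, Sy (insert a G) u → Sy G' u →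
          Sy (insert a G') ((inc Q θ (t0 δ N) (A, B') a G' * incI Q θ (t0 δ N) (A, B) a G) *ᵥ u) →
          nsq ((s * one a g * incI Q θ (t0 δ N) (A, B) a G -
              s'ᴴ * one a g * (inc Q θ (t0 δ N) (A, B) a G)ᴴ) *ᵥ u) ≤
            1000 * J * (nsq u - nsq ((inc Q θ (t0 δ N) (A, B') a G' *
              incI Q θ (t0 δ N) (A, B) a G) *ᵥ u) + (ε0 + η) * nsq u) := by
  have hμ0 : 0 < min η 1 := lt_min hη one_pos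
  have hμ1 : min η 1 ≤ 1 := min_le_right _ _
  have hμη : min η 1 ≤ η := min_le_left _ _
  generalize min η 1 = μ at hμ0 hμ1 hμη
  filter_upwards [par_ev (DD Λ Q) (μ / 2) (by linarith), self_mem_nhdsWithin] with δ hpar hδ
  have hδ : 0 < δ := hδ
  obtain ⟨R1, hR1, hsc⟩ := sc Λ Q δ (μ / 2) hδ (by linarith) (by linarith)
  obtain ⟨R, hR, hbd⟩ := sinc_bd (Λ := Λ) (Q := Q) δ hδ
  have hRR : 0 < 200 * R1 * R ^ 2 := by positivity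
  obtain ⟨e, he0, he⟩ : ∃ e : ℝ, 0 < e ∧ 200 * R1 * R ^ 2 * e ≤ μ :=
    ⟨μ / (200 * R1 * R ^ 2), by positivity, by rw [mul_div_cancel₀ _ hRR.ne']⟩
  obtain ⟨e', R2, he'0, -, htr⟩ := trans Λ Q δ θ e hδ hθ.le (by linarith) he0
  obtain ⟨n0, hmf⟩ := mf Λ Q (min e e') (lt_min he0 he'0)
  filter_upwards [hpar, ns_large δ hδ (n0 + 1)] with N ⟨ht, hp⟩ hn
  intro A B B' G G' a hAB hB hGG ha ha' hG hG'
  have hcard : ∀ K : Finset (Fin N), a ∉ K → K.card + 1 ≤ N := fun K hK => by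
    have := Finset.card_le_univ (insert a K)
    rwa [Finset.card_insert_of_notMem hK, Fintype.card_fin] at this
  have hp1 := hp G.card hG (hcard G ha)
  have hp2 := hp G'.card (by omega) (hcard G' ha')
  have hG0 : 0 < G.card := by omega
  have hG0' : 0 < G'.card := by omega
  have hμ2 : μ / 2 ≤ 1 := by linarith
  obtain ⟨P, ψ, hP, hψ, hap⟩ := hmf N G (by omega)
  obtain ⟨P', τ, hP', hτ, hap'⟩ := hmf N G' (by omega)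
  have haH : a ∉ G ∪ G' := by simp [ha, ha']
  obtain ⟨PP, ψ2, τ2, hPP, hψ2, hτ2, hA1, hA2⟩ := prodm hGG hP hP' hψ hτ (hap a ha) (hap' a ha')
  have T1 := htr N (t0 δ N) _ PP ψ2 G G' (G ∪ G') a A B (μ / 2) hμ2 ht hp1 hG0 hPP haH ha ha' hGG
    hψ2 fun Y => (hA1 Y).mono (min_le_right _ _)
  have T2 := htr N (t0 δ N) _ PP τ2 G' G (G ∪ G') a A B' (μ / 2) hμ2 ht hp2 hG0' hPP haH ha' ha
    hGG.symm hτ2 fun Y => (hA2 Y).mono (min_le_right _ _)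
  exact mid hPP haH hψ2 hτ2 hδ hθ hθ1 hμ0 hμ1 hμη hR hR1 he0 he hp1 hp2
    hAB hB (fun o z hz => (hbd (μ / 2) _ _ A B (ψ2 o) z hμ2 hp1 (hψ2 o) hz).2)
    (fun o z hz => (hbd (μ / 2) _ _ A B' (τ2 o) z hμ2 hp2 (hτ2 o) hz).1)
    (fun ε0 hε hε1 hlog o => hsc θ ε0 _ _ _ _ A B B' (ψ2 o) (τ2 o) hθ hθ1 hε hε1 hlog hp1 hp2
      hAB hB (hψ2 o) (hτ2 o)) hG0 hG0' ((hA1 _).mono (min_le_left _ _))
    ((hA2 _).mono (min_le_left _ _)) T1.2.1.2 T2.2.1.1 T1.2.2.2.1 T1.2.2.2.2 T2.2.2.1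

end Vale.Agent.P356G
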