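import Vale.Agent.P356G.MFb

/- Tomography. With `X = xx univ a G / |G|`: `X ≈ blk ρ` (`mf_raw`, `RY_univ`), `X X ≈ blk (ρ ρ)`
(`Ap.mul`, `xx_comm`, `xx_bd`), `X X ≈ X` (`xx_sq`), so `blk (ρ ρ - ρ)` is small on `Sy G`. Apply this to
the vectors `one a (single s s' 1) u` (again in `Sy G`, `one_comm_fix`) and sum with `nsq_blk`,
`nsq_units`: `∑ o, hs (ρ ρ - ρ) * nsq (P o u)` is small. `near_pure` gives `ψ o`; conclude with `RY_bd`,
`RY_rank`, `nsq_blk`, `one_bd`. -/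

namespace Vale.Agent.P356G

open Matrix Vale.Agent.P356

namespace MFA

variable {Λ Q : Type} [Fintype Λ] [DecidableEq Λ] [Fintype Q] [DecidableEq Q] [Nonempty Q] {N : ℕ}

/-- Hilbert-Schmidt norm squared -/
noncomputable def hs {n : Type} [Fintype n] (F : Matrix n n ℂ) : ℝ := ∑ i, ∑ j, ‖F i j‖ ^ 2

theorem hs_nonneg {n : Type} [Fintype n] (F : Matrix n n ℂ) : 0 ≤ hs F :=
  Finset.sum_nonneg fun _ _ => Finset.sum_nonneg fun _ _ => by positivity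

theorem avg_bd (Y : Finset Λ) (a : Fin N) {G : Finset (Fin N)} (h0 : 0 < G.card) :
    Bd ((G.card : ℂ)⁻¹ • xx Q Y a G) 1 := by
  have h := (xx_bd (Q := Q) Y a G).smul (G.card : ℂ)⁻¹
  refine h.mono (le_of_eq ?_)
  have : (G.card : ℝ) ≠ 0 := by exact_mod_cast h0.ne'
  rw [norm_inv, Complex.norm_natCast]
  exact inv_mul_cancel₀ this

theorem avg_inv {a : Fin N} {G : Finset (Fin N)} (ha : a ∉ G) :
    Inv {u | Sy G u} ((G.card : ℂ)⁻¹ • xx Q (Finset.univ : Finset Λ) a G) := by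
  intro y hy
  refine Sy.mulVec hy fun π hπ => ?_
  refine Commute.smul_right ?_ _
  exact xx_comm (Or.inl ⟨Finset.Subset.refl _, mem_SG.1 hπ a ha, SG_mem hπ⟩)

theorem one_sy {a : Fin N} {G : Finset (Fin N)} (ha : a ∉ G) (F : Matrix (Λ → Q) (Λ → Q) ℂ)
    {u : (Fin N → Λ → Q) → ℂ} (hu : Sy G u) : Sy G (one a F *ᵥ u) :=
  Sy.mulVec hu fun _ hπ => (one_comm_fix Finset.univ (mem_SG.1 hπ a ha) F).symm

theorem sq_small {O : Type} [Fintype O] {G : Finset (Fin N)} {P : O → RM Λ Q N} (hP : Meas G P)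
    {a : Fin N} (ha : a ∉ G) (h0 : 0 < G.card) {ρ : O → Matrix (Λ → Q) (Λ → Q) ℂ} {R ε : ℝ}
    (hR : 0 ≤ R) (hε : 0 ≤ ε) (hρ : ∀ o, Bd (ρ o) R) (hG : 2 / (G.card : ℝ) ≤ ε)
    (hap : Ap {u | Sy G u} ((G.card : ℂ)⁻¹ • xx Q Finset.univ a G) (blk a P ρ) ε) :
    ∀ u, Sy G u → nr (blk a P (fun o => ρ o * ρ o - ρ o) *ᵥ u) ≤ (2 * R + 4) * ε * nr u := by
  have hX : Bd ((G.card : ℂ)⁻¹ • xx Q (Finset.univ : Finset Λ) a G) (1 + R) :=
    (avg_bd _ a h0).mono (by linarith)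
  have hB : Bd (blk a P ρ) (1 + R) := (blk_bd hP ha hR hρ).mono (by linarith)
  have h1 := hap.mul hap (avg_inv ha) hX hB hε (by linarith)
  have h2 := (xx_sq (Λ := Λ) (Q := Q) ha h0).mono hG
  have h3 := (h1.symm.trans h2).trans hap
  intro u hu
  have h4 := h3 u hu
  rw [blk_mul hP ha, ← blk_sub] at h4
  refine h4.trans (le_of_eq ?_)
  ring

theorem hs_small {O : Type} [Fintype O] {G : Finset (Fin N)} {P : O → RM Λ Q N} (hP : Meas G P)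
    {a : Fin N} (ha : a ∉ G) {F : O → Matrix (Λ → Q) (Λ → Q) ℂ} {δ : ℝ} (hδ : 0 ≤ δ)
    (h : ∀ u, Sy G u → nr (blk a P F *ᵥ u) ≤ δ * nr u) {u : (Fin N → Λ → Q) → ℂ} (hu : Sy G u) :
    ∑ o, hs (F o) * nsq (P o *ᵥ u) ≤ δ ^ 2 * hs (1 : Matrix (Λ → Q) (Λ → Q) ℂ) * nsq u := by
  have e1 : ∀ o, hs (F o) * nsq (P o *ᵥ u) = ∑ s, ∑ s',
      nsq (one a (F o) *ᵥ (P o *ᵥ (one a (single s s' 1) *ᵥ u))) := by
    intro o
    rw [hs, ← nsq_units (a := a)]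
    refine Finset.sum_congr rfl fun s _ => Finset.sum_congr rfl fun s' _ => ?_
    rw [one_mul', mulVec_mulVec, mulVec_mulVec, mulVec_mulVec, Matrix.mul_assoc, Matrix.mul_assoc,
      (hP.comm ha (single s s' 1) o).eq]
  simp only [e1]
  rw [Finset.sum_comm]
  have e2 : δ ^ 2 * hs (1 : Matrix (Λ → Q) (Λ → Q) ℂ) * nsq u =
      ∑ s, ∑ s', δ ^ 2 * nsq (one a (single s s' 1) *ᵥ u) := by
    rw [mul_assoc, hs, ← nsq_units (a := a), Finset.mul_sum]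
    refine Finset.sum_congr rfl fun s _ => ?_
    rw [Finset.mul_sum]
    refine Finset.sum_congr rfl fun s' _ => ?_
    rw [Matrix.one_mul]
  rw [e2]
  refine Finset.sum_le_sum fun s _ => ?_
  rw [Finset.sum_comm]
  refine Finset.sum_le_sum fun s' _ => ?_
  rw [← nsq_blk hP ha]
  exact (nr_le_iff _ _ hδ).1 (h _ (one_sy ha _ hu))

theorem blk_small {O : Type} [Fintype O] {G : Finset (Fin N)} {P : O → RM Λ Q N} (hP : Meas G P)
    {a : Fin N} (ha : a ∉ G) {F : O → Matrix (Λ → Q) (Λ → Q) ℂ} {r : O → ℝ} (hr : ∀ o, 0 ≤ r o)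
    (hF : ∀ o, Bd (F o) (r o)) (u : (Fin N → Λ → Q) → ℂ) :
    nsq (blk a P F *ᵥ u) ≤ ∑ o, r o ^ 2 * nsq (P o *ᵥ u) := by
  rw [nsq_blk hP ha]
  exact Finset.sum_le_sum fun o _ => (one_bd a (hr o) (hF o)).nsq _

end MFA

theorem mf (Λ Q : Type) [Fintype Λ] [DecidableEq Λ] [Fintype Q] [DecidableEq Q] [Nonempty Q]
    (η : ℝ) (hη : 0 < η) : ∃ n0 : ℕ, ∀ (N : ℕ) (G : Finset (Fin N)), n0 ≤ G.card →
      ∃ (P : (Fin N → Bool) → RM Λ Q N) (ψ : (Fin N → Bool) → (Λ → Q) → ℂ),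
        Meas G P ∧ (∀ o, nsq (ψ o) = 1) ∧ ∀ a, a ∉ G → ∀ Y : Finset Λ,
          Ap {u | Sy G u} ((G.card : ℂ)⁻¹ • xx Q Y a G) (blk a P fun o => mg Y (ψ o)) η := by
  obtain ⟨R, hR, hraw⟩ := mf_raw Λ Q
  obtain ⟨C1, hC1, hRY⟩ := RY_bd (Λ := Λ) (Q := Q)
  obtain ⟨C2, hC2, hnp⟩ := near_pure (Λ → Q) R
  have hK := MFA.hs_nonneg (1 : Matrix (Λ → Q) (Λ → Q) ℂ)
  generalize hKd : MFA.hs (1 : Matrix (Λ → Q) (Λ → Q) ℂ) = K at hK
  obtain ⟨M, hM⟩ : ∃ M : ℝ, M = C1 ^ 2 * C2 * ((2 * R + 4) ^ 2 * K + 1) := ⟨_, rfl⟩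
  have hM0 : 0 ≤ M := by rw [hM]; positivity
  obtain ⟨ε, hε0, hε1, hε2, hε3⟩ : ∃ ε : ℝ, 0 < ε ∧ ε ≤ 1 ∧ ε ≤ η / 2 ∧ M * ε ≤ (η / 2) ^ 2 := by
    refine ⟨min (min 1 (η / 2)) ((η / 2) ^ 2 / (M + 1)), by positivity,
      (min_le_left _ _).trans (min_le_left _ _), (min_le_left _ _).trans (min_le_right _ _), ?_⟩
    have h1 : min (min 1 (η / 2)) ((η / 2) ^ 2 / (M + 1)) ≤ (η / 2) ^ 2 / (M + 1) :=
      min_le_right _ _
    have h2 : M * ((η / 2) ^ 2 / (M + 1)) ≤ (η / 2) ^ 2 := by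
      rw [← mul_div_assoc, div_le_iff₀ (by positivity)]
      nlinarith [sq_nonneg (η / 2)]
    exact (mul_le_mul_of_nonneg_left h1 hM0).trans h2
  obtain ⟨n0, hn0⟩ := hraw ε hε0
  refine ⟨max n0 (⌈2 / ε⌉₊ + 1), fun N G hG => ?_⟩
  obtain ⟨P, ρ, hP, hρ, htr, hap⟩ := hn0 N G ((le_max_left _ _).trans hG)
  have hG' : ⌈2 / ε⌉₊ + 1 ≤ G.card := (le_max_right _ _).trans hG
  have h0 : 0 < G.card := by omega
  have hG2 : 2 / (G.card : ℝ) ≤ ε := by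
    have h1 : (2 / ε : ℝ) ≤ G.card :=
      (Nat.le_ceil _).trans (by exact_mod_cast (by omega : ⌈2 / ε⌉₊ ≤ G.card))
    have h2 : (0 : ℝ) < G.card := by exact_mod_cast h0
    rw [div_le_iff₀ hε0] at h1
    rw [div_le_iff₀ h2]
    linarith
  choose ψ hψ1 hψ2 using fun o => hnp (ρ o) (hρ o).1 (hρ o).2
  refine ⟨P, ψ, hP, hψ1, fun a ha Y u hu => ?_⟩
  have hu' : Sy G u := hu
  have hU := hap a ha Finset.univ
  simp only [RY_univ] at hU
  have h1 := MFA.sq_small hP ha h0 hR hε0.le (fun o => (hρ o).2) hG2 hU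
  have h2 := MFA.hs_small hP ha (by positivity) h1 hu'
  rw [hKd] at h2
  have h3 := htr u hu'
  have h4 := MFA.blk_small hP ha (F := fun o => RY Y (ρ o - vecMulVec (ψ o) (star (ψ o))))
    (fun o => mul_nonneg hC1 (Real.sqrt_nonneg _)) (fun o => hRY Y _) u
  have h5 : nsq (blk a P (fun o => RY Y (ρ o - vecMulVec (ψ o) (star (ψ o)))) *ᵥ u) ≤
      (η / 2) ^ 2 * nsq u := by
    refine h4.trans ?_
    have hn := nsq_nonneg u
    calc _ ≤ ∑ o, C1 ^ 2 * C2 * (MFA.hs (ρ o * ρ o - ρ o) * nsq (P o *ᵥ u) +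
            ‖trace (ρ o) - 1‖ ^ 2 * nsq (P o *ᵥ u)) := by
          refine Finset.sum_le_sum fun o _ => ?_
          rw [mul_pow, Real.sq_sqrt (by positivity)]
          have := mul_le_mul_of_nonneg_right (mul_le_mul_of_nonneg_left (hψ2 o) (sq_nonneg C1))
            (nsq_nonneg (P o *ᵥ u))
          refine this.trans (le_of_eq ?_)
          rw [MFA.hs]
          ring
      _ = C1 ^ 2 * C2 * (∑ o, MFA.hs (ρ o * ρ o - ρ o) * nsq (P o *ᵥ u) +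
            ∑ o, ‖trace (ρ o) - 1‖ ^ 2 * nsq (P o *ᵥ u)) := by
          rw [← Finset.mul_sum, Finset.sum_add_distrib]
      _ ≤ C1 ^ 2 * C2 * (((2 * R + 4) ^ 2 * K + 1) * ε * nsq u) := by
          refine mul_le_mul_of_nonneg_left ?_ (by positivity)
          have h6 : ((2 * R + 4) * ε) ^ 2 * K * nsq u ≤ (2 * R + 4) ^ 2 * K * ε * nsq u := by
            refine mul_le_mul_of_nonneg_right ?_ hn
            have h7 : ε ^ 2 ≤ ε := by nlinarith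
            have := mul_le_mul_of_nonneg_left h7 (by positivity : 0 ≤ (2 * R + 4) ^ 2 * K)
            refine le_trans (le_of_eq ?_) this
            ring
          nlinarith
      _ = M * ε * nsq u := by rw [hM]; ring
      _ ≤ _ := mul_le_mul_of_nonneg_right hε3 hn
  have h6 := (nr_le_iff _ _ (by positivity : 0 ≤ η / 2)).2 h5
  have h7 := hap a ha Y u hu
  have e : ((G.card : ℂ)⁻¹ • xx Q Y a G - blk a P fun o => mg Y (ψ o)) *ᵥ u =
      ((G.card : ℂ)⁻¹ • xx Q Y a G - blk a P fun o => RY Y (ρ o)) *ᵥ u +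
        blk a P (fun o => RY Y (ρ o - vecMulVec (ψ o) (star (ψ o)))) *ᵥ u := by
    simp only [RY_sub, RY_rank]
    rw [blk_sub, ← add_mulVec]
    congr 1
    abel
  rw [e]
  refine (nr_add _ _).trans ?_
  have hn := nr_nonneg u
  nlinarith

end Vale.Agent.P356G
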