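import Vale.Agent.P356G.MFa0

/- Ingredients of tomography.
`proj_basis`: polarisation `|x><y| = (1/4) ∑ ω, ω |x + ω y><x + ω y|` over the fourth roots of unity
(for `x ≠ y` the projector is half of `|x + ω y><x + ω y|`; for `x = y` use `|x><x|`); symmetrise the
coefficients by `(cf x y k + star (cf y x k)) / 2`.
`sample`: `T i j = <u, p_i p_j u>` is invariant under `SG G` (`one_conj`), so it equals `α` on the
diagonal and `β` off the diagonal, `|α|, |β| ≤ nsq u`; with weights `w` of sum zero,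
`∑ w i w j T i j = (α - β) ∑ w i ^ 2` and `∑ w i ^ 2 = 1 / |H| - 1 / |G|`.
`measure`: choose disjoint `H k ⊆ G` of size `m` (an injection `K × Fin m ↪ G`), label `κ j`,
`P o = tensF (E j (o j))` with `E j true = p k`, `E j false = 1 - p k` on `H k`, and `E j true = 0`,
`E j false = 1` elsewhere; `∑ o, tensF (E j (o j)) = tensF (∑ b, E j b)` by `Finset.prod_univ_sum`.
`near_pure`: eigenvalues `l i`, `dist (l i) {0, 1} ≤ 2 |l i ^ 2 - l i|`; if the right side is small exactly
one eigenvalue is near `1`, take its eigenvector; otherwise use the crude bound. -/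

namespace Vale.Agent.P356G

open Matrix Vale.Agent.P356

variable {Λ Q : Type} [Fintype Λ] [DecidableEq Λ] [Fintype Q] [DecidableEq Q] [Nonempty Q] {N : ℕ}

namespace MFaA

omit [Nonempty Q] in
theorem dot_pm (π : Equiv.Perm (Fin N)) (v w : (Fin N → Λ → Q) → ℂ) :
    star (pm Q Finset.univ π *ᵥ v) ⬝ᵥ (pm Q Finset.univ π *ᵥ w) = star v ⬝ᵥ w := by
  rw [star_mulVec, ← dotProduct_mulVec, mulVec_mulVec, pm_ct, ← pm_mul, inv_mul_cancel, pm_one,
    one_mulVec]

omit [Nonempty Q] in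
theorem swap_SG {G : Finset (Fin N)} {i j : Fin N} (hi : i ∈ G) (hj : j ∈ G) :
    Equiv.swap i j ∈ SG G :=
  mem_SG.2 fun k hk => Equiv.swap_apply_of_ne_of_ne (fun h => hk (h ▸ hi)) (fun h => hk (h ▸ hj))

theorem two {G : Finset (Fin N)} (T : Fin N → Fin N → ℝ) (r : ℝ) (hr : 0 ≤ r)
    (hT : ∀ π ∈ SG G, ∀ i j, T (π i) (π j) = T i j) (hb : ∀ i j, |T i j| ≤ r) :
    ∃ α β : ℝ, |α| ≤ r ∧ |β| ≤ r ∧ ∀ i ∈ G, ∀ j ∈ G, T i j = β + if i = j then α - β else 0 := by
  have hA : ∀ i ∈ G, ∀ i' ∈ G, T i i = T i' i' := fun i hi i' hi' => by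
    have := hT _ (swap_SG hi hi') i i
    rw [Equiv.swap_apply_left] at this
    exact this.symm
  have hB : ∀ i ∈ G, ∀ j ∈ G, ∀ i' ∈ G, ∀ j' ∈ G, i ≠ j → i' ≠ j' → T i j = T i' j' := by
    intro i hi j hj i' hi' j' hj' h h'
    have h1 := hT _ (swap_SG hi hi') i j
    have hk : Equiv.swap i i' j ∈ G := (SG_mem (swap_SG hi hi') j).2 hj
    have hk' : i' ≠ Equiv.swap i i' j := fun e => h <| (Equiv.swap i i').injective <| by
      rw [Equiv.swap_apply_left]; exact e
    rw [Equiv.swap_apply_left] at h1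
    have h2 := hT _ (swap_SG hk hj') i' (Equiv.swap i i' j)
    rw [Equiv.swap_apply_left, Equiv.swap_apply_of_ne_of_ne hk' h'] at h2
    rw [← h1, ← h2]
  have e1 : ∃ α : ℝ, |α| ≤ r ∧ ∀ i ∈ G, T i i = α := by
    by_cases h : ∃ i, i ∈ G
    · obtain ⟨i, hi⟩ := h
      exact ⟨T i i, hb i i, fun j hj => hA j hj i hi⟩
    · exact ⟨0, by simpa using hr, fun j hj => absurd ⟨j, hj⟩ h⟩
  have e2 : ∃ β : ℝ, |β| ≤ r ∧ ∀ i ∈ G, ∀ j ∈ G, i ≠ j → T i j = β := by
    by_cases h : ∃ i ∈ G, ∃ j ∈ G, i ≠ j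
    · obtain ⟨i, hi, j, hj, h⟩ := h
      exact ⟨T i j, hb i j, fun i' hi' j' hj' h' => hB i' hi' j' hj' i hi j hj h' h⟩
    · exact ⟨0, by simpa using hr, fun i hi j hj h' => absurd ⟨i, hi, j, hj, h'⟩ h⟩
  obtain ⟨α, a1, a2⟩ := e1
  obtain ⟨β, b1, b2⟩ := e2
  refine ⟨α, β, a1, b1, fun i hi j hj => ?_⟩
  split_ifs with h
  · subst h; rw [a2 i hi]; ring
  · rw [b2 i hi j hj h, add_zero]

omit [Nonempty Q] in
theorem tens_zero (E : Fin N → Matrix (Λ → Q) (Λ → Q) ℂ) (j : Fin N) (h : E j = 0) :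
    tensF E = 0 := by
  ext x y
  exact Finset.prod_eq_zero (Finset.mem_univ j) (by rw [h]; rfl)

end MFaA

open MFaA

theorem sample {p : Matrix (Λ → Q) (Λ → Q) ℂ} (hp : Prj p) {G H : Finset (Fin N)} (hH : H ⊆ G)
    (h0 : 0 < H.card) {u : (Fin N → Λ → Q) → ℂ} (hu : Sy G u) :
    nsq ((((G.card : ℂ)⁻¹ • ∑ j ∈ G, one j p) - ((H.card : ℂ)⁻¹ • ∑ j ∈ H, one j p)) *ᵥ u) ≤
      2 / H.card * nsq u := by
  classical
  set v : Fin N → (Fin N → Λ → Q) → ℂ := fun j => one j p *ᵥ u with hv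
  have hg : 0 < G.card := lt_of_lt_of_le h0 (Finset.card_le_card hH)
  have hg' : (0 : ℝ) < G.card := by exact_mod_cast hg
  have h0' : (0 : ℝ) < H.card := by exact_mod_cast h0
  have hn : ∀ j, nr (v j) ≤ nr u := fun j => by
    simpa using one_bd j zero_le_one hp.bd u
  obtain ⟨α, β, a1, b1, hT⟩ := two (G := G) (fun i j => (star (v i) ⬝ᵥ v j).re) (nsq u)
    (nsq_nonneg u) (fun π hπ i j => by
      have e : ∀ k, v (π k) = pm Q Finset.univ π *ᵥ v k := fun k => by
        simp only [hv]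
        rw [mulVec_mulVec, one_conj, ← mulVec_mulVec, hu π hπ]
      simp only [e, dot_pm]) (fun i j => by
      refine (Complex.abs_re_le_norm _).trans ((dot_le _ _).trans ?_)
      rw [← nr_sq, sq]
      exact mul_le_mul (hn i) (hn j) (nr_nonneg _) (nr_nonneg _))
  set w : Fin N → ℝ := fun j => (G.card : ℝ)⁻¹ - if j ∈ H then (H.card : ℝ)⁻¹ else 0 with hw
  have hi : ∀ c : ℝ, ∑ j ∈ G, (if j ∈ H then c else 0) = H.card * c := fun c => by
    rw [← Finset.sum_filter, Finset.filter_mem_eq_inter, Finset.inter_eq_right.2 hH,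
      Finset.sum_const, nsmul_eq_mul]
  have w1 : ∑ j ∈ G, w j = 0 := by
    simp only [hw, Finset.sum_sub_distrib, hi, Finset.sum_const, nsmul_eq_mul]
    field_simp
    ring
  have w2 : ∑ j ∈ G, w j * w j = (H.card : ℝ)⁻¹ - (G.card : ℝ)⁻¹ := by
    have : ∀ j, w j * w j = (G.card : ℝ)⁻¹ ^ 2 + if j ∈ H then
        (H.card : ℝ)⁻¹ ^ 2 - 2 * (G.card : ℝ)⁻¹ * (H.card : ℝ)⁻¹ else 0 := fun j => by
      simp only [hw]
      split_ifs <;> ring
    simp only [this, Finset.sum_add_distrib, hi, Finset.sum_const, nsmul_eq_mul]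
    field_simp
    ring
  have e : (((G.card : ℂ)⁻¹ • ∑ j ∈ G, one j p) - ((H.card : ℂ)⁻¹ • ∑ j ∈ H, one j p)) *ᵥ u =
      ∑ j ∈ G, (w j : ℂ) • v j := by
    have : ∀ j, (w j : ℂ) • v j = (G.card : ℂ)⁻¹ • v j -
        if j ∈ H then (H.card : ℂ)⁻¹ • v j else 0 := fun j => by
      simp only [hw]
      split_ifs <;> simp [sub_smul]
    simp only [this, Finset.sum_sub_distrib]
    rw [← Finset.sum_filter, Finset.filter_mem_eq_inter, Finset.inter_eq_right.2 hH, sub_mulVec,
      smul_mulVec, smul_mulVec, sum_mulVec, sum_mulVec, Finset.smul_sum, Finset.smul_sum]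
  rw [e, ← Vec0A.nsq_re, star_sum, sum_dotProduct, Complex.re_sum]
  have e2 : ∀ i ∈ G, (star ((w i : ℂ) • v i) ⬝ᵥ ∑ j ∈ G, (w j : ℂ) • v j).re =
      (α - β) * (w i * w i) := fun i hi => by
    rw [dotProduct_sum, Complex.re_sum]
    have : ∀ j ∈ G, (star ((w i : ℂ) • v i) ⬝ᵥ (w j : ℂ) • v j).re =
        w i * β * w j + if i = j then (α - β) * (w i * w i) else 0 := fun j hj => by
      have h := hT i hi j hj
      rw [star_smul, smul_dotProduct, dotProduct_smul, smul_eq_mul, smul_eq_mul, Complex.star_def,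
        Complex.conj_ofReal, Complex.re_ofReal_mul, Complex.re_ofReal_mul, h]
      split_ifs with h'
      · subst h'; ring
      · ring
    rw [Finset.sum_congr rfl this, Finset.sum_add_distrib, ← Finset.mul_sum, w1, Finset.sum_ite_eq,
      if_pos hi]
    ring
  rw [Finset.sum_congr rfl e2, ← Finset.mul_sum, w2]
  have c1 : α - β ≤ 2 * nsq u := by
    have := (abs_le.1 a1).2
    have := (abs_le.1 b1).1
    linarith
  have c2 : (G.card : ℝ)⁻¹ ≤ (H.card : ℝ)⁻¹ :=
    inv_anti₀ h0' (by exact_mod_cast Finset.card_le_card hH)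
  have c3 : 0 < (G.card : ℝ)⁻¹ := inv_pos.2 hg'
  have c4 := nsq_nonneg u
  rw [div_eq_mul_inv]
  nlinarith [mul_le_mul_of_nonneg_right c1 (sub_nonneg.2 c2)]

theorem measure {K : Type} [Fintype K] [DecidableEq K] (p : K → Matrix (Λ → Q) (Λ → Q) ℂ)
    (hp : ∀ k, Prj (p k)) (G : Finset (Fin N)) (m : ℕ) (hm : Fintype.card K * m ≤ G.card) :
    ∃ (P : (Fin N → Bool) → RM Λ Q N) (H : K → Finset (Fin N)), Meas G P ∧
      (∀ k, H k ⊆ G ∧ (H k).card = m) ∧ ∀ k o, (∑ j ∈ H k, one j (p k)) * P o =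
        ((((H k).filter fun j => o j = true).card : ℕ) : ℂ) • P o := by
  classical
  obtain ⟨e⟩ : Nonempty (K × Fin m ↪ {x // x ∈ G}) :=
    Function.Embedding.nonempty_of_card_le (by simpa using hm)
  set H : K → Finset (Fin N) := fun k => Finset.univ.image fun i : Fin m => (e (k, i)).1 with hH
  have hsub : ∀ k, H k ⊆ G := fun k j hj => by
    obtain ⟨i, -, rfl⟩ := Finset.mem_image.1 hj
    exact (e (k, i)).2
  have hdis : ∀ k k' j, j ∈ H k → j ∈ H k' → k = k' := fun k k' j hj hj' => by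
    obtain ⟨i, -, rfl⟩ := Finset.mem_image.1 hj
    obtain ⟨i', -, h⟩ := Finset.mem_image.1 hj'
    exact (congrArg Prod.fst (e.injective (Subtype.ext h))).symm
  set q : Fin N → Matrix (Λ → Q) (Λ → Q) ℂ := fun j =>
    if h : ∃ k, j ∈ H k then p h.choose else 0 with hq
  have q1 : ∀ j, Prj (q j) := fun j => by
    simp only [hq]
    split_ifs
    · exact hp _
    · exact ⟨isHermitian_zero, mul_zero _⟩
  have q2 : ∀ k j, j ∈ H k → q j = p k := fun k j hj => by
    have h : ∃ k, j ∈ H k := ⟨k, hj⟩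
    simp only [hq]
    rw [dif_pos h, hdis _ _ j h.choose_spec hj]
  have q3 : ∀ j, j ∉ G → q j = 0 := fun j hj => by
    simp only [hq]
    rw [dif_neg fun ⟨k, hk⟩ => hj (hsub k hk)]
  set E : Fin N → Bool → Matrix (Λ → Q) (Λ → Q) ℂ := fun j b => if b then q j else 1 - q j with hE
  have E1 : ∀ j b, Prj (E j b) := fun j b => by
    cases b
    · exact (q1 j).compl
    · exact q1 j
  have E2 : ∀ j b b', b ≠ b' → E j b * E j b' = 0 := fun j b b' h => by
    cases b <;> cases b'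
    · exact absurd rfl h
    · show (1 - q j) * q j = 0
      rw [Matrix.sub_mul, Matrix.one_mul, (q1 j).2, sub_self]
    · show q j * (1 - q j) = 0
      rw [Matrix.mul_sub, Matrix.mul_one, (q1 j).2, sub_self]
    · exact absurd rfl h
  refine ⟨fun o => tensF fun j => E j (o j), H, ⟨fun o => ?_, fun o => ?_, fun o o' h => ?_, ?_,
    fun o => ?_⟩, fun k => ⟨hsub k, ?_⟩, fun k o => ?_⟩
  · unfold IsHermitian
    rw [tensF_ct]
    congr 1
    exact funext fun j => (E1 j _).1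
  · rw [tensF_mul]
    congr 1
    exact funext fun j => (E1 j _).2
  · obtain ⟨j, hj⟩ := Function.ne_iff.1 h
    rw [tensF_mul]
    exact tens_zero _ j (E2 j _ _ hj)
  · rw [← tensF_one]
    ext x y
    rw [Matrix.sum_apply]
    have := Finset.prod_univ_sum (fun _ : Fin N => (Finset.univ : Finset Bool))
      fun j b => E j b (x j) (y j)
    rw [Fintype.piFinset_univ] at this
    simp only [tensF]
    rw [← this]
    refine Finset.prod_congr rfl fun j _ => ?_
    simp [hE]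
  · by_cases h : ∃ j, j ∉ G ∧ o j = true
    · obtain ⟨j, hj, ho⟩ := h
      rw [tens_zero (fun j => E j (o j)) j (by simp only [hE, ho, if_true]; exact q3 j hj)]
      exact ⟨fun _ _ _ _ _ => rfl, fun _ _ _ _ _ _ _ _ => rfl⟩
    · refine tensF_loc _ G fun j hj => ?_
      have ho : o j = false := by
        by_contra h'
        exact h ⟨j, hj, by simpa using h'⟩
      simp [hE, ho, q3 j hj]
  · rw [Finset.card_image_of_injective _ fun i i' h =>
      congrArg Prod.snd (e.injective (Subtype.ext h))]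
    simp
  · have : ∀ j ∈ H k, one j (p k) * tensF (fun j => E j (o j)) =
        if o j = true then tensF (fun j => E j (o j)) else 0 := fun j hj => by
      rw [one_eq, tensF_mul, ← q2 k j hj]
      split_ifs with ho
      · congr 1
        funext i
        by_cases hi : i = j
        · subst hi
          simp only [Function.update_self, hE, ho, if_true]
          exact (q1 i).2
        · rw [Function.update_of_ne hi, Matrix.one_mul]
      · refine tens_zero _ j ?_
        simp only [Function.update_self]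
        exact E2 j true (o j) fun h => ho h.symm
    rw [Finset.sum_mul, Finset.sum_congr rfl this, ← Finset.sum_filter, Finset.sum_const,
      Nat.cast_smul_eq_nsmul]

theorem xx_sq {G : Finset (Fin N)} {a : Fin N} (ha : a ∉ G) (h0 : 0 < G.card) :
    Ap {u | Sy G u} (((G.card : ℂ)⁻¹ • xx Q Finset.univ a G) * ((G.card : ℂ)⁻¹ • xx Q Finset.univ a G))
      ((G.card : ℂ)⁻¹ • xx Q (Finset.univ : Finset Λ) a G) (2 / G.card) := by
  intro y hy
  have hg : (0 : ℝ) < G.card := by exact_mod_cast h0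
  have hg' : (G.card : ℂ) ≠ 0 := by exact_mod_cast h0.ne'
  have e1 : ∀ i ∈ G, ∀ j ∈ G, (pm Q Finset.univ (Equiv.swap a i) *
      pm Q Finset.univ (Equiv.swap a j)) *ᵥ y = pm Q Finset.univ (Equiv.swap a j) *ᵥ y +
        if i = j then y - pm Q Finset.univ (Equiv.swap a j) *ᵥ y else 0 := fun i hi j hj => by
    split_ifs with h
    · subst h
      rw [← pm_mul, Equiv.swap_mul_self, pm_one, one_mulVec]
      abel
    · have ai : a ≠ i := fun e => ha (e ▸ hi)
      have aj : a ≠ j := fun e => ha (e ▸ hj)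
      have : Equiv.swap a i * Equiv.swap a j = Equiv.swap a j * Equiv.swap j i := by
        rw [← Equiv.swap_mul_swap_mul_swap ai.symm h, Equiv.swap_comm i a, ← mul_assoc,
          ← mul_assoc, Equiv.swap_mul_self, one_mul]
      rw [← pm_mul, this, pm_mul, ← mulVec_mulVec, hy _ (swap_SG hj hi), add_zero]
  have e2 : (xx Q Finset.univ a G * xx Q Finset.univ a G) *ᵥ y =
      (G.card : ℂ) • (xx Q Finset.univ a G *ᵥ y) +
        ((G.card : ℂ) • y - xx Q (Finset.univ : Finset Λ) a G *ᵥ y) := by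
    unfold xx
    rw [Finset.sum_mul_sum, sum_mulVec, sum_mulVec]
    have : ∀ i ∈ G, (∑ j ∈ G, pm Q Finset.univ (Equiv.swap a i) *
        pm Q Finset.univ (Equiv.swap a j)) *ᵥ y =
        ∑ j ∈ G, pm Q Finset.univ (Equiv.swap a j) *ᵥ y +
          (y - pm Q Finset.univ (Equiv.swap a i) *ᵥ y) := fun i hi => by
      rw [sum_mulVec, Finset.sum_congr rfl (e1 i hi), Finset.sum_add_distrib, Finset.sum_ite_eq,
        if_pos hi]
    rw [Finset.sum_congr rfl this, Finset.sum_add_distrib, Finset.sum_sub_distrib, Finset.sum_const,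
      Finset.sum_const, Nat.cast_smul_eq_nsmul, Nat.cast_smul_eq_nsmul]
  have e3 : (((G.card : ℂ)⁻¹ • xx Q Finset.univ a G) * ((G.card : ℂ)⁻¹ • xx Q Finset.univ a G) -
      (G.card : ℂ)⁻¹ • xx Q (Finset.univ : Finset Λ) a G) *ᵥ y =
      ((G.card : ℂ)⁻¹ * (G.card : ℂ)⁻¹) •
        ((G.card : ℂ) • y - xx Q (Finset.univ : Finset Λ) a G *ᵥ y) := by
    rw [Matrix.smul_mul, Matrix.mul_smul, smul_smul, sub_mulVec, smul_mulVec, smul_mulVec, e2,
      smul_add, smul_smul, mul_assoc, inv_mul_cancel₀ hg', mul_one]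
    abel
  rw [e3, nr_smul]
  have b1 := nr_sub ((G.card : ℂ) • y) (xx Q (Finset.univ : Finset Λ) a G *ᵥ y)
  have b2 := xx_bd (Q := Q) (Finset.univ : Finset Λ) a G y
  rw [nr_smul, Complex.norm_natCast] at b1
  rw [norm_mul, norm_inv, Complex.norm_natCast]
  calc (G.card : ℝ)⁻¹ * (G.card : ℝ)⁻¹ * _
      ≤ (G.card : ℝ)⁻¹ * (G.card : ℝ)⁻¹ * (2 * G.card * nr y) :=
        mul_le_mul_of_nonneg_left (by linarith) (by positivity)
    _ = 2 / G.card * nr y := by field_simp

end Vale.Agent.P356G
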