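import Vale.Agent.P356G.Blk

/- Ingredients of tomography.
`proj_basis`: polarisation `|x><y| = (1/4) ∑ ω, ω |x + ω y><x + ω y|` over the fourth roots of unity
(for `x ≠ y` the projector is half of `|x + ω y><x + ω y|`; for `x = y` use `|x><x|`); symmetrise the
coefficients by `(cf x y k + star (cf y x k)) / 2`.
`sample`: `T i j = <u, p_i p_j u>` is invariant under `SG G` (`one_conj`), so it equals `α` on the
diagonal and `β` off the diagonal, `|α|, |β| ≤ nsq u`; with weights `w` of sum zero,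
`∑ w i w j T i j = (α - β) ∑ w i ^ 2` and `∑ w i ^ 2 = 1 / |H| - 1 / |G|`.
`measure`: choose disjoint `H k ⊆ G` of size `m` (an injection `K × Fin m ↪ G`), label `κ j`,
`P o = tensF (E j (o j))` with `E j true = p k`, `E j false = 1 - p k` on `H k`, and `E j true = 0`,
`E j false = 1` elsewhere; `∑ o, tensF (E j (o j)) = tensF (∑ b, E j b)` by `Finset.prod_univ_sum`.
`near_pure`: eigenvalues `l i`, `dist (l i) {0, 1} ≤ 2 |l i ^ 2 - l i|`; if the right side is small exactly
one eigenvalue is near `1`, take its eigenvector; otherwise use the crude bound. -/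

namespace Vale.Agent.P356G

open Matrix Vale.Agent.P356

namespace MFa0A

variable {n : Type} [Fintype n] [DecidableEq n]

/-- half of the rank one matrix of `a + w b` -/
noncomputable def hp (a b : n) (w : ℂ) : Matrix n n ℂ :=
  (1 / 2 : ℂ) • (single a a 1 + star w • single a b 1 + w • single b a 1 + single b b 1)

theorem hp_prj {a b : n} (hab : a ≠ b) {w : ℂ} (hw : star w * w = 1) : Prj (hp a b w) := by
  have hba : b ≠ a := hab.symm
  have hw' : w * star w = 1 := by rw [mul_comm]; exact hw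
  constructor
  · unfold IsHermitian hp
    simp only [conjTranspose_smul, conjTranspose_add, conjTranspose_single, star_one, star_star]
    have : star (1 / 2 : ℂ) = 1 / 2 := by simp
    rw [this]
    congr 1
    abel
  · unfold hp
    simp only [Matrix.smul_mul, Matrix.mul_smul, Matrix.add_mul, Matrix.mul_add,
      single_mul_single_same, single_mul_single_of_ne _ _ _ _ hab,
      single_mul_single_of_ne _ _ _ _ hba, mul_one, smul_zero, add_zero, zero_add, smul_add,
      smul_smul]
    have e1 : (1 / 2 : ℂ) * w * (1 / 2 * star w) = 1 / 2 * (1 / 2) := by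
      linear_combination (1 / 4 : ℂ) * hw'
    have e2 : (1 / 2 : ℂ) * star w * (1 / 2 * w) = 1 / 2 * (1 / 2) := by
      linear_combination (1 / 4 : ℂ) * hw'
    rw [e1, e2]
    module

theorem single_prj (a : n) : Prj (single a a (1 : ℂ)) := by
  constructor
  · unfold IsHermitian
    simp only [conjTranspose_single, star_one]
  · simp only [single_mul_single_same, mul_one]

omit [Fintype n] in
theorem hp_sum (a b : n) :
    ∑ j : Fin 4, (Complex.I ^ (j : ℕ) / 2) • hp a b (Complex.I ^ (j : ℕ)) = single a b 1 := by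
  have h2 : Complex.I ^ 2 = -1 := Complex.I_sq
  have h3 : Complex.I ^ 3 = -Complex.I := by rw [pow_succ, h2]; ring
  have hs : star Complex.I = -Complex.I := Complex.conj_I
  simp only [Fin.sum_univ_four, hp, Fin.val_zero, Fin.val_one, Fin.val_two, pow_zero, pow_one,
    show ((3 : Fin 4) : ℕ) = 3 from rfl, h2, h3, star_one, star_neg, hs, neg_neg]
  match_scalars
  · ring
  · linear_combination (-1 / 2 : ℂ) * h2
  · linear_combination (1 / 2 : ℂ) * h2
  · ring

omit [DecidableEq n] in
theorem hs_eq (M : Matrix n n ℂ) :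
    ((∑ i, ∑ j, ‖M i j‖ ^ 2 : ℝ) : ℂ) = trace (M * Mᴴ) := by
  simp only [trace, diag_apply, mul_apply, conjTranspose_apply, Complex.ofReal_sum]
  refine Finset.sum_congr rfl fun i _ => Finset.sum_congr rfl fun j _ => ?_
  rw [Complex.star_def, Complex.mul_conj, Complex.normSq_eq_norm_sq]

theorem hs_fr {V : Matrix n n ℂ} (hV : V * Vᴴ = 1) (f : n → ℝ) :
    ∑ i, ∑ j, ‖fr V f i j‖ ^ 2 = ∑ i, f i ^ 2 := by
  apply Complex.ofReal_injective
  rw [hs_eq, fr_ct, fr_mul hV]
  unfold fr
  rw [trace_fn hV]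
  push_cast
  exact Finset.sum_congr rfl fun i _ => by ring

theorem fr_sub (V : Matrix n n ℂ) (f g : n → ℝ) :
    fr V f - fr V g = fr V fun i => f i - g i := by
  unfold fr fn
  rw [← Matrix.sub_mul, ← Matrix.mul_sub, diagonal_sub]
  congr 3
  funext i
  push_cast
  rfl

theorem col_rank (V : Matrix n n ℂ) (a : n) :
    vecMulVec (fun s => V s a) (star fun s => V s a) = fr V fun i => if i = a then 1 else 0 := by
  ext s t
  unfold fr fn
  rw [mul_apply, vecMulVec_apply, Finset.sum_eq_single a]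
  · simp [mul_diagonal, conjTranspose_apply]
  · intro b _ hb
    simp [mul_diagonal, hb]
  · intro h
    exact absurd (Finset.mem_univ a) h

theorem col_nsq {V : Matrix n n ℂ} (hV : V * Vᴴ = 1) (a : n) : nsq (fun s => V s a) = 1 := by
  apply Complex.ofReal_injective
  rw [nsq_eq]
  have := congrFun (congrFun (uni_symm hV) a) a
  rw [mul_apply, one_apply_eq] at this
  simpa [dotProduct, conjTranspose_apply] using this

theorem near01 (x : ℝ) : ∃ k : ℕ, k ≤ 1 ∧ (x - k) ^ 2 ≤ 4 * (x * x - x) ^ 2 := by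
  by_cases h : x ≤ 1 / 2
  · refine ⟨0, by norm_num, ?_⟩
    have h1 : 1 ≤ 4 * (x - 1) ^ 2 := by nlinarith
    have : 4 * (x * x - x) ^ 2 = x ^ 2 * (4 * (x - 1) ^ 2) := by ring
    rw [this]
    have := mul_le_mul_of_nonneg_left h1 (sq_nonneg x)
    simpa using this
  · refine ⟨1, le_rfl, ?_⟩
    have h1 : 1 ≤ 4 * x ^ 2 := by nlinarith
    have : 4 * (x * x - x) ^ 2 = (x - 1) ^ 2 * (4 * x ^ 2) := by ring
    rw [this]
    have := mul_le_mul_of_nonneg_left h1 (sq_nonneg (x - 1))
    simpa using this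

theorem real_ineq [Nonempty n] (l : n → ℝ) : ∃ a : n,
    ∑ i, (l i - if i = a then 1 else 0) ^ 2 ≤
      (8 + 4 * (Fintype.card n : ℝ) + 16 * (Fintype.card n : ℝ) ^ 2) *
        (∑ i, (l i * l i - l i) ^ 2 + (∑ i, l i - 1) ^ 2) := by
  choose k hk1 hk using fun i => near01 (l i)
  set A := ∑ i, (l i * l i - l i) ^ 2 with hA
  set T := ∑ i, l i - 1 with hT
  set c : ℝ := (Fintype.card n : ℝ) with hc
  have hc0 : 0 ≤ c := Nat.cast_nonneg _
  have hA0 : 0 ≤ A := Finset.sum_nonneg fun _ _ => sq_nonneg _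
  have hE : ∑ i, (l i - k i) ^ 2 ≤ 4 * A := by
    rw [hA, Finset.mul_sum]
    exact Finset.sum_le_sum fun i _ => hk i
  by_cases h1 : ∑ i, k i = 1
  · obtain ⟨a, ha⟩ : ∃ a, k a ≠ 0 := by
      by_contra hne
      push Not at hne
      simp [hne] at h1
    have hka : k a = 1 := by have := hk1 a; omega
    have hrest : ∀ i, i ≠ a → k i = 0 := by
      intro i hi
      have := Finset.add_le_sum (f := k) (fun _ _ => Nat.zero_le _) (Finset.mem_univ i)
        (Finset.mem_univ a) hi
      omega
    refine ⟨a, ?_⟩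
    have e : ∑ i, (l i - if i = a then 1 else 0) ^ 2 = ∑ i, (l i - k i) ^ 2 := by
      refine Finset.sum_congr rfl fun i _ => ?_
      by_cases hi : i = a
      · simp [hi, hka]
      · simp [hi, hrest i hi]
    rw [e]
    have : 0 ≤ (4 + 4 * c + 16 * c ^ 2) * A + (8 + 4 * c + 16 * c ^ 2) * T ^ 2 := by positivity
    linarith
  · obtain ⟨a⟩ := ‹Nonempty n›
    refine ⟨a, ?_⟩
    have hK : 1 ≤ (((∑ i, k i : ℕ) : ℝ) - 1) ^ 2 := by
      rcases Nat.lt_or_gt_of_ne h1 with h | h
      · have : ∑ i, k i = 0 := by omega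
        rw [this]
        norm_num
      · have : (2 : ℝ) ≤ ((∑ i, k i : ℕ) : ℝ) := by exact_mod_cast h
        nlinarith
    have hS : (∑ i, (l i - k i)) ^ 2 ≤ c * ∑ i, (l i - k i) ^ 2 := by
      have := sq_sum_le_card_mul_sum_sq (s := (Finset.univ : Finset n)) (f := fun i => l i - k i)
      simpa [hc] using this
    have hTe : ((∑ i, k i : ℕ) : ℝ) - 1 = T - ∑ i, (l i - k i) := by
      rw [hT, Finset.sum_sub_distrib]
      push_cast
      ring
    have h2 : 1 ≤ 2 * T ^ 2 + 8 * c * A := by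
      rw [hTe] at hK
      have h3 : c * ∑ i, (l i - k i) ^ 2 ≤ c * (4 * A) := mul_le_mul_of_nonneg_left hE hc0
      nlinarith [sq_nonneg (T + ∑ i, (l i - k i))]
    have h4 : ∑ i, (l i - if i = a then 1 else 0) ^ 2 ≤ ∑ i, (2 * (l i - k i) ^ 2 + 2) := by
      refine Finset.sum_le_sum fun i _ => ?_
      have hk' : (k i : ℝ) = 0 ∨ (k i : ℝ) = 1 := by
        have := hk1 i
        rcases Nat.le_one_iff_eq_zero_or_eq_one.1 this with h | h <;> simp [h]
      by_cases hi : i = a
      · rw [if_pos hi]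
        rcases hk' with h | h <;> rw [h] <;> nlinarith [sq_nonneg (l i + 1), sq_nonneg (l i - 1)]
      · rw [if_neg hi]
        rcases hk' with h | h <;> rw [h] <;> nlinarith [sq_nonneg (l i), sq_nonneg (l i - 2)]
    rw [Finset.sum_add_distrib, ← Finset.mul_sum, Finset.sum_const, Finset.card_univ,
      nsmul_eq_mul, ← hc] at h4
    have h5 : c * 1 ≤ c * (2 * T ^ 2 + 8 * c * A) := mul_le_mul_of_nonneg_left h2 hc0
    have : 0 ≤ 4 * c * A + (8 + 16 * c ^ 2) * T ^ 2 := by positivity
    nlinarith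

end MFa0A

open MFa0A

theorem proj_basis (n : Type) [Fintype n] [DecidableEq n] :
    ∃ (p : n × n × Fin 4 → Matrix n n ℂ) (cf : n → n → n × n × Fin 4 → ℂ), (∀ k, Prj (p k)) ∧
      (∀ x y k, cf y x k = star (cf x y k)) ∧ ∀ x y, single x y 1 = ∑ k, cf x y k • p k := by
  let p : n × n × Fin 4 → Matrix n n ℂ := fun k =>
    if k.1 = k.2.1 then single k.1 k.1 1 else hp k.1 k.2.1 (Complex.I ^ (k.2.2 : ℕ))
  have hp' : ∀ k, Prj (p k) := by
    intro k
    by_cases h : k.1 = k.2.1
    · simp only [p, if_pos h]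
      exact single_prj _
    · simp only [p, if_neg h]
      refine hp_prj h ?_
      rw [star_pow, ← mul_pow, Complex.star_def, Complex.conj_I]
      simp
  have h0 : ∀ x y : n, ∃ c : n × n × Fin 4 → ℂ, single x y 1 = ∑ k, c k • p k := by
    intro x y
    by_cases h : x = y
    · subst h
      refine ⟨fun k => if k = (x, x, 0) then 1 else 0, ?_⟩
      rw [Finset.sum_eq_single (x, x, 0)]
      · simp [p]
      · intro b _ hb
        simp [hb]
      · intro h'
        exact absurd (Finset.mem_univ _) h'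
    · refine ⟨fun k => if k.1 = x then (if k.2.1 = y then Complex.I ^ (k.2.2 : ℕ) / 2 else 0)
        else 0, ?_⟩
      rw [Fintype.sum_prod_type, Finset.sum_eq_single x, Fintype.sum_prod_type,
        Finset.sum_eq_single y, ← hp_sum x y]
      · simp [p, h]
      · intro b _ hb
        simp [hb]
      · intro h'
        exact absurd (Finset.mem_univ _) h'
      · intro b _ hb
        simp [hb]
      · intro h'
        exact absurd (Finset.mem_univ _) h'
  choose c hc using h0
  refine ⟨p, fun x y k => (c x y k + star (c y x k)) / 2, hp', ?_, ?_⟩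
  · intro x y k
    simp only [star_div₀, star_add, star_star, star_ofNat]
    ring
  · intro x y
    have e : single x y (1 : ℂ) = ∑ k, star (c y x k) • p k := by
      have := congrArg conjTranspose (hc y x)
      rw [conjTranspose_single, star_one, conjTranspose_sum] at this
      rw [this]
      refine Finset.sum_congr rfl fun k _ => ?_
      rw [conjTranspose_smul, (hp' k).1.eq]
    have e2 : ∑ k, ((c x y k + star (c y x k)) / 2) • p k =
        (1 / 2 : ℂ) • (∑ k, c x y k • p k + ∑ k, star (c y x k) • p k) := by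
      rw [← Finset.sum_add_distrib, Finset.smul_sum]
      refine Finset.sum_congr rfl fun k _ => ?_
      module
    rw [e2, ← e, ← hc x y]
    module

theorem near_pure (n : Type) [Fintype n] [DecidableEq n] [Nonempty n] (R : ℝ) :
    ∃ C : ℝ, 0 ≤ C ∧ ∀ ρ : Matrix n n ℂ, ρ.IsHermitian → Bd ρ R → ∃ ψ : n → ℂ, nsq ψ = 1 ∧
      ∑ i, ∑ j, ‖(ρ - vecMulVec ψ (star ψ)) i j‖ ^ 2 ≤
        C * (∑ i, ∑ j, ‖(ρ * ρ - ρ) i j‖ ^ 2 + ‖trace ρ - 1‖ ^ 2) := by
  refine ⟨8 + 4 * (Fintype.card n : ℝ) + 16 * (Fintype.card n : ℝ) ^ 2, by positivity, ?_⟩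
  intro ρ hρ _
  obtain ⟨V, hV, e⟩ := herm_spec hρ
  generalize hρ.eigenvalues = l at e
  subst e
  obtain ⟨a, ha⟩ := real_ineq l
  refine ⟨fun s => V s a, col_nsq hV a, ?_⟩
  rw [col_rank, fr_sub, hs_fr hV, fr_mul hV, fr_sub, hs_fr hV]
  have ht : ‖trace (fr V l) - 1‖ ^ 2 = (∑ i, l i - 1) ^ 2 := by
    unfold fr
    rw [trace_fn hV, ← Complex.ofReal_sum, ← Complex.ofReal_one, ← Complex.ofReal_sub,
      Complex.norm_real, Real.norm_eq_abs, sq_abs]
  rw [ht]
  exact ha

variable {Λ Q : Type} [Fintype Λ] [DecidableEq Λ] [Fintype Q] [DecidableEq Q] [Nonempty Q] {N : ℕ}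

end Vale.Agent.P356G
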