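import Vale.Agent.P356G.MFa

/- Raw tomography. Take `p`, `cf` from `proj_basis (Λ → Q)`, `m = |G| / |K|`, `P`, `H` from `measure`,
`fr o k = #{j ∈ H k, o j} / m ∈ [0, 1]`, `ρ o y x = ∑ k, cf x y k * fr o k`, so that
`trace (ρ o * M) = ∑ k, co M k * fr o k` where `co M k = ∑ x y, M x y * cf x y k` and `M = ∑ k, co M k • p k`.
By `swap_units`, `xx Y a G / |G| = ∑ x y k, co (lift (single y x)) k • one a (lift (single x y)) * avg G k`,
replace `avg G k` by `avg (H k) k` (`sample`), and `avg (H k) k = ∑ o, fr o k • P o`.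
The trace clause uses `M = 1`. All constants depend on `Λ`, `Q` only. -/

namespace Vale.Agent.P356G

open Matrix Vale.Agent.P356

variable {Λ Q : Type} [Fintype Λ] [DecidableEq Λ] [Fintype Q] [DecidableEq Q] [Nonempty Q]

/-- marginal of a general matrix -/
noncomputable def RY (Y : Finset Λ) (ρ : Matrix (Λ → Q) (Λ → Q) ℂ) : Matrix (Λ → Q) (Λ → Q) ℂ :=
  ∑ x : {z // z ∈ Y} → Q, ∑ y : {z // z ∈ Y} → Q,
    trace (ρ * lift Y (single y x 1)) • lift Y (single x y 1)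

namespace MFbA

theorem bd_ent {n : Type} [Fintype n] {M : Matrix n n ℂ} {c : ℝ} (hc : 0 ≤ c)
    (h : ∀ i j, ‖M i j‖ ≤ c) : Bd M (Fintype.card n * c) := by
  refine (bd_hs M).mono (Real.sqrt_le_iff.2 ⟨by positivity, ?_⟩)
  refine (Finset.sum_le_sum fun i _ => Finset.sum_le_sum fun j _ =>
    pow_le_pow_left₀ (norm_nonneg _) (h i j) 2).trans (le_of_eq ?_)
  simp only [Finset.sum_const, Finset.card_univ, nsmul_eq_mul]
  ring

omit [Nonempty Q] in
theorem bd_unit (Y : Finset Λ) (x y : {z // z ∈ Y} → Q) :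
    Bd (lift Y (single x y 1)) (Fintype.card (Λ → Q) * 1) :=
  bd_ent zero_le_one fun i j => by
    simp only [lift, Matrix.single, of_apply]
    split_ifs <;> simp

theorem ap_sum {n ι : Type} [Fintype n] [DecidableEq n] {S : Set (n → ℂ)} (T : Finset ι)
    {X Y : ι → Matrix n n ℂ} {η : ι → ℝ} (h : ∀ i ∈ T, Ap S (X i) (Y i) (η i)) :
    Ap S (∑ i ∈ T, X i) (∑ i ∈ T, Y i) (∑ i ∈ T, η i) := fun y hy => by
  rw [← Finset.sum_sub_distrib, sum_mulVec, Finset.sum_mul]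
  exact (nr_sum _ _).trans (Finset.sum_le_sum fun i hi => h i hi y hy)

theorem ap_smul {n : Type} [Fintype n] [DecidableEq n] {S : Set (n → ℂ)} {X Y : Matrix n n ℂ}
    {η : ℝ} (h : Ap S X Y η) (c : ℂ) : Ap S (c • X) (c • Y) (‖c‖ * η) := fun y hy => by
  rw [← smul_sub, smul_mulVec, nr_smul, mul_assoc]
  exact mul_le_mul_of_nonneg_left (h y hy) (norm_nonneg _)

omit [Nonempty Q] in
theorem RY_eq (Y : Finset Λ) (ρ : Matrix (Λ → Q) (Λ → Q) ℂ) :
    RY Y ρ = lift Y fun x y => trace (ρ * lift Y (single y x 1)) := by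
  ext s t
  generalize hc : (fun x y => trace (ρ * lift Y (single y x 1))) = c
  have e : ∀ x y, trace (ρ * lift Y (single y x 1)) = c x y := fun x y => congrFun₂ hc x y
  simp only [RY, e, Matrix.sum_apply, Matrix.smul_apply, lift]
  simp only [Matrix.single, of_apply]
  split_ifs <;> simp [ite_and]

theorem nsq_meas {N : ℕ} {O : Type} [Fintype O] {G : Finset (Fin N)} {P : O → RM Λ Q N}
    (h : Meas G P) (c : O → ℂ) (u : (Fin N → Λ → Q) → ℂ) :
    ∑ o, ‖c o‖ ^ 2 * nsq (P o *ᵥ u) = nsq ((∑ o, c o • P o) *ᵥ u) := by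
  rw [← h.nsq ((∑ o, c o • P o) *ᵥ u)]
  refine Finset.sum_congr rfl fun o _ => ?_
  rw [mulVec_mulVec, Finset.mul_sum, Finset.sum_eq_single o (fun b _ hb => by
    rw [mul_smul_comm, h.orth o b hb.symm, smul_zero]) (by simp), mul_smul_comm, h.idem,
    smul_mulVec, nsq_smul]

end MFbA

theorem RY_univ (ρ : Matrix (Λ → Q) (Λ → Q) ℂ) : RY Finset.univ ρ = ρ := by
  rw [MFbA.RY_eq]
  ext s t
  have e : ∀ a b : Λ → Q, res Finset.univ a = res Finset.univ b ↔ a = b := fun a b => by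
    rw [loc_res_iff]
    exact ⟨fun h => funext fun x => h x (Finset.mem_univ x), fun h _ _ => h ▸ rfl⟩
  have e' : ∀ a b : Λ → Q, cores Finset.univ a = cores Finset.univ b := fun a b =>
    (loc_cores_iff _ _ _).2 fun x hx => absurd (Finset.mem_univ x) hx
  simp [lift, e, e' _ s, trace, mul_apply, Matrix.single, ite_and]

theorem RY_rank (Y : Finset Λ) (ψ : (Λ → Q) → ℂ) : RY Y (vecMulVec ψ (star ψ)) = mg Y ψ := by
  rw [mg_units, Finset.sum_comm]
  refine Finset.sum_congr rfl fun x _ => Finset.sum_congr rfl fun y _ => ?_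
  rw [vecMulVec_mul, trace_vecMulVec, dotProduct_comm, ip, dotProduct_mulVec]

theorem RY_sub (Y : Finset Λ) (ρ σ : Matrix (Λ → Q) (Λ → Q) ℂ) :
    RY Y (ρ - σ) = RY Y ρ - RY Y σ := by
  simp only [RY, sub_mul, trace_sub, sub_smul, Finset.sum_sub_distrib]

theorem RY_bd : ∃ C : ℝ, 0 ≤ C ∧ ∀ (Y : Finset Λ) (ρ : Matrix (Λ → Q) (Λ → Q) ℂ),
    Bd (RY Y ρ) (C * Real.sqrt (∑ i, ∑ j, ‖ρ i j‖ ^ 2)) := by
  have h : ∀ Y : Finset Λ, ∃ C : ℝ, 0 ≤ C ∧ ∀ ρ : Matrix (Λ → Q) (Λ → Q) ℂ,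
      Bd (RY Y ρ) (C * Real.sqrt (∑ i, ∑ j, ‖ρ i j‖ ^ 2)) := fun Y => by
    refine ⟨∑ _x : {z // z ∈ Y} → Q, ∑ _y : {z // z ∈ Y} → Q, (Fintype.card (Λ → Q) : ℝ) ^ 3,
      by positivity, fun ρ => ?_⟩
    simp only [Finset.sum_mul]
    refine Bd.sum _ fun x _ => Bd.sum _ fun y _ => ((MFbA.bd_unit Y x y).smul _).mono ?_
    have h1 := ((bd_hs ρ).mul (MFbA.bd_unit Y y x) (Real.sqrt_nonneg _)).entry
    have h2 := norm_sum_le_of_le Finset.univ fun i _ => h1 i i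
    rw [Finset.sum_const, Finset.card_univ, nsmul_eq_mul] at h2
    exact (mul_le_mul_of_nonneg_right h2 (by positivity)).trans (le_of_eq (by ring))
  choose C h0 h using h
  exact ⟨∑ Y, C Y, Finset.sum_nonneg fun Y _ => h0 Y, fun Y ρ => (h Y ρ).mono
    (mul_le_mul_of_nonneg_right (Finset.single_le_sum (fun Y _ => h0 Y) (Finset.mem_univ Y))
      (Real.sqrt_nonneg _))⟩

theorem mf_raw (Λ Q : Type) [Fintype Λ] [DecidableEq Λ] [Fintype Q] [DecidableEq Q] [Nonempty Q] :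
    ∃ R : ℝ, 0 ≤ R ∧ ∀ η : ℝ, 0 < η → ∃ n0 : ℕ, ∀ (N : ℕ) (G : Finset (Fin N)), n0 ≤ G.card →
      ∃ (P : (Fin N → Bool) → RM Λ Q N) (ρ : (Fin N → Bool) → Matrix (Λ → Q) (Λ → Q) ℂ),
        Meas G P ∧ (∀ o, (ρ o).IsHermitian ∧ Bd (ρ o) R) ∧
        (∀ u, Sy G u → ∑ o, ‖trace (ρ o) - 1‖ ^ 2 * nsq (P o *ᵥ u) ≤ η * nsq u) ∧
        ∀ a, a ∉ G → ∀ Y : Finset Λ,
          Ap {u | Sy G u} ((G.card : ℂ)⁻¹ • xx Q Y a G) (blk a P fun o => RY Y (ρ o)) η := by
  obtain ⟨p, cf, hp, hcf, hs⟩ := proj_basis (Λ → Q)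
  obtain ⟨co, hco⟩ : ∃ co : Matrix (Λ → Q) (Λ → Q) ℂ → _ → ℂ,
      ∀ M k, co M k = ∑ x, ∑ y, M x y * cf x y k := ⟨_, fun _ _ => rfl⟩
  have hM : ∀ M, M = ∑ k, co M k • p k := fun M => by
    simp only [hco, Finset.sum_smul, mul_smul]
    rw [Finset.sum_comm]
    refine (matrix_eq_sum_single M).trans (Finset.sum_congr rfl fun x _ => ?_)
    rw [Finset.sum_comm]
    refine Finset.sum_congr rfl fun y _ => ?_
    rw [← Finset.smul_sum, ← hs, smul_single, smul_eq_mul, mul_one]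
  refine ⟨Fintype.card (Λ → Q) * ∑ x, ∑ y, ∑ k, ‖cf x y k‖, by positivity, fun η hη => ?_⟩
  obtain ⟨C, hC⟩ : ∃ C : Finset Λ → ℝ, ∀ Y, C Y = ∑ x : {z // z ∈ Y} → Q, ∑ y : {z // z ∈ Y} → Q,
      Fintype.card (Λ → Q) * 1 * ∑ k, ‖co (lift Y (single y x 1)) k‖ := ⟨_, fun _ => rfl⟩
  have hC0 : ∀ Y, 0 ≤ C Y := fun Y => by
    rw [hC]
    positivity
  obtain ⟨ε, ⟨e1, e2⟩, hε⟩ : ∃ ε : ℝ, ((∑ Y, C Y) * ε ≤ η ∧ ((∑ k, ‖co 1 k‖) * ε) ^ 2 ≤ η) ∧
      0 < ε := by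
    refine (Filter.Eventually.and (f := nhdsWithin 0 (Set.Ioi 0)) (nhdsWithin_le_nhds
      (Filter.Eventually.and ?_ ?_)) self_mem_nhdsWithin).exists <;>
    exact (Continuous.tendsto' (by fun_prop) 0 0 (by simp)).eventually (eventually_le_nhds hη)
  obtain ⟨m, hm⟩ := exists_nat_gt (2 / ε ^ 2)
  have hm0 : (0 : ℝ) < m := lt_trans (by positivity) hm
  refine ⟨Fintype.card ((Λ → Q) × (Λ → Q) × Fin 4) * m + 1, fun N G hG => ?_⟩
  obtain ⟨P, H, hP, hH, hf⟩ := measure p hp G m (by omega)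
  have hG0 : (G.card : ℂ) ≠ 0 := Nat.cast_ne_zero.2 (by omega)
  obtain ⟨fq, f0, f1, f2⟩ : ∃ fq : (Fin N → Bool) → _ → ℝ, (∀ o k, 0 ≤ fq o k) ∧
      (∀ o k, fq o k ≤ 1) ∧ ∀ k, ((H k).card : ℂ)⁻¹ • ∑ j ∈ H k, one j (p k) =
        ∑ o, (fq o k : ℂ) • P o := by
    refine ⟨fun o k => ((H k).filter fun j => o j = true).card / m,
      fun o k => div_nonneg (Nat.cast_nonneg _) hm0.le, fun o k => ?_, fun k => ?_⟩
    · rw [div_le_one hm0, ← (hH k).2]
      exact_mod_cast Finset.card_filter_le _ _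
    · rw [← mul_one (∑ j ∈ H k, _), ← hP.sum, Finset.mul_sum, Finset.smul_sum, (hH k).2]
      refine Finset.sum_congr rfl fun o _ => ?_
      rw [hf, smul_smul]
      push_cast
      rw [div_eq_inv_mul]
  obtain ⟨ρ, hρ⟩ : ∃ ρ : (Fin N → Bool) → Matrix (Λ → Q) (Λ → Q) ℂ,
      ∀ o y x, ρ o y x = ∑ k, cf x y k * fq o k := ⟨fun o => of _, fun _ _ _ => rfl⟩
  have key : ∀ M, Ap {u | Sy G u} ((G.card : ℂ)⁻¹ • ∑ j ∈ G, one j M)
      (∑ o, trace (ρ o * M) • P o) ((∑ k, ‖co M k‖) * ε) := fun M => by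
    have a1 : (G.card : ℂ)⁻¹ • ∑ j ∈ G, one j M =
        ∑ k, co M k • ((G.card : ℂ)⁻¹ • ∑ j ∈ G, one (N := N) j (p k)) := by
      conv_lhs => rw [hM M]
      simp only [one_sum, one_smul', Finset.smul_sum]
      rw [Finset.sum_comm]
      exact Finset.sum_congr rfl fun k _ => Finset.sum_congr rfl fun j _ => smul_comm _ _ _
    have a2 : ∀ o, trace (ρ o * M) = ∑ k, co M k * fq o k := fun o => by
      rw [trace_mul_comm]
      simp only [trace, diag_apply, mul_apply, hρ, hco, Finset.sum_mul, Finset.mul_sum, mul_assoc]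
      exact (Finset.sum_congr rfl fun x _ => Finset.sum_comm).trans Finset.sum_comm
    have a3 : ∑ o, trace (ρ o * M) • P o =
        ∑ k, co M k • (((H k).card : ℂ)⁻¹ • ∑ j ∈ H k, one j (p k)) := by
      simp only [a2, f2, Finset.sum_smul, Finset.smul_sum, mul_smul]
      exact Finset.sum_comm
    rw [a1, a3, Finset.sum_mul]
    refine MFbA.ap_sum _ fun k _ => MFbA.ap_smul (fun u hu => (nr_le_iff _ _ hε.le).2 ?_) _
    refine (sample (hp k) (hH k).1 ((hH k).2 ▸ Nat.cast_pos.1 hm0) hu).trans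
      (mul_le_mul_of_nonneg_right ?_ (nsq_nonneg _))
    rw [(hH k).2, div_le_iff₀ hm0, ← div_le_iff₀' (by positivity)]
    exact hm.le
  refine ⟨P, ρ, hP, fun o => ⟨?_, MFbA.bd_ent (by positivity) fun y x => ?_⟩, fun u hu => ?_,
    fun a ha Y => ?_⟩
  · ext y x
    simp only [conjTranspose_apply, hρ, star_sum, star_mul', hcf y x, Complex.star_def,
      Complex.conj_ofReal]
  · rw [hρ]
    refine (norm_sum_le_of_le _ (n := fun k => ‖cf x y k‖) fun k _ => ?_).trans ?_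
    · rw [norm_mul, Complex.norm_real, Real.norm_of_nonneg (f0 o k)]
      exact mul_le_of_le_one_right (norm_nonneg _) (f1 o k)
    · exact (Finset.single_le_sum (f := fun y => ∑ k, ‖cf x y k‖) (fun _ _ => by positivity)
        (Finset.mem_univ y)).trans (Finset.single_le_sum (f := fun x => ∑ y, ∑ k, ‖cf x y k‖)
        (fun _ _ => by positivity) (Finset.mem_univ x))
  · have h1 := (nr_le_iff _ _ (by positivity)).1 ((key 1).symm u hu)
    simp only [mul_one, one_one, Finset.sum_const, ← Nat.cast_smul_eq_nsmul ℂ, smul_smul,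
      inv_mul_cancel₀ hG0, one_smul] at h1
    rw [MFbA.nsq_meas hP]
    simp only [sub_smul, one_smul, Finset.sum_sub_distrib, hP.sum]
    exact h1.trans (mul_le_mul_of_nonneg_right e2 (nsq_nonneg _))
  · have a1 : (G.card : ℂ)⁻¹ • xx Q Y a G = ∑ x : {z // z ∈ Y} → Q, ∑ y : {z // z ∈ Y} → Q,
        one a (lift Y (single x y 1)) *
          ((G.card : ℂ)⁻¹ • ∑ j ∈ G, one j (lift Y (single y x 1))) := by
      rw [xx, Finset.sum_congr rfl fun j hj => swap_units Y (a := a) (j := j)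
        fun h => ha (h ▸ hj), Finset.sum_comm]
      simp only [mul_smul_comm, ← Finset.smul_sum, Finset.mul_sum]
      exact congrArg _ (Finset.sum_congr rfl fun x _ => Finset.sum_comm)
    have a2 : (blk a P fun o => RY Y (ρ o)) = ∑ x : {z // z ∈ Y} → Q, ∑ y : {z // z ∈ Y} → Q,
        one a (lift Y (single x y 1)) * ∑ o, trace (ρ o * lift Y (single y x 1)) • P o := by
      simp only [blk, RY, one_sum, one_smul', Finset.sum_mul, Finset.mul_sum, smul_mul_assoc,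
        mul_smul_comm]
      exact Finset.sum_comm.trans (Finset.sum_congr rfl fun x _ => Finset.sum_comm)
    rw [a1, a2]
    refine (MFbA.ap_sum _ fun x _ => MFbA.ap_sum _ fun y _ => (key _).left
      (one_bd a (by positivity) (MFbA.bd_unit Y x y)) (by positivity)).mono (le_trans ?_ e1)
    simp only [← mul_assoc, ← Finset.sum_mul, ← hC]
    exact mul_le_mul_of_nonneg_right
      (Finset.single_le_sum (fun Y _ => hC0 Y) (Finset.mem_univ Y)) hε.le

end Vale.Agent.P356G
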