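import Vale.Agent.P356G.Mean0

/- The geometric mean `G = gm A B`. Write `a = cpw A (1/2)`, `a' = cpw A (-1/2)`, `W = a' B a'`,
`y = cpw W (1/2)`, so `G = a y a`. `gm_blk`: `2 re <p, a y a q> ≤ |a p|^2 + |y a q|^2` and
`a y y a = B`. `lyap`: if `y X + X y ≥ 0`, test on an eigenvector of `X` with negative eigenvalue.
`syl`: the linear map `L D = D A⁻¹ G + G A⁻¹ D` is injective (conjugate by `a'` with
`y = a' G a'`; in an eigenbasis of `y` it multiplies entries by `y i + y j > 0`; or apply `lyap` to the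
Hermitian and anti-Hermitian parts), hence a `LinearEquiv` (`LinearEquiv.ofInjectiveEndo`);
2-positivity: apply `lyap` on `n ⊕ n` to `fromBlocks (a' ΦA a') (-a' ΦX a') (-(a' ΦX a')ᴴ) (a' ΦB a')`
and `fromBlocks y 0 0 y`. -/

namespace Vale.Agent.P356G

open Matrix Vale.Agent.P356

variable {n m : Type} [Fintype n] [DecidableEq n] [Fintype m] [DecidableEq m]

namespace MeanA

theorem ip_conj (X Z : Matrix n n ℂ) (p q : n → ℂ) :
    ip p (Zᴴ * X * Z) q = ip (Z *ᵥ p) X (Z *ᵥ q) := by
  unfold ip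
  rw [← mulVec_mulVec, ← mulVec_mulVec, dot_mulVec, conjTranspose_conjTranspose]

theorem blk_conj {P X R : Matrix n n ℂ} (h : Blk P X R) (Z : Matrix n n ℂ) :
    Blk (Zᴴ * P * Z) (Zᴴ * X * Z) (Zᴴ * R * Z) := by
  intro p q
  rw [ip_conj, qf_conj, qf_conj]
  exact h _ _

theorem qf_eig {y X : Matrix n n ℂ} (hX : X.IsHermitian) {v : n → ℂ} {x : ℝ}
    (hv : X *ᵥ v = (x : ℂ) • v) : qf (y * X + X * y) v = 2 * x * qf y v := by
  have h1 : qf (y * X) v = x * qf y v := by
    unfold qf ip
    rw [← mulVec_mulVec, hv, mulVec_smul, dotProduct_smul, smul_eq_mul, Complex.re_ofReal_mul]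
  have h2 : qf (X * y) v = x * qf y v := by
    unfold qf ip
    rw [← mulVec_mulVec, dot_mulVec, hX.eq, hv, star_smul, smul_dotProduct, smul_eq_mul]
    simp
  rw [qf_add, h1, h2]
  ring

theorem qf_blocks (P X Y R : Matrix n n ℂ) (p q : n → ℂ) :
    qf (fromBlocks P X Y R) (Sum.elim p q) =
      qf P p + (ip p X q).re + (ip q Y p).re + qf R q := by
  unfold qf ip
  have hs : star (Sum.elim p q) = Sum.elim (star p) (star q) := by
    funext i
    cases i <;> rfl
  rw [fromBlocks_mulVec, hs, sumElim_dotProduct_sumElim]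
  simp only [Sum.elim_comp_inl, Sum.elim_comp_inr, dotProduct_add, Complex.add_re]
  ring

theorem ip_neg (X : Matrix n n ℂ) (p q : n → ℂ) : ip p (-X) q = -ip p X q := by
  unfold ip
  rw [neg_mulVec, dotProduct_neg]

theorem qf_blk (P X R : Matrix n n ℂ) (p q : n → ℂ) :
    qf (fromBlocks P (-X) (-Xᴴ) R) (Sum.elim p q) = qf P p + qf R q - 2 * (ip p X q).re := by
  rw [qf_blocks, ip_neg, ip_neg, ip_ct]
  simp only [Complex.neg_re, Complex.star_def, Complex.conj_re]
  ring

end MeanA

open MeanA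

theorem lyap {y X : Matrix n n ℂ} (hy : Pd y) (hX : X.IsHermitian)
    (h : ∀ v, 0 ≤ qf (y * X + X * y) v) : Ps X := by
  have he : ∀ i, 0 ≤ hX.eigenvalues i := by
    intro i
    have hv := hX.mulVec_eigenvectorBasis i
    have hv' : X *ᵥ (hX.eigenvectorBasis i).ofLp =
        ((hX.eigenvalues i : ℝ) : ℂ) • (hX.eigenvectorBasis i).ofLp := by
      rw [hv]
      funext j
      simp
    have hne : (hX.eigenvectorBasis i).ofLp ≠ 0 := by
      intro h0
      have h1 := hX.eigenvectorBasis.orthonormal.1 i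
      have h2 : hX.eigenvectorBasis i = 0 := by
        ext j
        exact congrFun h0 j
      rw [h2, norm_zero] at h1
      exact zero_ne_one h1
    have h1 := h (hX.eigenvectorBasis i).ofLp
    rw [qf_eig hX hv'] at h1
    have h2 := hy.2 _ hne
    by_contra hc
    have h3 : hX.eigenvalues i < 0 := not_le.mp hc
    nlinarith [mul_pos (neg_pos.mpr h3) h2]
  refine ⟨hX, fun v => ?_⟩
  obtain ⟨w, hw, -, h1, -⟩ := hf_meas hX v
  have h2 := h1 fun x => x
  rw [hf_id hX] at h2
  rw [h2]
  exact Finset.sum_nonneg fun i _ => mul_nonneg (hw i) (he i)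

namespace MeanA

theorem blk_lyap {y P X R : Matrix n n ℂ} (hy : Pd y) (hP : P.IsHermitian) (hR : R.IsHermitian)
    (h : Blk (y * P + P * y) (y * X + X * y) (y * R + R * y)) : Blk P X R := by
  have hM : (fromBlocks P (-X) (-Xᴴ) R).IsHermitian := by
    unfold IsHermitian
    rw [fromBlocks_conjTranspose, hP.eq, hR.eq, conjTranspose_neg, conjTranspose_neg,
      conjTranspose_conjTranspose]
  have hE : fromBlocks y 0 0 y * fromBlocks P (-X) (-Xᴴ) R +
      fromBlocks P (-X) (-Xᴴ) R * fromBlocks y 0 0 y =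
      fromBlocks (y * P + P * y) (-(y * X + X * y)) (-(y * X + X * y)ᴴ) (y * R + R * y) := by
    rw [fromBlocks_multiply, fromBlocks_multiply, fromBlocks_add, conjTranspose_add,
      conjTranspose_mul, conjTranspose_mul, hy.1.eq]
    simp only [Matrix.zero_mul, Matrix.mul_zero, add_zero, zero_add, Matrix.mul_neg,
      Matrix.neg_mul, neg_add, neg_zero, add_comm (-(Xᴴ * y))]
  have hps := lyap (pd_blocks hy hy) hM (by
    intro v
    have hv : v = Sum.elim (fun i => v (Sum.inl i)) (fun i => v (Sum.inr i)) := by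
      funext i
      cases i <;> rfl
    rw [hE, hv, qf_blk]
    have := h (fun i => v (Sum.inl i)) (fun i => v (Sum.inr i))
    linarith)
  intro p q
  have := hps.2 (Sum.elim p q)
  rw [qf_blk] at this
  linarith

theorem blk_L {A G P X R : Matrix n n ℂ} (hA : Pd A) (hG : Pd G) (hP : P.IsHermitian)
    (hR : R.IsHermitian)
    (h : Blk (P * cpw A (-1) * G + G * cpw A (-1) * P) (X * cpw A (-1) * G + G * cpw A (-1) * X)
      (R * cpw A (-1) * G + G * cpw A (-1) * R)) : Blk P X R := by
  obtain ⟨h1, h2⟩ := cpw_half_inv hA.1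
  have hb := cpw_nhalf_herm A
  have ha := cpw_half_herm A
  have hbb : cpw A (-1) = cpw A (-1 / 2) * cpw A (-1 / 2) := by
    rw [← cpw_add hA.1]
    norm_num
  rw [hbb] at h
  generalize cpw A (-1 / 2) = b at h h1 h2 hb
  generalize cpw A (1 / 2) = a at h1 h2 ha
  have hy : Pd (bᴴ * G * b) := hG.conj h1
  have key : ∀ D : Matrix n n ℂ, bᴴ * (D * (b * b) * G + G * (b * b) * D) * b =
      bᴴ * G * b * (bᴴ * D * b) + bᴴ * D * b * (bᴴ * G * b) := by
    intro D
    rw [hb]
    noncomm_ring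
  have h3 := blk_conj h b
  rw [key, key, key] at h3
  have h4 := blk_conj (blk_lyap hy (isHermitian_conjTranspose_mul_mul b hP)
    (isHermitian_conjTranspose_mul_mul b hR) h3) a
  have back : ∀ D : Matrix n n ℂ, aᴴ * (bᴴ * D * b) * a = D := by
    intro D
    rw [ha, hb]
    calc a * (b * D * b) * a = (a * b) * D * (b * a) := by noncomm_ring
      _ = D := by rw [h1, h2, Matrix.one_mul, Matrix.mul_one]
  rwa [back, back, back] at h4

theorem blk_zero {X : Matrix n n ℂ} (h : Blk 0 X 0) : X = 0 := by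
  have h1 : ∀ q, X *ᵥ q = 0 := by
    intro q
    have h2 := h (X *ᵥ q) q
    rw [qf_zero, qf_zero] at h2
    unfold ip at h2
    rw [← nsq_eq, Complex.ofReal_re] at h2
    have h3 : ∑ s, ‖(X *ᵥ q) s‖ ^ 2 = 0 := by
      apply le_antisymm
      · unfold nsq at h2
        linarith
      · exact Finset.sum_nonneg fun s _ => sq_nonneg _
    rw [Finset.sum_eq_zero_iff_of_nonneg fun s _ => sq_nonneg _] at h3
    funext s
    have h4 := h3 s (Finset.mem_univ s)
    simpa using h4
  ext i j
  have h2 := congrFun (h1 (Pi.single j 1)) i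
  simpa using h2

end MeanA

theorem syl {A G : Matrix n n ℂ} (hA : Pd A) (hG : Pd G) :
    ∃ Φ : Matrix n n ℂ →ₗ[ℂ] Matrix n n ℂ,
      (∀ D, Φ (D * cpw A (-1) * G + G * cpw A (-1) * D) = D) ∧ (∀ X, Φ Xᴴ = (Φ X)ᴴ) ∧
      ∀ P X R : Matrix n n ℂ, P.IsHermitian → R.IsHermitian → Blk P X R →
        Blk (Φ P) (Φ X) (Φ R) := by
  let L : Matrix n n ℂ →ₗ[ℂ] Matrix n n ℂ :=
    { toFun := fun D => D * cpw A (-1) * G + G * cpw A (-1) * D
      map_add' := by
        intro D D'
        noncomm_ring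
      map_smul' := by
        intro c D
        simp only [Matrix.smul_mul, Matrix.mul_smul, smul_add, RingHom.id_apply] }
  have hL : ∀ D, L D = D * cpw A (-1) * G + G * cpw A (-1) * D := fun D => rfl
  have hinj : Function.Injective L := by
    rw [injective_iff_map_eq_zero]
    intro D hD
    apply blk_zero
    apply blk_L hA hG isHermitian_zero isHermitian_zero
    rw [← hL, ← hL D, hD, map_zero]
    intro p q
    simp [ip, qf]
  have hc : (cpw A (-1))ᴴ = cpw A (-1) := by
    rw [cpw_ct]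
    simp
  have hLct : ∀ D, L Dᴴ = (L D)ᴴ := by
    intro D
    rw [hL, hL, conjTranspose_add, conjTranspose_mul, conjTranspose_mul, conjTranspose_mul,
      conjTranspose_mul, hc, hG.1.eq]
    noncomm_ring
  let E := LinearEquiv.ofInjectiveEndo L hinj
  have hE : ∀ D, E D = L D := fun D => rfl
  have hE1 : ∀ X, L (E.symm X) = X := fun X => by rw [← hE, E.apply_symm_apply]
  have hct : ∀ X, E.symm Xᴴ = (E.symm X)ᴴ := by
    intro X
    apply hinj
    rw [hLct, hE1, hE1]
  refine ⟨E.symm.toLinearMap, fun D => ?_, hct, fun P X R hP hR h => ?_⟩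
  · rw [← hL, ← hE]
    exact E.symm_apply_apply D
  · have hP' : (E.symm P).IsHermitian := by
      unfold IsHermitian
      rw [← hct, hP.eq]
    have hR' : (E.symm R).IsHermitian := by
      unfold IsHermitian
      rw [← hct, hR.eq]
    apply blk_L hA hG hP' hR'
    rw [← hL, ← hL, ← hL]
    change Blk (L (E.symm P)) (L (E.symm X)) (L (E.symm R))
    rw [hE1, hE1, hE1]
    exact h

end Vale.Agent.P356G
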