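import Vale.Agent.P356G.FunC

/- The geometric mean `G = gm A B`. Write `a = cpw A (1/2)`, `a' = cpw A (-1/2)`, `W = a' B a'`,
`y = cpw W (1/2)`, so `G = a y a`. `gm_blk`: `2 re <p, a y a q> ≤ |a p|^2 + |y a q|^2` and
`a y y a = B`. `lyap`: if `y X + X y ≥ 0`, test on an eigenvector of `X` with negative eigenvalue.
`syl`: the linear map `L D = D A⁻¹ G + G A⁻¹ D` is injective (conjugate by `a'` with
`y = a' G a'`; in an eigenbasis of `y` it multiplies entries by `y i + y j > 0`; or apply `lyap` to the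
Hermitian and anti-Hermitian parts), hence a `LinearEquiv` (`LinearEquiv.ofInjectiveEndo`);
2-positivity: apply `lyap` on `n ⊕ n` to `fromBlocks (a' ΦA a') (-a' ΦX a') (-(a' ΦX a')ᴴ) (a' ΦB a')`
and `fromBlocks y 0 0 y`. -/

namespace Vale.Agent.P356G

open Matrix Vale.Agent.P356

variable {n m : Type} [Fintype n] [DecidableEq n] [Fintype m] [DecidableEq m]

namespace Mean0A

theorem half_pd {A : Matrix n n ℂ} (hA : A.IsHermitian) : Pd (cpw A (1 / 2)) := by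
  simpa using cpw_pd hA (1 / 2)

theorem w_pd {A B : Matrix n n ℂ} (hA : Pd A) (hB : Pd B) :
    Pd (cpw A (-1 / 2) * B * cpw A (-1 / 2)) := by
  simpa [cpw_nhalf_herm] using hB.conj (cpw_half_inv hA.1).1

theorem inv_eq {A : Matrix n n ℂ} (hA : A.IsHermitian) :
    cpw A (-1) = cpw A (-1 / 2) * cpw A (-1 / 2) := by
  rw [← cpw_add hA]; norm_num

theorem root {A B : Matrix n n ℂ} (hA : Pd A) (hB : Pd B) :
    cpw A (1 / 2) * (cpw (cpw A (-1 / 2) * B * cpw A (-1 / 2)) (1 / 2) *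
      (cpw (cpw A (-1 / 2) * B * cpw A (-1 / 2)) (1 / 2) * cpw A (1 / 2))) = B := by
  rw [← mul_assoc (cpw _ (1 / 2)) (cpw _ (1 / 2)) (cpw A (1 / 2)), cpw_half (w_pd hA hB),
    mul_assoc (_ * B), (cpw_half_inv hA.1).2, mul_one, ← mul_assoc, (cpw_half_inv hA.1).1, one_mul]

theorem qf_blocks (A : Matrix n n ℂ) (A' : Matrix m m ℂ) (v : n ⊕ m → ℂ) :
    qf (fromBlocks A 0 0 A') v = qf A (v ∘ Sum.inl) + qf A' (v ∘ Sum.inr) := by
  simp [qf, ip, fromBlocks_mulVec, dotProduct]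

theorem cpw_blocks {A : Matrix n n ℂ} {B : Matrix m m ℂ} (hA : A.IsHermitian) (hB : B.IsHermitian)
    (z : ℂ) : cpw (fromBlocks A 0 0 B) z = fromBlocks (cpw A z) 0 0 (cpw B z) := hf_blocks hA hB _

theorem smul_pd {A : Matrix n n ℂ} (hA : Pd A) {x : ℝ} (hx : 0 < x) : Pd ((x : ℂ) • A) :=
  ⟨by simp [Matrix.IsHermitian, hA.1.eq], fun v hv => by
    rw [qf_smul]; exact mul_pos hx (hA.2 v hv)⟩

end Mean0A
open Mean0A

theorem gm_pd {A B : Matrix n n ℂ} (hA : Pd A) (hB : Pd B) : Pd (gm A B) := by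
  simpa [gm, cpw_half_herm, -one_div] using
    (half_pd (w_pd hA hB).1).conj (cpw_half_inv hA.1).2
theorem gm_ric {A B : Matrix n n ℂ} (hA : Pd A) (hB : Pd B) :
    gm A B * cpw A (-1) * gm A B = B := by
  have h := cpw_half_inv hA.1
  rw [gm, inv_eq hA.1]
  simp only [mul_assoc]
  rw [← mul_assoc (cpw A (1 / 2)) (cpw A (-1 / 2)), h.1, one_mul,
    ← mul_assoc (cpw A (-1 / 2)) (cpw A (1 / 2)), h.2, one_mul]
  simpa only [mul_assoc] using root hA hB
theorem gm_unique {A B X : Matrix n n ℂ} (hA : Pd A) (hX : Pd X) (h : X * cpw A (-1) * X = B) :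
    gm A B = X := by
  have h1 := cpw_half_inv hA.1
  have h2 : cpw (cpw A (-1 / 2) * B * cpw A (-1 / 2)) (1 / 2) = _ :=
    sqrt_unique (w_pd hA hX) (by rw [← h, inv_eq hA.1]; simp only [mul_assoc])
  rw [gm, h2, ← mul_assoc, ← mul_assoc, h1.1, one_mul, mul_assoc, h1.2, mul_one]
theorem gm_blk {A B : Matrix n n ℂ} (hA : Pd A) (hB : Pd B) : Blk A (gm A B) B := by
  intro p q
  set a := cpw A (1 / 2) with ha
  set y := cpw (cpw A (-1 / 2) * B * cpw A (-1 / 2)) (1 / 2) with hy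
  have h1 : qf A p = nsq (a *ᵥ p) := by rw [← qf_ct_mul, ha, cpw_half_herm, cpw_half hA]
  have h2 : qf B q = nsq ((y * a) *ᵥ q) := by
    rw [← qf_ct_mul, conjTranspose_mul, ha, hy, cpw_half_herm, cpw_half_herm, mul_assoc, root hA hB]
  have h3 : ip p (gm A B) q = star (a *ᵥ p) ⬝ᵥ ((y * a) *ᵥ q) := by
    rw [ip, gm, mul_assoc, ← mulVec_mulVec, dot_mulVec, cpw_half_herm]
  have := nsq_nonneg (a *ᵥ p - (y * a) *ᵥ q)
  rw [nsq_sub] at this
  rw [h1, h2, h3]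
  linarith
theorem gm_comm {A B Z : Matrix n n ℂ} (hA : Commute Z A) (hB : Commute Z B) :
    Commute Z (gm A B) := by
  exact ((cpw_comm hA _).mul_right (cpw_comm (((cpw_comm hA _).mul_right hB).mul_right
    (cpw_comm hA _)) _)).mul_right (cpw_comm hA _)
theorem gm_smul {A : Matrix n n ℂ} (hA : Pd A) {x y : ℝ} (hx : 0 < x) (hy : 0 < y) :
    gm ((x : ℂ) • A) ((y : ℂ) • A) = (Real.sqrt (x * y) : ℂ) • A := by
  have hxy := mul_pos hx hy
  refine gm_unique (smul_pd hA hx) (smul_pd hA (Real.sqrt_pos.2 hxy)) ?_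
  have h := (cpw_inv (smul_pd hA hx)).1
  rw [mul_smul_comm] at h
  rw [smul_mul_assoc, smul_mul_assoc, mul_smul_comm, smul_smul, ← Complex.ofReal_mul,
    Real.mul_self_sqrt hxy.le, mul_comm x, Complex.ofReal_mul, mul_smul, mul_assoc, ← mul_smul_comm,
    h, mul_one]
theorem pd_blocks {A : Matrix n n ℂ} {A' : Matrix m m ℂ} (hA : Pd A) (hA' : Pd A') :
    Pd (fromBlocks A 0 0 A') := by
  refine ⟨hA.1.fromBlocks (by simp) hA'.1, fun v hv => ?_⟩
  rw [qf_blocks]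
  by_cases h : v ∘ Sum.inl = 0
  · refine add_pos_of_nonneg_of_pos (hA.ps.2 _) (hA'.2 _ fun h' => hv ?_)
    funext i
    rcases i with i | i
    exacts [congrFun h i, congrFun h' i]
  · exact add_pos_of_pos_of_nonneg (hA.2 _ h) (hA'.ps.2 _)
theorem gm_blocks {A B : Matrix n n ℂ} {A' B' : Matrix m m ℂ} (hA : Pd A) (hB : Pd B) (hA' : Pd A')
    (hB' : Pd B') :
    gm (fromBlocks A 0 0 A') (fromBlocks B 0 0 B') = fromBlocks (gm A B) 0 0 (gm A' B') := by
  simp only [gm, cpw_blocks hA.1 hA'.1, fromBlocks_multiply, Matrix.mul_zero, Matrix.zero_mul,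
    add_zero, zero_add, cpw_blocks (w_pd hA hB).1 (w_pd hA' hB').1]

end Vale.Agent.P356G
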