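import Vale.Agent.P356G.MeanT0

/- Trees. `tderiv` is the derivative of `val` at `M`; induction on the tree. Leaf `c`: `D X = X c`.
Node with values `A`, `B`, `G = gm A B`, `Φ` from `syl`:
`D X = Φ (Dr X + G A⁻¹ (Dl X) A⁻¹ G)` (`A⁻¹ = cpw A (-1)`, Hermitian).
(right) `D (M c * E) = G E`: `Φ` of `B E + G A⁻¹ A E A⁻¹ G = (G E) A⁻¹ G + G A⁻¹ (G E)` by `gm_ric`.
(weights) `X_l = a A Q`, `X_r = b B Q`, answer `((a + b) / 2) G Q`, `Q` commutes with `A`, `G`.
(super) with `G' = gm A' B'`: `D N - G' = Φ (Dr N + G A⁻¹ (Dl N) A⁻¹ G - G' A⁻¹ G - G A⁻¹ G')` and the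
argument is `≥ 0` by `gm_blk` at `p = A⁻¹ G q`; positivity of `Φ` is `Blk P 0 0`. -/

namespace Vale.Agent.P356G

open Matrix Vale.Agent.P356

variable {n m : Type} [Fintype n] [DecidableEq n] [Fintype m] [DecidableEq m] {α β : Type}

namespace MeanTA

theorem ip_add (A B : Matrix n n ℂ) (u v : n → ℂ) : ip u (A + B) v = ip u A v + ip u B v := by
  simp only [ip, add_mulVec, dotProduct_add]

theorem ip_zero (u v : n → ℂ) : ip u (0 : Matrix n n ℂ) v = 0 := by
  simp only [ip, zero_mulVec, dotProduct_zero]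

theorem ip_left (K A : Matrix n n ℂ) (u v : n → ℂ) : ip u (Kᴴ * A) v = ip (K *ᵥ u) A v := by
  simp only [ip, star_mulVec, ← mulVec_mulVec, dotProduct_mulVec]

theorem ip_right (K A : Matrix n n ℂ) (u v : n → ℂ) : ip u (A * K) v = ip u A (K *ᵥ v) := by
  simp only [ip, ← mulVec_mulVec]

theorem ip_conj (K A : Matrix n n ℂ) (u v : n → ℂ) :
    ip u (Kᴴ * A * K) v = ip (K *ᵥ u) A (K *ᵥ v) := by
  rw [ip_right, ip_left]

theorem blk_add {P X R P' X' R' : Matrix n n ℂ} (h : Blk P X R) (h' : Blk P' X' R') :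
    Blk (P + P') (X + X') (R + R') := by
  intro p q
  have h1 := h p q
  have h2 := h' p q
  rw [ip_add, qf_add, qf_add, Complex.add_re]
  linarith

theorem blk_conj {P X R : Matrix n n ℂ} (h : Blk P X R) (K : Matrix n n ℂ) :
    Blk (Kᴴ * P * K) (Kᴴ * X * K) (Kᴴ * R * K) := by
  intro p q
  rw [ip_conj, qf_conj, qf_conj]
  exact h _ _

theorem blk_zero {P : Matrix n n ℂ} (h : ∀ v, 0 ≤ qf P v) : Blk P 0 0 := by
  intro p q
  rw [ip_zero, qf_zero]
  simpa using h p

theorem of_blk {P : Matrix n n ℂ} (h : Blk P 0 0) (v : n → ℂ) : 0 ≤ qf P v := by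
  have := h v v
  rw [ip_zero, qf_zero] at this
  simpa using this

theorem herm_conj {P : Matrix n n ℂ} (h : P.IsHermitian) (K : Matrix n n ℂ) :
    (Kᴴ * P * K).IsHermitian := by
  unfold Matrix.IsHermitian
  rw [conjTranspose_mul, conjTranspose_mul, conjTranspose_conjTranspose, h.eq, Matrix.mul_assoc]

theorem inv_herm (A : Matrix n n ℂ) : (cpw A (-1))ᴴ = cpw A (-1) := by
  rw [cpw_ct]
  simp

theorem herm_smul {P : Matrix n n ℂ} (h : P.IsHermitian) (x : ℝ) :
    ((x : ℂ) • P).IsHermitian := by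
  unfold Matrix.IsHermitian
  rw [conjTranspose_smul, h.eq]
  simp

end MeanTA

open MeanTA

theorem tderiv (M : α → Matrix n n ℂ) (T : Tr α) (h : T.All fun a => Pd (M a)) :
    ∃ D : (α → Matrix n n ℂ) →ₗ[ℂ] Matrix n n ℂ,
      (∀ X : α → Matrix n n ℂ, (T.All fun a => (X a).IsHermitian) → (D X).IsHermitian) ∧
      (∀ P X R : α → Matrix n n ℂ,
        (T.All fun a => (P a).IsHermitian ∧ (R a).IsHermitian ∧ Blk (P a) (X a) (R a)) →
        Blk (D P) (D X) (D R)) ∧
      (∀ E, D (fun a => M a * E) = T.val M * E) ∧ (∀ E, D (fun a => E * M a) = E * T.val M) ∧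
      (∀ (φ : α → ℝ) (P : Matrix n n ℂ), (T.All fun a => Commute P (M a)) →
        D (fun a => (φ a : ℂ) • (M a * P)) = (T.ex φ : ℂ) • (T.val M * P)) ∧
      ∀ M' : α → Matrix n n ℂ, (T.All fun a => Pd (M' a)) → Le (T.val M') 1 (D M') := by
  induction T with
  | lf c =>
    refine ⟨LinearMap.proj c, fun X hX => hX, fun P X R hP => hP.2.2, fun E => rfl, fun E => rfl,
      fun φ P _ => rfl, fun M' _ v => ?_⟩
    rw [one_mul]
    exact le_rfl
  | nd l r ihl ihr =>
    obtain ⟨Dl, l1, l2, l3, l4, l5, l6⟩ := ihl h.1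
    obtain ⟨Dr, r1, r2, r3, r4, r5, r6⟩ := ihr h.2
    have hA : Pd (l.val M) := Tr.val_pd h.1
    have hB : Pd (r.val M) := Tr.val_pd h.2
    have hG : Pd (gm (l.val M) (r.val M)) := gm_pd hA hB
    have hric := gm_ric hA hB
    obtain ⟨Φ, f1, f2, f3⟩ := syl hA hG
    have hv : (Tr.nd l r).val M = gm (l.val M) (r.val M) := rfl
    rw [hv]
    obtain ⟨i1, i2⟩ := cpw_inv hA
    have hih := inv_herm (l.val M)
    have hcG : ∀ P : Matrix n n ℂ, (l.All fun a => Commute P (M a)) →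
        (r.All fun a => Commute P (M a)) →
        Commute P (gm (l.val M) (r.val M)) ∧ Commute P (cpw (l.val M) (-1)) := fun P h1 h2 =>
      ⟨gm_comm (Tr.val_comm h1) (Tr.val_comm h2), cpw_comm (Tr.val_comm h1) _⟩
    generalize cpw (l.val M) (-1) = Ai at *
    generalize gm (l.val M) (r.val M) = G at *
    generalize l.val M = A at *
    generalize r.val M = B at *
    have hK : (Ai * G)ᴴ = G * Ai := by rw [conjTranspose_mul, hih, hG.1.eq]
    let D : (α → Matrix n n ℂ) →ₗ[ℂ] Matrix n n ℂ :=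
      Φ ∘ₗ (Dr + (LinearMap.mulRight ℂ (Ai * G)) ∘ₗ (LinearMap.mulLeft ℂ (Ai * G)ᴴ) ∘ₗ Dl)
    have hD : ∀ X, D X = Φ (Dr X + (Ai * G)ᴴ * Dl X * (Ai * G)) := fun X => rfl
    have hH : ∀ X : α → Matrix n n ℂ, ((Tr.nd l r).All fun a => (X a).IsHermitian) →
        (Dr X + (Ai * G)ᴴ * Dl X * (Ai * G)).IsHermitian := fun X hX =>
      (r1 X hX.2).add (herm_conj (l1 X hX.1) _)
    refine ⟨D, fun X hX => ?_, fun P X R hP => ?_, fun E => ?_, fun E => ?_, fun φ P hP => ?_,
      fun M' hM' v => ?_⟩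
    · rw [hD]
      unfold Matrix.IsHermitian
      rw [← f2, (hH X hX).eq]
    · rw [hD, hD, hD]
      exact f3 _ _ _ (hH P (hP.mono fun a ha => ha.1)) (hH R (hP.mono fun a ha => ha.2.1))
        (blk_add (r2 P X R hP.2) (blk_conj (l2 P X R hP.1) _))
    · rw [hD, l3, r3, hK, ← f1 (G * E)]
      congr 1
      have e1 : G * Ai * (A * E) * (Ai * G) = G * (Ai * A) * E * Ai * G := by
        simp only [Matrix.mul_assoc]
      rw [e1, i1, Matrix.mul_one, add_comm, ← hric]
      simp only [Matrix.mul_assoc]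
    · rw [hD, l4, r4, hK, ← f1 (E * G)]
      congr 1
      have e1 : G * Ai * (E * A) * (Ai * G) = G * Ai * E * (A * Ai) * G := by
        simp only [Matrix.mul_assoc]
      rw [e1, i2, Matrix.mul_one, ← hric]
      simp only [Matrix.mul_assoc]
    · obtain ⟨c1, c2⟩ := hcG P hP.1 hP.2
      rw [hD, l5 φ P hP.1, r5 φ P hP.2, hK, ← f1 ((((Tr.nd l r).ex φ : ℝ) : ℂ) • (G * P))]
      congr 1
      have e0 : G * P * Ai * G = B * P := by
        rw [← hric, Matrix.mul_assoc G P, c2.eq, Matrix.mul_assoc G, Matrix.mul_assoc Ai, c1.eq]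
        simp only [Matrix.mul_assoc]
      have e1 : G * Ai * (A * P) * (Ai * G) = B * P := by
        have : G * Ai * (A * P) * (Ai * G) = G * (Ai * A) * P * Ai * G := by
          simp only [Matrix.mul_assoc]
        rw [this, i1, Matrix.mul_one, e0]
      have e2 : G * Ai * (G * P) = B * P := by
        rw [← hric]
        simp only [Matrix.mul_assoc]
      have e3 : (((Tr.nd l r).ex φ : ℝ) : ℂ) = ((l.ex φ : ℂ) + (r.ex φ : ℂ)) / 2 := by
        have : (Tr.nd l r).ex φ = (l.ex φ + r.ex φ) / 2 := rfl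
        rw [this]
        push_cast
        ring
      simp only [Matrix.mul_smul, Matrix.smul_mul]
      rw [e0, e1, e2, e3, ← add_smul, ← add_smul]
      congr 1
      ring
    · have hA' : Pd (l.val M') := Tr.val_pd hM'.1
      have hB' : Pd (r.val M') := Tr.val_pd hM'.2
      have hG' : Pd (gm (l.val M') (r.val M')) := gm_pd hA' hB'
      have hb := gm_blk hA' hB'
      have hv' : (Tr.nd l r).val M' = gm (l.val M') (r.val M') := rfl
      rw [hv', one_mul]
      have k1 := l6 M' hM'.1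
      have k2 := r6 M' hM'.2
      generalize gm (l.val M') (r.val M') = G' at *
      have hY : (Dr M' + (Ai * G)ᴴ * Dl M' * (Ai * G) -
          (G' * (Ai * G) + (Ai * G)ᴴ * G')).IsHermitian := by
        refine (hH M' (hM'.mono fun a ha => ha.1)).sub ?_
        unfold Matrix.IsHermitian
        rw [conjTranspose_add, conjTranspose_mul, conjTranspose_mul (Ai * G)ᴴ,
          conjTranspose_conjTranspose, hG'.1.eq, add_comm]
      have hpos : ∀ w, 0 ≤ qf (Dr M' + (Ai * G)ᴴ * Dl M' * (Ai * G) -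
          (G' * (Ai * G) + (Ai * G)ᴴ * G')) w := by
        intro w
        have a1 := k1 ((Ai * G) *ᵥ w)
        have a2 := k2 w
        have a3 := hb ((Ai * G) *ᵥ w) w
        have a4 : qf ((Ai * G)ᴴ * G') w = (ip ((Ai * G) *ᵥ w) G' w).re := by
          unfold qf
          rw [ip_left]
        have a5 : qf (G' * (Ai * G)) w = qf ((Ai * G)ᴴ * G') w := by
          rw [← qf_ct, conjTranspose_mul, hG'.1.eq]
        rw [qf_sub, qf_add, qf_add, qf_conj, a5, a4]
        linarith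
      have hb2 := f3 _ 0 0 hY isHermitian_zero (blk_zero hpos)
      rw [map_zero] at hb2
      have h3 := of_blk hb2 v
      have e : G' * (Ai * G) + (Ai * G)ᴴ * G' = G' * Ai * G + G * Ai * G' := by
        rw [hK, Matrix.mul_assoc G' Ai G]
      rw [map_sub, e, f1, ← hD, qf_sub] at h3
      linarith

/-- monotone and homogeneous: `val M' ≤ D M' ≤ D (x M) = x val M` -/
theorem Tr.val_mono {M M' : α → Matrix n n ℂ} {T : Tr α} {x : ℝ}
    (h : T.All fun a => Pd (M a) ∧ Pd (M' a) ∧ Le (M' a) x (M a)) :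
    Le (T.val M') x (T.val M) := by
  obtain ⟨D, -, d2, d3, -, -, d6⟩ := tderiv M T (h.mono fun a ha => ha.1)
  intro v
  have h1 := d6 M' (h.mono fun a ha => ha.2.1) v
  have h2 := d2 ((x : ℂ) • M - M') 0 0 (h.mono fun a ha => by
    refine ⟨(herm_smul ha.1.1 x).sub ha.2.1.1, isHermitian_zero, blk_zero fun w => ?_⟩
    have := ha.2.2 w
    change 0 ≤ qf ((x : ℂ) • M a - M' a) w
    rw [qf_sub, qf_smul]
    linarith)
  rw [map_zero] at h2
  have h3 := of_blk h2 v
  have h4 : D M = T.val M := by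
    have := d3 1
    simpa only [Matrix.mul_one] using this
  rw [map_sub, map_smul, h4, qf_sub, qf_smul] at h3
  linarith
theorem Tr.val_same {A : Matrix n n ℂ} (hA : Pd A) (T : Tr α) : T.val (fun _ => A) = A := by
  induction T with
  | lf c => rfl
  | nd l r ihl ihr =>
    have hv : (Tr.nd l r).val (fun _ => A) = gm (l.val fun _ => A) (r.val fun _ => A) := rfl
    rw [hv, ihl, ihr]
    exact gm_unique hA hA (by rw [(cpw_inv hA).2, Matrix.one_mul])
theorem Tr.val_spIn {M : α → Matrix n n ℂ} {T : Tr α} {lo hi : ℝ} (h0 : 0 < lo)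
    (h : T.All fun a => SpIn (M a) lo hi) : SpIn (T.val M) lo hi := by
  have hp : T.All fun a => Pd (M a) := h.mono fun a ha => ha.pd h0
  refine ⟨(Tr.val_pd hp).1, fun v => ⟨?_, ?_⟩⟩
  · have h1 : Le (T.val fun _ => (1 : Matrix n n ℂ)) lo⁻¹ (T.val M) :=
      Tr.val_mono (h.mono fun a ha => ⟨ha.pd h0, pd_one, fun w => by
        rw [qf_one, ← div_eq_inv_mul, le_div_iff₀ h0, mul_comm]
        exact (ha.2 w).1⟩)
    have h2 := h1 v
    rw [Tr.val_same pd_one, qf_one, ← div_eq_inv_mul, le_div_iff₀ h0, mul_comm] at h2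
    exact h2
  · have h1 : Le (T.val M) hi (T.val fun _ => (1 : Matrix n n ℂ)) :=
      Tr.val_mono (h.mono fun a ha => ⟨pd_one, ha.pd h0, fun w => by
        rw [qf_one]
        exact (ha.2 w).2⟩)
    have h2 := h1 v
    rw [Tr.val_same pd_one, qf_one] at h2
    exact h2

end Vale.Agent.P356G
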