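import Vale.Agent.P356G.Mean

/- Trees. `tderiv` is the derivative of `val` at `M`; induction on the tree. Leaf `c`: `D X = X c`.
Node with values `A`, `B`, `G = gm A B`, `Φ` from `syl`:
`D X = Φ (Dr X + G A⁻¹ (Dl X) A⁻¹ G)` (`A⁻¹ = cpw A (-1)`, Hermitian).
(right) `D (M c * E) = G E`: `Φ` of `B E + G A⁻¹ A E A⁻¹ G = (G E) A⁻¹ G + G A⁻¹ (G E)` by `gm_ric`.
(weights) `X_l = a A Q`, `X_r = b B Q`, answer `((a + b) / 2) G Q`, `Q` commutes with `A`, `G`.
(super) with `G' = gm A' B'`: `D N - G' = Φ (Dr N + G A⁻¹ (Dl N) A⁻¹ G - G' A⁻¹ G - G A⁻¹ G')` and the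
argument is `≥ 0` by `gm_blk` at `p = A⁻¹ G q`; positivity of `Φ` is `Blk P 0 0`. -/

namespace Vale.Agent.P356G

open Matrix Vale.Agent.P356

variable {n m : Type} [Fintype n] [DecidableEq n] [Fintype m] [DecidableEq m] {α β : Type}

theorem Tr.All.mono {p q : α → Prop} {T : Tr α} (h : T.All p) (hpq : ∀ a, p a → q a) :
    T.All q := by
  induction T with
  | lf a => exact hpq a h
  | nd l r ihl ihr => exact ⟨ihl h.1, ihr h.2⟩
theorem Tr.All.and {p q : α → Prop} {T : Tr α} (h : T.All p) (h' : T.All q) :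
    T.All fun a => p a ∧ q a := by
  induction T with
  | lf a => exact ⟨h, h'⟩
  | nd l r ihl ihr => exact ⟨ihl h.1 h'.1, ihr h.2 h'.2⟩
theorem Tr.all_of {p : α → Prop} (T : Tr α) (h : ∀ a, p a) : T.All p := by
  induction T with
  | lf a => exact h a
  | nd l r ihl ihr => exact ⟨ihl, ihr⟩
theorem Tr.all_bind {p : β → Prop} (U : α → Tr β) (T : Tr α) :
    (T.bind U).All p ↔ T.All fun a => (U a).All p := by
  induction T with
  | lf a => exact Iff.rfl
  | nd l r ihl ihr => exact and_congr ihl ihr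
theorem Tr.all_map {p : β → Prop} (f : α → β) (T : Tr α) :
    (T.map f).All p ↔ T.All fun a => p (f a) := by
  induction T with
  | lf a => exact Iff.rfl
  | nd l r ihl ihr => exact and_congr ihl ihr
theorem Tr.all_bal (p o : ℕ) : (Tr.bal p o).All fun r => o ≤ r ∧ r < o + 2 ^ p := by
  induction p generalizing o with
  | zero => exact ⟨le_rfl, by simp⟩
  | succ p ih =>
    refine ⟨(ih o).mono fun r hr => ⟨hr.1, ?_⟩, (ih (o + 2 ^ p)).mono fun r hr => ⟨?_, ?_⟩⟩
    · rw [pow_succ]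
      omega
    · exact le_trans (Nat.le_add_right _ _) hr.1
    · rw [pow_succ]
      omega
theorem Tr.ex_bind (φ : β → ℝ) (U : α → Tr β) (T : Tr α) :
    (T.bind U).ex φ = T.ex fun a => (U a).ex φ := by
  induction T with
  | lf a => rfl
  | nd l r ihl ihr => simp only [Tr.bind, Tr.ex, ihl, ihr]
theorem Tr.ex_map (φ : β → ℝ) (f : α → β) (T : Tr α) :
    (T.map f).ex φ = T.ex fun a => φ (f a) := by
  induction T with
  | lf a => rfl
  | nd l r ihl ihr => simp only [Tr.map, Tr.ex, ihl, ihr]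
theorem Tr.ex_mono {φ ψ : α → ℝ} {T : Tr α} (h : T.All fun a => φ a ≤ ψ a) :
    T.ex φ ≤ T.ex ψ := by
  induction T with
  | lf a => exact h
  | nd l r ihl ihr =>
    have h1 := ihl h.1
    have h2 := ihr h.2
    simp only [Tr.ex]
    linarith
theorem Tr.ex_add (φ ψ : α → ℝ) (T : Tr α) : T.ex (fun a => φ a + ψ a) = T.ex φ + T.ex ψ := by
  induction T with
  | lf a => rfl
  | nd l r ihl ihr =>
    simp only [Tr.ex, ihl, ihr]
    ring
theorem Tr.ex_mul (x : ℝ) (φ : α → ℝ) (T : Tr α) : T.ex (fun a => x * φ a) = x * T.ex φ := by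
  induction T with
  | lf a => rfl
  | nd l r ihl ihr =>
    simp only [Tr.ex, ihl, ihr]
    ring
theorem Tr.ex_const (x : ℝ) (T : Tr α) : T.ex (fun _ => x) = x := by
  induction T with
  | lf a => rfl
  | nd l r ihl ihr =>
    simp only [Tr.ex, ihl, ihr]
    ring
theorem Tr.ex_sum {ι : Type} (S : Finset ι) (φ : ι → α → ℝ) (T : Tr α) :
    T.ex (fun a => ∑ i ∈ S, φ i a) = ∑ i ∈ S, T.ex (φ i) := by
  induction T with
  | lf a => rfl
  | nd l r ihl ihr => simp only [Tr.ex, ihl, ihr, ← Finset.sum_div, Finset.sum_add_distrib]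
theorem Tr.ex_bal (φ : ℕ → ℝ) (p o : ℕ) :
    (Tr.bal p o).ex φ = (∑ r ∈ Finset.range (2 ^ p), φ (o + r)) / 2 ^ p := by
  induction p generalizing o with
  | zero => simp [Tr.bal, Tr.ex]
  | succ p ih =>
    simp only [Tr.bal, Tr.ex, ih]
    rw [pow_succ 2 p, mul_two, Finset.sum_range_add, pow_succ]
    simp only [add_assoc]
    ring
theorem Tr.val_bind (M : β → Matrix n n ℂ) (U : α → Tr β) (T : Tr α) :
    (T.bind U).val M = T.val fun a => (U a).val M := by
  induction T with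
  | lf a => rfl
  | nd l r ihl ihr => simp only [Tr.bind, Tr.val, ihl, ihr]
theorem Tr.val_map (M : β → Matrix n n ℂ) (f : α → β) (T : Tr α) :
    (T.map f).val M = T.val fun a => M (f a) := by
  induction T with
  | lf a => rfl
  | nd l r ihl ihr => simp only [Tr.map, Tr.val, ihl, ihr]
theorem Tr.val_congr {M M' : α → Matrix n n ℂ} {T : Tr α} (h : T.All fun a => M a = M' a) :
    T.val M = T.val M' := by
  induction T with
  | lf a => exact h
  | nd l r ihl ihr => simp only [Tr.val, ihl h.1, ihr h.2]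
theorem Tr.val_pd {M : α → Matrix n n ℂ} {T : Tr α} (h : T.All fun a => Pd (M a)) :
    Pd (T.val M) := by
  induction T with
  | lf a => exact h
  | nd l r ihl ihr => exact gm_pd (ihl h.1) (ihr h.2)
theorem Tr.val_comm {M : α → Matrix n n ℂ} {T : Tr α} {Z : Matrix n n ℂ}
    (h : T.All fun a => Commute Z (M a)) : Commute Z (T.val M) := by
  induction T with
  | lf a => exact h
  | nd l r ihl ihr => exact gm_comm (ihl h.1) (ihr h.2)
theorem Tr.val_blocks {M : α → Matrix n n ℂ} {M' : α → Matrix m m ℂ} {T : Tr α}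
    (h : T.All fun a => Pd (M a)) (h' : T.All fun a => Pd (M' a)) :
    T.val (fun a => fromBlocks (M a) 0 0 (M' a)) = fromBlocks (T.val M) 0 0 (T.val M') := by
  induction T with
  | lf a => rfl
  | nd l r ihl ihr =>
    simp only [Tr.val, ihl h.1 h'.1, ihr h.2 h'.2]
    exact gm_blocks (Tr.val_pd h.1) (Tr.val_pd h.2) (Tr.val_pd h'.1) (Tr.val_pd h'.2)
theorem Tr.val_smul {A : Matrix n n ℂ} (hA : Pd A) {x : α → ℝ} (T : Tr α) :
    T.val (fun a => (Real.exp (x a) : ℂ) • A) = (Real.exp (T.ex x) : ℂ) • A := by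
  induction T with
  | lf a => rfl
  | nd l r ihl ihr =>
    simp only [Tr.val, Tr.ex]
    rw [ihl, ihr, gm_smul hA (Real.exp_pos _) (Real.exp_pos _), ← Real.exp_add, Real.exp_half]
/-- arithmetic mean bound -/
theorem Tr.val_am {M : α → Matrix n n ℂ} {T : Tr α} (h : T.All fun a => Pd (M a)) (v : n → ℂ) :
    qf (T.val M) v ≤ T.ex fun a => qf (M a) v := by
  induction T with
  | lf a => exact le_rfl
  | nd l r ihl ihr =>
    have h1 := ihl h.1
    have h2 := ihr h.2
    have h3 : 2 * qf (gm (l.val M) (r.val M)) v ≤ _ := gm_blk (Tr.val_pd h.1) (Tr.val_pd h.2) v v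
    simp only [Tr.val, Tr.ex]
    linarith

end Vale.Agent.P356G
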