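import Vale.Agent.P356G.MomL0

/- Doubling, as in `single` of P356/Fid.lean. `κ = KK ncross / Δ`, `κ s ^ 2 ≤ 1`: `tilt_gap` gives
`mo (1 + s) (1 - κ s ^ 2 / 8) ≤ mo (1 + s / 2) ^ 2`, so `mo (1 + s) ≤ exp (κ s ^ 2 / 4) mo (1 + s / 2) ^ 2`; by
induction on `j`, `mo (1 + s) ≤ exp (- s S + C s ^ 2 / 2 ^ j + κ s ^ 2 / 2)` for all `0 < |s| ≤ 1/4` with
`κ s ^ 2 ≤ 1`. Base `mo_small`: `exp y ≤ 1 + y + y ^ 2 exp |y|`, applied to `y = s log l` for `l > 0`. -/

namespace Vale.Agent.P356G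

open Matrix Vale.Agent.P356

variable {Λ Q : Type} [Fintype Λ] [DecidableEq Λ] [Fintype Q] [DecidableEq Q] [Nonempty Q]

namespace MomLA

theorem exp_le (y : ℝ) : Real.exp y ≤ 1 + y + y ^ 2 * Real.exp |y| := by
  rcases le_total y 0 with h | h
  · exact (bip_exp h).trans (by nlinarith [Real.one_le_exp (abs_nonneg y), sq_nonneg y])
  · have h1 : Real.exp y ≤ 1 + y * Real.exp y := by
      have := mul_le_mul_of_nonneg_right (Real.add_one_le_exp (-y)) (Real.exp_pos y).le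
      rw [← Real.exp_add, neg_add_cancel, Real.exp_zero] at this
      linarith
    rw [abs_of_nonneg h]
    linarith [mul_le_mul_of_nonneg_left h1 h]

theorem term {l s : ℝ} (hl : 0 ≤ l) (hs : |s| ≤ 1 / 4) : l ^ (1 + s) ≤
    l - s * Real.negMulLog l + l * Real.log l ^ 2 * Real.exp |Real.log l| * s ^ 2 := by
  rcases hl.eq_or_lt with rfl | h
  · rw [Real.zero_rpow (by linarith [(abs_le.1 hs).1])]; simp
  have h1 : Real.exp |Real.log l * s| ≤ Real.exp |Real.log l| := by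
    rw [Real.exp_le_exp, abs_mul]
    exact mul_le_of_le_one_right (abs_nonneg _) (by linarith)
  have h2 := (exp_le (Real.log l * s)).trans
    (add_le_add_right (mul_le_mul_of_nonneg_left h1 (sq_nonneg _)) _)
  rw [Real.rpow_add h, Real.rpow_one, Real.rpow_def_of_pos h, Real.negMulLog]
  linarith [mul_le_mul_of_nonneg_left h2 hl]

theorem eig (A : Finset Λ) {Ω : (Λ → Q) → ℂ} (hΩ : nsq Ω = 1) :
    (∀ i, 0 ≤ (rho_herm A Ω).eigenvalues i) ∧ ∑ i, (rho_herm A Ω).eigenvalues i = 1 := by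
  obtain ⟨V, l, hV, h1, -, h3, -⟩ := ent_basis A hΩ
  exact ⟨(rho_ps A Ω).eig, (sum_eig (rho_herm A Ω) hV l h1 id).trans h3⟩

end MomLA
open MomLA

theorem mo_small (A : Finset Λ) {Ω : (Λ → Q) → ℂ} (hΩ : nsq Ω = 1) : ∃ C : ℝ, 0 ≤ C ∧
    ∀ s : ℝ, |s| ≤ 1 / 4 → mo A Ω (1 + s) ≤ Real.exp (-(s * entropy A Ω) + C * s ^ 2) := by
  obtain ⟨h1, h2⟩ := eig A hΩ
  refine ⟨∑ i, (rho_herm A Ω).eigenvalues i * Real.log ((rho_herm A Ω).eigenvalues i) ^ 2 *
    Real.exp |Real.log ((rho_herm A Ω).eigenvalues i)|,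
    Finset.sum_nonneg fun i _ => by have := h1 i; positivity, fun s hs => ?_⟩
  refine (Finset.sum_le_sum fun i _ => term (h1 i) hs).trans (le_trans (le_of_eq ?_)
    (Real.add_one_le_exp _))
  rw [Finset.sum_add_distrib, Finset.sum_sub_distrib, h2, ← Finset.mul_sum, ← Finset.sum_mul, entropy]
  ring

theorem mom_gapped {T : Finset (Finset Λ)} {h : Finset Λ → Matrix (Λ → Q) (Λ → Q) ℂ}
    {Ω : (Λ → Q) → ℂ} {E0 Δ J : ℝ} {m : ℕ} (G : Gapped T h Ω E0 Δ J m) (hJ : 0 ≤ J) (hΔ : 0 < Δ)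
    (A : Finset Λ) {s : ℝ} (hs0 : 0 < s) (hs : s ≤ 1 / 4)
    (hE : KK Q J m * s ^ 2 * ncross T A ≤ Δ) : Mom A Ω s 1 := by
  have hK := fid_KK_nonneg (Q := Q) hJ m
  obtain ⟨C, hC, h0⟩ := mo_small A G.norm1
  have hm : ∀ a, 0 ≤ mo A Ω a := fun a =>
    Finset.sum_nonneg fun i _ => Real.rpow_nonneg ((eig A G.norm1).1 i) _
  obtain ⟨κ, hκ⟩ : ∃ κ, κ = KK Q J m * ncross T A / Δ := ⟨_, rfl⟩
  have hκ0 : 0 ≤ κ := by rw [hκ]; positivity
  have key : ∀ j : ℕ, ∀ s : ℝ, s ≠ 0 → |s| ≤ 1 / 4 → κ * s ^ 2 ≤ 1 → mo A Ω (1 + s) ≤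
      Real.exp (-(s * entropy A Ω) + C * s ^ 2 * (1 / 2) ^ j + κ * s ^ 2 / 2) := by
    intro j
    induction j with
    | zero =>
      intro s _ h2 _
      refine (h0 s h2).trans (Real.exp_le_exp.2 ?_)
      have : 0 ≤ κ * s ^ 2 := by positivity
      rw [pow_zero]
      linarith
    | succ j ih =>
      intro s h1 h2 h3
      have k0 : 0 ≤ κ * s ^ 2 := by positivity
      have k1 := tilt_gap G hJ A h1 h2
      have e : KK Q J m * s ^ 2 * ncross T A / 8 * mo A Ω (1 + s) =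
          Δ * (κ * s ^ 2 / 8 * mo A Ω (1 + s)) := by rw [hκ]; field_simp
      rw [e] at k1
      have k2 := le_of_mul_le_mul_left k1 hΔ
      have k3 := pow_le_pow_left₀ (hm _) (ih (s / 2) (by positivity)
        (by rw [abs_div, abs_two]; linarith [abs_nonneg s]) (by linarith)) 2
      have k4 : 1 ≤ (1 - κ * s ^ 2 / 8) * Real.exp (κ * s ^ 2 / 4) := by
        have := mul_le_mul_of_nonneg_left (Real.add_one_le_exp (κ * s ^ 2 / 4))
          (show 0 ≤ 1 - κ * s ^ 2 / 8 by linarith)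
        nlinarith
      have k5 := mul_le_mul_of_nonneg_right (show (1 - κ * s ^ 2 / 8) * mo A Ω (1 + s) ≤ _ from
        le_trans (by linarith) k3) (Real.exp_pos (κ * s ^ 2 / 4)).le
      rw [← Real.exp_nat_mul, ← Real.exp_add] at k5
      refine le_trans (by nlinarith [hm (1 + s)]) (k5.trans (le_of_eq ?_))
      congr 1
      push_cast
      ring
  have fin : ∀ s : ℝ, s ≠ 0 → |s| ≤ 1 / 4 → κ * s ^ 2 ≤ 1 →
      mo A Ω (1 + s) ≤ Real.exp (-(s * entropy A Ω) + 1) := fun s h1 h2 h3 => by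
    have h4 : Filter.Tendsto (fun j : ℕ =>
        Real.exp (-(s * entropy A Ω) + C * s ^ 2 * (1 / 2) ^ j + 1)) Filter.atTop
        (nhds (Real.exp (-(s * entropy A Ω) + C * s ^ 2 * 0 + 1))) :=
      (Real.continuous_exp.tendsto _).comp ((((tendsto_pow_atTop_nhds_zero_of_lt_one
        (by norm_num) (by norm_num)).const_mul _).const_add _).add_const _)
    rw [mul_zero, add_zero] at h4
    exact ge_of_tendsto' h4 fun j => (key j s h1 h2 h3).trans (Real.exp_le_exp.2 (by linarith))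
  have hk : κ * s ^ 2 ≤ 1 := by
    rw [hκ, div_mul_eq_mul_div, div_le_one hΔ]
    linarith
  refine ⟨fin s hs0.ne' (by rwa [abs_of_pos hs0]) hk, ?_⟩
  simpa [sub_eq_add_neg] using fin (-s) (neg_ne_zero.2 hs0.ne')
    (by rwa [abs_neg, abs_of_pos hs0]) (by rwa [neg_sq])

end Vale.Agent.P356G
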