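import Vale.Agent.P356G.D2
import Vale.Agent.P356G.SCa

/- Moments from the gap. `ρ = rho A Ω = fr V l`, `u = lift A (fr V (l ^ (s / 2))) Ω` (real power, `0 ^ x = 0` for
`x ≠ 0`), `nsq u = mo (1 + s)`, `<Ω, u> = mo (1 + s / 2)`.
`tilt_energy`: `<Ω, lift (l ^ s) (H - E0) Ω> = 0`; a term inside `A` (cyclicity of the trace, `ip_lift`) or
disjoint from `A` (`Loc.comm`) has `<u, h u> = <Ω, lift (l ^ s) h Ω>`. For a crossing term use `decomp`,
`defect_ip`, `defect_trace`, `defect_polar`, `defect_schur` of P356/Defect.lean: in the eigenbasis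
`<u, h u> - (<Ω, l ^ s h Ω> + <Ω, h l ^ s Ω>) / 2` has the coefficients
`- √(l i l j) (l i ^ (s/2) - l j ^ (s/2)) ^ 2 / 2`, bounded by `tilt_scalar`; apply `defect_schur` to the
weights `l ^ (1 + s) / mo (1 + s)`. Each of the `q ^ (2 m)` pieces has a coefficient at most `J`.
`tilt_scalar`: `x = y exp (-r)`.., `|exp t - 1| ≤ |t| exp |t|`, `r ^ 2 exp (- r / 4) ≤ 9`. -/

namespace Vale.Agent.P356G

open Matrix Vale.Agent.P356

namespace MomL0A

theorem exp_sub (t : ℝ) : |Real.exp t - 1| ≤ |t| * Real.exp |t| := by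
  rcases le_total 0 t with h | h
  · have h1 := mul_le_mul_of_nonneg_right (Real.add_one_le_exp (-t)) (Real.exp_pos t).le
    rw [← Real.exp_add, neg_add_cancel, Real.exp_zero] at h1
    rw [abs_of_nonneg h, abs_of_nonneg (sub_nonneg.2 (Real.one_le_exp h))]
    linarith
  · have h1 := mul_le_mul_of_nonneg_left (Real.one_le_exp (neg_nonneg.2 h)) (neg_nonneg.2 h)
    rw [abs_of_nonpos h, abs_of_nonpos (sub_nonpos.2 (Real.exp_le_one_iff.2 h))]
    linarith [Real.add_one_le_exp t]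

theorem scalar {x y s : ℝ} (hy : 0 < y) (hxy : y ≤ x) (hs : |s| ≤ 1 / 4) :
    Real.sqrt x * Real.sqrt y * (x ^ (s / 2) - y ^ (s / 2)) ^ 2 ≤ 4 * s ^ 2 * x ^ (1 + s) := by
  have hx := hy.trans_le hxy
  obtain ⟨r, hr⟩ : ∃ r, r = Real.log x - Real.log y := ⟨_, rfl⟩
  have hr0 : 0 ≤ r := hr ▸ sub_nonneg.2 (Real.log_le_log hy hxy)
  have e1 : y ^ (s / 2) = x ^ (s / 2) * Real.exp (-(s * r / 2)) := by
    rw [Real.rpow_def_of_pos hx, Real.rpow_def_of_pos hy, ← Real.exp_add, hr]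
    congr 1
    ring
  have e2 : Real.sqrt x * Real.sqrt y * (x ^ (s / 2)) ^ 2 *
      (Real.exp (r / 8) ^ 2 * Real.exp (r / 8) ^ 2) = x ^ (1 + s) := by
    rw [Real.sqrt_eq_rpow, Real.sqrt_eq_rpow, Real.rpow_def_of_pos hx, Real.rpow_def_of_pos hx,
      Real.rpow_def_of_pos hx, Real.rpow_def_of_pos hy]
    simp only [sq, ← Real.exp_add, hr]
    congr 1
    ring
  have h1 : |-(s * r / 2)| = |s| * r / 2 := by
    rw [abs_neg, abs_div, abs_mul, abs_of_nonneg hr0, abs_two]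
  have h2 := exp_sub (-(s * r / 2))
  rw [h1] at h2
  have h3 : Real.exp (|s| * r / 2) ≤ Real.exp (r / 8) :=
    Real.exp_le_exp.2 (by nlinarith)
  have h4 : r ≤ 4 * Real.exp (r / 8) := by
    have := Real.quadratic_le_exp_of_nonneg (show 0 ≤ r / 8 by linarith)
    nlinarith [sq_nonneg (r / 8 - 1)]
  have h5 : |Real.exp (-(s * r / 2)) - 1| ≤ 2 * |s| * (Real.exp (r / 8) * Real.exp (r / 8)) := by
    refine h2.trans ((mul_le_mul (div_le_div_of_nonneg_right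
      (mul_le_mul_of_nonneg_left h4 (abs_nonneg s)) zero_le_two) h3 (Real.exp_pos _).le
      (by positivity)).trans (le_of_eq ?_))
    ring
  have h6 := pow_le_pow_left₀ (abs_nonneg _) h5 2
  rw [sq_abs, mul_pow, mul_pow, sq_abs, mul_pow] at h6
  have h7 := mul_le_mul_of_nonneg_left h6
    (show 0 ≤ Real.sqrt x * Real.sqrt y * (x ^ (s / 2)) ^ 2 by positivity)
  rw [← e2, e1]
  linarith

end MomL0A

theorem tilt_scalar {x y s : ℝ} (hx : 0 ≤ x) (hy : 0 ≤ y) (hs : |s| ≤ 1 / 4) :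
    Real.sqrt x * Real.sqrt y * (x ^ (s / 2) - y ^ (s / 2)) ^ 2 ≤
      4 * s ^ 2 * (x ^ (1 + s) + y ^ (1 + s)) := by
  have h1 := Real.rpow_nonneg hx (1 + s)
  have h2 := Real.rpow_nonneg hy (1 + s)
  have h3 := mul_nonneg (sq_nonneg s) h1
  have h4 := mul_nonneg (sq_nonneg s) h2
  rcases hx.eq_or_lt with rfl | hx
  · rw [Real.sqrt_zero, zero_mul, zero_mul]
    linarith
  rcases hy.eq_or_lt with rfl | hy
  · rw [Real.sqrt_zero, mul_zero, zero_mul]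
    linarith
  rcases le_total y x with h | h
  · linarith [MomL0A.scalar hy h hs]
  · linarith [MomL0A.scalar hx h hs]

namespace MomL0A

section
variable {n m : Type} [Fintype n] [DecidableEq n] [Fintype m] [DecidableEq m]

omit [DecidableEq n] in
theorem schur (w : n → ℝ) (hw : ∀ i, 0 ≤ w i) {M W : Matrix n n ℂ} (hM : Ctr M) (hW : Ctr W) :
    ∑ i, ∑ j, (w i + w j) * (‖M i j‖ * ‖W j i‖) ≤ 2 * ∑ i, w i := by
  rcases (Finset.sum_nonneg fun i (_ : i ∈ Finset.univ) => hw i).eq_or_lt with h | h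
  · have h1 : ∀ i, w i = 0 := fun i =>
      (Finset.sum_eq_zero_iff_of_nonneg fun i _ => hw i).1 h.symm i (Finset.mem_univ i)
    simp [h1]
  · have h1 := defect_schur (fun i => w i / ∑ i, w i) (fun i => div_nonneg (hw i) h.le)
      (by rw [← Finset.sum_div, div_self h.ne']) hM hW
    simp only [← add_div, div_mul_eq_mul_div, ← Finset.sum_div] at h1
    exact (div_le_iff₀ h).1 h1

omit [DecidableEq m] in
theorem bip (U : Matrix n m ℂ) {V : Matrix n n ℂ} (hV : V * Vᴴ = 1) (l : n → ℝ)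
    (hρ : U * Uᴴ = fr V l) {s : ℝ} (hs : |s| ≤ 1 / 4) (α : Matrix n n ℂ) (β : Matrix m m ℂ)
    (hα : Ctr α) (hβ : Ctr β) {F : Matrix n n ℂ} (hF : F = fr V fun i => l i ^ (s / 2)) :
    ‖2 * trace (Uᴴ * (F * α * F * U * β)) - trace (Uᴴ * (F * F * α * 1 * U * β)) -
      trace (Uᴴ * (1 * α * (F * F) * U * β))‖ ≤ 8 * s ^ 2 * ∑ i, l i ^ (1 + s) := by
  classical
  have hl : ∀ i, 0 ≤ l i := eig_nonneg hV U l hρ
  have hV' := uni_symm hV
  have hT : (Vᴴ * U) * (Vᴴ * U)ᴴ = diagonal fun i => (l i : ℂ) := by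
    rw [conjTranspose_mul, conjTranspose_conjTranspose, Matrix.mul_assoc, ← Matrix.mul_assoc U, hρ]
    unfold fr fn
    simp only [Matrix.mul_assoc]
    rw [hV', Matrix.mul_one, ← Matrix.mul_assoc, hV', Matrix.one_mul]
  obtain ⟨O, hO, hTO⟩ := defect_polar (Vᴴ * U) l hl hT
  have cV : Ctr V := fun v => (nsq_uni hV v).le
  have hM : Ctr (Vᴴ * α * V) := defect_ctr_mul (defect_ctr_mul (defect_ctr_ct cV) hα) cV
  have hW : Ctr (O * β * Oᴴ) := defect_ctr_mul (defect_ctr_mul hO hβ) (defect_ctr_ct hO)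
  have hB : ∀ j i, ((Vᴴ * U) * β * (Vᴴ * U)ᴴ) j i =
      (Real.sqrt (l j) : ℂ) * (O * β * Oᴴ) j i * (Real.sqrt (l i) : ℂ) := by
    intro j i
    have e : (Vᴴ * U) * β * (Vᴴ * U)ᴴ = diagonal (fun i => (Real.sqrt (l i) : ℂ)) * (O * β * Oᴴ) *
        diagonal (fun i => (Real.sqrt (l i) : ℂ)) := by
      rw [hTO, conjTranspose_mul, diagonal_conjTranspose]
      have e2 : star (fun i => (Real.sqrt (l i) : ℂ)) = fun i => (Real.sqrt (l i) : ℂ) := by
        funext i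
        simp
      rw [e2]
      simp only [Matrix.mul_assoc]
    rw [e, mul_diagonal, diagonal_mul]
  rw [hF, fr_mul hV, ← fn_one hV]
  unfold fr
  rw [defect_trace, defect_trace, defect_trace, Finset.mul_sum, ← Finset.sum_sub_distrib,
    ← Finset.sum_sub_distrib]
  have key := schur (fun i => l i ^ (1 + s)) (fun i => Real.rpow_nonneg (hl i) _) hM hW
  have e4 : 8 * s ^ 2 * ∑ i, l i ^ (1 + s) = 4 * s ^ 2 * (2 * ∑ i, l i ^ (1 + s)) := by ring
  rw [e4]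
  refine le_trans ?_ (mul_le_mul_of_nonneg_left key (by positivity))
  rw [Finset.mul_sum]
  refine (norm_sum_le _ _).trans (Finset.sum_le_sum fun i _ => ?_)
  rw [Finset.mul_sum, Finset.mul_sum, ← Finset.sum_sub_distrib, ← Finset.sum_sub_distrib]
  refine (norm_sum_le _ _).trans (Finset.sum_le_sum fun j _ => ?_)
  rw [hB]
  have e5 : ∀ p q x y : ℝ, ∀ z w : ℂ, 2 * ((p : ℂ) * (q : ℂ) * (z * ((y : ℂ) * w * (x : ℂ)))) -
      ((p * p : ℝ) : ℂ) * 1 * (z * ((y : ℂ) * w * (x : ℂ))) -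
      1 * ((q * q : ℝ) : ℂ) * (z * ((y : ℂ) * w * (x : ℂ))) =
      -(((x * y * (p - q) ^ 2 : ℝ) : ℂ) * (z * w)) := by
    intro p q x y z w
    push_cast
    ring
  rw [e5, norm_neg, norm_mul, norm_mul, Complex.norm_real, Real.norm_of_nonneg (by positivity),
    ← mul_assoc (4 * s ^ 2)]
  exact mul_le_mul_of_nonneg_right (tilt_scalar (hl i) (hl j) hs) (by positivity)

omit [DecidableEq n] in
theorem gap {H : Matrix n n ℂ} {Ω : n → ℂ} {E Δ : ℝ}
    (h : ∀ u, nsq u = 1 → Δ * (1 - ‖star Ω ⬝ᵥ u‖ ^ 2) ≤ (ip u H u).re - E) (u : n → ℂ) :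
    Δ * (nsq u - ‖star Ω ⬝ᵥ u‖ ^ 2) ≤ (ip u H u).re - E * nsq u := by
  rcases (nsq_nonneg u).eq_or_lt with h0 | h0
  · rw [eq_zero_of_nsq u h0.symm]
    simp [nsq, ip]
  · have h1 : ((Real.sqrt (nsq u))⁻¹) ^ 2 * nsq u = 1 := by
      rw [inv_pow, Real.sq_sqrt h0.le, inv_mul_cancel₀ h0.ne']
    generalize (Real.sqrt (nsq u))⁻¹ = c at h1
    have h2 := h ((c : ℂ) • u) (by rw [nsq_smul, Complex.norm_real, Real.norm_eq_abs, sq_abs, h1])
    have h3 : ip ((c : ℂ) • u) H ((c : ℂ) • u) = ((c ^ 2 : ℝ) : ℂ) * ip u H u := by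
      simp only [ip, mulVec_smul, star_smul, dotProduct_smul, smul_dotProduct, smul_eq_mul,
        Complex.star_def, Complex.conj_ofReal]
      push_cast
      ring
    rw [h3, Complex.re_ofReal_mul, dotProduct_smul, smul_eq_mul, norm_mul, mul_pow,
      Complex.norm_real, Real.norm_eq_abs, sq_abs] at h2
    have h4 := mul_le_mul_of_nonneg_right h2 h0.le
    have h5 : Δ * (1 - c ^ 2 * ‖star Ω ⬝ᵥ u‖ ^ 2) * nsq u = Δ * (nsq u - ‖star Ω ⬝ᵥ u‖ ^ 2) := by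
      linear_combination (-(Δ * ‖star Ω ⬝ᵥ u‖ ^ 2)) * h1
    have h6 : (c ^ 2 * (ip u H u).re - E) * nsq u = (ip u H u).re - E * nsq u := by
      linear_combination (ip u H u).re * h1
    rwa [h5, h6] at h4

end

variable {Λ Q : Type} [Fintype Λ] [DecidableEq Λ] [Fintype Q] [DecidableEq Q] [Nonempty Q]

/-- the defect of one term -/
noncomputable def dfc (A : Finset Λ) (F : Matrix ({x // x ∈ A} → Q) ({x // x ∈ A} → Q) ℂ)
    (Ω : (Λ → Q) → ℂ) (h : Matrix (Λ → Q) (Λ → Q) ℂ) : ℂ :=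
  2 * ip Ω (lift A F * h * lift A F) Ω - ip Ω (lift A (F * F) * h * lift A 1) Ω -
    ip Ω (lift A 1 * h * lift A (F * F)) Ω

variable {A X : Finset Λ} {F : Matrix ({x // x ∈ A} → Q) ({x // x ∈ A} → Q) ℂ}
  {Ω : (Λ → Q) → ℂ} {h : Matrix (Λ → Q) (Λ → Q) ℂ}

theorem dfc_in (hl : Loc (fun x => x ∈ A) h) (hF : F * rho A Ω = rho A Ω * F) :
    dfc A F Ω h = 0 := by
  obtain ⟨m, rfl⟩ := hl.exists_lift
  simp only [dfc, ← lift_mul, ip_lift, ← rho_amp, Matrix.mul_one, Matrix.one_mul]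
  have e1 : trace (F * m * F * rho A Ω) = trace (F * F * m * rho A Ω) := by
    rw [Matrix.mul_assoc (F * m), hF, ← Matrix.mul_assoc, trace_mul_comm]
    simp only [Matrix.mul_assoc]
  have e2 : trace (m * (F * F) * rho A Ω) = trace (F * m * F * rho A Ω) := by
    rw [Matrix.mul_assoc F m, Matrix.mul_assoc F, trace_mul_comm F, Matrix.mul_assoc (m * F), ← hF]
    simp only [Matrix.mul_assoc]
  rw [e2, ← e1]
  ring

theorem dfc_out (hl : Loc (fun x => x ∉ A) h) : dfc A F Ω h = 0 := by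
  have e := (loc_lift A F).comm hl fun x hx h => h hx
  have e1 : lift A F * h * lift A F = lift A F * lift A F * h := by
    rw [Matrix.mul_assoc, ← e, Matrix.mul_assoc]
  have e2 : h * (lift A F * lift A F) = lift A F * h * lift A F := by
    rw [e, Matrix.mul_assoc]
  rw [dfc, lift_one, lift_mul, Matrix.mul_one, Matrix.one_mul, e2, ← e1]
  ring

theorem dfc_cross (hl : Loc (fun x => x ∈ X) h) {J : ℝ} (hJ0 : 0 ≤ J) (hJ : ∀ s t, ‖h s t‖ ≤ J)
    {m : ℕ} (hm : X.card ≤ m) {V : Matrix ({x // x ∈ A} → Q) ({x // x ∈ A} → Q) ℂ}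
    (hV : V * Vᴴ = 1) {l : ({x // x ∈ A} → Q) → ℝ} (hρ : rho A Ω = fr V l) {s : ℝ}
    (hs : |s| ≤ 1 / 4) (hF : F = fr V fun i => l i ^ (s / 2)) :
    ‖dfc A F Ω h‖ ≤ 2 * (KK Q J m * s ^ 2 / 8 * ∑ i, l i ^ (1 + s)) := by
  obtain ⟨c, α, β, hc, hα, hβ, rfl⟩ := decomp X A h hl J hJ
  rw [rho_amp] at hρ
  have h0 : 0 ≤ ∑ i, l i ^ (1 + s) :=
    Finset.sum_nonneg fun i _ => Real.rpow_nonneg (eig_nonneg hV _ l hρ i) _
  simp only [dfc, defect_ip_sum, defect_ip]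
  rw [Finset.mul_sum, ← Finset.sum_sub_distrib, ← Finset.sum_sub_distrib]
  refine (norm_sum_le _ _).trans ((Finset.sum_le_card_nsmul _ _
    (J * (8 * s ^ 2 * ∑ i, l i ^ (1 + s))) fun i _ => ?_).trans ?_)
  · rw [mul_left_comm, ← mul_sub, ← mul_sub, norm_mul]
    exact mul_le_mul (hc i) (bip _ hV l hρ hs _ _ (hα i) (hβ i) hF) (norm_nonneg _) hJ0
  · have hQ : (1 : ℝ) ≤ Fintype.card Q := Nat.one_le_cast.2 Fintype.card_pos
    have h2 : (Fintype.card Q : ℝ) ^ X.card * (Fintype.card Q : ℝ) ^ X.card ≤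
        (Fintype.card Q : ℝ) ^ (2 * m) := by
      rw [← pow_add]
      exact pow_le_pow_right₀ hQ (by omega)
    rw [nsmul_eq_mul, Finset.card_univ, Fintype.card_prod, Nat.cast_mul, card_in]
    refine (mul_le_mul_of_nonneg_right h2 (by positivity)).trans (le_of_eq ?_)
    unfold KK
    ring

omit [Nonempty Q] in
theorem dfc_sum (T : Finset (Finset Λ)) (h : Finset Λ → Matrix (Λ → Q) (Λ → Q) ℂ) :
    dfc A F Ω (∑ X ∈ T, h X) = ∑ X ∈ T, dfc A F Ω (h X) := by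
  simp only [dfc, ip, Matrix.sum_mul, Matrix.sum_mulVec, dotProduct_sum,
    Finset.sum_sub_distrib, Finset.mul_sum]

end MomL0A

variable {Λ Q : Type} [Fintype Λ] [DecidableEq Λ] [Fintype Q] [DecidableEq Q] [Nonempty Q]

theorem tilt_gap {T : Finset (Finset Λ)} {h : Finset Λ → Matrix (Λ → Q) (Λ → Q) ℂ}
    {Ω : (Λ → Q) → ℂ} {E0 Δ J : ℝ} {m : ℕ} (G : Gapped T h Ω E0 Δ J m) (hJ : 0 ≤ J)
    (A : Finset Λ) {s : ℝ} (hs0 : s ≠ 0) (hs : |s| ≤ 1 / 4) :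
    Δ * (mo A Ω (1 + s) - mo A Ω (1 + s / 2) ^ 2) ≤
      KK Q J m * s ^ 2 * ncross T A / 8 * mo A Ω (1 + s) := by
  obtain ⟨V, hV, hρ⟩ := herm_spec (rho_herm A Ω)
  unfold mo
  generalize (rho_herm A Ω).eigenvalues = l at hρ
  have hl : ∀ i, 0 ≤ l i := eig_nonneg hV _ l ((rho_amp A Ω).symm.trans hρ)
  obtain ⟨h1, h2⟩ := abs_le.1 hs
  obtain ⟨F, hF⟩ : ∃ F, F = fr V fun i => l i ^ (s / 2) := ⟨_, rfl⟩
  have hFh : (lift A F)ᴴ = lift A F := by rw [← lift_ct, hF, fr_ct]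
  have hFρ : F * rho A Ω = rho A Ω * F := by
    rw [hF, hρ, fr_mul hV, fr_mul hV]
    simp only [mul_comm]
  have e1 : star Ω ⬝ᵥ (lift A F *ᵥ Ω) = ((∑ i, l i ^ (1 + s / 2) : ℝ) : ℂ) := by
    have e : star Ω ⬝ᵥ (lift A F *ᵥ Ω) = ip Ω (lift A F) Ω := rfl
    rw [e, ip_lift, ← rho_amp, hF, hρ, fr_mul hV, ent_trace_fr hV]
    refine congrArg _ (Finset.sum_congr rfl fun i _ => ?_)
    rw [Real.rpow_add' (hl i) (by linarith), Real.rpow_one, mul_comm]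
  have e2 : star Ω ⬝ᵥ (lift A (F * F) *ᵥ Ω) = ((∑ i, l i ^ (1 + s) : ℝ) : ℂ) := by
    have e : star Ω ⬝ᵥ (lift A (F * F) *ᵥ Ω) = ip Ω (lift A (F * F)) Ω := rfl
    rw [e, ip_lift, ← rho_amp, hF, hρ, fr_mul hV, fr_mul hV, ent_trace_fr hV]
    refine congrArg _ (Finset.sum_congr rfl fun i _ => ?_)
    rw [Real.rpow_add' (hl i) (by linarith), Real.rpow_one, ← Real.rpow_add' (hl i)
      (by rwa [add_halves]), add_halves, mul_comm]
  have e3 : nsq (lift A F *ᵥ Ω) = ∑ i, l i ^ (1 + s) := by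
    rw [← Complex.ofReal_inj, nsq_eq, ← e2, lift_mul, ← mulVec_mulVec, dot_mulVec (lift A F) Ω, hFh]
  have hH : (∑ X ∈ T, h X)ᴴ = ∑ X ∈ T, h X := by
    rw [conjTranspose_sum]
    exact Finset.sum_congr rfl fun X hX => (G.herm X hX).eq
  have e4 : MomL0A.dfc A F Ω (∑ X ∈ T, h X) =
      2 * (ip (lift A F *ᵥ Ω) (∑ X ∈ T, h X) (lift A F *ᵥ Ω) -
        ((E0 * ∑ i, l i ^ (1 + s) : ℝ) : ℂ)) := by
    simp only [MomL0A.dfc, ip, lift_one, Matrix.mul_one, Matrix.one_mul, ← mulVec_mulVec]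
    rw [dot_mulVec (lift A F) Ω, hFh, dot_mulVec (∑ X ∈ T, h X) Ω, hH, G.eig, mulVec_smul,
      dotProduct_smul, star_smul, smul_dotProduct, e2]
    simp only [smul_eq_mul, Complex.star_def, Complex.conj_ofReal]
    push_cast
    ring
  have h3 := MomL0A.gap G.gap (lift A F *ᵥ Ω)
  rw [e1, e3, Complex.norm_real, Real.norm_eq_abs, sq_abs] at h3
  have h4 : ‖MomL0A.dfc A F Ω (∑ X ∈ T, h X)‖ ≤
      ncross T A * (2 * (KK Q J m * s ^ 2 / 8 * ∑ i, l i ^ (1 + s))) := by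
    rw [MomL0A.dfc_sum, ← Finset.sum_filter_of_ne (p := fun X => ¬ X ⊆ A ∧ ¬ Disjoint X A)
      fun X hX h0 => ⟨fun h5 => h0 (MomL0A.dfc_in ((G.loc X hX).mono fun x hx => h5 hx) hFρ),
        fun h5 => h0 (MomL0A.dfc_out ((G.loc X hX).mono fun x hx =>
          Finset.disjoint_left.1 h5 hx))⟩, ncross, ← nsmul_eq_mul]
    refine (norm_sum_le _ _).trans (Finset.sum_le_card_nsmul _ _ _ fun X hX => ?_)
    have hX' := (Finset.mem_filter.1 hX).1
    exact MomL0A.dfc_cross (G.loc X hX') hJ (G.ent X hX') (G.card X hX') hV hρ hs hF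
  rw [e4, norm_mul, Complex.norm_two] at h4
  have h5 := Complex.re_le_norm (ip (lift A F *ᵥ Ω) (∑ X ∈ T, h X) (lift A F *ᵥ Ω) -
    ((E0 * ∑ i, l i ^ (1 + s) : ℝ) : ℂ))
  rw [Complex.sub_re, Complex.ofReal_re] at h5
  linarith

end Vale.Agent.P356G
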