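import Vale.Agent.P356G.RepA0

/- Algebra of copy permutations and tensor products. `pm` is the permutation matrix of the bijection
`pa Y π`; prove everything for `pa` pointwise (`funext`, `by_cases s ∈ Y`) and use `pm_mulVec` with
`loc_mat_ext`-like extensionality. `tensF_mul`: `Finset.prod_univ_sum` / `Fintype.piFinset`.
Commutation of `pm` with `tensF`: both sides are entries `∏ j, E j (..) (..)`, reindex the product by
`π` and use the two clauses of `Loc`. -/

namespace Vale.Agent.P356G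

open Matrix Vale.Agent.P356

variable {Λ Q : Type} [Fintype Λ] [DecidableEq Λ] [Fintype Q] [DecidableEq Q] {N : ℕ}

open RepA0A

namespace RepAA

omit [Fintype Q] in
theorem one_diag (a : Fin N) (g : (Λ → Q) → ℂ) :
    one a (diagonal g) = diagonal fun x : Fin N → Λ → Q => g (x a) := by
  ext x y
  by_cases h : x = y
  · simp [one, h]
  · rw [diagonal_apply_ne _ h, one]
    split_ifs with h1
    · refine diagonal_apply_ne _ fun h2 => h (funext fun j => ?_)
      by_cases hj : j = a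
      · rw [hj, h2]
      · exact h1 j hj
    · rfl

omit [Fintype Λ] [Fintype Q] [DecidableEq Q] in
theorem site {Y : Finset Λ} {π : Equiv.Perm (Fin N)} {x y : Fin N → Λ → Q}
    {p : Fin N → Λ → Prop} (hp : ∀ j s, p j s → p (π j) s)
    (h : ∀ j s, p j s → x j s = pa Y π y j s) (j : Fin N) (s : Λ) (hs : p j s) :
    pa Y π⁻¹ x j s = y j s := by
  by_cases h1 : s ∈ Y
  · simp [pa, h1, h _ s (hp j s hs)]
  · simp [pa, h1, h j s hs]

omit [Fintype Λ] [DecidableEq Λ] [Fintype Q] [DecidableEq Q] in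
theorem zero {Z : Finset Λ} {E : Fin N → Matrix (Λ → Q) (Λ → Q) ℂ}
    (hE : ∀ j, Loc (fun z => z ∈ Z) (E j)) {u v : Fin N → Λ → Q}
    (h : ¬ ∀ j s, s ∉ Z → u j s = v j s) : tensF E u v = 0 := by
  simp only [not_forall] at h
  obtain ⟨j, s, h1, h2⟩ := h
  exact Finset.prod_eq_zero (Finset.mem_univ j) ((hE j).1 _ _ s h1 h2)

theorem comm_gen {Y Z : Finset Λ} {E : Fin N → Matrix (Λ → Q) (Λ → Q) ℂ}
    (hE : ∀ j, Loc (fun z => z ∈ Z) (E j)) {π : Equiv.Perm (Fin N)} (τ : Equiv.Perm (Fin N))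
    (hτ : ∀ j, E (τ j) = E j)
    (h1 : ∀ (x : Fin N → Λ → Q) j, ∀ s ∈ Z, x (τ j) s = pa Y π⁻¹ x j s)
    (h2 : ∀ (y : Fin N → Λ → Q) j, ∀ s ∈ Z, pa Y π y (τ j) s = y j s) :
    Commute (tensF E) (pm Q Y π) := by
  ext x y
  rw [mul_pm, pm_mul_apply]
  by_cases hc : ∀ j s, s ∉ Z → x j s = pa Y π y j s
  · rw [tensF, tensF, ← Equiv.prod_comp τ fun j => E j (x j) (pa Y π y j)]
    refine Finset.prod_congr rfl fun j _ => ?_
    rw [hτ]
    exact (hE j).2 _ _ _ _ (h1 x j) (h2 y j) (hc _) (site (fun _ _ h => h) hc j)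
  · rw [zero hE hc, zero hE fun h => hc fun j s hs =>
      (site (π := π⁻¹) (fun _ _ h => h) (fun j s hs => (h j s hs).symm) j s hs).symm]

end RepAA

open RepAA

theorem one_mul' (a : Fin N) (O O' : Matrix (Λ → Q) (Λ → Q) ℂ) :
    one a (O * O') = one a O * one a O' := by
  rw [one_eq, one_eq, one_eq, tensF_mul]
  refine congrArg tensF (funext fun j => ?_)
  by_cases h : j = a <;> simp [h]
theorem one_add (a : Fin N) (O O' : Matrix (Λ → Q) (Λ → Q) ℂ) :
    one a (O + O') = one a O + one a O' := by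
  ext x y
  simp only [one, Matrix.add_apply]
  split_ifs <;> simp
theorem one_sub (a : Fin N) (O O' : Matrix (Λ → Q) (Λ → Q) ℂ) :
    one a (O - O') = one a O - one a O' := by
  ext x y
  simp only [one, Matrix.sub_apply]
  split_ifs <;> simp
theorem one_smul' (a : Fin N) (c : ℂ) (O : Matrix (Λ → Q) (Λ → Q) ℂ) :
    one a (c • O) = c • one a O := by
  ext x y
  simp only [one, Matrix.smul_apply]
  split_ifs <;> simp
theorem one_sum {ι : Type} (a : Fin N) (S : Finset ι) (O : ι → Matrix (Λ → Q) (Λ → Q) ℂ) :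
    one a (∑ i ∈ S, O i) = ∑ i ∈ S, one a (O i) := by
  ext x y
  simp only [one, Matrix.sum_apply]
  split_ifs <;> simp
theorem one_ct (a : Fin N) (O : Matrix (Λ → Q) (Λ → Q) ℂ) : (one a O)ᴴ = one a Oᴴ := by
  ext x y
  simp only [one, conjTranspose_apply, apply_ite star, star_zero, eq_comm]
theorem one_one (a : Fin N) : one a (1 : Matrix (Λ → Q) (Λ → Q) ℂ) = 1 := by
  rw [one_eq, Function.update_eq_self, tensF_one]
theorem one_loc (a : Fin N) (O : Matrix (Λ → Q) (Λ → Q) ℂ) : Loc (fun j => j = a) (one a O) := by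
  refine ⟨fun s t x hx hs => if_neg fun h => hs (h x hx), fun s t s' t' h1 h2 h3 h4 => ?_⟩
  rw [one, one, if_pos h3, if_pos h4, h1 a rfl, h2 a rfl]
theorem one_comm {a b : Fin N} (h : a ≠ b) (O O' : Matrix (Λ → Q) (Λ → Q) ℂ) :
    Commute (one a O) (one b O') := by
  rw [Commute, SemiconjBy, one_eq, one_eq, tensF_mul, tensF_mul]
  refine congrArg tensF (funext fun j => ?_)
  by_cases h1 : j = a
  · simp [h1, h]
  · simp [h1]
theorem one_ps (a : Fin N) {O : Matrix (Λ → Q) (Λ → Q) ℂ} (h : Ps O) : Ps (one a O) := by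
  rw [← sqrt_ps h, one_mul', ← one_ct]
  exact ps_ct_mul _
theorem one_le (a : Fin N) {O O' : Matrix (Λ → Q) (Λ → Q) ℂ} {x : ℝ} (hO : O.IsHermitian)
    (hO' : O'.IsHermitian) (h : Le O x O') : Le (one a O) x (one a O') := by
  intro v
  have h1 : Ps ((x : ℂ) • O' - O) := ⟨(hO'.smul (Complex.conj_ofReal x)).sub hO,
    fun v => by rw [qf_sub, qf_smul, sub_nonneg]; exact h v⟩
  have h2 := (one_ps a h1).2 v
  rwa [one_sub, one_smul', qf_sub, qf_smul, sub_nonneg] at h2
theorem one_bd (a : Fin N) {O : Matrix (Λ → Q) (Λ → Q) ℂ} {r : ℝ} (hr : 0 ≤ r) (h : Bd O r) :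
    Bd (one a O) r := by
  intro v
  have h1 := one_le a (x := r ^ 2) (isHermitian_conjTranspose_mul_self O) isHermitian_one
    (fun v => by rw [qf_ct_mul, qf_one]; exact h.nsq v) v
  rw [one_mul', ← one_ct, qf_ct_mul, one_one, qf_one] at h1
  exact (nr_le_iff _ _ hr).2 h1
theorem one_hf (a : Fin N) {O : Matrix (Λ → Q) (Λ → Q) ℂ} (hO : O.IsHermitian) (f : ℝ → ℂ) :
    hf (one a O) f = one a (hf O f) := by
  obtain ⟨V, hV, h1, h2⟩ := hf_spec hO
  have h3 : ∀ g, one a (fn V g) = fn (one a V) fun x => g (x a) := fun g => by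
    rw [fn, fn, one_mul', one_mul', one_diag, one_ct]
  have h4 : one a O = fr (one a V) fun x => hO.eigenvalues (x a) :=
    (congrArg (one a) h1).trans (h3 _)
  rw [h2, h3, h4, hf_fn (by rw [one_ct, ← one_mul', hV, one_one])]
theorem one_conj (a : Fin N) (O : Matrix (Λ → Q) (Λ → Q) ℂ) (π : Equiv.Perm (Fin N)) :
    pm Q Finset.univ π * one a O = one (π a) O * pm Q Finset.univ π := by
  ext x y
  have h1 : ∀ (σ : Equiv.Perm (Fin N)) (z : Fin N → Λ → Q) j,
      pa Finset.univ σ z j = z (σ⁻¹ j) := fun σ z j => funext fun s => by simp [pa]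
  rw [mul_pm, pm_mul_apply, one, one]
  simp only [h1, inv_inv]
  refine if_congr ⟨fun h j hj => ?_, fun h j hj => ?_⟩ (by simp) rfl
  · rw [← h _ fun h2 => hj (Equiv.Perm.inv_eq_iff_eq.1 h2)]
    simp
  · rw [h _ (π.injective.ne hj)]
    simp
theorem one_comm_fix (Y : Finset Λ) {a : Fin N} {π : Equiv.Perm (Fin N)} (h : π a = a)
    (O : Matrix (Λ → Q) (Λ → Q) ℂ) : Commute (one a O) (pm Q Y π) := by
  ext x y
  have h1 : π⁻¹ a = a := Equiv.Perm.inv_eq_iff_eq.2 h.symm
  rw [mul_pm, pm_mul_apply, one, one, pa_fix Y h, pa_fix Y h1]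
  refine if_congr ⟨fun h2 j hj => funext fun s => ?_, fun h2 j hj => funext fun s => ?_⟩ rfl rfl
  · exact site (p := fun j _ => j ≠ a) (fun j _ hj => h ▸ π.injective.ne hj)
      (fun j s hj => congrFun (h2 j hj) s) j s hj
  · exact (site (π := π⁻¹) (p := fun j _ => j ≠ a) (fun j _ hj => h1 ▸ π⁻¹.injective.ne hj)
      (fun j s hj => (congrFun (h2 j hj) s).symm) j s hj).symm
theorem tensF_comm_disj {Y Z : Finset Λ} (h : Disjoint Z Y) {E : Fin N → Matrix (Λ → Q) (Λ → Q) ℂ}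
    (hE : ∀ j, Loc (fun z => z ∈ Z) (E j)) (π : Equiv.Perm (Fin N)) :
    Commute (tensF E) (pm Q Y π) :=
  comm_gen hE 1 (fun _ => rfl) (fun x j s hs => by simp [pa, Finset.disjoint_left.1 h hs])
    fun y j s hs => by simp [pa, Finset.disjoint_left.1 h hs]
theorem tensF_comm_sub {Y Z : Finset Λ} (h : Z ⊆ Y) {E : Fin N → Matrix (Λ → Q) (Λ → Q) ℂ}
    (hE : ∀ j, Loc (fun z => z ∈ Z) (E j)) {π : Equiv.Perm (Fin N)} (hπ : ∀ j, E (π j) = E j) :
    Commute (tensF E) (pm Q Y π) :=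
  comm_gen hE π hπ (fun x j s hs => by simp [pa, h hs]) fun y j s hs => by simp [pa, h hs]
theorem one_comm_disj {Y Z : Finset Λ} (h : Disjoint Z Y) (a : Fin N)
    {O : Matrix (Λ → Q) (Λ → Q) ℂ} (hO : Loc (fun z => z ∈ Z) O) (π : Equiv.Perm (Fin N)) :
    Commute (one a O) (pm Q Y π) := by
  rw [one_eq]
  refine tensF_comm_disj h (fun j => ?_) π
  by_cases hj : j = a
  · rwa [hj, Function.update_self]
  · rw [Function.update_of_ne hj]
    exact loc_one _
theorem tens_comm {Y Z : Finset Λ} (h : Z ⊆ Y ∨ Disjoint Z Y) {O : Matrix (Λ → Q) (Λ → Q) ℂ}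
    (hO : Loc (fun z => z ∈ Z) O) (π : Equiv.Perm (Fin N)) : Commute (tens N O) (pm Q Y π) :=
  h.elim (fun h => tensF_comm_sub h (fun _ => hO) fun _ => rfl)
    fun h => tensF_comm_disj h (fun _ => hO) π
theorem tens_comm_univ (O : Matrix (Λ → Q) (Λ → Q) ℂ) (π : Equiv.Perm (Fin N)) :
    Commute (tens N O) (pm Q Finset.univ π) := by
  refine tens_comm (Or.inl (Finset.Subset.refl _)) ⟨fun s t x hx => absurd (Finset.mem_univ x) hx,
    fun s t s' t' h1 h2 _ _ => ?_⟩ π
  rw [funext fun x => h1 x (Finset.mem_univ x), funext fun x => h2 x (Finset.mem_univ x)]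

end Vale.Agent.P356G
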