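import Vale.Agent.P356G.FunC

/- Algebra of copy permutations and tensor products. `pm` is the permutation matrix of the bijection
`pa Y π`; prove everything for `pa` pointwise (`funext`, `by_cases s ∈ Y`) and use `pm_mulVec` with
`loc_mat_ext`-like extensionality. `tensF_mul`: `Finset.prod_univ_sum` / `Fintype.piFinset`.
Commutation of `pm` with `tensF`: both sides are entries `∏ j, E j (..) (..)`, reindex the product by
`π` and use the two clauses of `Loc`. -/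

namespace Vale.Agent.P356G

open Matrix Vale.Agent.P356

variable {Λ Q : Type} [Fintype Λ] [DecidableEq Λ] [Fintype Q] [DecidableEq Q] {N : ℕ}

namespace RepA0A

omit [Fintype Λ] [Fintype Q] [DecidableEq Q]

theorem pa_one (Y : Finset Λ) (x : Fin N → Λ → Q) : pa Y 1 x = x := by
  funext j s
  simp [pa]

theorem pa_mul (Y : Finset Λ) (σ π : Equiv.Perm (Fin N)) (x : Fin N → Λ → Q) :
    pa Y (σ * π) x = pa Y σ (pa Y π x) := by
  funext j s
  by_cases h : s ∈ Y <;> simp [pa, h]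

theorem pa_iff (Y : Finset Λ) (π : Equiv.Perm (Fin N)) (x y : Fin N → Λ → Q) :
    x = pa Y π y ↔ y = pa Y π⁻¹ x := by
  constructor <;> rintro rfl <;> simp [← pa_mul, pa_one]

theorem pa_fix (Y : Finset Λ) {π : Equiv.Perm (Fin N)} {j : Fin N} (h : π j = j)
    (x : Fin N → Λ → Q) : pa Y π x j = x j := by
  funext s
  simp [pa, Equiv.Perm.inv_eq_iff_eq.2 h.symm]

theorem pa_loc (Y : Finset Λ) {G : Finset (Fin N)} {π : Equiv.Perm (Fin N)}
    (h : ∀ j, j ∉ G → π j = j) {t s' t' : Fin N → Λ → Q} (h1 : ∀ j ∈ G, pa Y π t j = s' j)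
    (h2 : ∀ j ∈ G, t j = t' j) (h3 : ∀ j, j ∉ G → s' j = t' j) : s' = pa Y π t' := by
  funext j
  by_cases hj : j ∈ G
  · have h4 : π⁻¹ j ∈ G := by
      by_contra h5
      exact h5 ((π.apply_symm_apply j).symm.trans (h _ h5) ▸ hj)
    rw [← h1 j hj]
    funext s
    simp only [pa, h2 j hj, h2 _ h4]
  · rw [pa_fix Y (h j hj), h3 j hj]

end RepA0A

open RepA0A

theorem RepA0A.mul_pm (M : RM Λ Q N) (Y : Finset Λ) (π : Equiv.Perm (Fin N))
    (x y : Fin N → Λ → Q) : (M * pm Q Y π) x y = M x (pa Y π y) := by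
  simp [mul_apply, pm]

theorem RepA0A.pm_mul_apply (M : RM Λ Q N) (Y : Finset Λ) (π : Equiv.Perm (Fin N))
    (x y : Fin N → Λ → Q) : (pm Q Y π * M) x y = M (pa Y π⁻¹ x) y := by
  simp [mul_apply, pm, pa_iff Y π x]

theorem RepA0A.pm_ext {Y₁ Y₂ Y₃ Y₄ : Finset Λ} {π₁ π₂ π₃ π₄ : Equiv.Perm (Fin N)}
    (h : ∀ y : Fin N → Λ → Q, pa Y₁ π₁ (pa Y₂ π₂ y) = pa Y₃ π₃ (pa Y₄ π₄ y)) :
    pm Q Y₁ π₁ * pm Q Y₂ π₂ = pm Q Y₃ π₃ * pm Q Y₄ π₄ := by
  ext x y
  simp only [mul_pm, pm, h]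

theorem pm_mulVec (Y : Finset Λ) (π : Equiv.Perm (Fin N)) (v : (Fin N → Λ → Q) → ℂ)
    (x : Fin N → Λ → Q) : (pm Q Y π *ᵥ v) x = v (pa Y π⁻¹ x) := by
  simp [mulVec, dotProduct, pm, pa_iff Y π x]
theorem pm_one (Y : Finset Λ) : pm Q Y (1 : Equiv.Perm (Fin N)) = 1 := by
  ext x y
  simp only [pm, pa_one, one_apply]
theorem pm_empty (π : Equiv.Perm (Fin N)) : pm Q (∅ : Finset Λ) π = 1 := by
  ext x y
  have h : pa ∅ π y = y := by
    funext j s
    simp [pa]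
  simp only [pm, h, one_apply]
theorem pm_mul (Y : Finset Λ) (σ π : Equiv.Perm (Fin N)) :
    pm Q Y (σ * π) = pm Q Y σ * pm Q Y π := by
  ext x y
  simp only [mul_pm, pm, pa_mul]
theorem pm_ct (Y : Finset Λ) (π : Equiv.Perm (Fin N)) : (pm Q Y π)ᴴ = pm Q Y π⁻¹ := by
  ext x y
  simp only [conjTranspose_apply, pm, pa_iff Y π y x, apply_ite star, star_one, star_zero]
theorem pm_uni (Y : Finset Λ) (π : Equiv.Perm (Fin N)) : pm Q Y π * (pm Q Y π)ᴴ = 1 := by
  rw [pm_ct, ← pm_mul, mul_inv_cancel, pm_one]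
theorem pm_union {Y Y' : Finset Λ} (h : Disjoint Y Y') (π : Equiv.Perm (Fin N)) :
    pm Q (Y ∪ Y') π = pm Q Y π * pm Q Y' π := by
  ext x y
  have h1 : pa (Y ∪ Y') π y = pa Y π (pa Y' π y) := by
    funext j s
    by_cases h2 : s ∈ Y
    · simp [pa, h2, Finset.disjoint_left.1 h h2]
    · simp [pa, h2]
  simp only [mul_pm, pm, h1]
theorem pm_compl (Y : Finset Λ) (π : Equiv.Perm (Fin N)) :
    pm Q Y π * pm Q Yᶜ π = pm Q Finset.univ π := by
  rw [← pm_union disjoint_compl_right, Finset.union_compl]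
theorem pm_comm_disj {Y Y' : Finset Λ} (h : Disjoint Y Y') (σ π : Equiv.Perm (Fin N)) :
    Commute (pm Q Y σ) (pm Q Y' π) := by
  refine pm_ext fun y => funext fun j => funext fun s => ?_
  by_cases h2 : s ∈ Y
  · simp [pa, h2, Finset.disjoint_left.1 h h2]
  · simp [pa, h2]
theorem pm_comm_perm (Y Y' : Finset Λ) {σ π : Equiv.Perm (Fin N)} (h : Commute σ π) :
    Commute (pm Q Y σ) (pm Q Y' π) := by
  refine pm_ext fun y => funext fun j => funext fun s => ?_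
  have h1 : π⁻¹ (σ⁻¹ j) = σ⁻¹ (π⁻¹ j) := (congrArg (· j) h.inv_inv.eq).symm
  by_cases h2 : s ∈ Y <;> by_cases h3 : s ∈ Y' <;> simp only [pa, h1, h2, h3, ↓reduceIte]
theorem pm_conj {Y Y' : Finset Λ} (h : Y ⊆ Y') (σ π : Equiv.Perm (Fin N)) :
    pm Q Y' π * pm Q Y σ = pm Q Y (π * σ * π⁻¹) * pm Q Y' π := by
  refine pm_ext fun y => funext fun j => funext fun s => ?_
  by_cases h2 : s ∈ Y
  · simp [pa, h2, h h2]
  · simp [pa, h2]
/-- a permutation fixing all copies outside `G` acts on the copies of `G` -/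
theorem pm_loc (Y : Finset Λ) {G : Finset (Fin N)} {π : Equiv.Perm (Fin N)} (h : π ∈ SG G) :
    Loc (fun j => j ∈ G) (pm Q Y π) := by
  have h0 := (Finset.mem_filter.1 h).2
  refine ⟨fun s t x hx hs => if_neg fun h1 => hs (by rw [h1, pa_fix Y (h0 x hx)]),
    fun s t s' t' h1 h2 h3 h4 => if_congr ⟨?_, ?_⟩ rfl rfl⟩
  · rintro rfl
    exact pa_loc Y h0 h1 h2 h4
  · rintro rfl
    exact pa_loc Y h0 (fun j hj => (h1 j hj).symm) (fun j hj => (h2 j hj).symm) h3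

theorem tensF_mul (E F : Fin N → Matrix (Λ → Q) (Λ → Q) ℂ) :
    tensF E * tensF F = tensF fun j => E j * F j := by
  ext x y
  simp only [mul_apply, tensF, Fintype.prod_sum, Finset.prod_mul_distrib]
theorem tensF_one : tensF (fun _ : Fin N => (1 : Matrix (Λ → Q) (Λ → Q) ℂ)) = 1 := by
  ext x y
  simp [tensF, one_apply, Finset.prod_boole, funext_iff (f := x)]
theorem tensF_ct (E : Fin N → Matrix (Λ → Q) (Λ → Q) ℂ) :
    (tensF E)ᴴ = tensF fun j => (E j)ᴴ := by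
  ext x y
  simp only [conjTranspose_apply, tensF, star_prod]
theorem tensF_loc (E : Fin N → Matrix (Λ → Q) (Λ → Q) ℂ) (G : Finset (Fin N))
    (h : ∀ j, j ∉ G → E j = 1) : Loc (fun j => j ∈ G) (tensF E) := by
  refine ⟨fun s t x hx hs => Finset.prod_eq_zero (Finset.mem_univ x) (by
    rw [h x hx, one_apply_ne hs]), fun s t s' t' h1 h2 h3 h4 => Finset.prod_congr rfl fun j _ => ?_⟩
  by_cases hj : j ∈ G
  · rw [h1 j hj, h2 j hj]
  · rw [h j hj, h3 j hj, h4 j hj, one_apply_eq, one_apply_eq]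
theorem one_eq (a : Fin N) (O : Matrix (Λ → Q) (Λ → Q) ℂ) :
    one a O = tensF (Function.update (fun _ => 1) a O) := by
  ext x y
  rw [tensF, ← Finset.mul_prod_erase _ _ (Finset.mem_univ a), Function.update_self,
    Finset.prod_congr rfl fun j hj => by rw [Function.update_of_ne (Finset.ne_of_mem_erase hj)]]
  simp [one, one_apply, Finset.prod_boole]
theorem tens_eq (O : Matrix (Λ → Q) (Λ → Q) ℂ) : tens N O = tensF fun _ => O := rfl
theorem tens_mul (O O' : Matrix (Λ → Q) (Λ → Q) ℂ) : tens N (O * O') = tens N O * tens N O' :=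
  (tensF_mul (fun _ => O) fun _ => O').symm
theorem tens_one : tens N (1 : Matrix (Λ → Q) (Λ → Q) ℂ) = 1 := tensF_one
theorem tens_ct (O : Matrix (Λ → Q) (Λ → Q) ℂ) : (tens N O)ᴴ = tens N Oᴴ := tensF_ct fun _ => O
theorem tens_tv (O : Matrix (Λ → Q) (Λ → Q) ℂ) (ξ : (Λ → Q) → ℂ) :
    tens N O *ᵥ tv N ξ = tv N (O *ᵥ ξ) := by
  funext x
  simp only [mulVec, dotProduct, tens, tv, Fintype.prod_sum, Finset.prod_mul_distrib]
theorem nsq_tv (ξ : (Λ → Q) → ℂ) : nsq (tv N ξ) = nsq ξ ^ N := by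
  have h := Fintype.prod_sum fun (_ : Fin N) (w : Λ → Q) => ‖ξ w‖ ^ 2
  rw [Finset.prod_const, Finset.card_univ, Fintype.card_fin] at h
  simp only [nsq, tv, h, norm_prod, Finset.prod_pow]
theorem tv_smul (c : ℂ) (ξ : (Λ → Q) → ℂ) : tv N (c • ξ) = c ^ N • tv N ξ := by
  funext x
  simp [tv, Finset.prod_mul_distrib]
theorem sy_tv (G : Finset (Fin N)) (ξ : (Λ → Q) → ℂ) : Sy G (tv N ξ) := by
  intro π _
  funext x
  rw [pm_mulVec, tv, tv, ← Equiv.prod_comp π fun j => ξ (x j)]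
  refine Finset.prod_congr rfl fun j _ => congrArg ξ (funext fun s => ?_)
  simp [pa]

end Vale.Agent.P356G
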