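import Vale.Agent.P356G.RepA

/- Symmetrisers, product vectors, tensor powers.
`sg_insert`: `π ∈ SG (insert a G)` is uniquely `swap a j * π'` with `j = π a ∈ insert a G`, `π' ∈ SG G`.
`ip_tv_split`: split the sum over configurations at the copy `a` (`Loc.exists_colift` on the replica
level with the set `{a}`, or entrywise).
`swap_units`: entrywise. `tens_near`: `tensF (if j ∈ S then 1 - ε h else 1)`, induction on `S` with the
error bound `(1 + ε b) ^ |S| - 1 - |S| ε b`, and `(1 + y) ^ N ≤ exp (N y) ≤ 1 + N y + (N y) ^ 2`. -/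

namespace Vale.Agent.P356G

open Matrix Vale.Agent.P356

variable {Λ Q : Type} [Fintype Λ] [DecidableEq Λ] [Fintype Q] [DecidableEq Q] {N : ℕ}

theorem mem_SG {G : Finset (Fin N)} {π : Equiv.Perm (Fin N)} :
    π ∈ SG G ↔ ∀ j, j ∉ G → π j = j := by simp [SG]
theorem SG_mem {G : Finset (Fin N)} {π : Equiv.Perm (Fin N)} (h : π ∈ SG G) (j : Fin N) :
    π j ∈ G ↔ j ∈ G := by
  refine ⟨fun h1 => by_contra fun h2 => h2 (mem_SG.1 h j h2 ▸ h1), fun h1 => by_contra fun h2 => ?_⟩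
  exact h2 ((π.injective (mem_SG.1 h _ h2)).symm ▸ h1)
theorem SG_one (G : Finset (Fin N)) : (1 : Equiv.Perm (Fin N)) ∈ SG G := mem_SG.2 fun _ _ => rfl
theorem SG_mul {G : Finset (Fin N)} {σ π : Equiv.Perm (Fin N)} (h : σ ∈ SG G) (h' : π ∈ SG G) :
    σ * π ∈ SG G :=
  mem_SG.2 fun j hj => by rw [Equiv.Perm.mul_apply, mem_SG.1 h' j hj, mem_SG.1 h j hj]
theorem SG_inv {G : Finset (Fin N)} {π : Equiv.Perm (Fin N)} (h : π ∈ SG G) : π⁻¹ ∈ SG G :=
  mem_SG.2 fun j hj => Equiv.Perm.inv_eq_iff_eq.2 (mem_SG.1 h j hj).symm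
theorem SG_mono {G G' : Finset (Fin N)} (h : G ⊆ G') : SG G ⊆ SG G' :=
  fun _ h1 => mem_SG.2 fun j hj => mem_SG.1 h1 j fun h2 => hj (h h2)
theorem SG_empty : SG (∅ : Finset (Fin N)) = {1} := by
  ext π
  simp [mem_SG, Equiv.ext_iff]
theorem SG_univ : SG (Finset.univ : Finset (Fin N)) = Finset.univ := by
  ext π
  simp [mem_SG]
theorem SG_comm {G G' : Finset (Fin N)} (h : Disjoint G G') {σ π : Equiv.Perm (Fin N)}
    (hσ : σ ∈ SG G) (hπ : π ∈ SG G') : Commute σ π :=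
  Equiv.Perm.Disjoint.commute fun j => (em (j ∈ G)).symm.imp (mem_SG.1 hσ j)
    fun hj => mem_SG.1 hπ j (Finset.disjoint_left.1 h hj)
/-- sums over `SG G` are invariant under conjugation by a permutation preserving `G` -/
theorem SG_conj {M : Type} [AddCommMonoid M] {G : Finset (Fin N)} {π : Equiv.Perm (Fin N)}
    (h : ∀ j, π j ∈ G ↔ j ∈ G) (f : Equiv.Perm (Fin N) → M) :
    ∑ σ ∈ SG G, f (π * σ * π⁻¹) = ∑ σ ∈ SG G, f σ := by
  refine Finset.sum_equiv (MulAut.conj π).toEquiv (fun σ => ?_) fun _ _ => rfl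
  rw [mem_SG, mem_SG]
  refine π.forall_congr fun j => ?_
  simp [h]
theorem RepB0A.swap_mem {G : Finset (Fin N)} {a b : Fin N} (ha : a ∈ G) (hb : b ∈ G) :
    Equiv.swap a b ∈ SG G :=
  mem_SG.2 fun _ hj => Equiv.swap_apply_of_ne_of_ne (fun h => hj (h ▸ ha)) fun h => hj (h ▸ hb)

theorem RepB0A.ins {M : Type} [AddCommMonoid M] {G : Finset (Fin N)} {a : Fin N} (ha : a ∉ G)
    (f : Equiv.Perm (Fin N) → M) : ∑ π ∈ SG (insert a G), f π =
      ∑ j ∈ insert a G, ∑ π ∈ SG G, f (Equiv.swap a j * π) := by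
  rw [← Finset.sum_product']
  have h0 := Finset.mem_insert_self a G
  refine Finset.sum_nbij' (fun π => (π a, Equiv.swap a (π a) * π))
    (fun x => Equiv.swap a x.1 * x.2) (fun π h => ?_) (fun x h => ?_) (fun π _ => ?_)
    (fun x h => ?_) fun π _ => ?_
  · have h1 := (SG_mem h a).2 h0
    refine Finset.mem_product.2 ⟨h1, mem_SG.2 fun j hj => ?_⟩
    by_cases h2 : j = a
    · simp [h2]
    · exact mem_SG.1 (SG_mul (RepB0A.swap_mem h0 h1) h) j (by simp [h2, hj])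
  · rw [Finset.mem_product] at h
    exact SG_mul (RepB0A.swap_mem h0 h.1) (SG_mono (Finset.subset_insert a G) h.2)
  · exact Equiv.swap_mul_self_mul _ _ _
  · simp [mem_SG.1 (Finset.mem_product.1 h).2 a ha]
  · rw [Equiv.swap_mul_self_mul]

theorem sg_insert {M : Type} [AddCommMonoid M] {G : Finset (Fin N)} {a : Fin N} (ha : a ∉ G)
    (f : Equiv.Perm (Fin N) → M) :
    ∑ π ∈ SG (insert a G), f π =
      ∑ π ∈ SG G, f π + ∑ j ∈ G, ∑ π ∈ SG G, f (Equiv.swap a j * π) := by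
  rw [RepB0A.ins ha, Finset.sum_insert ha]
  simp only [Equiv.swap_self, ← Equiv.Perm.one_def, one_mul]
theorem SG_card (G : Finset (Fin N)) : (SG G).card = G.card.factorial := by
  induction G using Finset.induction_on with
  | empty => simp [SG_empty]
  | insert a G ha ih =>
    rw [Finset.card_eq_sum_ones, RepB0A.ins ha, Finset.card_insert_of_notMem ha,
      Nat.factorial_succ]
    simp [ih, Finset.card_insert_of_notMem ha]

namespace RepB0A

theorem card_ne (G : Finset (Fin N)) : ((SG G).card : ℂ) ≠ 0 :=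
  Nat.cast_ne_zero.2 (Finset.card_ne_zero.2 ⟨1, SG_one G⟩)

theorem sum_inv {M : Type} [AddCommMonoid M] (G : Finset (Fin N)) (f : Equiv.Perm (Fin N) → M) :
    ∑ σ ∈ SG G, f σ⁻¹ = ∑ σ ∈ SG G, f σ :=
  Finset.sum_equiv (Equiv.inv _) (fun _ => ⟨SG_inv, fun h => SG_inv h⟩) fun _ _ => rfl

theorem herm (G : Finset (Fin N)) : (PS Λ Q G)ᴴ = PS Λ Q G := by
  simp only [PS, conjTranspose_smul, conjTranspose_sum, pm_ct, star_inv₀, star_natCast]
  rw [sum_inv G (pm Q Finset.univ)]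

theorem left {G : Finset (Fin N)} {π : Equiv.Perm (Fin N)} (h : π ∈ SG G) :
    pm Q Finset.univ π * PS Λ Q G = PS Λ Q G := by
  rw [PS, Matrix.mul_smul, Finset.mul_sum]
  refine congrArg _ (Finset.sum_equiv (Equiv.mulLeft π) (fun σ => ⟨SG_mul h, fun h1 => ?_⟩)
    fun σ _ => (pm_mul _ _ _).symm)
  simpa using SG_mul (SG_inv h) h1

end RepB0A

open RepB0A

theorem PS_prj (G : Finset (Fin N)) : Prj (PS Λ Q G) := by
  refine ⟨herm G, ?_⟩
  nth_rw 1 [PS]
  rw [Matrix.smul_mul, Finset.sum_mul, Finset.sum_congr rfl fun π h => left h, Finset.sum_const,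
    ← Nat.cast_smul_eq_nsmul ℂ, smul_smul, inv_mul_cancel₀ (card_ne G), one_smul]
theorem pm_PS {G : Finset (Fin N)} {π : Equiv.Perm (Fin N)} (h : π ∈ SG G) :
    pm Q Finset.univ π * PS Λ Q G = PS Λ Q G ∧ PS Λ Q G * pm Q Finset.univ π = PS Λ Q G := by
  refine ⟨left h, ?_⟩
  have h1 := congrArg conjTranspose (left (Λ := Λ) (Q := Q) (SG_inv h))
  rwa [conjTranspose_mul, herm, pm_ct, inv_inv] at h1
theorem sy_iff (G : Finset (Fin N)) (v : (Fin N → Λ → Q) → ℂ) : Sy G v ↔ PS Λ Q G *ᵥ v = v := by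
  refine ⟨fun h => ?_, fun h π hπ => by rw [← h, mulVec_mulVec, left hπ]⟩
  rw [PS, smul_mulVec, sum_mulVec, Finset.sum_congr rfl h, Finset.sum_const,
    ← Nat.cast_smul_eq_nsmul ℂ, smul_smul, inv_mul_cancel₀ (card_ne G), one_smul]
theorem sy_PS (G : Finset (Fin N)) (v : (Fin N → Λ → Q) → ℂ) : Sy G (PS Λ Q G *ᵥ v) :=
  fun _ hπ => by rw [mulVec_mulVec, left hπ]
theorem Sy.mono {G G' : Finset (Fin N)} (h : G ⊆ G') {v : (Fin N → Λ → Q) → ℂ} (hv : Sy G' v) :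
    Sy G v := fun π hπ => hv π (SG_mono h hπ)
theorem Sy.mulVec {G : Finset (Fin N)} {v : (Fin N → Λ → Q) → ℂ} (hv : Sy G v) {X : RM Λ Q N}
    (h : ∀ π ∈ SG G, Commute (pm Q Finset.univ π) X) : Sy G (X *ᵥ v) :=
  fun π hπ => by rw [mulVec_mulVec, (h π hπ).eq, ← mulVec_mulVec, hv π hπ]
theorem PS_comm {G : Finset (Fin N)} {X : RM Λ Q N}
    (h : ∀ π ∈ SG G, Commute (pm Q Finset.univ π) X) : Commute (PS Λ Q G) X :=
  (Commute.sum_left _ _ _ h).smul_left _
theorem Sy.xx {G : Finset (Fin N)} {a : Fin N} {v : (Fin N → Λ → Q) → ℂ}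
    (hv : Sy (insert a G) v) : xx Q Finset.univ a G *ᵥ v = (G.card : ℂ) • v := by
  rw [P356G.xx, sum_mulVec, Finset.sum_congr rfl fun j hj => hv _
    (swap_mem (Finset.mem_insert_self a G) (Finset.mem_insert_of_mem hj)), Finset.sum_const,
    Nat.cast_smul_eq_nsmul]
theorem PS_univ (a : Fin N) : PS Λ Q (Finset.univ : Finset (Fin N)) =
    PS Λ Q (Finset.univ.erase a) * ((N : ℂ)⁻¹ • ∑ b, pm Q Finset.univ (Equiv.swap a b)) := by
  have h1 := ins (Finset.notMem_erase a Finset.univ) fun π => pm Q (Finset.univ : Finset Λ) π⁻¹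
  have h2 := ins (Finset.notMem_erase a Finset.univ) fun _ => (1 : ℂ)
  rw [Finset.insert_erase (Finset.mem_univ a)] at h1 h2
  simp only [Finset.sum_const, Finset.card_univ, Fintype.card_fin, nsmul_eq_mul, mul_one] at h2
  simp only [_root_.mul_inv_rev, Equiv.swap_inv, pm_mul, ← Finset.sum_mul, ← Finset.mul_sum,
    sum_inv _ (pm Q Finset.univ)] at h1
  rw [PS, PS, h1, h2, Matrix.smul_mul, Matrix.mul_smul, smul_smul, _root_.mul_inv_rev]
theorem xx_herm (Y : Finset Λ) (a : Fin N) (G : Finset (Fin N)) : (xx Q Y a G).IsHermitian := by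
  simp only [IsHermitian, xx, conjTranspose_sum, pm_ct, Equiv.swap_inv]
theorem xx_bd (Y : Finset Λ) (a : Fin N) (G : Finset (Fin N)) : Bd (xx Q Y a G) G.card := by
  simpa only [xx, Finset.sum_const, nsmul_eq_mul, mul_one] using
    Bd.sum G fun j _ => bd_uni (pm_uni (Q := Q) Y (Equiv.swap a j))
theorem xx_comm {Y Y' : Finset Λ} {a : Fin N} {G : Finset (Fin N)} {π : Equiv.Perm (Fin N)}
    (h : (Y ⊆ Y' ∧ π a = a ∧ ∀ j, π j ∈ G ↔ j ∈ G) ∨ Disjoint Y Y' ∨
      (π a = a ∧ ∀ j ∈ G, π j = j)) : Commute (pm Q Y' π) (xx Q Y a G) := by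
  obtain ⟨h1, h2, h3⟩ | h | ⟨h1, h2⟩ := h
  · rw [Commute, SemiconjBy, xx, Finset.mul_sum, Finset.sum_mul]
    refine Finset.sum_equiv π (fun j => (h3 j).symm) fun j _ => ?_
    rw [pm_conj h1, ← Equiv.swap_apply_apply, h2]
  · exact Commute.sum_right _ _ _ fun j _ => pm_comm_disj h.symm _ _
  · refine Commute.sum_right _ _ _ fun j hj => pm_comm_perm _ _ ?_
    rw [Commute, SemiconjBy, Equiv.mul_swap_eq_swap_mul, h1, h2 j hj]

end Vale.Agent.P356G
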