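import Vale.Agent.P356G.RepC0

/- The universal weights. `kap_swap`: `e` is invariant under `swap a j * π` iff it is invariant under
`π` and `e a = e j`; since `π a = a` the value `e a` is free (bijection `(e, c) ↦ update e a c`).
`om_insert`: `sg_insert`, `kap_swap`, `pm_mul`. `om_comm`: `pm_conj`, `SG_conj`, `kap_conj`.
`om_compl`: on `Sy G`, `pm Y π v = pm Yᶜ π⁻¹ v` (`pm_compl`), reindex by inversion, `kap_inv`.
`om_exp`: induction on `G`; `swap_units`, `ip_tv_split`, `mg_units` give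
`<tv, swap a j * om G tv> = <tv, one j (mg Y χ) * om G tv>`; `c |G| - ∑ j ∈ G, one j (mg Y χ)` is
positive, commutes with `om G` (`tensF_comm_sub`, `one_conj`-like reindexing), use `Ps.mul`. -/

namespace Vale.Agent.P356G

open Matrix Vale.Agent.P356

variable {Λ Q : Type} [Fintype Λ] [DecidableEq Λ] [Fintype Q] [DecidableEq Q] {N : ℕ}

namespace RepCA

theorem pm_flip (Y : Finset Λ) {π : Equiv.Perm (Fin N)} {v : (Fin N → Λ → Q) → ℂ}
    (hv : pm Q Finset.univ π *ᵥ v = v) : pm Q Y π *ᵥ v = pm Q Yᶜ π⁻¹ *ᵥ v := by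
  have h1 : pm Q Yᶜ π⁻¹ * pm Q Finset.univ π = pm Q Y π := by
    rw [← pm_compl Y π, ← Matrix.mul_assoc, (pm_comm_disj disjoint_compl_left π⁻¹ π).eq,
      Matrix.mul_assoc, ← pm_mul, inv_mul_cancel, pm_one, Matrix.mul_one]
  rw [← h1, ← mulVec_mulVec, hv]

theorem one_conj_loc (Y : Finset Λ) (a : Fin N) {O : Matrix (Λ → Q) (Λ → Q) ℂ}
    (hO : Loc (fun z => z ∈ Y) O) (π : Equiv.Perm (Fin N)) :
    pm Q Y π * one a O = one (π a) O * pm Q Y π := by
  have h1 := one_conj a O π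
  have h2 : pm Q Yᶜ π * pm Q Yᶜ π⁻¹ = 1 := by rw [← pm_mul, mul_inv_cancel, pm_one]
  rw [← pm_compl Y π, Matrix.mul_assoc,
    ← (one_comm_disj disjoint_compl_right a hO π).eq] at h1
  have h3 := congrArg (· * pm Q Yᶜ π⁻¹) h1
  simpa only [Matrix.mul_assoc, h2, Matrix.mul_one] using h3

theorem sum_comm_pm (Y : Finset Λ) {G : Finset (Fin N)} {O : Matrix (Λ → Q) (Λ → Q) ℂ}
    (hO : Loc (fun z => z ∈ Y) O) {π : Equiv.Perm (Fin N)} (hπ : π ∈ SG G) :
    Commute (∑ j ∈ G, one j O) (pm Q Y π) := by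
  have h1 : ∑ j ∈ G, one (π j) O = ∑ j ∈ G, one j O :=
    Finset.sum_equiv π (fun j => (SG_mem hπ j).symm) fun _ _ => rfl
  refine Eq.symm ?_
  rw [Matrix.mul_sum, ← h1, Matrix.sum_mul]
  exact Finset.sum_congr rfl fun j _ => one_conj_loc Y j hO π

theorem ip_sum {n ι : Type} [Fintype n] (S : Finset ι) (A : ι → Matrix n n ℂ) (u v : n → ℂ) :
    ip u (∑ i ∈ S, A i) v = ∑ i ∈ S, ip u (A i) v := by
  simp only [ip, sum_mulVec, dotProduct_sum]

theorem ip_smul {n : Type} [Fintype n] (c : ℂ) (A : Matrix n n ℂ) (u v : n → ℂ) :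
    ip u (c • A) v = c * ip u A v := by
  simp only [ip, smul_mulVec, dotProduct_smul, smul_eq_mul]

theorem ip_swap [Nonempty Q] (Y : Finset Λ) {a j : Fin N} (h : a ≠ j) {X : RM Λ Q N}
    (hX : Loc (fun k => k ≠ a) X) {χ : (Λ → Q) → ℂ} (hχ : nsq χ = 1) :
    ip (tv N χ) (pm Q Y (Equiv.swap a j) * X) (tv N χ) =
      ip (tv N χ) (one j (mg Y χ) * X) (tv N χ) := by
  rw [swap_units Y h, mg_units, one_sum, Matrix.sum_mul, Matrix.sum_mul, ip_sum, ip_sum]
  refine Finset.sum_congr rfl fun x _ => ?_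
  rw [one_sum, Matrix.sum_mul, Matrix.sum_mul, ip_sum, ip_sum]
  refine Finset.sum_congr rfl fun y _ => ?_
  rw [Matrix.mul_assoc, ip_tv_split a _
    (((one_loc j _).mono fun k hk => by rw [hk]; exact h.symm).mul hX) hχ, one_smul',
    Matrix.smul_mul, ip_smul]

end RepCA

theorem om_loc (Y : Finset Λ) (G : Finset (Fin N)) (t : ℕ) :
    Loc (fun j => j ∈ G) (om Q Y G t) :=
  loc_smul (loc_sum _ fun _ hπ => loc_smul (pm_loc Y hπ) _) _
theorem om_compl (Y : Finset Λ) {G : Finset (Fin N)} (t : ℕ) {v : (Fin N → Λ → Q) → ℂ}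
    (hv : Sy G v) : om Q Y G t *ᵥ v = om Q Yᶜ G t *ᵥ v := by
  rw [om, om, smul_mulVec, smul_mulVec, sum_mulVec, sum_mulVec]
  congr 1
  refine Finset.sum_equiv (Equiv.inv _) (fun π => ⟨SG_inv, fun h => ?_⟩) fun π hπ => ?_
  · simpa using SG_inv h
  · rw [smul_mulVec, smul_mulVec, Equiv.inv_apply, kap_inv, RepCA.pm_flip Y (hv π hπ)]
theorem Lw_compl (Y : Finset Λ) {G : Finset (Fin N)} (t : ℕ) {v : (Fin N → Λ → Q) → ℂ}
    (hv : Sy G v) : Lw Q Y G t *ᵥ v = Lw Q Yᶜ G t *ᵥ v := by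
  have h1 : Inv {w : (Fin N → Λ → Q) → ℂ | Sy G w} (om Q Y G t) := by
    intro y hy
    have h2 : Sy G y := hy
    have h3 : Sy G (om Q Y G t *ᵥ y) := h2.mulVec fun π hπ =>
      om_comm t (Or.inl ⟨Finset.subset_univ _, SG_mem hπ⟩)
    exact h3
  have h4 : ∀ y ∈ {w : (Fin N → Λ → Q) → ℂ | Sy G w}, om Q Y G t *ᵥ y = om Q Yᶜ G t *ᵥ y :=
    fun y hy => om_compl Y t hy
  unfold Lw hlog
  exact hf_agree (om_herm Y G t) (om_herm Yᶜ G t) h1 h4 _ v hv
theorem mg_herm (Y : Finset Λ) (χ : (Λ → Q) → ℂ) : (mg Y χ).IsHermitian := by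
  rw [IsHermitian, mg, ← lift_ct, (rho_herm Y χ).eq]
theorem om_exp [Nonempty Q] (Y : Finset Λ) (G : Finset (Fin N)) {t : ℕ} (ht : 0 < t)
    (hp : ∀ G' : Finset (Fin N), Ps (om Q Y G' t)) {χ : (Λ → Q) → ℂ} (hχ : nsq χ = 1) {c : ℝ}
    (hc0 : 0 ≤ c) (hc : Le (mg Y χ) c 1) :
    qf (om Q Y G t) (tv N χ) ≤ ∏ m ∈ Finset.range G.card, (t + c * m) / (m + 1) := by
  induction G using Finset.induction_on with
  | empty => rw [om_empty Y ht, qf_one, nsq_tv, hχ]; simp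
  | insert a G ha ih =>
    have hl : Loc (fun k => k ≠ a) (om Q Y G t) :=
      (om_loc Y G t).mono fun k hk h => ha (h ▸ hk)
    have h1 : qf (xx Q Y a G * om Q Y G t) (tv N χ) =
        qf ((∑ j ∈ G, one j (mg Y χ)) * om Q Y G t) (tv N χ) := by
      rw [xx, Matrix.sum_mul, Matrix.sum_mul, qf_sum, qf_sum]
      refine Finset.sum_congr rfl fun j hj => ?_
      rw [qf, qf, RepCA.ip_swap Y (ne_of_mem_of_not_mem hj ha).symm hl hχ]
    have hZ : Ps (((c * G.card : ℝ) : ℂ) • (1 : RM Λ Q N) - ∑ j ∈ G, one j (mg Y χ)) := by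
      refine ⟨?_, fun v => ?_⟩
      · rw [IsHermitian, conjTranspose_sub, conjTranspose_smul, conjTranspose_one,
          conjTranspose_sum]
        simp only [one_ct, (mg_herm Y χ).eq, Complex.star_def, Complex.conj_ofReal]
      · rw [qf_sub, qf_smul, qf_sum, qf_one, sub_nonneg]
        have h2 : ∀ j ∈ G, qf (one j (mg Y χ)) v ≤ c * nsq v := fun j _ => by
          have h3 := one_le j (mg_herm Y χ) isHermitian_one hc v
          rwa [one_one, qf_one] at h3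
        refine (Finset.sum_le_card_nsmul G _ _ h2).trans (le_of_eq ?_)
        rw [nsmul_eq_mul]
        ring
    have hC : Commute (((c * G.card : ℝ) : ℂ) • (1 : RM Λ Q N) - ∑ j ∈ G, one j (mg Y χ))
        (om Q Y G t) :=
      comm_om t fun π hπ => ((Commute.one_left _).smul_left _).sub_left
        (RepCA.sum_comm_pm Y (loc_lift Y _) hπ)
    have h4 := (hZ.mul (hp G) hC).2 (tv N χ)
    rw [Matrix.sub_mul, Matrix.smul_mul, Matrix.one_mul, qf_sub, qf_smul, ← h1] at h4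
    have h5 : qf (om Q Y (insert a G) t) (tv N χ) = ((G.card : ℝ) + 1)⁻¹ *
        (t * qf (om Q Y G t) (tv N χ) + qf (xx Q Y a G * om Q Y G t) (tv N χ)) := by
      have e1 : (((G.card + 1 : ℕ) : ℂ)⁻¹) = ((((G.card : ℝ) + 1)⁻¹ : ℝ) : ℂ) := by
        push_cast
        rfl
      have e2 : (t : ℂ) = ((t : ℝ) : ℂ) := by simp
      rw [om_insert Y ha ht, rh, Matrix.smul_mul, e1, qf_smul, Matrix.add_mul, Matrix.smul_mul,
        Matrix.one_mul, qf_add, e2, qf_smul]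
    have h6 : 0 ≤ ((t : ℝ) + c * G.card) / (G.card + 1) := by positivity
    rw [h5, Finset.card_insert_of_notMem ha, Finset.prod_range_succ, mul_comm (∏ m ∈ _, _)]
    refine le_trans ?_ (mul_le_mul_of_nonneg_left ih h6)
    rw [div_eq_inv_mul, mul_assoc]
    refine mul_le_mul_of_nonneg_left ?_ (by positivity)
    linarith

end Vale.Agent.P356G
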