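import Vale.Agent.P356G.RepB

/- The universal weights. `kap_swap`: `e` is invariant under `swap a j * π` iff it is invariant under
`π` and `e a = e j`; since `π a = a` the value `e a` is free (bijection `(e, c) ↦ update e a c`).
`om_insert`: `sg_insert`, `kap_swap`, `pm_mul`. `om_comm`: `pm_conj`, `SG_conj`, `kap_conj`.
`om_compl`: on `Sy G`, `pm Y π v = pm Yᶜ π⁻¹ v` (`pm_compl`), reindex by inversion, `kap_inv`.
`om_exp`: induction on `G`; `swap_units`, `ip_tv_split`, `mg_units` give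
`<tv, swap a j * om G tv> = <tv, one j (mg Y χ) * om G tv>`; `c |G| - ∑ j ∈ G, one j (mg Y χ)` is
positive, commutes with `om G` (`tensF_comm_sub`, `one_conj`-like reindexing), use `Ps.mul`. -/

namespace Vale.Agent.P356G

open Matrix Vale.Agent.P356

variable {Λ Q : Type} [Fintype Λ] [DecidableEq Λ] [Fintype Q] [DecidableEq Q] {N : ℕ}

theorem kap_one (t : ℕ) : kap t (1 : Equiv.Perm (Fin N)) = t ^ N := by
  simp [kap]
theorem kap_inv (t : ℕ) (π : Equiv.Perm (Fin N)) : kap t π⁻¹ = kap t π := by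
  unfold kap
  congr 1
  refine Finset.filter_congr fun e _ => ⟨fun h j => ?_, fun h j => ?_⟩
  · rw [← h (π j)]; simp
  · rw [← h (π⁻¹ j)]; simp
theorem kap_conj (t : ℕ) (σ π : Equiv.Perm (Fin N)) : kap t (π * σ * π⁻¹) = kap t σ := by
  unfold kap
  refine Finset.card_nbij' (fun e => e ∘ π) (fun e => e ∘ ⇑π⁻¹) ?_ ?_ ?_ ?_
  · intro e he
    simp only [Finset.coe_filter, Finset.mem_univ, true_and, Set.mem_setOf_eq] at he ⊢
    intro j
    simpa using he (π j)
  · intro e he
    simp only [Finset.coe_filter, Finset.mem_univ, true_and, Set.mem_setOf_eq] at he ⊢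
    intro j
    simpa using he (π⁻¹ j)
  · intro e _
    funext j; simp
  · intro e _
    funext j; simp
theorem kap_swap (t : ℕ) {a j : Fin N} (h : a ≠ j) {π : Equiv.Perm (Fin N)} (hπ : π a = a) :
    t * kap t (Equiv.swap a j * π) = kap t π := by
  have sw : ∀ e : Fin N → Fin t, e a = e j → ∀ x, e (Equiv.swap a j x) = e x := by
    intro e he x
    rcases eq_or_ne x a with rfl | h1
    · rw [Equiv.swap_apply_left, he]
    rcases eq_or_ne x j with rfl | h2
    · rw [Equiv.swap_apply_right, he]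
    rw [Equiv.swap_apply_of_ne_of_ne h1 h2]
  have key : ∀ e : Fin N → Fin t, (∀ i, e ((Equiv.swap a j * π) i) = e i) ↔
      (∀ i, e (π i) = e i) ∧ e a = e j := by
    intro e
    constructor
    · intro he
      have h1 : e a = e j := by
        have := he a
        rw [Equiv.Perm.mul_apply, hπ, Equiv.swap_apply_left] at this
        exact this.symm
      exact ⟨fun i => by rw [← sw e h1 (π i)]; exact he i, h1⟩
    · rintro ⟨h1, h2⟩ i
      rw [Equiv.Perm.mul_apply, sw e h2, h1]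
  have up : ∀ (e : Fin N → Fin t) (c : Fin t), (∀ i, e (π i) = e i) →
      ∀ i, Function.update e a c (π i) = Function.update e a c i := by
    intro e c he i
    rcases eq_or_ne i a with rfl | h1
    · rw [hπ]
    · have h2 : π i ≠ a := fun h3 => h1 (π.injective (h3.trans hπ.symm))
      rw [Function.update_of_ne h1, Function.update_of_ne h2, he]
  unfold kap
  simp only [key]
  have e1 := Finset.card_product (Finset.univ : Finset (Fin t))
    (Finset.univ.filter fun e : Fin N → Fin t => (∀ i, e (π i) = e i) ∧ e a = e j)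
  rw [Finset.card_univ, Fintype.card_fin] at e1
  rw [← e1]
  refine Finset.card_nbij' (fun p => Function.update p.2 a p.1)
    (fun e => (e a, Function.update e a (e j))) ?_ ?_ ?_ ?_
  · rintro ⟨c, e⟩ hp
    simp only [Finset.coe_product, Finset.coe_filter, Finset.mem_univ, true_and, Set.mem_prod,
      Set.mem_setOf_eq] at hp ⊢
    exact up e c hp.2.1
  · intro e he
    simp only [Finset.coe_product, Finset.coe_filter, Finset.mem_univ, true_and, Set.mem_prod,
      Set.mem_setOf_eq, Finset.coe_univ, Set.mem_univ] at he ⊢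
    exact ⟨up e _ he, by rw [Function.update_self, Function.update_of_ne h.symm]⟩
  · rintro ⟨c, e⟩ hp
    simp only [Finset.coe_product, Finset.coe_filter, Finset.mem_univ, true_and, Set.mem_prod,
      Set.mem_setOf_eq] at hp
    simp only [Function.update_self, Function.update_idem, Function.update_of_ne h.symm,
      ← hp.2.2, Function.update_eq_self]
  · intro e _
    simp only [Function.update_idem, Function.update_eq_self]
theorem om_herm (Y : Finset Λ) (G : Finset (Fin N)) (t : ℕ) : (om Q Y G t).IsHermitian := by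
  unfold om
  refine IsHermitian.smul ?_ (by simp [IsSelfAdjoint])
  unfold Matrix.IsHermitian
  rw [conjTranspose_sum]
  refine Finset.sum_nbij' (fun π => π⁻¹) (fun π => π⁻¹) (fun π h => SG_inv h) (fun π h => SG_inv h)
    (fun π _ => inv_inv π) (fun π _ => inv_inv π) fun π _ => ?_
  rw [conjTranspose_smul, pm_ct, kap_inv]
  simp
theorem rh_herm (Y : Finset Λ) (a : Fin N) (G : Finset (Fin N)) (t : ℕ) :
    (rh Q Y a G t).IsHermitian := by
  unfold rh
  refine IsHermitian.smul (IsHermitian.add (IsHermitian.smul isHermitian_one ?_) (xx_herm Y a G)) ?_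
  · simp [IsSelfAdjoint]
  · simp [IsSelfAdjoint]
theorem om_empty (Y : Finset Λ) {t : ℕ} (ht : 0 < t) : om Q Y (∅ : Finset (Fin N)) t = 1 := by
  have h0 : (t : ℂ) ≠ 0 := Nat.cast_ne_zero.2 ht.ne'
  unfold om
  rw [SG_empty, Finset.sum_singleton, kap_one, pm_one, smul_smul]
  simp [h0]
theorem om_insert (Y : Finset Λ) {G : Finset (Fin N)} {a : Fin N} (ha : a ∉ G) {t : ℕ}
    (ht : 0 < t) : om Q Y (insert a G) t = rh Q Y a G t * om Q Y G t := by
  have h0 : (t : ℂ) ≠ 0 := Nat.cast_ne_zero.2 ht.ne'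
  have e1 : ∑ j ∈ G, ∑ π ∈ SG G, (kap t (Equiv.swap a j * π) : ℂ) • pm Q Y (Equiv.swap a j * π) =
      (t : ℂ)⁻¹ • (xx Q Y a G * ∑ π ∈ SG G, (kap t π : ℂ) • pm Q Y π) := by
    unfold xx
    rw [Finset.sum_mul, Finset.smul_sum]
    refine Finset.sum_congr rfl fun j hj => ?_
    rw [Finset.mul_sum, Finset.smul_sum]
    refine Finset.sum_congr rfl fun π hπ => ?_
    have h1 : a ≠ j := fun e => ha (e ▸ hj)
    rw [← kap_swap t h1 (mem_SG.1 hπ a ha), pm_mul, Matrix.mul_smul, smul_smul]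
    congr 1
    push_cast
    field_simp
  have h1 : ((G.card + 1 : ℕ) : ℂ) ≠ 0 := Nat.cast_ne_zero.2 (Nat.succ_ne_zero _)
  have h2 : (G.card.factorial : ℂ) ≠ 0 := Nat.cast_ne_zero.2 (Nat.factorial_ne_zero _)
  unfold om rh
  rw [sg_insert ha, e1, Finset.card_insert_of_notMem ha, Nat.factorial_succ, Matrix.smul_mul,
    Matrix.mul_smul, Matrix.add_mul, Matrix.smul_mul, Matrix.one_mul, smul_smul, smul_add, smul_add,
    smul_smul, smul_smul, Nat.cast_mul]
  congr 2
  · field_simp
    ring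
  · field_simp
    ring
theorem comm_om {Y : Finset Λ} {G : Finset (Fin N)} {Z : RM Λ Q N} (t : ℕ)
    (h : ∀ π ∈ SG G, Commute Z (pm Q Y π)) : Commute Z (om Q Y G t) := by
  unfold om
  exact (Commute.sum_right _ _ _ fun π hπ => (h π hπ).smul_right _).smul_right _
theorem comm_rh {Y : Finset Λ} {a : Fin N} {G : Finset (Fin N)} {Z : RM Λ Q N} (t : ℕ)
    (h : ∀ j ∈ G, Commute Z (pm Q Y (Equiv.swap a j))) : Commute Z (rh Q Y a G t) := by
  unfold rh xx
  exact (((Commute.one_right Z).smul_right _).add_right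
    (Commute.sum_right _ _ _ fun j hj => h j hj)).smul_right _
theorem om_comm {Y Y' : Finset Λ} {G : Finset (Fin N)} {π : Equiv.Perm (Fin N)} (t : ℕ)
    (h : (Y ⊆ Y' ∧ ∀ j, π j ∈ G ↔ j ∈ G) ∨ Disjoint Y Y' ∨ ∀ j ∈ G, π j = j) :
    Commute (pm Q Y' π) (om Q Y G t) := by
  rcases h with ⟨h1, h2⟩ | h | h
  · unfold om
    refine Commute.smul_right ?_ _
    change _ * _ = _ * _
    rw [← SG_conj h2 (fun σ => (kap t σ : ℂ) • pm Q Y σ) |>.symm.symm, Finset.sum_mul]
    conv_lhs => rw [SG_conj h2 (fun σ => (kap t σ : ℂ) • pm Q Y σ), Finset.mul_sum]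
    refine Finset.sum_congr rfl fun σ _ => ?_
    rw [Matrix.mul_smul, Matrix.smul_mul, pm_conj h1, kap_conj]
  · exact comm_om t fun σ _ => pm_comm_disj h.symm π σ
  · refine comm_om t fun σ hσ => pm_comm_perm Y' Y (SG_comm (G := Gᶜ) disjoint_compl_left ?_ hσ)
    exact mem_SG.2 fun j hj => h j (by simpa using hj)
theorem rh_comm {Y Y' : Finset Λ} {a : Fin N} {G : Finset (Fin N)} {π : Equiv.Perm (Fin N)} (t : ℕ)
    (h : (Y ⊆ Y' ∧ π a = a ∧ ∀ j, π j ∈ G ↔ j ∈ G) ∨ Disjoint Y Y' ∨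
      (π a = a ∧ ∀ j ∈ G, π j = j)) : Commute (pm Q Y' π) (rh Q Y a G t) := by
  unfold rh
  exact (((Commute.one_right _).smul_right _).add_right (xx_comm h)).smul_right _
theorem om_om {Y Y' : Finset Λ} {G G' : Finset (Fin N)} (t t' : ℕ)
    (h : (Y ⊆ Y' ∧ G' ⊆ G) ∨ Disjoint Y Y' ∨ Disjoint G G') :
    Commute (om Q Y' G' t') (om Q Y G t) := by
  refine (comm_om t' fun π hπ => (om_comm t ?_).symm).symm
  rcases h with ⟨h1, h2⟩ | h | h
  · exact Or.inl ⟨h1, SG_mem (SG_mono h2 hπ)⟩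
  · exact Or.inr (Or.inl h)
  · exact Or.inr (Or.inr fun j hj => mem_SG.1 hπ j (Finset.disjoint_left.1 h hj))
theorem rh_om {Y Y' : Finset Λ} {a : Fin N} {G : Finset (Fin N)} (ha : a ∉ G) (t t' : ℕ)
    (h : Y ⊆ Y' ∨ Disjoint Y Y') : Commute (om Q Y' G t') (rh Q Y a G t) := by
  refine (comm_om t' fun π hπ => (rh_comm t ?_).symm).symm
  rcases h with h | h
  · exact Or.inl ⟨h, mem_SG.1 hπ a ha, SG_mem hπ⟩
  · exact Or.inr (Or.inl h)

end Vale.Agent.P356G
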