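import Vale.Agent.P356G.RepD0

/- Lower bound of the universal weight by purification.
`om_ge`: let `K = (Fin N → Λ → Q) × (Fin N → Fin t)` and let `π` act on `K` by `pa Y π` and `e ↦ e ∘ π⁻¹`;
`Π = |G|!⁻¹ ∑ π ∈ SG G, (action)` is a Hermitian projector and
`qf (om Y G t) v = (t ^ |G| / t ^ N) ∑ e, <v ⊗ δ_e, Π (v ⊗ δ_e)>`.
Let `s = sqrt m`, `ι : (Y → Q) ↪ Fin t`, `φ (y, f) = s y (ι⁻¹ f)` (zero off the range), `|φ|² = tr m ≤ 1`.
For fixed values `r` of all other coordinates (sites off `Y` on copies in `G`, all sites and colours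
on copies off `G`) the vector `Φ_r = ∏ j ∈ G, φ (x j|Y, e j) * δ_r` is invariant under the action; the `Φ_r` are orthogonal with
norm `≤ 1`, so `Π ≥ ∑ r, |Φ_r><Φ_r|` (Bessel), and summing over `e` gives the tensor product of `m`.
A convenient form: `W : Matrix K' K` the contraction `x ↦ (<Φ_r, x>)_r`, `W Π = W`, so
`nsq (W x) = nsq (W Π x) ≤ nsq (Π x)`.
`rh_spIn`: at `t = DD`, `om (insert a G)` and `om G` are positive definite and commute, so
`rh = om (insert a G) * (om G)⁻¹` is positive: `DD + xx ≥ 0`. `om_le`: induction with `om_insert`. -/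

namespace Vale.Agent.P356G

open Matrix Vale.Agent.P356

variable {Λ Q : Type} [Fintype Λ] [DecidableEq Λ] [Fintype Q] [DecidableEq Q] [Nonempty Q] {N : ℕ}

namespace RepDA

omit [Nonempty Q] in
theorem tensF_sc (c : Fin N → ℂ) :
    tensF (fun j => c j • (1 : Matrix (Λ → Q) (Λ → Q) ℂ)) = (∏ j, c j) • (1 : RM Λ Q N) := by
  rw [← tensF_one]
  ext x y
  simp only [tensF, Matrix.smul_apply, smul_eq_mul, Finset.prod_mul_distrib]

omit [Nonempty Q] in
theorem qf_rh (Y : Finset Λ) (a : Fin N) (G : Finset (Fin N)) (t : ℕ)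
    (v : (Fin N → Λ → Q) → ℂ) :
    qf (rh Q Y a G t) v = (t * nsq v + qf (xx Q Y a G) v) / (G.card + 1) := by
  have e : (((G.card + 1 : ℕ) : ℂ)⁻¹) = ((((G.card : ℝ) + 1)⁻¹ : ℝ) : ℂ) := by
    push_cast
    rfl
  rw [rh, e, qf_smul, qf_add, ← Complex.ofReal_natCast t, qf_smul, qf_one, inv_mul_eq_div]

theorem prod_eq (s n : ℕ) :
    ∏ m ∈ Finset.range n, ((s : ℝ) + 1 + m) / (m + 1) = (s + n).choose n := by
  induction n with
  | zero => simp
  | succ n ih =>
    rw [Finset.prod_range_succ, ih, mul_div_assoc', div_eq_iff (by positivity)]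
    have h := Nat.add_one_mul_choose_eq (s + n) n
    have h2 : (((s + n + 1) * (s + n).choose n : ℕ) : ℝ) =
      ((s + n + 1).choose (n + 1) * (n + 1) : ℕ) := by rw [h]
    push_cast at h2
    rw [← add_assoc, ← h2]
    ring

theorem choose_le (s n : ℕ) {y : ℝ} (hy : 0 < y) :
    ((s + n).choose n : ℝ) ≤ Real.exp (y * n + (1 + y) / y * s) := by
  have h1 : y ^ s * (s + n).choose n ≤ (1 + y) ^ (s + n) := by
    rw [add_pow]
    refine le_trans ?_ (Finset.single_le_sum (f := fun k => (1 : ℝ) ^ k * y ^ (s + n - k) *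
      ((s + n).choose k : ℝ)) (fun k _ => by positivity) (Finset.mem_range.2 (by omega : n < s + n + 1)))
    simp
  have h2 : (1 + y) ^ n ≤ Real.exp (y * n) := by
    rw [mul_comm, Real.exp_nat_mul]
    exact pow_le_pow_left₀ (by positivity) (by linarith [Real.add_one_le_exp y]) n
  have h3 : ((1 + y) / y) ^ s ≤ Real.exp ((1 + y) / y * s) := by
    rw [mul_comm, Real.exp_nat_mul]
    exact pow_le_pow_left₀ (by positivity) (by linarith [Real.add_one_le_exp ((1 + y) / y)]) s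
  have h4 : ((s + n).choose n : ℝ) ≤ (1 + y) ^ n * ((1 + y) / y) ^ s := by
    rw [div_pow, mul_div_assoc', le_div_iff₀ (by positivity), ← pow_add, add_comm n s, mul_comm]
    exact h1
  rw [Real.exp_add]
  exact h4.trans (mul_le_mul h2 h3 (by positivity) (by positivity))

end RepDA

theorem om_pd (Y : Finset Λ) (G : Finset (Fin N)) {t : ℕ} (ht : DD Λ Q ≤ t) :
    Pd (om Q Y G t) := by
  refine ⟨om_herm Y G t, fun v hv => ?_⟩
  obtain ⟨d, hd⟩ : ∃ d : ℝ, d = Fintype.card ({z // z ∈ Y} → Q) := ⟨_, rfl⟩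
  have d0 : 0 < d := by
    rw [hd]
    exact_mod_cast Fintype.card_pos
  have h := om_ge Y G ht (m := ((d⁻¹ : ℝ) : ℂ) • 1) ⟨by
      simp only [IsHermitian, conjTranspose_smul, conjTranspose_one, Complex.star_def,
        Complex.conj_ofReal], fun u => by
      rw [qf_smul, qf_one]
      exact mul_nonneg (by positivity) (nsq_nonneg u)⟩ (by
      rw [trace_smul, trace_one, smul_eq_mul, ← Complex.ofReal_natCast, ← hd, ← Complex.ofReal_mul,
        Complex.ofReal_re, inv_mul_cancel₀ d0.ne']) v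
  have e : (fun j => if j ∈ G then lift Y (((d⁻¹ : ℝ) : ℂ) • 1) else 1) = fun j : Fin N =>
      (((if j ∈ G then d⁻¹ else 1 : ℝ)) : ℂ) • (1 : Matrix (Λ → Q) (Λ → Q) ℂ) := by
    funext j
    split_ifs
    · rw [smul_one_eq_diagonal, lift_diag, smul_one_eq_diagonal]
    · simp
  rw [e, RepDA.tensF_sc, ← Complex.ofReal_prod, qf_smul, qf_one, one_mul] at h
  refine lt_of_lt_of_le (mul_pos (Finset.prod_pos fun j _ => ?_) (VecA.nsq_pos hv)) h
  split_ifs
  · positivity
  · exact one_pos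
theorem rh_spIn (Y : Finset Λ) {a : Fin N} {G : Finset (Fin N)} (ha : a ∉ G) (t : ℕ) :
    SpIn (rh Q Y a G t) (((t : ℝ) - DD Λ Q) / (G.card + 1)) (((t : ℝ) + G.card) / (G.card + 1)) := by
  refine ⟨rh_herm Y a G t, fun v => ?_⟩
  have h1 := om_pd (Q := Q) Y G le_rfl
  have h2 := om_pd (Q := Q) Y (insert a G) le_rfl
  have h3 : Commute (om Q Y (insert a G) (DD Λ Q)) (om Q Y G (DD Λ Q)) :=
    (om_om _ _ (Or.inl ⟨subset_rfl, Finset.subset_insert a G⟩)).symm
  have h4 := (h2.mul (cpw_pd h1.1 (-1)) (cpw_comm h3 _)).ps.2 v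
  rw [om_insert Y ha DD_pos, Matrix.mul_assoc, Complex.ofReal_neg, Complex.ofReal_one,
    (cpw_inv h1).2, Matrix.mul_one, RepDA.qf_rh] at h4
  have hG : (0 : ℝ) < G.card + 1 := by positivity
  have h5 := (abs_le.1 ((xx_bd (Q := Q) Y a G).qf v)).2
  have h6 := (div_nonneg_iff.1 h4).elim And.left fun h => absurd h.2 (not_le.2 hG)
  rw [RepDA.qf_rh, div_mul_eq_mul_div, div_mul_eq_mul_div]
  exact ⟨div_le_div_of_nonneg_right (by linarith) hG.le,
    div_le_div_of_nonneg_right (by linarith) hG.le⟩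
theorem om_le (Y : Finset Λ) (G : Finset (Fin N)) {t : ℕ} (ht : DD Λ Q ≤ t) :
    Le (om Q Y G t) (∏ m ∈ Finset.range G.card, ((t : ℝ) + m) / (m + 1)) 1 := by
  have t0 : 0 < t := lt_of_lt_of_le DD_pos ht
  induction G using Finset.induction_on with
  | empty =>
    intro v
    rw [om_empty Y t0]
    simp
  | insert a G ha ih =>
    intro v
    have h1 := om_pd (Q := Q) Y G ht
    have h2 := rh_om (Q := Q) ha t t (Or.inl (subset_rfl : Y ⊆ Y))
    have h3 := qf_mul h1 (Commute.one_right _) v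
    rw [Matrix.mul_one, qf_one] at h3
    rw [om_insert Y ha t0, ← h2.eq, qf_mul h1 h2, Finset.card_insert_of_notMem ha,
      Finset.prod_range_succ]
    refine ((rh_spIn Y ha t).2 _).2.trans ?_
    rw [← h3, mul_right_comm, mul_comm]
    exact mul_le_mul_of_nonneg_right (ih v) (by positivity)
/-- `∏ (s + m) / (m + 1) = choose (N + s - 1) N ≤ (1 + y) ^ N (1 + 1 / y) ^ s` (one term of a
binomial expansion, or induction), with `s ≤ C (δ N + 1)` -/
theorem prod_small (C : ℕ) (η : ℝ) (hη : 0 < η) : ∀ᶠ δ in nhdsWithin (0 : ℝ) (Set.Ioi 0),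
    ∀ᶠ N : ℕ in Filter.atTop, ∏ m ∈ Finset.range N, (((C * t0 δ N : ℕ) : ℝ) + m) / (m + 1) ≤
      Real.exp (η * N) := by
  obtain ⟨b, hb⟩ : ∃ b : ℝ, b = (1 + η / 2) / (η / 2) := ⟨_, rfl⟩
  have b0 : 0 < b := by
    rw [hb]
    positivity
  have hc : 0 < η / (4 * (b * C + 1)) := by positivity
  filter_upwards [Ioc_mem_nhdsGT hc] with δ hδ
  filter_upwards [(tendsto_natCast_atTop_atTop (R := ℝ)).eventually_ge_atTop (4 * (b * C) / η)]
    with N hN
  have h1 : ∏ m ∈ Finset.range N, (((C * t0 δ N : ℕ) : ℝ) + m) / (m + 1) ≤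
      ∏ m ∈ Finset.range N, (((C * t0 δ N : ℕ) : ℝ) + 1 + m) / (m + 1) :=
    Finset.prod_le_prod (fun m _ => by positivity) fun m _ =>
      div_le_div_of_nonneg_right (by linarith) (by positivity)
  rw [RepDA.prod_eq] at h1
  refine h1.trans ((RepDA.choose_le _ _ (half_pos hη)).trans (Real.exp_le_exp.2 ?_))
  have N0 : (0 : ℝ) ≤ N := Nat.cast_nonneg N
  have h2 : (t0 δ N : ℝ) ≤ δ * N + 1 := (Nat.ceil_lt_add_one (mul_nonneg hδ.1.le N0)).le
  have h3 : 0 ≤ b * C := by positivity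
  have h4 := mul_le_mul_of_nonneg_left h2 h3
  have h5 : δ * (4 * (b * C + 1)) ≤ η := (le_div_iff₀ (by positivity)).1 hδ.2
  have h6 : 4 * (b * C) ≤ N * η := (div_le_iff₀ hη).1 hN
  have h7 := mul_le_mul_of_nonneg_right h5 N0
  have h8 := mul_nonneg hδ.1.le N0
  rw [← hb]
  push_cast
  nlinarith

end Vale.Agent.P356G
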