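import Vale.Agent.P356G.RepC

/- Lower bound of the universal weight by purification.
`om_ge`: let `K = (Fin N → Λ → Q) × (Fin N → Fin t)` and let `π` act on `K` by `pa Y π` and `e ↦ e ∘ π⁻¹`;
`Π = |G|!⁻¹ ∑ π ∈ SG G, (action)` is a Hermitian projector and
`qf (om Y G t) v = (t ^ |G| / t ^ N) ∑ e, <v ⊗ δ_e, Π (v ⊗ δ_e)>`.
Let `s = sqrt m`, `ι : (Y → Q) ↪ Fin t`, `φ (y, f) = s y (ι⁻¹ f)` (zero off the range), `|φ|² = tr m ≤ 1`.
For fixed values `r` of all other coordinates (sites off `Y` on copies in `G`, all sites and colours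
on copies off `G`) the vector `Φ_r = ∏ j ∈ G, φ (x j|Y, e j) * δ_r` is invariant under the action; the `Φ_r` are orthogonal with
norm `≤ 1`, so `Π ≥ ∑ r, |Φ_r><Φ_r|` (Bessel), and summing over `e` gives the tensor product of `m`.
A convenient form: `W : Matrix K' K` the contraction `x ↦ (<Φ_r, x>)_r`, `W Π = W`, so
`nsq (W x) = nsq (W Π x) ≤ nsq (Π x)`.
`rh_spIn`: at `t = DD`, `om (insert a G)` and `om G` are positive definite and commute, so
`rh = om (insert a G) * (om G)⁻¹` is positive: `DD + xx ≥ 0`. `om_le`: induction with `om_insert`. -/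

namespace Vale.Agent.P356G

open Matrix Vale.Agent.P356

namespace RepD0A

open Kronecker

section Gen

variable {X A : Type} [Fintype X] [DecidableEq X] [Fintype A] [DecidableEq A] {N : ℕ}

/-- trace over the second factor -/
def ptr (M : Matrix (X × A) (X × A) ℂ) : Matrix X X ℂ := fun x y => ∑ e, M (x, e) (y, e)

/-- embedding at fixed second coordinate -/
def Je (X : Type) [DecidableEq X] (e : A) : Matrix (X × A) X ℂ :=
  fun p y => if p = (y, e) then 1 else 0

theorem ptr_eq (M : Matrix (X × A) (X × A) ℂ) :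
    ptr M = ∑ e : A, ((Je X e)ᴴ * M * Je X e : Matrix X X ℂ) := by
  ext x y
  rw [Matrix.sum_apply]
  refine Finset.sum_congr rfl fun e _ => ?_
  simp [Matrix.mul_apply, Je, conjTranspose_apply, apply_ite star]

theorem ptr_le {M M' : Matrix (X × A) (X × A) ℂ} (h : ∀ w, qf M w ≤ qf M' w) (v : X → ℂ) :
    qf (ptr M) v ≤ qf (ptr M') v := by
  rw [ptr_eq, ptr_eq, qf_sum, qf_sum]
  refine Finset.sum_le_sum fun e _ => ?_
  rw [qf_conj, qf_conj]
  exact h _

omit [Fintype X] [DecidableEq X] [DecidableEq A] in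
theorem ptr_kron (M : Matrix X X ℂ) (B : Matrix A A ℂ) : ptr (M ⊗ₖ B) = trace B • M := by
  ext x y
  simp [ptr, trace, Finset.mul_sum, mul_comm]

omit [Fintype X] [DecidableEq X] [DecidableEq A] in
theorem ptr_sum {ι : Type} (S : Finset ι) (c : ℂ) (M : ι → Matrix (X × A) (X × A) ℂ) :
    ptr (c • ∑ i ∈ S, M i) = c • ∑ i ∈ S, ptr (M i) := by
  ext x y
  simp only [ptr, Matrix.smul_apply, Matrix.sum_apply, smul_eq_mul, ← Finset.mul_sum]
  rw [Finset.sum_comm]

/-- tensor product on pairs -/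
def tk (T : Fin N → Matrix (X × A) (X × A) ℂ) :
    Matrix ((Fin N → X) × (Fin N → A)) ((Fin N → X) × (Fin N → A)) ℂ :=
  fun p q => ∏ j, T j (p.1 j, p.2 j) (q.1 j, q.2 j)

omit [DecidableEq X] [DecidableEq A] in
theorem tk_mul (T T' : Fin N → Matrix (X × A) (X × A) ℂ) :
    tk T * tk T' = tk fun j => T j * T' j := by
  classical
  ext p q
  simp only [tk, Matrix.mul_apply, Fintype.sum_prod_type]
  rw [Finset.prod_univ_sum, Fintype.piFinset_univ]
  refine Finset.sum_congr rfl fun z _ => ?_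
  rw [Finset.prod_univ_sum, Fintype.piFinset_univ]
  refine Finset.sum_congr rfl fun g _ => ?_
  rw [← Finset.prod_mul_distrib]

omit [Fintype X] [DecidableEq X] [Fintype A] [DecidableEq A] in
theorem tk_ct (T : Fin N → Matrix (X × A) (X × A) ℂ) : (tk T)ᴴ = tk fun j => (T j)ᴴ := by
  ext p q
  simp [tk, conjTranspose_apply]

omit [Fintype X] [DecidableEq X] [Fintype A] [DecidableEq A] in
theorem tk_smul (c : Fin N → ℂ) (T : Fin N → Matrix (X × A) (X × A) ℂ) :
    (tk fun j => c j • T j) = (∏ j, c j) • tk T := by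
  ext p q
  simp [tk, Finset.prod_mul_distrib]

omit [Fintype X] [DecidableEq X] [DecidableEq A] in
theorem ptr_tk (T : Fin N → Matrix (X × A) (X × A) ℂ) (x y : Fin N → X) :
    ptr (tk T) x y = ∏ j, ptr (T j) (x j) (y j) := by
  classical
  simp only [ptr, tk]
  rw [Finset.prod_univ_sum, Fintype.piFinset_univ]

theorem le_one_of_sq {P : Matrix X X ℂ} (hP : P.IsHermitian) {C : ℝ} (h1 : C ≤ 1)
    (h : P * P = (C : ℂ) • P) (w : X → ℂ) : qf P w ≤ nsq w := by
  by_cases hq : qf P w ≤ 0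
  · exact hq.trans (nsq_nonneg w)
  push Not at hq
  have e1 : nsq (P *ᵥ w) = C * qf P w := by
    rw [← qf_ct_mul, hP.eq, h, qf_smul]
  have e2 := cs w (P *ᵥ w)
  have e3 : qf P w ≤ ‖star w ⬝ᵥ (P *ᵥ w)‖ := Complex.re_le_norm _
  have e4 : qf P w ^ 2 ≤ nsq w * (C * qf P w) := by
    rw [← e1]
    exact (pow_le_pow_left₀ hq.le e3 2).trans e2
  have e5 : nsq w * (C * qf P w) ≤ nsq w * qf P w :=
    mul_le_mul_of_nonneg_left (by nlinarith) (nsq_nonneg w)
  nlinarith

theorem avg_prj (G : Finset (Fin N)) (U : Equiv.Perm (Fin N) → Matrix X X ℂ)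
    (hm : ∀ σ π, U (σ * π) = U σ * U π) (hc : ∀ π, (U π)ᴴ = U π⁻¹) :
    Prj ((((SG G).card : ℂ)⁻¹) • ∑ π ∈ SG G, U π) := by
  have hne : ((SG G).card : ℂ) ≠ 0 := by
    rw [SG_card]
    exact_mod_cast (Nat.factorial_ne_zero _)
  constructor
  · unfold Matrix.IsHermitian
    rw [conjTranspose_smul, conjTranspose_sum]
    congr 1
    · simp
    · refine Finset.sum_nbij' (fun π => π⁻¹) (fun π => π⁻¹) (fun π h => SG_inv h)
        (fun π h => SG_inv h) (fun π _ => inv_inv π) (fun π _ => inv_inv π) fun π _ => hc π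
  · rw [smul_mul_smul_comm, Finset.sum_mul]
    have : ∀ σ ∈ SG G, U σ * ∑ π ∈ SG G, U π = ∑ π ∈ SG G, U π := by
      intro σ hσ
      rw [Finset.mul_sum]
      refine Finset.sum_nbij' (fun π => σ * π) (fun π => σ⁻¹ * π) (fun π h => SG_mul hσ h)
        (fun π h => SG_mul (SG_inv hσ) h) (fun π _ => by simp) (fun π _ => by simp)
        fun π _ => (hm σ π).symm
    rw [Finset.sum_congr rfl this, Finset.sum_const, ← Nat.cast_smul_eq_nsmul ℂ, smul_smul]
    congr 1
    field_simp

theorem le_prj {P S : Matrix X X ℂ} (hP : P.IsHermitian) (hS : Prj S) (h : S * P = P)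
    (h1 : ∀ w, qf P w ≤ nsq w) (w : X → ℂ) : qf P w ≤ qf S w := by
  have h2 : P * S = P := by
    have := congrArg conjTranspose h
    rwa [conjTranspose_mul, hP.eq, hS.1.eq] at this
  have h3 : P = Sᴴ * P * S := by rw [hS.1.eq, h, h2]
  rw [h3, qf_conj, hS.qf]
  exact h1 _

theorem exists_pur {m : Matrix X X ℂ} (hm : Ps m) (hc : Fintype.card X ≤ Fintype.card A) :
    ∃ φ : Matrix X A ℂ, φ * φᴴ = m := by
  obtain ⟨ι⟩ := Function.Embedding.nonempty_of_card_le hc
  let s : Matrix X X ℂ := hf m fun x => (Real.sqrt x : ℂ)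
  have hs : sᴴ = s := (hf_herm m Real.sqrt).eq
  have hss : s * s = m := by
    have e := hf_mul hm.1 (fun x => (Real.sqrt x : ℂ)) (fun x => (Real.sqrt x : ℂ))
    rw [e, hf_congr hm.1 (g := fun x => (x : ℂ)), hf_id hm.1]
    intro i
    rw [← Complex.ofReal_mul, Real.mul_self_sqrt (hm.eig i)]
  let J : Matrix X A ℂ := Matrix.of fun a e => if e = ι a then 1 else 0
  have hJ : J * Jᴴ = 1 := by
    ext a b
    simp only [J, Matrix.mul_apply, conjTranspose_apply, Matrix.of_apply, apply_ite star, star_one,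
      star_zero, ite_mul, one_mul, zero_mul, Finset.sum_ite_eq', Finset.mem_univ, if_true,
      Matrix.one_apply, EmbeddingLike.apply_eq_iff_eq]
  refine ⟨s * J, ?_⟩
  rw [conjTranspose_mul, Matrix.mul_assoc, ← Matrix.mul_assoc J, hJ, Matrix.one_mul, hs, hss]

end Gen

variable {Λ Q A : Type} [Fintype Λ] [DecidableEq Λ] [Fintype Q] [DecidableEq Q] [Fintype A]
  [DecidableEq A] {N : ℕ}

/-- the purified single copy operator -/
def Rr (Y : Finset Λ) (φ : Matrix ({z // z ∈ Y} → Q) A ℂ) :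
    Matrix ((Λ → Q) × A) ((Λ → Q) × A) ℂ :=
  fun p q => if cores Y p.1 = cores Y q.1 then φ (res Y p.1) p.2 * star (φ (res Y q.1) q.2) else 0

omit [Fintype Q] [Fintype A] [DecidableEq A] in
theorem Rr_herm (Y : Finset Λ) (φ : Matrix ({z // z ∈ Y} → Q) A ℂ) : (Rr Y φ)ᴴ = Rr Y φ := by
  ext p q
  simp only [conjTranspose_apply, Rr]
  by_cases h : cores Y p.1 = cores Y q.1
  · rw [if_pos h, if_pos h.symm, star_mul', star_star, mul_comm]
  · rw [if_neg h, if_neg (fun h' => h h'.symm), star_zero]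

omit [DecidableEq A] in
theorem Rr_mul (Y : Finset Λ) (φ : Matrix ({z // z ∈ Y} → Q) A ℂ) :
    Rr Y φ * Rr Y φ = trace (φ * φᴴ) • Rr Y φ := by
  ext p q
  simp only [Matrix.mul_apply, Fintype.sum_prod_type, Matrix.smul_apply, smul_eq_mul, trace,
    diag_apply, conjTranspose_apply]
  rw [sum_glue Y, Finset.sum_mul]
  refine Finset.sum_congr rfl fun a _ => ?_
  rw [Finset.sum_eq_single (cores Y p.1)]
  · rw [Finset.sum_mul]
    refine Finset.sum_congr rfl fun e _ => ?_
    simp only [Rr, res_glue, cores_glue, if_true]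
    split_ifs
    · ring
    · ring
  · intro c _ hc
    refine Finset.sum_eq_zero fun e _ => ?_
    simp only [Rr, res_glue, cores_glue]
    rw [if_neg (fun h => hc h.symm), zero_mul]
  · intro h
    exact absurd (Finset.mem_univ _) h

omit [DecidableEq A] in
theorem ptr_Rr (Y : Finset Λ) (φ : Matrix ({z // z ∈ Y} → Q) A ℂ) :
    ptr (Rr Y φ) = lift Y (φ * φᴴ) := by
  ext x y
  simp only [ptr, Rr, lift, Matrix.mul_apply, conjTranspose_apply]
  split_ifs
  · rfl
  · simp

theorem kron_mul_apply {B : Type} [Fintype B] [DecidableEq B] (Y : Finset Λ)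
    (π : Equiv.Perm (Fin N)) (P : Matrix ((Fin N → Λ → Q) × (Fin N → Unit → B))
      ((Fin N → Λ → Q) × (Fin N → Unit → B)) ℂ)
    (x : Fin N → Λ → Q) (e : Fin N → Unit → B) (q : (Fin N → Λ → Q) × (Fin N → Unit → B)) :
    ((pm Q Y π ⊗ₖ pm B (Finset.univ : Finset Unit) π) * P :
      Matrix ((Fin N → Λ → Q) × (Fin N → Unit → B)) ((Fin N → Λ → Q) × (Fin N → Unit → B)) ℂ)
        (x, e) q =
      P (pa Y π⁻¹ x, pa Finset.univ π⁻¹ e) q := by
  have h1 := pm_mulVec Y π (fun z => P (z, pa Finset.univ π⁻¹ e) q) x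
  rw [← h1, Matrix.mul_apply, Fintype.sum_prod_type]
  change _ = ∑ z, pm Q Y π x z * P (z, pa Finset.univ π⁻¹ e) q
  refine Finset.sum_congr rfl fun z _ => ?_
  have h2 := pm_mulVec (Finset.univ : Finset Unit) π (fun g => P (z, g) q) e
  rw [← h2]
  change _ = pm Q Y π x z * ∑ g, pm B Finset.univ π e g * P (z, g) q
  simp only [kroneckerMap_apply, Finset.mul_sum, mul_assoc]

theorem inv_tk {B : Type} [Fintype B] [DecidableEq B] (Y : Finset Λ) (G : Finset (Fin N))
    (φ : Matrix ({z // z ∈ Y} → Q) (Unit → B) ℂ) {π : Equiv.Perm (Fin N)} (hπ : π ∈ SG G) :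
    (pm Q Y π ⊗ₖ pm B Finset.univ π) * tk (fun j => if j ∈ G then Rr Y φ else 1) =
      tk fun j => if j ∈ G then Rr Y φ else 1 := by
  ext ⟨x, e⟩ q
  refine (kron_mul_apply Y π _ x e q).trans ?_
  let L : Fin N → (Λ → Q) → (Unit → B) → ℂ := fun j a b => if j ∈ G then φ (res Y a) b else 1
  let D : Fin N → (Λ → Q) → (Unit → B) → ℂ := fun j a b =>
    if j ∈ G then (if cores Y a = cores Y (q.1 j) then star (φ (res Y (q.1 j)) (q.2 j)) else 0)
    else (1 : Matrix ((Λ → Q) × (Unit → B)) ((Λ → Q) × (Unit → B)) ℂ) (a, b) (q.1 j, q.2 j)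
  have hT : ∀ j a b, (if j ∈ G then Rr Y φ else 1) (a, b) (q.1 j, q.2 j) = L j a b * D j a b := by
    intro j a b
    by_cases hj : j ∈ G
    · simp only [L, D, if_pos hj, Rr]
      split_ifs
      · rfl
      · simp
    · simp only [L, D, if_neg hj, one_mul]
  simp only [tk, hT, Finset.prod_mul_distrib]
  have he : ∀ j, pa (Finset.univ : Finset Unit) π⁻¹ e j = e (π j) := by
    intro j
    funext s
    simp [pa]
  congr 1
  · rw [← Equiv.prod_comp π (fun j => L j (x j) (e j))]
    refine Finset.prod_congr rfl fun j _ => ?_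
    have hr : res Y (pa Y π⁻¹ x j) = res Y (x (π j)) := by
      funext s
      simp [res, pa, s.2]
    simp only [L, SG_mem hπ, hr, he]
  · refine Finset.prod_congr rfl fun j _ => ?_
    by_cases hj : j ∈ G
    · have hr : cores Y (pa Y π⁻¹ x j) = cores Y (x j) := by
        funext s
        simp [cores, pa, s.2]
      simp only [D, if_pos hj, hr]
    · have hp : π j = j := mem_SG.1 hπ j hj
      have hr : pa Y π⁻¹ x j = x j := by
        funext s
        simp [pa, hp]
      simp only [D, if_neg hj, hr, he, hp]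

theorem trace_pm (t : ℕ) (π : Equiv.Perm (Fin N)) :
    trace (pm (Fin t) (Finset.univ : Finset Unit) π) = (kap t π : ℂ) := by
  rw [← kap_inv]
  simp only [trace, diag_apply, pm, Finset.sum_boole, kap]
  congr 1
  refine Finset.card_nbij' (fun e j => e j ()) (fun e j _ => e j) ?_ ?_ ?_ ?_
  · intro e he
    simp only [Finset.coe_filter, Finset.mem_univ, true_and, Set.mem_setOf_eq] at he ⊢
    intro j
    have := congrFun (congrFun he j) ()
    simpa [pa] using this.symm
  · intro e he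
    simp only [Finset.coe_filter, Finset.mem_univ, true_and, Set.mem_setOf_eq] at he ⊢
    funext j s
    simpa [pa] using (he j).symm
  · intro e _
    rfl
  · intro e _
    rfl

end RepD0A

variable {Λ Q : Type} [Fintype Λ] [DecidableEq Λ] [Fintype Q] [DecidableEq Q] [Nonempty Q] {N : ℕ}

theorem DD_pos : 0 < DD Λ Q := Fintype.card_pos
theorem card_le_DD (Y : Finset Λ) : Fintype.card ({z // z ∈ Y} → Q) ≤ DD Λ Q := by
  refine Fintype.card_le_of_surjective (res Y) fun a => ?_
  exact ⟨glue Y a (fun _ => Classical.arbitrary Q), res_glue Y a _⟩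
open Kronecker RepD0A in
theorem om_ge (Y : Finset Λ) (G : Finset (Fin N)) {t : ℕ} (ht : DD Λ Q ≤ t)
    {m : Matrix ({z // z ∈ Y} → Q) ({z // z ∈ Y} → Q) ℂ} (hm : Ps m) (h1 : (trace m).re ≤ 1) :
    Le (tensF fun j => if j ∈ G then lift Y m else 1) 1 (om Q Y G t) := by
  have ht0 : 0 < t := lt_of_lt_of_le DD_pos ht
  have hcard : Fintype.card ({z // z ∈ Y} → Q) ≤ Fintype.card (Unit → Fin t) := by
    have := (card_le_DD (Q := Q) Y).trans ht
    simpa using this
  obtain ⟨φ, hφ⟩ := exists_pur hm hcard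
  have htr : trace m = ((trace m).re : ℂ) := by
    have h2 : star (trace m) = trace m := by rw [← trace_conjTranspose, hm.1.eq]
    exact (Complex.conj_eq_iff_re.1 h2).symm
  have h0 : 0 ≤ (trace m).re := by
    have := hm.trace_mul pd_one.ps
    rwa [Matrix.mul_one] at this
  set P := tk (fun j : Fin N => if j ∈ G then Rr Y φ else 1) with hP
  have hPh : P.IsHermitian := by
    unfold Matrix.IsHermitian
    rw [hP, tk_ct]
    congr 1
    funext j
    split_ifs
    · exact Rr_herm Y φ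
    · exact conjTranspose_one
  have hPP : P * P = ((∏ j : Fin N, (if j ∈ G then (trace m).re else 1) : ℝ) : ℂ) • P := by
    rw [hP, tk_mul, Complex.ofReal_prod, ← tk_smul]
    congr 1
    funext j
    split_ifs
    · rw [Rr_mul, hφ, ← htr]
    · simp
  have hC : (∏ j : Fin N, (if j ∈ G then (trace m).re else 1) : ℝ) ≤ 1 := by
    refine Finset.prod_le_one (fun j _ => ?_) fun j _ => ?_
    · split_ifs
      · exact h0
      · exact zero_le_one
    · split_ifs
      · exact h1
      · exact le_rfl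
  have hS := avg_prj G (fun π => pm Q Y π ⊗ₖ pm (Fin t) (Finset.univ : Finset Unit) π)
    (fun σ π => by rw [pm_mul, pm_mul, mul_kronecker_mul])
    (fun π => by rw [conjTranspose_kronecker, pm_ct, pm_ct])
  have hne : ((SG G).card : ℂ) ≠ 0 := by
    rw [SG_card]
    exact_mod_cast (Nat.factorial_ne_zero _)
  have hSP : ((((SG G).card : ℂ)⁻¹) •
      ∑ π ∈ SG G, pm Q Y π ⊗ₖ pm (Fin t) (Finset.univ : Finset Unit) π) * P = P := by
    rw [Matrix.smul_mul, Finset.sum_mul, Finset.sum_congr rfl fun π hπ => inv_tk Y G φ hπ,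
      Finset.sum_const, ← Nat.cast_smul_eq_nsmul ℂ, smul_smul, inv_mul_cancel₀ hne, one_smul]
  have key := ptr_le (le_prj hPh hS hSP (le_one_of_sq hPh hC hPP))
  have htc : (t : ℂ) ≠ 0 := by exact_mod_cast ht0.ne'
  have e1 : om Q Y G t = (((t : ℝ) ^ G.card / (t : ℝ) ^ N : ℝ) : ℂ) • ptr ((((SG G).card : ℂ)⁻¹) •
      ∑ π ∈ SG G, pm Q Y π ⊗ₖ pm (Fin t) (Finset.univ : Finset Unit) π) := by
    rw [ptr_sum, smul_smul, om, SG_card]
    congr 1
    · push_cast
      ring
    · refine Finset.sum_congr rfl fun π _ => ?_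
      rw [ptr_kron, trace_pm]
  have e2 : (tensF fun j => if j ∈ G then lift Y m else 1) =
      (((t : ℝ) ^ G.card / (t : ℝ) ^ N : ℝ) : ℂ) • ptr P := by
    ext x y
    rw [Matrix.smul_apply, hP, ptr_tk, smul_eq_mul]
    have e3 : (((t : ℝ) ^ G.card / (t : ℝ) ^ N : ℝ) : ℂ) =
        ∏ j : Fin N, (if j ∈ G then 1 else (t : ℂ)⁻¹) := by
      have e4 : ∏ j : Fin N, (if j ∈ G then (t : ℂ) else 1) = (t : ℂ) ^ G.card := by
        rw [Finset.prod_ite_mem, Finset.univ_inter, Finset.prod_const]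
      have e5 : (t : ℂ) ^ N = ∏ _j : Fin N, (t : ℂ) := by simp
      push_cast
      rw [← e4, e5, ← Finset.prod_div_distrib]
      refine Finset.prod_congr rfl fun j _ => ?_
      split_ifs
      · exact div_self htc
      · exact one_div _
    rw [e3, ← Finset.prod_mul_distrib]
    refine Finset.prod_congr rfl fun j _ => ?_
    beta_reduce
    split_ifs
    · rw [ptr_Rr, hφ, one_mul]
    · have : ptr (1 : Matrix ((Λ → Q) × (Unit → Fin t)) ((Λ → Q) × (Unit → Fin t)) ℂ) =
          (t : ℂ) • 1 := by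
        rw [← one_kronecker_one, ptr_kron]
        simp
      rw [this, Matrix.smul_apply, smul_eq_mul, inv_mul_cancel_left₀ htc]
  intro v
  rw [e1, e2, qf_smul, qf_smul, one_mul]
  exact mul_le_mul_of_nonneg_left (key v) (by positivity)

end Vale.Agent.P356G
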