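import Vale.Agent.P356G.RepD

/- The tilts. Throughout `DD < t`, so all weights and increments are positive definite (`om_pd`,
`rh_spIn`, `DD * t ≥ t`). Groups of different pairs are disjoint, so all `Lk` commute (`om_om`,
`hf_comm2`); an empty group gives `Lw = hlog 1 = 0`.
`Tp_inc`: split off `k = c a` from the sum (`hexp_add`), with `G = (grp c k ∩ S).erase a`:
`exp θ (L⁺AB - L⁺A - L⁺B) = exp θ L⁺AB * exp (-θ L⁺A) * exp (-θ L⁺B)`, `L⁺Y = hlog (rh Y) + LY`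
(`om_insert`, `hlog_mul`, `rh_om`), `hexp_smul_log`; `om (A ∪ B) G` commutes with `rh A`, `rh B`. -/

namespace Vale.Agent.P356G

open Matrix Vale.Agent.P356

variable {Λ Q : Type} [Fintype Λ] [DecidableEq Λ] [Fintype Q] [DecidableEq Q] [Nonempty Q] {N : ℕ}
  {θ : ℝ} {t : ℕ}

namespace RepE0A

variable {n : Type} [Fintype n] [DecidableEq n] {A Z : Matrix n n ℂ}

theorem clog (h : Commute Z A) : Commute Z (hlog A) := hf_comm h _
theorem cexp (h : Commute Z A) : Commute Z (hexp A) := hf_comm h _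
theorem herm_sum {ι : Type} (S : Finset ι) {M : ι → Matrix n n ℂ} (h : ∀ i, (M i).IsHermitian) :
    (∑ i ∈ S, M i).IsHermitian := by
  rw [IsHermitian, conjTranspose_sum]
  exact Finset.sum_congr rfl fun i _ => h i

end RepE0A

theorem Lw_herm (Y : Finset Λ) (G : Finset (Fin N)) (t : ℕ) : (Lw Q Y G t).IsHermitian := hlog_herm _
theorem Lw_empty (Y : Finset Λ) (ht : 0 < t) : Lw Q Y (∅ : Finset (Fin N)) t = 0 := by
  rw [Lw, om_empty Y ht, hlog_one]
theorem comm_Lw {Y : Finset Λ} {G : Finset (Fin N)} {Z : RM Λ Q N} (t : ℕ)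
    (h : ∀ π ∈ SG G, Commute Z (pm Q Y π)) : Commute Z (Lw Q Y G t) := by
  rw [Lw]
  exact RepE0A.clog (comm_om t h)
theorem Lw_Lw {Y Y' : Finset Λ} {G G' : Finset (Fin N)} (t t' : ℕ)
    (h : (Y ⊆ Y' ∧ G' ⊆ G) ∨ Disjoint Y Y' ∨ Disjoint G G') :
    Commute (Lw Q Y' G' t') (Lw Q Y G t) := by
  rw [Lw, Lw]
  exact RepE0A.clog (RepE0A.clog (om_om t t' h).symm).symm
theorem rh_pd (Y : Finset Λ) {a : Fin N} {G : Finset (Fin N)} (ha : a ∉ G) (ht : DD Λ Q < t) :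
    Pd (rh Q Y a G t) ∧ Pd (rh Q Y a G (DD Λ Q * t)) := by
  have h1 : DD Λ Q < DD Λ Q * t := ht.trans_le (Nat.le_mul_of_pos_left t DD_pos)
  exact ⟨(rh_spIn Y ha t).pd (div_pos (sub_pos.2 (Nat.cast_lt.2 ht)) (by positivity)),
    (rh_spIn Y ha _).pd (div_pos (sub_pos.2 (Nat.cast_lt.2 h1)) (by positivity))⟩
theorem Tp_pd (c : Fin N → Cfg Λ) (S : Finset (Fin N)) : Pd (Tp Q θ t c S) := by
  have h : (∑ k : Cfg Λ, Lk Q t k (grp c k ∩ S)).IsHermitian :=
    RepE0A.herm_sum _ fun k => ((Lw_herm _ _ _).sub (Lw_herm _ _ _)).sub (Lw_herm _ _ _)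
  exact hexp_pd (h.smul (Complex.conj_ofReal θ))
theorem Tp_congr {c c' : Fin N → Cfg Λ} {S : Finset (Fin N)} (h : ∀ a ∈ S, c a = c' a) :
    Tp Q θ t c S = Tp Q θ t c' S := by
  have e : ∀ k, grp c k ∩ S = grp c' k ∩ S := fun k => by
    ext a
    simp only [grp, Finset.mem_inter, Finset.mem_filter, Finset.mem_univ, true_and]
    exact and_congr_left fun ha => by rw [h a ha]
  simp only [Tp, e]
theorem Tp_empty (c : Fin N → Cfg Λ) (ht : 0 < t) : Tp Q θ t c ∅ = 1 := by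
  have h1 : 0 < DD Λ Q * t := Nat.mul_pos DD_pos ht
  simp only [Tp, Finset.inter_empty, Lk, Lw_empty _ ht, Lw_empty _ h1, sub_self,
    Finset.sum_const_zero, smul_zero, hexp_zero]
/-- `Z` commutes with the tilt if it commutes with the permutations it is built from -/
theorem comm_Tp {c : Fin N → Cfg Λ} {S : Finset (Fin N)} {Z : RM Λ Q N} (ht : 0 < t)
    (h : ∀ a ∈ S, ∀ π ∈ SG (grp c (c a) ∩ S), Commute Z (pm Q ((c a).1 ∪ (c a).2) π) ∧
      Commute Z (pm Q (c a).1 π) ∧ Commute Z (pm Q (c a).2 π)) : Commute Z (Tp Q θ t c S) := by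
  have h1 : 0 < DD Λ Q * t := Nat.mul_pos DD_pos ht
  rw [Tp]
  refine RepE0A.cexp (Commute.smul_right (Commute.sum_right _ _ _ fun k _ => ?_) _)
  rcases (grp c k ∩ S).eq_empty_or_nonempty with e | ⟨a, ha⟩
  · simp only [e, Lk, Lw_empty _ ht, Lw_empty _ h1, sub_self, Commute.zero_right]
  · obtain ⟨h2, h3⟩ := Finset.mem_inter.1 ha
    obtain rfl : c a = k := (Finset.mem_filter.1 h2).2
    rw [Lk]
    exact ((comm_Lw _ fun π hπ => (h a h3 π hπ).1).sub_right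
      (comm_Lw _ fun π hπ => (h a h3 π hπ).2.1)).sub_right (comm_Lw _ fun π hπ => (h a h3 π hπ).2.2)
theorem Tp_comm_pm {c : Fin N → Cfg Λ} {S : Finset (Fin N)} {π : Equiv.Perm (Fin N)}
    (h : ∀ j, c (π j) = c j) (hS : ∀ j, π j ∈ S ↔ j ∈ S) :
    Commute (pm Q Finset.univ π) (Tp Q θ t c S) := by
  rw [Tp]
  refine RepE0A.cexp (Commute.smul_right (Commute.sum_right _ _ _ fun k _ => ?_) _)
  have e : ∀ (Y : Finset Λ) (s : ℕ), Commute (pm Q Finset.univ π) (Lw Q Y (grp c k ∩ S) s) :=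
    fun Y s => by
    rw [Lw]
    refine RepE0A.clog (om_comm s (Or.inl ⟨Finset.subset_univ _, fun j => ?_⟩))
    simp only [grp, Finset.mem_inter, Finset.mem_filter, Finset.mem_univ, true_and, h, hS]
  rw [Lk]
  exact ((e _ _).sub_right (e _ _)).sub_right (e _ _)
theorem Th_sy (c : Fin N → Cfg Λ) (k : Cfg Λ) {G : Finset (Fin N)} (hG : G ⊆ grp c k)
    {v : (Fin N → Λ → Q) → ℂ} (hv : Sy G v) : Sy G (Th Q θ t c *ᵥ v) := by
  refine hv.mulVec fun π hπ => Tp_comm_pm (fun j => ?_) fun j => by simp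
  by_cases hj : j ∈ G
  · rw [(Finset.mem_filter.1 (hG hj)).2, (Finset.mem_filter.1 (hG ((SG_mem hπ j).2 hj))).2]
  · rw [mem_SG.1 hπ j hj]
theorem Tp_one (c : Fin N → Cfg Λ) {S : Finset (Fin N)} {a : Fin N} (ha : a ∉ S) (ht : 0 < t)
    (O : Matrix (Λ → Q) (Λ → Q) ℂ) : Commute (one a O) (Tp Q θ t c S) := by
  refine comm_Tp ht fun b _ π hπ => ?_
  have h : π a = a := mem_SG.1 hπ a fun h => ha (Finset.mem_inter.1 h).2
  exact ⟨one_comm_fix _ h O, one_comm_fix _ h O, one_comm_fix _ h O⟩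

end Vale.Agent.P356G
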