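import Vale.Agent.P356G.RepE

/- Alternative forms of the tilt. `Th_alt`: `hf_agree` on the set of vectors symmetric in every group,
`Lw_compl`.
`noncross`: for the pair `k0 = c a` take the three sets (or complements) disjoint from `Z`
(`Z ⊆ A`: `(A ∪ B)ᶜ, Aᶜ, B`; `Z ⊆ B`: `(A ∪ B)ᶜ, A, Bᶜ`; else `A ∪ B, A, B`), for other pairs the
original sets; `X` = the exponential in `Th_alt` commutes with `one a g` (`one_comm_disj`,
`one_comm_fix`); `T = X`, `T' = X⁻¹ = hexp (-..)`; `Th Th v = X X v`.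
`Mb_low`: `X` = alternative form with the sets `(A ∪ B)ᶜ, A, Bᶜ` (for empty groups the terms vanish or
choose anything), all inside `U`; on symmetric vectors `PS Th Th PS = PS X X PS`; let
`X' = N!⁻¹ ∑ π, pm U π * X X * pm U π⁻¹`; it is in `Alg U`, equals the average over `pm univ π`
(`X` commutes with `pm Uᶜ π`), so commutes with `PS` and `PS X X PS = X' PS`. `Mb_high`: the same with
`(A ∪ B)ᶜ, Aᶜ, B`... inside `Uᶜ` one needs `(A ∪ B)ᶜ ⊆ Uᶜ`, `Aᶜ ⊆ Uᶜ`, `B ⊆ Uᶜ`. -/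

namespace Vale.Agent.P356G

open Matrix Vale.Agent.P356

variable {Λ Q : Type} [Fintype Λ] [DecidableEq Λ] [Fintype Q] [DecidableEq Q] [Nonempty Q] {N : ℕ}
  {θ : ℝ} {t : ℕ}

theorem Alg.comm {U U' : Finset Λ} (h : Disjoint U U') {X X' : RM Λ Q N} (hX : Alg U X)
    (hX' : Alg U' X') : Commute X X' := by
  exact hX' X fun Y hY π => (hX _ fun Y0 hY0 σ =>
    pm_comm_disj (Finset.disjoint_of_subset_left hY (Finset.disjoint_of_subset_right hY0 h.symm))
      π σ).symm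
namespace RepF0A

/-- the exponent -/
noncomputable def ex (Q : Type) [Fintype Q] [DecidableEq Q] (θ : ℝ) (t : ℕ) (c : Fin N → Cfg Λ)
    (Y1 Y2 Y3 : Cfg Λ → Finset Λ) : RM Λ Q N :=
  (θ : ℂ) • ∑ k : Cfg Λ, (Lw Q (Y1 k) (grp c k) t -
    Lw Q (Y2 k) (grp c k) (DD Λ Q * t) - Lw Q (Y3 k) (grp c k) (DD Λ Q * t))

theorem herm (c : Fin N → Cfg Λ) (Y1 Y2 Y3 : Cfg Λ → Finset Λ) :
    (ex Q θ t c Y1 Y2 Y3).IsHermitian := by
  unfold ex
  refine IsHermitian.smul ?_ (by simp [IsSelfAdjoint])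
  unfold Matrix.IsHermitian
  rw [conjTranspose_sum]
  exact Finset.sum_congr rfl fun k _ => ((Lw_herm _ _ _).sub (Lw_herm _ _ _)).sub (Lw_herm _ _ _)

omit [Nonempty Q] in
theorem comm {c : Fin N → Cfg Λ} {Y1 Y2 Y3 : Cfg Λ → Finset Λ} {Z : RM Λ Q N}
    (h : ∀ k s, Commute Z (Lw Q (Y1 k) (grp c k) s) ∧ Commute Z (Lw Q (Y2 k) (grp c k) s) ∧
      Commute Z (Lw Q (Y3 k) (grp c k) s)) : Commute Z (ex Q θ t c Y1 Y2 Y3) :=
  (Commute.sum_right _ _ _ fun k _ =>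
    ((h k _).1.sub_right (h k _).2.1).sub_right (h k _).2.2).smul_right _

omit [Fintype Λ] in
theorem grp_pres {c : Fin N → Cfg Λ} {k : Cfg Λ} {π : Equiv.Perm (Fin N)} (h : π ∈ SG (grp c k))
    (k' : Cfg Λ) (j : Fin N) : π j ∈ grp c k' ↔ j ∈ grp c k' := by
  have e : c (π j) = c j := by
    by_cases hj : j ∈ grp c k
    · have h2 := (SG_mem h j).2 hj
      rw [(Finset.mem_filter.1 hj).2, (Finset.mem_filter.1 h2).2]
    · rw [mem_SG.1 h j hj]
  simp only [grp, Finset.mem_filter, Finset.mem_univ, true_and, e]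

omit [Nonempty Q] in
theorem lw_alt {Y Y' : Finset Λ} (h : Y' = Y ∨ Y' = Yᶜ) {G : Finset (Fin N)} (s : ℕ)
    {v : (Fin N → Λ → Q) → ℂ} (hv : Sy G v) : Lw Q Y G s *ᵥ v = Lw Q Y' G s *ᵥ v := by
  rcases h with rfl | rfl
  · rfl
  · exact Lw_compl Y s hv

end RepF0A

theorem Th_alt (c : Fin N → Cfg Λ) (Y1 Y2 Y3 : Cfg Λ → Finset Λ)
    (h1 : ∀ k, Y1 k = k.1 ∪ k.2 ∨ Y1 k = (k.1 ∪ k.2)ᶜ) (h2 : ∀ k, Y2 k = k.1 ∨ Y2 k = k.1ᶜ)
    (h3 : ∀ k, Y3 k = k.2 ∨ Y3 k = k.2ᶜ) {v : (Fin N → Λ → Q) → ℂ} (hv : ∀ k, Sy (grp c k) v) :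
    Th Q θ t c *ᵥ v = hexp ((θ : ℂ) • ∑ k : Cfg Λ, (Lw Q (Y1 k) (grp c k) t -
      Lw Q (Y2 k) (grp c k) (DD Λ Q * t) - Lw Q (Y3 k) (grp c k) (DD Λ Q * t))) *ᵥ v := by
  have e : Th Q θ t c = hexp (RepF0A.ex Q θ t c (fun k => k.1 ∪ k.2) (fun k => k.1) fun k => k.2) := by
    unfold Th Tp RepF0A.ex Lk
    simp only [Finset.inter_univ]
  rw [e]
  refine hf_agree (RepF0A.herm c _ _ _) (RepF0A.herm c Y1 Y2 Y3)
    (S := {v | ∀ k, Sy (grp c k) v}) (fun y hy k => (hy k).mulVec fun π hπ => ?_)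
    (fun y hy => ?_) _ v hv
  · have h : ∀ (Y : Finset Λ) k' s, Commute (pm Q Finset.univ π) (Lw Q Y (grp c k') s) := by
      intro Y k' s
      have h0 : Commute (pm Q Finset.univ π) (om Q Y (grp c k') s) :=
        om_comm s (Or.inl ⟨Finset.subset_univ _, RepF0A.grp_pres hπ k'⟩)
      unfold Lw hlog
      exact hf_comm h0 _
    exact RepF0A.comm fun k' s => ⟨h _ _ _, h _ _ _, h _ _ _⟩
  · unfold RepF0A.ex
    rw [smul_mulVec, smul_mulVec, sum_mulVec, sum_mulVec]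
    refine congrArg (fun w : (Fin N → Λ → Q) → ℂ => (θ : ℂ) • w)
      (Finset.sum_congr rfl fun k _ => ?_)
    have a1 := RepF0A.lw_alt (h1 k) t (hy k)
    have a2 := RepF0A.lw_alt (h2 k) (DD Λ Q * t) (hy k)
    have a3 := RepF0A.lw_alt (h3 k) (DD Λ Q * t) (hy k)
    rw [sub_mulVec, sub_mulVec, sub_mulVec, sub_mulVec, a1, a2, a3]
theorem noncross {c : Fin N → Cfg Λ} (hc : Ok c) (a : Fin N) {Z : Finset Λ} (hZ : NoX Z (c a))
    {g : Matrix (Λ → Q) (Λ → Q) ℂ} (hg : Loc (fun z => z ∈ Z) g) :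
    ∃ T T' : RM Λ Q N, T * T' = 1 ∧ ∀ v, Sy Finset.univ v → df θ t c g a T T' *ᵥ v = 0 := by
  obtain ⟨A, B, C, hA, hB, hC, dA, dB, dC⟩ : ∃ A B C : Finset Λ,
      (A = (c a).1 ∪ (c a).2 ∨ A = ((c a).1 ∪ (c a).2)ᶜ) ∧ (B = (c a).1 ∨ B = (c a).1ᶜ) ∧
      (C = (c a).2 ∨ C = (c a).2ᶜ) ∧ Disjoint Z A ∧ Disjoint Z B ∧ Disjoint Z C := by
    rcases hZ with h | h | h
    · exact ⟨_, _, _, Or.inr rfl, Or.inr rfl, Or.inl rfl,
        Finset.disjoint_of_subset_left (h.trans Finset.subset_union_left) disjoint_compl_right,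
        Finset.disjoint_of_subset_left h disjoint_compl_right,
        Finset.disjoint_of_subset_left h (hc a)⟩
    · exact ⟨_, _, _, Or.inr rfl, Or.inl rfl, Or.inr rfl,
        Finset.disjoint_of_subset_left (h.trans Finset.subset_union_right) disjoint_compl_right,
        Finset.disjoint_of_subset_left h (hc a).symm,
        Finset.disjoint_of_subset_left h disjoint_compl_right⟩
    · exact ⟨_, _, _, Or.inl rfl, Or.inl rfl, Or.inl rfl, h,
        Finset.disjoint_of_subset_right Finset.subset_union_left h,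
        Finset.disjoint_of_subset_right Finset.subset_union_right h⟩
  set Y1 : Cfg Λ → Finset Λ := fun k => if k = c a then A else k.1 ∪ k.2 with hY1
  set Y2 : Cfg Λ → Finset Λ := fun k => if k = c a then B else k.1 with hY2
  set Y3 : Cfg Λ → Finset Λ := fun k => if k = c a then C else k.2 with hY3
  have alt : ∀ v : (Fin N → Λ → Q) → ℂ, (∀ k, Sy (grp c k) v) →
      Th Q θ t c *ᵥ v = hexp (RepF0A.ex Q θ t c Y1 Y2 Y3) *ᵥ v := fun v hv => by
    refine Th_alt c Y1 Y2 Y3 (fun k => ?_) (fun k => ?_) (fun k => ?_) hv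
    · by_cases h : k = c a
      · simp only [hY1, if_pos h]; rw [h]; exact hA
      · simp only [hY1, if_neg h]; exact Or.inl trivial
    · by_cases h : k = c a
      · simp only [hY2, if_pos h]; rw [h]; exact hB
      · simp only [hY2, if_neg h]; exact Or.inl trivial
    · by_cases h : k = c a
      · simp only [hY3, if_pos h]; rw [h]; exact hC
      · simp only [hY3, if_neg h]; exact Or.inl trivial
  have key : ∀ (D : Finset Λ) (Y : Cfg Λ → Finset Λ), Disjoint Z D → ∀ k s,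
      Commute (one a g) (Lw Q (if k = c a then D else Y k) (grp c k) s) := by
    intro D Y hD k s
    refine comm_Lw s fun π hπ => ?_
    by_cases h : k = c a
    · rw [if_pos h]; exact one_comm_disj hD a hg π
    · exact one_comm_fix _ (mem_SG.1 hπ a fun h' => h (Finset.mem_filter.1 h').2.symm) g
  have cm : Commute (one a g) (RepF0A.ex Q θ t c Y1 Y2 Y3) :=
    RepF0A.comm fun k s => ⟨key A (fun k => k.1 ∪ k.2) dA k s, key B (fun k => k.1) dB k s,
      key C (fun k => k.2) dC k s⟩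
  have cX : Commute (one a g) (hexp (RepF0A.ex Q θ t c Y1 Y2 Y3)) := hf_comm cm _
  have h1 := hexp_neg (RepF0A.herm (Q := Q) (θ := θ) (t := t) c Y1 Y2 Y3)
  have h2 := mul_eq_one_comm.1 h1
  refine ⟨_, _, h1, fun v hv => ?_⟩
  have hv' : ∀ k, Sy (grp c k) v := fun k => hv.mono (Finset.subset_univ _)
  have e1 : (Th Q θ t c * Th Q θ t c) *ᵥ v =
      (hexp (RepF0A.ex Q θ t c Y1 Y2 Y3) * hexp (RepF0A.ex Q θ t c Y1 Y2 Y3)) *ᵥ v := by
    rw [← mulVec_mulVec, alt _ fun k => Th_sy c k le_rfl (hv' k), alt v hv', mulVec_mulVec]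
  unfold df
  rw [sub_mulVec, ← mulVec_mulVec _ (_ * one a g), e1, mulVec_mulVec, (hexp_herm _).eq,
    ← Matrix.mul_assoc, Matrix.mul_assoc _ (one a g), cX.eq, ← Matrix.mul_assoc, h2,
    Matrix.one_mul, cX.eq, sub_self]

end Vale.Agent.P356G
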