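import Vale.Agent.P356G.SCa
import Vale.Agent.P356G.Mean

/- Regularised Uhlmann. `a = rho Y τ`, `b = rho Y φ`, `aμ = a + μ`, `bμ = b + μ`,
`m = gm aμ⁻¹ bμ` so `m aμ m = bμ` (`gm_ric`), `s = lift (m ^ (1/2))`, `s' = lift (m ^ (-1/2))`.
`F = tr (m aμ) = tr (m⁻¹ bμ)`, `nsq (s τ) = tr (m a) ≤ F`, `nsq (s'ᴴ φ) = tr (m⁻¹ b) ≤ F`.
`K = bμ⁻¹ m`, `V = (amp φ)ᴴ K (amp τ)`, `U = colift (Vᴴ)ᵀ`: contraction because
`bμ ^ (-1/2) m aμ ^ (1/2)` is unitary and `bμ ^ (-1/2) amp φ`, `aμ ^ (-1/2) amp τ` are contractions.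
`<U τ, φ> = tr (K a b) = F - μ tr m⁻¹ - μ tr m + μ ^ 2 tr K`. Bounds: from `m aμ m = bμ` on an eigenvector
of `m` with eigenvalue `x`: `μ x ^ 2 ≤ R ^ 2 + μ` and `x ^ 2 (1 + μ) ≥ μ`, so `μ tr m`, `μ tr m⁻¹`,
`μ ^ 2 |tr K|` are `O (√μ)` with constants depending on `R` and the dimension only. -/

namespace Vale.Agent.P356G

open Matrix Vale.Agent.P356

namespace SCdA

variable {n k : Type} [Fintype n] [DecidableEq n] [Fintype k]

theorem roots {A : Matrix n n ℂ} (hA : Pd A) : ∃ p q : Matrix n n ℂ,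
    pᴴ = p ∧ qᴴ = q ∧ p * q = 1 ∧ q * p = 1 ∧ p * p = A :=
  ⟨_, _, cpw_half_herm A, cpw_nhalf_herm A, (cpw_half_inv hA.1).1, (cpw_half_inv hA.1).2,
    cpw_half hA⟩

theorem qf_reg (A : Matrix n k ℂ) (μ : ℝ) (v : n → ℂ) :
    qf (A * Aᴴ + (μ : ℂ) • 1) v = nsq (Aᴴ *ᵥ v) + μ * nsq v := by
  rw [qf_add, qf_smul, qf_one, ← qf_ct_mul, conjTranspose_conjTranspose]

theorem spin {A : Matrix n k ℂ} {R : ℝ} (hA : Bd Aᴴ R) (μ : ℝ) :
    SpIn (A * Aᴴ + (μ : ℂ) • 1) μ (R ^ 2 + μ) := by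
  refine ⟨(isHermitian_mul_conjTranspose_self A).add ?_, fun v => ?_⟩
  · simp [IsHermitian]
  · rw [qf_reg]
    constructor
    · linarith [nsq_nonneg (Aᴴ *ᵥ v)]
    · linarith [hA.nsq v]

theorem ctr (A : Matrix n k ℂ) {μ : ℝ} (hμ : 0 < μ) {p q : Matrix n n ℂ} (hq : qᴴ = q)
    (h1 : p * q = 1) (h2 : q * p = 1) (h : p * p = A * Aᴴ + (μ : ℂ) • 1) : Bd (Aᴴ * q) 1 := by
  intro v
  rw [nr_le_iff _ _ zero_le_one, one_pow, one_mul, ← mulVec_mulVec]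
  have h3 := qf_conj (p * p) q v
  rw [hq, ← mul_assoc, h2, one_mul, h1, qf_one, h, qf_reg] at h3
  nlinarith [nsq_nonneg (q *ᵥ v)]

omit [DecidableEq n] in
theorem bd_ric {a b m : Matrix n n ℂ} {μ R L : ℝ} (hμ : 0 < μ) (hL : 0 ≤ L) (hR : R ≤ μ * L ^ 2)
    (ha : SpIn a μ R) (hb : SpIn b μ R) (hm : mᴴ = m) (h : m * a * m = b) : Bd m L := by
  intro v
  rw [nr_le_iff _ _ hL]
  have h1 := qf_conj a m v
  rw [hm, h] at h1
  refine le_of_mul_le_mul_left ?_ hμ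
  nlinarith [(ha.2 (m *ᵥ v)).1, (hb.2 v).2, nsq_nonneg v]

omit [DecidableEq n] in
theorem bd_root {s : Matrix n n ℂ} {L : ℝ} (hL : 0 ≤ L) (hs : sᴴ = s) (h : Bd (s * s) L) :
    Bd s (1 + L) := by
  intro v
  rw [nr_le_iff _ _ (by positivity), ← qf_ct_mul, hs]
  nlinarith [(abs_le.1 (h.qf v)).2, nsq_nonneg v, mul_nonneg (mul_nonneg hL hL) (nsq_nonneg v),
    mul_nonneg hL (nsq_nonneg v)]

theorem tr_le {m : Matrix n n ℂ} {L : ℝ} (h : Bd m L) : (trace m).re ≤ Fintype.card n * L := by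
  have h2 := norm_sum_le_of_le Finset.univ fun i _ => h.entry i i
  rw [Finset.sum_const, Finset.card_univ, nsmul_eq_mul] at h2
  exact (Complex.re_le_norm _).trans h2

theorem core {A B : Matrix n k ℂ} {μ R L : ℝ} (hμ : 0 < μ) (hL : 0 ≤ L)
    (hR : R ^ 2 + μ ≤ μ * L ^ 2) (hA : Bd Aᴴ R) (hB : Bd Bᴴ R) :
    ∃ (s s' : Matrix n n ℂ) (V : Matrix k k ℂ), s * s' = 1 ∧ Bd s (1 + L) ∧ Bd s' (1 + L) ∧
      Bd V 1 ∧ (trace ((s * A)ᴴ * (s * A))).re ≤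
        (trace ((A * V)ᴴ * B)).re + μ * (Fintype.card n * L) ∧
      (trace ((s'ᴴ * B)ᴴ * (s'ᴴ * B))).re ≤
        (trace ((A * V)ᴴ * B)).re + μ * (Fintype.card n * L) := by
  have ha := spin hA μ
  have hb := spin hB μ
  obtain ⟨ap, an, a1, a2, a3, a4, a5⟩ := roots (ha.pd hμ)
  obtain ⟨bp, bn, -, b2, b3, b4, b5⟩ := roots (hb.pd hμ)
  have c1 := (ctr A hμ a2 a3 a4 a5)
  have c2 := (ctr B hμ b2 b3 b4 b5).ct zero_le_one
  have ea : A * Aᴴ = ap * ap - (μ : ℂ) • 1 := eq_sub_of_add_eq a5.symm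
  have eb : B * Bᴴ = bp * bp - (μ : ℂ) • 1 := eq_sub_of_add_eq b5.symm
  rw [← a5] at ha
  rw [← b5] at hb
  have hm := gm_ric (cpw_pd ha.1 (-1 : ℝ)) (hb.pd hμ)
  rw [cpw_cpw ha.1, show ((-1 : ℝ) : ℂ) * -1 = 1 by simp, cpw_one (ha.pd hμ)] at hm
  obtain ⟨s, t, s1, s2, s3, s4, s5⟩ := roots (gm_pd (cpw_pd ha.1 (-1 : ℝ)) (hb.pd hμ))
  rw [← s5] at hm
  have r : ∀ {x y : Matrix n n ℂ}, x * y = 1 → ∀ z, x * (y * z) = z := fun h z => by
    rw [← mul_assoc, h, one_mul]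
  have hm' : t * t * (bp * bp) * (t * t) = ap * ap := by
    simp only [← hm, mul_assoc, r s3, r s4, s3, mul_one]
  have m1 : (s * s)ᴴ = s * s := by rw [conjTranspose_mul, s1]
  have m2 : (t * t)ᴴ = t * t := by rw [conjTranspose_mul, s2]
  have d1 := bd_ric hμ hL hR ha hb m1 hm
  have d2 := bd_ric hμ hL hR hb ha m2 hm'
  have hu : bn * (s * s) * ap * (bn * (s * s) * ap)ᴴ = 1 := by
    have : bn * (s * s * (ap * ap) * (s * s)) * bn = 1 := by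
      rw [hm, ← mul_assoc, b4, one_mul, b3]
    simpa only [conjTranspose_mul, a1, b2, s1, mul_assoc] using this
  have k1 : s * s * (bn * bn) = an * an * (t * t) := by
    have h1 : an * an * (t * t) * (s * s * (ap * ap) * (s * s)) * (bn * bn) = an * an * (t * t) := by
      simp only [hm]
      simp only [mul_assoc, r b3, b3, mul_one]
    rw [← h1]
    simp only [mul_assoc, r s4, r a4]
  have t0 : 0 ≤ (trace (an * an * (t * t))).re := by
    simpa only [a2, s2] using (ps_ct_mul an).trace_mul (ps_ct_mul t)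
  have e1 : trace ((s * A)ᴴ * (s * A)) = trace (ap * ap * (s * s)) - μ * trace (s * s) := by
    rw [conjTranspose_mul, s1, Matrix.mul_assoc, trace_mul_comm, ← Matrix.mul_assoc s,
      Matrix.mul_assoc, ea, trace_mul_comm, sub_mul, smul_mul_assoc, one_mul, trace_sub,
      trace_smul, smul_eq_mul]
  have e0 : trace (bp * bp * (t * t)) = trace (ap * ap * (s * s)) := by
    rw [← hm, mul_assoc, mul_assoc s s (t * t), r s3, s3, mul_one, trace_mul_comm]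
  have e2 : trace ((tᴴ * B)ᴴ * (tᴴ * B)) = trace (ap * ap * (s * s)) - μ * trace (t * t) := by
    rw [s2, conjTranspose_mul, s2, Matrix.mul_assoc, trace_mul_comm, ← Matrix.mul_assoc t,
      Matrix.mul_assoc, eb, trace_mul_comm, sub_mul, smul_mul_assoc, one_mul, trace_sub,
      trace_smul, smul_eq_mul, e0]
  have e3 : trace ((A * (Aᴴ * an * (bn * (s * s) * ap)ᴴ * (Bᴴ * bn)ᴴ))ᴴ * B) =
      trace (ap * ap * (s * s)) - μ * trace (t * t) - μ * trace (s * s) +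
        μ ^ 2 * trace (an * an * (t * t)) := by
    have k2 : bn * bn * (s * s) = t * t * (an * an) := by
      simpa only [conjTranspose_mul, a2, b2, s1, s2] using congrArg conjTranspose k1
    have k3 : (A * (Aᴴ * an * (bn * (s * s) * ap)ᴴ * (Bᴴ * bn)ᴴ))ᴴ * B =
        Bᴴ * (bn * bn * (s * s) * (ap * an) * (A * Aᴴ) * B) := by
      simp only [conjTranspose_mul, conjTranspose_conjTranspose, a2, Matrix.mul_assoc]
    have k4 : bn * bn * (s * s) * (ap * ap) = t * t := by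
      simp only [k2]
      simp only [mul_assoc, r a4, a4, mul_one]
    have k5 : trace (bn * bn * (s * s) * (bp * bp)) = trace (s * s) := by
      rw [trace_mul_comm]
      simp only [mul_assoc, r b3]
    rw [k3, trace_mul_comm, Matrix.mul_assoc, a3, mul_one, ea, eb, mul_sub (bn * bn * (s * s)), k4]
    simp only [mul_sub, sub_mul, mul_smul_comm, smul_mul_assoc, mul_one, trace_sub, trace_smul,
      smul_eq_mul, k5]
    rw [trace_mul_comm (t * t), e0, k2, trace_mul_comm (t * t)]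
    ring
  refine ⟨s, t, Aᴴ * an * (bn * (s * s) * ap)ᴴ * (Bᴴ * bn)ᴴ, s3, bd_root hL s1 d1, bd_root hL s2 d2,
    ?_, ?_, ?_⟩
  · simpa using (c1.mul ((bd_uni hu).ct zero_le_one) zero_le_one).mul c2 (by simp)
  · rw [e1, e3, ← Complex.ofReal_pow]
    simp only [Complex.add_re, Complex.sub_re, Complex.re_ofReal_mul]
    nlinarith [mul_le_mul_of_nonneg_left (tr_le d2) hμ.le, mul_nonneg (sq_nonneg μ) t0]
  · rw [e2, e3, ← Complex.ofReal_pow]
    simp only [Complex.add_re, Complex.sub_re, Complex.re_ofReal_mul]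
    nlinarith [mul_le_mul_of_nonneg_left (tr_le d1) hμ.le, mul_nonneg (sq_nonneg μ) t0]

omit [DecidableEq n] in
theorem bd_tr {M : Matrix n n ℂ} (h : Bd M 1) : Bd Mᵀ 1 := by
  have e : ∀ v : n → ℂ, nr (star v) = nr v := fun v => by simp [nr, nsq]
  intro v
  rw [mulVec_transpose, ← e, star_vecMul, ← e v]
  exact h.ct zero_le_one _

theorem bd_amp {Λ Q : Type} [Fintype Λ] [DecidableEq Λ] [Fintype Q] [DecidableEq Q] (Y : Finset Λ)
    (v : (Λ → Q) → ℂ) : Bd (amp Y v)ᴴ (nr v) := by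
  refine Bd.ct ?_ (nr_nonneg _)
  rw [nr, nsq, sum_glue Y]
  exact bd_hs _

end SCdA

theorem fid (Λ Q : Type) [Fintype Λ] [DecidableEq Λ] [Fintype Q] [DecidableEq Q] [Nonempty Q]
    (R e : ℝ) (he : 0 < e) : ∃ R' : ℝ, 1 ≤ R' ∧ ∀ (Y : Finset Λ) (τ φ : (Λ → Q) → ℂ),
      nsq τ = 1 → nr φ ≤ R → ∃ s s' U : Matrix (Λ → Q) (Λ → Q) ℂ,
        Loc (fun z => z ∈ Y) s ∧ Loc (fun z => z ∈ Y) s' ∧ s * s' = 1 ∧ Bd s R' ∧ Bd s' R' ∧
        Loc (fun z => z ∉ Y) U ∧ Bd U 1 ∧ nsq (s *ᵥ τ) ≤ (star (U *ᵥ τ) ⬝ᵥ φ).re + e ∧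
        nsq (s'ᴴ *ᵥ φ) ≤ (star (U *ᵥ τ) ⬝ᵥ φ).re + e := by
  have t1 : Filter.Tendsto (fun μ : ℝ => Fintype.card (Λ → Q) * Real.sqrt (μ * ((1 + |R|) ^ 2 + μ)))
      (nhdsWithin 0 (Set.Ioi 0)) (nhds 0) :=
    (Continuous.tendsto' (by fun_prop) 0 0 (by simp)).mono_left nhdsWithin_le_nhds
  obtain ⟨μ, h1, hμ⟩ := ((t1.eventually (eventually_le_nhds he)).and self_mem_nhdsWithin).exists
  have hμ : 0 < μ := hμ
  obtain ⟨L, hL, h2, h3⟩ : ∃ L, 0 ≤ L ∧ (1 + |R|) ^ 2 + μ ≤ μ * L ^ 2 ∧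
      μ * (Fintype.card (Λ → Q) * L) ≤ e := by
    refine ⟨Real.sqrt (μ * ((1 + |R|) ^ 2 + μ)) / μ, by positivity, le_of_eq ?_,
      le_trans (le_of_eq ?_) h1⟩
    · rw [div_pow, Real.sq_sqrt (by positivity)]
      field_simp
    · field_simp
  refine ⟨1 + L, by linarith, fun Y τ φ hτ hφ => ?_⟩
  obtain ⟨s, s', V, c1, c2, c3, c4, c5, c6⟩ := SCdA.core hμ hL h2
    ((SCdA.bd_amp Y τ).mono (by rw [nr, hτ, Real.sqrt_one]; linarith [abs_nonneg R]))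
    ((SCdA.bd_amp Y φ).mono (by linarith [le_abs_self R]))
  have h4 : μ * (Fintype.card ({z // z ∈ Y} → Q) * L) ≤ e := by
    refine le_trans ?_ h3
    gcongr
    exact Fintype.card_le_of_surjective (res Y) fun a =>
      ⟨glue Y a fun _ => Classical.arbitrary Q, res_glue _ _ _⟩
  have e1 : ∀ v : (Λ → Q) → ℂ, nsq v = (trace ((amp Y v)ᴴ * amp Y v)).re := fun v => by
    rw [← dot_amp, ← nsq_eq, Complex.ofReal_re]
  refine ⟨lift Y s, lift Y s', colift Y Vᵀ, loc_lift _ _, loc_lift _ _,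
    by rw [← lift_mul, c1, lift_one], lift_bd Y (by positivity) c2, lift_bd Y (by positivity) c3,
    loc_colift _ _, colift_bd Y zero_le_one (SCdA.bd_tr c4), ?_, ?_⟩
  · rw [e1, dot_amp Y, amp_lift, amp_colift, transpose_transpose]
    linarith
  · rw [e1, dot_amp Y, ← lift_ct, amp_lift, amp_colift, transpose_transpose]
    linarith

end Vale.Agent.P356G
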