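import Vale.Agent.P356G.SCc
import Vale.Agent.P356G.SCd

/- The single copy inequality. `f z = <τ, phi z>`, `M = √(1 + η)`, `c` the phase of `f θ`,
`ε' = 1 - |f θ| / M ≤ 1 - |f θ| ^ 2 + η`, `lam = 1 / (ε' + ε0)`; `s, s', U` from `fid` for `φ = phi (-θ)`,
`e = η`, `Y = A ∪ B'`; `ν = nr (U τ - c τ)`, `u z = <U τ - c τ, phi z>`, `u0 = <U τ - c τ, c τ>`,
`re u0 ≤ - ν ^ 2 / 2`. `extrap` applied to `u - u0` and `g z = c * star (f (- star z)) / M` gives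
`re (u (-θ)) ≤ - ν ^ 2 / 2 + e ^ 2 (ν √(ε' + ε0) + ε0) ≤ 35 (ε' + ε0)`.
With `F = re <U τ, φ> + η ≤ e + 1 ≤ 4` (`strip_L`): the left side is at most
`(1 + |f| ^ 2) F - 2 |f| re (star c * f (-θ)) = (1 - |f|) ^ 2 F + 2 |f| (re (u (-θ)) + η)`.
`extrap`: `three` on `[-1/4, 0]` for `H z = u z * exp (- lam (1 - g z))`; on the axis
`|H| ≤ ν √(3 s) exp (- lam s) ≤ ν √(ε' + ε0)` with `s = 1 - re (g z)` (use `√(3 s) exp (- lam s) ≤ lam ^ (-1/2)`,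
as `3 y ≤ exp (2 y)`), on the left line `|H| ≤ Bm`; with `a = max (ν √(ε' + ε0)) ε0`,
`Bm ^ (4 θ) a ^ (1 - 4 θ) ≤ e a`. -/

namespace Vale.Agent.P356G

open Matrix Vale.Agent.P356

namespace SC0A

theorem sqrt_le {s δ : ℝ} (hs : 0 ≤ s) (hδ : 0 < δ) :
    Real.sqrt (3 * s) * Real.exp (-(δ⁻¹ * s)) ≤ Real.sqrt δ := by
  have hy : 0 ≤ δ⁻¹ * s := by positivity
  have h1 := Real.quadratic_le_exp_of_nonneg (show 0 ≤ 2 * (δ⁻¹ * s) by positivity)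
  have h2 : 3 * (δ⁻¹ * s) ≤ Real.exp (δ⁻¹ * s) ^ 2 := by
    rw [← Real.exp_nat_mul]
    push_cast
    nlinarith [sq_nonneg (δ⁻¹ * s - 1 / 4)]
  have h3 : 3 * s ≤ (Real.exp (δ⁻¹ * s) * Real.sqrt δ) ^ 2 := by
    rw [mul_pow, Real.sq_sqrt hδ.le]
    have h4 := mul_le_mul_of_nonneg_right h2 hδ.le
    have h5 : 3 * (δ⁻¹ * s) * δ = 3 * s := by field_simp
    linarith
  rw [Real.exp_neg, ← div_eq_mul_inv, div_le_iff₀ (Real.exp_pos _), mul_comm (Real.sqrt δ)]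
  exact Real.sqrt_le_iff.2 ⟨by positivity, h3⟩

theorem rpow_le {a B ε t : ℝ} (hε : 0 < ε) (ha : ε ≤ a) (hB : ε ≤ B) (ht : 0 ≤ t)
    (h : t * Real.log (B / ε) ≤ 1) : B ^ t * a ^ (1 - t) ≤ Real.exp 1 * a := by
  have ha0 : 0 < a := lt_of_lt_of_le hε ha
  have hB0 : 0 < B := lt_of_lt_of_le hε hB
  rw [Real.log_div hB0.ne' hε.ne'] at h
  have h1 := mul_le_mul_of_nonneg_left (Real.log_le_log hε ha) ht
  rw [Real.rpow_def_of_pos hB0, Real.rpow_def_of_pos ha0, ← Real.exp_add]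
  conv_rhs => rw [← Real.exp_log ha0, ← Real.exp_add]
  exact Real.exp_le_exp.2 (by nlinarith)

end SC0A

theorem extrap (u g : ℂ → ℂ) (hu : Differentiable ℂ u) (hg : Differentiable ℂ g)
    (θ ν ε' ε0 Bm : ℝ) (hθ : 0 < θ) (hθ' : θ ≤ 1 / 4) (hν : 0 ≤ ν) (hε' : 0 ≤ ε') (hε : 0 < ε0)
    (hB : ε0 ≤ Bm) (hlog : 4 * θ * Real.log (Bm / ε0) ≤ 1)
    (hub : ∀ z : ℂ, -1 / 4 ≤ z.re → z.re ≤ 0 → ‖u z‖ ≤ Bm ∧ (g z).re ≤ 1)
    (hax : ∀ z : ℂ, z.re = 0 → ‖u z‖ ≤ ν * Real.sqrt (3 * (1 - (g z).re)))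
    (hg0 : 1 - (g (-θ)).re ≤ ε') :
    ‖u (-θ)‖ ≤ Real.exp 2 * (ν * Real.sqrt (ε' + ε0) + ε0) := by
  set δ := ε' + ε0 with hδdef
  have hδ : 0 < δ := by linarith
  set a := ν * Real.sqrt δ + ε0 with ha
  have ha1 : ε0 ≤ a := le_add_of_nonneg_left (by positivity)
  set F : ℂ → ℂ := fun z => u z * Complex.exp (-(((δ⁻¹ : ℝ) : ℂ) * (1 - g z))) with hF
  have hn : ∀ z, ‖F z‖ = ‖u z‖ * Real.exp (-(δ⁻¹ * (1 - (g z).re))) := fun z => by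
    simp only [hF]
    rw [norm_mul, Complex.norm_exp, Complex.neg_re, Complex.re_ofReal_mul, Complex.sub_re,
      Complex.one_re]
  have hb : ∀ z : ℂ, -1 / 4 ≤ z.re → z.re ≤ 0 → ‖F z‖ ≤ Bm := fun z h1 h2 => by
    obtain ⟨h3, h4⟩ := hub z h1 h2
    have h5 : 0 ≤ δ⁻¹ * (1 - (g z).re) := mul_nonneg (by positivity) (by linarith)
    rw [hn]
    exact (mul_le_of_le_one_right (norm_nonneg _) (Real.exp_le_one_iff.2 (by linarith))).trans h3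
  have hd : Differentiable ℂ F := by
    simp only [hF]
    fun_prop
  have hre : (-(θ : ℂ)).re = -θ := by simp
  have h3 := three F hd (-1 / 4) 0 Bm a (by norm_num) (by linarith) (by linarith) ⟨Bm, hb⟩
    (fun z h => hb z h.ge (by rw [h]; norm_num)) (fun z h => by
      have h4 := (hub z (by rw [h]; norm_num) h.le).2
      have h5 := mul_le_mul_of_nonneg_left (SC0A.sqrt_le (sub_nonneg.2 h4) hδ) hν
      have h6 := mul_le_mul_of_nonneg_right (hax z h)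
        (Real.exp_pos (-(δ⁻¹ * (1 - (g z).re)))).le
      rw [hn]
      nlinarith) (-θ) (by rw [hre]; linarith) (by rw [hre]; linarith)
  rw [hre, show (-θ - -1 / 4) / (0 - -1 / 4) = 1 - 4 * θ by ring,
    show 1 - (1 - 4 * θ) = 4 * θ by ring, hn] at h3
  have h4 := h3.trans (SC0A.rpow_le hε ha1 hB (by linarith) hlog)
  have h5 : δ⁻¹ * (1 - (g (-θ)).re) ≤ 1 := by
    rw [inv_mul_le_iff₀ hδ]
    linarith
  rw [Real.exp_neg, ← div_eq_mul_inv, div_le_iff₀ (Real.exp_pos _)] at h4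
  have h6 := mul_le_mul_of_nonneg_left (Real.exp_le_exp.2 h5)
    (show 0 ≤ Real.exp 1 * a by have := Real.exp_pos 1; nlinarith)
  have h7 : Real.exp 2 = Real.exp 1 * Real.exp 1 := by
    rw [← Real.exp_add]; norm_num
  rw [h7]
  nlinarith

end Vale.Agent.P356G
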