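import Vale.Agent.P356G.FunC

/- Marginals and traces on one copy. Use `amp`, `rho_amp`, `amp_lift`, `amp_colift`, `ip_lift`,
`Loc.exists_lift`, `sum_glue` of P356/Loc. `cC Y` is the dimension of the complement of `Y`;
`trace (lift Y m) = cC Y * trace m`.
`mg_pt`: entrywise, `trace (mg Y τ * K) = ∑ s t (equal off Y), ∑ c, τ (s on Y, c) star τ (t on Y, c) K t s`;
or write `K = ∑ (units on B \ B') * (operators on B')`, and use `trace (mg Y τ * M) = cC Y * ip τ M τ`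
for `M` local on `Y` and that a matrix unit on sites outside `Y ∪ ..` only contributes its trace.
`mg_up`: `qf (rho S χ) x = nsq ((amp S χ)ᴴ x)`; split `x = ∑ i, x i ⊗ e i` over the configurations `i`
of `S \ S'` and use Cauchy-Schwarz. -/

namespace Vale.Agent.P356G

open Matrix Vale.Agent.P356
open scoped ComplexOrder

variable {Λ Q : Type} [Fintype Λ] [DecidableEq Λ] [Fintype Q] [DecidableEq Q] [Nonempty Q]

/-- dimension of the complement -/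
def cC (Q : Type) [Fintype Q] (Y : Finset Λ) : ℕ := Fintype.card Q ^ Yᶜ.card

set_option linter.unusedSectionVars false

namespace SCa0A

theorem card_out (Y : Finset Λ) : Fintype.card ({z // z ∉ Y} → Q) = cC Q Y := by
  simp [cC, Finset.card_compl]

theorem nsq_row (Y : Finset Λ) (v : (Λ → Q) → ℂ) : nsq v = ∑ a, nsq (amp Y v a) :=
  sum_glue Y _

theorem nsq_col (Y : Finset Λ) (v : (Λ → Q) → ℂ) : nsq v = ∑ c, nsq fun a => amp Y v a c := by
  rw [nsq_row Y]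
  exact Finset.sum_comm

theorem qf_lift (Y : Finset Λ) (m : Matrix ({z // z ∈ Y} → Q) ({z // z ∈ Y} → Q) ℂ)
    (v : (Λ → Q) → ℂ) : qf (lift Y m) v = ∑ c, qf m fun a => amp Y v a c := by
  rw [qf, ip, dot_amp Y, amp_lift, trace, Complex.re_sum]
  rfl

theorem lift_le (Y : Finset Λ) {m m' : Matrix ({z // z ∈ Y} → Q) ({z // z ∈ Y} → Q) ℂ} {x : ℝ}
    (h : Le m x m') : Le (lift Y m) x (lift Y m') := fun v => by
  rw [qf_lift, qf_lift, Finset.mul_sum]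
  exact Finset.sum_le_sum fun c _ => h _

theorem lift_lin (Y : Finset Λ) (a b : ℂ)
    (m m' : Matrix ({z // z ∈ Y} → Q) ({z // z ∈ Y} → Q) ℂ) :
    lift Y (a • m + b • m') = a • lift Y m + b • lift Y m' := by
  ext s t
  simp only [lift, Matrix.add_apply, Matrix.smul_apply]
  split_ifs <;> simp

theorem qf_rho (Y : Finset Λ) (τ : (Λ → Q) → ℂ) (x : ({z // z ∈ Y} → Q) → ℂ) :
    qf (rho Y τ) x = qf (lift Y (vecMulVec x (star x))) τ := by
  rw [qf, qf, ip_lift, ← rho_amp, trace_mul_comm, mul_vecMulVec, trace_vecMulVec, dotProduct_comm,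
    ip]

theorem qf_rho_nsq (Y : Finset Λ) (x : ({z // z ∈ Y} → Q) → ℂ) :
    ∃ B, ∀ τ : (Λ → Q) → ℂ, qf (rho Y τ) x = nsq (lift Y B *ᵥ τ) := by
  obtain ⟨B, hB⟩ := VecA.fac ((ps_iff _).2 (posSemidef_vecMulVec_self_star x))
  exact ⟨B, fun τ => by rw [qf_rho, hB, lift_mul, lift_ct, qf_ct_mul]⟩

theorem swap {Y : Finset Λ} {W : Matrix (Λ → Q) (Λ → Q) ℂ} (hW : Loc (fun z => z ∉ Y) W)
    (B : Matrix ({z // z ∈ Y} → Q) ({z // z ∈ Y} → Q) ℂ) (χ : (Λ → Q) → ℂ) :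
    lift Y B *ᵥ (W *ᵥ χ) = W *ᵥ (lift Y B *ᵥ χ) := by
  rw [mulVec_mulVec, mulVec_mulVec, (loc_lift Y B).comm hW fun _ h => not_not.2 h]

end SCa0A

theorem cC_pos (Y : Finset Λ) : 0 < cC Q Y :=
  pow_pos Fintype.card_pos _
theorem cC_mul (Y : Finset Λ) : cC Q Y * Fintype.card Q ^ Y.card = DD Λ Q := by
  rw [cC, DD, ← pow_add, Fintype.card_fun, Finset.card_compl_add_card]
theorem cC_union {A B : Finset Λ} (h : Disjoint A B) :
    cC Q B = Fintype.card Q ^ A.card * cC Q (A ∪ B) := by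
  rw [cC, cC, ← pow_add]
  have h1 := Finset.card_compl_add_card B
  have h2 := Finset.card_compl_add_card (A ∪ B)
  rw [Finset.card_union_of_disjoint h] at h2
  exact congrArg _ (by omega)
theorem trace_lift (Y : Finset Λ) (m : Matrix ({z // z ∈ Y} → Q) ({z // z ∈ Y} → Q) ℂ) :
    trace (lift Y m) = (cC Q Y : ℂ) * trace m := by
  rw [trace, sum_glue Y, trace, Finset.mul_sum]
  refine Finset.sum_congr rfl fun a _ => ?_
  simp only [diag, lift, res_glue, if_true, Finset.sum_const, Finset.card_univ, SCa0A.card_out,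
    nsmul_eq_mul]
theorem lift_ps (Y : Finset Λ) {m : Matrix ({z // z ∈ Y} → Q) ({z // z ∈ Y} → Q) ℂ} (h : Ps m) :
    Ps (lift Y m) := by
  obtain ⟨B, rfl⟩ := VecA.fac h
  rw [lift_mul, lift_ct]
  exact ps_ct_mul _
theorem lift_bd (Y : Finset Λ) {m : Matrix ({z // z ∈ Y} → Q) ({z // z ∈ Y} → Q) ℂ} {r : ℝ}
    (hr : 0 ≤ r) (h : Bd m r) : Bd (lift Y m) r := fun v => by
  rw [nr_le_iff _ _ hr, SCa0A.nsq_col Y, SCa0A.nsq_col Y v, amp_lift, Finset.mul_sum]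
  exact Finset.sum_le_sum fun c _ => h.nsq fun a => amp Y v a c
theorem colift_bd (Y : Finset Λ) {m : Matrix ({z // z ∉ Y} → Q) ({z // z ∉ Y} → Q) ℂ} {r : ℝ}
    (hr : 0 ≤ r) (h : Bd m r) : Bd (colift Y m) r := fun v => by
  rw [nr_le_iff _ _ hr, SCa0A.nsq_row Y, SCa0A.nsq_row Y v, amp_colift, Finset.mul_sum]
  refine Finset.sum_le_sum fun a _ => le_of_eq_of_le (congrArg nsq ?_) (h.nsq (amp Y v a))
  funext c
  simp only [mul_apply, transpose_apply, mulVec, dotProduct, mul_comm]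
theorem rho_ps (Y : Finset Λ) (ψ : (Λ → Q) → ℂ) : Ps (rho Y ψ) := by
  rw [rho_amp, ps_iff]
  exact posSemidef_self_mul_conjTranspose _
theorem mg_ps (Y : Finset Λ) (ψ : (Λ → Q) → ℂ) : Ps (mg Y ψ) :=
  lift_ps Y (rho_ps Y ψ)
theorem mg_loc (Y : Finset Λ) (ψ : (Λ → Q) → ℂ) : Loc (fun z => z ∈ Y) (mg Y ψ) :=
  loc_lift Y _
theorem mg_le (Y : Finset Λ) (ψ : (Λ → Q) → ℂ) : Le (mg Y ψ) (nsq ψ) 1 := by
  rw [← lift_one Y]
  refine SCa0A.lift_le Y fun x => ?_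
  have h := ((bd_hs (amp Y ψ)).ct (Real.sqrt_nonneg _)).nsq x
  rw [Real.sq_sqrt (Finset.sum_nonneg fun _ _ => Finset.sum_nonneg fun _ _ => sq_nonneg _),
    ← qf_ct_mul, conjTranspose_conjTranspose, ← rho_amp] at h
  rw [qf_one, SCa0A.nsq_row Y ψ]
  exact h
theorem rg_loc (α β : ℝ) (Y : Finset Λ) (ψ : (Λ → Q) → ℂ) :
    Loc (fun z => z ∈ Y) (rg α β Y ψ) := by
  rw [rg, mg, ← lift_one Y, ← SCa0A.lift_lin]
  exact loc_lift Y _
theorem rg_spIn (α : ℝ) {β : ℝ} (hβ : 0 ≤ β) (Y : Finset Λ) {ψ : (Λ → Q) → ℂ} (hψ : nsq ψ = 1) :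
    SpIn (rg α β Y ψ) α (α + β) := by
  refine ⟨?_, fun v => ?_⟩
  · rw [IsHermitian, rg, conjTranspose_add, conjTranspose_smul, conjTranspose_smul,
      conjTranspose_one, (mg_ps Y ψ).1.eq]
    simp
  · have h1 := (mg_ps Y ψ).2 v
    have h2 := mg_le Y ψ v
    rw [hψ, one_mul, qf_one] at h2
    rw [rg, qf_add, qf_smul, qf_smul, qf_one]
    constructor <;> nlinarith
theorem trace_rg (α β : ℝ) (Y : Finset Λ) {ψ : (Λ → Q) → ℂ} (hψ : nsq ψ = 1) :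
    (trace (rg α β Y ψ)).re = cC Q Y * (α * Fintype.card Q ^ Y.card + β) := by
  have e : (Fintype.card (Λ → Q) : ℂ) = (cC Q Y : ℂ) * (Fintype.card Q : ℂ) ^ Y.card := by
    exact_mod_cast (cC_mul Y).symm
  have e2 : trace (rg α β Y ψ) =
      ((cC Q Y * (α * Fintype.card Q ^ Y.card + β) : ℝ) : ℂ) := by
    rw [rg, trace_add, trace_smul, trace_smul, trace_one, mg, trace_lift, trace_rho, hψ, e]
    simp only [smul_eq_mul]
    push_cast
    ring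
  rw [e2, Complex.ofReal_re]
theorem mg_mul {Y : Finset Λ} {M : Matrix (Λ → Q) (Λ → Q) ℂ} (hM : Loc (fun z => z ∈ Y) M)
    (χ : (Λ → Q) → ℂ) : mg Y (M *ᵥ χ) = M * mg Y χ * Mᴴ := by
  obtain ⟨m, rfl⟩ := hM.exists_lift
  rw [mg, mg, ← lift_ct, ← lift_mul, ← lift_mul, rho_amp, rho_amp, amp_lift, conjTranspose_mul]
  simp only [Matrix.mul_assoc]
theorem mg_ctr {Y : Finset Λ} {W : Matrix (Λ → Q) (Λ → Q) ℂ} (hW : Loc (fun z => z ∉ Y) W)
    (h : Bd W 1) (χ : (Λ → Q) → ℂ) : Le (mg Y (W *ᵥ χ)) 1 (mg Y χ) := by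
  refine SCa0A.lift_le Y fun x => ?_
  obtain ⟨B, hB⟩ := SCa0A.qf_rho_nsq Y x
  have h1 := h.nsq (lift Y B *ᵥ χ)
  rw [hB, hB, SCa0A.swap hW]
  rwa [one_pow] at h1
theorem mg_uni {Y : Finset Λ} {W : Matrix (Λ → Q) (Λ → Q) ℂ} (hW : Loc (fun z => z ∉ Y) W)
    (h : W * Wᴴ = 1) (χ : (Λ → Q) → ℂ) : mg Y (W *ᵥ χ) = mg Y χ := by
  refine congrArg (lift Y) (herm_ext (rho_herm _ _) (rho_herm _ _) fun x => ?_)
  obtain ⟨B, hB⟩ := SCa0A.qf_rho_nsq Y x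
  rw [hB, hB, SCa0A.swap hW, nsq_uni h]
theorem mg_res {Y S : Finset Λ} (h : Y ⊆ S) {χ χ' : (Λ → Q) → ℂ} (hS : mg S χ = mg S χ') :
    mg Y χ = mg Y χ' := by
  refine congrArg (lift Y) (herm_ext (rho_herm _ _) (rho_herm _ _) fun x => ?_)
  obtain ⟨k, hk⟩ := ((loc_lift Y (vecMulVec x (star x))).mono fun z hz => h hz).exists_lift
  rw [SCa0A.qf_rho, SCa0A.qf_rho, hk, qf, qf, ip_lift, ip_lift, ← rho_amp, ← rho_amp,
    lift_inj S hS]

end Vale.Agent.P356G
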