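import Vale.Agent.P356G.SCb0

/- Four Hölder bounds. `pY`, `qY` are the regularised marginals of `ψ`, `τ`; `W` commutes with every
operator local on `A ∪ B'` (`hf_loc`, `Loc.comm`).
R1 (`re z = 1/2`): move everything up to `pA ^ z` onto `τ`; `χ = qB' ^ .. qAB' ^ .. τ` has the `A` marginal
of `τ` (`mg_imag`, `mg_res`, `mg_uni`), `mg_flat`, `mg_tr` with `S = A`, `trace_rg`.
L1 (`re z = -1/2`): the same on the side of `ψ`.
R2 (`re w = 1/2`): bound by `nsq (M χ)`, `χ = pAB ^ (-w) ψ` flat on `A ∪ B`,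
`M = qAB' ^ w qB' ^ (-w) U pB ^ w`; `trace (Mᴴ M) = trace (qAB' K)` with the positive `K = X Xᴴ`,
`X = qB' ^ (-w) pB ^ w` local on `B`; `pt_rg` gives `dA trace (qAB' K) ≤ trace (qB' K) = trace pB`.
L2 (`re w = -1/2`): `χ = Wᴴ qAB' ^ (star w) τ` is flat on `A ∪ B'` (`mg_flat`, `mg_ctr`), at most `dy` on
`A ∪ B` (`mg_up`); the adjoint of the rest is local on `A ∪ B`, `pt_rg` with `B' = B` gives
`dA trace (pAB K) ≤ trace (pB K) = trace qB'`, `cC B' = dy dA cC (A ∪ B)`. -/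

namespace Vale.Agent.P356G

open Matrix Vale.Agent.P356

variable {Λ Q : Type} [Fintype Λ] [DecidableEq Λ] [Fintype Q] [DecidableEq Q] [Nonempty Q]
  {a0 η α β α' β' : ℝ} {A B B' : Finset Λ} {ψ τ : (Λ → Q) → ℂ} {W : Matrix (Λ → Q) (Λ → Q) ℂ}

namespace SCbA

theorem pd {a b : ℝ} (ha : 0 < a) (hb : 0 ≤ b) (Y : Finset Λ) {σ : (Λ → Q) → ℂ} (hσ : nsq σ = 1) :
    Pd (rg a b Y σ) := (rg_spIn a hb Y hσ).pd ha

theorem DD_pos : (0 : ℝ) < DD Λ Q := by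
  unfold DD
  exact_mod_cast Fintype.card_pos

theorem loc (a b : ℝ) (Y : Finset Λ) (σ : (Λ → Q) → ℂ) (y : ℂ) :
    Loc (fun z => z ∈ Y) (cpw (rg a b Y σ) y) := hf_loc (rg_loc a b Y σ) _

theorem sq {G : Matrix (Λ → Q) (Λ → Q) ℂ} (hG : Pd G) {y : ℂ} (hy : y.re = 1 / 2) :
    (cpw G y)ᴴ * cpw G y = G ∧ cpw G y * (cpw G y)ᴴ = G ∧
      (cpw G (-y))ᴴ * G * cpw G (-y) = 1 := by
  have e1 : star y + y = 1 := by
    apply Complex.ext
    · simp [hy]; norm_num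
    · simp
  refine ⟨?_, ?_, ?_⟩
  · rw [cpw_ct, ← cpw_add hG.1, e1, cpw_one hG]
  · rw [cpw_ct, ← cpw_add hG.1, add_comm, e1, cpw_one hG]
  · have e2 : star (-y) + 1 + -y = 0 := by
      rw [← e1, star_neg]
      ring
    calc (cpw G (-y))ᴴ * G * cpw G (-y) = cpw G (star (-y)) * cpw G 1 * cpw G (-y) := by
          rw [cpw_ct, cpw_one hG]
      _ = 1 := by rw [← cpw_add hG.1, ← cpw_add hG.1, e2, cpw_zero hG.1]

theorem key {a b : ℝ} (ha : 0 < a) (hb : 0 ≤ b) {C : Finset Λ} (hd : Disjoint A B) (hC : C ⊆ B)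
    {σ : (Λ → Q) → ℂ} (hσ : nsq σ = 1) {T U : Matrix (Λ → Q) (Λ → Q) ℂ} (hT : Pd T)
    (hTl : Loc (fun z => z ∈ B) T) (hU : U * Uᴴ = 1) (hUl : Loc (fun z => z ∈ A) U) {y : ℂ}
    (hy : y.re = 1 / 2) {M : Matrix (Λ → Q) (Λ → Q) ℂ}
    (hM : M = cpw (rg a b (A ∪ C) σ) y * cpw (rg (DD Λ Q * a) b C σ) (-y) * U * cpw T y) :
    Loc (fun z => z ∈ A ∪ B) M ∧
      (Fintype.card Q : ℝ) ^ A.card * (trace (Mᴴ * M)).re ≤ (trace T).re := by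
  have l1 : Loc (fun z => z ∈ B) (cpw T y) := hf_loc hTl _
  have l2 : Loc (fun z => z ∈ B) (cpw (rg (DD Λ Q * a) b C σ) (-y)) :=
    (loc _ b C σ (-y)).mono fun x hx => hC hx
  have l3 : Loc (fun z => z ∈ A ∪ B) (cpw (rg a b (A ∪ C) σ) y) :=
    (loc a b (A ∪ C) σ y).mono fun x hx => Finset.union_subset_union_right hC hx
  have hG := pd ha hb (A ∪ C) hσ
  have hG' := pd (mul_pos (DD_pos (Λ := Λ) (Q := Q)) ha) hb C hσ
  constructor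
  · rw [hM]
    exact ((l3.mul (l2.mono fun x hx => Finset.mem_union_right _ hx)).mul
      (hUl.mono fun x hx => Finset.mem_union_left _ hx)).mul
      (l1.mono fun x hx => Finset.mem_union_right _ hx)
  have hc : U * cpw T y = cpw T y * U :=
    hUl.comm l1 fun x hx => Finset.disjoint_left.1 hd hx
  obtain ⟨X, hX⟩ : ∃ X, X = cpw (rg (DD Λ Q * a) b C σ) (-y) * cpw T y := ⟨_, rfl⟩
  have lX : Loc (fun z => z ∈ B) X := hX ▸ l2.mul l1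
  have hK : Ps (X * Xᴴ) := by simpa using ps_ct_mul Xᴴ
  have h1 := pt_rg (β := b) ha.le hd hC (lX.mul lX.ct) hK σ
  have e1 : trace (Mᴴ * M) = trace (rg a b (A ∪ C) σ * (X * Xᴴ)) := by
    have hM' : M = cpw (rg a b (A ∪ C) σ) y * X * U := by
      rw [hM, hX]
      simp only [Matrix.mul_assoc, hc]
    have e2 : M * Mᴴ = cpw (rg a b (A ∪ C) σ) y * (X * Xᴴ) * (cpw (rg a b (A ∪ C) σ) y)ᴴ := by
      calc M * Mᴴ = cpw (rg a b (A ∪ C) σ) y * X * (U * Uᴴ) * Xᴴ *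
            (cpw (rg a b (A ∪ C) σ) y)ᴴ := by
            rw [hM']
            simp only [Matrix.conjTranspose_mul, Matrix.mul_assoc]
        _ = _ := by
            rw [hU]
            simp only [Matrix.mul_one, Matrix.mul_assoc]
    rw [trace_mul_comm, e2, trace_mul_comm, ← Matrix.mul_assoc, (sq hG hy).1]
  have e3 : trace (rg (DD Λ Q * a) b C σ * (X * Xᴴ)) = trace T := by
    have e4 : rg (DD Λ Q * a) b C σ * (X * Xᴴ) =
        rg (DD Λ Q * a) b C σ * cpw (rg (DD Λ Q * a) b C σ) (-y) * (cpw T y * (cpw T y)ᴴ) *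
          (cpw (rg (DD Λ Q * a) b C σ) (-y))ᴴ := by
      rw [hX]
      simp only [Matrix.conjTranspose_mul, Matrix.mul_assoc]
    rw [e4, (sq hT hy).2.1, trace_mul_comm, ← Matrix.mul_assoc, ← Matrix.mul_assoc,
      (sq hG' hy).2.2, Matrix.one_mul]
  rw [e1, ← e3]
  exact h1

theorem tr_le (h0 : 0 < a0) (hp : Par (DD Λ Q) a0 η α β) (Y : Finset Λ) (hψ : nsq ψ = 1) :
    (trace (rg (DD Λ Q * α) β Y ψ)).re ≤ cC Q Y * (1 + η) := by
  rw [trace_rg _ _ _ hψ]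
  refine mul_le_mul_of_nonneg_left ?_ (Nat.cast_nonneg _)
  have h1 : Fintype.card Q ^ Y.card ≤ DD Λ Q := by
    rw [← cC_mul Y]
    exact Nat.le_mul_of_pos_left _ (cC_pos Y)
  have h2 : (Fintype.card Q : ℝ) ^ Y.card ≤ DD Λ Q := by exact_mod_cast h1
  have h3 := mul_le_mul_of_nonneg_left h2
    (mul_pos (DD_pos (Λ := Λ) (Q := Q)) (h0.trans_le hp.lo)).le
  have h4 := hp.hi
  linarith

theorem uni (h0 : 0 < a0) (hp : Par (DD Λ Q) a0 η α β) (hq : Par (DD Λ Q) a0 η α' β')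
    (hψ : nsq ψ = 1) (hτ : nsq τ = 1) {z : ℂ} (hz : z.re = 0) {U : Matrix (Λ → Q) (Λ → Q) ℂ}
    (hU : U = cpw (rg (DD Λ Q * α') β' A τ) (-z) * cpw (rg (DD Λ Q * α) β A ψ) z) :
    U * Uᴴ = 1 ∧ Loc (fun x => x ∈ A) U := by
  have h1 := cpw_uni (pd (mul_pos (DD_pos (Λ := Λ) (Q := Q)) (h0.trans_le hp.lo)) hp.b0 A hψ).1 hz
  have h2 := cpw_uni (pd (mul_pos (DD_pos (Λ := Λ) (Q := Q)) (h0.trans_le hq.lo)) hq.b0 A hτ).1
    (z := -z) (by simp [hz])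
  refine ⟨?_, hU ▸ (loc _ _ _ _ _).mul (loc _ _ _ _ _)⟩
  rw [hU, Matrix.conjTranspose_mul, Matrix.mul_assoc, ← Matrix.mul_assoc (cpw _ z), h1,
    Matrix.one_mul, h2]

end SCbA

theorem hol_R2 (h0 : 0 < a0) (hp : Par (DD Λ Q) a0 η α β) (hq : Par (DD Λ Q) a0 η α' β')
    (hd : Disjoint A B) (hB : B' ⊆ B) (hψ : nsq ψ = 1) (hτ : nsq τ = 1)
    (hW : Loc (fun z => z ∉ A ∪ B') W) (hW1 : Bd W 1) {z w : ℂ} (hz : z.re = 0)
    (hw : w.re = 1 / 2) : ‖star τ ⬝ᵥ (W *ᵥ phi2 α β α' β' A B B' ψ τ z w)‖ ^ 2 ≤ 1 + η := by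
  have hα := h0.trans_le hp.lo
  have hα' := h0.trans_le hq.lo
  obtain ⟨hU, hUl⟩ := SCbA.uni (A := A) h0 hp hq hψ hτ hz rfl
  obtain ⟨hM, h1⟩ := SCbA.key hα' hq.b0 hd hB hτ
    (SCbA.pd (mul_pos (SCbA.DD_pos (Λ := Λ) (Q := Q)) hα) hp.b0 B hψ) (rg_loc _ _ B ψ) hU hUl hw rfl
  have h2 := mg_flat hα hp.b0 hp.b1 hp.ab (A ∪ B) hψ rfl (z := -w) (by simp [hw]; norm_num)
  have h3 := mg_tr hM h2
  have h4 := SCbA.tr_le h0 hp B hψ
  rw [Matrix.mulVec_mulVec] at h3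
  change _ * nsq (phi2 α β α' β' A B B' ψ τ z w) ≤ _ at h3
  have h5 : (cC Q B : ℝ) = (Fintype.card Q : ℝ) ^ A.card * cC Q (A ∪ B) := by
    exact_mod_cast cC_union hd
  have h6 : (0 : ℝ) < cC Q B := by exact_mod_cast cC_pos B
  have h7 := mul_le_mul_of_nonneg_left h3 (pow_nonneg (Nat.cast_nonneg (α := ℝ) (Fintype.card Q)) A.card)
  have h8 : nsq (phi2 α β α' β' A B B' ψ τ z w) ≤ 1 + η := by
    refine le_of_mul_le_mul_left ?_ h6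
    rw [← mul_assoc, ← h5, one_mul] at h7
    linarith
  have h9 := cs τ (W *ᵥ phi2 α β α' β' A B B' ψ τ z w)
  have h10 := hW1.nsq (phi2 α β α' β' A B B' ψ τ z w)
  rw [hτ] at h9
  linarith
theorem hol_L2 (h0 : 0 < a0) (hp : Par (DD Λ Q) a0 η α β) (hq : Par (DD Λ Q) a0 η α' β')
    (hd : Disjoint A B) (hB : B' ⊆ B) (hψ : nsq ψ = 1) (hτ : nsq τ = 1)
    (hW : Loc (fun z => z ∉ A ∪ B') W) (hW1 : Bd W 1) {z w : ℂ} (hz : z.re = 0)
    (hw : w.re = -1 / 2) : ‖star τ ⬝ᵥ (W *ᵥ phi2 α β α' β' A B B' ψ τ z w)‖ ^ 2 ≤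
      ((Fintype.card Q : ℝ) ^ (B \ B').card) ^ 2 * (1 + η) := by
  have hα := h0.trans_le hp.lo
  have hα' := h0.trans_le hq.lo
  obtain ⟨U, hUe⟩ : ∃ U, U = cpw (rg (DD Λ Q * α') β' A τ) (-z) * cpw (rg (DD Λ Q * α) β A ψ) z :=
    ⟨_, rfl⟩
  obtain ⟨hU, hUl⟩ := SCbA.uni (A := A) h0 hp hq hψ hτ hz hUe
  have hU' : Uᴴ * Uᴴᴴ = 1 := by rw [Matrix.conjTranspose_conjTranspose]; exact uni_symm hU
  obtain ⟨M, hMe⟩ : ∃ M, M = cpw (rg α β (A ∪ B) ψ) (-star w) *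
      cpw (rg (DD Λ Q * α) β B ψ) (- -star w) * Uᴴ * cpw (rg (DD Λ Q * α') β' B' τ) (-star w) :=
    ⟨_, rfl⟩
  obtain ⟨hM, h1⟩ := SCbA.key hα hp.b0 hd (Finset.Subset.refl B) hψ
    (SCbA.pd (mul_pos (SCbA.DD_pos (Λ := Λ) (Q := Q)) hα') hq.b0 B' hτ)
    ((rg_loc _ _ B' τ).mono fun x hx => hB hx) hU' hUl.ct (y := -star w)
    (by simp [hw]; norm_num) hMe
  have h2 := mg_flat hα' hq.b0 hq.b1 hq.ab (A ∪ B') hτ rfl (z := star w) (by simp [hw])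
  have h2' := (mg_ctr hW.ct (hW1.ct zero_le_one) _).trans h2 zero_le_one
  have h2'' := mg_up (Finset.union_subset_union_right (s := A) hB) (by norm_num) h2'
  have hs : (A ∪ B) \ (A ∪ B') = B \ B' := by
    ext x
    have : x ∈ A → x ∉ B := fun hx => Finset.disjoint_left.1 hd hx
    simp only [Finset.mem_sdiff, Finset.mem_union]
    tauto
  rw [hs] at h2''
  have h3 := mg_tr hM h2''
  have h4 := SCbA.tr_le h0 hq B' hτ
  have hc : W * cpw (rg α' β' (A ∪ B') τ) w = cpw (rg α' β' (A ∪ B') τ) w * W :=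
    hW.comm (SCbA.loc _ _ _ _ _) fun x hx => hx
  have e : star τ ⬝ᵥ (W *ᵥ phi2 α β α' β' A B B' ψ τ z w) =
      star (M *ᵥ (Wᴴ *ᵥ (cpw (rg α' β' (A ∪ B') τ) (star w) *ᵥ τ))) ⬝ᵥ ψ := by
    unfold phi2
    rw [← hUe, Matrix.mulVec_mulVec, dot_mulVec, Matrix.mulVec_mulVec, Matrix.mulVec_mulVec, hMe]
    congr 3
    simp only [← Matrix.mul_assoc]
    rw [hc]
    simp only [Matrix.conjTranspose_mul, cpw_ct, star_neg, neg_neg, Matrix.mul_assoc]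
  have h9 := cs (M *ᵥ (Wᴴ *ᵥ (cpw (rg α' β' (A ∪ B') τ) (star w) *ᵥ τ))) ψ
  rw [hψ, mul_one] at h9
  rw [e]
  refine h9.trans ?_
  have h5 : (cC Q B : ℝ) = (Fintype.card Q : ℝ) ^ A.card * cC Q (A ∪ B) := by
    exact_mod_cast cC_union hd
  have h5' : (cC Q B' : ℝ) = (Fintype.card Q : ℝ) ^ (B \ B').card * cC Q B := by
    have := cC_union (Q := Q) (Finset.sdiff_disjoint (s := B') (t := B))
    rw [Finset.sdiff_union_of_subset hB] at this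
    exact_mod_cast this
  have h6 : (0 : ℝ) < cC Q B := by exact_mod_cast cC_pos B
  have h7 := mul_le_mul_of_nonneg_left h3 (pow_nonneg (Nat.cast_nonneg (α := ℝ) (Fintype.card Q)) A.card)
  have h8 := mul_le_mul_of_nonneg_left (h1.trans h4)
    (pow_nonneg (Nat.cast_nonneg (α := ℝ) (Fintype.card Q)) (B \ B').card)
  refine le_of_mul_le_mul_left ?_ h6
  rw [← mul_assoc, ← h5] at h7
  rw [h5'] at h8
  linarith

end Vale.Agent.P356G
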