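import Vale.Agent.P356G.SCa

/- Four Hölder bounds. `pY`, `qY` are the regularised marginals of `ψ`, `τ`; `W` commutes with every
operator local on `A ∪ B'` (`hf_loc`, `Loc.comm`).
R1 (`re z = 1/2`): move everything up to `pA ^ z` onto `τ`; `χ = qB' ^ .. qAB' ^ .. τ` has the `A` marginal
of `τ` (`mg_imag`, `mg_res`, `mg_uni`), `mg_flat`, `mg_tr` with `S = A`, `trace_rg`.
L1 (`re z = -1/2`): the same on the side of `ψ`.
R2 (`re w = 1/2`): bound by `nsq (M χ)`, `χ = pAB ^ (-w) ψ` flat on `A ∪ B`,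
`M = qAB' ^ w qB' ^ (-w) U pB ^ w`; `trace (Mᴴ M) = trace (qAB' K)` with the positive `K = X Xᴴ`,
`X = qB' ^ (-w) pB ^ w` local on `B`; `pt_rg` gives `dA trace (qAB' K) ≤ trace (qB' K) = trace pB`.
L2 (`re w = -1/2`): `χ = Wᴴ qAB' ^ (star w) τ` is flat on `A ∪ B'` (`mg_flat`, `mg_ctr`), at most `dy` on
`A ∪ B` (`mg_up`); the adjoint of the rest is local on `A ∪ B`, `pt_rg` with `B' = B` gives
`dA trace (pAB K) ≤ trace (pB K) = trace qB'`, `cC B' = dy dA cC (A ∪ B)`. -/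

namespace Vale.Agent.P356G

open Matrix Vale.Agent.P356

variable {Λ Q : Type} [Fintype Λ] [DecidableEq Λ] [Fintype Q] [DecidableEq Q] [Nonempty Q]
  {a0 η α β α' β' : ℝ} {A B B' : Finset Λ} {ψ τ : (Λ → Q) → ℂ} {W : Matrix (Λ → Q) (Λ → Q) ℂ}

namespace SCb0A

theorem dle (A : Finset Λ) : (Fintype.card Q : ℝ) ^ A.card ≤ DD Λ Q := by
  have h1 := cC_mul (Q := Q) A
  have h2 := cC_pos (Q := Q) A
  have h3 : Fintype.card Q ^ A.card ≤ DD Λ Q := h1 ▸ Nat.le_mul_of_pos_left _ h2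
  exact_mod_cast h3

theorem one_le : (1 : ℝ) ≤ DD Λ Q := by
  simpa using dle (Q := Q) (∅ : Finset Λ)

theorem marg (hβ : 0 ≤ β) (hd : Disjoint A B) (hψ : nsq ψ = 1) {u v : ℂ} (hu : u.re = 0)
    (hv : v.re = 0) :
    mg A (cpw (rg α' β B ψ) u *ᵥ (cpw (rg α β (A ∪ B) ψ) v *ᵥ ψ)) = mg A ψ ∧
      nsq (cpw (rg α' β B ψ) u *ᵥ (cpw (rg α β (A ∪ B) ψ) v *ᵥ ψ)) = 1 := by
  have h1 := cpw_uni (rg_spIn α' hβ B hψ).1 hu
  have h2 := cpw_uni (rg_spIn α hβ (A ∪ B) hψ).1 hv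
  have h3 : Loc (fun z => z ∉ A) (cpw (rg α' β B ψ) u) :=
    (hf_loc (rg_loc α' β B ψ) _).mono fun x hx hx' => Finset.disjoint_left.1 hd hx' hx
  refine ⟨?_, by rw [nsq_uni h1, nsq_uni h2, hψ]⟩
  rw [mg_uni h3 h1]
  exact mg_res Finset.subset_union_left (mg_imag _ ψ hv)

theorem key (h0 : 0 < a0) (hp : Par (DD Λ Q) a0 η α β) (hq : Par (DD Λ Q) a0 η α' β')
    (hψ : nsq ψ = 1) (hτ : nsq τ = 1) {χ : (Λ → Q) → ℂ} (hχ : mg A χ = mg A ψ) {z u : ℂ}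
    (hz : z.re = -1 / 2) (hu : u.re = 1 / 2) :
    nsq (cpw (rg (DD Λ Q * α') β' A τ) u *ᵥ (cpw (rg (DD Λ Q * α) β A ψ) z *ᵥ χ)) ≤ 1 + η := by
  have hD := one_le (Λ := Λ) (Q := Q)
  have a1 : 0 < α := h0.trans_le hp.lo
  have a2 : 0 < α' := h0.trans_le hq.lo
  have a3 : 0 < DD Λ Q * α' := by positivity
  have h1 := mg_flat (α := DD Λ Q * α) (by positivity) hp.b0 hp.b1
    (by nlinarith [hp.ab]) A hψ hχ hz
  have h2 := mg_tr (M := cpw (rg (DD Λ Q * α') β' A τ) u) (hf_loc (rg_loc _ _ A τ) _) h1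
  have hs := rg_spIn (DD Λ Q * α') hq.b0 A hτ
  have e : star u + u = 1 := by
    apply Complex.ext
    · simp only [Complex.add_re, Complex.star_def, Complex.conj_re, hu, Complex.one_re]
      norm_num
    · simp
  rw [cpw_ct, ← cpw_add hs.1, e, cpw_one (hs.pd a3), trace_rg _ _ A hτ, one_mul] at h2
  have h3 : (0 : ℝ) < cC Q A := by exact_mod_cast cC_pos (Q := Q) A
  refine (le_of_mul_le_mul_left h2 h3).trans ?_
  have h4 := mul_le_mul_of_nonneg_left (dle (Q := Q) A) a3.le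
  have h5 := hq.hi
  linarith

end SCb0A

theorem pt_rg (hα : 0 ≤ α) (hd : Disjoint A B) (hB : B' ⊆ B) {K : Matrix (Λ → Q) (Λ → Q) ℂ}
    (hK : Loc (fun z => z ∈ B) K) (hp : Ps K) (τ : (Λ → Q) → ℂ) :
    (Fintype.card Q : ℝ) ^ A.card * (trace (rg α β (A ∪ B') τ * K)).re ≤
      (trace (rg (DD Λ Q * α) β B' τ * K)).re := by
  have h1 := pd_one.ps.trace_mul hp
  rw [one_mul] at h1
  have h2 := mul_le_mul_of_nonneg_right (SCb0A.dle (Q := Q) A) (mul_nonneg hα h1)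
  have h3 : (trace (mg B' τ * K)).re =
      (Fintype.card Q : ℝ) ^ A.card * (trace (mg (A ∪ B') τ * K)).re := by
    rw [mg_pt hd hB hK, ← Complex.re_ofReal_mul]
    push_cast
    rfl
  simp only [rg, add_mul, smul_mul_assoc, one_mul, trace_add, trace_smul, smul_eq_mul,
    Complex.add_re, Complex.re_ofReal_mul, h3]
  linarith
theorem hol_R1 (h0 : 0 < a0) (hp : Par (DD Λ Q) a0 η α β) (hq : Par (DD Λ Q) a0 η α' β')
    (hd : Disjoint A B) (hB : B' ⊆ B) (hψ : nsq ψ = 1) (hτ : nsq τ = 1)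
    (hW : Loc (fun z => z ∉ A ∪ B') W) (hW1 : Bd W 1) {z w : ℂ} (hz : z.re = 1 / 2)
    (hw : w.re = 0) : ‖star τ ⬝ᵥ (W *ᵥ phi2 α β α' β' A B B' ψ τ z w)‖ ^ 2 ≤ 1 + η := by
  have hd' : Disjoint A B' := hd.mono_right hB
  have hc : ∀ {Y : Finset Λ} (a b : ℝ) (χ : (Λ → Q) → ℂ) (u : ℂ), Y ⊆ A ∪ B' →
      Commute W (cpw (rg a b Y χ) u) := fun a b χ u hY =>
    hW.comm (hf_loc (rg_loc a b _ χ) _) fun x hx hx' => hx (hY hx')
  have c1 := ((hc α' β' τ w subset_rfl).mul_right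
    (hc (DD Λ Q * α') β' τ (-w) Finset.subset_union_right)).mul_right
    ((hc (DD Λ Q * α') β' τ (-z) Finset.subset_union_left).mul_right
      (hc (DD Λ Q * α) β ψ z Finset.subset_union_left))
  obtain ⟨-, m2⟩ := SCb0A.marg (α := α) (α' := DD Λ Q * α) hp.b0 hd hψ hw
    (v := -w) (by simp [hw])
  obtain ⟨m3, -⟩ := SCb0A.marg (α := α') (α' := DD Λ Q * α') hq.b0 hd' hτ
    (u := star (-w)) (v := star w) (by simp [hw]) (by simp [hw])
  have k := SCb0A.key h0 hq hp hτ hψ m3 (z := star (-z)) (u := star z)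
    (by simp only [star_neg, Complex.neg_re, Complex.star_def, Complex.conj_re, hz]; norm_num)
    (by simpa only [Complex.star_def, Complex.conj_re] using hz)
  have n1 := hW1.nsq (cpw (rg (DD Λ Q * α) β B ψ) w *ᵥ (cpw (rg α β (A ∪ B) ψ) (-w) *ᵥ ψ))
  rw [m2, one_pow, one_mul] at n1
  rw [phi2, ← mulVec_mulVec, ← mulVec_mulVec, mulVec_mulVec _ W, c1.eq, ← mulVec_mulVec,
    dot_mulVec]
  refine (cs _ _).trans ?_
  simp only [conjTranspose_mul, cpw_ct, ← mulVec_mulVec]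
  exact (mul_le_of_le_one_right (nsq_nonneg _) n1).trans k
theorem hol_L1 (h0 : 0 < a0) (hp : Par (DD Λ Q) a0 η α β) (hq : Par (DD Λ Q) a0 η α' β')
    (hd : Disjoint A B) (hB : B' ⊆ B) (hψ : nsq ψ = 1) (hτ : nsq τ = 1)
    (hW : Loc (fun z => z ∉ A ∪ B') W) (hW1 : Bd W 1) {z w : ℂ} (hz : z.re = -1 / 2)
    (hw : w.re = 0) : ‖star τ ⬝ᵥ (W *ᵥ phi2 α β α' β' A B B' ψ τ z w)‖ ^ 2 ≤ 1 + η := by
  obtain ⟨m1, -⟩ := SCb0A.marg (α := α) (α' := DD Λ Q * α) hp.b0 hd hψ hw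
    (v := -w) (by simp [hw])
  have k := SCb0A.key h0 hp hq hψ hτ m1 hz (u := -z) (by rw [Complex.neg_re, hz]; norm_num)
  have n1 := (hW1.ct zero_le_one).nsq τ
  rw [hτ, one_pow, one_mul] at n1
  have u1 := cpw_uni (rg_spIn α' hq.b0 (A ∪ B') hτ).1 (z := star w) (by simp [hw])
  have u2 := cpw_uni (rg_spIn (DD Λ Q * α') hq.b0 B' hτ).1 (z := star (-w)) (by simp [hw])
  simp only [phi2, ← mulVec_mulVec]
  rw [dot_mulVec, dot_mulVec, dot_mulVec]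
  refine (cs _ _).trans ?_
  rw [cpw_ct, cpw_ct, nsq_uni u2, nsq_uni u1]
  exact (mul_le_of_le_one_left (nsq_nonneg _) n1).trans k

end Vale.Agent.P356G
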