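import Vale.Agent.P356G.RepF
import Vale.Agent.P356G.MeanT

/- Sequences of metrics and products of commuting collars.
`InA.comm`: two applications of the bicommutant clause. `pr_swap`: `pr_pull` for both products, the
common factor `R` is positive definite (`pr_pd`), `qf_mul`, `cpw R (1/2)` commutes with `S` and keeps
symmetric vectors (`cpw_comm`, `Sy.mulVec`). `prod`: induction on the time; in one time step replace the
factors one at a time (induction on the number of replaced factors), first the owner together with the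
application of `S` (if there is no owner, `S` is a contraction commuting with the product). -/

namespace Vale.Agent.P356G

open Matrix Vale.Agent.P356

variable {Λ Q ι : Type} [Fintype Λ] [DecidableEq Λ] [Fintype Q] [DecidableEq Q] [Nonempty Q]
  [DecidableEq ι] {N : ℕ} {θ : ℝ} {t : ℕ}

/-- a sequence of metrics from `L0` to `L1` along the steps `S (tm i)`, `i < n`, with total factor `x` -/
def Seq (θ : ℝ) (t : ℕ) (lo hi : Cfg Λ) (own : Finset ι) (S : ι → RM Λ Q N) (tm : ℕ → ι) (n : ℕ)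
    (L0 L1 : RM Λ Q N) (x : ℝ) : Prop :=
  ∃ (L : ℕ → RM Λ Q N) (lam : ℕ → ℝ), L 0 = L0 ∧ L n = L1 ∧ (∀ i, i ≤ n → InA θ t lo hi (L i)) ∧
    (∀ i, i < n → 0 ≤ lam i ∧
      (tm i ∈ own → ∀ v, Sy Finset.univ v → qf (L (i + 1)) (S (tm i) *ᵥ v) ≤ lam i * qf (L i) v) ∧
      (tm i ∉ own → Le (L (i + 1)) (lam i) (L i))) ∧ ∏ i ∈ Finset.range n, lam i ≤ x

variable {lo hi lo' hi' : Cfg Λ} {own : Finset ι} {S : ι → RM Λ Q N} {tm : ℕ → ι}

theorem Seq.refl {L : RM Λ Q N} (h : InA θ t lo hi L) : Seq θ t lo hi own S tm 0 L L 1 := by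
  exact ⟨fun _ => L, fun _ => 1, rfl, rfl, fun _ _ => h, fun i hi => absurd hi (Nat.not_lt_zero _),
    by simp⟩

theorem Seq.mono {n : ℕ} {L0 L1 : RM Λ Q N} {x y : ℝ} (h : Seq θ t lo hi own S tm n L0 L1 x)
    (hxy : x ≤ y) : Seq θ t lo hi own S tm n L0 L1 y := by
  obtain ⟨L, lam, a, b, c, d, e⟩ := h
  exact ⟨L, lam, a, b, c, d, e.trans hxy⟩

theorem Seq.snoc {n : ℕ} {L0 L1 L2 : RM Λ Q N} {x y : ℝ} (h : Seq θ t lo hi own S tm n L0 L1 x)
    (h2 : InA θ t lo hi L2) (hy : 0 ≤ y)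
    (ho : tm n ∈ own → ∀ v, Sy Finset.univ v → qf L2 (S (tm n) *ᵥ v) ≤ y * qf L1 v)
    (hn : tm n ∉ own → Le L2 y L1) : Seq θ t lo hi own S tm (n + 1) L0 L2 (x * y) := by
  obtain ⟨L, lam, a, b, c, d, e⟩ := h
  refine ⟨fun i => if i ≤ n then L i else L2, fun i => if i < n then lam i else y, ?_, ?_,
    fun i hi => ?_, fun i hi => ?_, ?_⟩
  · simp only [Nat.zero_le, if_true, a]
  · simp only [Nat.not_succ_le_self, if_false]
  · dsimp only
    split_ifs with h1
    · exact c i h1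
    · exact h2
  · dsimp only
    by_cases h1 : i < n
    · rw [if_pos h1, if_pos h1.le, if_pos (show i + 1 ≤ n from h1)]
      exact d i h1
    · obtain rfl : i = n := by omega
      rw [if_neg h1, if_pos le_rfl, if_neg (Nat.not_succ_le_self i), b]
      exact ⟨hy, ho, hn⟩
  · rw [Finset.prod_range_succ, if_neg (lt_irrefl n),
      Finset.prod_congr rfl fun i hi => if_pos (Finset.mem_range.1 hi)]
    exact mul_le_mul_of_nonneg_right e hy

theorem Seq.append {n n' : ℕ} {L0 L1 L2 : RM Λ Q N} {x y : ℝ}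
    (h : Seq θ t lo hi own S tm n L0 L1 x)
    (h' : Seq θ t lo hi own S (fun i => tm (n + i)) n' L1 L2 y) :
    Seq θ t lo hi own S tm (n + n') L0 L2 (x * y) := by
  obtain ⟨L, lam, a, b, c, d, e⟩ := h'
  have hx : 0 ≤ x := by
    obtain ⟨_, lam, -, -, -, d, e⟩ := h
    exact (Finset.prod_nonneg fun i hi => (d i (Finset.mem_range.1 hi)).1).trans e
  have key : ∀ j, j ≤ n' →
      Seq θ t lo hi own S tm (n + j) L0 (L j) (x * ∏ i ∈ Finset.range j, lam i) := by
    intro j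
    induction j with
    | zero =>
      intro _
      rw [Finset.prod_range_zero, mul_one, a]
      exact h
    | succ j ih =>
      intro hj
      rw [Finset.prod_range_succ, ← mul_assoc]
      exact (ih (by omega)).snoc (c _ hj) (d j hj).1 (d j hj).2.1 (d j hj).2.2
  rw [← b]
  exact (key n' le_rfl).mono (mul_le_mul_of_nonneg_left e hx)

theorem Seq.last {n : ℕ} (hn : 0 < n) {L0 L1 L2 : RM Λ Q N} {x y : ℝ}
    (h : Seq θ t lo hi own S tm n L0 L1 x) (h2 : InA θ t lo hi L2) (hy : 0 ≤ y) (hl : Le L2 y L1) :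
    Seq θ t lo hi own S tm n L0 L2 (x * y) := by
  obtain ⟨L, lam, a, b, c, d, e⟩ := h
  obtain ⟨k, rfl⟩ : ∃ k, n = k + 1 := ⟨n - 1, by omega⟩
  have h1 : Seq θ t lo hi own S tm k L0 (L k) (∏ i ∈ Finset.range k, lam i) :=
    ⟨L, lam, a, rfl, fun i hi => c i (by omega), fun i hi => d i (by omega), le_rfl⟩
  obtain ⟨d0, d1, d2⟩ := d k (by omega)
  rw [b] at d1 d2
  refine (h1.snoc (y := y * lam k) h2 (mul_nonneg hy d0) (fun ho v hv => ?_)
    fun ho => hl.trans (d2 ho) hy).mono ?_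
  · rw [mul_assoc]
    exact (hl _).trans (mul_le_mul_of_nonneg_left (d1 ho v hv) hy)
  · rw [mul_comm y, ← mul_assoc, ← Finset.prod_range_succ]
    exact mul_le_mul_of_nonneg_right e hy

theorem Seq.first {n : ℕ} (hn : 0 < n) {L L0 L1 : RM Λ Q N} {x y : ℝ}
    (h : Seq θ t lo hi own S tm n L0 L1 x) (h2 : InA θ t lo hi L) (hy : 0 ≤ y) (hl : Le L0 y L) :
    Seq θ t lo hi own S tm n L L1 (x * y) := by
  obtain ⟨L', lam, a, b, c, d, e⟩ := h
  obtain ⟨k, rfl⟩ : ∃ k, n = k + 1 := ⟨n - 1, by omega⟩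
  refine ⟨fun i => if i = 0 then L else L' i, fun i => if i = 0 then lam 0 * y else lam i, rfl,
    b, fun i hi => ?_, fun i hi => ?_, ?_⟩
  · dsimp only
    split_ifs with h1
    · exact h2
    · exact c i hi
  · dsimp only
    rw [if_neg (Nat.succ_ne_zero i)]
    by_cases h1 : i = 0
    · subst h1
      rw [if_pos rfl, if_pos rfl]
      obtain ⟨d0, d1, d2⟩ := d 0 hi
      rw [a] at d1 d2
      refine ⟨mul_nonneg d0 hy, fun ho v hv => ?_, fun ho => (d2 ho).trans hl d0⟩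
      rw [mul_assoc]
      exact (d1 ho v hv).trans (mul_le_mul_of_nonneg_left (hl v) d0)
    · rw [if_neg h1, if_neg h1]
      exact d i hi
  · rw [Finset.prod_range_succ'] at e ⊢
    simp only [Nat.succ_ne_zero, if_false, if_true]
    rw [← mul_assoc]
    exact mul_le_mul_of_nonneg_right e hy

theorem inA_Mb {c : Fin N → Cfg Λ} (h : ∀ a, Btw lo hi (c a)) : InA θ t lo hi (Mb Q θ t c) := by
  exact ⟨Mb_pd c, fun Z hZ => hZ c h⟩

theorem inA_val {T : Tr (Fin N → Cfg Λ)} (h : T.All fun c => ∀ a, Btw lo hi (c a)) :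
    InA θ t lo hi (T.val (Mb Q θ t)) := by
  exact ⟨Tr.val_pd (T.all_of fun c => Mb_pd c), fun Z hZ =>
    Tr.val_comm (h.mono fun c hc => hZ c hc)⟩

theorem InA.pm {X : RM Λ Q N} (h : InA θ t lo hi X) (π : Equiv.Perm (Fin N)) :
    Commute (pm Q Finset.univ π) X := by
  exact h.2 _ fun c _ => Mb_pm c π

theorem InA.comm (ht : 0 < t) {X Y : RM Λ Q N} (hX : InA θ t lo hi X) (hY : InA θ t lo' hi' Y)
    (hd : Disjoint hi.1 hi.2) (hd' : Disjoint hi'.1 hi'.2) (h : lo.2ᶜ ⊆ lo'.1) : Commute X Y := by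
  refine hY.2 X fun c' hc' => (hX.2 _ fun c hc => ?_).symm
  refine (Mb_Mb (U := lo'.1) (fun a => ?_) (fun a => ?_) ht (fun a => ?_)
    fun a => (hc' a).1).symm
  · exact hd.mono (hc a).2.1 (hc a).2.2.2
  · exact hd'.mono (hc' a).2.1 (hc' a).2.2.2
  · exact (Finset.compl_subset_compl.2 (hc a).2.2.1).trans h

end Vale.Agent.P356G
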