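import Vale.Agent.P356G.RepF
import Vale.Agent.P356G.SCa

/- START. `Lw_ge`: `exp (-r) • k` has trace at most one, `om_ge` with `G = univ` gives
`om ≥ exp (-r N) tens (lift k)`; on vectors fixed by `tens (lift k)` use `hlog_ge_on` (`tens_comm`,
`comm_om`, `tens_prj`). `start`: `Mb_const`, then `hexp_le_on` for the projector `tens P0`
(it commutes with every `pm Y π` for the sets `Y` that occur, because `P0 = lift Y k * P'` with `P'` local
off `Y`: `tens_mul`, `tens_comm`), `hlog_le` with `om_le`, `prod_small` (`C = 1`) for the middle term, and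
`Lw_ge` for the two others: a vector fixed by `tens P0` is fixed by `tens (lift Y k)`. -/

namespace Vale.Agent.P356G

open Matrix Vale.Agent.P356 Filter

variable {Λ Q : Type} [Fintype Λ] [DecidableEq Λ] [Fintype Q] [DecidableEq Q] [Nonempty Q]

/-- `P` is a product of a projector of rank at most `exp r` on `Y` and a projector off `Y` -/
def Spl (P : Matrix (Λ → Q) (Λ → Q) ℂ) (Y : Finset Λ) (r : ℝ) : Prop :=
  ∃ (k : Matrix ({z // z ∈ Y} → Q) ({z // z ∈ Y} → Q) ℂ) (P' : Matrix (Λ → Q) (Λ → Q) ℂ),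
    Prj k ∧ (trace k).re ≤ Real.exp r ∧ Loc (fun z => z ∉ Y) P' ∧ P = lift Y k * P'

namespace StartA

theorem lift_prj (Y : Finset Λ) {k : Matrix ({z // z ∈ Y} → Q) ({z // z ∈ Y} → Q) ℂ} (hk : Prj k) :
    Prj (lift Y k) :=
  ⟨by rw [IsHermitian, ← lift_ct, hk.1.eq], by rw [← lift_mul, hk.2]⟩

theorem tens_smul {N : ℕ} (Y : Finset Λ) (c : ℂ)
    (k : Matrix ({z // z ∈ Y} → Q) ({z // z ∈ Y} → Q) ℂ) :
    (tensF fun j : Fin N => if j ∈ Finset.univ then lift Y (c • k) else 1) =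
      c ^ N • tens N (lift Y k) := by
  have : lift Y (c • k) = c • lift Y k := by simpa using SCa0A.lift_lin Y c 0 k k
  ext x y
  simp [tensF, tens, this, Finset.prod_mul_distrib]

theorem comm {N : ℕ} {P : Matrix (Λ → Q) (Λ → Q) ℂ} {Y : Finset Λ} {r : ℝ} (h : Spl P Y r)
    (t : ℕ) : Commute (tens N P) (Lw Q Y Finset.univ t) := by
  obtain ⟨k, P', -, -, h1, rfl⟩ := h
  refine comm_Lw t fun π _ => ?_
  rw [tens_mul]
  exact (tens_comm (Or.inl subset_rfl) (loc_lift Y k) π).mul_left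
    (tens_comm (Z := Yᶜ) (Or.inr disjoint_compl_left) (h1.mono fun x hx => by simpa using hx) π)

end StartA

theorem Lw_ge {N t : ℕ} (ht : DD Λ Q ≤ t) (Y : Finset Λ)
    {k : Matrix ({z // z ∈ Y} → Q) ({z // z ∈ Y} → Q) ℂ} (hk : Prj k) {r : ℝ}
    (hr : (trace k).re ≤ Real.exp r) {v : (Fin N → Λ → Q) → ℂ} (hv : tens N (lift Y k) *ᵥ v = v) :
    -(r * N) * nsq v ≤ qf (Lw Q Y Finset.univ t) v := by
  have hp := StartA.lift_prj Y hk
  have he := Real.exp_pos (-r)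
  have hm : Ps (((Real.exp (-r) : ℝ) : ℂ) • k) := ⟨RepEA.hs hk.1 _, fun v => by
    rw [qf_smul, hk.qf]; exact mul_nonneg he.le (nsq_nonneg _)⟩
  have h1 : (trace (((Real.exp (-r) : ℝ) : ℂ) • k)).re ≤ 1 := by
    rw [trace_smul, smul_eq_mul, Complex.re_ofReal_mul]
    calc _ ≤ Real.exp (-r) * Real.exp r := mul_le_mul_of_nonneg_left hr he.le
      _ = 1 := by rw [← Real.exp_add]; simp
  have h2 := om_ge (N := N) Y Finset.univ ht hm h1
  rw [StartA.tens_smul, ← Complex.ofReal_pow] at h2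
  have h3 := hlog_ge_on (om_pd Y Finset.univ ht) (tens_prj (N := N) hp)
    (comm_om t fun π _ => tens_comm (Or.inl subset_rfl) (loc_lift Y k) π) (pow_pos he N)
    (fun w hw => by
      have := h2 w
      rwa [qf_smul, (tens_prj hp).qf, hw, one_mul] at this) v hv
  rw [Real.log_pow, Real.log_exp] at h3
  calc _ = N * -r * nsq v := by ring
    _ ≤ _ := h3

theorem StartA.low {N t : ℕ} (ht : DD Λ Q ≤ t) {P : Matrix (Λ → Q) (Λ → Q) ℂ} {Y : Finset Λ}
    {r : ℝ} (h : Spl P Y r) {v : (Fin N → Λ → Q) → ℂ} (hv : tens N P *ᵥ v = v) :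
    -(r * N) * nsq v ≤ qf (Lw Q Y Finset.univ t) v := by
  obtain ⟨k, P', hk, hr, -, rfl⟩ := h
  refine Lw_ge ht Y hk hr ?_
  conv_lhs => rw [← hv]
  rw [mulVec_mulVec, ← tens_mul, ← mul_assoc, (StartA.lift_prj Y hk).2, hv]

theorem start (Λ Q : Type) [Fintype Λ] [DecidableEq Λ] [Fintype Q] [DecidableEq Q] [Nonempty Q]
    (η : ℝ) (hη : 0 < η) : ∀ᶠ δ in nhdsWithin (0 : ℝ) (Set.Ioi 0), ∀ᶠ N : ℕ in atTop,
      ∀ (θ r : ℝ) (n : ℕ) (k : ℕ → Cfg Λ) (P : Matrix (Λ → Q) (Λ → Q) ℂ) (ζ : (Λ → Q) → ℂ),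
        0 ≤ θ → (∀ j, j < n → Disjoint (k j).1 (k j).2) →
        (∀ i j, i < j → j < n → (k i).2ᶜ ⊆ (k j).1) → Prj P → P *ᵥ ζ = ζ →
        (∀ j, j < n → Spl P (k j).1 r ∧ Spl P (k j).2ᶜ r ∧ Spl P ((k j).1 ∪ (k j).2)ᶜ r) →
        qf (pr (fun j => Mb Q θ (t0 δ N) fun _ : Fin N => k j) n) (tv N ζ) ≤
          Real.exp (2 * θ * n * (2 * r + η) * N) * nsq ζ ^ N := by
  filter_upwards [prod_small 1 η hη, self_mem_nhdsWithin] with δ h1 hδ
  have hδ0 : 0 < δ := hδ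
  filter_upwards [h1, eventually_ge_atTop ⌈(DD Λ Q : ℝ) / δ⌉₊] with N h2 hN
  intro θ r n k P ζ hθ hd hk hP hζ hS
  have ht : DD Λ Q ≤ t0 δ N := by
    have a1 : (DD Λ Q : ℝ) / δ ≤ N := Nat.ceil_le.1 hN
    rw [div_le_iff₀' hδ0] at a1
    exact_mod_cast a1.trans (Nat.le_ceil _)
  have hD : 0 < DD Λ Q := Fintype.card_pos
  have ht0 : 0 < t0 δ N := hD.trans_le ht
  have ht' : DD Λ Q ≤ DD Λ Q * t0 δ N := Nat.le_mul_of_pos_right _ ht0
  rw [one_mul] at h2
  have hx : 0 < ∏ m ∈ Finset.range N, ((t0 δ N : ℝ) + m) / (m + 1) :=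
    Finset.prod_pos fun m _ => by positivity
  have e1 : qf (pr (fun j => Mb Q θ (t0 δ N) fun _ : Fin N => k j) n) (tv N ζ) =
      qf (hexp (((2 * θ : ℝ) : ℂ) • ∑ j ∈ Finset.range n, Lc Q (t0 δ N) (k j) Finset.univ))
        (tv N ζ) := by
    simp only [qf, ip, Mb_const k n ht0 hd hk (sy_tv _ ζ)]
  rw [e1, ← nsq_tv]
  refine hexp_le_on (RepEA.hs (RepE0A.herm_sum _ fun j => Lc_herm _ _) _) (tens_prj hP)
    (Commute.smul_right (Commute.sum_right _ _ _ fun j hj => ?_) _) (fun v hv => ?_) _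
    (by rw [tens_tv, hζ])
  · obtain ⟨a1, a2, a3⟩ := hS j (Finset.mem_range.1 hj)
    exact ((StartA.comm a3 _).sub_right (StartA.comm a1 _)).sub_right (StartA.comm a2 _)
  · have key : ∀ j ∈ Finset.range n,
        qf (Lc Q (t0 δ N) (k j) Finset.univ) v ≤ (2 * r + η) * N * nsq v := fun j hj => by
      obtain ⟨a1, a2, -⟩ := hS j (Finset.mem_range.1 hj)
      have b1 := StartA.low ht' a1 hv
      have b2 := StartA.low ht' a2 hv
      have b3 := om_le (N := N) ((k j).1 ∪ (k j).2)ᶜ Finset.univ ht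
      rw [Finset.card_univ, Fintype.card_fin] at b3
      have b4 := hlog_le (om_pd _ Finset.univ ht) hx b3 v
      have b5 := mul_le_mul_of_nonneg_right ((Real.log_le_iff_le_exp hx).2 h2) (nsq_nonneg v)
      rw [Lc, qf_sub, qf_sub]
      change qf (Lw Q _ _ _) v ≤ _ at b4
      linarith
    have := Finset.sum_le_sum key
    rw [Finset.sum_const, Finset.card_range, nsmul_eq_mul, ← qf_sum] at this
    rw [qf_smul]
    nlinarith [mul_le_mul_of_nonneg_left this hθ]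

end Vale.Agent.P356G
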