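import Vale.Agent.P356G.MeanT

/- STEP. Work on `n ⊕ m` with leaves `MM c = fromBlocks (M c) 0 0 (Mt c)`, `D` from `tderiv MM T`,
`Λ = val MM = fromBlocks Λ1 0 0 Λ2` (`val_blocks`), `E = fromBlocks 0 γᴴ 0 0`, `Q1`, `Q2` the block
projectors, `p = (v, 0)`, `p' = (v', 0)`, `q = (0, γ v)`.
1. Leaves: `Blk ((w/2) (Dc ⊕ 0)) (E MM - MM E) ((2 φ c / w) MM Q2)` (from `hD`, AM-GM; if `φ c = 0`
then `Dc c = 0` and the middle form vanishes). Apply `D`, evaluate at `p`, `q`: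
`-2 re <v, Λ1 γᴴ γ v> ≤ (w/2) qf (D (Dc ⊕ 0)) p` because `2 ex φ / w - 2 ≤ 0`.
2. `qf (val N) v' = qf (val (N ⊕ Mt)) p' ≤ qf (D (N ⊕ Mt)) p' = qf Λ1 v' + qf X p'`,
`X = D ((N - M) ⊕ 0)` Hermitian with `± X ≤ x Λ Q1 ≤ x hi`, so `qf X p' ≤ qf X p + x hi d (2 + d) nsq v`.
3. `qf Λ1 v' ≤ qf Λ1 v - 2 s re <v, Λ1 γᴴ γ v> + hi (2 s2 + d ^ 2) nsq v`.
4. `D ((N - M + s (w/2) Dc) ⊕ 0) ≤ D (e MM Q1) = ex e Λ Q1`; finally `lo nsq v ≤ qf Λ1 v`.
PAY: `ex_map`, `ex_bal`; upper bound by `val_am`; lower bound by `val_mono` against the leaves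
`exp (x a) M c` with `x = log (lo / hi)` on the moved leaves and `0` elsewhere, `val_smul`,
`exp y ≥ 1 + y`, `log (hi / lo) ≤ hi / lo`. -/

namespace Vale.Agent.P356G

open Matrix Vale.Agent.P356

variable {n m : Type} [Fintype n] [DecidableEq n] [Fintype m] [DecidableEq m] {α : Type}

namespace Step0A

omit [DecidableEq n] [DecidableEq m] in
theorem ipb (A : Matrix n n ℂ) (B : Matrix n m ℂ) (C : Matrix m n ℂ) (D : Matrix m m ℂ)
    (p q : n ⊕ m → ℂ) : ip p (fromBlocks A B C D) q =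
      star (p ∘ Sum.inl) ⬝ᵥ (A *ᵥ (q ∘ Sum.inl)) + star (p ∘ Sum.inl) ⬝ᵥ (B *ᵥ (q ∘ Sum.inr)) +
        (star (p ∘ Sum.inr) ⬝ᵥ (C *ᵥ (q ∘ Sum.inl)) +
          star (p ∘ Sum.inr) ⬝ᵥ (D *ᵥ (q ∘ Sum.inr))) := by
  rw [ip, fromBlocks_mulVec, ← dotProduct_add, ← dotProduct_add]
  simp only [dotProduct, Fintype.sum_sum_type, Sum.elim_inl, Sum.elim_inr, Pi.star_apply,
    Function.comp_apply]

omit [DecidableEq n] [DecidableEq m] in
theorem qfd (A : Matrix n n ℂ) (B : Matrix m m ℂ) (p : n ⊕ m → ℂ) :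
    qf (fromBlocks A 0 0 B) p = qf A (p ∘ Sum.inl) + qf B (p ∘ Sum.inr) := by
  simp only [qf]
  rw [ipb]
  simp only [zero_mulVec, dotProduct_zero, add_zero, zero_add, Complex.add_re, ip]

omit [DecidableEq n] [DecidableEq m] in
theorem qf11 (Z : Matrix (n ⊕ m) (n ⊕ m) ℂ) (u : n → ℂ) :
    qf Z.toBlocks₁₁ u = qf Z (Sum.elim u 0) := by
  conv_rhs => rw [← fromBlocks_toBlocks Z]
  simp only [qf]
  rw [ipb]
  simp only [Sum.elim_comp_inl, Sum.elim_comp_inr, mulVec_zero, dotProduct_zero, add_zero,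
    star_zero, zero_dotProduct, ip]

omit [DecidableEq n] in
theorem qf0 (A : Matrix n n ℂ) : qf A 0 = 0 := by
  simp [qf, ip]

omit [Fintype n] [DecidableEq n] [Fintype m] [DecidableEq m] in
theorem hd {A : Matrix n n ℂ} {B : Matrix m m ℂ} (hA : A.IsHermitian) (hB : B.IsHermitian) :
    (fromBlocks A 0 0 B).IsHermitian :=
  IsHermitian.fromBlocks hA conjTranspose_zero hB

omit [Fintype n] [DecidableEq n] in
theorem hs {A : Matrix n n ℂ} (hA : A.IsHermitian) (x : ℝ) : ((x : ℂ) • A).IsHermitian := by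
  rw [IsHermitian, conjTranspose_smul, hA.eq, Complex.star_def, Complex.conj_ofReal]

theorem core (T : Tr α) (M : α → Matrix n n ℂ) (Mt : α → Matrix m m ℂ)
    (hM : T.All fun c => Pd (M c)) (hMt : T.All fun c => Pd (Mt c)) :
    ∃ D : (α → Matrix n n ℂ) →ₗ[ℂ] Matrix n n ℂ,
      (∀ X : α → Matrix n n ℂ, (T.All fun a => (X a).IsHermitian) → (D X).IsHermitian) ∧
      (∀ (ψ : α → ℝ) (Y : α → Matrix n n ℂ),
        (T.All fun a => (Y a).IsHermitian ∧ ∀ u, qf (Y a) u ≤ ψ a * qf (M a) u) →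
        ∀ u, qf (D Y) u ≤ T.ex ψ * qf (T.val M) u) ∧
      (∀ N : α → Matrix n n ℂ, (T.All fun a => Pd (N a)) →
        ∀ u, qf (T.val N) u ≤ qf (T.val M) u + qf (D (N - M)) u) ∧
      ∀ (γ : Matrix m n ℂ) (ψ : α → ℝ) (Y : α → Matrix n n ℂ),
        (T.All fun a => (Y a).IsHermitian ∧ ∀ u v,
          2 * (star v ⬝ᵥ ((γᴴ * Mt a - M a * γᴴ) *ᵥ u)).re ≤ qf (Y a) v + ψ a * qf (Mt a) u) →
        T.ex ψ ≤ 2 → ∀ v, -2 * (ip v (T.val M) ((γᴴ * γ) *ᵥ v)).re ≤ qf (D Y) v := by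
  have hMM := hM.and hMt
  obtain ⟨D, d1, d2, d3, d4, d5, d6⟩ := tderiv (fun a => fromBlocks (M a) 0 0 (Mt a)) T
    (hMM.mono fun a h => pd_blocks h.1 h.2)
  rw [Tr.val_blocks hM hMt] at d3 d4 d5
  have pos : ∀ P : α → Matrix (n ⊕ m) (n ⊕ m) ℂ,
      (T.All fun a => (P a).IsHermitian ∧ ∀ p, 0 ≤ qf (P a) p) → ∀ p, 0 ≤ qf (D P) p := by
    intro P h p
    have := d2 P 0 0 (h.mono fun a h => ⟨h.1, isHermitian_zero, fun p q => by
      simpa [ip, qf_zero] using h.2 p⟩) p p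
    simpa [ip, qf_zero] using this
  refine ⟨{ toFun := fun Y => (D fun a => fromBlocks (Y a) 0 0 0).toBlocks₁₁
            map_add' := fun Y Y' => ?_
            map_smul' := fun c Y => ?_ }, fun X h => ?_, fun ψ Y h u => ?_, fun N h u => ?_,
    fun γ ψ Y h h2 v => ?_⟩
  · have e : (fun a => fromBlocks ((Y + Y') a) 0 0 0 : α → Matrix (n ⊕ m) (n ⊕ m) ℂ) =
        (fun a => fromBlocks (Y a) 0 0 0) + fun a => fromBlocks (Y' a) 0 0 0 := by
      funext a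
      simp [fromBlocks_add]
    rw [e, map_add]
    rfl
  · have e : (fun a => fromBlocks ((c • Y) a) 0 0 0 : α → Matrix (n ⊕ m) (n ⊕ m) ℂ) =
        c • fun a => fromBlocks (Y a) 0 0 0 := by
      funext a
      simp [fromBlocks_smul]
    rw [e, map_smul]
    rfl
  · exact (d1 _ (h.mono fun a h => hd h isHermitian_zero)).submatrix Sum.inl
  · change qf (D fun a => fromBlocks (Y a) 0 0 0).toBlocks₁₁ u ≤ _
    have e5 := d5 ψ (fromBlocks 1 0 0 0) (T.all_of fun a => by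
      simp [Commute, SemiconjBy, fromBlocks_multiply])
    simp only [fromBlocks_multiply, Matrix.mul_one, Matrix.mul_zero, add_zero] at e5
    have := pos ((fun a => (ψ a : ℂ) • fromBlocks (M a) 0 0 0) - fun a => fromBlocks (Y a) 0 0 0)
      ((h.and hM).mono fun a h => ⟨(hs (hd h.2.1 isHermitian_zero) _).sub
        (hd h.1.1 isHermitian_zero), fun p => by
          rw [Pi.sub_apply, qf_sub, qf_smul, qfd, qfd, qf_zero, add_zero, add_zero, sub_nonneg]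
          exact h.1.2 _⟩) (Sum.elim u 0)
    rw [map_sub, e5, qf_sub, qf_smul, qfd, qf_zero, add_zero, Sum.elim_comp_inl] at this
    rw [qf11]
    linarith
  · change _ ≤ _ + qf (D fun a => fromBlocks ((N - M) a) 0 0 0).toBlocks₁₁ u
    have a1 := d6 (fun a => fromBlocks (N a) 0 0 (Mt a))
      ((h.and hMt).mono fun a h => pd_blocks h.1 h.2) (Sum.elim u 0)
    have e : (fun a => fromBlocks (N a) 0 0 (Mt a) : α → Matrix (n ⊕ m) (n ⊕ m) ℂ) =
        (fun a => fromBlocks (M a) 0 0 (Mt a) * 1) + fun a => fromBlocks ((N - M) a) 0 0 0 := by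
      funext a
      simp [fromBlocks_add]
    rw [Tr.val_blocks h hMt, e, map_add, d3, Matrix.mul_one, qf_add, qfd, qfd, Sum.elim_comp_inl,
      Sum.elim_comp_inr, qf0, add_zero, add_zero, one_mul] at a1
    rwa [qf11]
  · change _ ≤ qf (D fun a => fromBlocks (Y a) 0 0 0).toBlocks₁₁ v
    have e5 := d5 ψ (fromBlocks 0 0 0 1) (T.all_of fun a => by
      simp [Commute, SemiconjBy, fromBlocks_multiply])
    have e3 := d3 (fromBlocks 0 γᴴ 0 0)
    have e4 := d4 (fromBlocks 0 γᴴ 0 0)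
    simp only [fromBlocks_multiply, Matrix.mul_one, Matrix.mul_zero, add_zero, zero_add,
      Matrix.zero_mul] at e3 e4 e5
    have a1 := d2 (fun a => fromBlocks (Y a) 0 0 0)
      ((fun a => fromBlocks 0 (γᴴ * Mt a) 0 0) - fun a => fromBlocks 0 (M a * γᴴ) 0 0)
      (fun a => (ψ a : ℂ) • fromBlocks 0 0 0 (Mt a))
      ((h.and hMt).mono fun a h => ⟨hd h.1.1 isHermitian_zero,
        hs (hd isHermitian_zero h.2.1) _, fun p q => by
          have e : ((fun a => fromBlocks 0 (γᴴ * Mt a) 0 0) -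
              fun a => fromBlocks 0 (M a * γᴴ) 0 0 : α → Matrix (n ⊕ m) (n ⊕ m) ℂ) a =
              fromBlocks 0 (γᴴ * Mt a - M a * γᴴ) 0 0 := by
            simp [sub_eq_add_neg, fromBlocks_neg, fromBlocks_add]
          rw [e, ipb, qf_smul, qfd, qfd, qf_zero, qf_zero]
          simpa only [zero_mulVec, dotProduct_zero, add_zero, zero_add] using h.1.2 _ _⟩)
      (Sum.elim v 0) (Sum.elim 0 (γ *ᵥ v))
    have e : (fromBlocks 0 (γᴴ * T.val Mt) 0 0 - fromBlocks 0 (T.val M * γᴴ) 0 0 :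
        Matrix (n ⊕ m) (n ⊕ m) ℂ) = fromBlocks 0 (γᴴ * T.val Mt - T.val M * γᴴ) 0 0 := by
      simp [sub_eq_add_neg, fromBlocks_neg, fromBlocks_add]
    rw [map_sub, e3, e4, e5, e, ipb, qf_smul, qfd, qf_zero] at a1
    simp only [zero_mulVec, dotProduct_zero, add_zero, zero_add, Sum.elim_comp_inl,
      Sum.elim_comp_inr, sub_mulVec, dotProduct_sub, Complex.sub_re] at a1
    have b1 : (star v ⬝ᵥ ((γᴴ * T.val Mt) *ᵥ (γ *ᵥ v))).re = qf (T.val Mt) (γ *ᵥ v) := by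
      rw [← qf_conj, mulVec_mulVec]
      rfl
    have b2 : star v ⬝ᵥ ((T.val M * γᴴ) *ᵥ (γ *ᵥ v)) = ip v (T.val M) ((γᴴ * γ) *ᵥ v) := by
      rw [ip, mulVec_mulVec, mulVec_mulVec, Matrix.mul_assoc]
    have b3 := (Tr.val_pd hMt).ps.2 (γ *ᵥ v)
    rw [b1, b2] at a1
    rw [qf11]
    nlinarith

omit [DecidableEq n] [DecidableEq m] in
theorem leaf {M Dc : Matrix n n ℂ} {Mt : Matrix m m ℂ} {γ : Matrix m n ℂ} {φ w : ℝ} (hw : 0 < w)
    (hM : M.IsHermitian) (hMt : Mt.IsHermitian) (p1 : ∀ u, 0 ≤ qf Mt u) (p2 : ∀ v, 0 ≤ qf Dc v)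
    (hφ : φ = 1 ∨ (φ = 0 ∧ Dc = 0))
    (h : ∀ u v, ‖star u ⬝ᵥ ((Mt * γ - γ * M) *ᵥ v)‖ ^ 2 ≤ qf Mt u * qf Dc v) (u : m → ℂ)
    (v : n → ℂ) : 2 * (star v ⬝ᵥ ((γᴴ * Mt - M * γᴴ) *ᵥ u)).re ≤
      qf (((w / 2 : ℝ) : ℂ) • Dc) v + 2 / w * φ * qf Mt u := by
  have e : star v ⬝ᵥ ((γᴴ * Mt - M * γᴴ) *ᵥ u) = star (star u ⬝ᵥ ((Mt * γ - γ * M) *ᵥ v)) := by
    rw [dot_star, dot_mulVec, conjTranspose_sub, conjTranspose_mul, conjTranspose_mul,
      conjTranspose_conjTranspose, hM.eq, hMt.eq]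
  have h1 := h u v
  have h2 : (star (star u ⬝ᵥ ((Mt * γ - γ * M) *ᵥ v))).re ≤
      ‖star u ⬝ᵥ ((Mt * γ - γ * M) *ᵥ v)‖ := by
    rw [← norm_star]
    exact Complex.re_le_norm _
  rw [e, qf_smul]
  have h0 := norm_nonneg (star u ⬝ᵥ ((Mt * γ - γ * M) *ᵥ v))
  generalize ‖star u ⬝ᵥ ((Mt * γ - γ * M) *ᵥ v)‖ = t at h0 h1 h2
  rcases hφ with rfl | ⟨rfl, rfl⟩
  · have a := p1 u
    have b := p2 v
    have c : 2 * t ≤ w / 2 * qf Dc v + 2 / w * 1 * qf Mt u := by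
      refine abs_le_of_sq_le_sq' ?_ (by positivity) |>.2
      have e2 : (w / 2 * qf Dc v) * (2 / w * 1 * qf Mt u) = qf Mt u * qf Dc v := by
        field_simp
      nlinarith [sq_nonneg (w / 2 * qf Dc v - 2 / w * 1 * qf Mt u)]
    linarith
  · rw [qf_zero] at h1 ⊢
    nlinarith

end Step0A

theorem step (T : Tr α) (M N Dc : α → Matrix n n ℂ) (Mt : α → Matrix m m ℂ) (γ : Matrix m n ℂ)
    (φ e : α → ℝ) (w s s2 g x d lo hi : ℝ) (hlo : 0 < lo) (hw : 0 < w) (hs : 0 ≤ s) (hx : 0 ≤ x)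
    (hs2 : 0 ≤ s2) (hg0 : 0 ≤ g) (hg : Bd (γᴴ * γ) g) (hd : s * g + s2 ≤ d) (hφ : T.ex φ ≤ w)
    (hM : T.All fun c => SpIn (M c) lo hi ∧ Pd (N c) ∧ Pd (Mt c) ∧ Ps (Dc c))
    (hφ1 : T.All fun c => φ c = 1 ∨ (φ c = 0 ∧ Dc c = 0))
    (hD : T.All fun c => ∀ u v, ‖star u ⬝ᵥ ((Mt c * γ - γ * M c) *ᵥ v)‖ ^ 2 ≤
      qf (Mt c) u * qf (Dc c) v)
    (hN : T.All fun c => ∀ v, |qf (N c) v - qf (M c) v| ≤ x * qf (M c) v)
    (he : T.All fun c => ∀ v, qf (N c) v + s * (w / 2) * qf (Dc c) v ≤ (1 + e c) * qf (M c) v)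
    (v v' : n → ℂ) (hv : nr (v' - (v - (s : ℂ) • ((γᴴ * γ) *ᵥ v))) ≤ s2 * nr v) :
    qf (T.val N) v' ≤
      (1 + T.ex e + hi / lo * (2 * s2 + d ^ 2 + x * d * (2 + d))) * qf (T.val M) v := by
  have hM1 : T.All fun c => Pd (M c) := hM.mono fun c h => h.1.pd hlo
  have hΛ : SpIn (T.val M) lo hi := Tr.val_spIn hlo (hM.mono fun c h => h.1)
  have hnv := nr_nonneg v
  have hd0 : 0 ≤ d := le_trans (by positivity) hd
  have hδ : nr (v' - v) ≤ d * nr v := by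
    have e1 : v' - v = (v' - (v - (s : ℂ) • ((γᴴ * γ) *ᵥ v))) - (s : ℂ) • ((γᴴ * γ) *ᵥ v) := by
      abel
    have e2 := nr_sub (v' - (v - (s : ℂ) • ((γᴴ * γ) *ᵥ v))) ((s : ℂ) • ((γᴴ * γ) *ᵥ v))
    rw [← e1, nr_smul, Complex.norm_real, Real.norm_of_nonneg hs] at e2
    have e3 := mul_le_mul_of_nonneg_left (hg v) hs
    have e4 := mul_le_mul_of_nonneg_right hd hnv
    nlinarith
  by_cases hv0 : v = 0
  · subst hv0
    rw [nr_zero, mul_zero, sub_zero] at hδ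
    have : v' = 0 := eq_zero_of_nsq _ (by
      rw [← nr_sq, le_antisymm hδ (nr_nonneg _)]
      simp)
    rw [this, Step0A.qf0, Step0A.qf0, mul_zero]
  have hv1 : 0 < nsq v := lt_of_le_of_ne (nsq_nonneg v) fun h => hv0 (eq_zero_of_nsq v h.symm)
  have hhi : 0 ≤ hi := by
    have := (hΛ.2 v).1.trans (hΛ.2 v).2
    exact hlo.le.trans (le_of_mul_le_mul_right this hv1)
  obtain ⟨D, d1, d2, d3, d4⟩ := Step0A.core T M Mt hM1 (hM.mono fun c h => h.2.2.1)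
  have hH : T.All fun a => ((N - M) a).IsHermitian := hM.mono fun c h => h.2.1.1.sub h.1.1
  have hX := d1 _ hH
  have bX : Bd (D (N - M)) (x * hi) := bd_of_qf hX fun u => by
    have a1 := d2 (fun _ => x) (N - M) ((hH.and hN).mono fun c h => ⟨h.1, fun u => by
      rw [Pi.sub_apply, qf_sub]
      exact (abs_le.1 (h.2 u)).2⟩) u
    have a2 := d2 (fun _ => x) (-(N - M)) ((hH.and hN).mono fun c h => ⟨h.1.neg, fun u => by
      rw [Pi.neg_apply, qf_neg, Pi.sub_apply, qf_sub]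
      exact neg_le.1 (abs_le.1 (h.2 u)).1⟩) u
    rw [map_neg, qf_neg] at a2
    rw [Tr.ex_const] at a1 a2
    have a3 := mul_le_mul_of_nonneg_left (hΛ.2 u).2 hx
    rw [abs_le]
    constructor <;> nlinarith
  have bΛ : Bd (T.val M) hi := hΛ.bd hlo.le
  have c1 := d3 N (hM.mono fun c h => h.2.1) v'
  have c2 := d4 γ (fun c => 2 / w * φ c) (((w / 2 : ℝ) : ℂ) • Dc)
    (((hM.and hφ1).and hD).mono fun c h => ⟨Step0A.hs h.1.1.2.2.2.1 _, fun u v =>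
      Step0A.leaf hw h.1.1.1.1 h.1.1.2.2.1.1 h.1.1.2.2.1.ps.2 h.1.1.2.2.2.2 h.1.2 h.2 u v⟩) (by
      rw [Tr.ex_mul, div_mul_eq_mul_div, div_le_iff₀ hw]
      linarith) v
  have c3 := d2 e (N - M + (s : ℂ) • ((w / 2 : ℝ) : ℂ) • Dc)
    (((hM.and hH).and he).mono fun c h => ⟨h.1.2.add
      (Step0A.hs (Step0A.hs h.1.1.2.2.2.1 _) _), fun u => by
        rw [Pi.add_apply, Pi.smul_apply, Pi.smul_apply, qf_add, qf_smul, qf_smul, Pi.sub_apply,
          qf_sub]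
        have := h.2 u
        linarith⟩) v
  rw [map_add, map_smul, qf_add, qf_smul] at c3
  have hsq : nsq (v' - v) ≤ d ^ 2 * nsq v := (nr_le_iff _ _ hd0).1 hδ
  have hvv : nr v * nr v = nsq v := by rw [← nr_sq, sq]
  have e0 : v' = v + (v' - v) := by abel
  have c4 : qf (D (N - M)) v' ≤ qf (D (N - M)) v + hi * (x * d * (2 + d)) * nsq v := by
    have a1 := qf_vadd hX v (v' - v)
    rw [← e0] at a1
    have a2 := (abs_le.1 (bX.qf (v' - v))).2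
    have a3 := (Complex.re_le_norm _).trans (bX.ip v (v' - v))
    have a0 : 0 ≤ x * hi := mul_nonneg hx hhi
    have a4 := mul_le_mul_of_nonneg_left hsq a0
    have a5 := mul_le_mul_of_nonneg_left (mul_le_mul_of_nonneg_left hδ hnv) a0
    have a6 : x * hi * (nr v * (d * nr v)) = x * hi * d * nsq v := by
      rw [← hvv]
      ring
    nlinarith
  have c5 : qf (T.val M) v' ≤ qf (T.val M) v - 2 * s * (ip v (T.val M) ((γᴴ * γ) *ᵥ v)).re +
      hi * (2 * s2 + d ^ 2) * nsq v := by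
    have a1 := qf_vadd hΛ.1 v (v' - v)
    rw [← e0] at a1
    have a2 := (hΛ.2 (v' - v)).2
    have a3 := (Complex.re_le_norm _).trans (bΛ.ip v (v' - (v - (s : ℂ) • ((γᴴ * γ) *ᵥ v))))
    have a4 := mul_le_mul_of_nonneg_left hsq hhi
    have a5 := mul_le_mul_of_nonneg_left (mul_le_mul_of_nonneg_left hv hnv) hhi
    have a6 : hi * (nr v * (s2 * nr v)) = hi * s2 * nsq v := by
      rw [← hvv]
      ring
    have a7 : (ip v (T.val M) (v' - (v - (s : ℂ) • ((γᴴ * γ) *ᵥ v)))).re =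
        (ip v (T.val M) (v' - v)).re + s * (ip v (T.val M) ((γᴴ * γ) *ᵥ v)).re := by
      rw [← sub_add, ip, mulVec_add, mulVec_smul, dotProduct_add, dotProduct_smul, Complex.add_re,
        smul_eq_mul, Complex.re_ofReal_mul]
      rfl
    nlinarith
  have c6 : hi * (2 * s2 + d ^ 2 + x * d * (2 + d)) * nsq v ≤
      hi / lo * (2 * s2 + d ^ 2 + x * d * (2 + d)) * qf (T.val M) v := by
    have a1 := mul_le_mul_of_nonneg_left (hΛ.2 v).1
      (show 0 ≤ hi / lo * (2 * s2 + d ^ 2 + x * d * (2 + d)) by positivity)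
    refine le_trans (le_of_eq ?_) a1
    field_simp
  have c7 := mul_le_mul_of_nonneg_left c2 hs
  nlinarith

end Vale.Agent.P356G
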