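import Vale.Agent.P356G.D2
import Vale.Agent.P356G.End

/- Large deviations of the logarithm of the universal weight in a product vector. Reuse the auxiliary
lemmas of End0.lean and End.lean. `ρ = rho Y ξ`, `d` the dimension of `Y`, `m = (1 - y) ρ + y / d`,
`T = tens (lift m)` commutes with `om = om Y univ t`, `T ≤ om` (`om_ge`). Use `joint` for `om`, `T` (or for
their logarithms) and `hf_fn` to turn pointwise inequalities into operator inequalities.
`tail_lo` (`y = 1/2`): `ind x (- log a) ≤ exp (- s x) a ^ (-s) ≤ exp (- s x) b ^ (-s)` for `b ≤ a`, and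
`qf (cpw T (-s)) (tv ξ) = (∑ l * m(l) ^ (-s)) ^ N ≤ (2 * mo (1 - s)) ^ N` (`cpw T = tens (cpw ..)` by
`hlog_tens`, `hexp_sum_one`, `tens_tv`, `dot_tv`).
`tail_hi` (`y ≤ 1/2` with `(y / d) ^ s ≤ exp (- s S + v)`): if `x1 + x2 < log a` then
`1 ≤ exp (- x1) a / b + exp (- s x2) b ^ s` with `x1 = x N / 2`; `qf (om T⁻¹) (tv ξ) ≤ 2 ^ N ∏ ..` as in
`Lw_hi` (`om_exp`), and `∑ l * m(l) ^ s ≤ mo (1 + s) + (y / d) ^ s` (`Real.rpow_add_le_add_rpow`). -/

namespace Vale.Agent.P356G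

open Matrix Vale.Agent.P356

variable {Λ Q : Type} [Fintype Λ] [DecidableEq Λ] [Fintype Q] [DecidableEq Q] [Nonempty Q]

theorem dot_tv (N : ℕ) (u w : (Λ → Q) → ℂ) : star (tv N u) ⬝ᵥ tv N w = (star u ⬝ᵥ w) ^ N := by
  have h := Fintype.prod_sum fun (_ : Fin N) (a : Λ → Q) => star (u a) * w a
  rw [Finset.prod_const, Finset.card_univ, Fintype.card_fin] at h
  simp only [dotProduct, Pi.star_apply, tv, h, star_prod, Finset.prod_mul_distrib]

namespace TailA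

variable {Y : Finset Λ} {V0 : Matrix ({z // z ∈ Y} → Q) ({z // z ∈ Y} → Q) ℂ}

theorem qf_tens (N : ℕ) {O : Matrix (Λ → Q) (Λ → Q) ℂ} (hO : O.IsHermitian) (ξ : (Λ → Q) → ℂ) :
    qf (tens N O) (tv N ξ) = qf O ξ ^ N := by
  have h : ip (tv N ξ) (tens N O) (tv N ξ) = ((qf O ξ ^ N : ℝ) : ℂ) := by
    rw [ip, tens_tv, dot_tv, Complex.ofReal_pow, ← ip_herm hO, ip]
  rw [qf, h, Complex.ofReal_re]

omit [Nonempty Q] in
theorem cpw_tens (N : ℕ) {M : Matrix (Λ → Q) (Λ → Q) ℂ} (hM : Pd M) (x : ℝ) :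
    cpw (tens N M) x = tens N (cpw M x) := by
  have hL : ((x : ℂ) • hlog M).IsHermitian := by
    unfold Matrix.IsHermitian
    rw [conjTranspose_smul, (hlog_herm M).eq, Complex.star_def, Complex.conj_ofReal]
  rw [← hexp_smul_log (tens_pd hM).1, hlog_tens hM, Finset.smul_sum, ← hexp_smul_log hM.1,
    ← hexp_sum_one hL]
  simp only [one_smul']

theorem cpw_fr {n : Type} [Fintype n] [DecidableEq n] {V : Matrix n n ℂ} (hV : V * Vᴴ = 1)
    (b : n → ℝ) (x : ℝ) : cpw (fr V b) x = fr V fun i => Real.exp (x * Real.log (b i)) := by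
  rw [FunB0A.real, hf_fn hV]
  rfl

omit [Nonempty Q] in
theorem F_cpw (hV : V0 * V0ᴴ = 1) (g : ({z // z ∈ Y} → Q) → ℝ) (x : ℝ) :
    cpw (lift Y (fr V0 g)) x = lift Y (fr V0 fun i => Real.exp (x * Real.log (g i))) := by
  rw [← fr_lift, ← fr_lift, cpw_fr (EndA.lift_uni hV)]

omit [Nonempty Q] in
theorem F_pd (hV : V0 * V0ᴴ = 1) {g : ({z // z ∈ Y} → Q) → ℝ} (hg : ∀ i, 0 < g i) :
    Pd (lift Y (fr V0 g)) := by
  rw [← fr_lift]
  exact End0A.pd_fr (EndA.lift_uni hV) fun s => hg _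

/-- the moments of the tensor power of a function of the marginal -/
theorem qf_cpw (N : ℕ) (hV : V0 * V0ᴴ = 1) {ξ : (Λ → Q) → ℂ} {l g : ({z // z ∈ Y} → Q) → ℝ}
    (hl : rho Y ξ = fr V0 l) (hg : ∀ i, 0 < g i) (x : ℝ) :
    qf (cpw (tens N (lift Y (fr V0 g))) x) (tv N ξ) =
      (∑ i, Real.exp (x * Real.log (g i)) * l i) ^ N := by
  rw [cpw_tens N (F_pd hV hg), qf_tens N (cpw_herm _ x), F_cpw hV, EndA.F_qf hV hl]

theorem F_ge {N t : ℕ} (ht : DD Λ Q ≤ t) (hV : V0 * V0ᴴ = 1) {g : ({z // z ∈ Y} → Q) → ℝ}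
    (hg : ∀ i, 0 ≤ g i) (h1 : ∑ i, g i ≤ 1) :
    Le (tens N (lift Y (fr V0 g))) 1 (om Q Y (Finset.univ : Finset (Fin N)) t) := by
  have h := om_ge Y (Finset.univ : Finset (Fin N)) ht (End0A.ps_fr V0 hg)
    (by rw [ent_trace_fr hV, Complex.ofReal_re]; exact h1)
  simp only [Finset.mem_univ, if_true] at h
  rwa [tens_eq]

theorem basis (Y : Finset Λ) {ξ : (Λ → Q) → ℂ} (hξ : nsq ξ = 1) :
    ∃ V0 : Matrix ({z // z ∈ Y} → Q) ({z // z ∈ Y} → Q) ℂ, V0 * V0ᴴ = 1 ∧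
      rho Y ξ = fr V0 (rho_herm Y ξ).eigenvalues ∧ (∀ i, 0 ≤ (rho_herm Y ξ).eigenvalues i) ∧
      ∑ i, (rho_herm Y ξ).eigenvalues i = 1 := by
  obtain ⟨V0, hV, h1⟩ := herm_spec (rho_herm Y ξ)
  refine ⟨V0, hV, h1, eig_nonneg hV (amp Y ξ) _ ((rho_amp Y ξ).symm.trans h1), ?_⟩
  have h2 := trace_rho Y ξ
  rw [hξ] at h2
  have h3 := (ent_trace_fr hV _).symm.trans ((congrArg trace h1).symm.trans h2)
  exact_mod_cast h3

theorem ind_le {X s a b : ℝ} (hs : 0 < s) (hb : 0 < b) (hab : b ≤ a) :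
    ‖ind X (-Real.log a)‖ ^ 2 ≤ Real.exp (-(s * X)) * Real.exp (-s * Real.log b) := by
  rw [← Real.exp_add]
  unfold ind
  split_ifs with h
  · rw [norm_one, one_pow]
    have h1 := Real.log_le_log hb hab
    have h2 : 0 ≤ s * (-Real.log b - X) := mul_nonneg hs.le (by linarith)
    exact Real.one_le_exp (by linarith)
  · rw [norm_zero, zero_pow two_ne_zero]
    exact (Real.exp_pos _).le

theorem main {n : Type} [Fintype n] [DecidableEq n] {A B : Matrix n n ℂ} (hA : Pd A) (hB : Pd B)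
    (hc : Commute A B) (hle : Le B 1 A) {s : ℝ} (hs : 0 < s) (X : ℝ) (v : n → ℂ) :
    nsq (hf (-hlog A) (ind X) *ᵥ v) ≤ Real.exp (-(s * X)) * qf (cpw B ((-s : ℝ) : ℂ)) v := by
  obtain ⟨V, a, b, hV, rfl, rfl⟩ := joint hA.1 hB.1 hc
  have e1 : -hlog (fr V a) = fr V fun i => -Real.log (a i) := by
    rw [hlog, hf_fn hV, ← neg_one_smul ℂ, ← fn_smul, fr]
    exact congrArg _ (funext fun i => by push_cast; ring)
  rw [e1, hf_fn hV, FunA.nsq_fn hV, cpw_fr hV, FunA.qf_fr, Finset.mul_sum]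
  refine Finset.sum_le_sum fun i _ => ?_
  have h1 := hle (V *ᵥ Pi.single i 1)
  rw [one_mul, (FunBA.test hV i).2, (FunBA.test hV i).2] at h1
  have h2 := mul_le_mul_of_nonneg_left (ind_le (X := X) hs (FunBA.pos hV hB i) h1)
    (sq_nonneg ‖(Vᴴ *ᵥ v) i‖)
  linarith

theorem pt {l m s : ℝ} (hl : 0 ≤ l) (hm : 0 < m) (h : l / 2 ≤ m) (hs : 0 < s) (hs1 : s < 1) :
    Real.exp (-s * Real.log m) * l ≤ 2 * l ^ (1 - s) := by
  rcases hl.eq_or_lt with rfl | hl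
  · rw [mul_zero]
    exact mul_nonneg zero_le_two (Real.rpow_nonneg le_rfl _)
  · have h1 : Real.log l - Real.log 2 ≤ Real.log m := by
      rw [← Real.log_div hl.ne' two_ne_zero]
      exact Real.log_le_log (by positivity) h
    have h2 : 0 < Real.log 2 := Real.log_pos one_lt_two
    have e1 : Real.exp (-s * Real.log m) * l = Real.exp (-s * Real.log m + Real.log l) := by
      rw [Real.exp_add, Real.exp_log hl]
    have e2 : 2 * l ^ (1 - s) = Real.exp (Real.log 2 + Real.log l * (1 - s)) := by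
      rw [Real.exp_add, Real.exp_log two_pos, Real.rpow_def_of_pos hl]
    rw [e1, e2]
    refine Real.exp_le_exp.2 ?_
    nlinarith

end TailA

theorem tail_lo {N t : ℕ} (ht : DD Λ Q ≤ t) (Y : Finset Λ) {ξ : (Λ → Q) → ℂ} (hξ : nsq ξ = 1)
    {s v : ℝ} (hs : 0 < s) (hs1 : s < 1) (h : Mom Y ξ s v) (x : ℝ) :
    nsq (hf (-Lw Q Y Finset.univ t) (ind ((entropy Y ξ + x) * N)) *ᵥ tv N ξ) ≤
      Real.exp (-((s * x - v - 1) * N)) := by
  obtain ⟨V0, hV, hl, hl0, hl1⟩ := TailA.basis Y hξ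
  have hmo : mo Y ξ (1 - s) = ∑ i, (rho_herm Y ξ).eigenvalues i ^ (1 - s) := rfl
  generalize (rho_herm Y ξ).eigenvalues = l at hl hl0 hl1 hmo
  have hd0 : (0 : ℝ) < Fintype.card ({z // z ∈ Y} → Q) := by exact_mod_cast Fintype.card_pos
  obtain ⟨c, hc0, hc⟩ : ∃ c : ℝ, 0 < c ∧ (Fintype.card ({z // z ∈ Y} → Q) : ℝ) * c = 1 / 2 :=
    ⟨1 / 2 / Fintype.card ({z // z ∈ Y} → Q), by positivity, by field_simp⟩
  have hg : ∀ i, 0 < l i / 2 + c := fun i => by
    have := hl0 i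
    linarith
  have hg1 : ∑ i, (l i / 2 + c) ≤ 1 := by
    rw [Finset.sum_add_distrib, ← Finset.sum_div, hl1, Finset.sum_const, Finset.card_univ,
      nsmul_eq_mul, hc]
    norm_num
  have h1 := TailA.main (om_pd Y (Finset.univ : Finset (Fin N)) ht) (tens_pd (TailA.F_pd hV hg))
    (EndA.F_comm _ t).symm (TailA.F_ge ht hV (fun i => (hg i).le) hg1) hs
    ((entropy Y ξ + x) * N) (tv N ξ)
  rw [TailA.qf_cpw N hV hl hg] at h1
  have h2 : ∑ i, Real.exp (-s * Real.log (l i / 2 + c)) * l i ≤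
      Real.exp (1 + (s * entropy Y ξ + v)) := by
    have h3 : ∑ i, Real.exp (-s * Real.log (l i / 2 + c)) * l i ≤ 2 * mo Y ξ (1 - s) := by
      rw [hmo, Finset.mul_sum]
      exact Finset.sum_le_sum fun i _ => TailA.pt (hl0 i) (hg i) (by linarith) hs hs1
    have h4 : (2 : ℝ) ≤ Real.exp 1 := by
      have := Real.add_one_le_exp 1
      linarith
    have h5 := h.2
    have h6 := Real.exp_pos (s * entropy Y ξ + v)
    rw [Real.exp_add]
    nlinarith
  have h7 : (∑ i, Real.exp (-s * Real.log (l i / 2 + c)) * l i) ^ N ≤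
      Real.exp (N * (1 + (s * entropy Y ξ + v))) := by
    rw [Real.exp_nat_mul]
    exact pow_le_pow_left₀
      (Finset.sum_nonneg fun i _ => mul_nonneg (Real.exp_pos _).le (hl0 i)) h2 N
  refine h1.trans ((mul_le_mul_of_nonneg_left h7 (Real.exp_pos _).le).trans (le_of_eq ?_))
  rw [← Real.exp_add]
  exact congrArg Real.exp (by ring)

end Vale.Agent.P356G
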