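import Vale.Agent.P356G.Tail

/- See the header of Tail.lean, paragraph `tail_hi`. -/

namespace Vale.Agent.P356G

open Matrix Vale.Agent.P356

variable {Λ Q : Type} [Fintype Λ] [DecidableEq Λ] [Fintype Q] [DecidableEq Q] [Nonempty Q]

namespace TailHA

section
variable {n : Type} [Fintype n] [DecidableEq n]

theorem pos_of_pd {V : Matrix n n ℂ} (hV : V * Vᴴ = 1) {a : n → ℝ} (h : Pd (fr V a)) (i : n) :
    0 < a i := by
  have e : Vᴴ *ᵥ (V *ᵥ Pi.single i 1) = Pi.single i 1 := by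
    rw [mulVec_mulVec, uni_symm hV, one_mulVec]
  have h1 := h.2 (V *ᵥ Pi.single i 1) fun h0 => by
    rw [h0, mulVec_zero] at e
    simpa using congrFun e i
  rw [End0A.qf_fr, e, Finset.sum_eq_single i (fun j _ hj => by simp [hj]) (by simp)] at h1
  simpa using h1

theorem point {a b s x1 x2 : ℝ} (ha : 0 < a) (hb : 0 < b) (hs : 0 < s) (h : x1 + x2 < Real.log a) :
    1 ≤ Real.exp (-x1) * (a * b ^ (-1 : ℝ)) + Real.exp (-(s * x2)) * b ^ s := by
  have e1 : Real.exp (-x1) * (a * b ^ (-1 : ℝ)) = Real.exp (Real.log a - Real.log b - x1) := by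
    rw [Real.rpow_neg_one, sub_eq_add_neg, Real.exp_add, Real.exp_sub, Real.exp_log ha,
      Real.exp_log hb, mul_comm, div_eq_mul_inv]
  have e2 : Real.exp (-(s * x2)) * b ^ s = Real.exp (s * (Real.log b - x2)) := by
    rw [Real.rpow_def_of_pos hb, ← Real.exp_add]
    congr 1
    ring
  rw [e1, e2]
  rcases le_total x2 (Real.log b) with h1 | h1
  · exact le_add_of_nonneg_of_le (Real.exp_pos _).le
      (Real.one_le_exp (mul_nonneg hs.le (sub_nonneg.2 h1)))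
  · exact le_add_of_le_of_nonneg (Real.one_le_exp (by linarith)) (Real.exp_pos _).le

theorem split {V : Matrix n n ℂ} (hV : V * Vᴴ = 1) {a b : n → ℝ} (ha : ∀ i, 0 < a i)
    (hb : ∀ i, 0 < b i) {s : ℝ} (hs : 0 < s) (x1 x2 : ℝ) (v : n → ℂ) :
    nsq (hf (hlog (fr V a)) (ind (x1 + x2)) *ᵥ v) ≤
      Real.exp (-x1) * qf (fr V a * fr V fun i => b i ^ (-1 : ℝ)) v +
        Real.exp (-(s * x2)) * qf (fr V fun i => b i ^ s) v := by
  have e1 : hlog (fr V a) = fr V fun i => Real.log (a i) := hf_fn hV a _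
  have e2 : hf (hlog (fr V a)) (ind (x1 + x2)) =
      fr V fun i => if x1 + x2 < Real.log (a i) then 1 else 0 := by
    rw [e1, hf_fn hV, fr]
    refine congrArg _ (funext fun i => ?_)
    rw [ind]
    split_ifs <;> simp
  rw [e2, ← qf_ct_mul, fr_ct, fr_mul hV, fr_mul hV, End0A.qf_fr, End0A.qf_fr, End0A.qf_fr,
    Finset.mul_sum, Finset.mul_sum, ← Finset.sum_add_distrib]
  refine Finset.sum_le_sum fun i _ => ?_
  rw [← mul_assoc (Real.exp _), ← mul_assoc (Real.exp _) (b i ^ s), ← add_mul]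
  refine mul_le_mul_of_nonneg_right ?_ (sq_nonneg _)
  have h1 := ha i
  have h2 := hb i
  split_ifs with h
  · rw [one_mul]
    exact point h1 h2 hs h
  · rw [zero_mul]
    positivity
end

omit [Nonempty Q] in
theorem tens_fr (N : ℕ) (U : Matrix (Λ → Q) (Λ → Q) ℂ) (f : (Λ → Q) → ℝ) :
    tens N (fr U f) = fr (tens N U) fun x => ∏ j, f (x j) := by
  have e : tens N (diagonal fun i => (f i : ℂ)) =
      diagonal fun x : Fin N → Λ → Q => ((∏ j, f (x j) : ℝ) : ℂ) := by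
    ext x y
    by_cases h : x = y
    · subst h
      simp [tens]
    · obtain ⟨j, hj⟩ := Function.ne_iff.1 h
      rw [diagonal_apply_ne _ h]
      exact Finset.prod_eq_zero (Finset.mem_univ j) (diagonal_apply_ne _ hj)
  rw [fr, fn, tens_mul, tens_mul, e, ← tens_ct]
  rfl

omit [Nonempty Q] in
theorem tens_pow {N : ℕ} {U : Matrix (Λ → Q) (Λ → Q) ℂ} (hU : U * Uᴴ = 1) {f : (Λ → Q) → ℝ}
    (h0 : ∀ i, 0 ≤ f i) {V : RM Λ Q N} (hV : V * Vᴴ = 1) {b : (Fin N → Λ → Q) → ℝ}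
    (h : tens N (fr U f) = fr V b) (r : ℝ) :
    (fr V fun i => b i ^ r) = tens N (fr U fun i => f i ^ r) := by
  have hT : tens N U * (tens N U)ᴴ = 1 := by rw [tens_ct, ← tens_mul, hU, tens_one]
  have e1 := hf_fn hV b fun x => ((x ^ r : ℝ) : ℂ)
  rw [← h, tens_fr, hf_fn hT] at e1
  rw [tens_fr, fr, ← e1, fr]
  exact congrArg _ (funext fun x => by rw [Real.finsetProd_rpow _ _ fun j _ => h0 _])

theorem qf_tens (N : ℕ) {M : Matrix (Λ → Q) (Λ → Q) ℂ} (hM : M.IsHermitian) (ξ : (Λ → Q) → ℂ) :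
    qf (tens N M) (tv N ξ) = qf M ξ ^ N := by
  have e : star ξ ⬝ᵥ (M *ᵥ ξ) = (qf M ξ : ℂ) := ip_herm hM ξ
  rw [qf, ip, tens_tv, dot_tv, e, ← Complex.ofReal_pow, Complex.ofReal_re]

variable {Y : Finset Λ} {V0 : Matrix ({z // z ∈ Y} → Q) ({z // z ∈ Y} → Q) ℂ}

theorem core {N t : ℕ} (ht : DD Λ Q ≤ t) (hV : V0 * V0ᴴ = 1) {ξ : (Λ → Q) → ℂ}
    {l ν : ({z // z ∈ Y} → Q) → ℝ} (hl : rho Y ξ = fr V0 l) (hν : ∀ i, 0 < ν i)
    (h1 : ∑ i, (ν i)⁻¹ * l i = 1) {b : ℝ} (hb0 : 0 ≤ b) (hb : ∀ i, (ν i)⁻¹ * l i ≤ b) :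
    qf (om Q Y (Finset.univ : Finset (Fin N)) t * tens N (lift Y (fr V0 fun i => (ν i)⁻¹)))
      (tv N ξ) ≤ ∏ m ∈ Finset.range N, ((t : ℝ) + b * m) / (m + 1) := by
  have ht0 : 0 < t := lt_of_lt_of_le DD_pos ht
  set R := lift Y (fr V0 fun i => (Real.sqrt (ν i))⁻¹) with hR
  have hsq : ∀ i, (Real.sqrt (ν i))⁻¹ * (Real.sqrt (ν i))⁻¹ = (ν i)⁻¹ := fun i => by
    rw [← mul_inv, Real.mul_self_sqrt (hν i).le]
  have hRct : Rᴴ = R := EndA.F_ct _
  have hRR : R * R = lift Y (fr V0 fun i => (ν i)⁻¹) := by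
    rw [hR, EndA.F_mul hV]
    exact congrArg _ (congrArg _ (funext hsq))
  have hcR : tens N R * om Q Y (Finset.univ : Finset (Fin N)) t =
      om Q Y Finset.univ t * tens N R := EndA.F_comm _ t
  have hχ : nsq (R *ᵥ ξ) = 1 := by
    rw [← qf_ct_mul, hRct, hRR, EndA.F_qf hV hl, h1]
  have hmg : Le (mg Y (R *ᵥ ξ)) b 1 := by
    rw [mg_mul (loc_lift Y _), mg, hl, EndA.F_ct, EndA.F_mul hV, EndA.F_mul hV]
    refine EndA.F_le hV fun i => ?_
    rw [mul_right_comm, hsq]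
    exact hb i
  have e5 := om_exp (N := N) Y Finset.univ ht0 (fun G' => (om_pd Y G' ht).ps) hχ hb0 hmg
  rw [Finset.card_univ, Fintype.card_fin, ← tens_tv, ← qf_conj, tens_ct, hRct, hcR,
    Matrix.mul_assoc, ← tens_mul, hRR] at e5
  exact e5

theorem main {N t : ℕ} (ht : DD Λ Q ≤ t) (hV : V0 * V0ᴴ = 1) {ξ : (Λ → Q) → ℂ}
    {l ν : ({z // z ∈ Y} → Q) → ℝ} (hl : rho Y ξ = fr V0 l) (hν : ∀ i, 0 < ν i)
    (h1 : ∑ i, (ν i)⁻¹ * l i = 1) {b : ℝ} (hb0 : 0 ≤ b) (hb : ∀ i, (ν i)⁻¹ * l i ≤ b) {s : ℝ}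
    (hs : 0 < s) (x1 x2 : ℝ) :
    nsq (hf (Lw Q Y Finset.univ t) (ind (x1 + x2)) *ᵥ tv N ξ) ≤
      Real.exp (-x1) * ∏ m ∈ Finset.range N, ((t : ℝ) + b * m) / (m + 1) +
        Real.exp (-(s * x2)) * (∑ i, ν i ^ s * l i) ^ N := by
  have hU := EndA.lift_uni hV
  have hom : Pd (om Q Y (Finset.univ : Finset (Fin N)) t) := om_pd Y _ ht
  have hT : Pd (tens N (fr (lift Y V0) fun s => ν (res Y s))) :=
    tens_pd (End0A.pd_fr hU fun _ => hν _)
  obtain ⟨V, a, b', hW, ea, eb⟩ := joint hom.1 hT.1 (by rw [fr_lift]; exact (EndA.F_comm _ t).symm)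
  have p := tens_pow hU (fun _ => (hν _).le) hW eb
  have h2 := split hW (pos_of_pd hW (ea ▸ hom)) (pos_of_pd hW (eb ▸ hT)) hs x1 x2 (tv N ξ)
  rw [← ea, p, p, fr_lift Y V0 fun i => ν i ^ (-1 : ℝ), fr_lift Y V0 fun i => ν i ^ s,
    qf_tens N (EndA.F_ct _), EndA.F_qf hV hl] at h2
  simp only [Real.rpow_neg_one] at h2
  refine h2.trans (add_le_add (mul_le_mul_of_nonneg_left ?_ (Real.exp_pos _).le) le_rfl)
  exact core ht hV hl hν h1 hb0 hb

end TailHA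

theorem tail_hi {N t : ℕ} (ht : DD Λ Q ≤ t) (Y : Finset Λ) {ξ : (Λ → Q) → ℂ} (hξ : nsq ξ = 1)
    {s v : ℝ} (hs : 0 < s) (hs1 : s < 1) (h : Mom Y ξ s v) (x : ℝ) :
    nsq (hf (Lw Q Y Finset.univ t) (ind ((x - entropy Y ξ) * N)) *ᵥ tv N ξ) ≤
      Real.exp (-(x / 2 * N)) * (2 ^ N * ∏ m ∈ Finset.range N, (((DD Λ Q * t : ℕ) : ℝ) + m) / (m + 1)) +
        Real.exp (-((s * x / 2 - v - 1) * N)) := by
  obtain ⟨V0, l, hV, hl, hl0, hl1, -⟩ := ent_basis Y hξ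
  have htR : (0 : ℝ) < t := by exact_mod_cast lt_of_lt_of_le DD_pos ht
  obtain ⟨d, hd⟩ : ∃ d : ℝ, d = Fintype.card ({z // z ∈ Y} → Q) := ⟨_, rfl⟩
  have hd1 : 1 ≤ d := by
    rw [hd]
    exact_mod_cast Fintype.card_pos
  have hdD : d ≤ DD Λ Q := by
    rw [hd]
    exact_mod_cast card_le_DD Y
  set S := entropy Y ξ
  obtain ⟨y, y0, y1, y2⟩ : ∃ y : ℝ, 0 < y ∧ y ≤ 1 / 2 ∧ y ^ s ≤ Real.exp (-(s * S) + v) := by
    refine ⟨min (1 / 2) (Real.exp ((-(s * S) + v) / s)), by positivity, min_le_left _ _, ?_⟩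
    refine (Real.rpow_le_rpow (by positivity) (min_le_right _ _) hs.le).trans ?_
    rw [← Real.exp_mul, div_mul_cancel₀ _ hs.ne']
  obtain ⟨μ, hμ⟩ : ∃ μ : ({z // z ∈ Y} → Q) → ℝ, ∀ i, μ i = l i / 2 + y := ⟨_, fun _ => rfl⟩
  have hμ0 : ∀ i, 0 < μ i := fun i => by linarith [hl0 i, hμ i]
  have hlμ : ∀ i, (μ i)⁻¹ * l i ≤ 2 := fun i => by
    rw [inv_mul_le_iff₀ (hμ0 i)]
    linarith [hμ i]
  obtain ⟨a, ha⟩ : ∃ a : ℝ, a = ∑ i, (μ i)⁻¹ * l i := ⟨_, rfl⟩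
  have ha0 : 0 < a := by
    obtain ⟨i, -, hi⟩ : ∃ i ∈ Finset.univ, l i ≠ 0 :=
      Finset.exists_ne_zero_of_sum_ne_zero (by rw [hl1]; exact one_ne_zero)
    rw [ha]
    exact Finset.sum_pos' (fun j _ => mul_nonneg (inv_pos.2 (hμ0 j)).le (hl0 j))
      ⟨i, Finset.mem_univ _, mul_pos (inv_pos.2 (hμ0 i)) (lt_of_le_of_ne (hl0 i) (Ne.symm hi))⟩
  have hac : a ≤ d * 2 := by
    have := Finset.sum_le_card_nsmul Finset.univ (fun i => (μ i)⁻¹ * l i) 2 fun i _ => hlμ i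
    rwa [Finset.card_univ, nsmul_eq_mul, ← hd, ← ha] at this
  have hm := TailHA.main (N := N) ht hV (ν := fun i => a * μ i) hl (fun i => mul_pos ha0 (hμ0 i))
    (by
      simp only [mul_inv, mul_assoc]
      rw [← Finset.mul_sum, ← ha, inv_mul_cancel₀ ha0.ne'])
    (b := a⁻¹ * 2) (by positivity)
    (fun i => by
      rw [mul_inv, mul_assoc]
      exact mul_le_mul_of_nonneg_left (hlμ i) (inv_pos.2 ha0).le)
    hs (x / 2 * N - N * Real.log a) ((x / 2 - S) * N + N * Real.log a)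
  rw [show x / 2 * N - N * Real.log a + ((x / 2 - S) * N + N * Real.log a) = (x - S) * N by ring]
    at hm
  refine hm.trans (add_le_add ?_ ?_)
  · rw [neg_sub, sub_eq_neg_add, Real.exp_add, Real.exp_nat_mul, Real.exp_log ha0, mul_assoc]
    refine mul_le_mul_of_nonneg_left ?_ (Real.exp_pos _).le
    rw [← Finset.card_range N, ← Finset.prod_const, ← Finset.prod_const, Finset.card_range,
      ← Finset.prod_mul_distrib, ← Finset.prod_mul_distrib]
    refine Finset.prod_le_prod (fun m _ => by positivity) fun m _ => ?_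
    rw [← mul_div_assoc, ← mul_div_assoc]
    refine div_le_div_of_nonneg_right ?_ (by positivity)
    have h4 : a * ((t : ℝ) + a⁻¹ * 2 * m) = a * t + 2 * m := by field_simp
    have h5 : a * t ≤ DD Λ Q * 2 * t :=
      mul_le_mul_of_nonneg_right (hac.trans (by linarith)) htR.le
    rw [h4]
    push_cast
    linarith
  · have h1 : ∑ i, μ i ^ s * l i ≤ 2 * Real.exp (-(s * S) + v) := by
      have h2 : ∀ i, μ i ^ s * l i ≤ l i ^ (1 + s) + y ^ s * l i := fun i => by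
        have h3 : μ i ^ s ≤ l i ^ s + y ^ s :=
          (Real.rpow_le_rpow (hμ0 i).le (by linarith [hl0 i, hμ i]) hs.le).trans
            (Real.rpow_add_le_add_rpow (hl0 i) y0.le hs.le hs1.le)
        rw [Real.rpow_one_add' (hl0 i) (by linarith), mul_comm (l i), ← add_mul]
        exact mul_le_mul_of_nonneg_right h3 (hl0 i)
      refine (Finset.sum_le_sum fun i _ => h2 i).trans ?_
      have h4 := h.1
      rw [mo, sum_eig (rho_herm Y ξ) hV l hl fun z => z ^ (1 + s)] at h4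
      rw [Finset.sum_add_distrib, ← Finset.mul_sum, hl1]
      linarith
    have h5 : ∑ i, (a * μ i) ^ s * l i ≤ Real.exp (s * Real.log a + 1 + (-(s * S) + v)) := by
      simp only [Real.mul_rpow ha0.le (hμ0 _).le, mul_assoc]
      rw [← Finset.mul_sum, Real.exp_add, Real.exp_add, mul_comm s, ← Real.rpow_def_of_pos ha0,
        mul_assoc]
      refine mul_le_mul_of_nonneg_left (h1.trans ?_) (by positivity)
      exact mul_le_mul_of_nonneg_right (by linarith [Real.add_one_le_exp (1 : ℝ)])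
        (Real.exp_pos _).le
    have h6 := pow_le_pow_left₀ (Finset.sum_nonneg fun i _ =>
      mul_nonneg (Real.rpow_nonneg (mul_pos ha0 (hμ0 i)).le s) (hl0 i)) h5 N
    refine (mul_le_mul_of_nonneg_left h6 (Real.exp_pos _).le).trans (le_of_eq ?_)
    rw [← Real.exp_nat_mul, ← Real.exp_add]
    congr 1
    ring

end Vale.Agent.P356G
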