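import Vale.Agent.P356G.Vec0

/- Vector and quadratic form toolkit. All proofs are short: unfold `nr qf ip Bd`, use `nsq_eq`, `cs`,
`dot_mulVec` of P356/Lin, or transport to `EuclideanSpace ℂ n` by `WithLp.toLp 2`. -/

namespace Vale.Agent.P356G

open Matrix Vale.Agent.P356
open scoped ComplexOrder

variable {n m k : Type} [Fintype n] [Fintype m] [Fintype k]

variable [DecidableEq n]

namespace VecA

omit [DecidableEq n] in
theorem nsq_pos {v : n → ℂ} (hv : v ≠ 0) : 0 < nsq v :=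
  lt_of_le_of_ne (nsq_nonneg v) fun h => hv (eq_zero_of_nsq v h.symm)

theorem ps_iff (A : Matrix n n ℂ) : Ps A ↔ A.PosSemidef := by
  rw [posSemidef_iff_dotProduct_mulVec]
  refine and_congr_right fun hA => forall_congr' fun v => ?_
  have e : star v ⬝ᵥ (A *ᵥ v) = (qf A v : ℂ) := ip_herm hA v
  rw [e, Complex.zero_le_real]

theorem pd_iff (A : Matrix n n ℂ) : Pd A ↔ A.PosDef := by
  rw [posDef_iff_dotProduct_mulVec]
  refine and_congr_right fun hA => forall_congr' fun v => ?_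
  have e : star v ⬝ᵥ (A *ᵥ v) = (qf A v : ℂ) := ip_herm hA v
  rw [e, Complex.zero_lt_real]

open scoped MatrixOrder in
theorem fac {A : Matrix n n ℂ} (h : Ps A) : ∃ B : Matrix n n ℂ, A = Bᴴ * B :=
  CStarAlgebra.nonneg_iff_eq_star_mul_self.mp ((ps_iff A).1 h).nonneg

end VecA

theorem SpIn.bd {A : Matrix n n ℂ} {lo hi : ℝ} (h : SpIn A lo hi) (h0 : 0 ≤ lo) : Bd A hi := by
  refine bd_of_qf h.1 fun v => abs_le.2 ⟨?_, (h.2 v).2⟩
  have h1 := h.2 v
  have h2 := mul_nonneg h0 (nsq_nonneg v)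
  linarith [h1.1, h1.2]
theorem SpIn.mono {A : Matrix n n ℂ} {lo hi lo' hi' : ℝ} (h : SpIn A lo hi) (h1 : lo' ≤ lo)
    (h2 : hi ≤ hi') : SpIn A lo' hi' :=
  ⟨h.1, fun v => ⟨(mul_le_mul_of_nonneg_right h1 (nsq_nonneg v)).trans (h.2 v).1,
    (h.2 v).2.trans (mul_le_mul_of_nonneg_right h2 (nsq_nonneg v))⟩⟩
theorem SpIn.pd {A : Matrix n n ℂ} {lo hi : ℝ} (h : SpIn A lo hi) (h0 : 0 < lo) : Pd A :=
  ⟨h.1, fun v hv => (mul_pos h0 (VecA.nsq_pos hv)).trans_le (h.2 v).1⟩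
theorem Pd.spIn {A : Matrix n n ℂ} (h : Pd A) : ∃ lo hi, 0 < lo ∧ lo ≤ hi ∧ SpIn A lo hi := by
  obtain ⟨C, hC⟩ := ((VecA.pd_iff A).1 h).isUnit.exists_left_inv
  obtain ⟨B, hB⟩ := VecA.fac ((VecA.ps_iff A).2 ((VecA.pd_iff A).1 h).posSemidef)
  obtain ⟨r, -, hr⟩ := bd_exists (C * Bᴴ)
  obtain ⟨s, -, hs⟩ := bd_exists A
  have h0 : 0 < r ^ 2 + 1 := by positivity
  refine ⟨(r ^ 2 + 1)⁻¹, max (r ^ 2 + 1)⁻¹ s, inv_pos.2 h0, le_max_left _ _, h.1,
    fun v => ⟨?_, ?_⟩⟩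
  · have h1 := hr.nsq (B *ᵥ v)
    rw [mulVec_mulVec, Matrix.mul_assoc, ← hB, hC, one_mulVec] at h1
    have h2 := nsq_nonneg (B *ᵥ v)
    rw [inv_mul_le_iff₀ h0, hB, qf_ct_mul]
    linarith
  · exact (le_abs_self _).trans ((hs.qf v).trans
      (mul_le_mul_of_nonneg_right (le_max_right _ _) (nsq_nonneg v)))
theorem Pd.ps {A : Matrix n n ℂ} (h : Pd A) : Ps A :=
  (VecA.ps_iff A).2 ((VecA.pd_iff A).1 h).posSemidef
theorem pd_one : Pd (1 : Matrix n n ℂ) := (VecA.pd_iff _).2 PosDef.one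
theorem pd_iff (A : Matrix n n ℂ) : Pd A ↔ A.PosDef := VecA.pd_iff A
theorem ps_iff (A : Matrix n n ℂ) : Ps A ↔ A.PosSemidef := VecA.ps_iff A
theorem ps_ct_mul (X : Matrix m n ℂ) : Ps (Xᴴ * X) :=
  (ps_iff _).2 (posSemidef_conjTranspose_mul_self X)
theorem Ps.conj {A : Matrix m m ℂ} [DecidableEq m] (h : Ps A) (X : Matrix m n ℂ) :
    Ps (Xᴴ * A * X) := (ps_iff _).2 (((ps_iff _).1 h).conjTranspose_mul_mul_same X)
theorem Pd.conj {A X X' : Matrix n n ℂ} (h : Pd A) (hX : X' * X = 1) : Pd (Xᴴ * A * X) := by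
  refine ⟨isHermitian_conjTranspose_mul_mul X h.1, fun v hv => ?_⟩
  rw [qf_conj]
  refine h.2 _ fun h0 => hv ?_
  rw [← one_mulVec v, ← hX, ← mulVec_mulVec, h0, mulVec_zero]
/-- Cauchy-Schwarz for a positive form -/
theorem Ps.cs {A : Matrix n n ℂ} (h : Ps A) (u v : n → ℂ) :
    ‖ip u A v‖ ^ 2 ≤ qf A u * qf A v := by
  obtain ⟨B, rfl⟩ := VecA.fac h
  rw [qf_ct_mul, qf_ct_mul, ip, ← mulVec_mulVec, dot_mulVec, conjTranspose_conjTranspose]
  exact Vale.Agent.P356.cs _ _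
theorem Ps.trace_mul {A B : Matrix n n ℂ} (hA : Ps A) (hB : Ps B) : 0 ≤ (trace (A * B)).re := by
  obtain ⟨C, rfl⟩ := VecA.fac hB
  rw [← Matrix.mul_assoc, trace_mul_cycle]
  exact (Complex.le_def.1 (((ps_iff _).1 hA).mul_mul_conjTranspose_same C).trace_nonneg).1
/-- `A ≤ x B` implies the same for traces against a positive matrix -/
theorem Le.trace_mul {A B K : Matrix n n ℂ} {x : ℝ} (h : Le A x B) (hA : A.IsHermitian)
    (hB : B.IsHermitian) (hK : Ps K) : (trace (A * K)).re ≤ x * (trace (B * K)).re := by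
  have h1 : Ps ((x : ℂ) • B - A) := by
    refine ⟨?_, fun v => ?_⟩
    · rw [IsHermitian, conjTranspose_sub, conjTranspose_smul, hA.eq, hB.eq]
      simp
    · rw [qf_sub, qf_smul]
      exact sub_nonneg.2 (h v)
  have h2 := h1.trace_mul hK
  rw [Matrix.sub_mul, Matrix.smul_mul, trace_sub, trace_smul, smul_eq_mul, Complex.sub_re,
    Complex.re_ofReal_mul] at h2
  exact sub_nonneg.1 h2
theorem Le.trans {A B C : Matrix n n ℂ} {x y : ℝ} (h : Le A x B) (h' : Le B y C) (hx : 0 ≤ x) :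
    Le A (x * y) C := fun v => by
  rw [mul_assoc]
  exact (h v).trans (mul_le_mul_of_nonneg_left (h' v) hx)
theorem Le.mono {A B : Matrix n n ℂ} {x y : ℝ} (h : Le A x B) (hB : Ps B) (hxy : x ≤ y) :
    Le A y B := fun v => (h v).trans (mul_le_mul_of_nonneg_right hxy (hB.2 v))

theorem Prj.qf {P : Matrix n n ℂ} (h : Prj P) (v : n → ℂ) : qf P v = nsq (P *ᵥ v) := by
  rw [← qf_ct_mul, h.1.eq, h.2]
theorem Prj.split {P : Matrix n n ℂ} (h : Prj P) (v : n → ℂ) :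
    nsq v = nsq (P *ᵥ v) + nsq (v - P *ᵥ v) := by
  have h1 : (star v ⬝ᵥ (P *ᵥ v)).re = nsq (P *ᵥ v) := h.qf v
  rw [nsq_sub, h1]
  ring
theorem Prj.bd {P : Matrix n n ℂ} (h : Prj P) : Bd P 1 := fun v => by
  have h1 := h.split v
  have h2 := nsq_nonneg (v - P *ᵥ v)
  rw [nr_le_iff _ _ zero_le_one]
  linarith
theorem Prj.compl {P : Matrix n n ℂ} (h : Prj P) : Prj (1 - P) :=
  ⟨isHermitian_one.sub h.1, by
    rw [Matrix.sub_mul, Matrix.mul_sub, Matrix.mul_sub, h.2]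
    simp⟩
theorem Prj.mul {P P' : Matrix n n ℂ} (h : Prj P) (h' : Prj P') (hc : Commute P P') :
    Prj (P * P') :=
  ⟨by rw [IsHermitian, conjTranspose_mul, h.1.eq, h'.1.eq, hc.eq], by
    rw [Matrix.mul_assoc, ← Matrix.mul_assoc P', ← hc.eq, Matrix.mul_assoc, h'.2,
      ← Matrix.mul_assoc, h.2]⟩

theorem Ap.mono {S : Set (n → ℂ)} {X Y : Matrix n n ℂ} {η η' : ℝ} (h : Ap S X Y η)
    (hη : η ≤ η') : Ap S X Y η' := fun y hy =>
  (h y hy).trans (mul_le_mul_of_nonneg_right hη (nr_nonneg y))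
theorem Ap.sub {S S' : Set (n → ℂ)} {X Y : Matrix n n ℂ} {η : ℝ} (h : Ap S X Y η)
    (hS : S' ⊆ S) : Ap S' X Y η := fun y hy => h y (hS hy)
theorem Ap.symm {S : Set (n → ℂ)} {X Y : Matrix n n ℂ} {η : ℝ} (h : Ap S X Y η) : Ap S Y X η :=
  fun y hy => by
    rw [← neg_sub, neg_mulVec, nr_neg]
    exact h y hy
theorem Ap.trans {S : Set (n → ℂ)} {X Y Z : Matrix n n ℂ} {η η' : ℝ} (h : Ap S X Y η)
    (h' : Ap S Y Z η') : Ap S X Z (η + η') := fun y hy => by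
  rw [← sub_add_sub_cancel X Y Z, add_mulVec, add_mul]
  exact (nr_add _ _).trans (add_le_add (h y hy) (h' y hy))
/-- `X X' - Y Y' = (X - Y) X' + Y (X' - Y')` -/
theorem Ap.mul {S : Set (n → ℂ)} {X Y X' Y' : Matrix n n ℂ} {η η' r : ℝ} (h : Ap S X Y η)
    (h' : Ap S X' Y' η') (hi : Inv S X') (hX : Bd X' r) (hY : Bd Y r) (hη : 0 ≤ η) (hr : 0 ≤ r) :
    Ap S (X * X') (Y * Y') (r * (η + η')) := fun y hy => by
  have e : X * X' - Y * Y' = (X - Y) * X' + Y * (X' - Y') := by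
    rw [Matrix.sub_mul, Matrix.mul_sub, sub_add_sub_cancel]
  rw [e, add_mulVec, ← mulVec_mulVec, ← mulVec_mulVec]
  have h1 := (h _ (hi y hy)).trans (mul_le_mul_of_nonneg_left (hX y) hη)
  have h2 := (hY _).trans (mul_le_mul_of_nonneg_left (h' y hy) hr)
  refine (nr_add _ _).trans ((add_le_add h1 h2).trans (le_of_eq ?_))
  ring
theorem Ap.left {S : Set (n → ℂ)} {X Y Z : Matrix n n ℂ} {η r : ℝ} (h : Ap S X Y η) (hZ : Bd Z r)
    (hr : 0 ≤ r) : Ap S (Z * X) (Z * Y) (r * η) := fun y hy => by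
  rw [← Matrix.mul_sub, ← mulVec_mulVec, mul_assoc]
  exact (hZ _).trans (mul_le_mul_of_nonneg_left (h y hy) hr)
theorem Inv.mul {S : Set (n → ℂ)} {X Y : Matrix n n ℂ} (h : Inv S X) (h' : Inv S Y) :
    Inv S (X * Y) := fun y hy => by
  rw [← mulVec_mulVec]
  exact h _ (h' y hy)

theorem pr_comm (M : ℕ → Matrix n n ℂ) (Z : Matrix n n ℂ) (j : ℕ)
    (h : ∀ i, i < j → Commute Z (M i)) : Commute Z (pr M j) := by
  induction j with
  | zero => exact Commute.one_right Z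
  | succ j ih => exact (ih fun i hi => h i (by omega)).mul_right (h j (by omega))
theorem pr_congr (M M' : ℕ → Matrix n n ℂ) (j : ℕ) (h : ∀ i, i < j → M i = M' i) :
    pr M j = pr M' j := by
  induction j with
  | zero => rfl
  | succ j ih => rw [pr, pr, ih fun i hi => h i (by omega), h j (by omega)]
/-- pulling out one of the commuting factors -/
theorem pr_pull (M : ℕ → Matrix n n ℂ) (j i : ℕ) (hi : i < j)
    (h : ∀ a, a < j → Commute (M i) (M a)) :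
    pr M j = pr (Function.update M i 1) j * M i := by
  induction j with
  | zero => omega
  | succ j ih =>
    rcases Nat.lt_succ_iff_lt_or_eq.1 hi with h1 | rfl
    · rw [pr, pr, ih h1 fun a ha => h a (by omega), Function.update_of_ne h1.ne', Matrix.mul_assoc,
        Matrix.mul_assoc, (h j (by omega)).eq]
    · rw [pr, pr, Function.update_self, Matrix.mul_one,
        pr_congr (Function.update M i 1) M i fun a ha => Function.update_of_ne ha.ne _ _]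

end Vale.Agent.P356G
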