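import Vale.Agent.P356G.Defs

/- Vector and quadratic form toolkit. All proofs are short: unfold `nr qf ip Bd`, use `nsq_eq`, `cs`,
`dot_mulVec` of P356/Lin, or transport to `EuclideanSpace ℂ n` by `WithLp.toLp 2`. -/

namespace Vale.Agent.P356G

open Matrix Vale.Agent.P356
open scoped ComplexOrder

variable {n m k : Type} [Fintype n] [Fintype m] [Fintype k]

namespace Vec0A

theorem nr_eq (v : n → ℂ) : nr v = ‖(WithLp.toLp 2 v : EuclideanSpace ℂ n)‖ := by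
  rw [EuclideanSpace.norm_eq]
  rfl

theorem nsq_re (v : n → ℂ) : (star v ⬝ᵥ v).re = nsq v := by
  rw [← nsq_eq, Complex.ofReal_re]

theorem ip_ct (A : Matrix n n ℂ) (u v : n → ℂ) : ip u Aᴴ v = star (ip v A u) := by
  rw [ip, ip, dot_mulVec, conjTranspose_conjTranspose, star_dotProduct]

theorem hs (M : Matrix m n ℂ) : Bd M (Real.sqrt (∑ i, ∑ j, ‖M i j‖ ^ 2)) := fun v => by
  rw [nr, nr, ← Real.sqrt_mul (Finset.sum_nonneg fun _ _ => Finset.sum_nonneg fun _ _ =>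
    sq_nonneg _)]
  refine Real.sqrt_le_sqrt ?_
  rw [Finset.sum_mul, nsq]
  refine Finset.sum_le_sum fun i _ => ?_
  have h := cs (star (M i)) v
  rw [star_star] at h
  simpa [nsq, mulVec] using h

end Vec0A

theorem nr_nonneg (v : n → ℂ) : 0 ≤ nr v := Real.sqrt_nonneg _

theorem nr_sq (v : n → ℂ) : nr v ^ 2 = nsq v := Real.sq_sqrt (nsq_nonneg v)

theorem nr_zero : nr (0 : n → ℂ) = 0 := by simp [nr, nsq]

theorem nr_add (u v : n → ℂ) : nr (u + v) ≤ nr u + nr v := by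
  rw [Vec0A.nr_eq, Vec0A.nr_eq, Vec0A.nr_eq, WithLp.toLp_add]
  exact norm_add_le _ _

theorem nr_sub (u v : n → ℂ) : nr (u - v) ≤ nr u + nr v := by
  rw [Vec0A.nr_eq, Vec0A.nr_eq, Vec0A.nr_eq, WithLp.toLp_sub]
  exact norm_sub_le _ _

theorem nr_neg (u : n → ℂ) : nr (-u) = nr u := by simp [nr, nsq]

theorem nr_sub_comm (u v : n → ℂ) : nr (u - v) = nr (v - u) := by rw [← nr_neg, neg_sub]

theorem nr_smul (c : ℂ) (v : n → ℂ) : nr (c • v) = ‖c‖ * nr v := by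
  rw [nr, nsq_smul, Real.sqrt_mul (sq_nonneg _), Real.sqrt_sq (norm_nonneg _)]
  rfl

theorem nr_sum {ι : Type} (S : Finset ι) (f : ι → n → ℂ) :
    nr (∑ i ∈ S, f i) ≤ ∑ i ∈ S, nr (f i) :=
  Finset.le_sum_of_subadditive nr nr_zero.le nr_add S f

theorem nr_le_iff (u : n → ℂ) (v : m → ℂ) {c : ℝ} (hc : 0 ≤ c) :
    nr u ≤ c * nr v ↔ nsq u ≤ c ^ 2 * nsq v := by
  rw [← nr_sq, ← nr_sq, ← mul_pow]
  exact (pow_le_pow_iff_left₀ (nr_nonneg _) (mul_nonneg hc (nr_nonneg _)) two_ne_zero).symm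

theorem dot_le (u v : n → ℂ) : ‖star u ⬝ᵥ v‖ ≤ nr u * nr v := by
  refine abs_le_of_sq_le_sq' ?_ (mul_nonneg (nr_nonneg _) (nr_nonneg _)) |>.2
  rw [mul_pow, nr_sq, nr_sq]
  exact cs u v

theorem dot_star (u v : n → ℂ) : star (star u ⬝ᵥ v) = star v ⬝ᵥ u := by
  rw [star_dotProduct, star_star]

theorem nsq_add (u v : n → ℂ) : nsq (u + v) = nsq u + nsq v + 2 * (star u ⬝ᵥ v).re := by
  have e : (star v ⬝ᵥ u).re = (star u ⬝ᵥ v).re := by rw [← dot_star u v]; rfl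
  rw [← Vec0A.nsq_re, ← Vec0A.nsq_re, ← Vec0A.nsq_re, star_add, add_dotProduct, dotProduct_add,
    dotProduct_add, Complex.add_re, Complex.add_re, Complex.add_re, e]
  ring

theorem nsq_sub (u v : n → ℂ) : nsq (u - v) = nsq u + nsq v - 2 * (star u ⬝ᵥ v).re := by
  have e : nsq (-v) = nsq v := by simp [nsq]
  rw [sub_eq_add_neg, nsq_add, e, dotProduct_neg, Complex.neg_re]
  ring

/-- `nsq u ≤ nsq v + e (2 nr v + e)` when `nr (u - v) ≤ e` -/
theorem nsq_near (u v : n → ℂ) {e : ℝ} (h : nr (u - v) ≤ e) :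
    nsq u ≤ nsq v + e * (2 * nr v + e) := by
  have h1 := nr_add v (u - v)
  rw [add_sub_cancel] at h1
  have h2 : nr u ^ 2 ≤ (nr v + e) ^ 2 := pow_le_pow_left₀ (nr_nonneg _) (by linarith) 2
  rw [← nr_sq, ← nr_sq]
  linarith

theorem nsq_add_le (u v : n → ℂ) : nsq (u + v) ≤ 2 * nsq u + 2 * nsq v := by
  have h1 := nsq_add u v
  have h2 := nsq_sub u v
  have h3 := nsq_nonneg (u - v)
  linarith

theorem qf_add (A B : Matrix n n ℂ) (v : n → ℂ) : qf (A + B) v = qf A v + qf B v := by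
  simp [qf, ip, add_mulVec, dotProduct_add]

theorem qf_sub (A B : Matrix n n ℂ) (v : n → ℂ) : qf (A - B) v = qf A v - qf B v := by
  simp [qf, ip, sub_mulVec, dotProduct_sub]

theorem qf_neg (A : Matrix n n ℂ) (v : n → ℂ) : qf (-A) v = -qf A v := by
  simp [qf, ip, neg_mulVec, dotProduct_neg]

theorem qf_zero (v : n → ℂ) : qf (0 : Matrix n n ℂ) v = 0 := by simp [qf, ip]

theorem qf_smul (c : ℝ) (A : Matrix n n ℂ) (v : n → ℂ) : qf ((c : ℂ) • A) v = c * qf A v := by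
  simp [qf, ip, smul_mulVec, dotProduct_smul]

theorem qf_sum {ι : Type} (S : Finset ι) (A : ι → Matrix n n ℂ) (v : n → ℂ) :
    qf (∑ i ∈ S, A i) v = ∑ i ∈ S, qf (A i) v := by
  classical
  induction S using Finset.induction_on with
  | empty => simp [qf_zero]
  | insert a S ha ih => rw [Finset.sum_insert ha, Finset.sum_insert ha, qf_add, ih]

theorem qf_one [DecidableEq n] (v : n → ℂ) : qf (1 : Matrix n n ℂ) v = nsq v := by
  rw [qf, ip, one_mulVec, Vec0A.nsq_re]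

theorem qf_vsmul (A : Matrix n n ℂ) (c : ℂ) (v : n → ℂ) : qf A (c • v) = ‖c‖ ^ 2 * qf A v := by
  have e : ip (c • v) A (c • v) = ((‖c‖ ^ 2 : ℝ) : ℂ) * ip v A v := by
    rw [ip, ip, mulVec_smul, star_smul, smul_dotProduct, dotProduct_smul, smul_smul, smul_eq_mul,
      Complex.star_def, Complex.conj_mul', Complex.ofReal_pow]
  rw [qf, e, Complex.re_ofReal_mul, qf]

theorem qf_conj (A : Matrix m m ℂ) (X : Matrix m n ℂ) (v : n → ℂ) :
    qf (Xᴴ * A * X) v = qf A (X *ᵥ v) := by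
  rw [qf, qf, ip, ip, ← mulVec_mulVec, ← mulVec_mulVec, dot_mulVec, conjTranspose_conjTranspose]

theorem qf_ct_mul (X : Matrix m n ℂ) (v : n → ℂ) : qf (Xᴴ * X) v = nsq (X *ᵥ v) := by
  rw [qf, ip, ← mulVec_mulVec, dot_mulVec, conjTranspose_conjTranspose, Vec0A.nsq_re]

theorem qf_ct (A : Matrix n n ℂ) (v : n → ℂ) : qf Aᴴ v = qf A v := by
  rw [qf, qf, Vec0A.ip_ct]
  rfl

theorem qf_vadd {A : Matrix n n ℂ} (hA : A.IsHermitian) (u v : n → ℂ) :
    qf A (u + v) = qf A u + qf A v + 2 * (ip u A v).re := by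
  have e : (ip v A u).re = (ip u A v).re := by
    conv_lhs => rw [← hA.eq, Vec0A.ip_ct]
    rfl
  have e2 : ip (u + v) A (u + v) = ip u A u + ip v A v + ip u A v + ip v A u := by
    simp only [ip, mulVec_add, star_add, add_dotProduct, dotProduct_add]
    ring
  rw [qf, qf, qf, e2, Complex.add_re, Complex.add_re, Complex.add_re, e]
  ring

theorem ip_herm {A : Matrix n n ℂ} (hA : A.IsHermitian) (v : n → ℂ) :
    ip v A v = (qf A v : ℂ) := by
  have e : star (ip v A v) = ip v A v := by rw [← Vec0A.ip_ct, hA.eq]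
  exact (Complex.conj_eq_iff_re.1 e).symm

theorem ip_ct (A : Matrix n n ℂ) (u v : n → ℂ) : ip u Aᴴ v = star (ip v A u) := Vec0A.ip_ct A u v

theorem herm_ext {A B : Matrix n n ℂ} (hA : A.IsHermitian) (hB : B.IsHermitian)
    (h : ∀ v, qf A v = qf B v) : A = B := by
  classical
  have hC : (A - B).IsHermitian := hA.sub hB
  have h0 : ∀ v, qf (A - B) v = 0 := fun v => by rw [qf_sub, h, sub_self]
  have h1 : ∀ v, (A - B) *ᵥ v = 0 := fun v => by
    have h2 := qf_vadd hC ((A - B) *ᵥ v) v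
    rw [h0, h0, h0, ip, Vec0A.nsq_re] at h2
    exact eq_zero_of_nsq _ (by linarith)
  refine sub_eq_zero.1 ?_
  ext i j
  have := congrFun (h1 (Pi.single j 1)) i
  simpa using this

theorem Bd.mono {M : Matrix m n ℂ} {r s : ℝ} (h : Bd M r) (hrs : r ≤ s) : Bd M s :=
  fun v => (h v).trans (mul_le_mul_of_nonneg_right hrs (nr_nonneg v))

theorem Bd.mul {M : Matrix m n ℂ} {M' : Matrix n k ℂ} {r s : ℝ} (h : Bd M r) (h' : Bd M' s)
    (hr : 0 ≤ r) : Bd (M * M') (r * s) := fun v => by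
  rw [← mulVec_mulVec, mul_assoc]
  exact (h _).trans (mul_le_mul_of_nonneg_left (h' v) hr)

theorem Bd.add {M M' : Matrix m n ℂ} {r s : ℝ} (h : Bd M r) (h' : Bd M' s) :
    Bd (M + M') (r + s) := fun v => by
  rw [add_mulVec, add_mul]
  exact (nr_add _ _).trans (add_le_add (h v) (h' v))

theorem Bd.sub {M M' : Matrix m n ℂ} {r s : ℝ} (h : Bd M r) (h' : Bd M' s) :
    Bd (M - M') (r + s) := fun v => by
  rw [sub_mulVec, add_mul]
  exact (nr_sub _ _).trans (add_le_add (h v) (h' v))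

theorem Bd.smul {M : Matrix m n ℂ} {r : ℝ} (h : Bd M r) (c : ℂ) : Bd (c • M) (‖c‖ * r) := fun v => by
  rw [smul_mulVec, nr_smul, mul_assoc]
  exact mul_le_mul_of_nonneg_left (h v) (norm_nonneg _)

theorem Bd.sum {ι : Type} (S : Finset ι) {M : ι → Matrix m n ℂ} {r : ι → ℝ}
    (h : ∀ i ∈ S, Bd (M i) (r i)) : Bd (∑ i ∈ S, M i) (∑ i ∈ S, r i) := fun v => by
  rw [sum_mulVec, Finset.sum_mul]
  exact (nr_sum _ _).trans (Finset.sum_le_sum fun i hi => h i hi v)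

theorem Bd.ct {M : Matrix m n ℂ} {r : ℝ} (h : Bd M r) (hr : 0 ≤ r) : Bd Mᴴ r := by
  intro v
  have e : nsq (Mᴴ *ᵥ v) = (star v ⬝ᵥ (M *ᵥ (Mᴴ *ᵥ v))).re := by
    rw [dot_mulVec, Vec0A.nsq_re]
  have h1 : nr (Mᴴ *ᵥ v) ^ 2 ≤ nr v * (r * nr (Mᴴ *ᵥ v)) := by
    rw [nr_sq, e]
    exact (Complex.re_le_norm _).trans ((dot_le _ _).trans
      (mul_le_mul_of_nonneg_left (h _) (nr_nonneg _)))
  have h0 := nr_nonneg (Mᴴ *ᵥ v)
  have h2 := mul_nonneg hr (nr_nonneg v)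
  rcases h0.eq_or_lt with h3 | h3
  · rw [← h3]
    exact h2
  · nlinarith

theorem bd_one [DecidableEq n] : Bd (1 : Matrix n n ℂ) 1 := fun v => by simp

theorem bd_uni [DecidableEq n] {U : Matrix n n ℂ} (hU : U * Uᴴ = 1) : Bd U 1 := fun v => by
  rw [nr, nsq_uni hU, one_mul, nr]

theorem bd_exists (M : Matrix m n ℂ) : ∃ r, 0 ≤ r ∧ Bd M r :=
  ⟨_, Real.sqrt_nonneg _, Vec0A.hs M⟩

theorem bd_iff_ctr (M : Matrix m n ℂ) : Bd M 1 ↔ Ctr M := by
  refine forall_congr' fun v => ?_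
  rw [nr_le_iff _ _ zero_le_one, one_pow, one_mul]

theorem Bd.nsq {M : Matrix m n ℂ} {r : ℝ} (h : Bd M r) (v : n → ℂ) :
    nsq (M *ᵥ v) ≤ r ^ 2 * nsq v := by
  rw [← nr_sq, ← nr_sq, ← mul_pow]
  exact pow_le_pow_left₀ (nr_nonneg _) (h v) 2

theorem Bd.ip {M : Matrix n n ℂ} {r : ℝ} (h : Bd M r) (u v : n → ℂ) :
    ‖ip u M v‖ ≤ r * (nr u * nr v) := by
  refine (dot_le _ _).trans ((mul_le_mul_of_nonneg_left (h v) (nr_nonneg u)).trans_eq ?_)
  ring

theorem Bd.qf {M : Matrix n n ℂ} {r : ℝ} (h : Bd M r) (v : n → ℂ) :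
    |qf M v| ≤ r * Vale.Agent.P356.nsq v := by
  rw [← nr_sq, sq]
  exact (Complex.abs_re_le_norm _).trans (h.ip v v)

theorem Bd.entry [DecidableEq n] {M : Matrix m n ℂ} {r : ℝ} (h : Bd M r) (i : m) (j : n) :
    ‖M i j‖ ≤ r := by
  have h1 := h (Pi.single j 1)
  have e : nr (Pi.single j 1 : n → ℂ) = 1 := by
    rw [nr, P356.nsq, Finset.sum_eq_single j (fun b _ hb => by simp [hb]) (by simp)]
    simp
  rw [e, mul_one] at h1
  refine le_trans ?_ h1
  refine Real.le_sqrt_of_sq_le ?_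
  have h2 := Finset.single_le_sum (f := fun s => ‖(M *ᵥ Pi.single j 1) s‖ ^ 2)
    (fun _ _ => sq_nonneg _) (Finset.mem_univ i)
  simpa [P356.nsq] using h2

/-- Hilbert-Schmidt bound -/
theorem bd_hs (M : Matrix m n ℂ) : Bd M (Real.sqrt (∑ i, ∑ j, ‖M i j‖ ^ 2)) := Vec0A.hs M

theorem bd_rank (x : m → ℂ) (y : n → ℂ) : Bd (vecMulVec x (star y)) (nr x * nr y) := fun v => by
  have e : vecMulVec x (star y) *ᵥ v = (star y ⬝ᵥ v) • x := by
    ext i
    simp [mulVec, vecMulVec_apply, dotProduct, Finset.mul_sum, mul_comm, mul_left_comm]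
  rw [e, nr_smul]
  refine (mul_le_mul_of_nonneg_right (dot_le y v) (nr_nonneg x)).trans_eq ?_
  ring

/-- a Hermitian matrix with `|qf| ≤ r nsq` has norm at most `r` (polarisation) -/
theorem bd_of_qf {A : Matrix n n ℂ} (hA : A.IsHermitian) {r : ℝ}
    (h : ∀ v, |qf A v| ≤ r * nsq v) : Bd A r := by
  have pol : ∀ u v, 2 * (ip u A v).re ≤ r * (nsq u + nsq v) := fun u v => by
    have h1 := qf_vadd hA u v
    have h2 := qf_vadd hA u (-v)
    have e1 : qf A (-v) = qf A v := by simp [qf, ip, mulVec_neg]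
    have e2 : (ip u A (-v)).re = -(ip u A v).re := by simp [ip, mulVec_neg]
    have h3 := (abs_le.1 (h (u + v))).2
    have h4 := (abs_le.1 (h (u + -v))).1
    rw [nsq_add] at h3
    rw [← sub_eq_add_neg, nsq_sub, sub_eq_add_neg u] at h4
    rw [e1, e2] at h2
    linarith
  intro v
  have ha := nr_nonneg v
  have hb := nr_nonneg (A *ᵥ v)
  have h0 : 0 ≤ r * nr v ^ 2 := by
    rw [nr_sq]
    exact (abs_nonneg _).trans (h v)
  have h1 := pol ((nr v : ℂ) • (A *ᵥ v)) ((nr (A *ᵥ v) : ℂ) • v)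
  have e : (ip ((nr v : ℂ) • (A *ᵥ v)) A ((nr (A *ᵥ v) : ℂ) • v)).re =
      nr v * nr (A *ᵥ v) * nr (A *ᵥ v) ^ 2 := by
    rw [ip, mulVec_smul, star_smul, smul_dotProduct, dotProduct_smul, ← nsq_eq, smul_smul,
      Complex.star_def, Complex.conj_ofReal, smul_eq_mul, ← Complex.ofReal_mul,
      ← Complex.ofReal_mul, Complex.ofReal_re, nr_sq]
  rw [e, nsq_smul, nsq_smul, ← nr_sq, ← nr_sq, Complex.norm_real, Complex.norm_real,
    Real.norm_of_nonneg ha, Real.norm_of_nonneg hb] at h1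
  rcases ha.eq_or_lt with h2 | h2
  · have hv : v = 0 := eq_zero_of_nsq v (by rw [← nr_sq, ← h2]; simp)
    rw [hv, mulVec_zero, nr_zero, mul_zero]
  rcases hb.eq_or_lt with h3 | h3
  · rw [← h3]
    by_contra h4
    nlinarith [mul_pos (neg_pos.2 (not_le.1 h4)) h2]
  · have h5 : 0 < nr v * nr (A *ᵥ v) ^ 2 := by positivity
    refine le_of_mul_le_mul_left ?_ h5
    linarith

variable [DecidableEq n]

end Vale.Agent.P356G
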